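import Crest.Agent.R175.Art

/-!
# R175: positive vectors for the Cartan matrix.
-/

set_option autoImplicit false

namespace Crest.Agent.R175

open CoxeterSystem Crest.Agent.R61 Crest.GroupTheory

variable {S : Type} [Fintype S] [DecidableEq S] {M : CoxeterMatrix S} {J : Finset S}

theorem exists_decomp (h : ¬ Irr M J) : ∃ J₁ J₂ : Finset S, J = J₁ ∪ J₂ ∧ Disjoint J₁ J₂ ∧
    J₁.Nonempty ∧ J₂.Nonempty ∧ ∀ i ∈ J₁, ∀ j ∈ J₂, aa M i j = 0 := by
  simp only [Irr, not_forall, not_exists, not_and, not_not] at h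
  obtain ⟨J₁, h1, h2, h3, h4⟩ := h
  refine ⟨J₁, J \ J₁, (Finset.union_sdiff_of_subset h1).symm, Finset.disjoint_sdiff, h2,
    Finset.sdiff_nonempty.2 fun h5 => h3 (Finset.Subset.antisymm h1 h5), fun i hi j hj => ?_⟩
  exact h4 i hi j (Finset.mem_sdiff.1 hj).1 (Finset.mem_sdiff.1 hj).2

theorem sph_of_card_le_one (h : J.card ≤ 1) : Sph M J := by
  refine ⟨fun _ => 1, fun i hi => ⟨one_pos, ?_⟩⟩
  rw [Finset.sum_eq_zero fun j hj => by
    rw [Finset.card_le_one.1 h j hj i hi, aa_self, zero_mul]]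
  norm_num

theorem Irr.exists_nb (h : Irr M J) (h2 : 2 ≤ J.card) {s : S} (hs : s ∈ J) :
    ∃ t ∈ J, aa M s t ≠ 0 := by
  obtain ⟨i, hi, j, hj, -, h3⟩ := h {s} (Finset.singleton_subset_iff.2 hs)
    (Finset.singleton_nonempty s) fun e => by
      rw [← e, Finset.card_singleton] at h2
      omega
  rw [Finset.mem_singleton.1 hi] at h3
  exact ⟨j, hj, h3⟩

/-- apply `Irr` to the set of the `s` that can be reached from `j` -/
theorem Irr.reflTransGen (h : Irr M J) (j s : {s // s ∈ J}) :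
    Relation.ReflTransGen (fun a b => kk (res M J) a b ≠ 0) j s := by
  classical
  by_contra h0
  obtain ⟨a, ha, b, hb, h1, h2⟩ := h (J.filter fun s => ∃ hs : s ∈ J,
      Relation.ReflTransGen (fun a b => kk (res M J) a b ≠ 0) j ⟨s, hs⟩) (Finset.filter_subset _ _)
    ⟨j.1, Finset.mem_filter.2 ⟨j.2, j.2, .refl⟩⟩ fun e => h0 (Finset.mem_filter.1 (e.ge s.2)).2.2
  obtain ⟨-, ha', h3⟩ := Finset.mem_filter.1 ha
  refine h1 (Finset.mem_filter.2 ⟨hb, hb, h3.tail ?_⟩)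
  rw [aa_of_ne (ne_of_aa_ne_zero h2)] at h2
  rw [kk_res]
  exact neg_ne_zero.1 h2

theorem pf_grow (h : Irr M J) (I T : Finset S) (n : ℕ) : ∀ p : S → ℝ,
    (J.filter fun j => ¬ 0 < p j).card = n → (∀ j, 0 ≤ p j) → (∃ j ∈ J, 0 < p j) →
    (∀ j ∈ I, 0 < p j) → (∀ j ∈ T, p j = 0) →
    (∀ j ∈ J, j ∉ I → 2 * p j ≤ ∑ k ∈ J, aa M j k * p k) →
    ∃ p : S → ℝ, (∀ j, 0 ≤ p j) ∧ (∀ j ∈ J, j ∉ I → 2 * p j ≤ ∑ k ∈ J, aa M j k * p k) ∧
      (((∀ j ∈ J, 0 < p j) ∧ ∀ j ∈ T, p j = 0) ∨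
        ∃ j₀ ∈ T, j₀ ∈ J ∧ 0 < p j₀ ∧ ∀ j ∈ T, j ≠ j₀ → p j = 0) := by
  induction n using Nat.strong_induction_on with
  | _ n ih =>
  intro p hn h0 hne hI hT hp
  by_cases e : (J.filter fun j => 0 < p j) = J
  · exact ⟨p, h0, hp, Or.inl ⟨fun j hj => (Finset.mem_filter.1 (e.ge hj)).2, hT⟩⟩
  obtain ⟨a, ha, j, hj, h1, h2⟩ := h _ (Finset.filter_subset _ _)
    (hne.imp fun j hj => Finset.mem_filter.2 hj) e
  obtain ⟨ha1, ha2⟩ := Finset.mem_filter.1 ha
  have hj0 : ¬ 0 < p j := fun h3 => h1 (Finset.mem_filter.2 ⟨hj, h3⟩)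
  have haj : a ≠ j := ne_of_aa_ne_zero h2
  have h3 : 0 < aa M j a * p a / 2 := by
    have : 0 < aa M j a := lt_of_le_of_ne (aa_nonneg j a) (by rw [aa_symm]; exact h2.symm)
    positivity
  set p' := Function.update p j (aa M j a * p a / 2) with hp'
  have e1 : p' j = aa M j a * p a / 2 := Function.update_self ..
  have e2 : ∀ k, k ≠ j → p' k = p k := fun k hk => Function.update_of_ne hk ..
  have hle : ∀ k, p k ≤ p' k := fun k => by
    by_cases hk : k = j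
    · rw [hk, e1]; linarith [not_lt.1 hj0]
    · rw [e2 k hk]
  have h0' : ∀ k, 0 ≤ p' k := fun k => (h0 k).trans (hle k)
  have hq : ∀ k ∈ J, k ∉ I → 2 * p' k ≤ ∑ l ∈ J, aa M k l * p' l := fun k hk hkI => by
    by_cases hkj : k = j
    · have := Finset.single_le_sum (f := fun l => aa M j l * p' l)
        (fun l _ => mul_nonneg (aa_nonneg j l) (h0' l)) ha1
      rw [e2 a haj] at this
      rw [hkj, e1]
      linarith
    · rw [e2 k hkj]
      exact (hp k hk hkI).trans (Finset.sum_le_sum fun l _ =>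
        mul_le_mul_of_nonneg_left (hle l) (aa_nonneg k l))
  by_cases hjT : j ∈ T
  · exact ⟨p', h0', hq, Or.inr ⟨j, hjT, hj, e1 ▸ h3, fun k hk hkj => (e2 k hkj).trans (hT k hk)⟩⟩
  refine ih _ (hn ▸ Finset.card_lt_card ⟨fun k hk => ?_, fun h4 => ?_⟩) p' rfl h0'
    ⟨j, hj, e1 ▸ h3⟩ (fun k hk => (hI k hk).trans_le (hle k))
    (fun k hk => (e2 k fun h4 => hjT (h4 ▸ hk)).trans (hT k hk)) hq
  · obtain ⟨h4, h5⟩ := Finset.mem_filter.1 hk
    exact Finset.mem_filter.2 ⟨h4, fun h6 => h5 (h6.trans_le (hle k))⟩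
  · exact (Finset.mem_filter.1 (h4 (Finset.mem_filter.2 ⟨hj, hj0⟩))).2 (e1 ▸ h3)

/-- Growth.  Among the `p ≥ 0` that vanish on `T`, are positive on `I` and satisfy the inequality
outside `I` (the indicator function of `I` is one) take one whose support in `J` has maximal
cardinality.  If the support `R` is not `J`, `Irr` gives `a ∈ R`, `j ∉ R` with `aa a j ≠ 0`;
`p + (aa j a * p a / 2) • e_j` satisfies the inequalities; so `j ∈ T`. -/
theorem Irr.grow (h : Irr M J) {I T : Finset S} (hI : I ⊆ J) (hne : I.Nonempty)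
    (hd : Disjoint I T) :
    ∃ p : S → ℝ, (∀ j, 0 ≤ p j) ∧ (∀ j ∈ J, j ∉ I → 2 * p j ≤ ∑ k ∈ J, aa M j k * p k) ∧
      (((∀ j ∈ J, 0 < p j) ∧ ∀ j ∈ T, p j = 0) ∨
        ∃ j₀ ∈ T, j₀ ∈ J ∧ 0 < p j₀ ∧ ∀ j ∈ T, j ≠ j₀ → p j = 0) := by
  obtain ⟨i, hi⟩ := hne
  refine pf_grow h I T _ (fun j => if j ∈ I then 1 else 0) rfl (fun j => ?_)
    ⟨i, hI hi, by simp [hi]⟩ (fun j hj => by simp [hj])
    (fun j hj => if_neg (Finset.disjoint_right.1 hd hj)) fun j _ hj => ?_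
  · split_ifs <;> norm_num
  · rw [if_neg hj, mul_zero]
    refine Finset.sum_nonneg fun k _ => mul_nonneg (aa_nonneg j k) ?_
    split_ifs <;> norm_num

theorem Irr.pathVec (h : Irr M J) {I : Finset S} (hI : I ⊆ J) (hne : I.Nonempty) :
    ∃ c : S → ℝ, (∀ j ∈ J, 0 < c j) ∧ ∀ j ∈ J, j ∉ I → 2 * c j ≤ ∑ k ∈ J, aa M j k * c k := by
  obtain ⟨p, -, h1, h2 | ⟨j, hj, -⟩⟩ := h.grow hI hne (Finset.disjoint_empty_right I)
  · exact ⟨p, h2.1, h1⟩
  · exact absurd hj (Finset.notMem_empty j)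

/-- `grow` with `I = {i}`; the first alternative is impossible -/
theorem Irr.pathVec_sel (h : Irr M J) {i : S} (hi : i ∈ J) {T : Finset S} (hT : T ⊆ J.erase i)
    (hne : T.Nonempty) : ∃ j₀ ∈ T, ∃ p : S → ℝ, (∀ j, 0 ≤ p j) ∧ 0 < p j₀ ∧
      (∀ j ∈ T, j ≠ j₀ → p j = 0) ∧ ∀ j ∈ J, j ≠ i → 2 * p j ≤ ∑ k ∈ J, aa M j k * p k := by
  obtain ⟨p, h0, h1, h2 | ⟨j, hj, -, h2, h3⟩⟩ := h.grow (T := T) (Finset.singleton_subset_iff.2 hi)
    (Finset.singleton_nonempty i)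
    (Finset.disjoint_singleton_left.2 fun h4 => (Finset.mem_erase.1 (hT h4)).1 rfl)
  · obtain ⟨j, hj⟩ := hne
    exact absurd (h2.2 j hj) (h2.1 j (Finset.mem_erase.1 (hT hj)).2).ne'
  · exact ⟨j, hj, p, h0, h2, h3, fun k hk hki => h1 k hk (Finset.notMem_singleton.2 hki)⟩

theorem pf_max {ι : Type} [Fintype ι] [DecidableEq ι] [Nonempty ι] (B : ι → ι → ℝ)
    (hB : ∀ i j, B i j = B j i) : ∃ (c : ι → ℝ) (μ : ℝ), (∀ i, 0 ≤ c i) ∧ (∃ i, 0 < c i) ∧
      (∀ j, ∑ k, B j k * c k ≤ μ) ∧ ∀ j, 0 < c j → ∑ k, B j k * c k = μ := by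
  obtain ⟨c, hc, hmax⟩ := (isCompact_stdSimplex ℝ ι).exists_isMaxOn
    ⟨_, single_mem_stdSimplex ℝ (Classical.arbitrary ι)⟩
    (f := fun x : ι → ℝ => ∑ j, x j * ∑ k, B j k * x k) (Continuous.continuousOn (by fun_prop))
  set μ := ∑ j, c j * ∑ k, B j k * c k with hμ
  have h1 : ∀ j, ∑ k, B j k * c k ≤ μ := by
    intro j
    set L := ∑ k, B j k * c k with hL
    have h2 : ∀ t : ℝ, 0 < t → t ≤ 1 → 2 * (L - μ) ≤ t * (2 * L - μ - B j j) := by
      intro t ht ht1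
      have h3 := hmax (convex_stdSimplex ℝ ι hc (single_mem_stdSimplex ℝ j)
        (sub_nonneg.2 ht1) ht.le (sub_add_cancel 1 t))
      have e1 : ∀ i, ∑ k, B i k * ((1 - t) • c + t • (Pi.single j 1 : ι → ℝ)) k =
          (1 - t) * ∑ k, B i k * c k + t * B i j := fun i => by
        simp only [Pi.add_apply, Pi.smul_apply, smul_eq_mul, mul_add, Finset.sum_add_distrib,
          Pi.single_apply, mul_ite, mul_one, mul_zero, Finset.sum_ite_eq', Finset.mem_univ, if_true,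
          Finset.mul_sum, mul_left_comm (1 - t), mul_comm (B i j) t]
      have e2 : ∑ i, c i * B i j = L := Finset.sum_congr rfl fun i _ => by rw [hB, mul_comm]
      have e3 : ∑ i, ((1 - t) • c + t • (Pi.single j 1 : ι → ℝ)) i *
          ((1 - t) * ∑ k, B i k * c k + t * B i j) =
          (1 - t) * ((1 - t) * μ + t * L) + t * ((1 - t) * L + t * B j j) := by
        simp only [Pi.add_apply, Pi.smul_apply, smul_eq_mul, add_mul, Finset.sum_add_distrib,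
          Pi.single_apply, mul_ite, ite_mul, mul_one, mul_zero, zero_mul, Finset.sum_ite_eq',
          Finset.mem_univ, if_true]
        congr 1
        rw [← e2, hμ, Finset.mul_sum, Finset.mul_sum, ← Finset.sum_add_distrib, Finset.mul_sum]
        exact Finset.sum_congr rfl fun i _ => by ring
      simp only [Set.mem_ofPred_eq, e1, e3] at h3
      refine le_of_mul_le_mul_left ?_ ht
      nlinarith
    by_contra h3
    have h4 : 0 < L - μ := sub_pos.2 (not_le.1 h3)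
    have h5 := h2 1 one_pos le_rfl
    have h6 : 0 < 2 * L - μ - B j j := by linarith
    have h7 := h2 ((L - μ) / (2 * L - μ - B j j)) (div_pos h4 h6)
      ((div_le_one h6).2 (by linarith))
    rw [div_mul_cancel₀ _ h6.ne'] at h7
    linarith
  refine ⟨c, μ, hc.1, ?_, h1, fun j hj => ?_⟩
  · by_contra h2
    have h3 := hc.2
    rw [Finset.sum_eq_zero fun i _ => le_antisymm (not_lt.1 fun h4 => h2 ⟨i, h4⟩) (hc.1 i)] at h3
    exact zero_ne_one h3
  · have h2 : ∑ i, c i * (μ - ∑ k, B i k * c k) = 0 := by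
      simp only [mul_sub, Finset.sum_sub_distrib, ← Finset.sum_mul, hc.2, one_mul, ← hμ, sub_self]
    have h3 := (Finset.sum_eq_zero_iff_of_nonneg fun i _ =>
      mul_nonneg (hc.1 i) (sub_nonneg.2 (h1 i))).1 h2 j (Finset.mem_univ j)
    exact (sub_eq_zero.1 ((mul_eq_zero.1 h3).resolve_left hj.ne')).symm

/-- Perron-Frobenius.  Maximise the quadratic form of the symmetric non-negative matrix `aa` on the
unit sphere of `EuclideanSpace ℝ J`; with `x` also `|x|` is a maximiser, hence an eigenvector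
(`IsSelfAdjoint.hasEigenvector_of_isMaxOn`, or directly: `λ |x|² - q x` is a non-negative quadratic
form that vanishes at `|x|`).  So `A c = λ c`, `c ≥ 0`, `c ≠ 0`; `c > 0` by `Irr` (if `c j = 0` then
`(A c) j = 0`).  If `λ < 2` then `Sph`. -/
theorem Irr.dichotomy (h : Irr M J) : Sph M J ∨
    ∃ c : S → ℝ, ∀ j ∈ J, 0 < c j ∧ 2 * c j ≤ ∑ k ∈ J, aa M j k * c k := by
  rcases J.eq_empty_or_nonempty with rfl | hne
  · exact Or.inl (sph_of_card_le_one (by simp))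
  have := hne.to_subtype
  obtain ⟨c, μ, h0, ⟨i, hi⟩, h1, h2⟩ := pf_max (fun i j => -kk (res M J) i j) fun i j => by
    simp only [kk, (res M J).symmetric i j]
  set x : S → ℝ := fun s => if hs : s ∈ J then c ⟨s, hs⟩ else 0 with hx
  have e1 : ∀ k : {s // s ∈ J}, x k.1 = c k := fun k => dif_pos k.2
  have hx0 : ∀ s, 0 ≤ x s := fun s => by
    simp only [hx]
    split_ifs
    · exact h0 _
    · exact le_rfl
  have e2 : ∀ j : {s // s ∈ J}, ∑ k, -kk (res M J) j k * c k =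
      ∑ k ∈ J, aa M j.1 k * x k - 2 * x j.1 := fun j => by
    have := sum_kk_res (M := M) J j x
    simp only [e1] at this
    simp only [neg_mul, Finset.sum_neg_distrib, this, e1, neg_sub]
  simp only [e2] at h1 h2
  have h3 : ∀ j, 0 ≤ ∑ k ∈ J, aa M j k * x k := fun j =>
    Finset.sum_nonneg fun k _ => mul_nonneg (aa_nonneg j k) (hx0 k)
  rcases lt_or_ge μ 0 with hμ | hμ
  · exact Or.inl ⟨x, fun j hj => ⟨by linarith [h1 ⟨j, hj⟩, h3 j], by linarith [h1 ⟨j, hj⟩]⟩⟩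
  · obtain ⟨p, -, h4, h5 | ⟨j, hj, -⟩⟩ := pf_grow h ∅ ∅ _ x rfl hx0 ⟨i.1, i.2, (e1 i).symm ▸ hi⟩
      (by simp) (by simp) fun j hj _ => by
        rcases (hx0 j).eq_or_lt with h4 | h4
        · linarith [h3 j]
        · linarith [h2 ⟨j, hj⟩ (e1 ⟨j, hj⟩ ▸ h4)]
    · exact Or.inr ⟨p, fun j hj => ⟨h5.1 j hj, h4 j hj (Finset.notMem_empty j)⟩⟩
    · exact absurd hj (Finset.notMem_empty j)

end Crest.Agent.R175
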