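import Crest.Agent.R175.Join
import Crest.Agent.R175.PF

/-!
# R175: the one-sided statements `HasC1`, `HasL1`.
-/

set_option autoImplicit false

namespace Crest.Agent.R175

open CoxeterSystem Crest.Agent.R61 Crest.GroupTheory

variable {S : Type} [Fintype S] [DecidableEq S] {M : CoxeterMatrix S}
  {n : ArtinGroup M → S → ℤ → ℝ} {J : Finset S} {c g : ArtinGroup M} {lo : ℤ} {b : S → ℝ}

/-- the function on the apartment of `c` -/
noncomputable def aptF (n : ArtinGroup M → S → ℤ → ℝ) (J : Finset S) (c : ArtinGroup M) (lo : ℤ)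
    (b : S → ℝ) (w : WJ M J) (i : {s // s ∈ J}) : ℝ := n (c * LJ M J w) i.1 lo - b i.1

theorem C1_bd {P : ArtinGroup M → S → Prop} (h : VInv P) {g₀ : ArtinGroup M}
    (hg : g₀⁻¹ * g ∈ AP M J) (hb : Bd (M := M) J (P g₀)) : Bd (M := M) J (P g) := by
  have := Bd.of_mem h hg hb
  rwa [mul_inv_cancel_left] at this

theorem C1_sub (h : NAx n) {g₀ : ArtinGroup M} (hg : g₀⁻¹ * g ∈ AP M J) {k : ℤ}
    (hs : Sub n J g₀ k b) : Sub n J g k b := by
  have := (h.sub_of_mem hg).2 hs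
  rwa [mul_inv_cancel_left] at this

theorem Ch.mul_gen (h : NAx n) (hO : OneS n) (hb : Bd (M := M) J (Lo n lo c)) (hc : Ch n J lo c)
    {s : S} (hs : s ∈ J) : Ch n J lo (c * artinGen M s) := by
  intro i hi
  by_cases e : s = i
  · subst e
    refine hO.up c s lo (hc s hs) fun t ht => ?_
    by_cases h1 : t ∈ J
    exacts [hc t h1, hb s hs t h1 ht]
  · exact (h.vinv_Lo lo c i s e).2 (hc i hi)

theorem Ch.mul_PP (h : NAx n) (hO : OneS n) (hb : Bd (M := M) J (Lo n lo c)) (hc : Ch n J lo c)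
    {p : ArtinGroup M} (hp : p ∈ PP M J) : Ch n J lo (c * p) := by
  refine PP_induction_right (P := fun p => Ch n J lo (c * p)) (by simpa using hc) ?_ hp
  intro p s hp hs ih
  rw [← mul_assoc]
  exact Ch.mul_gen h hO (Bd.of_mem (h.vinv_Lo lo) (mem_AP_of_PP hp) hb) ih hs

/-- `OneS.exCh` for `J.erase i` -/
theorem exists_ch (h : NAx n) (hO : OneS n) (hJ : Sph M J) (hb : Bd (M := M) J (Lo n lo g))
    {i : S} (hi : Lo n lo g i) : ∃ a ∈ AP M (J.erase i), Ch n J lo (g * a) := by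
  obtain ⟨a, ha, hc⟩ := hO.exCh (J.erase i) g lo (hJ.mono (Finset.erase_subset _ _)) (hb.erase hi)
  refine ⟨a, ha, fun j hj => ?_⟩
  by_cases e : j = i
  · subst e
    exact ((h.vinv_Lo lo).of_mem ha (Finset.notMem_erase _ _)).2 hi
  · exact hc j (Finset.mem_erase.2 ⟨e, hj⟩)

/-- Only `cvx` is used (`LJ_mul_simple_cases`, `sum_kk_res`, `Finset.sum_add_sum_compl`).  The
second statement is the sharper inequality. -/
theorem aptF_cvx (h : NAx n)
    (cvx : ∀ g j k, ∑ t, aa M j t * n g t k ≤ n g j k + n (g * artinGen M j) j k)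
    (w : WJ M J) (j : {s // s ∈ J}) :
    2 * aptF n J c lo b w j - ∑ k, kk (res M J) j k * aptF n J c lo b w k +
      (∑ k ∈ Jᶜ, aa M j.1 k * n c k lo - (2 * b j.1 - ∑ k ∈ J, aa M j.1 k * b k)) ≤
      aptF n J c lo b w j + aptF n J c lo b (w * (csJ M J).simple j) j := by
  have h1 : ∑ t, aa M j.1 t * n (c * LJ M J w) t lo ≤
      n (c * LJ M J w) j.1 lo + n (c * LJ M J (w * (csJ M J).simple j)) j.1 lo := by
    rcases LJ_mul_simple_cases w j with e | e
    · rw [e, ← mul_assoc]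
      exact cvx _ _ _
    · rw [e, ← mul_assoc, add_comm]
      refine le_trans (le_of_eq (Finset.sum_congr rfl fun t _ => ?_)) (cvx _ _ _)
      by_cases ht : j.1 = t
      · rw [← ht, aa_self, zero_mul, zero_mul]
      · rw [h.inv _ _ _ _ ht]
  have h2 := sum_kk_res (M := M) J j fun k => n (c * LJ M J w) k lo - b k
  have h3 : ∑ k ∈ Jᶜ, aa M j.1 k * n c k lo = ∑ k ∈ Jᶜ, aa M j.1 k * n (c * LJ M J w) k lo :=
    Finset.sum_congr rfl fun k hk => by
      rw [h.of_mem (LJ_mem_AP J w) (Finset.mem_compl.1 hk)]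
  rw [← Finset.sum_add_sum_compl J] at h1
  simp only [mul_sub, Finset.sum_sub_distrib] at h2
  simp only [aptF, mul_sub, Finset.sum_sub_distrib]
  linarith

theorem locCvx_aptF (h : NAx n)
    (cvx : ∀ g j k, ∑ t, aa M j t * n g t k ≤ n g j k + n (g * artinGen M j) j k)
    (hs : Sub n J c lo b) : LocCvx (csJ M J) (aptF n J c lo b) := by
  refine ⟨fun w i k hk => ?_, fun w j => ?_⟩
  · have hk' : k.1 ≠ i.1 := fun e => hk (Subtype.ext e)
    unfold aptF
    rcases LJ_mul_simple_cases w k with e | e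
    · rw [e, ← mul_assoc, h.inv _ _ _ _ hk']
    · rw [e, ← mul_assoc, h.inv _ _ _ _ hk']
  · have h1 := aptF_cvx (c := c) (lo := lo) (b := b) h cvx w j
    have h2 : _ ≤ _ := hs j.1 j.2
    linarith

/-- paths in the apartment are paths in the coset complex -/
theorem conn_of_apt {P : ArtinGroup M → S → Prop} {P' : WJ M J → {s // s ∈ J} → Prop}
    (hP : ∀ w i, P' w i → P (c * LJ M J w) i.1) {x y : WJ M J × {s // s ∈ J}}
    (h : Relation.ReflTransGen (StepW (csJ M J) P') x y) :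
    Conn J P (c * LJ M J x.1, x.2.1) (c * LJ M J y.1, y.2.1) := by
  induction h with
  | refl => exact Conn.refl _
  | @tail y z _ hs ih =>
    refine Relation.ReflTransGen.tail ih ⟨y.2.2, z.2.2, hP _ _ hs.1, hP _ _ hs.2.1, ?_⟩
    rcases hs.2.2 with e | ⟨e, k, hk, e'⟩
    · exact Or.inl (by rw [e])
    · refine Or.inr ⟨by rw [e], ?_⟩
      have hk' : artinGen M k.1 ∈ AP M (J.erase y.2.1) :=
        gen_mem_AP (Finset.mem_erase.2 ⟨fun e => hk (Subtype.ext e), k.2⟩)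
      rw [e']
      rcases LJ_mul_simple_cases y.1 k with e2 | e2
      · rw [e2]
        simpa [mul_assoc] using hk'
      · rw [e2]
        simpa [mul_assoc] using hk'

theorem C1_neg (h : NAx n) (hO : OneS n) (hb : Bd (M := M) J (Lo n lo c)) (hc : Ch n J lo c)
    (w : WJ M J) (i : {s // s ∈ J}) (h1 : aptF n J c lo b w i < 0) :
    Neg1 n lo b (c * LJ M J w) i.1 :=
  ⟨Ch.mul_PP h hO hb hc (LJ_mem_PP J w) i.1 i.2, sub_neg.1 h1⟩

theorem C1_conn_neg (h : NAx n) (hO : OneS n) (hb : Bd (M := M) J (Lo n lo c)) (hc : Ch n J lo c)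
    (hs : Sub n J c lo b) {w w' : WJ M J} {i i' : {s // s ∈ J}} (h1 : aptF n J c lo b w i < 0)
    (h2 : aptF n J c lo b w' i' < 0) :
    Conn J (Neg1 n lo b) (c * LJ M J w, i.1) (c * LJ M J w', i'.1) :=
  conn_of_apt (C1_neg h hO hb hc) (apt_neg (locCvx_aptF h hO.cvx hs) h1 h2)

theorem C1_cases (w : WJ M J) (s : {s // s ∈ J}) :
    LJ M J ((csJ M J).simple s * w) = artinGen M s.1 * LJ M J w ∨
      ((csJ M J).length ((csJ M J).simple s * w) < (csJ M J).length w ∧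
        LJ M J w = artinGen M s.1 * LJ M J ((csJ M J).simple s * w)) := by
  rcases lt_or_gt_of_ne ((csJ M J).length_simple_mul_ne w s) with e | e
  · refine Or.inr ⟨e, ?_⟩
    rw [← LJ_simple_mul (by rwa [(csJ M J).simple_mul_simple_cancel_left]),
      (csJ M J).simple_mul_simple_cancel_left]
  · exact Or.inl (LJ_simple_mul e)

/-- Induction on `p = s p₁` (`PP_induction_left`, generalizing `c`): the vertex is connected to
`y = (c s LJ w, j)`.  If `ℓ (s w) > ℓ w`, this is `(c LJ (s w), j)`.  Otherwise `w = s w'`,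
`y = (c s s LJ w', j)`, and `y' = (c s LJ w', j)` is negative by `OneS.dem`; it lies in the
apartments of `c s` and of `c`; connect `y` and `y'` by `apt_neg`. -/
theorem neg_to_apt (h : NAx n) (hO : OneS n) (hb : Bd (M := M) J (Lo n lo c)) (hc : Ch n J lo c)
    (hs : Sub n J c lo b) {p : ArtinGroup M} (hp : p ∈ PP M J) {i : S} (hi : i ∈ J)
    (hx : Neg1 n lo b (c * p) i) : ∃ (w : WJ M J) (j : {s // s ∈ J}), aptF n J c lo b w j < 0 ∧
      Conn J (Neg1 n lo b) (c * p, i) (c * LJ M J w, j.1) := by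
  refine PP_induction_left (P := fun p => ∀ c, Bd (M := M) J (Lo n lo c) → Ch n J lo c →
    Sub n J c lo b → Neg1 n lo b (c * p) i → ∃ (w : WJ M J) (j : {s // s ∈ J}),
      aptF n J c lo b w j < 0 ∧ Conn J (Neg1 n lo b) (c * p, i) (c * LJ M J w, j.1)) ?_ ?_ hp
    c hb hc hs hx
  · intro c _ _ _ hx
    refine ⟨1, ⟨i, hi⟩, ?_, ?_⟩
    · unfold aptF
      rw [LJ_one]
      exact sub_neg.2 hx.2
    · rw [LJ_one]
      exact Conn.refl _
  · intro p s hp hs ih c hb hc hS hx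
    have hb' := Bd.of_mem (h.vinv_Lo lo) (gen_mem_AP hs) hb
    have hc' := Ch.mul_gen h hO hb hc hs
    have hS' := (h.sub_of_mem (gen_mem_AP hs)).2 hS
    rw [← mul_assoc] at hx ⊢
    obtain ⟨w, j, h1, h2⟩ := ih _ hb' hc' hS' hx
    rcases C1_cases w ⟨s, hs⟩ with e | ⟨-, e⟩
    · refine ⟨(csJ M J).simple ⟨s, hs⟩ * w, j, ?_, ?_⟩
      · unfold aptF at h1 ⊢
        rwa [e, ← mul_assoc]
      · rwa [e, ← mul_assoc]
    · have h3 : aptF n J (c * artinGen M s) lo b ((csJ M J).simple ⟨s, hs⟩ * w) j < 0 := by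
        have := hO.dem J c lo s _ j.1 hb hc hs (LJ_mem_PP J ((csJ M J).simple ⟨s, hs⟩ * w))
        unfold aptF at h1 ⊢
        rw [e, ← mul_assoc] at h1
        linarith
      have h4 := C1_conn_neg h hO hb' hc' hS' h1 h3
      refine ⟨w, j, ?_, ?_⟩
      · unfold aptF at h3 ⊢
        rwa [mul_assoc, ← e] at h3
      · rw [mul_assoc c _ (LJ M J ((csJ M J).simple ⟨s, hs⟩ * w)), ← e] at h4
        exact h2.trans h4

/-- two vertices with `Lo` belong to chambers `c p`, `c p'` -/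
theorem C1_meet (h : NAx n) (hO : OneS n) (hJ : Sph M J) {g₀ g' : ArtinGroup M} {i j : S}
    (hb : Bd (M := M) J (Lo n lo g₀)) (hg : g₀⁻¹ * g ∈ AP M J) (hg' : g₀⁻¹ * g' ∈ AP M J)
    (hi : Lo n lo g i) (hj : Lo n lo g' j) : ∃ c p p', p ∈ PP M J ∧ p' ∈ PP M J ∧
      g⁻¹ * (c * p) ∈ AP M (J.erase i) ∧ g'⁻¹ * (c * p') ∈ AP M (J.erase j) ∧
      g₀⁻¹ * c ∈ AP M J ∧ Ch n J lo c := by
  obtain ⟨a, ha, hc⟩ := exists_ch h hO hJ (C1_bd (h.vinv_Lo lo) hg hb) hi
  obtain ⟨a', ha', hc'⟩ := exists_ch h hO hJ (C1_bd (h.vinv_Lo lo) hg' hb) hj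
  have h1 : g₀⁻¹ * (g * a) ∈ AP M J := by
    rw [← mul_assoc]
    exact mul_mem hg (AP_mono (Finset.erase_subset _ _) ha)
  have h2 : g₀⁻¹ * (g' * a') ∈ AP M J := by
    rw [← mul_assoc]
    exact mul_mem hg' (AP_mono (Finset.erase_subset _ _) ha')
  obtain ⟨c, p, p', hp, hp', e, e', hc0⟩ := hO.meet J (g * a) (g' * a') lo hJ
    (C1_bd (h.vinv_Lo lo) h1 hb) (by simpa [mul_assoc] using mul_mem (inv_mem h1) h2) hc hc'
  refine ⟨c, p, p', hp, hp', by simpa [← e] using ha, by simpa [← e'] using ha', ?_, hc0⟩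
  have := mul_mem h1 (inv_mem (mem_AP_of_PP hp))
  simpa [e, mul_assoc] using this

theorem C1_vinv {P : ArtinGroup M → S → Prop} (h : VInv P) {g' : ArtinGroup M} {i : S}
    (hg : g⁻¹ * g' ∈ AP M (J.erase i)) (hP : P g i) : P g' i := by
  have := (h.of_mem (g := g) hg (Finset.notMem_erase _ _)).2 hP
  rwa [mul_inv_cancel_left] at this

/-- `exists_ch`, `OneS.meet`, `neg_to_apt`, `apt_neg` -/
theorem hasC1_of (h : NAx n) (hO : OneS n) : HasC1 n := by
  intro J g₀ lo b hJ hb hs g g' i j hg hg' hi hj hP hP'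
  obtain ⟨c, p, p', hp, hp', e, e', hc0, hc⟩ := C1_meet h hO hJ hb hg hg' hP.1 hP'.1
  have hb' := C1_bd (h.vinv_Lo lo) hc0 hb
  have hs' := C1_sub h hc0 hs
  have h1 := C1_vinv (h.vinv_Neg1 lo b) e hP
  have h2 := C1_vinv (h.vinv_Neg1 lo b) e' hP'
  obtain ⟨w, k, h3, h4⟩ := neg_to_apt h hO hb' hc hs' hp hi h1
  obtain ⟨w', k', h5, h6⟩ := neg_to_apt h hO hb' hc hs' hp' hj h2
  exact (((conn_coset hi e hP h1).trans h4).trans (C1_conn_neg h hO hb' hc hs' h3 h5)).trans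
    (((conn_coset hj e' hP' h2).trans h6).symm)

end Crest.Agent.R175
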