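import Crest.Agent.R175.Art

/-!
# R175: paths in the coset complex.
-/

set_option autoImplicit false

namespace Crest.Agent.R175

open CoxeterSystem Crest.Agent.R61 Crest.GroupTheory

variable {S : Type} [Fintype S] [DecidableEq S] {M : CoxeterMatrix S}
  {J J' : Finset S} {P P' T : ArtinGroup M → S → Prop} {g g' g₀ g₁ a : ArtinGroup M} {i j : S}

/-- `AP_induction`; for `s⁻¹` write `g = g s⁻¹ s` -/
theorem VInv.of_mem (h : VInv P) (ha : a ∈ AP M J) (hi : i ∉ J) : P (g * a) i ↔ P g i := by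
  refine AP_induction (P := fun a => P (g * a) i ↔ P g i) (by rw [mul_one]) ?_ ?_ ha
  · intro x s _ hs hx
    rw [← mul_assoc, h _ i s fun e => hi (e ▸ hs), hx]
  · intro x s _ hs hx
    rw [← h _ i s fun e => hi (e ▸ hs), ← mul_assoc, inv_mul_cancel_right, hx]

theorem NAx.of_mem {n : ArtinGroup M → S → ℤ → ℝ} (h : NAx n) (ha : a ∈ AP M J) (hi : i ∉ J)
    (g : ArtinGroup M) (k : ℤ) : n (g * a) i k = n g i k := by
  have hv : VInv fun g' i' => n g' i' k = n g i k := fun g' i' s hs => by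
    simp only [h.inv g' i' s k hs]
  exact (hv.of_mem ha hi).2 rfl

section
variable {n : ArtinGroup M → S → ℤ → ℝ} (h : NAx n)
include h

theorem NAx.vinv_Lo (lo : ℤ) : VInv (Lo n lo) := by
  intro g i s hs
  simp only [Lo, h.inv g i s _ hs]
theorem NAx.vinv_Hi (hi : ℤ) : VInv (Hi n hi) := by
  intro g i s hs
  simp only [Hi, h.inv g i s _ hs]
theorem NAx.vinv_Neg1 (lo : ℤ) (b : S → ℝ) : VInv (Neg1 n lo b) := by
  intro g i s hs
  simp only [Neg1, Lo, h.inv g i s _ hs]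
theorem NAx.vinv_Tie1 (lo : ℤ) (b : S → ℝ) : VInv (Tie1 n lo b) := by
  intro g i s hs
  simp only [Tie1, Lo, h.inv g i s _ hs]
theorem NAx.vinv_Neg2 (lo hi : ℤ) (b : S → ℝ) : VInv (Neg2 n lo hi b) := by
  intro g i s hs
  simp only [Neg2, Hi, Neg1, Lo, h.inv g i s _ hs]
theorem NAx.vinv_Tie2 (lo hi : ℤ) (b : S → ℝ) : VInv (Tie2 n lo hi b) := by
  intro g i s hs
  simp only [Tie2, Hi, Tie1, Lo, h.inv g i s _ hs]
theorem NAx.vinv_InReg (m : ℕ) : VInv (InReg n m) := by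
  intro g i s hs
  simp only [InReg, h.inv g i s _ hs]
theorem NAx.vinv_NegS (m : ℕ) (b : S → ℝ) : VInv (NegS n m b) := by
  intro g i s hs
  simp only [NegS, InReg, h.inv g i s _ hs]
theorem NAx.vinv_TieS (m : ℕ) (b : S → ℝ) : VInv (TieS n m b) := by
  intro g i s hs
  simp only [TieS, InReg, h.inv g i s _ hs]
theorem NAx.vinv_Zer : VInv (Zer n) := by
  intro g i s hs
  simp only [Zer, h.inv g i s _ hs]

theorem NAx.subAt_of_mem (ha : a ∈ AP M J) {k : ℤ} {b : S → ℝ} :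
    SubAt n J (g * a) k b i ↔ SubAt n J g k b i := by
  unfold SubAt
  have : ∑ j ∈ Jᶜ, aa M i j * n (g * a) j k = ∑ j ∈ Jᶜ, aa M i j * n g j k :=
    Finset.sum_congr rfl fun j hj => by rw [h.of_mem ha (Finset.mem_compl.1 hj)]
  rw [this]

theorem NAx.sub_of_mem (ha : a ∈ AP M J) {k : ℤ} {b : S → ℝ} :
    Sub n J (g * a) k b ↔ Sub n J g k b := by
  simp only [Sub, h.subAt_of_mem ha]

theorem NAx.hyp_of_mem (ha : a ∈ AP M J) {m : ℕ} {b : S → ℝ} :
    Hyp n J (g * a) m b ↔ Hyp n J g m b := by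
  refine forall₂_congr fun i _ => or_congr (exists_congr fun j => ?_) (h.subAt_of_mem ha)
  exact and_congr_right fun hj => by rw [(h.vinv_InReg m).of_mem ha hj]

/-- there is a gap above every real number -/
theorem NAx.exists_gap (x : ℝ) : ∃ ε : ℝ, 0 < ε ∧ ∀ g i k, n g i k < x + ε → n g i k ≤ x := by
  have hf : ({y | x < y ∧ y ≤ x + 1 ∧ ∃ g i k, y = n g i k} : Set ℝ).Finite :=
    (h.disc (x + 1)).subset fun y hy => hy.2
  by_cases hne : ({y | x < y ∧ y ≤ x + 1 ∧ ∃ g i k, y = n g i k} : Set ℝ).Nonempty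
  · obtain ⟨y, hy, hmin⟩ := Set.exists_min_image _ id hf hne
    refine ⟨y - x, sub_pos.2 hy.1, fun g i k hk => ?_⟩
    by_contra hc
    have := hmin (n g i k) ⟨not_le.1 hc, by linarith [hy.2.1], g, i, k, rfl⟩
    simp only [id] at this
    linarith
  · refine ⟨1, one_pos, fun g i k hk => ?_⟩
    by_contra hc
    exact hne ⟨_, not_le.1 hc, hk.le, g, i, k, rfl⟩

/-- the same, for finitely many thresholds at once -/
theorem NAx.exists_gap' (b : S → ℝ) :
    ∃ ε : ℝ, 0 < ε ∧ ∀ g i k, n g i k < b i + ε → n g i k ≤ b i := by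
  choose ε hε0 hε using fun i => h.exists_gap (b i)
  rcases isEmpty_or_nonempty S with hS | hS
  · exact ⟨1, one_pos, fun _ i => isEmptyElim i⟩
  · obtain ⟨i₀, hi₀⟩ := Finite.exists_min ε
    exact ⟨ε i₀, hε0 i₀, fun g i k hk => hε i g i k (by linarith [hi₀ i])⟩

/-- a non-empty set of vertices has an element that minimises `(n g i k - b i) / c i` -/
theorem NAx.exists_min (k : ℤ) (b c : S → ℝ) (hc : ∀ i ∈ J, 0 < c i)
    (A : Set (ArtinGroup M × S)) (hA : A.Nonempty) (hJ : ∀ x ∈ A, x.2 ∈ J) :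
    ∃ x ∈ A, ∀ y ∈ A, (n x.1 x.2 k - b x.2) / c x.2 ≤ (n y.1 y.2 k - b y.2) / c y.2 := by
  obtain ⟨x₀, hx₀⟩ := hA
  set φ : ArtinGroup M × S → ℝ := fun x => (n x.1 x.2 k - b x.2) / c x.2 with hφ
  have hf : (φ '' {x | x ∈ A ∧ φ x ≤ φ x₀}).Finite := by
    refine (Set.finite_iUnion fun i : S =>
      (h.disc (b i + c i * φ x₀)).image fun y => (y - b i) / c i).subset ?_
    rintro _ ⟨x, ⟨hx, hle⟩, rfl⟩
    refine Set.mem_iUnion.2 ⟨x.2, _, ⟨?_, x.1, x.2, k, rfl⟩, rfl⟩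
    have := (div_le_iff₀ (hc _ (hJ x hx))).1 hle
    linarith
  obtain ⟨_, ⟨x, hx, rfl⟩, hmin⟩ := Set.exists_min_image _ id hf ⟨_, x₀, ⟨hx₀, le_rfl⟩, rfl⟩
  refine ⟨x, hx.1, fun y hy => ?_⟩
  by_cases hle : φ y ≤ φ x₀
  · exact hmin _ ⟨y, ⟨hy, hle⟩, rfl⟩
  · exact hx.2.trans (not_le.1 hle).le

end

theorem Bd.of_mem (h : VInv P) (ha : a ∈ AP M J) (hb : Bd (M := M) J (P g)) :
    Bd (M := M) J (P (g * a)) := by
  exact fun i hi j hj h0 => (h.of_mem ha hj).2 (hb i hi j hj h0)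

/-- the boundary of `J ∖ i` consists of `i` and the boundary of `J` -/
theorem Bd.erase {p : S → Prop} (hb : Bd (M := M) J p) (hi : p i) :
    Bd (M := M) (J.erase i) p := by
  intro i' hi' j hj h0
  by_cases e : j = i
  · rw [e]
    exact hi
  · exact hb i' (Finset.mem_of_mem_erase hi') j (fun h => hj (Finset.mem_erase.2 ⟨e, h⟩)) h0

/-- if `n g i k = b i`, subharmonicity passes to `J ∖ i`; `b i ≤ n g i k` suffices -/
theorem SubAt.erase {n : ArtinGroup M → S → ℤ → ℝ} {k : ℤ} {b : S → ℝ} (hi : i ∈ J)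
    (h : SubAt n J g k b j) (hb : b i ≤ n g i k) : SubAt n (J.erase i) g k b j := by
  unfold SubAt at h ⊢
  rw [← Finset.add_sum_erase J _ hi] at h
  rw [Finset.compl_erase, Finset.sum_insert (by simpa using hi)]
  have := mul_le_mul_of_nonneg_left hb (aa_nonneg (M := M) j i)
  linarith

theorem Step.symm {x y : ArtinGroup M × S} (h : Step J P x y) : Step J P y x := by
  obtain ⟨h1, h2, h3, h4, h5⟩ := h
  refine ⟨h2, h1, h4, h3, h5.imp Eq.symm fun h => ⟨h.1.symm, ?_⟩⟩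
  have := inv_mem h.2
  rwa [mul_inv_rev, inv_inv, h.1] at this

theorem Step.mono {x y : ArtinGroup M × S} (hJ : J ⊆ J') (hP : ∀ g i, P g i → P' g i)
    (h : Step J P x y) : Step J' P' x y := by
  obtain ⟨h1, h2, h3, h4, h5⟩ := h
  exact ⟨hJ h1, hJ h2, hP _ _ h3, hP _ _ h4,
    h5.imp id fun h => ⟨h.1, AP_mono (Finset.erase_subset_erase _ hJ) h.2⟩⟩

theorem Conn.refl (x : ArtinGroup M × S) : Conn J P x x := Relation.ReflTransGen.refl

theorem Conn.trans {x y z : ArtinGroup M × S} (h : Conn J P x y) (h' : Conn J P y z) :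
    Conn J P x z := Relation.ReflTransGen.trans h h'

theorem Conn.symm {x y : ArtinGroup M × S} (h : Conn J P x y) : Conn J P y x := by
  induction h with
  | refl => exact Conn.refl _
  | tail _ hs ih => exact Relation.ReflTransGen.head hs.symm ih

theorem Conn.mono {x y : ArtinGroup M × S} (hJ : J ⊆ J') (hP : ∀ g i, P g i → P' g i)
    (h : Conn J P x y) : Conn J' P' x y := by
  induction h with
  | refl => exact Conn.refl _
  | tail _ hs ih => exact Relation.ReflTransGen.tail ih (hs.mono hJ hP)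

omit [Fintype S] [DecidableEq S] in
theorem art2_trans {x y z : ArtinGroup M} (h : x⁻¹ * y ∈ AP M J) (h' : y⁻¹ * z ∈ AP M J) :
    x⁻¹ * z ∈ AP M J := by
  have := mul_mem h h'
  rwa [mul_assoc, mul_inv_cancel_left] at this

omit [Fintype S] [DecidableEq S] in
theorem art2_symm {x y : ArtinGroup M} (h : x⁻¹ * y ∈ AP M J) : y⁻¹ * x ∈ AP M J := by
  have := inv_mem h
  rwa [mul_inv_rev, inv_inv] at this

theorem art2_step {x y : ArtinGroup M × S} (h : Step J P x y) : x.1⁻¹ * y.1 ∈ AP M J := by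
  rcases h.2.2.2.2 with e | e
  · simp [e]
  · exact AP_mono (Finset.erase_subset _ _) e.2

/-- paths stay in the residue -/
theorem Conn.mem {x y : ArtinGroup M × S} (h : Conn J P x y) : x.1⁻¹ * y.1 ∈ AP M J := by
  induction h with
  | refl => simp
  | tail _ hs ih => exact art2_trans ih (art2_step hs)

/-- `P` may be replaced by a predicate that follows from it on the residue -/
theorem Conn.mono_res {x y : ArtinGroup M × S} (hx : g₀⁻¹ * x.1 ∈ AP M J)
    (hP : ∀ g i, g₀⁻¹ * g ∈ AP M J → i ∈ J → P g i → P' g i) (h : Conn J P x y) :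
    Conn J P' x y := by
  induction h with
  | refl => exact Conn.refl _
  | tail hc hs ih =>
    have m1 := art2_trans hx (Conn.mem hc)
    have m2 := art2_trans m1 (art2_step hs)
    obtain ⟨h1, h2, h3, h4, h5⟩ := hs
    exact Relation.ReflTransGen.tail ih ⟨h1, h2, hP _ _ m1 h1 h3, hP _ _ m2 h2 h4, h5⟩

theorem conn_same (hi : i ∈ J) (hj : j ∈ J) (h : P g i) (h' : P g j) : Conn J P (g, i) (g, j) := by
  exact Relation.ReflTransGen.single ⟨hi, hj, h, h', Or.inl rfl⟩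

theorem conn_coset (hi : i ∈ J) (ha : g⁻¹ * g' ∈ AP M (J.erase i)) (h : P g i) (h' : P g' i) :
    Conn J P (g, i) (g', i) := by
  exact Relation.ReflTransGen.single ⟨hi, hi, h, h', Or.inr ⟨rfl, ha⟩⟩

/-- if all `P`-vertices of the residue have type `j`, a path stays in one coset -/
theorem Conn.mem_erase {x y : ArtinGroup M × S} (h : Conn J P x y) (hx : g₀⁻¹ * x.1 ∈ AP M J)
    (hP : ∀ g i, g₀⁻¹ * g ∈ AP M J → i ∈ J → P g i → i = j) :
    x.1⁻¹ * y.1 ∈ AP M (J.erase j) := by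
  induction h with
  | refl => simp
  | tail hc hs ih =>
    have m1 := art2_trans hx (Conn.mem hc)
    obtain ⟨h1, -, h3, -, h5⟩ := hs
    refine art2_trans ih ?_
    rcases h5 with e | e
    · simp [e]
    · rw [← hP _ _ m1 h1 h3]
      exact e.2

theorem CC.base (h : CC J g₀ P) (hg : g₀⁻¹ * g₁ ∈ AP M J) : CC J g₁ P := by
  exact fun g g' i j h1 h2 => h g g' i j (art2_trans hg h1) (art2_trans hg h2)

theorem LL.base (h : LL J g₀ T P) (hg : g₀⁻¹ * g₁ ∈ AP M J) : LL J g₁ T P := by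
  rintro g i h1 hi hT ⟨g', j, h2, hj⟩
  exact h g i (art2_trans hg h1) hi hT ⟨g', j, art2_trans hg h2, hj⟩

theorem CC.congr (h : CC J g₀ P) (hP : ∀ g i, g₀⁻¹ * g ∈ AP M J → i ∈ J → (P g i ↔ P' g i)) :
    CC J g₀ P' := by
  intro g g' i j h1 h2 hi hj p1 p2
  exact (h g g' i j h1 h2 hi hj ((hP g i h1 hi).2 p1) ((hP g' j h2 hj).2 p2)).mono_res h1
    fun g i h1 hi => (hP g i h1 hi).1

theorem LL.congr {T' : ArtinGroup M → S → Prop} (h : LL J g₀ T P)
    (hT : ∀ g i, g₀⁻¹ * g ∈ AP M J → i ∈ J → T' g i → T g i)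
    (hP : ∀ g i, g₀⁻¹ * g ∈ AP M J → i ∈ J → (P g i ↔ P' g i)) : LL J g₀ T' P' := by
  rintro g i h1 hi t ⟨g', j, h2, hj, p⟩
  obtain ⟨a, ha, j', hj', hne, p'⟩ := h g i h1 hi (hT g i h1 hi t) ⟨g', j, h2, hj, (hP g' j h2 hj).2 p⟩
  refine ⟨a, ha, j', hj', hne, (hP _ j' ?_ hj').1 p'⟩
  rw [← mul_assoc]
  exact mul_mem h1 (AP_mono (Finset.erase_subset _ _) ha)

theorem HasNb.mono (h : HasNb J P g i) (hJ : J ⊆ J') : HasNb J' P g i := by
  obtain ⟨a, ha, j, hj, hne, p⟩ := h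
  exact ⟨a, AP_mono (Finset.erase_subset_erase _ hJ) ha, j, hJ hj, hne, p⟩

theorem HasNb.of_mem (h : HasNb J P (g * a) i) (ha : a ∈ AP M (J.erase i)) : HasNb J P g i := by
  obtain ⟨a', ha', j, hj, hne, p⟩ := h
  exact ⟨a * a', mul_mem ha ha', j, hj, hne, by rwa [← mul_assoc]⟩

/-- `AP_induction`: `(g, i) → (g, j) → (g s, j) → (g s, i)` with `j ≠ s` -/
theorem cc_true (hJ : 2 ≤ J.card) (g₀ : ArtinGroup M) : CC J g₀ fun _ _ => True := by
  have key : ∀ (x : ArtinGroup M) (s : S), s ∈ J → (∀ j, j ≠ s → x ∈ AP M (J.erase j)) →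
      ∀ g, ∀ i ∈ J, ∀ j ∈ J, Conn J (fun _ _ => True) (g, i) (g * x, j) := by
    intro x s hs hx g i hi j hj
    obtain ⟨k, hk, hks⟩ := Finset.exists_mem_ne (lt_of_lt_of_le one_lt_two hJ) s
    exact ((conn_same hi hk trivial trivial).trans (conn_coset hk
      (by rw [inv_mul_cancel_left]; exact hx k hks) trivial trivial)).trans
      (conn_same hk hj trivial trivial)
  have main : ∀ a ∈ AP M J, ∀ g, ∀ i ∈ J, ∀ j ∈ J, Conn J (fun _ _ => True) (g, i) (g * a, j) := by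
    intro a ha
    refine AP_induction
      (P := fun a => ∀ g, ∀ i ∈ J, ∀ j ∈ J, Conn J (fun _ _ => True) (g, i) (g * a, j)) ?_ ?_ ?_ ha
    · intro g i hi j hj
      rw [mul_one]
      exact conn_same hi hj trivial trivial
    · intro a s _ hs ih g i hi j hj
      rw [← mul_assoc]
      exact (ih g i hi i hi).trans (key _ s hs
        (fun k hk => gen_mem_AP (Finset.mem_erase.2 ⟨hk.symm, hs⟩)) _ i hi j hj)
    · intro a s _ hs ih g i hi j hj
      rw [← mul_assoc]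
      exact (ih g i hi i hi).trans (key _ s hs
        (fun k hk => inv_mem (gen_mem_AP (Finset.mem_erase.2 ⟨hk.symm, hs⟩))) _ i hi j hj)
  intro g g' i j h1 h2 hi hj _ _
  have := main _ (art2_trans (art2_symm h1) h2) g i hi j hj
  rwa [mul_inv_cancel_left] at this

theorem art2_iota {x y : ArtinGroup M} (h : x⁻¹ * y ∈ AP M J) :
    (iota M x)⁻¹ * iota M y ∈ AP M J := by
  rw [← map_inv, ← map_mul]
  exact iota_mem_AP.2 h

/-- transport along the automorphism `iota` -/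
theorem CC.iota (h : CC J (iota M g₀) fun g i => P (iota M g) i) : CC J g₀ P := by
  intro g g' i j h1 h2 hi hj p1 p2
  have := h (R175.iota M g) (R175.iota M g') i j (art2_iota h1) (art2_iota h2) hi hj
    (by simpa only [iota_iota] using p1) (by simpa only [iota_iota] using p2)
  have key : ∀ {x y : ArtinGroup M × S}, Conn J (fun g i => P (R175.iota M g) i) x y →
      Conn J P (R175.iota M x.1, x.2) (R175.iota M y.1, y.2) := by
    intro x y hc
    induction hc with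
    | refl => exact Conn.refl _
    | tail _ hs ih =>
      exact Relation.ReflTransGen.tail ih ⟨hs.1, hs.2.1, hs.2.2.1, hs.2.2.2.1,
        hs.2.2.2.2.imp (fun e => congrArg (R175.iota M) e) fun e => ⟨e.1, art2_iota e.2⟩⟩
  have h3 := key this
  simpa only [iota_iota] using h3

theorem LL.iota (h : LL J (iota M g₀) (fun g i => T (iota M g) i) fun g i => P (iota M g) i) :
    LL J g₀ T P := by
  rintro g i h1 hi t ⟨g', j, h2, hj, p⟩
  obtain ⟨a, ha, j', hj', hne, p'⟩ := h (R175.iota M g) i (art2_iota h1) hi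
    (by simpa only [iota_iota] using t)
    ⟨R175.iota M g', j, art2_iota h2, hj, by simpa only [iota_iota] using p⟩
  refine ⟨R175.iota M a, iota_mem_AP.2 ha, j', hj', hne, ?_⟩
  simpa only [map_mul, iota_iota] using p'

/-- Meets.  By `Sph.exists_central`, `g⁻¹ g' = p⁻¹ p'` with `p, p'` positive.  Take a word `l` of
minimal length such that `wd l * (g⁻¹ g')` is positive and put `c = g (wd l)⁻¹`.  If `P c` fails, the
letter `s` given by `h` divides `p = wd l` and `p'`, and `s⁻¹ p` is given by a shorter word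
(`length_eq_of_wd_eq`). -/
theorem exists_meet {P : ArtinGroup M → Prop} (hJ : Sph M J)
    (h : ∀ c, g⁻¹ * c ∈ AP M J → ¬ P c → ∃ s, ∀ p ∈ PP M J, P (c * p) →
      s ∈ J ∧ (artinGen M s)⁻¹ * p ∈ PP M J)
    (hg : g⁻¹ * g' ∈ AP M J) (h1 : P g) (h2 : P g') :
    ∃ c p p', p ∈ PP M J ∧ p' ∈ PP M J ∧ g = c * p ∧ g' = c * p' ∧ P c := by
  classical
  obtain ⟨ζ, hζ, -, hz⟩ := hJ.exists_central
  obtain ⟨k, p, hp, e⟩ := hz _ hg
  have hex : ∃ N : ℕ, ∃ l : List S, l.length = N ∧ (∀ s ∈ l, s ∈ J) ∧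
      wd M l * (g⁻¹ * g') ∈ PP M J := by
    obtain ⟨l, hl, rfl⟩ := mem_PP_iff.1 hp
    refine ⟨_, l, rfl, hl, ?_⟩
    rw [e, mul_inv_cancel_left]
    exact pow_mem hζ k
  obtain ⟨l, hN, hl, hl'⟩ := Nat.find_spec hex
  refine ⟨g * (wd M l)⁻¹, wd M l, wd M l * (g⁻¹ * g'), wd_mem_PP hl, hl', by group, by group, ?_⟩
  by_contra hc
  obtain ⟨s, hs⟩ := h _ (by
    rw [inv_mul_cancel_left]
    exact inv_mem (mem_AP_of_PP (wd_mem_PP hl))) hc
  have a1 := hs _ (wd_mem_PP hl) (by rwa [inv_mul_cancel_right])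
  have a2 := hs _ hl' (by
    have : g * (wd M l)⁻¹ * (wd M l * (g⁻¹ * g')) = g' := by group
    rwa [this])
  obtain ⟨l', hl1, e1⟩ := mem_PP_iff.1 a1.2
  have e2 : wd M (s :: l') = wd M l := by rw [wd_cons, e1, mul_inv_cancel_left]
  have e3 := length_eq_of_wd_eq e2
  refine Nat.find_min hex (m := l'.length) ?_ ⟨l', rfl, hl1, ?_⟩
  · rw [← hN, ← e3]
    simp
  · rw [e1, mul_assoc]
    exact a2.2

end Crest.Agent.R175
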