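import Crest.Agent.R175.RZ
import Crest.Agent.R175.Art2

/-!
# R175: weighted families of objects.
-/

set_option autoImplicit false

namespace Crest.Agent.R175

open CoxeterSystem Crest.Agent.R61 Crest.GroupTheory

variable {S : Type} [Fintype S] [DecidableEq S] {M : CoxeterMatrix S}

namespace Unf

variable (U : Unf M) {Y : Type} [Fintype Y]

/-- the graded multiplicities of a weighted family -/
noncomputable def NN (w : Y → ℝ) (ob : Y → Obj U.Q) (g : ArtinGroup M) (i : S) (k : ℤ) : ℝ :=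
  ∑ y, w y * U.wN (U.ac (ob y) g) i k

/-- rigid and symmetric families -/
structure Good (w : Y → ℝ) (ob : Y → Obj U.Q) : Prop where
  pos : ∀ y, 0 < w y
  neg : ∀ y y' p, p < 0 → HomZero p (ob y) (ob y')
  ne : ∀ y y', y ≠ y' → HomZero 0 (ob y) (ob y')
  scal : ∀ y, EndScal (ob y)
  symm : ∀ g k v v', U.typ v = U.typ v' →
    (∑ y, w y * (hd (U.ac (ob y) g) v k : ℝ)) * U.d v' =
      (∑ y, w y * (hd (U.ac (ob y) g) v' k : ℝ)) * U.d v

variable {U} {w : Y → ℝ} {ob : Y → Obj U.Q} {J : Finset S} {g : ArtinGroup M} {i : S} {k lo hi : ℤ}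

theorem NN_eq_ws (U : Unf M) (w : Y → ℝ) (ob : Y → Obj U.Q) (g : ArtinGroup M) (i : S) (k : ℤ) :
    U.NN w ob g i k = U.ws (fun v => ∑ y, w y * (hd (U.ac (ob y) g) v k : ℝ)) i := by
  simp only [NN, wN, ws, Finset.mul_sum]
  rw [Finset.sum_comm]
  exact Finset.sum_congr rfl fun v _ => Finset.sum_congr rfl fun y _ => by ring

theorem NN_eq_zero_iff (hw : ∀ y, 0 < w y) :
    U.NN w ob g i k = 0 ↔ ∀ y v, U.typ v = i → hd (U.ac (ob y) g) v k = 0 := by
  rw [NN, Finset.sum_eq_zero_iff_of_nonneg fun y _ => mul_nonneg (hw y).le (U.wN_nonneg _ _ _)]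
  simp only [Finset.mem_univ, true_imp_iff, mul_eq_zero, (hw _).ne', false_or, U.wN_eq_zero_iff]

theorem NN_mono (hw : ∀ y, 0 < w y) {ob' : Y → Obj U.Q} {g' : ArtinGroup M} {k' : ℤ}
    (h : ∀ y v, U.typ v = i → hd (U.ac (ob y) g) v k ≤ hd (U.ac (ob' y) g') v k') :
    U.NN w ob g i k ≤ U.NN w ob' g' i k' := by
  exact Finset.sum_le_sum fun y _ => mul_le_mul_of_nonneg_left
    (U.ws_mono fun v hv => Nat.cast_le.2 (h y v hv)) (hw y).le

theorem NN_congr {ob' : Y → Obj U.Q} {g' : ArtinGroup M} {k' : ℤ}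
    (h : ∀ y v, U.typ v = i → hd (U.ac (ob y) g) v k = hd (U.ac (ob' y) g') v k') :
    U.NN w ob g i k = U.NN w ob' g' i k' := by
  refine Finset.sum_congr rfl fun y _ => ?_
  rw [wN, wN, U.ws_congr fun v hv => congrArg (Nat.cast : ℕ → ℝ) (h y v hv)]

theorem lo_iff (hw : ∀ y, 0 < w y) :
    Lo (U.NN w ob) lo g i ↔ ∀ y, U.LoO (U.ac (ob y) g) lo i := by
  simp only [Lo, NN_eq_zero_iff hw, LoO]
  exact ⟨fun h y v hv k hk => h k hk y v hv, fun h k hk y v hv => h y v hv k hk⟩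

theorem hi_iff (hw : ∀ y, 0 < w y) :
    Hi (U.NN w ob) hi g i ↔ ∀ y, U.HiO (U.ac (ob y) g) hi i := by
  simp only [Hi, NN_eq_zero_iff hw, HiO]
  exact ⟨fun h y v hv k hk => h k hk y v hv, fun h k hk y v hv => h y v hv k hk⟩

/-- `disc`: a value `≤ T` is `∑ y, w y * ∑ v with typ v = i, d v * n y v` with natural numbers
`n y v ≤ T / (w y * d v)` (put `n y v = 0` for `typ v ≠ i`). -/
theorem nAx (hw : ∀ y, 0 < w y) (ob : Y → Obj U.Q) : NAx (U.NN w ob) := by
  classical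
  refine ⟨fun g i k => Finset.sum_nonneg fun y _ => mul_nonneg (hw y).le (U.wN_nonneg _ _ _),
    fun g i s k hs => NN_congr fun y v hv => ?_, fun g => ?_, fun T => ?_⟩
  · rw [ac_mul]
    exact U.hd_ac_of_mem (J := {s}) (gen_mem_AP (Finset.mem_singleton_self s))
      (fun h => hs (by rw [← hv, Finset.mem_singleton.1 h])) _ _
  · choose n hn using fun y => exists_hd_bound (U.ac (ob y) g)
    refine ⟨Finset.univ.sup n, fun i k hk => (NN_eq_zero_iff hw).2 fun y v _ => hn y v k (le_trans ?_ hk)⟩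
    exact_mod_cast Finset.le_sup (f := n) (Finset.mem_univ y)
  · refine ((Set.finite_Iic fun p : Y × U.Q.V => ⌈T / (w p.1 * U.d p.2)⌉₊).image
      fun n => ∑ y, w y * ∑ v, U.d v * (n (y, v) : ℝ)).subset ?_
    rintro x ⟨hx, g, i, k, rfl⟩
    refine ⟨fun p => if U.typ p.2 = i then hd (U.ac (ob p.1) g) p.2 k else 0, fun p => ?_, ?_⟩
    · obtain ⟨y, v⟩ := p
      beta_reduce
      split_ifs with hv
      · have h0 := mul_pos (hw y) (U.d_pos v)
        have h1 : U.d v * (hd (U.ac (ob y) g) v k : ℝ) ≤ U.wN (U.ac (ob y) g) i k :=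
          Finset.single_le_sum (f := fun v => U.d v * (hd (U.ac (ob y) g) v k : ℝ))
            (fun v _ => mul_nonneg (U.d_pos v).le (Nat.cast_nonneg _)) (Finset.mem_filter.2 ⟨Finset.mem_univ _, hv⟩)
        have h2 : w y * U.wN (U.ac (ob y) g) i k ≤ U.NN w ob g i k :=
          Finset.single_le_sum (f := fun y => w y * U.wN (U.ac (ob y) g) i k)
            (fun y _ => mul_nonneg (hw y).le (U.wN_nonneg _ _ _)) (Finset.mem_univ y)
        have h3 : (hd (U.ac (ob y) g) v k : ℝ) ≤ T / (w y * U.d v) := by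
          rw [le_div_iff₀ h0]
          have := mul_le_mul_of_nonneg_left h1 (hw y).le
          linarith
        exact_mod_cast h3.trans (Nat.le_ceil _)
      · exact Nat.zero_le _
    · refine Finset.sum_congr rfl fun y _ => ?_
      rw [wN, ws, Finset.sum_filter]
      refine congrArg _ (Finset.sum_congr rfl fun v _ => ?_)
      by_cases hv : U.typ v = i <;> simp [hv]

/-- `nb_le_hd_Tm`, `ws_nb'` -/
theorem NN_cvx (hw : ∀ y, 0 < w y) (ob : Y → Obj U.Q) (g : ArtinGroup M) (j : S) (k : ℤ) :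
    ∑ t, aa M j t * U.NN w ob g t k ≤ U.NN w ob g j k + U.NN w ob (g * artinGen M j) j k := by
  simp only [NN, Finset.mul_sum]
  rw [Finset.sum_comm, ← Finset.sum_add_distrib]
  refine Finset.sum_le_sum fun y _ => ?_
  have h1 : ∑ t, aa M j t * (w y * U.wN (U.ac (ob y) g) t k) =
      w y * ∑ t, aa M j t * U.wN (U.ac (ob y) g) t k := by
    rw [Finset.mul_sum]
    exact Finset.sum_congr rfl fun t _ => by ring
  rw [h1, ← mul_add, ← U.ws_nb', U.wN_congr (U.ac_mul_gen _ _ _), wN, wN, ← U.ws_add]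
  refine mul_le_mul_of_nonneg_left (U.ws_mono fun v hv => ?_) (hw y).le
  exact_mod_cast nb_le_hd_Tm (U := fun v => U.typ v = j) hv _ k

theorem NN_up (hw : ∀ y, 0 < w y) {j : S} (h : Lo (U.NN w ob) lo g j)
    (hb : ∀ t, aa M j t ≠ 0 → Lo (U.NN w ob) lo g t) : Lo (U.NN w ob) lo (g * artinGen M j) j := by
  refine (lo_iff hw).2 fun y => ?_
  rw [ac_mul]
  exact ((lo_iff hw).1 h y).up fun t ht => (lo_iff hw).1 (hb t ht) y

theorem NN_down (hw : ∀ y, 0 < w y) {j : S} (h : Hi (U.NN w ob) hi g j)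
    (hb : ∀ t, aa M j t ≠ 0 → Hi (U.NN w ob) hi g t) :
    Hi (U.NN w ob) hi (g * (artinGen M j)⁻¹) j := by
  refine (hi_iff hw).2 fun y => ?_
  rw [ac_mul]
  exact ((hi_iff hw).1 h y).down fun t ht => (hi_iff hw).1 (hb t ht) y

theorem rz_of_ch (hw : ∀ y, 0 < w y) (hb : Bd (M := M) J (Lo (U.NN w ob) lo g))
    (h : Ch (U.NN w ob) J lo g) (y : Y) : U.RZ J (U.ac (ob y) g) lo := by
  exact rz_of_lo (fun i hi => (lo_iff hw).1 (h i hi) y) fun i hi j hj ha => (lo_iff hw).1 (hb i hi j hj ha) y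

theorem ch_of_rz (hw : ∀ y, 0 < w y) (hJ : Sph M J) (hb : Bd (M := M) J (Lo (U.NN w ob) lo g))
    (h : ∀ y, U.RZ J (U.ac (ob y) g) lo) : Ch (U.NN w ob) J lo g := by
  exact fun i hi => (lo_iff hw).2 fun y =>
    lo_of_rz hJ (fun i hi j hj ha => (lo_iff hw).1 (hb i hi j hj ha) y) (h y) i hi

/-- `exists_meet` for `P c = ∀ y, RZ J (ac (ob y) c) lo`, `pprime` -/
theorem NN_meet (hw : ∀ y, 0 < w y) {g' : ArtinGroup M} (hJ : Sph M J)
    (hb : Bd (M := M) J (Lo (U.NN w ob) lo g)) (hg : g⁻¹ * g' ∈ AP M J)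
    (h : Ch (U.NN w ob) J lo g) (h' : Ch (U.NN w ob) J lo g') :
    ∃ c p p', p ∈ PP M J ∧ p' ∈ PP M J ∧ g = c * p ∧ g' = c * p' ∧ Ch (U.NN w ob) J lo c := by
  have hV := (nAx hw ob).vinv_Lo lo
  have hb' : Bd (M := M) J (Lo (U.NN w ob) lo g') := by
    simpa using Bd.of_mem hV hg hb
  obtain ⟨c, p, p', hp, hp', e, e', hc⟩ := exists_meet (P := fun c => ∀ y, U.RZ J (U.ac (ob y) c) lo) hJ
    (fun c _ hc => by
      obtain ⟨y, hy⟩ := not_forall.1 hc
      obtain ⟨s, hs⟩ := pprime hy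
      exact ⟨s, fun p hp h => hs J subset_rfl p hp (by rw [← ac_mul]; exact h y)⟩)
    hg (rz_of_ch hw hb h) (rz_of_ch hw hb' h')
  refine ⟨c, p, p', hp, hp', e, e', ch_of_rz hw hJ ?_ hc⟩
  have := Bd.of_mem hV (inv_mem (mem_AP_of_PP hp)) hb
  rwa [e, mul_inv_cancel_right] at this

/-- `exists_homZero_bound`, powers of the element from `exists_raise` -/
theorem NN_exCh (hw : ∀ y, 0 < w y) (hJ : Sph M J) (hb : Bd (M := M) J (Lo (U.NN w ob) lo g)) :
    ∃ a ∈ AP M J, Ch (U.NN w ob) J lo (g * a) := by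
  obtain ⟨q, hq, hr⟩ := U.exists_raise hJ
  choose n hn using fun y => exists_homZero_bound (U.ac (ob y) g)
  have key : ∀ m : ℕ, ∀ y, U.RZ J (U.ac (ob y) (g * q ^ m)) (-(Finset.univ.sup n : ℕ) + m) := by
    intro m y
    induction m with
    | zero =>
      intro v _ k hk
      have : n y ≤ Finset.univ.sup n := Finset.le_sup (f := n) (Finset.mem_univ y)
      rw [pow_zero, mul_one]
      exact hn y v k (by omega)
    | succ m ih =>
      rw [pow_succ, ← mul_assoc, ac_mul, Nat.cast_succ, ← add_assoc]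
      exact hr _ _ ih
  have ha := mem_AP_of_PP (pow_mem hq (lo + (Finset.univ.sup n : ℕ)).toNat)
  refine ⟨_, ha, ch_of_rz hw hJ (Bd.of_mem ((nAx hw ob).vinv_Lo lo) ha hb) fun y v hv k hk => key _ y v hv k ?_⟩
  omega

/-- `RZ.up_self`, `hd_ac_le` -/
theorem NN_dem (hw : ∀ y, 0 < w y) {c q : ArtinGroup M} {s : S}
    (hb : Bd (M := M) J (Lo (U.NN w ob) lo c)) (h : Ch (U.NN w ob) J lo c) (hs : s ∈ J)
    (hq : q ∈ PP M J) (i : S) :
    U.NN w ob (c * artinGen M s * q) i lo ≤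
      U.NN w ob (c * artinGen M s * artinGen M s * q) i lo := by
  refine NN_mono hw fun y v _ => ?_
  rw [mul_assoc (c * artinGen M s), ac_mul _ _ (c * artinGen M s), ac_mul _ _ (c * artinGen M s)]
  refine hd_ac_le (fun v hv k hk => ?_) hq v
  rw [ac_mul]
  exact (rz_of_ch hw hb h y).up_self hs hv hk

/-- `homZero_of_socd`, `RZ.down` -/
theorem ch_down (hw : ∀ y, 0 < w y) (hJ : Sph M J) (hb : Bd (M := M) J (Lo (U.NN w ob) lo g))
    (h : Ch (U.NN w ob) J lo g) {s : S} (hs : s ∈ J)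
    (h0 : ∀ y v, U.typ v = s → socd (U.ac (ob y) g) v lo = 0) :
    Ch (U.NN w ob) J lo (g * (artinGen M s)⁻¹) := by
  refine ch_of_rz hw hJ (Bd.of_mem ((nAx hw ob).vinv_Lo lo) (inv_mem (gen_mem_AP hs)) hb) fun y => ?_
  rw [ac_mul]
  refine (rz_of_ch hw hb h y).down hs fun v hv => homZero_of_socd (U.ac_minimal _ _) (h0 y v hv)
    (U.nb_eq_zero fun v' hv' => ?_) ((lo_iff hw).1 (h s hs) y v hv _ (by omega))
  by_cases hj : U.typ v' ∈ J
  · exact (lo_iff hw).1 (h _ hj) y v' rfl _ (by omega)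
  · exact (lo_iff hw).1 (hb s hs _ hj (hv ▸ hv')) y v' rfl _ (by omega)

theorem hi_down_PP (hw : ∀ y, 0 < w y) (hb : Bd (M := M) J (Hi (U.NN w ob) hi g))
    (h : ∀ j ∈ J, Hi (U.NN w ob) hi g j) {q : ArtinGroup M} (hq : q ∈ PP M J) :
    ∀ j ∈ J, Hi (U.NN w ob) hi (g * q⁻¹) j := by
  have hV := (nAx hw ob).vinv_Hi hi
  refine PP_induction_left (P := fun q => ∀ j ∈ J, Hi (U.NN w ob) hi (g * q⁻¹) j) (by simpa using h)
    (fun p s hp hs ih j hj => ?_) hq
  rw [mul_inv_rev, ← mul_assoc]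
  by_cases hjs : j = s
  · subst hjs
    refine NN_down hw (ih j hj) fun t ht => ?_
    by_cases htJ : t ∈ J
    · exact ih t htJ
    · exact Bd.of_mem hV (inv_mem (mem_AP_of_PP hp)) hb j hj t htJ ht
  · exact (hV.of_mem (J := {s}) (inv_mem (gen_mem_AP (Finset.mem_singleton_self s)))
      (fun h => hjs (Finset.mem_singleton.1 h))).2 (ih j hj)

end Unf

end Crest.Agent.R175
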