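import Crest.Agent.R175.NT
import Crest.Agent.R175.Fam
import Crest.Agent.R175.C1

/-!
# R175: the antipodal case (`OneS.anti`).
-/

set_option autoImplicit false

namespace Crest.Agent.R175

open CoxeterSystem Crest.Agent.R61 Crest.GroupTheory

variable {S : Type} [Fintype S] [DecidableEq S] {M : CoxeterMatrix S}

namespace Unf

variable {U : Unf M} {Y : Type} [Fintype Y] {w : Y → ℝ} {J : Finset S} {b : S → ℝ}

theorem A7_sum {L : Y → Obj U.Q} (hL : ∀ y, IsMod (L y))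
    (htop : ∀ y v, U.typ v ∈ J → topd (L y) v 0 = 0) (u : WJ M J) (j : {s // s ∈ J}) :
    U.NN w L (LJ M J u) j.1 0 + U.NN w L (LJ M J (u * (csJ M J).simple j)) j.1 0 =
      ∑ t, aa M j.1 t * U.NN w L (LJ M J u) t 0 := by
  unfold NN
  simp only [Finset.mul_sum]
  rw [← Finset.sum_add_distrib, Finset.sum_comm]
  refine Finset.sum_congr rfl fun y _ => ?_
  rw [← mul_add, U.wN_noTop (hL y) (htop y) u j, Finset.mul_sum]
  exact Finset.sum_congr rfl fun t _ => by ring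

/-- Let `φ = aptF (NN w L) J 1 0 b`.  By `wN_noTop` and `hh` all slacks in `lamv_sub` vanish, so
`lamv φ u = lamv φ 1 = φ 1` for all `u` (induction on `u`).  `lamv φ w₀ = ∑ j, φ w₀ j • rep w₀ α_j ≤ 0`
by `rep_neg`. -/
theorem anti_noTop (hw : ∀ y, 0 < w y) {L : Y → Obj U.Q} (hL : ∀ y, IsMod (L y))
    (htop : ∀ y v, U.typ v ∈ J → topd (L y) v 0 = 0)
    (hh : ∀ j ∈ J, 2 * b j - ∑ k ∈ J, aa M j k * b k = ∑ k ∈ Jᶜ, aa M j k * U.NN w L 1 k 0)
    {w₀ : WJ M J}
    (hw₀ : ∀ i, (csJ M J).length (w₀ * (csJ M J).simple i) < (csJ M J).length w₀)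
    (h0 : ∀ j ∈ J, b j ≤ U.NN w L (LJ M J w₀) j 0) {t : S} (ht : t ∈ J) :
    U.NN w L 1 t 0 ≤ b t := by
  have hA := nAx (U := U) hw L
  have hφ : LocCvx (csJ M J) (aptF (U.NN w L) J 1 0 b) :=
    locCvx_aptF hA (NN_cvx hw L) fun j hj => (hh j hj).le
  have h1 : ∀ (u : WJ M J) (j : {s // s ∈ J}), lamv (csJ M J) (aptF (U.NN w L) J 1 0 b) u =
      lamv (csJ M J) (aptF (U.NN w L) J 1 0 b) (u * (csJ M J).simple j) := fun u j => by
    rw [← sub_eq_zero, lamv_sub hφ]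
    refine smul_eq_zero_of_left ?_ _
    have a1 := A7_sum (w := w) hL htop u j
    have a2 := sum_kk_res (M := M) J j fun k => U.NN w L (LJ M J u) k 0 - b k
    have a3 : ∑ k ∈ Jᶜ, aa M j.1 k * U.NN w L 1 k 0 =
        ∑ k ∈ Jᶜ, aa M j.1 k * U.NN w L (LJ M J u) k 0 :=
      Finset.sum_congr rfl fun k hk => by
        rw [← hA.of_mem (LJ_mem_AP J u) (Finset.mem_compl.1 hk), one_mul]
    have a4 := hh j.1 j.2
    rw [← Finset.sum_add_sum_compl J] at a1
    simp only [mul_sub, Finset.sum_sub_distrib] at a2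
    simp only [aptF, mul_sub, Finset.sum_sub_distrib, one_mul]
    linarith
  have h2 : ∀ u : WJ M J, lamv (csJ M J) (aptF (U.NN w L) J 1 0 b) u =
      aptF (U.NN w L) J 1 0 b 1 := fun u => by
    induction u using (csJ M J).simple_induction_right with
    | one => exact apt_one _
    | mul_simple_right u j ih => rw [← h1, ih]
  have h3 := apt_expand (cs := csJ M J) w₀ 1 ⟨t, ht⟩ (lamv (csJ M J) (aptF (U.NN w L) J 1 0 b) w₀)
  simp only [pair_lamv_self] at h3
  rw [inv_one, apt_one, h2, one_mul] at h3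
  have h4 : aptF (U.NN w L) J 1 0 b 1 ⟨t, ht⟩ ≤ 0 := by
    rw [h3]
    refine Finset.sum_nonpos fun k _ => mul_nonpos_of_nonpos_of_nonneg (rep_neg _ (hw₀ k) _) ?_
    unfold aptF
    rw [one_mul]
    exact sub_nonneg.2 (h0 k.1 k.2)
  unfold aptF at h4
  rw [LJ_one, one_mul] at h4
  exact sub_nonpos.1 h4

/-- `locCvx_aptF`, `pair_lamv_le` with `w' = 1` -/
theorem anti_orth (hw : ∀ y, 0 < w y) {L : Y → Obj U.Q}
    (hh : ∀ j ∈ J, 2 * b j - ∑ k ∈ J, aa M j k * b k = ∑ k ∈ Jᶜ, aa M j k * U.NN w L 1 k 0)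
    {s i i' : {s // s ∈ J}} {u u' : WJ M J} {c c' : ℝ} (hc : 0 < c) (hc' : 0 < c')
    (hu : ∀ v : {s // s ∈ J} → ℝ, rep (csJ M J) u⁻¹ v i = c * ∑ j, kk (res M J) s j * v j)
    (hu' : ∀ v : {s // s ∈ J} → ℝ, rep (csJ M J) u'⁻¹ v i' = -c' * ∑ j, kk (res M J) s j * v j)
    (h1 : U.NN w L (LJ M J u) i.1 0 ≤ b i.1) (h2 : U.NN w L (LJ M J u') i'.1 0 ≤ b i'.1) :
    ∑ j : {s // s ∈ J}, kk (res M J) s j * (U.NN w L 1 j.1 0 - b j.1) = 0 := by
  have hφ : LocCvx (csJ M J) (aptF (U.NN w L) J 1 0 b) :=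
    locCvx_aptF (nAx hw L) (NN_cvx hw L) fun j hj => (hh j hj).le
  have a1 := pair_lamv_le hφ u 1 i
  have a2 := pair_lamv_le hφ u' 1 i'
  rw [hu] at a1
  rw [hu'] at a2
  simp only [lamv, apt_one, aptF, LJ_one, one_mul] at a1 a2
  refine le_antisymm (nonpos_of_mul_nonpos_right (by linarith) hc) ?_
  by_contra h3
  have := mul_pos hc' (neg_pos.2 (not_le.1 h3))
  linarith

/-- Induction on `∑ y, ∑ v, hd (L y) v 0`.  If `topd (L y) v 0 ≠ 0` with `typ v ∈ J`, let `L'` be `L`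
with `L y` replaced by the `M₁` of `exists_quot_simple` (`Function.update`).  The hypotheses pass to
`L'`: `hh` because `hd` does not change outside `v`; `h1`, `h2` by `ac_tri`, `Tri.hd_left`, `gLo_ac`;
`h0` by `Tri.hd_mid`, `gLo_simple_top`.  `anti_orth` for `L` and `L'` gives `kk s (typ v) = 0`
(`NN w L 1 j 0 = NN w L' 1 j 0 + if typ v = j then w y * d v else 0`), so `typ v ≠ t`. -/
theorem anti_mod (hw : ∀ y, 0 < w y) {s t i i' : {s // s ∈ J}} {u u' w₀ : WJ M J} {c c' : ℝ}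
    (hst : aa M s.1 t.1 ≠ 0) (hc : 0 < c) (hc' : 0 < c')
    (hu : ∀ v : {s // s ∈ J} → ℝ, rep (csJ M J) u⁻¹ v i = c * ∑ j, kk (res M J) s j * v j)
    (hu' : ∀ v : {s // s ∈ J} → ℝ, rep (csJ M J) u'⁻¹ v i' = -c' * ∑ j, kk (res M J) s j * v j)
    (hw₀ : ∀ i, (csJ M J).length (w₀ * (csJ M J).simple i) < (csJ M J).length w₀ ∧
      (csJ M J).length ((csJ M J).simple i * w₀) < (csJ M J).length w₀)
    (L : Y → Obj U.Q) (hL : ∀ y, IsMod (L y))
    (hh : ∀ j ∈ J, 2 * b j - ∑ k ∈ J, aa M j k * b k = ∑ k ∈ Jᶜ, aa M j k * U.NN w L 1 k 0)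
    (h1 : U.NN w L (LJ M J u) i.1 0 ≤ b i.1) (h2 : U.NN w L (LJ M J u') i'.1 0 ≤ b i'.1)
    (h0 : ∀ j ∈ J, b j ≤ U.NN w L (LJ M J w₀) j 0) : U.NN w L 1 t.1 0 ≤ b t.1 := by
  classical
  induction hn : ∑ y, ∑ v, hd (L y) v 0 using Nat.strong_induction_on generalizing L with
  | _ N ih =>
  by_cases hex : ∃ y v, U.typ v ∈ J ∧ topd (L y) v 0 ≠ 0
  swap
  · refine anti_noTop hw hL (fun y v hv => ?_) hh (fun i => (hw₀ i).1) h0 t.2
    by_contra h3
    exact hex ⟨y, v, hv, h3⟩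
  obtain ⟨y, v, hv, ht⟩ := hex
  obtain ⟨M₁, hM, hT, hdM⟩ := exists_quot_simple (hL y) ht
  have hs0 : GLo (simple v) 0 := fun x k hk => (simple_isMod v).hd_eq_zero x hk.ne
  have ha : ∀ y', IsMod (Function.update L y M₁ y') := fun y' => by
    by_cases e : y' = y
    · subst e
      rwa [Function.update_self]
    · rw [Function.update_of_ne e]
      exact hL y'
  have hb : ∀ (x : WJ M J) j, U.NN w (Function.update L y M₁) (LJ M J x) j 0 ≤
      U.NN w L (LJ M J x) j 0 := fun x j => NN_mono hw fun y' v' _ => by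
    by_cases e : y' = y
    · subst e
      have := (U.ac_tri hT (LJ M J x)).hd_left v' 0
      rw [U.gLo_ac (LJ_mem_PP J x) hs0 v' _ (by norm_num), zero_add] at this
      rwa [Function.update_self]
    · rw [Function.update_of_ne e]
  have hc0 : ∀ j, U.NN w L (LJ M J w₀) j 0 ≤
      U.NN w (Function.update L y M₁) (LJ M J w₀) j 0 := fun j => NN_mono hw fun y' v' _ => by
    by_cases e : y' = y
    · subst e
      have := (U.ac_tri hT (LJ M J w₀)).hd_mid v' 0
      rw [U.gLo_simple_top (fun i => (hw₀ i).2) hv v' _ (by norm_num), add_zero] at this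
      rwa [Function.update_self]
    · rw [Function.update_of_ne e]
  have he : ∀ j, U.NN w L 1 j 0 = U.NN w (Function.update L y M₁) 1 j 0 +
      w y * (if U.typ v = j then U.d v else 0) := fun j => by
    unfold NN
    simp only [U.wN_congr (U.ac_one _)]
    rw [← Finset.add_sum_erase _ _ (Finset.mem_univ y), ← Finset.add_sum_erase _ _
      (Finset.mem_univ y), Function.update_self, add_right_comm, ← mul_add, ← U.ws_ite]
    congr 1
    · unfold wN
      rw [← U.ws_add]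
      congr 1
      refine U.ws_congr fun x _ => ?_
      rw [← hdM x]
      push_cast
      rfl
    · exact Finset.sum_congr rfl fun y' hy' => by
        rw [Function.update_of_ne (Finset.ne_of_mem_erase hy')]
  have hh' : ∀ j ∈ J, 2 * b j - ∑ k ∈ J, aa M j k * b k =
      ∑ k ∈ Jᶜ, aa M j k * U.NN w (Function.update L y M₁) 1 k 0 := fun j hj => by
    rw [hh j hj]
    refine Finset.sum_congr rfl fun k hk => ?_
    rw [he k, if_neg (fun e : U.typ v = k => Finset.mem_compl.1 hk (e ▸ hv)), mul_zero, add_zero]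
  have o1 := anti_orth hw hh hc hc' hu hu' h1 h2
  have o2 := anti_orth hw hh' hc hc' hu hu' ((hb u _).trans h1) ((hb u' _).trans h2)
  have hvt : U.typ v ≠ t.1 := fun e => by
    have o3 : ∑ j : {s // s ∈ J}, kk (res M J) s j * (w y * (if U.typ v = j.1 then U.d v else 0)) =
        0 := by
      simp only [he, add_sub_right_comm, mul_add, Finset.sum_add_distrib] at o1
      rwa [o2, zero_add] at o1
    rw [Finset.sum_eq_single t (fun j _ hj => by
      rw [if_neg fun e' => hj (Subtype.ext (e'.symm.trans e)), mul_zero, mul_zero]) (by simp),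
      if_pos e, kk_res] at o3
    rw [aa_of_ne (ne_of_aa_ne_zero hst), neg_ne_zero] at hst
    exact mul_ne_zero hst (mul_pos (hw y) (U.d_pos v)).ne' o3
  rw [he, if_neg hvt, mul_zero, add_zero]
  refine ih _ ?_ _ ha hh' ((hb u _).trans h1) ((hb u' _).trans h2)
    (fun j hj => (h0 j hj).trans (hc0 j)) rfl
  rw [← hn]
  have hlt : ∑ x, hd M₁ x 0 < ∑ x, hd (L y) x 0 :=
    Finset.sum_lt_sum (fun x _ => by rw [← hdM x]; omega)
      ⟨v, Finset.mem_univ _, by rw [← hdM v, if_pos rfl]; omega⟩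
  refine Finset.sum_lt_sum (fun y' _ => ?_) ⟨y, Finset.mem_univ _, by rwa [Function.update_self]⟩
  by_cases e : y' = y
  · subst e
    rw [Function.update_self]
    exact hlt.le
  · rw [Function.update_of_ne e]

/-- `hd_ac_cohM` -/
theorem NN_cohM (hw : ∀ y, 0 < w y) {ob : Y → Obj U.Q} {g q : ArtinGroup M} {lo : ℤ}
    (hb : Bd (M := M) J (Lo (U.NN w ob) lo g)) (h : Ch (U.NN w ob) J lo g) (hq : q ∈ PP M J)
    (i : S) : U.NN w (fun y => cohM (U.ac (ob y) g) (U.ac_minimal _ _) lo) q i 0 =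
      U.NN w ob (g * q) i lo := by
  refine NN_congr fun y v _ => ?_
  rw [U.ac_mul]
  exact U.hd_ac_cohM _ (fun j hj => (lo_iff hw).1 (h j hj) y)
    (fun j hj k hk hjk => (lo_iff hw).1 (hb j hj k hk hjk) y) hq v

/-- all fields but `anti` are in `Fam.lean`; `anti`: `anti_mod` for the `cohM (ac (ob y) g) lo` -/
theorem oneS (hw : ∀ y, 0 < w y) (ob : Y → Obj U.Q) : OneS (U.NN w ob) := by
  refine ⟨NN_cvx hw ob, fun g j lo h hb => NN_up hw h hb,
    fun J g g' lo hJ hb hg h h' => NN_meet hw hJ hb hg h h', fun J g lo hJ hb => NN_exCh hw hJ hb,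
    fun J c lo s q i hb hc hs hq => NN_dem hw hb hc hs hq i, ?_⟩
  intro J g lo b s t u u' i i' c c' hJ hb hc hh hst hc0 hc0' hu hu' h1 h2 h0
  obtain ⟨w₀, hw₀⟩ := hJ.exists_top
  have e1 := fun j => NN_cohM hw hb hc (one_mem _) j
  have e2 := fun (x : WJ M J) j => NN_cohM hw hb hc (LJ_mem_PP J x) j
  simp only [mul_one] at e1
  rw [← e1]
  refine anti_mod hw hst hc0 hc0' hu hu' hw₀ _ (fun y => cohM_isMod _ _ _) ?_ ?_ ?_ ?_
  · simpa only [e1] using hh
  · rwa [e2]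
  · rwa [e2]
  · intro j hj
    rw [e2]
    exact h0 w₀ ⟨j, hj⟩

end Unf

end Crest.Agent.R175
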