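import Crest.Agent.R175.Coh

/-!
# R175: the Euler form.
For modules `X, Y` the complex `homSub 0 → homSub 1 → homSub 2` has terms of dimensions
`∑ v, x_v y_v`, `∑ a, x_{src a} y_{tgt a}`, `∑ v, x_v y_v` (`x_v = cnt X v 0`).  As `H¹ = 0`,
`dim C¹ = dim ker D₁ + dim im D₁ ≤ dim C⁰ + dim C²`; so one needs upper bounds for `dim C⁰`, `dim C²`
(inject into functions on `{(j, i) | vtx j = vtx i}` by `c0`, resp. `c2`) and a lower bound for
`dim C¹` (inject the functions on `{(a, j, i) | src a = vtx i ∧ tgt a = vtx j}`).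
-/

set_option autoImplicit false

namespace Crest.Agent.R175

open Matrix

variable {Q : Qv}

theorem euler_hd {X : Obj Q} (hX : IsMod X) (v : Q.V) :
    hd X v 0 = ∑ i, if X.vtx i = v then 1 else 0 := by
  rw [hX.minimal.hd_eq_cnt, cnt, Finset.card_filter]
  simp only [hX _, and_true]

theorem euler_sum {X : Obj Q} (hX : IsMod X) (g : Q.V → ℕ) :
    ∑ v, hd X v 0 * g v = ∑ i, g (X.vtx i) := by
  simp only [euler_hd hX, Finset.sum_mul, ite_mul, one_mul, zero_mul]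
  rw [Finset.sum_comm]
  simp only [Finset.sum_ite_eq, Finset.mem_univ, if_true]

/-- `Dd` as a linear map -/
noncomputable def eulerD (X Y : Obj Q) (p : ℤ) : Mor X.toGr Y.toGr →ₗ[ℝ] Mor X.toGr Y.toGr where
  toFun := Dd X Y p
  map_add' _ _ := Dd_add
  map_smul' r _ := Dd_smul r

/-- pairs of indices at the same vertex -/
abbrev eulerP (X Y : Gr Q) : Type := {p : X.ι × Y.ι // Y.vtx p.2 = X.vtx p.1}

/-- pairs of indices joined by an arrow -/
abbrev eulerT (X Y : Gr Q) : Type :=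
  {t : X.ι × Q.A × Y.ι // Q.src t.2.1 = X.vtx t.1 ∧ Y.vtx t.2.2 = Q.tgt t.2.1}

noncomputable def eulerE0 (X Y : Gr Q) : (eulerP X Y → ℝ) →ₗ[ℝ] Mor X Y where
  toFun ψ := Matrix.of fun j i => Z.sc (if h : Y.vtx j = X.vtx i then ψ ⟨(i, j), h⟩ else 0)
  map_add' _ _ := by ext j i a <;> simp <;> split_ifs <;> simp
  map_smul' _ _ := by ext j i a <;> simp

noncomputable def eulerE1 (X Y : Gr Q) : (eulerT X Y → ℝ) →ₗ[ℝ] Mor X Y where
  toFun φ := Matrix.of fun j i =>
    ⟨0, fun a => if h : Q.src a = X.vtx i ∧ Y.vtx j = Q.tgt a then φ ⟨(i, a, j), h⟩ else 0, 0⟩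
  map_add' _ _ := by ext j i a <;> simp <;> split_ifs <;> simp
  map_smul' _ _ := by ext j i a <;> simp

def eulerR1 (X Y : Gr Q) : Mor X Y →ₗ[ℝ] (eulerT X Y → ℝ) where
  toFun f t := (f t.1.2.2 t.1.1).c1 t.1.2.1
  map_add' _ _ := rfl
  map_smul' _ _ := rfl

def eulerR2 (X Y : Gr Q) : Mor X Y →ₗ[ℝ] (eulerP X Y → ℝ) where
  toFun f p := (f p.1.2 p.1.1).c2
  map_add' _ _ := rfl
  map_smul' _ _ := rfl

theorem euler_ker {X Y : Obj Q} (hX : IsMod X) (hY : IsMod Y) (h1 : HomZero 1 X Y) :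
    LinearMap.ker (eulerR2 _ _ ∘ₗ eulerD X Y 1 ∘ₗ eulerE1 _ _) ≤
      LinearMap.range (eulerR1 _ _ ∘ₗ eulerD X Y 0 ∘ₗ eulerE0 _ _) := by
  intro φ hφ
  have hh : IsHom X.toGr Y.toGr 1 (eulerE1 _ _ φ) := fun j i =>
    ⟨fun h => absurd rfl h, fun a h => by
      have h' : Q.src a = X.vtx i ∧ Y.vtx j = Q.tgt a := by_contra fun hc => h (dif_neg hc)
      exact ⟨h'.1, h'.2.symm, by rw [hX i, hY j]; rfl⟩, fun h => absurd rfl h⟩
  obtain ⟨g, hg, e⟩ := h1 _ ⟨hh, by
    ext j i a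
    all_goals
      obtain ⟨b0, b1, b2⟩ := hh.Dd j i
      rw [hX i, hY j] at b0 b1 b2
      by_contra hc
    · exact absurd (b0 hc).2 (by norm_num)
    · exact absurd (b1 a hc).2.2 (by norm_num)
    · exact hc (congrFun hφ ⟨(i, j), (b2 hc).1⟩)⟩
  have e0 : eulerE0 _ _ (fun p => (g p.1.2 p.1.1).c0) = g := by
    ext j i a
    all_goals
      obtain ⟨b0, b1, b2⟩ := hg j i
      rw [hX i, hY j] at b0 b1 b2
    · show dite _ _ _ = _
      split_ifs with h
      · rfl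
      · exact (by_contra fun hc => h (b0 hc).1 : (g j i).c0 = 0).symm
    · exact (by_contra fun hc => absurd (b1 a hc).2.2 (by norm_num) : (g j i).c1 a = 0).symm
    · exact (by_contra fun hc => absurd (b2 hc).2 (by norm_num) : (g j i).c2 = 0).symm
  refine ⟨fun p => (g p.1.2 p.1.1).c0, ?_⟩
  rw [LinearMap.comp_apply, LinearMap.comp_apply, e0]
  refine (congrArg (eulerR1 _ _) e.symm).trans (funext fun t => ?_)
  exact dif_pos t.2

theorem euler_ineq {X Y : Obj Q} (hX : IsMod X) (hY : IsMod Y) (h1 : HomZero 1 X Y) :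
    ∑ v, hd X v 0 * nb Y v 0 ≤ 2 * ∑ v, hd X v 0 * hd Y v 0 := by
  have hP : Fintype.card (eulerP X.toGr Y.toGr) = ∑ v, hd X v 0 * hd Y v 0 := by
    rw [euler_sum hX, Fintype.card_subtype, Finset.card_filter, Fintype.sum_prod_type]
    simp only [euler_hd hY]
  have hT : Fintype.card (eulerT X.toGr Y.toGr) = ∑ v, hd X v 0 * nb Y v 0 := by
    rw [euler_sum hX, Fintype.card_subtype, Finset.card_filter, Fintype.sum_prod_type]
    refine Finset.sum_congr rfl fun i _ => ?_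
    rw [nb, Finset.sum_filter, Fintype.sum_prod_type]
    refine Finset.sum_congr rfl fun a _ => ?_
    split_ifs with h <;> simp only [euler_hd hY, h, true_and, false_and, if_false, Finset.sum_const_zero]
  have a1 := LinearMap.finrank_range_add_finrank_ker (eulerR2 _ _ ∘ₗ eulerD X Y 1 ∘ₗ eulerE1 _ _)
  have a2 := Submodule.finrank_le (LinearMap.range (eulerR2 _ _ ∘ₗ eulerD X Y 1 ∘ₗ eulerE1 _ _))
  have a3 := (Submodule.finrank_mono (euler_ker hX hY h1)).trans (LinearMap.finrank_range_le _)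
  rw [Module.finrank_fintype_fun_eq_card] at a1 a2 a3
  omega

end Crest.Agent.R175
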