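import Crest.Agent.R175.A7
import Crest.Agent.R175.Euler

/-!
# R175: minimisers (`HasA0`), part 1: the choice of the chamber.
-/

set_option autoImplicit false

namespace Crest.Agent.R175

open CoxeterSystem Crest.Agent.R61 Crest.GroupTheory

variable {S : Type} [Fintype S] [DecidableEq S] {M : CoxeterMatrix S}

namespace Unf

variable {U : Unf M} {Y : Type} [Fintype Y] {w : Y → ℝ} {ob : Y → Obj U.Q} {J : Finset S}
  {g : ArtinGroup M} {lo hi h : ℤ}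

/-- `exists_topM` for `F = ac (ob y) g` (`aa_ne_zero_of_arr`).  Rigidity: `homZero_ac_iff`,
`endScal_ac`; for `1 + lo - h = 0` use `Good.ne` or `EndScal.exact_of_m0`. -/
theorem Good.exists_top (hG : U.Good w ob) (hlh : lo < h) (hc : Ch (U.NN w ob) J lo g)
    (hh : ∀ j ∈ J, Hi (U.NN w ob) h g j) (hb : Bd (M := M) J (Hi (U.NN w ob) (h - 1) g)) :
    ∃ P : Y → Obj U.Q, ∀ y, IsMod (P y) ∧
      (∀ v, hd (P y) v 0 = if U.typ v ∈ J then hd (U.ac (ob y) g) v h else 0) ∧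
      (∀ v, U.typ v ∈ J → topd (P y) v 0 = topd (U.ac (ob y) g) v h) ∧
      ∀ y', HomZero 0 (P y) (cohM (U.ac (ob y') g) (U.ac_minimal _ _) lo) ∧
        HomZero 1 (P y) (cohM (U.ac (ob y') g) (U.ac_minimal _ _) lo) := by
  have hw := hG.pos
  choose P hP using fun y => exists_topM (U.ac_minimal (ob y) g) h (fun v => U.typ v ∈ J)
    fun a h1 h2 => (hi_iff hw).1 (hb _ h1 _ h2 (U.aa_ne_zero_of_arr a)) y _ rfl h (by omega)
  refine ⟨P, fun y => ⟨(hP y).1, (hP y).2.1, (hP y).2.2.1, fun y' => ?_⟩⟩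
  obtain ⟨h1, h2⟩ := (hP y).2.2.2 (U.ac (ob y') g) (U.ac_minimal _ _) lo
  refine ⟨h1 (fun v hv => ⟨(hi_iff hw).1 (hh _ hv) y v rfl _ (by omega),
    (lo_iff hw).1 (hc _ hv) y' v rfl _ (by omega)⟩)
    ((U.homZero_ac_iff g).2 (hG.neg y y' _ (by omega))), h2 fun f hf h0 => ?_⟩
  by_cases e : 1 + lo - h = 0
  · by_cases e' : y = y'
    · subst e'
      exact ((U.endScal_ac (hG.scal y) g).exact_of_m0 (U.ac_minimal _ _) (hf.of_eq e) h0).of_eq
        e.symm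
    · exact ((U.homZero_ac_iff g).2 (hG.ne y y' e') f (hf.of_eq e)).of_eq e.symm
  · exact (U.homZero_ac_iff g).2 (hG.neg y y' _ (by omega)) f hf

theorem topd_eq_hd_ac (hw : ∀ y, 0 < w y) (hh : ∀ j ∈ J, Hi (U.NN w ob) h g j)
    (hb : Bd (M := M) J (Hi (U.NN w ob) h g)) (y : Y) {v : U.Q.V} (hv : U.typ v ∈ J) :
    hd (U.ac (ob y) (g * artinGen M (U.typ v))) v (h + 1) = topd (U.ac (ob y) g) v h := by
  rw [(U.ac_mul_gen _ _ _).hd_eq]
  refine hd_Tm_top (U := fun x => U.typ x = U.typ v) (U.ac_minimal _ _) rfl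
    ((hi_iff hw).1 (hh _ hv) y v rfl _ (by omega)) (U.nb_eq_zero fun x hx => ?_)
  by_cases e : U.typ x ∈ J
  · exact (hi_iff hw).1 (hh _ e) y x rfl _ (by omega)
  · exact (hi_iff hw).1 (hb _ hv _ e hx) y x rfl _ (by omega)

/-- By `topd_eq_hd_ac` and `Good.symm`, for every `v'` of type `typ v` some `topd (ac (ob y₁) g) v' h`
is non-zero; `Good.exists_top`, `not_homZero_of_top_soc`, `socd_cohM`. -/
theorem Good.socd_eq_zero (hG : U.Good w ob) (hlh : lo < h) (hc : Ch (U.NN w ob) J lo g)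
    (hh : ∀ j ∈ J, Hi (U.NN w ob) h g j) (hb : Bd (M := M) J (Hi (U.NN w ob) (h - 1) g))
    {y : Y} {v : U.Q.V} (hv : U.typ v ∈ J) (ht : topd (U.ac (ob y) g) v h ≠ 0) (y' : Y)
    (v' : U.Q.V) (hv' : U.typ v' = U.typ v) : socd (U.ac (ob y') g) v' lo = 0 := by
  have hw := hG.pos
  have hb' : Bd (M := M) J (Hi (U.NN w ob) h g) := fun i hi j hj hij k hk =>
    hb i hi j hj hij k (by omega)
  have hv2 : U.typ v' ∈ J := by rwa [hv']
  have h1 := hG.symm (g * artinGen M (U.typ v)) (h + 1) v v' hv'.symm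
  have h2 : 0 < ∑ y, w y * (hd (U.ac (ob y) (g * artinGen M (U.typ v))) v (h + 1) : ℝ) := by
    refine Finset.sum_pos' (fun y _ => mul_nonneg (hw y).le (Nat.cast_nonneg _))
      ⟨y, Finset.mem_univ _, mul_pos (hw y) ?_⟩
    rw [topd_eq_hd_ac hw hh hb' y hv]
    exact_mod_cast Nat.pos_of_ne_zero ht
  have h3 : ∑ y, w y * (hd (U.ac (ob y) (g * artinGen M (U.typ v))) v' (h + 1) : ℝ) ≠ 0 :=
    fun e => by
      rw [e, zero_mul] at h1
      exact (mul_pos h2 (U.d_pos v')).ne' h1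
  obtain ⟨y₁, -, h4⟩ := Finset.exists_ne_zero_of_sum_ne_zero h3
  rw [← hv', topd_eq_hd_ac hw hh hb' y₁ hv2] at h4
  obtain ⟨P, hP⟩ := hG.exists_top hlh hc hh hb
  by_contra h5
  refine not_homZero_of_top_soc (v := v') (hP y₁).1 (cohM_isMod _ _ _) ?_ ?_ ((hP y₁).2.2.2 y').1
  · rw [(hP y₁).2.2.1 v' hv2]
    exact fun e => h4 (by rw [e, Nat.cast_zero, mul_zero])
  · rwa [socd_cohM]

/-- Let `h` be the least integer such that some `a ∈ A_{J ∖ i}` has `Ch (g a)` and `Hi h (g a) j` for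
all `j ∈ J` (`exists_ch`, `NAx.fin`; `h > hi` because of the vertex `i`; `Int.exists_least_of_bdd`).
Let `u ∈ W_{J ∖ i}` be of maximal length with `Ch (g a (LJ u)⁻¹)` (`Sph.finite`), `a' = a (LJ u)⁻¹`.
`Hi h` holds at `g a (LJ u')⁻¹` for all `u'` (`hi_down_PP` for `J.erase i`, `Bd.erase`).  Let
`s = typ v ∈ J ∖ i`.  If `ℓ (s u) < ℓ u` then `g a' s = g a (LJ (s u))⁻¹`, use `topd_eq_hd_ac`.  Otherwise
`g a' s⁻¹ = g a (LJ (s u))⁻¹` is not `Ch`, use `socd_eq_zero`, `ch_down`. -/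
theorem Good.exists_chamber (hG : U.Good w ob) (hJ : Sph M J) (hlh : lo ≤ hi)
    (hlo : Bd (M := M) J (Lo (U.NN w ob) lo g)) (hhi : Bd (M := M) J (Hi (U.NN w ob) hi g))
    {i : S} (hi' : i ∈ J) (h1 : Lo (U.NN w ob) lo g i) (h2 : ¬ Hi (U.NN w ob) hi g i) :
    ∃ a ∈ AP M (J.erase i), ∃ h, hi < h ∧ Ch (U.NN w ob) J lo (g * a) ∧
      (∀ j ∈ J, Hi (U.NN w ob) h (g * a) j) ∧ (∃ j ∈ J, U.NN w ob (g * a) j h ≠ 0) ∧
      ∀ y v, U.typ v ∈ J.erase i → topd (U.ac (ob y) (g * a)) v h = 0 := by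
  have hw := hG.pos
  have hA := nAx (U := U) hw ob
  have hO := oneS (U := U) hw ob
  have hmono : ∀ {x y : ℤ} {c : ArtinGroup M} {j : S}, x ≤ y → Hi (U.NN w ob) x c j →
      Hi (U.NN w ob) y c j := fun hxy h3 k hk => h3 k (by omega)
  have hlt : ∀ x : ℤ, (∃ a ∈ AP M (J.erase i), Ch (U.NN w ob) J lo (g * a) ∧
      ∀ j ∈ J, Hi (U.NN w ob) x (g * a) j) → hi < x := fun x ⟨a, ha, _, h3⟩ => by
    by_contra h4
    exact h2 (((hA.vinv_Hi hi).of_mem ha (Finset.notMem_erase _ _)).1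
      (hmono (not_lt.1 h4) (h3 i hi')))
  obtain ⟨h, hP, hleast⟩ := Int.exists_least_of_bdd ⟨hi, fun x hx => (hlt x hx).le⟩ (by
    obtain ⟨a, ha, h3⟩ := exists_ch hA hO hJ hlo h1
    obtain ⟨m, hm⟩ := hA.fin (g * a)
    exact ⟨m, a, ha, h3, fun j _ k hk => hm j k (hk.le.trans (le_abs_self k))⟩)
  have hh := hlt h hP
  obtain ⟨a, ha, hc, hH⟩ := hP
  have hsub := Finset.erase_subset i J
  have := (hJ.mono hsub).finite
  obtain ⟨u, hu, hmax⟩ := Set.exists_max_image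
    {u : WJ M (J.erase i) | Ch (U.NN w ob) J lo (g * (a * (LJ M (J.erase i) u)⁻¹))}
    (csJ M (J.erase i)).length (Set.toFinite _) ⟨1, by simpa [LJ_one] using hc⟩
  have hmem : ∀ x : WJ M (J.erase i), a * (LJ M (J.erase i) x)⁻¹ ∈ AP M (J.erase i) := fun x =>
    mul_mem ha (inv_mem (LJ_mem_AP _ x))
  have hbd : ∀ x : ℤ, hi ≤ x → ∀ c ∈ AP M (J.erase i), Bd (M := M) J (Hi (U.NN w ob) x (g * c)) :=
    fun x hx c hc => Bd.of_mem (hA.vinv_Hi x) (AP_mono hsub hc)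
      fun j hj k hk hjk => hmono hx (hhi j hj k hk hjk)
  have hHi : ∀ x : WJ M (J.erase i), ∀ j ∈ J,
      Hi (U.NN w ob) h (g * (a * (LJ M (J.erase i) x)⁻¹)) j := fun x j hj => by
    rw [← mul_assoc]
    by_cases e : j = i
    · subst e
      exact ((hA.vinv_Hi h).of_mem (inv_mem (LJ_mem_AP _ x)) (Finset.notMem_erase _ _)).2 (hH j hj)
    · exact hi_down_PP hw ((hbd h hh.le a ha).erase (hH i hi')) (fun k hk => hH k (hsub hk))
        (LJ_mem_PP _ x) j (Finset.mem_erase.2 ⟨e, hj⟩)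
  refine ⟨_, hmem u, h, hh, hu, hHi u, ?_, fun y v hv => ?_⟩
  · by_contra h3
    push Not at h3
    have := hleast (h - 1) ⟨_, hmem u, hu, fun j hj k hk => by
      by_cases e : k = h
      · rw [e]
        exact h3 j hj
      · exact hHi u j hj k (by omega)⟩
    omega
  rcases lt_or_gt_of_ne ((csJ M (J.erase i)).length_simple_mul_ne u ⟨_, hv⟩) with e | e
  · have e2 : LJ M (J.erase i) u = artinGen M (U.typ v) *
        LJ M (J.erase i) ((csJ M (J.erase i)).simple ⟨_, hv⟩ * u) := by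
      rw [← LJ_simple_mul (i := ⟨_, hv⟩) (by rwa [(csJ M _).simple_mul_simple_cancel_left]),
        (csJ M _).simple_mul_simple_cancel_left]
    rw [← topd_eq_hd_ac hw (hHi u) (hbd h hh.le _ (hmem u)) y (hsub hv)]
    refine Eq.trans ?_ ((hi_iff hw).1 (hHi ((csJ M (J.erase i)).simple ⟨_, hv⟩ * u) _ (hsub hv))
      y v rfl (h + 1) (by omega))
    congr 2
    rw [e2]
    group
  · by_contra ht
    have h3 := ch_down hw hJ (Bd.of_mem (hA.vinv_Lo lo) (AP_mono hsub (hmem u)) hlo) hu (hsub hv)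
      fun y' v' hv' => hG.socd_eq_zero (by omega) hu (hHi u) (hbd (h - 1) (by omega) _ (hmem u))
        (hsub hv) ht y' v' hv'
    refine absurd (hmax ((csJ M (J.erase i)).simple ⟨_, hv⟩ * u) ?_) (not_le.2 e)
    rw [Set.mem_ofPred_eq, LJ_simple_mul e]
    simpa only [mul_inv_rev, mul_assoc] using h3

end Unf

end Crest.Agent.R175
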