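import Crest.Agent.R175.AA

/-!
# R175: minimisers (`HasA0`), part 2: the Euler form.
-/

set_option autoImplicit false

namespace Crest.Agent.R175

open CoxeterSystem Crest.Agent.R61 Crest.GroupTheory

variable {S : Type} [Fintype S] [DecidableEq S] {M : CoxeterMatrix S}

/-- Let `φ = N - b` on `J`, `σ j > 0` the slack in `hs`.  Then
`2 N j - ∑ t, aa j t * N t = (C φ) j - σ j`, and
`∑ j ∈ J, q j * (C φ) j = ∑ j ∈ J, (C q) j * φ j ≤ 0` (`aa_symm`). -/
theorem euler_arith {J : Finset S} {i : S} {q N b : S → ℝ} (hq0 : ∀ j, 0 ≤ q j)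
    (hqJ : ∀ j, j ∉ J → q j = 0) (hne : ∃ j, q j ≠ 0) (hb : ∀ j ∈ J, b j ≤ N j) (hi : N i = b i)
    (hs : ∀ j ∈ J, 2 * b j - ∑ k ∈ J, aa M j k * b k < ∑ k ∈ Jᶜ, aa M j k * N k)
    (hq : ∀ j ∈ J.erase i, 2 * q j ≤ ∑ t, aa M j t * q t) :
    ∑ j, q j * (2 * N j - ∑ t, aa M j t * N t) < 0 := by
  have h1 : ∑ j, q j * (2 * N j - ∑ t, aa M j t * N t) =
      ∑ j ∈ J, q j * (2 * N j - ∑ t, aa M j t * N t) :=
    (Finset.sum_subset (Finset.subset_univ J) fun j _ hj => by rw [hqJ j hj, zero_mul]).symm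
  have h2 : ∑ j ∈ J, q j * (2 * N j - ∑ t, aa M j t * N t) <
      ∑ j ∈ J, q j * (2 * (N j - b j) - ∑ k ∈ J, aa M j k * (N k - b k)) := by
    have h3 : ∀ j ∈ J, 2 * N j - ∑ t, aa M j t * N t <
        2 * (N j - b j) - ∑ k ∈ J, aa M j k * (N k - b k) := fun j hj => by
      have := hs j hj
      rw [← Finset.sum_add_sum_compl J]
      simp only [mul_sub, Finset.sum_sub_distrib]
      linarith
    obtain ⟨j, hj⟩ := hne
    have hjJ : j ∈ J := by
      by_contra h4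
      exact hj (hqJ j h4)
    exact Finset.sum_lt_sum (fun k hk => mul_le_mul_of_nonneg_left (h3 k hk).le (hq0 k))
      ⟨j, hjJ, mul_lt_mul_of_pos_left (h3 j hjJ) ((hq0 j).lt_of_ne' hj)⟩
  have h4 : ∑ j ∈ J, q j * (2 * (N j - b j) - ∑ k ∈ J, aa M j k * (N k - b k)) =
      ∑ j ∈ J, (N j - b j) * (2 * q j - ∑ k ∈ J, aa M j k * q k) := by
    generalize hφ : (fun j => N j - b j) = φ
    simp only [show ∀ j, N j - b j = φ j from fun j => congrFun hφ j]
    simp only [mul_sub, Finset.sum_sub_distrib, Finset.mul_sum]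
    congr 1
    · exact Finset.sum_congr rfl fun j _ => by ring
    · rw [Finset.sum_comm]
      exact Finset.sum_congr rfl fun j _ => Finset.sum_congr rfl fun k _ => by
        rw [aa_symm]
        ring
  rw [h1]
  refine h2.trans_le (h4.le.trans (Finset.sum_nonpos fun j hj => ?_))
  by_cases e : j = i
  · rw [e, hi, sub_self, zero_mul]
  · refine mul_nonpos_of_nonneg_of_nonpos (sub_nonneg.2 (hb j hj)) (sub_nonpos.2 ?_)
    refine (hq j (Finset.mem_erase.2 ⟨e, hj⟩)).trans (le_of_eq ?_)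
    exact (Finset.sum_subset (Finset.subset_univ J) fun k _ hk => by rw [hqJ k hk, mul_zero]).symm

namespace Unf

variable {U : Unf M} {Y : Type} [Fintype Y] {w : Y → ℝ} {J : Finset S}

/-- Sum `euler_ineq` with the weights `w y * w y'`; let `f v = ∑ y', w y' * hd (H y') v 0`; use
`sum_nb_of_symm` (multiply by `D > 0`) and group the vertices by type (`Finset.sum_fiberwise`). -/
theorem weighted_euler [Nonempty S] (hw : ∀ y, 0 < w y) {X H : Y → Obj U.Q} (hX : ∀ y, IsMod (X y))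
    (hH : ∀ y, IsMod (H y)) (h1 : ∀ y y', HomZero 1 (X y) (H y'))
    (hs : ∀ v v', U.typ v = U.typ v' →
      (∑ y, w y * (hd (H y) v 0 : ℝ)) * U.d v' = (∑ y, w y * (hd (H y) v' 0 : ℝ)) * U.d v) :
    0 ≤ ∑ j, (∑ y, w y * U.wN (X y) j 0) *
      (2 * (∑ y, w y * U.wN (H y) j 0) - ∑ t, aa M j t * ∑ y, w y * U.wN (H y) t 0) := by
  have e0 : ∀ (Z : Y → Obj U.Q) j, ∑ y, w y * U.wN (Z y) j 0 =
      U.ws (fun v => ∑ y, w y * (hd (Z y) v 0 : ℝ)) j := fun Z j => by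
    unfold wN ws
    simp only [Finset.mul_sum]
    rw [Finset.sum_comm]
    exact Finset.sum_congr rfl fun v _ => Finset.sum_congr rfl fun y _ => by ring
  simp only [e0]
  have key : 0 ≤ ∑ v, (∑ y, w y * (hd (X y) v 0 : ℝ)) * (2 * (∑ y, w y * (hd (H y) v 0 : ℝ)) -
      ∑ a with U.Q.src a = v, ∑ y, w y * (hd (H y) (U.Q.tgt a) 0 : ℝ)) := by
    have e1 : ∀ v, (∑ y, w y * (hd (X y) v 0 : ℝ)) * (2 * (∑ y, w y * (hd (H y) v 0 : ℝ)) -
        ∑ a with U.Q.src a = v, ∑ y, w y * (hd (H y) (U.Q.tgt a) 0 : ℝ)) =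
        ∑ y, ∑ y', w y * w y' * (2 * ((hd (X y) v 0 : ℝ) * hd (H y') v 0) -
          (hd (X y) v 0 : ℝ) * nb (H y') v 0) := fun v => by
      rw [Finset.sum_comm (s := Finset.univ.filter fun a => U.Q.src a = v), Finset.mul_sum,
        ← Finset.sum_sub_distrib, Finset.sum_mul_sum]
      refine Finset.sum_congr rfl fun y _ => Finset.sum_congr rfl fun y' _ => ?_
      rw [← Finset.mul_sum, nb, Nat.cast_sum]
      ring
    simp only [e1]
    rw [Finset.sum_comm]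
    refine Finset.sum_nonneg fun y _ => ?_
    rw [Finset.sum_comm]
    refine Finset.sum_nonneg fun y' _ => ?_
    rw [← Finset.mul_sum, Finset.sum_sub_distrib, ← Finset.mul_sum]
    refine mul_nonneg (mul_pos (hw y) (hw y')).le (sub_nonneg.2 ?_)
    exact_mod_cast euler_ineq (hX y) (hH y') (h1 y y')
  have h2 := sum_nb_of_symm U (f := fun v => ∑ y, w y * (hd (H y) v 0 : ℝ)) hs
  refine (mul_nonneg U.D_pos.le key).trans (le_of_eq ?_)
  rw [Finset.mul_sum, ← Finset.sum_fiberwise Finset.univ U.typ]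
  refine Finset.sum_congr rfl fun j _ => ?_
  rw [ws, Finset.sum_mul]
  refine Finset.sum_congr rfl fun v hv => ?_
  obtain rfl := (Finset.mem_filter.1 hv).2
  obtain ⟨h3, h4⟩ := h2 v
  linear_combination (∑ y, w y * (hd (X y) v 0 : ℝ)) * (2 * h3 - h4)

/-- take `u` that minimises `∑ j ∈ J, NN w P (LJ u) j 0`; `wN_noTop`, `LJ_mul_simple_cases` -/
theorem exists_antidominant (hw : ∀ y, 0 < w y) (hJ : Sph M J) {P : Y → Obj U.Q}
    (hP : ∀ y, IsMod (P y)) (ht : ∀ y v, U.typ v ∈ J → topd (P y) v 0 = 0) :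
    ∃ u : WJ M J, ∀ j ∈ J,
      2 * U.NN w P (LJ M J u) j 0 ≤ ∑ t, aa M j t * U.NN w P (LJ M J u) t 0 := by
  have := hJ.finite
  have hA := nAx (U := U) hw P
  obtain ⟨u, hu⟩ := Finite.exists_min fun u : WJ M J => ∑ j ∈ J, U.NN w P (LJ M J u) j 0
  refine ⟨u, fun j hj => ?_⟩
  have h1 := A7_sum (w := w) hP ht u ⟨j, hj⟩
  have h2 := hu (u * (csJ M J).simple ⟨j, hj⟩)
  have h3 : ∑ k ∈ J.erase j, U.NN w P (LJ M J u) k 0 =
      ∑ k ∈ J.erase j, U.NN w P (LJ M J (u * (csJ M J).simple ⟨j, hj⟩)) k 0 :=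
    Finset.sum_congr rfl fun k hk => by
      rcases LJ_mul_simple_cases u ⟨j, hj⟩ with e | e
      · rw [e, hA.inv _ _ _ _ (Finset.ne_of_mem_erase hk).symm]
      · rw [e, hA.inv _ _ _ _ (Finset.ne_of_mem_erase hk).symm]
  rw [← Finset.add_sum_erase _ _ hj, ← Finset.add_sum_erase _ _ hj] at h2
  simp only at h1
  linarith

/-- `contr_of_hd`, `exists_fun`, `ac_ac_inv` -/
theorem hd_eq_zero_of_ac {P : Obj U.Q} {g : ArtinGroup M} (h : ∀ v k, hd (U.ac P g) v k = 0)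
    (v : U.Q.V) (k : ℤ) : hd P v k = 0 := by
  obtain ⟨Φ, -, hΦ⟩ := U.exists_fun g⁻¹
  rw [← (U.ac_ac_inv P g).hd_eq, (hΦ _).hd_eq]
  exact (Φ.map_contr (contr_of_hd h)).hd_eq_zero v k

/-- Suppose `¬ Hi`.  Take `a, h` from `Good.exists_chamber`, `g' = g a`, `P` from `Good.exists_top`,
`u ∈ W_{J ∖ i}` from `exists_antidominant`, `q₀ = LJ M (J.erase i) u`, `X y = ac (P y) q₀` (a module by
`noTop`), `H y = cohM (ac (cohM (ac (ob y) g') lo) q₀) 0`.  `HomZero 1 (X y) (H y')` by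
`homZero_ac_iff`, `homZero_one_cohM`, `gLo_ac`.  `hd (H y) v 0 = hd (ac (ob y) (g' q₀)) v lo` by
`hd_cohM`, `hd_ac_cohM`.  `weighted_euler` contradicts `euler_arith` for `q j = NN w P q₀ j 0`,
`N j = NN w ob (g' q₀) j lo` (`q ≠ 0` by `hd_eq_zero_of_ac`; `Ch.mul_PP`). -/
theorem Good.hasA0 {ob : Y → Obj U.Q} (hG : U.Good w ob) : HasA0 (U.NN w ob) := by
  intro J g lo hi b i hJ hlh hlo hhi hs hmin hi' hT
  have hw := hG.pos
  have hA := nAx (U := U) hw ob
  by_contra hn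
  obtain ⟨a, ha, h, hh, hc, hH, ⟨j₀, hj₀, hne⟩, htop⟩ :=
    hG.exists_chamber hJ hlh hlo hhi hi' hT.1 hn
  have hsub := Finset.erase_subset i J
  have hlo' := Bd.of_mem (hA.vinv_Lo lo) (AP_mono hsub ha) hlo
  obtain ⟨P, hP⟩ := hG.exists_top (hlh.trans_lt hh) hc hH (Bd.of_mem (hA.vinv_Hi _)
    (AP_mono hsub ha) fun j hj k hk hjk l hl => hhi j hj k hk hjk l (by omega))
  have ht : ∀ y v, U.typ v ∈ J.erase i → topd (P y) v 0 = 0 := fun y v hv => by
    rw [(hP y).2.2.1 v (hsub hv), htop y v hv]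
  obtain ⟨u, hu⟩ := exists_antidominant hw (hJ.mono hsub) (fun y => (hP y).1) ht
  have hX : ∀ y, IsMod (U.ac (P y) (LJ M (J.erase i) u)) := fun y => (U.noTop (hP y).1 (ht y) u).1
  have hq' := LJ_mem_PP (M := M) (J.erase i) u
  have hq := PP_mono hsub hq'
  generalize LJ M (J.erase i) u = q at hu hX hq hq'
  have haq : a * q ∈ AP M (J.erase i) := mul_mem ha (mem_AP_of_PP hq')
  have hdH : ∀ y v, hd (cohM (U.ac (cohM (U.ac (ob y) (g * a)) (U.ac_minimal _ _) lo) q)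
      (U.ac_minimal _ _) 0) v 0 = hd (U.ac (ob y) (g * a * q)) v lo := fun y v => by
    rw [hd_cohM, U.ac_mul _ (g * a)]
    exact U.hd_ac_cohM _ (fun j hj => (lo_iff hw).1 (hc j hj) y)
      (fun j hj k hk hjk => (lo_iff hw).1 (hlo' j hj k hk hjk) y) hq v
  have : Nonempty S := ⟨i⟩
  have h1 := weighted_euler hw hX (H := fun y => cohM (U.ac (cohM (U.ac (ob y) (g * a))
      (U.ac_minimal _ _) lo) q) (U.ac_minimal _ _) 0) (fun y => cohM_isMod _ _ _)
    (fun y y' => homZero_one_cohM (hX y) _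
      (U.gLo_ac hq fun v k hk => (cohM_isMod _ _ _).hd_eq_zero v hk.ne)
      ((U.homZero_ac_iff q).2 ((hP y).2.2.2 y').2))
    (fun v v' e => by simpa only [hdH] using hG.symm (g * a * q) lo v v' e)
  simp only [wN, hdH] at h1
  refine absurd h1 (not_le.2 (euler_arith (J := J) (i := i) (q := fun j => U.NN w P q j 0)
    (N := fun j => U.NN w ob (g * a * q) j lo) (b := b) (fun j => (nAx hw P).nonneg _ _ _)
    (fun j hj => (NN_eq_zero_iff hw).2 fun y v hv => ?_) ?_ (fun j hj => ?_) ?_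
    (fun j hj => ?_) hu))
  · rw [U.hd_ac_of_mem (mem_AP_of_PP hq) (by rwa [hv]), (hP y).2.1, if_neg (by rwa [hv])]
  · by_contra h2
    push Not at h2
    refine hne ((NN_eq_zero_iff hw).2 fun y v hv => ?_)
    have h3 := hd_eq_zero_of_ac (P := P y) (g := q) (fun v k => by
      by_cases e : k = 0
      · rw [e]
        exact (NN_eq_zero_iff hw).1 (h2 _) y v rfl
      · exact (hX y).hd_eq_zero v e) v 0
    rwa [(hP y).2.1, if_pos (by rwa [hv])] at h3
  · have h2 := Ch.mul_PP hA (oneS hw ob) hlo' hc hq j hj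
    rw [mul_assoc] at h2 ⊢
    exact hmin _ (AP_mono hsub haq) j hj h2
  · rw [mul_assoc, hA.of_mem haq (Finset.notMem_erase _ _)]
    exact hT.2
  · refine (hs j hj).trans_le (le_of_eq (Finset.sum_congr rfl fun k hk => ?_))
    rw [mul_assoc g, hA.of_mem (AP_mono hsub haq) (Finset.mem_compl.1 hk)]

end Unf

end Crest.Agent.R175
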