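import Crest.Agent.R175.Corr

/-!
# R175: the functor of a correspondence commutes with the twists.

Let `Θ = ThObj U`, `ψ = shM U (X Θ F) (X F) (X ev) : X Θ F → Θ X F`.  `X Θ F` is supported on `U`
and has a scalar differential, so `ψ` is closed of degree `0` (`shM_mul_left`, `shM_mul_right`,
`mul_evM`), and `ev * ψ = X ev` (`evM_mul_shM`).  The entry of `ψ` at the row `((j, y'), β')` and the
column `((i, β), y)` is zero for `j ≠ i`, and for `j = i` it is `co β' (XZ y' y (el β))`: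
`[y' = y]` for `β = β' = one`, `R a y' y b` for `β = arr b`, `β' = arr a`, `[y' = y] κ y` for
`β = β' = top`, and `0` otherwise.  The inverse matrix has the entries `[y' = y]`,
`(κ y)⁻¹ R (bar a) y y' (bar b)`, `[y' = y] (κ y)⁻¹` (`unit`, `counit`, `supp`).  So `ψ` is a
homotopy equivalence (`isHE_of_m0_inv`); finish with `DGFun.map_ext` and `ext_congr`
(`X (shift 1 G)` and `shift 1 (X G)` have the same indices and the same `δ`).
-/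

set_option autoImplicit false

namespace Crest.Agent.R175

open Matrix

variable {Q : Qv} (c : Corr Q) {U : Q.V → Prop} [DecidablePred U]

theorem ct_c2 (a b : Z Q) : ∑ β : Bs Q, Bs.co β.dual a * Bs.co β b = (a * b).c2 := by
  rw [Bs.sum_univ]
  simp only [Bs.co, Bs.dual, Z.mul_c2]
  ring

theorem ct_scalar {F G : Gr Q} {f : Mor F G} (h : Scalar f) : Scalar (c.XM F G f) := fun y x =>
  ⟨fun a => by simp [Corr.XM_apply, (h _ _).1], by simp [Corr.XM_apply, (h _ _).2]⟩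

theorem ct_supp (hU : ∀ y, U (c.p y) ↔ U (c.q y)) (F : Gr Q) (x : (c.XGr (ThGr U F)).ι) :
    U ((c.XGr (ThGr U F)).vtx x) := (hU _).2 (x.2 ▸ U_vtx_ThGr x.1.1)

theorem ct_ok (hU : ∀ y, U (c.p y) ↔ U (c.q y)) {y y' : c.Y} {β β' : Bs Q}
    (h' : okB U (c.p y') β') (h : Bs.co β' (c.XZ y' y (Bs.el β)) ≠ 0) : okB U (c.q y') β := by
  cases β' with
  | one =>
    cases β with
    | one => exact (hU _).1 h'
    | arr b => simp [Bs.co, Bs.el] at h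
    | top => exact (hU _).1 h'
  | arr a =>
    cases β with
    | one => simp [Bs.co, Bs.el] at h
    | arr b =>
      obtain ⟨e1, -, e3, e4⟩ := c.supp a y' y b (by simpa [Bs.co, Bs.el] using h)
      exact ⟨e3 ▸ (hU _).1 (e1 ▸ h'.1), e4⟩
    | top => simp [Bs.co, Bs.el] at h
  | top =>
    cases β with
    | one => exact (hU _).1 h'
    | arr b => simp [Bs.co, Bs.el] at h
    | top => exact (hU _).1 h'

theorem ct_counit {y₁ y₂ : c.Y} {β₁ β₂ : Bs Q} (hq : c.q y₂ = c.q y₁) (h₁ : okB U (c.p y₁) β₁)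
    (h₂ : okB U (c.p y₂) β₂) :
    ∑ β : Bs Q, ∑ y, Bs.co β₁ (c.XZ y₁ y (Bs.el β)) *
      ((c.κ y)⁻¹ * Bs.co β₂.dual (c.XZ y y₂ (Bs.el β.dual))) = if y₁ = y₂ ∧ β₁ = β₂ then 1 else 0 := by
  rw [Bs.sum_univ]
  cases β₁ with
  | one =>
    cases β₂ with
    | one =>
      by_cases e : y₁ = y₂
      · subst e
        simp [Bs.co, Bs.el, Bs.dual, c.κ_ne]
      · simp [Bs.co, Bs.el, Bs.dual, e]
    | arr a => simp [Bs.co, Bs.el, Bs.dual]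
    | top => simp [Bs.co, Bs.el, Bs.dual]
  | arr a₁ =>
    cases β₂ with
    | one => simp [Bs.co, Bs.el, Bs.dual]
    | arr a₂ =>
      have := c.counit y₂ y₁ a₂ a₁ hq h₂.2 h₁.2
      rw [Finset.sum_comm] at this
      simp only [Bs.co, Bs.el, Bs.dual, Corr.XZ_c1, Z.one_c1, Z.om_c1, Z.xi_c1, mul_zero,
        Finset.sum_const_zero, zero_add, add_zero, mul_ite, mul_one, Finset.sum_ite_eq',
        Finset.mem_univ, if_true, Bs.arr.injEq, ← mul_assoc, this]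
      exact if_congr (and_congr eq_comm eq_comm) rfl rfl
    | top => simp [Bs.co, Bs.el, Bs.dual]
  | top =>
    cases β₂ with
    | one => simp [Bs.co, Bs.el, Bs.dual]
    | arr a => simp [Bs.co, Bs.el, Bs.dual]
    | top =>
      by_cases e : y₁ = y₂
      · subst e
        simp [Bs.co, Bs.el, Bs.dual, c.κ_ne]
      · simp [Bs.co, Bs.el, Bs.dual, e]

/-- the inverse matrix -/
noncomputable def ctInv (U : Q.V → Prop) [DecidablePred U] (F : Gr Q) :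
    Matrix (c.XGr (ThGr U F)).ι (ThGr U (c.XGr F)).ι ℝ := fun x z =>
  (c.κ x.1.2)⁻¹ * Bs.co z.1.2.dual (c.XM F (ThGr U F) (coevM U F) x z.1.1)

theorem ct_hg (F : Gr Q) (x : (c.XGr (ThGr U F)).ι) (z : (ThGr U (c.XGr F)).ι)
    (h : ctInv c U F x z ≠ 0) : (c.XGr (ThGr U F)).vtx x = (ThGr U (c.XGr F)).vtx z ∧
      (c.XGr (ThGr U F)).deg x = (ThGr U (c.XGr F)).deg z := by
  have h1 := c.XM_hom (coevM_hom (U := U) (F := F)) x z.1.1
  have h2 := right_ne_zero_of_mul h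
  obtain ⟨⟨t, β⟩, hz⟩ := z
  cases β with
  | one =>
    obtain ⟨e1, e2⟩ := h1.2.2 h2
    exact ⟨e1, e2.trans (show (c.XGr F).deg t + 2 - 2 = (c.XGr F).deg t + 0 by omega)⟩
  | arr a =>
    obtain ⟨-, e1, e2⟩ := h1.2.1 _ h2
    exact ⟨e1.symm.trans (Q.tgt_bar a),
      e2.trans (show (c.XGr F).deg t + 2 - 1 = (c.XGr F).deg t + 1 by omega)⟩
  | top => exact h1.1 h2

theorem ct_h1 (hU : ∀ y, U (c.p y) ↔ U (c.q y)) (F : Gr Q) :
    ctInv c U F * m0 (shM U (c.XGr (ThGr U F)) (c.XGr F) (c.XM (ThGr U F) F (evM U F))) = 1 := by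
  funext x₁ x₂
  have e0 : (1 : Matrix (c.XGr (ThGr U F)).ι (c.XGr (ThGr U F)).ι ℝ) x₁ x₂ =
      if (x₁.1.1.1.1 = x₂.1.1.1.1 ∧ x₁.1.1.1.2 = x₂.1.1.1.2) ∧ x₁.1.2 = x₂.1.2 then 1 else 0 := by
    rw [Matrix.one_apply]
    exact if_congr ⟨fun e => e ▸ ⟨⟨rfl, rfl⟩, rfl⟩,
      fun e => Subtype.ext (Prod.ext (Subtype.ext (Prod.ext e.1.1 e.1.2)) e.2)⟩ rfl rfl
  rw [e0]
  have e1 : (ctInv c U F * m0 (shM U (c.XGr (ThGr U F)) (c.XGr F) (c.XM (ThGr U F) F (evM U F)))) x₁ x₂ =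
      ∑ z : (ThGr U (c.XGr F)).ι, (c.κ x₁.1.2)⁻¹ *
        Bs.co z.1.2.dual (c.XM F (ThGr U F) (coevM U F) x₁ z.1.1) *
          Bs.co z.1.2 (c.XM (ThGr U F) F (evM U F) z.1.1 x₂) := rfl
  rw [e1, sum_ThGr (F := c.XGr F) (fun t β => (c.κ x₁.1.2)⁻¹ *
    Bs.co β.dual (c.XM F (ThGr U F) (coevM U F) x₁ t) * Bs.co β (c.XM (ThGr U F) F (evM U F) t x₂))
    fun t β hβ => mul_eq_zero_of_right _ (by_contra fun e =>
      hβ ((th_co_ne (c.XM_hom evM_hom t x₂) e).2.2 (ct_supp c hU F x₂)))]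
  simp only [mul_assoc, ← Finset.mul_sum, ct_c2]
  rw [← Z.sum_c2, ← Matrix.mul_apply, ← c.XM_mul evM_hom coevM_hom, Corr.XM_apply, Corr.XZ_c2]
  obtain ⟨⟨⟨⟨i₁, β₁⟩, g₁⟩, y₁⟩, h₁⟩ := x₁
  obtain ⟨⟨⟨⟨i₂, β₂⟩, g₂⟩, y₂⟩, h₂⟩ := x₂
  have e2 : ((coevM U F * evM U F) ⟨(i₁, β₁), g₁⟩ ⟨(i₂, β₂), g₂⟩).c2 =
      if i₁ = i₂ ∧ β₁ = β₂ then 1 else 0 := by
    have : (coevM U F * evM U F) ⟨(i₁, β₁), g₁⟩ ⟨(i₂, β₂), g₂⟩ =
        ∑ j, (if i₁ = j then Bs.el β₁.dual else 0) * (if j = i₂ then Bs.el β₂ else 0) := rfl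
    rw [this]
    by_cases e : i₁ = i₂
    · simp only [e, ite_mul, zero_mul, Finset.sum_ite_eq, Finset.mem_univ, if_true, true_and]
      rw [← Bs.co_eq_tr, Bs.co_el]
    · simp [e]
  rw [e2]
  by_cases e : y₁ = y₂
  · subst e
    simp [c.κ_ne]
  · simp [e]

theorem ct_h2 (hU : ∀ y, U (c.p y) ↔ U (c.q y)) (F : Gr Q) :
    m0 (shM U (c.XGr (ThGr U F)) (c.XGr F) (c.XM (ThGr U F) F (evM U F))) * ctInv c U F = 1 := by
  funext z₁ z₂
  have e0 : (1 : Matrix (ThGr U (c.XGr F)).ι (ThGr U (c.XGr F)).ι ℝ) z₁ z₂ =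
      if z₁.1.1.1.1 = z₂.1.1.1.1 ∧ z₁.1.1.1.2 = z₂.1.1.1.2 ∧ z₁.1.2 = z₂.1.2 then 1 else 0 := by
    rw [Matrix.one_apply]
    exact if_congr ⟨fun e => e ▸ ⟨rfl, rfl, rfl⟩,
      fun e => Subtype.ext (Prod.ext (Subtype.ext (Prod.ext e.1 e.2.1)) e.2.2)⟩ rfl rfl
  rw [e0]
  clear e0
  obtain ⟨⟨⟨⟨j₁, y₁⟩, g₁⟩, β₁⟩, h₁⟩ := z₁
  obtain ⟨⟨⟨⟨j₂, y₂⟩, g₂⟩, β₂⟩, h₂⟩ := z₂
  have e1 : (m0 (shM U (c.XGr (ThGr U F)) (c.XGr F) (c.XM (ThGr U F) F (evM U F))) * ctInv c U F)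
      ⟨(⟨(j₁, y₁), g₁⟩, β₁), h₁⟩ ⟨(⟨(j₂, y₂), g₂⟩, β₂), h₂⟩ =
      ∑ x : (c.XGr (ThGr U F)).ι, Bs.co β₁ (c.XZ y₁ x.1.2 (evM U F j₁ x.1.1)) *
        ((c.κ x.1.2)⁻¹ * Bs.co β₂.dual (c.XZ x.1.2 y₂ (coevM U F x.1.1 j₂))) := rfl
  rw [e1, c.sum_XGr (F := ThGr U F) (fun t y => Bs.co β₁ (c.XZ y₁ y (evM U F j₁ t)) *
    ((c.κ y)⁻¹ * Bs.co β₂.dual (c.XZ y y₂ (coevM U F t j₂)))) fun t y hy => by
      rw [corr_XZ_zero c (g₂ ▸ coevM_hom t j₂) hy, Bs.co_zero, mul_zero, mul_zero]]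
  refine (sum_ThGr (F := F) (fun i β => ∑ y, Bs.co β₁ (c.XZ y₁ y (if j₁ = i then Bs.el β else 0)) *
    ((c.κ y)⁻¹ * Bs.co β₂.dual (c.XZ y y₂ (if i = j₂ then Bs.el β.dual else 0)))) fun i β hβ =>
      Finset.sum_eq_zero fun y _ => mul_eq_zero_of_left ?_ _).trans ?_
  · split_ifs with e
    · subst e
      by_contra hne
      exact hβ (g₁ ▸ ct_ok c hU h₁ hne)
    · rw [map_zero, Bs.co_zero]
  rw [Finset.sum_eq_single j₁ (fun i _ hi => by simp [hi.symm]) fun e => absurd (Finset.mem_univ _) e]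
  by_cases e : j₁ = j₂
  · subst e
    simp only [if_true]
    rw [ct_counit c (g₂.symm.trans g₁) h₁ h₂]
    simp
  · simp [e]

theorem Corr.isHE_psi (hU : ∀ y, U (c.p y) ↔ U (c.q y)) (F : Obj Q) :
    IsHE (c.XObj (ThObj U F)) (ThObj U (c.XObj F))
      (shM U (c.XGr (ThGr U F.toGr)) (c.XGr F.toGr)
        (c.XM (ThGr U F.toGr) F.toGr (evM U F.toGr))) := by
  refine isHE_of_m0_inv (Closed.of_comm0 (shM_hom (ct_supp c hU F.toGr) (c.XM_hom evM_hom)) ?_)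
    (ctInv c U F.toGr) (ct_hg c F.toGr) (ct_h1 c hU F.toGr) (ct_h2 c hU F.toGr)
  refine (shM_mul_left (ct_supp c hU F.toGr) (c.XM_hom evM_hom) (c.XObj F).hom).symm.trans
    (Eq.trans ?_ (shM_mul_right (ct_scalar c (ThM_scalar (U := U) F.δ)) _))
  congr 1
  exact (c.XM_mul evM_hom F.hom).symm.trans ((congrArg _ (mul_evM F.hom)).trans
    (c.XM_mul (ThM_hom F.hom) evM_hom))

theorem Corr.he_X_Tm (hU : ∀ y, U (c.p y) ↔ U (c.q y)) (F : Obj Q) :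
    HE (c.X.obj ((Tm U).obj F)) ((Tm U).obj (c.X.obj F)) := by
  have h1 : IsHE (c.XObj (shift 1 (ThObj U F))) (shift 1 (c.XObj (ThObj U F)))
      (1 : Mor (c.XObj (ThObj U F)).toGr (c.XObj (ThObj U F)).toGr) :=
    IsHE.of_inv (g := (1 : Mor (c.XObj (ThObj U F)).toGr (c.XObj (ThObj U F)).toGr))
      (Closed.of_comm0 (IsHom.one (F := (c.XObj (shift 1 (ThObj U F))).toGr))
        ((Matrix.mul_one _).trans ((map_smul (c.XM _ _) _ _).symm.trans (Matrix.one_mul _).symm)))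
      (IsHom.one (F := (c.XObj (shift 1 (ThObj U F))).toGr)) (Matrix.mul_one _) (Matrix.mul_one _)
  refine (c.X.map_ext (closed_evM' U F)).trans (ext_congr _ (closed_evM' U (c.XObj F)) (IsHE.refl _)
    (h1.comp ((c.isHE_psi hU F).shift 1)) (he_congr Exact.zero ?_))
  refine sub_eq_zero.2 ((Matrix.one_mul _).trans ?_)
  exact ((congrArg _ (Matrix.mul_one _)).trans
    (evM_mul_shM (ct_supp c hU F.toGr) (c.XM_hom evM_hom))).symm

/-- `X Tp F ≃ Tp Tm X Tp F ≃ Tp X Tm Tp F ≃ Tp X F` -/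
theorem Corr.he_X_Tp (hI : Indep U) (hU : ∀ y, U (c.p y) ↔ U (c.q y)) (F : Obj Q) :
    HE (c.X.obj ((Tp U).obj F)) ((Tp U).obj (c.X.obj F)) := by
  exact (he_Tp_Tm hI _).symm.trans ((Tp U).map_he ((c.he_X_Tm hU _).symm.trans
    (c.X.map_he (he_Tm_Tp hI F))))

end Crest.Agent.R175
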