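import Crest.Agent.R175.Chain
import Crest.Agent.R175.CorrT

/-!
# R175: the action of the Artin group on objects up to homotopy.
-/

set_option autoImplicit false

namespace Crest.Agent.R175

open CoxeterSystem Crest.Agent.R61 Crest.GroupTheory

variable {S : Type} [Fintype S] [DecidableEq S] {M : CoxeterMatrix S}

namespace Unf

variable (U : Unf M)

/-- Let `Ω` be the quotient of `Obj U.Q` by `HE` (universe `Type 1`), `τ s : Equiv.Perm Ω` induced by
`TT s`, `TI s`.  `exists_lift` gives `φ : ArtinGroup M →* (Equiv.Perm Ω)ᵐᵒᵖ` with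
`φ (gen s) = op (τ s)` (`braid`; `((l.map fun s => op (τ s)).prod).unop ⟦F⟧ = ⟦(TW l).obj F⟧`).
Put `ac F g = mm (Quotient.out ((φ g).unop ⟦F⟧))`. -/
theorem exists_ac : ∃ ac : Obj U.Q → ArtinGroup M → Obj U.Q,
    (∀ F g, Minimal (ac F g)) ∧ (∀ F G g, HE F G → ac F g = ac G g) ∧ (∀ F, HE (ac F 1) F) ∧
    (∀ F g h, ac F (g * h) = ac (ac F g) h) ∧
    ∀ F s, HE (ac F (artinGen M s)) ((U.TT s).obj F) := by
  let st : Setoid (Obj U.Q) := ⟨HE, ⟨HE.refl, HE.symm, HE.trans⟩⟩
  let τ : S → Equiv.Perm (Quotient st) := fun s =>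
    { toFun := Quotient.map (U.TT s).obj fun _ _ h => (U.TT s).map_he h
      invFun := Quotient.map (U.TI s).obj fun _ _ h => (U.TI s).map_he h
      left_inv := fun x => Quotient.inductionOn x fun F => Quotient.sound (he_Tp_Tm (U.indep s) F)
      right_inv := fun x => Quotient.inductionOn x fun F => Quotient.sound (he_Tm_Tp (U.indep s) F) }
  have hl : ∀ (l : List S) (F : Obj U.Q), ((l.map fun s => MulOpposite.op (τ s)).prod).unop
      (Quotient.mk st F) = Quotient.mk st ((U.TW l).obj F) := by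
    intro l
    induction l with
    | nil => exact fun F => rfl
    | cons s l ih =>
      intro F
      rw [List.map_cons, List.prod_cons, MulOpposite.unop_mul, Equiv.Perm.mul_apply]
      exact ih _
  obtain ⟨φ, hφ⟩ := exists_lift (M := M) (fun s => MulOpposite.op (τ s)) fun i j hij h0 =>
    MulOpposite.unop_injective (Equiv.ext fun x => Quotient.inductionOn x fun F =>
      (hl _ F).trans ((Quotient.sound (U.braid hij h0 F)).trans (hl _ F).symm))
  have key : ∀ x : Quotient st, Quotient.mk st (mm x.out) = x := fun x =>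
    (Quotient.sound (s := st) (he_mm x.out).symm).trans x.out_eq
  refine ⟨fun F g => mm ((φ g).unop (Quotient.mk st F)).out, fun F g => mm_minimal _,
    fun F G g h => ?_, fun F => ?_, fun F g h => ?_, fun F s => ?_⟩
  · simp only [Quotient.sound (s := st) h]
  · refine Quotient.exact (s := st) ((key _).trans ?_)
    rw [map_one]
    rfl
  · simp only [key, map_mul, MulOpposite.unop_mul, Equiv.Perm.mul_apply]
  · refine Quotient.exact (s := st) ((key _).trans ?_)
    rw [hφ]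
    rfl

/-- the action -/
noncomputable def ac : Obj U.Q → ArtinGroup M → Obj U.Q := U.exists_ac.choose

theorem ac_minimal (F : Obj U.Q) (g : ArtinGroup M) : Minimal (U.ac F g) :=
  U.exists_ac.choose_spec.1 F g

theorem ac_congr {F G : Obj U.Q} (h : HE F G) (g : ArtinGroup M) : U.ac F g = U.ac G g :=
  U.exists_ac.choose_spec.2.1 F G g h

theorem ac_one (F : Obj U.Q) : HE (U.ac F 1) F := U.exists_ac.choose_spec.2.2.1 F

theorem ac_mul (F : Obj U.Q) (g h : ArtinGroup M) : U.ac F (g * h) = U.ac (U.ac F g) h :=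
  U.exists_ac.choose_spec.2.2.2.1 F g h

theorem ac_gen (F : Obj U.Q) (s : S) : HE (U.ac F (artinGen M s)) ((U.TT s).obj F) :=
  U.exists_ac.choose_spec.2.2.2.2 F s

variable {F G A B C : Obj U.Q} {p : ℤ}

theorem ac_gen_inv (F : Obj U.Q) (s : S) : HE (U.ac F (artinGen M s)⁻¹) ((U.TI s).obj F) := by
  have h := U.ac_gen (U.ac F (artinGen M s)⁻¹) s
  rw [← ac_mul, inv_mul_cancel] at h
  exact (he_Tp_Tm (U.indep s) _).symm.trans ((U.TI s).map_he (h.symm.trans (U.ac_one F)))

theorem ac_mul_gen (F : Obj U.Q) (g : ArtinGroup M) (s : S) :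
    HE (U.ac F (g * artinGen M s)) ((U.TT s).obj (U.ac F g)) := by
  rw [ac_mul]; exact U.ac_gen _ _

theorem ac_mul_gen_inv (F : Obj U.Q) (g : ArtinGroup M) (s : S) :
    HE (U.ac F (g * (artinGen M s)⁻¹)) ((U.TI s).obj (U.ac F g)) := by
  rw [ac_mul]; exact U.ac_gen_inv _ _

theorem ac_ac_inv (F : Obj U.Q) (g : ArtinGroup M) : HE (U.ac (U.ac F g) g⁻¹) F := by
  rw [← ac_mul, mul_inv_cancel]
  exact U.ac_one F

theorem ac_wd (F : Obj U.Q) (l : List S) : HE (U.ac F (wd M l)) ((U.TW l).obj F) := by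
  induction l generalizing F with
  | nil => exact U.ac_one F
  | cons s l ih =>
    rw [wd_cons, ac_mul, U.ac_congr (U.ac_gen F s)]
    exact ih _

/-- `artin_induction` -/
theorem exists_fun (g : ArtinGroup M) :
    ∃ Φ : DGFun U.Q, QFF Φ ∧ ∀ F, HE (U.ac F g) (Φ.obj F) := by
  induction g using artin_induction with
  | h1 => exact ⟨DGFun.id _, QFF.id, U.ac_one⟩
  | hs g s ih =>
    obtain ⟨Φ, h1, h2⟩ := ih
    exact ⟨Φ.comp (U.TT s), h1.comp (qff_Tm (U.indep s)), fun F =>
      (U.ac_mul_gen F g s).trans ((U.TT s).map_he (h2 F))⟩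
  | hi g s ih =>
    obtain ⟨Φ, h1, h2⟩ := ih
    exact ⟨Φ.comp (U.TI s), h1.comp (qff_Tp (U.indep s)), fun F =>
      (U.ac_mul_gen_inv F g s).trans ((U.TI s).map_he (h2 F))⟩

theorem ac_tri (h : Tri A B C) (g : ArtinGroup M) : Tri (U.ac A g) (U.ac B g) (U.ac C g) := by
  obtain ⟨Φ, -, h2⟩ := U.exists_fun g
  exact (Φ.map_tri h).congr (h2 _).symm (h2 _).symm (h2 _).symm

theorem ac_shift (n : ℤ) (F : Obj U.Q) (g : ArtinGroup M) :
    HE (U.ac (shift n F) g) (shift n (U.ac F g)) := by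
  obtain ⟨Φ, -, h2⟩ := U.exists_fun g
  exact (h2 _).trans ((Φ.map_shift n F).trans ((h2 F).symm.shift n))

theorem homZero_ac_iff (g : ArtinGroup M) :
    HomZero p (U.ac F g) (U.ac G g) ↔ HomZero p F G := by
  obtain ⟨Φ, h1, h2⟩ := U.exists_fun g
  rw [homZero_congr (h2 F) (h2 G), h1.homZero_iff]

theorem endScal_ac (h : EndScal F) (g : ArtinGroup M) : EndScal (U.ac F g) := by
  obtain ⟨Φ, h1, h2⟩ := U.exists_fun g
  exact (h1.endScal h).of_HE (h2 F).symm

theorem filt_ac {P P' : U.Q.V → Prop} (h : Filt P F) (g : ArtinGroup M)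
    (hP : ∀ v, P v → Filt P' (U.ac (simple v) g)) : Filt P' (U.ac F g) := by
  obtain ⟨Φ, -, h2⟩ := U.exists_fun g
  exact (h.map Φ fun v hv => (hP v hv).of_HE (h2 _)).of_HE (h2 F).symm

theorem ac_dual (F : Obj U.Q) (g : ArtinGroup M) :
    HE (dual (U.ac F g)) (U.ac (dual F) (iota M g)) := by
  induction g using artin_induction with
  | h1 =>
    rw [map_one]
    exact (U.ac_one F).dual.trans (U.ac_one _).symm
  | hs g s ih =>
    rw [map_mul, iota_gen]
    exact (U.ac_mul_gen F g s).dual.trans ((dual_Tm _ _).trans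
      (((U.TI s).map_he ih).trans (U.ac_mul_gen_inv _ _ s).symm))
  | hi g s ih =>
    rw [map_mul, map_inv, iota_gen, inv_inv]
    exact (U.ac_mul_gen_inv F g s).dual.trans ((dual_Tp _ _).trans
      (((U.TT s).map_he ih).trans (U.ac_mul_gen _ _ s).symm))

theorem ac_cor (c : U.C) (F : Obj U.Q) (g : ArtinGroup M) :
    HE ((U.cor c).X.obj (U.ac F g)) (U.ac ((U.cor c).X.obj F) g) := by
  induction g using artin_induction with
  | h1 => exact ((U.cor c).X.map_he (U.ac_one F)).trans (U.ac_one _).symm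
  | hs g s ih =>
    exact ((U.cor c).X.map_he (U.ac_mul_gen F g s)).trans
      (((U.cor c).he_X_Tm (U := fun v => U.typ v = s) (fun y => by rw [U.cor_typ]) _).trans
        (((U.TT s).map_he ih).trans (U.ac_mul_gen _ _ s).symm))
  | hi g s ih =>
    exact ((U.cor c).X.map_he (U.ac_mul_gen_inv F g s)).trans
      (((U.cor c).he_X_Tp (U.indep s) (fun y => by rw [U.cor_typ]) _).trans
        (((U.TI s).map_he ih).trans (U.ac_mul_gen_inv _ _ s).symm))

/-- `AP_induction`, `hd_Tm_of_not`, `hd_Tp_of_not` -/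
theorem hd_ac_of_mem {J : Finset S} {a : ArtinGroup M} (ha : a ∈ AP M J) {v : U.Q.V}
    (hv : U.typ v ∉ J) (F : Obj U.Q) (k : ℤ) : hd (U.ac F a) v k = hd F v k := by
  refine AP_induction (P := fun a => hd (U.ac F a) v k = hd F v k) ((U.ac_one F).hd_eq v k)
    (fun g s _ hs ih => ?_) (fun g s _ hs ih => ?_) ha
  · rw [(U.ac_mul_gen F g s).hd_eq, ← ih]
    exact hd_Tm_of_not (U := fun v => U.typ v = s) (fun e => hv (e ▸ hs)) _ _
  · rw [(U.ac_mul_gen_inv F g s).hd_eq, ← ih]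
    exact hd_Tp_of_not (U := fun v => U.typ v = s) (fun e => hv (e ▸ hs)) _ _

theorem gLo_ac {J : Finset S} {q : ArtinGroup M} (hq : q ∈ PP M J) {lo : ℤ} (h : GLo F lo) :
    GLo (U.ac F q) lo := by
  exact PP_induction_right (P := fun q => GLo (U.ac F q) lo) (h.of_HE (U.ac_one F).symm)
    (fun p s _ _ ih => (ih.Tm (U := fun v => U.typ v = s)).of_HE (U.ac_mul_gen F p s).symm) hq

/-- Compose the maps `extIn : G → Tm G` (`closed_inTm`, `injAt_inTm`) with homotopy equivalences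
(`IsHE.injAt`, `InjAt.comp`). -/
theorem exists_inj {J : Finset S} {q : ArtinGroup M} (hq : q ∈ PP M J) (F : Obj U.Q) :
    ∃ r : Mor F.toGr (U.ac F q).toGr, Closed F (U.ac F q) 0 r ∧
      ∀ v k, U.typ v ∉ J → InjAt F (U.ac F q) v k r := by
  refine PP_induction_right (P := fun q => ∃ r : Mor F.toGr (U.ac F q).toGr, Closed F (U.ac F q) 0 r ∧
      ∀ v k, U.typ v ∉ J → InjAt F (U.ac F q) v k r) ?_ (fun p s _ hs ih => ?_) hq
  · obtain ⟨f, hf⟩ := (U.ac_one F).symm
    exact ⟨f, hf.closed, fun v k _ => hf.injAt v k⟩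
  · obtain ⟨r, h1, h2⟩ := ih
    obtain ⟨f, hf⟩ := (U.ac_mul_gen F p s).symm
    have h3 := h1.mul0 (closed_inTm (fun v => U.typ v = s) (U.ac F p))
    exact ⟨_, h3.mul0 hf.closed, fun v k hv => InjAt.comp h3 (InjAt.comp h1 (h2 v k hv)
      (injAt_inTm (U := fun v => U.typ v = s) (fun e => hv (e ▸ hs)) _ k)) (hf.injAt v k)⟩

/-- Let `f v = ∑ y with typ y = z, d y * hd (ac (simple y) g) v k`.  By `Corr.hd_X`, `ac_cor`,
`Corr.hd_map_X_simple` (with `exists_fun`), `cor_typ`, `cor_d`: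
`∑ η with p η = v, f (q η) = ∑ η with typ (p η) = z, d (q η) * hd (ac (simple (p η)) g) v k
= lam c * f v`.  Now `uniq`. -/
theorem symm_simple (z : S) (g : ArtinGroup M) (k : ℤ) (v v' : U.Q.V) (h : U.typ v = U.typ v') :
    (∑ y with U.typ y = z, U.d y * (hd (U.ac (simple y) g) v k : ℝ)) * U.d v' =
      (∑ y with U.typ y = z, U.d y * (hd (U.ac (simple y) g) v' k : ℝ)) * U.d v := by
  obtain ⟨Φ, -, h2⟩ := U.exists_fun g
  refine U.uniq (fun v => ∑ y with U.typ y = z, U.d y * (hd (U.ac (simple y) g) v k : ℝ))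
    (fun c v => ?_) v v' h
  have h3 : ∀ y, ∑ η with (U.cor c).p η = v, (hd (U.ac (simple y) g) ((U.cor c).q η) k : ℝ) =
      ∑ η with (U.cor c).q η = y, (hd (U.ac (simple ((U.cor c).p η)) g) v k : ℝ) := fun y => by
    rw [← Nat.cast_sum, ← Corr.hd_X, (U.ac_cor c _ g).hd_eq, (h2 _).hd_eq, Corr.hd_map_X_simple,
      Nat.cast_sum]
    exact Finset.sum_congr rfl fun η _ => by rw [(h2 _).hd_eq]
  have h4 : ∀ (π : (U.cor c).Y → U.Q.V) (φ : U.Q.V → (U.cor c).Y → ℝ),
      ∑ y with U.typ y = z, ∑ η with π η = y, φ y η = ∑ η with U.typ (π η) = z, φ (π η) η := by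
    intro π φ
    rw [← Finset.sum_fiberwise_of_maps_to (s := Finset.univ.filter fun η => U.typ (π η) = z)
      (t := Finset.univ.filter fun y => U.typ y = z) (g := π) fun η hη => by simpa using hη]
    refine Finset.sum_congr rfl fun y hy => ?_
    rw [Finset.filter_filter]
    refine Finset.sum_congr (Finset.filter_congr fun η _ => ⟨fun e => ⟨?_, e⟩, fun e => e.2⟩)
      fun η hη => by rw [(Finset.mem_filter.1 hη).2.2]
    rw [e]
    exact (Finset.mem_filter.1 hy).2
  rw [Finset.sum_comm]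
  simp only [← Finset.mul_sum, h3]
  simp only [Finset.mul_sum]
  rw [h4 (U.cor c).q fun y η => U.d y * (hd (U.ac (simple ((U.cor c).p η)) g) v k : ℝ)]
  simp only [← U.cor_typ]
  rw [← h4 (U.cor c).p fun y η => U.d ((U.cor c).q η) * (hd (U.ac (simple y) g) v k : ℝ)]
  refine Finset.sum_congr rfl fun y _ => ?_
  rw [← Finset.sum_mul, U.cor_d, mul_assoc]

end Unf

end Crest.Agent.R175
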