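import Crest.Prelude.Def_ArtinGroup

/-!
# R175: the equation lemmas of `artinAltWord`, generated once for all files.
-/

set_option autoImplicit false

namespace Crest.Agent.R175

open Crest.GroupTheory

theorem altEq_zero {S : Type*} (s t : S) : artinAltWord s t 0 = 1 := by
  rw [artinAltWord]

theorem altEq_succ {S : Type*} (s t : S) (m : ℕ) :
    artinAltWord s t (m + 1) = FreeGroup.of s * artinAltWord t s m := by
  rw [artinAltWord]

theorem altEq_def {S : Type*} (s t : S) : artinAltWord s t 0 = 1 := by
  rw [artinAltWord.eq_def]

end Crest.Agent.R175
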