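import Crest.Agent.R175.Cox

/-!
# R175: locally convex functions on the vertices of the Coxeter complex.

The vertex `(w, i)` is the functional `v ↦ rep w⁻¹ v i` ("`w ϖ_i`").
-/

set_option autoImplicit false

namespace Crest.Agent.R175

open CoxeterSystem Crest.Agent.R61

variable {B W : Type} [Fintype B] [DecidableEq B] [Group W] {M : CoxeterMatrix B}
  (cs : CoxeterSystem M W)

/-- a function on vertices that is convex across every wall -/
structure LocCvx (φ : W → B → ℝ) : Prop where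
  inv : ∀ w i k, k ≠ i → φ (w * cs.simple k) i = φ w i
  cvx : ∀ w j, 2 * φ w j - ∑ k, kk M j k * φ w k ≤ φ w j + φ (w * cs.simple j) j

/-- the vector that represents `φ` on the chamber `w` -/
noncomputable def lamv (φ : W → B → ℝ) (w : W) : B → ℝ := rep cs w (φ w)

/-- elementary moves between vertices that satisfy `P` -/
def StepW (P : W → B → Prop) (x y : W × B) : Prop :=
  P x.1 x.2 ∧ P y.1 y.2 ∧ (x.1 = y.1 ∨ (x.2 = y.2 ∧ ∃ k, k ≠ x.2 ∧ y.1 = x.1 * cs.simple k))

/-- the vertices `(w, i)` and `(w', i')` are antipodal -/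
def Antip (w : W) (i : B) (w' : W) (i' : B) : Prop :=
  ∃ c : ℝ, 0 < c ∧ ∀ v : B → ℝ, rep cs w⁻¹ v i = -c * rep cs w'⁻¹ v i'

variable {cs} {φ : W → B → ℝ}

theorem apt_mul (u w : W) (v : B → ℝ) : rep cs (u * w) v = rep cs u (rep cs w v) := by
  rw [map_mul]; rfl

theorem apt_one (v : B → ℝ) : rep cs 1 v = v := by
  rw [map_one]; rfl

theorem apt_inv (w : W) (v : B → ℝ) : rep cs w⁻¹ (rep cs w v) = v := by
  rw [← apt_mul, inv_mul_cancel, apt_one]

theorem apt_sum_single (i j : B) : ∑ k, kk M i k * (Pi.single j 1 : B → ℝ) k = kk M i j := by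
  simp [Pi.single_apply]

theorem apt_inv_simple (w : W) {i k : B} (h : k ≠ i) (v : B → ℝ) :
    rep cs (w * cs.simple k)⁻¹ v i = rep cs w⁻¹ v i := by
  rw [mul_inv_rev, cs.inv_simple, apt_mul, rep_simple, refl0_apply]
  simp [h.symm]

theorem apt_expand (w w' : W) (i' : B) (v : B → ℝ) :
    rep cs w'⁻¹ v i' = ∑ k, rep cs (w'⁻¹ * w) (Pi.single k 1) i' * rep cs w⁻¹ v k := by
  have h1 : rep cs w'⁻¹ v = rep cs (w'⁻¹ * w) (rep cs w⁻¹ v) := by
    rw [← apt_mul, mul_inv_cancel_right]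
  rw [h1]
  generalize rep cs w⁻¹ v = x
  conv_lhs => rw [pi_eq_sum_univ' x]
  simp only [map_sum, map_smul, Finset.sum_apply, Pi.smul_apply, smul_eq_mul]
  exact Finset.sum_congr rfl fun k _ => mul_comm _ _

theorem lamv_sub (h : LocCvx cs φ) (w : W) (j : B) :
    lamv cs φ w - lamv cs φ (w * cs.simple j) =
      (φ w j + φ (w * cs.simple j) j - (2 * φ w j - ∑ k, kk M j k * φ w k)) •
        rep cs w (Pi.single j 1) := by
  have h1 : ∑ k, kk M j k * φ (w * cs.simple j) k =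
      ∑ k, kk M j k * φ w k + 2 * (φ (w * cs.simple j) j - φ w j) := by
    rw [← sub_eq_iff_eq_add', ← Finset.sum_sub_distrib, Finset.sum_eq_single j]
    · rw [kk_self]; ring
    · intro k _ hk
      rw [h.inv w k j hk.symm, sub_self]
    · simp
  unfold lamv
  rw [apt_mul, ← map_sub, ← map_smul, rep_simple, refl0_apply, h1]
  congr 1
  funext k
  by_cases hk : k = j
  · subst hk
    simp only [Pi.sub_apply, Pi.smul_apply, Pi.single_eq_same, smul_eq_mul]
    ring
  · simp [hk, h.inv w k j (Ne.symm hk)]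

theorem pair_lamv_self (φ : W → B → ℝ) (w : W) (i : B) :
    rep cs w⁻¹ (lamv cs φ w) i = φ w i := by
  unfold lamv
  rw [apt_inv]

/-- induction on `ℓ (w⁻¹ w')` with `lamv_sub`, `rep_pos` -/
theorem pair_lamv_le (h : LocCvx cs φ) (w w' : W) (i : B) :
    rep cs w⁻¹ (lamv cs φ w') i ≤ φ w i := by
  induction hn : cs.length (w⁻¹ * w') using Nat.strong_induction_on generalizing w' with
  | _ n ih =>
    by_cases h1 : w⁻¹ * w' = 1
    · rw [← inv_mul_eq_one.1 h1, pair_lamv_self]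
    obtain ⟨j, hj⟩ := cs.exists_rightDescent_of_ne_one h1
    have hj' : cs.length (w⁻¹ * (w' * cs.simple j)) < cs.length (w⁻¹ * w') := by
      rw [← mul_assoc]; exact hj
    refine le_trans ?_ (ih _ (hn ▸ hj') (w' * cs.simple j) rfl)
    have h2 := lamv_sub h (w' * cs.simple j) j
    have h3 := h.cvx (w' * cs.simple j) j
    have h4 : 0 ≤ rep cs (w⁻¹ * (w' * cs.simple j)) (Pi.single j 1) := by
      refine rep_pos cs ?_
      rwa [mul_assoc, cs.simple_mul_simple_cancel_right]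
    have h5 := congrFun (congrArg (rep cs w⁻¹) h2) i
    rw [map_sub, map_smul, ← apt_mul, Pi.sub_apply, Pi.smul_apply, smul_eq_mul] at h5
    have h6 := mul_nonneg (sub_nonneg.2 h3) (h4 i)
    rw [← h5, cs.simple_mul_simple_cancel_right] at h6
    linarith

theorem Antip.symm {w w' : W} {i i' : B} (h : Antip cs w i w' i') : Antip cs w' i' w i := by
  obtain ⟨c, hc, h⟩ := h
  refine ⟨c⁻¹, inv_pos.2 hc, fun v => ?_⟩
  rw [h v]
  field_simp

/-- evaluate the two functionals at `lamv φ w` -/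
theorem Antip.not_neg (h : LocCvx cs φ) {w w' : W} {i i' : B} (ha : Antip cs w i w' i')
    (h1 : φ w i ≤ 0) (h2 : φ w' i' < 0) : False := by
  obtain ⟨c, hc, ha⟩ := ha
  have h3 := ha (lamv cs φ w)
  have h4 := pair_lamv_le h w' w i'
  rw [pair_lamv_self] at h3
  nlinarith

theorem apt_ind {P Q : W → B → Prop} {w' : W} {i' : B} (hQ : ∀ w i, Q w i → P w i) (h0 : P w' i')
    (hinv : ∀ w i k, k ≠ i → Q w i → Q (w * cs.simple k) i)
    (key : ∀ w i, Q w i → (∀ k, k ≠ i → 0 ≤ rep cs (w'⁻¹ * w) (Pi.single k 1) i') →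
      rep cs (w'⁻¹ * w) (Pi.single i 1) i' ≤ 0 → ∃ k, k ≠ i ∧ Q w k)
    (w : W) (i : B) (h : Q w i) : Relation.ReflTransGen (StepW cs P) (w, i) (w', i') := by
  induction hn : cs.length (w'⁻¹ * w) using Nat.strong_induction_on generalizing w i with
  | _ n ih =>
    have step : ∀ i k, k ≠ i → Q w i → cs.IsRightDescent (w'⁻¹ * w) k →
        Relation.ReflTransGen (StepW cs P) (w, i) (w', i') := fun i k hk h hd =>
      Relation.ReflTransGen.head
        (b := (w * cs.simple k, i)) ⟨hQ _ _ h, hQ _ _ (hinv w i k hk h), Or.inr ⟨rfl, k, hk, rfl⟩⟩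
        (ih _ (by rw [← hn, ← mul_assoc]; exact hd) _ _ (hinv w i k hk h) rfl)
    by_cases h1 : w'⁻¹ * w = 1
    · exact Relation.ReflTransGen.single ⟨hQ _ _ h, h0, Or.inl (inv_mul_eq_one.1 h1).symm⟩
    by_cases h2 : ∃ k, k ≠ i ∧ cs.IsRightDescent (w'⁻¹ * w) k
    · obtain ⟨k, hk, hd⟩ := h2
      exact step i k hk h hd
    obtain ⟨j, hj⟩ := cs.exists_rightDescent_of_ne_one h1
    obtain rfl : j = i := by
      by_contra hji
      exact h2 ⟨j, hji, hj⟩
    obtain ⟨k, hk, hq⟩ := key w j h (fun k hk => rep_pos cs (by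
      have h3 : ¬ cs.IsRightDescent (w'⁻¹ * w) k := fun hd => h2 ⟨k, hk, hd⟩
      rw [cs.not_isRightDescent_iff] at h3
      omega) i') (rep_neg cs hj i')
    exact Relation.ReflTransGen.head (b := (w, k)) ⟨hQ _ _ h, hQ _ _ hq, Or.inl rfl⟩
      (step k j hk.symm hq hj)

theorem apt_pair (h : LocCvx cs φ) (w w' : W) (i i' : B) :
    rep cs (w'⁻¹ * w) (Pi.single i 1) i' * φ w i +
      ∑ k ∈ Finset.univ.erase i, rep cs (w'⁻¹ * w) (Pi.single k 1) i' * φ w k ≤ φ w' i' := by
  have h1 := pair_lamv_le h w' w i'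
  rw [apt_expand w] at h1
  simp only [pair_lamv_self] at h1
  rwa [Finset.add_sum_erase _ (fun k => rep cs (w'⁻¹ * w) (Pi.single k 1) i' * φ w k)
    (Finset.mem_univ i)]

/-- Induction on `ℓ (w'⁻¹ w)`; let `u = w'⁻¹ w`.  If some `k ≠ i` is a right descent of `u`, pass to
`(w s_k, i)`.  If `u = 1` there is one step.  Otherwise `i` is the only right descent.  Let
`c k = rep u α_k i'`: `c k ≥ 0` for `k ≠ i` and `c i ≤ 0`.  The functional
`p = (-c i) (w ϖ_i) + w' ϖ_i'` equals `∑ k ≠ i, c k (w ϖ_k)` (compare the values on the basis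
`rep w α_k`), it is non-zero, and `p (lamv φ w) ≤ 0` by `pair_lamv_le`.  So there is `k ≠ i` with
`c k > 0`, `φ w k ≤ 0`; go to `(w, k)` and `(w s_i, k)`, which is not antipodal to `(w', i')`. -/
theorem apt_le (h : LocCvx cs φ) {w w' : W} {i i' : B} (h1 : φ w i ≤ 0) (h2 : φ w' i' ≤ 0)
    (ha : ¬ Antip cs w i w' i') :
    Relation.ReflTransGen (StepW cs fun w i => φ w i ≤ 0) (w, i) (w', i') := by
  refine apt_ind (Q := fun w i => φ w i ≤ 0 ∧ ¬ Antip cs w i w' i') (fun _ _ h => h.1) h2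
    (fun w i k hk hq => ⟨by rw [h.inv w i k hk]; exact hq.1, fun ⟨c, hc, ha⟩ =>
      hq.2 ⟨c, hc, fun v => by rw [← ha v, apt_inv_simple w hk]⟩⟩) ?_ w i ⟨h1, ha⟩
  intro w i hq hc hci
  have h3 := apt_pair h w w' i i'
  have h4 := mul_nonneg_of_nonpos_of_nonpos hci hq.1
  by_contra hcon
  have h5 : ∀ k, k ≠ i → rep cs (w'⁻¹ * w) (Pi.single k 1) i' ≠ 0 → 0 < φ w k := by
    intro k hk hk0
    by_contra h6
    refine hcon ⟨k, hk, not_lt.1 h6, fun ⟨c, hc0, ha⟩ => ?_⟩
    have h7 := ha (rep cs w (Pi.single k 1))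
    rw [apt_inv, ← apt_mul, Pi.single_eq_same] at h7
    have := mul_nonneg hc0.le (hc k hk)
    linarith
  have h6 : ∀ k ∈ Finset.univ.erase i, 0 ≤ rep cs (w'⁻¹ * w) (Pi.single k 1) i' * φ w k := by
    intro k hk
    have hk' := Finset.ne_of_mem_erase hk
    by_cases hk0 : rep cs (w'⁻¹ * w) (Pi.single k 1) i' = 0
    · rw [hk0, zero_mul]
    · exact mul_nonneg (hc k hk') (h5 k hk' hk0).le
  have h7 := (Finset.sum_eq_zero_iff_of_nonneg h6).1
    (le_antisymm (by linarith) (Finset.sum_nonneg h6))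
  have h8 : ∀ v, rep cs w'⁻¹ v i' = rep cs (w'⁻¹ * w) (Pi.single i 1) i' * rep cs w⁻¹ v i := by
    intro v
    rw [apt_expand w, Finset.sum_eq_single i _ (by simp)]
    intro k _ hk
    by_cases hk0 : rep cs (w'⁻¹ * w) (Pi.single k 1) i' = 0
    · rw [hk0, zero_mul]
    · exact absurd (h7 k (Finset.mem_erase.2 ⟨hk, Finset.mem_univ k⟩))
        (mul_ne_zero hk0 (h5 k hk hk0).ne')
  refine hq.2 (Antip.symm ⟨-rep cs (w'⁻¹ * w) (Pi.single i 1) i', ?_, fun v => by rw [neg_neg, h8]⟩)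
  refine neg_pos.2 (lt_of_le_of_ne hci fun h9 => ?_)
  have h10 := h8 (rep cs w' (Pi.single i' 1))
  rw [apt_inv, h9, zero_mul, Pi.single_eq_same] at h10
  exact one_ne_zero h10

/-- the same induction with strict inequalities: `p (lamv φ w) < 0` -/
theorem apt_neg (h : LocCvx cs φ) {w w' : W} {i i' : B} (h1 : φ w i < 0) (h2 : φ w' i' < 0) :
    Relation.ReflTransGen (StepW cs fun w i => φ w i < 0) (w, i) (w', i') := by
  refine apt_ind (Q := fun w i => φ w i < 0) (fun _ _ h => h) h2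
    (fun w i k hk hq => by rw [h.inv w i k hk]; exact hq) ?_ w i h1
  intro w i hq hc hci
  have h3 := apt_pair h w w' i i'
  have h4 := mul_nonneg_of_nonpos_of_nonpos hci hq.le
  by_contra hcon
  have h6 : ∀ k ∈ Finset.univ.erase i, 0 ≤ rep cs (w'⁻¹ * w) (Pi.single k 1) i' * φ w k := by
    intro k hk
    have hk' := Finset.ne_of_mem_erase hk
    exact mul_nonneg (hc k hk') (not_lt.1 fun h5 => hcon ⟨k, hk', h5⟩)
  have := Finset.sum_nonneg h6
  linarith

/-- If `f = u ϖ_i` and `f ∘ s = -c f`, then `c = 1` (apply `s` twice, `f ≠ 0`) and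
`f v = (f α_s / 2) (kk v)_s`, where `f α_s = rep u⁻¹ α_s i ≥ 0`. -/
theorem Antip.eq_coroot {u : W} {s i : B} (hl : cs.length u < cs.length (cs.simple s * u))
    (ha : Antip cs u i (cs.simple s * u) i) :
    ∃ c : ℝ, 0 < c ∧ (∀ v : B → ℝ, rep cs u⁻¹ v i = c * ∑ j, kk M s j * v j) ∧
      ∀ v : B → ℝ, rep cs (cs.simple s * u)⁻¹ v i = -c * ∑ j, kk M s j * v j := by
  obtain ⟨c, hc, ha⟩ := ha
  have h1 : ∀ v, rep cs (cs.simple s * u)⁻¹ v i = rep cs u⁻¹ (rep cs (cs.simple s) v) i := fun v => by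
    rw [mul_inv_rev, cs.inv_simple, apt_mul]
  have h2 : rep cs u⁻¹ (rep cs u (Pi.single i 1)) i = 1 := by
    rw [apt_inv, Pi.single_eq_same]
  obtain rfl : c = 1 := by
    have h3 := ha (rep cs u (Pi.single i 1))
    have h4 := ha (rep cs (cs.simple s) (rep cs u (Pi.single i 1)))
    rw [h1, ← apt_mul (cs.simple s) (cs.simple s), cs.simple_mul_simple_self, apt_one, h2] at h4
    rw [h1, h2, h4] at h3
    nlinarith
  have h3 : ∀ v, rep cs u⁻¹ v i = rep cs u⁻¹ (Pi.single s 1) i / 2 * ∑ j, kk M s j * v j := fun v => by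
    have h4 := ha v
    rw [h1, rep_simple, refl0_apply, map_sub, map_smul, Pi.sub_apply, Pi.smul_apply, smul_eq_mul] at h4
    linarith
  have h4 : 0 ≤ rep cs u⁻¹ (Pi.single s 1) := by
    refine rep_pos cs ?_
    rwa [cs.length_inv, ← cs.length_inv (_ * _), mul_inv_rev, inv_inv, cs.inv_simple]
  refine ⟨rep cs u⁻¹ (Pi.single s 1) i / 2, half_pos (lt_of_le_of_ne (h4 i) fun h5 => ?_), h3,
    fun v => ?_⟩
  · rw [h3, ← h5] at h2
    simp at h2
  · have := ha v
    have := h3 v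
    linarith

/-- if `s` has no neighbours, every `rep w` maps `α_s` to `±α_s` -/
theorem eq_of_isolated {u : W} {s i : B} (hs : ∀ j, j ≠ s → kk M s j = 0)
    (h : rep cs u⁻¹ (Pi.single s 1) i ≠ 0) : i = s := by
  have h1 : ∀ w : W, rep cs w (Pi.single s 1) = Pi.single s 1 ∨
      rep cs w (Pi.single s 1) = -Pi.single s 1 := by
    intro w
    induction w using cs.simple_induction with
    | one => exact Or.inl (apt_one _)
    | simple j =>
      rw [rep_simple, refl0_apply, apt_sum_single]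
      by_cases hj : j = s
      · subst hj
        rw [kk_self, two_smul]
        exact Or.inr (by abel)
      · rw [kk_symm, hs j hj, zero_smul, sub_zero]
        exact Or.inl rfl
    | mul a b ha hb =>
      rw [apt_mul]
      rcases hb with hb | hb <;> rcases ha with ha | ha <;> simp [ha, hb]
  by_contra hi
  rcases h1 u⁻¹ with h2 | h2 <;> simp [h2, hi] at h

/-- Along a shortest path `j = j₀, j₁, …, j_r = s` in the graph, the vector
`s_{j_{r-1}} ⋯ s_{j₁} α_j` is not orthogonal to `α_s`.  (Equivalently: the set of `t` such that some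
`rep u α_j` is not orthogonal to `α_t` is closed under adjacency: if `β = rep u α_j` has
`(β, α_t) ≠ 0`, `kk t' t ≠ 0`, then `(β, α_t') ≠ 0` or `(s_t β, α_t') ≠ 0`.) -/
theorem exists_rep_not_orth {j s : B}
    (h : Relation.ReflTransGen (fun a b => kk M a b ≠ 0) j s) :
    ∃ u : W, ∑ k, kk M s k * rep cs u (Pi.single j 1) k ≠ 0 := by
  induction h with
  | refl => exact ⟨1, by rw [apt_one, apt_sum_single, kk_self]; norm_num⟩
  | @tail t t' _ ht ih =>
    obtain ⟨u, hu⟩ := ih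
    by_cases h1 : ∑ k, kk M t' k * rep cs u (Pi.single j 1) k = 0
    · refine ⟨cs.simple t * u, ?_⟩
      rw [apt_mul, rep_simple, refl0_apply]
      generalize rep cs u (Pi.single j 1) = x at hu h1
      generalize ∑ k, kk M t k * x k = a at hu
      simp only [Pi.sub_apply, Pi.smul_apply, smul_eq_mul, mul_sub, Finset.sum_sub_distrib, h1,
        mul_left_comm _ a, ← Finset.mul_sum, apt_sum_single]
      rw [kk_symm, zero_sub]
      exact neg_ne_zero.2 (mul_ne_zero hu ht)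
    · exact ⟨u, h1⟩

end Crest.Agent.R175
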