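import Crest.Agent.R175.Sys
import Crest.Agent.R175.Apt

/-!
# R175: more statements (definitions only).  Owner: helper19.  DO NOT EDIT.
-/

set_option autoImplicit false

namespace Crest.Agent.R175

open CoxeterSystem Crest.Agent.R61 Crest.GroupTheory

variable {S : Type} [Fintype S] [DecidableEq S] {M : CoxeterMatrix S}

section preds
variable (n : ArtinGroup M → S → ℤ → ℝ)

/-- all vertices of the chamber `g` have nothing below `lo` -/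
def Ch (J : Finset S) (lo : ℤ) (g : ArtinGroup M) : Prop := ∀ i ∈ J, Lo n lo g i

/-- the properties of `n` that are needed for the one-sided Morse theory -/
structure OneS : Prop where
  cvx : ∀ g j k, ∑ t, aa M j t * n g t k ≤ n g j k + n (g * artinGen M j) j k
  up : ∀ g j lo, Lo n lo g j → (∀ t, aa M j t ≠ 0 → Lo n lo g t) → Lo n lo (g * artinGen M j) j
  meet : ∀ J g g' lo, Sph M J → Bd (M := M) J (Lo n lo g) → g⁻¹ * g' ∈ AP M J →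
    Ch n J lo g → Ch n J lo g' →
    ∃ c p p', p ∈ PP M J ∧ p' ∈ PP M J ∧ g = c * p ∧ g' = c * p' ∧ Ch n J lo c
  exCh : ∀ J g lo, Sph M J → Bd (M := M) J (Lo n lo g) → ∃ a ∈ AP M J, Ch n J lo (g * a)
  dem : ∀ J c lo s q i, Bd (M := M) J (Lo n lo c) → Ch n J lo c → s ∈ J → q ∈ PP M J →
    n (c * artinGen M s * q) i lo ≤ n (c * artinGen M s * artinGen M s * q) i lo
  anti : ∀ J g lo (b : S → ℝ) (s t : {s // s ∈ J}) (u u' : WJ M J) (i i' : {s // s ∈ J})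
    (c c' : ℝ), Sph M J → Bd (M := M) J (Lo n lo g) → Ch n J lo g →
    (∀ j ∈ J, 2 * b j - ∑ k ∈ J, aa M j k * b k = ∑ k ∈ Jᶜ, aa M j k * n g k lo) →
    aa M s.1 t.1 ≠ 0 → 0 < c → 0 < c' →
    (∀ v : {s // s ∈ J} → ℝ, rep (csJ M J) u⁻¹ v i = c * ∑ j, kk (res M J) s j * v j) →
    (∀ v : {s // s ∈ J} → ℝ, rep (csJ M J) u'⁻¹ v i' = -c' * ∑ j, kk (res M J) s j * v j) →
    n (g * LJ M J u) i.1 lo ≤ b i.1 → n (g * LJ M J u') i'.1 lo ≤ b i'.1 →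
    (∀ (w : WJ M J) (j : {s // s ∈ J}), b j.1 ≤ n (g * LJ M J w) j.1 lo) →
    n g t.1 lo ≤ b t.1

/-- a minimiser for a strictly subharmonic `b` has nothing above `hi` -/
def HasA0 : Prop := ∀ J g lo hi (b : S → ℝ) i, Sph M J → lo ≤ hi → Bd (M := M) J (Lo n lo g) →
  Bd (M := M) J (Hi n hi g) →
  (∀ j ∈ J, 2 * b j - ∑ k ∈ J, aa M j k * b k < ∑ k ∈ Jᶜ, aa M j k * n g k lo) →
  (∀ a ∈ AP M J, ∀ j ∈ J, Lo n lo (g * a) j → b j ≤ n (g * a) j lo) →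
  i ∈ J → Tie1 n lo b g i → Hi n hi g i

/-- all multiplicities vanish -/
def Zer (g : ArtinGroup M) (i : S) : Prop := ∀ k, n g i k = 0

/-- the data attached to the vertex `z` -/
structure EData (z : S) : Prop where
  ax : NAx n
  cl : HasCL n
  left : ∀ s, s ≠ z → aa M s z = 0 → ∀ g i k, n (artinGen M s * g) i k = n g i k
  one_ne : ∀ i k, i ≠ z → n 1 i k = 0
  one_deg : ∀ k, k ≠ 0 → n 1 z k = 0
  one_pos : 0 < n 1 z 0

end preds

/-- the properties of "`Hom^k (S_v, E g) = 0` for `k ≤ 0`" (`P`) and of the stabiliser of `E` -/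
structure RTh (K : Finset S) (z : S) (P : ArtinGroup M → Prop) (St : Subgroup (ArtinGroup M)) :
    Prop where
  one : P 1
  up : ∀ g, ∀ s ∈ K, P g → P (g * artinGen M s)
  left : ∀ x ∈ St, ∀ g, P g → P (x * g)
  gen : ∀ s ∈ K, aa M s z = 0 → artinGen M s ∈ St
  pp : ∀ g, ¬ P g → ∃ s, ∀ Y ⊆ K, ∀ p ∈ PP M Y, P (g * p) →
    s ∈ Y ∧ (artinGen M s)⁻¹ * p ∈ PP M Y
  inv : ∀ s ∈ K, P (artinGen M s)⁻¹ → aa M s z = 0
  acyc : ∀ g ∈ AP M K, ∀ t ∈ K, ∀ p ∈ PP M K, g * (artinGen M t * p) * g⁻¹ ∈ St →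
    g * artinGen M t * g⁻¹ ∈ St

/-- `A_X ∩ g A_Y g⁻¹ = (g h) A_Z (g h)⁻¹` -/
def ClaimAt (M : CoxeterMatrix S) (X Y : Finset S) (g : ArtinGroup M) : Prop :=
  ∃ h ∈ AP M Y, ∃ Z ⊆ Y, ∀ x : ArtinGroup M,
    (x ∈ AP M X ∧ g⁻¹ * x * g ∈ AP M Y) ↔ (g * h)⁻¹ * x * (g * h) ∈ AP M Z

theorem claim_iff (K : Finset S) :
    Claim M K ↔ ∀ X ⊆ K, ∀ Y ⊆ K, ∀ g ∈ AP M K, ClaimAt M X Y g := Iff.rfl

/-- `z` is a frame for `X` in `K` -/
def IsFr (M : CoxeterMatrix S) (K X : Finset S) (z : S) : Prop :=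
  z ∉ K ∧ ∀ s ∈ K, (aa M s z = 0 ↔ s ∈ X)

/-- every subset of `K` has a frame -/
def Framed (M : CoxeterMatrix S) (K : Finset S) : Prop := ∀ X ⊆ K, ∃ z, IsFr M K X z

/-- van der Lek's theorem inside `K` -/
def VdL (M : CoxeterMatrix S) (K : Finset S) : Prop :=
  ∀ X ⊆ K, ∀ Y ⊆ K, ∀ g, g ∈ AP M X → g ∈ AP M Y → g ∈ AP M (X ∩ Y)

open Classical in
/-- the level of a vertex -/
noncomputable def lev (n : ArtinGroup M → S → ℤ → ℝ) (m : ℕ) (b c : S → ℝ) (g : ArtinGroup M)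
    (i : S) : ℕ ×ₗ ℝ :=
  if InReg n m g i then toLex (m, (n g i (dS m) - b i) / c i)
  else toLex (sInf {m' | InReg n m' g i}, n g i (dS (sInf {m' | InReg n m' g i})) / c i)

end Crest.Agent.R175
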