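import Crest.Agent.R175.AltEq
import Crest.Agent.R175.Sys2

/-!
# R175: elementary facts on Artin groups.
-/

set_option autoImplicit false

namespace Crest.Agent.R175

open CoxeterSystem Crest.Agent.R61 Crest.GroupTheory

variable {S : Type} [Fintype S] [DecidableEq S] {M : CoxeterMatrix S}

theorem aa_self (s : S) : aa M s s = 0 := by
  simp [aa]

theorem aa_symm (s t : S) : aa M s t = aa M t s := by
  unfold aa
  by_cases h : s = t
  · simp [h]
  · rw [if_neg h, if_neg (Ne.symm h), kk_symm]

/-- `geoa_neg_kk`, `cos (π / m) ≥ 0` for `m = 0` and `m ≥ 2` -/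
theorem aa_nonneg (s t : S) : 0 ≤ aa M s t := by
  unfold aa
  split_ifs with h
  · exact le_rfl
  · exact neg_nonneg.2 (cox2_kk_nonpos h)

theorem aa_of_ne {s t : S} (h : s ≠ t) : aa M s t = -kk M s t := by
  simp [aa, h]

theorem aa_eq_zero_iff {s t : S} (h : s ≠ t) : aa M s t = 0 ↔ M s t = 2 := by
  rw [aa_of_ne h, geoa_neg_kk]
  constructor
  · intro h0
    by_contra h2
    by_cases hz : M s t = 0
    · simp [hz] at h0
    have h3 : 3 ≤ M s t := by
      have := geoa_two_le M h hz
      omega
    have h3' : (3 : ℝ) ≤ (M s t : ℝ) := by exact_mod_cast h3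
    have hπ := Real.pi_pos
    have : 0 < Real.cos (Real.pi / (M s t : ℝ)) := by
      refine Real.cos_pos_of_mem_Ioo ⟨?_, ?_⟩
      · have : 0 < Real.pi / (M s t : ℝ) := by positivity
        linarith
      · exact div_lt_div_of_pos_left hπ (by norm_num) (by linarith)
    linarith
  · intro h2
    rw [h2]
    simp

theorem ne_of_aa_ne_zero {s t : S} (h : aa M s t ≠ 0) : s ≠ t := by
  rintro rfl
  exact h (aa_self s)

theorem kk_res (J : Finset S) (i j : {s // s ∈ J}) : kk (res M J) i j = kk M i.1 j.1 := by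
  rfl

/-- `∑ k, kk j k * x k = 2 x j - ∑ k ∈ J, aa j k * x k` -/
theorem sum_kk_res (J : Finset S) (j : {s // s ∈ J}) (x : S → ℝ) :
    ∑ k : {s // s ∈ J}, kk (res M J) j k * x k.1 = 2 * x j.1 - ∑ k ∈ J, aa M j.1 k * x k := by
  simp only [kk_res]
  rw [Finset.sum_coe_sort J fun k => kk M j.1 k * x k, ← Finset.add_sum_erase J _ j.2,
    ← Finset.add_sum_erase J _ j.2, kk_self, aa_self, zero_mul, zero_add, sub_eq_add_neg,
    ← Finset.sum_neg_distrib]
  congr 1
  refine Finset.sum_congr rfl fun k hk => ?_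
  rw [aa_of_ne (Finset.ne_of_mem_erase hk).symm]
  ring

@[simp] theorem wd_nil : wd M [] = 1 := by
  rfl

@[simp] theorem wd_cons (s : S) (l : List S) : wd M (s :: l) = artinGen M s * wd M l := by
  simp [wd]

@[simp] theorem wd_append (l l' : List S) : wd M (l ++ l') = wd M l * wd M l' := by
  simp [wd]

omit [Fintype S] [DecidableEq S] in
theorem art_hom_alt {G : Type*} [Group G] (φ : FreeGroup S →* G) (m : ℕ) : ∀ s t : S,
    φ (artinAltWord s t m) = ((altW t s m).map fun x => φ (FreeGroup.of x)).prod := by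
  induction m with
  | zero => intro s t; simp [artinAltWord]
  | succ m ih =>
    intro s t
    rw [artinAltWord, map_mul, ih, altW_succ', List.map_cons, List.prod_cons]

/-- `PresentedGroup.mk _ (artinAltWord s t m) = wd M (altW t s m)` (induction on `m`, `altW_succ'`) -/
theorem braid_gen (s t : S) : wd M (altW s t (M s t)) = wd M (altW t s (M s t)) := by
  have h : PresentedGroup.mk (artinRelators M) (artinAltWord t s (M t s)) =
      PresentedGroup.mk (artinRelators M) (artinAltWord s t (M t s)) :=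
    PresentedGroup.mk_eq_mk_of_mul_inv_mem ⟨(t, s), rfl⟩
  rw [art_hom_alt, art_hom_alt, M.symmetric t s] at h
  exact h

/-- a map on the generators that satisfies the braid relations extends to the Artin group -/
theorem exists_lift {G : Type*} [Group G] (f : S → G) (hf : BraidRel M f) :
    ∃ φ : ArtinGroup M →* G, ∀ s, φ (artinGen M s) = f s := by
  have h : ∀ r ∈ artinRelators M, FreeGroup.lift f r = 1 := by
    rintro r ⟨⟨s, t⟩, rfl⟩
    simp only [map_mul, map_inv, art_hom_alt, FreeGroup.lift_apply_of, mul_inv_eq_one]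
    by_cases hst : s = t
    · rw [hst]
    by_cases h0 : M s t = 0
    · change M.M s t = 0 at h0
      rw [h0]
      rfl
    exact (hf s t hst h0).symm
  exact ⟨PresentedGroup.toGroup h, fun s => PresentedGroup.toGroup.of h⟩

theorem artin_induction {P : ArtinGroup M → Prop} (h1 : P 1)
    (hs : ∀ g s, P g → P (g * artinGen M s)) (hi : ∀ g s, P g → P (g * (artinGen M s)⁻¹))
    (g : ArtinGroup M) : P g := by
  have hg : g ∈ Subgroup.closure (Set.range (PresentedGroup.of : S → ArtinGroup M)) := by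
    rw [PresentedGroup.closure_range_of]
    exact Subgroup.mem_top g
  induction hg using Subgroup.closure_induction_right with
  | one => exact h1
  | mul_right x _ y hy h =>
    obtain ⟨s, rfl⟩ := hy
    exact hs x s h
  | mul_inv_cancel x _ y hy h =>
    obtain ⟨s, rfl⟩ := hy
    exact hi x s h

theorem gen_mem_AP {J : Finset S} {s : S} (h : s ∈ J) : artinGen M s ∈ AP M J := by
  exact Subgroup.subset_closure ⟨s, h, rfl⟩

theorem gen_mem_PP {J : Finset S} {s : S} (h : s ∈ J) : artinGen M s ∈ PP M J := by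
  exact Submonoid.subset_closure ⟨s, h, rfl⟩

theorem mem_AP_of_PP {J : Finset S} {p : ArtinGroup M} (h : p ∈ PP M J) : p ∈ AP M J := by
  exact Subgroup.le_closure_toSubmonoid _ h

theorem AP_mono {J J' : Finset S} (h : J ⊆ J') {g : ArtinGroup M} (hg : g ∈ AP M J) :
    g ∈ AP M J' := by
  exact Subgroup.closure_mono (Set.image_mono (Finset.coe_subset.2 h)) hg

theorem PP_mono {J J' : Finset S} (h : J ⊆ J') {g : ArtinGroup M} (hg : g ∈ PP M J) :
    g ∈ PP M J' := by
  exact Submonoid.closure_mono (Set.image_mono (Finset.coe_subset.2 h)) hg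

theorem eq_one_of_mem_AP_empty {g : ArtinGroup M} (hg : g ∈ AP M ∅) : g = 1 := by
  simpa [AP, stdParabolic] using hg

theorem mem_PP_iff {J : Finset S} {p : ArtinGroup M} :
    p ∈ PP M J ↔ ∃ l : List S, (∀ s ∈ l, s ∈ J) ∧ wd M l = p := by
  constructor
  · intro hp
    induction hp using Submonoid.closure_induction with
    | mem x hx =>
      obtain ⟨s, hs, rfl⟩ := hx
      exact ⟨[s], by simpa using hs, by simp⟩
    | one => exact ⟨[], by simp, rfl⟩
    | mul x y _ _ hx hy =>
      obtain ⟨l, hl, rfl⟩ := hx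
      obtain ⟨l', hl', rfl⟩ := hy
      refine ⟨l ++ l', fun s hs => ?_, wd_append l l'⟩
      rcases List.mem_append.1 hs with h | h
      · exact hl s h
      · exact hl' s h
  · rintro ⟨l, hl, rfl⟩
    refine Submonoid.list_prod_mem _ fun x hx => ?_
    obtain ⟨s, hs, rfl⟩ := List.mem_map.1 hx
    exact gen_mem_PP (hl s hs)

theorem wd_mem_PP {J : Finset S} {l : List S} (h : ∀ s ∈ l, s ∈ J) : wd M l ∈ PP M J :=
  mem_PP_iff.2 ⟨l, h, rfl⟩

theorem AP_induction {J : Finset S} {P : ArtinGroup M → Prop} (h1 : P 1)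
    (hs : ∀ g s, g ∈ AP M J → s ∈ J → P g → P (g * artinGen M s))
    (hi : ∀ g s, g ∈ AP M J → s ∈ J → P g → P (g * (artinGen M s)⁻¹))
    {g : ArtinGroup M} (hg : g ∈ AP M J) : P g := by
  induction hg using Subgroup.closure_induction_right with
  | one => exact h1
  | mul_right x hx y hy h =>
    obtain ⟨s, hs', rfl⟩ := hy
    exact hs x s hx hs' h
  | mul_inv_cancel x hx y hy h =>
    obtain ⟨s, hs', rfl⟩ := hy
    exact hi x s hx hs' h

theorem PP_induction_right {J : Finset S} {P : ArtinGroup M → Prop} (h1 : P 1)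
    (hs : ∀ p s, p ∈ PP M J → s ∈ J → P p → P (p * artinGen M s))
    {p : ArtinGroup M} (hp : p ∈ PP M J) : P p := by
  induction hp using Submonoid.closure_induction_right with
  | one => exact h1
  | mul_right x hx y hy h =>
    obtain ⟨s, hs', rfl⟩ := hy
    exact hs x s hx hs' h

theorem PP_induction_left {J : Finset S} {P : ArtinGroup M → Prop} (h1 : P 1)
    (hs : ∀ p s, p ∈ PP M J → s ∈ J → P p → P (artinGen M s * p))
    {p : ArtinGroup M} (hp : p ∈ PP M J) : P p := by
  induction hp using Submonoid.closure_induction_left with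
  | one => exact h1
  | mul_left x hx y hy h =>
    obtain ⟨s, hs', rfl⟩ := hx
    exact hs y s hy hs' h

/-- the length homomorphism (use `exists_lift` to `Multiplicative ℤ`) -/
theorem exists_len : ∃ len : ArtinGroup M → ℤ, (∀ g h, len (g * h) = len g + len h) ∧
    (∀ s, len (artinGen M s) = 1) ∧ ∀ l : List S, len (wd M l) = l.length := by
  obtain ⟨φ, hφ⟩ := exists_lift (M := M) (fun _ => Multiplicative.ofAdd (1 : ℤ)) fun i j _ _ => by
    simp [List.map_const']
  refine ⟨fun g => (φ g).toAdd, fun g h => by simp, fun s => by simp [hφ], fun l => ?_⟩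
  induction l with
  | nil => simp
  | cons s l ih =>
    simp only [wd_cons, map_mul, toAdd_mul, hφ, toAdd_ofAdd, List.length_cons] at ih ⊢
    rw [ih]
    push_cast
    ring

theorem length_eq_of_wd_eq {l l' : List S} (h : wd M l = wd M l') : l.length = l'.length := by
  obtain ⟨len, -, -, h3⟩ := exists_len (M := M)
  have := h3 l
  rw [h, h3] at this
  exact_mod_cast this.symm

/-- the positive left divisors of an element form a finite set -/
theorem finite_interval (J : Finset S) (x : ArtinGroup M) :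
    {g : ArtinGroup M | g ∈ PP M J ∧ g⁻¹ * x ∈ PP M J}.Finite := by
  obtain ⟨len, h1, -, h3⟩ := exists_len (M := M)
  refine ((List.finite_length_le S (len x).toNat).image (wd M)).subset ?_
  rintro g ⟨hg, hg'⟩
  obtain ⟨l, -, rfl⟩ := mem_PP_iff.1 hg
  obtain ⟨l', -, e⟩ := mem_PP_iff.1 hg'
  refine ⟨l, ?_, rfl⟩
  have h := h1 (wd M l) (wd M l')
  rw [h3, h3, e, mul_inv_cancel_left] at h
  show l.length ≤ _
  omega

theorem commute_gen {s t : S} (h : aa M s t = 0) : Commute (artinGen M s) (artinGen M t) := by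
  by_cases hst : s = t
  · rw [hst]
  have h2 := braid_gen (M := M) s t
  rw [(aa_eq_zero_iff hst).1 h] at h2
  show _ * _ = _ * _
  simpa [altW, altL, List.range_succ] using h2.symm

theorem commute_AP {J₁ J₂ : Finset S} (h : ∀ i ∈ J₁, ∀ j ∈ J₂, aa M i j = 0)
    {a b : ArtinGroup M} (ha : a ∈ AP M J₁) (hb : b ∈ AP M J₂) : Commute a b := by
  have key : ∀ i ∈ J₁, Commute (artinGen M i) b := by
    intro i hi
    refine AP_induction (P := fun b => Commute (artinGen M i) b) (Commute.one_right _) ?_ ?_ hb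
    · exact fun g s _ hs hg => hg.mul_right (commute_gen (h i hi s hs))
    · exact fun g s _ hs hg => hg.mul_right (commute_gen (h i hi s hs)).inv_right
  refine AP_induction (P := fun a => Commute a b) (Commute.one_left _) ?_ ?_ ha
  · exact fun g s _ hs hg => hg.mul_left (key s hs)
  · exact fun g s _ hs hg => hg.mul_left (key s hs).inv_left

theorem exists_mul_of_mem_union {J₁ J₂ : Finset S} (h : ∀ i ∈ J₁, ∀ j ∈ J₂, aa M i j = 0)
    {g : ArtinGroup M} (hg : g ∈ AP M (J₁ ∪ J₂)) : ∃ a ∈ AP M J₁, ∃ b ∈ AP M J₂, g = a * b := by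
  have key : ∀ (x : ArtinGroup M), (x ∈ AP M J₁ ∨ x ∈ AP M J₂) → ∀ g,
      (∃ a ∈ AP M J₁, ∃ b ∈ AP M J₂, g = a * b) → ∃ a ∈ AP M J₁, ∃ b ∈ AP M J₂, g * x = a * b := by
    rintro x (hx | hx) g ⟨a, ha, b, hb, rfl⟩
    · exact ⟨a * x, mul_mem ha hx, b, hb, by rw [mul_assoc, mul_assoc, (commute_AP h hx hb).eq]⟩
    · exact ⟨a, ha, b * x, mul_mem hb hx, mul_assoc _ _ _⟩
  refine AP_induction (P := fun g => ∃ a ∈ AP M J₁, ∃ b ∈ AP M J₂, g = a * b)
    ⟨1, one_mem _, 1, one_mem _, (one_mul _).symm⟩ ?_ ?_ hg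
  · exact fun g s _ hs hg => key _ ((Finset.mem_union.1 hs).imp gen_mem_AP gen_mem_AP) g hg
  · exact fun g s _ hs hg => key _ ((Finset.mem_union.1 hs).imp (fun h => inv_mem (gen_mem_AP h))
      fun h => inv_mem (gen_mem_AP h)) g hg

theorem art_reverse_altW {α : Type} (s t : α) (m : ℕ) :
    (altW s t m).reverse = if Even m then altW t s m else altW s t m := by
  induction m with
  | zero => simp
  | succ m ih =>
    conv_lhs => rw [altW_succ, List.reverse_append, ih]
    by_cases h : Even m
    · have h' : ¬ Even (m + 1) := by simp [h, parity_simps]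
      rw [if_pos h, if_neg h', altW_succ']
      simp [altL, h]
    · have h' : Even (m + 1) := by simp [h, parity_simps]
      rw [if_neg h, if_pos h', altW_succ']
      simp [altL, h]

/-- the reverse of an alternating word is an alternating word -/
theorem braidRel_inv {G : Type*} [Group G] {B : Type} {N : CoxeterMatrix B} {f : B → G}
    (hf : BraidRel N f) : BraidRel N fun i => (f i)⁻¹ := by
  intro i j hij h0
  have e : ∀ l : List B, (l.map fun i => (f i)⁻¹).prod = ((l.reverse.map f).prod)⁻¹ := by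
    intro l
    induction l with
    | nil => simp
    | cons a l ih => simp [ih]
  rw [e, e, art_reverse_altW, art_reverse_altW]
  split_ifs
  · rw [hf i j hij h0]
  · rw [hf i j hij h0]

theorem braidRel_gen : BraidRel M (artinGen M) := by
  exact fun i j _ _ => braid_gen i j

/-- the automorphism `s ↦ s⁻¹` -/
noncomputable def iota (M : CoxeterMatrix S) : ArtinGroup M →* ArtinGroup M :=
  (exists_lift (fun s => (artinGen M s)⁻¹) (braidRel_inv braidRel_gen)).choose

theorem iota_gen (s : S) : iota M (artinGen M s) = (artinGen M s)⁻¹ :=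
  (exists_lift (fun s => (artinGen M s)⁻¹) (braidRel_inv braidRel_gen)).choose_spec s

theorem iota_iota (g : ArtinGroup M) : iota M (iota M g) = g := by
  induction g using artin_induction with
  | h1 => simp
  | hs g s h => simp [h, iota_gen]
  | hi g s h => simp [h, iota_gen]

theorem iota_mem_AP {J : Finset S} {g : ArtinGroup M} : iota M g ∈ AP M J ↔ g ∈ AP M J := by
  have key : ∀ g ∈ AP M J, iota M g ∈ AP M J := by
    intro g hg
    refine AP_induction (P := fun g => iota M g ∈ AP M J) (by simp) ?_ ?_ hg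
    · intro g s _ hs h
      rw [map_mul, iota_gen]
      exact mul_mem h (inv_mem (gen_mem_AP hs))
    · intro g s _ hs h
      rw [map_mul, map_inv, iota_gen, inv_inv]
      exact mul_mem h (gen_mem_AP hs)
  refine ⟨fun h => ?_, key g⟩
  rw [← iota_iota g]
  exact key _ h

theorem iota_wd (l : List S) : iota M (wd M l) = (wd M l.reverse)⁻¹ := by
  induction l with
  | nil => simp
  | cons s l ih => simp [ih, iota_gen]

/-! ### the lift `W_J → A` -/

theorem braidRel_res (J : Finset S) :
    BraidRel (res M J) fun i : {s // s ∈ J} => artinGen M i.1 := by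
  intro i j _ _
  have e : ∀ (a b : {s // s ∈ J}) (m : ℕ),
      ((altW a b m).map fun i => artinGen M i.1).prod = wd M (altW a.1 b.1 m) := by
    intro a b m
    unfold wd altW
    simp only [List.map_map]
    congr 1
    refine List.map_congr_left fun r _ => ?_
    simp only [Function.comp, altL]
    split_ifs <;> rfl
  rw [e, e]
  exact braid_gen i.1 j.1

theorem LJ_one (J : Finset S) : LJ M J 1 = 1 := by
  exact lft_one _

theorem LJ_wordProd (J : Finset S) {ω : List {s // s ∈ J}} (h : (csJ M J).IsReduced ω) :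
    LJ M J ((csJ M J).wordProd ω) = wd M (ω.map Subtype.val) := by
  unfold LJ wd
  rw [lft_wordProd _ (braidRel_res J) h, List.map_map]
  rfl

theorem LJ_mul {J : Finset S} {u w : WJ M J}
    (h : (csJ M J).length (u * w) = (csJ M J).length u + (csJ M J).length w) :
    LJ M J (u * w) = LJ M J u * LJ M J w := by
  exact lft_mul _ (braidRel_res J) h

theorem LJ_mul_simple {J : Finset S} {w : WJ M J} {i : {s // s ∈ J}}
    (h : (csJ M J).length w < (csJ M J).length (w * (csJ M J).simple i)) :
    LJ M J (w * (csJ M J).simple i) = LJ M J w * artinGen M i.1 := by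
  exact lft_mul_simple _ (braidRel_res J) h

theorem LJ_simple_mul {J : Finset S} {w : WJ M J} {i : {s // s ∈ J}}
    (h : (csJ M J).length w < (csJ M J).length ((csJ M J).simple i * w)) :
    LJ M J ((csJ M J).simple i * w) = artinGen M i.1 * LJ M J w := by
  exact lft_simple_mul _ (braidRel_res J) h

/-- `ℓ (w s) ≠ ℓ w`; in the descending case apply `LJ_mul_simple` to `w s` -/
theorem LJ_mul_simple_cases {J : Finset S} (w : WJ M J) (i : {s // s ∈ J}) :
    LJ M J (w * (csJ M J).simple i) = LJ M J w * artinGen M i.1 ∨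
      LJ M J w = LJ M J (w * (csJ M J).simple i) * artinGen M i.1 := by
  rcases (csJ M J).length_mul_simple w i with h | h
  · exact Or.inl (LJ_mul_simple (by omega))
  · right
    rw [← LJ_mul_simple, (csJ M J).simple_mul_simple_cancel_right]
    rw [(csJ M J).simple_mul_simple_cancel_right]
    omega

omit [Fintype S] [DecidableEq S] in
theorem art_range (J : Finset S) :
    Set.range (fun i : {s // s ∈ J} => artinGen M i.1) = artinGen M '' (J : Set S) := by
  ext x
  simp

theorem LJ_mem_PP (J : Finset S) (w : WJ M J) : LJ M J w ∈ PP M J := by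
  have := lft_mem (csJ M J) (f := fun i : {s // s ∈ J} => artinGen M i.1) w
  rwa [art_range] at this

theorem LJ_mem_AP (J : Finset S) (w : WJ M J) : LJ M J w ∈ AP M J := mem_AP_of_PP (LJ_mem_PP J w)

theorem iota_LJ (J : Finset S) (w : WJ M J) : iota M (LJ M J w⁻¹) = (LJ M J w)⁻¹ := by
  obtain ⟨ω, hω, rfl⟩ := (csJ M J).exists_isReduced w
  rw [← (csJ M J).wordProd_reverse, LJ_wordProd J hω.reverse, LJ_wordProd J hω, iota_wd,
    List.map_reverse, List.reverse_reverse]

theorem Sph.mono {J J' : Finset S} (h : Sph M J) (hJ : J' ⊆ J) : Sph M J' := by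
  obtain ⟨γ, hγ⟩ := h
  refine ⟨γ, fun i hi => ⟨(hγ i (hJ hi)).1, lt_of_le_of_lt ?_ (hγ i (hJ hi)).2⟩⟩
  exact Finset.sum_le_sum_of_subset_of_nonneg hJ fun j hj _ =>
    mul_nonneg (aa_nonneg _ _) (hγ j hj).1.le

/-- `finite_of_pos` -/
theorem Sph.finite {J : Finset S} (h : Sph M J) : Finite (WJ M J) := by
  obtain ⟨γ, hγ⟩ := h
  refine finite_of_pos (csJ M J) (γ := fun i => γ i.1) (fun i => (hγ i.1 i.2).1) fun i => ?_
  rw [sum_kk_res]
  linarith [(hγ i.1 i.2).2]

/-- an element `w₀` all of whose neighbours `w₀ s` are shorter (`exists_longest`, or any element of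
maximal length) -/
theorem Sph.exists_top {J : Finset S} (h : Sph M J) : ∃ w₀ : WJ M J, ∀ i,
    (csJ M J).length (w₀ * (csJ M J).simple i) < (csJ M J).length w₀ ∧
    (csJ M J).length ((csJ M J).simple i * w₀) < (csJ M J).length w₀ := by
  have := h.finite
  obtain ⟨w₀, hw₀⟩ := Finite.exists_max (csJ M J).length
  exact ⟨w₀, fun i => ⟨lt_of_le_of_ne (hw₀ _) ((csJ M J).length_mul_simple_ne _ _),
    lt_of_le_of_ne (hw₀ _) ((csJ M J).length_simple_mul_ne _ _)⟩⟩

/-- Take `Δ` from `exists_garside (csJ M J) (braidRel_res J)`.  For `s ∈ J`, `Δ s Δ⁻¹` is positive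
of length one (`exists_len`), so it is a generator: conjugation by `Δ` is an injective self-map of the
finite set of the `artinGen M s`, `s ∈ J`; so a power `ζ = Δ ^ o`, `o ≥ 1`, fixes all of them.
`p⁻¹ Δ ^ n = (Δ ^ (n (o - 1)) p)⁻¹ ζ ^ n`. -/
theorem Sph.exists_central {J : Finset S} (h : Sph M J) : ∃ ζ ∈ PP M J,
    (∀ g ∈ AP M J, Commute ζ g) ∧ ∀ g ∈ AP M J, ∃ n : ℕ, ∃ p ∈ PP M J, g = p⁻¹ * ζ ^ n := by
  have := h.finite
  obtain ⟨Δ, hΔ, h1, h2⟩ := exists_garside (csJ M J) (braidRel_res (M := M) J)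
  rw [art_range] at hΔ h1 h2
  obtain ⟨len, l1, l2, l3⟩ := exists_len (M := M)
  have : Finite (artinGen M '' (J : Set S)) := (J.finite_toSet.image _).to_subtype
  have hmap : ∀ x ∈ artinGen M '' (J : Set S), Δ * x * Δ⁻¹ ∈ artinGen M '' (J : Set S) := by
    rintro _ ⟨s, hs, rfl⟩
    obtain ⟨l, hl, e⟩ := mem_PP_iff.1 (h1 _ (gen_mem_PP hs)).1
    have a1 := l1 (wd M l) Δ
    rw [l3, e, inv_mul_cancel_right, l1, l2] at a1
    obtain ⟨t, rfl⟩ := List.length_eq_one_iff.1 (show l.length = 1 by omega)
    exact ⟨t, hl t (by simp), by rw [← e]; simp⟩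
  let c : artinGen M '' (J : Set S) → artinGen M '' (J : Set S) := fun x => ⟨_, hmap x.1 x.2⟩
  have hc : Function.Injective c := fun x y e => Subtype.ext (by
    have := congrArg Subtype.val e
    simpa [c] using this)
  let σ : Equiv.Perm (artinGen M '' (J : Set S)) :=
    Equiv.ofBijective c (Finite.injective_iff_bijective.1 hc)
  have hσ : ∀ (k : ℕ) x, ((σ ^ k) x).1 = Δ ^ k * x.1 * (Δ ^ k)⁻¹ := by
    intro k
    induction k with
    | zero => simp
    | succ k ih =>
      intro x
      rw [pow_succ', Equiv.Perm.mul_apply, pow_succ']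
      change Δ * ((σ ^ k) x).1 * Δ⁻¹ = _
      rw [ih]
      group
  obtain ⟨o, ho⟩ : ∃ o, orderOf σ = o + 1 := ⟨orderOf σ - 1, by have := orderOf_pos σ; omega⟩
  have hz : ∀ s ∈ J, Commute (Δ ^ (o + 1)) (artinGen M s) := by
    intro s hs
    have := hσ (o + 1) ⟨_, s, hs, rfl⟩
    rw [← ho, pow_orderOf_eq_one, ho] at this
    exact mul_inv_eq_iff_eq_mul.1 this.symm
  refine ⟨Δ ^ (o + 1), pow_mem hΔ _, fun g hg => ?_, fun g hg => ?_⟩
  · refine AP_induction (P := fun g => Commute (Δ ^ (o + 1)) g) (Commute.one_right _) ?_ ?_ hg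
    · exact fun g s _ hs hg => hg.mul_right (hz s hs)
    · exact fun g s _ hs hg => hg.mul_right (hz s hs).inv_right
  · obtain ⟨n, p, hp, rfl⟩ := h2 g hg
    refine ⟨n, Δ ^ (o * n) * p, mul_mem (pow_mem hΔ _) hp, ?_⟩
    rw [← pow_mul, add_mul, one_mul, pow_add]
    group

end Crest.Agent.R175
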