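import Crest.Agent.R175.Obj

/-!
# R175: elementary properties of `IsHom`, `Dd`, `Closed`, `Exact`, `HE`, `shift`, `DGFun`.
All proofs are matrix algebra (`Matrix.mul_assoc`, `Matrix.mul_add`, `Matrix.smul_mul`, ...).
-/

set_option autoImplicit false

namespace Crest.Agent.R175

open Matrix

variable {Q : Qv}

section ok
variable {v w u : Q.V} {k l m p q : ℤ} {x y : Z Q}

theorem basic_ne {a b : ℝ} (h : a + b ≠ 0) : a ≠ 0 ∨ b ≠ 0 := by
  by_contra hc
  push Not at hc
  exact h (by rw [hc.1, hc.2, add_zero])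

theorem Ok.add (hx : Ok v k w l p x) (hy : Ok v k w l p y) : Ok v k w l p (x + y) := by
  exact ⟨fun h => (basic_ne h).elim hx.1 hy.1, fun a h => (basic_ne h).elim (hx.2.1 a) (hy.2.1 a),
    fun h => (basic_ne h).elim hx.2.2 hy.2.2⟩

theorem Ok.neg (hx : Ok v k w l p x) : Ok v k w l p (-x) := by
  exact ⟨fun h => hx.1 (neg_ne_zero.1 h), fun a h => hx.2.1 a (neg_ne_zero.1 h),
    fun h => hx.2.2 (neg_ne_zero.1 h)⟩

theorem Ok.sub (hx : Ok v k w l p x) (hy : Ok v k w l p y) : Ok v k w l p (x - y) := by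
  rw [sub_eq_add_neg]
  exact hx.add hy.neg

theorem Ok.sum {α : Type*} (s : Finset α) {f : α → Z Q} (h : ∀ i ∈ s, Ok v k w l p (f i)) :
    Ok v k w l p (∑ i ∈ s, f i) := by
  exact Finset.sum_induction f (Ok v k w l p) (fun _ _ => Ok.add) (Ok.zero _ _ _ _ _) h

/-- a non-zero component of a product comes from non-zero components of the factors; for `c2` use
`Finset.exists_ne_zero_of_sum_ne_zero` and `Qv.src_bar`, `Qv.tgt_bar`. -/
theorem Ok.mul (hx : Ok v k w l p x) (hy : Ok w l u m q y) : Ok v k u m (p + q) (y * x) := by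
  refine ⟨fun h => ?_, fun a h => ?_, fun h => ?_⟩
  · obtain ⟨h1, h2⟩ := mul_ne_zero_iff.1 h
    obtain ⟨rfl, e1⟩ := hy.1 h1
    obtain ⟨rfl, e2⟩ := hx.1 h2
    exact ⟨rfl, by omega⟩
  · rcases basic_ne h with h | h
    · obtain ⟨h1, h2⟩ := mul_ne_zero_iff.1 h
      obtain ⟨rfl, e1⟩ := hy.1 h1
      obtain ⟨e2, e3, e4⟩ := hx.2.1 a h2
      exact ⟨e2, e3, by omega⟩
    · obtain ⟨h1, h2⟩ := mul_ne_zero_iff.1 h
      obtain ⟨e2, e3, e4⟩ := hy.2.1 a h1
      obtain ⟨rfl, e1⟩ := hx.1 h2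
      exact ⟨e2, e3, by omega⟩
  · rcases basic_ne h with h | h
    · rcases basic_ne h with h | h
      · obtain ⟨h1, h2⟩ := mul_ne_zero_iff.1 h
        obtain ⟨rfl, e1⟩ := hy.1 h1
        obtain ⟨rfl, e2⟩ := hx.2.2 h2
        exact ⟨rfl, by omega⟩
      · obtain ⟨h1, h2⟩ := mul_ne_zero_iff.1 h
        obtain ⟨rfl, e1⟩ := hy.2.2 h1
        obtain ⟨rfl, e2⟩ := hx.1 h2
        exact ⟨rfl, by omega⟩
    · obtain ⟨a, -, ha⟩ := Finset.exists_ne_zero_of_sum_ne_zero h
      obtain ⟨h1, h2⟩ := mul_ne_zero_iff.1 ha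
      obtain ⟨-, e2, e3⟩ := hy.2.1 _ h1
      obtain ⟨e4, -, e6⟩ := hx.2.1 a h2
      rw [Qv.tgt_bar] at e2
      exact ⟨e2.symm.trans e4, by omega⟩

theorem Ok.sc (r : ℝ) (h : l = k + p) : Ok v k v l p (Z.sc r : Z Q) := by
  exact ⟨fun _ => ⟨rfl, h⟩, fun a h => absurd rfl h, fun h => absurd rfl h⟩

theorem Ok.one : Ok v k v k 0 (1 : Z Q) := by
  exact Ok.sc 1 (add_zero k).symm

end ok

section hom
variable {F G H : Gr Q} {p q : ℤ} {f f' : Mor F G} {g : Mor G H}

theorem IsHom.zero : IsHom F G p 0 := by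
  exact fun _ _ => Ok.zero _ _ _ _ _
theorem IsHom.add (h : IsHom F G p f) (h' : IsHom F G p f') : IsHom F G p (f + f') := by
  exact fun j i => (h j i).add (h' j i)
theorem IsHom.neg (h : IsHom F G p f) : IsHom F G p (-f) := by
  exact fun j i => (h j i).neg
theorem IsHom.sub (h : IsHom F G p f) (h' : IsHom F G p f') : IsHom F G p (f - f') := by
  exact fun j i => (h j i).sub (h' j i)
theorem IsHom.smul (h : IsHom F G p f) (r : ℝ) : IsHom F G p (r • f) := by
  exact fun j i => (h j i).smul r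
theorem IsHom.sum {α : Type*} (s : Finset α) {φ : α → Mor F G} (h : ∀ i ∈ s, IsHom F G p (φ i)) :
    IsHom F G p (∑ i ∈ s, φ i) := by
  exact Finset.sum_induction φ (IsHom F G p) (fun _ _ => IsHom.add) IsHom.zero h
theorem IsHom.mul (hf : IsHom F G p f) (hg : IsHom G H q g) : IsHom F H (p + q) (g * f) := by
  intro j i
  rw [Matrix.mul_apply]
  exact Ok.sum _ fun k _ => (hf k i).mul (hg j k)
theorem IsHom.one : IsHom F F 0 1 := by
  intro j i
  rcases eq_or_ne j i with rfl | h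
  · rw [Matrix.one_apply_eq]
    exact Ok.one
  · rw [Matrix.one_apply_ne h]
    exact Ok.zero _ _ _ _ _
theorem IsHom.of_eq (h : IsHom F G p f) (e : p = q) : IsHom F G q f := e ▸ h

/-- the homogeneous morphisms of degree `p` as a submodule -/
def homSub (F G : Gr Q) (p : ℤ) : Submodule ℝ (Mor F G) where
  carrier := {f | IsHom F G p f}
  add_mem' := IsHom.add
  zero_mem' := IsHom.zero
  smul_mem' r _ h := h.smul r

theorem m0_mul {α β γ : Type} [Fintype β] (g : Matrix α β (Z Q)) (f : Matrix β γ (Z Q)) :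
    m0 (g * f) = m0 g * m0 f := by
  ext j i
  simp [m0, Matrix.mul_apply]
theorem m1_mul {α β γ : Type} [Fintype β] (g : Matrix α β (Z Q)) (f : Matrix β γ (Z Q)) (a : Q.A) :
    m1 (g * f) a = m0 g * m1 f a + m1 g a * m0 f := by
  ext j i
  simp [m0, m1, Matrix.mul_apply, Finset.sum_add_distrib]
theorem m2_mul {α β γ : Type} [Fintype β] (g : Matrix α β (Z Q)) (f : Matrix β γ (Z Q)) :
    m2 (g * f) = m0 g * m2 f + m2 g * m0 f + ∑ a, m1 g (Q.bar a) * m1 f a := by
  ext j i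
  simp only [m0, m1, m2, Matrix.mul_apply, Matrix.map_apply, Matrix.add_apply, Matrix.sum_apply, Z.sum_c2,
    Z.mul_c2, Finset.sum_add_distrib]
  rw [Finset.sum_comm]
theorem m0_add {α β : Type} (f g : Matrix α β (Z Q)) : m0 (f + g) = m0 f + m0 g := by
  rfl
theorem m0_sub {α β : Type} (f g : Matrix α β (Z Q)) : m0 (f - g) = m0 f - m0 g := by
  rfl
theorem m0_neg {α β : Type} (f : Matrix α β (Z Q)) : m0 (-f) = -m0 f := by
  rfl
theorem m0_smul {α β : Type} (r : ℝ) (f : Matrix α β (Z Q)) : m0 (r • f) = r • m0 f := by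
  rfl
theorem m0_zero {α β : Type} : m0 (0 : Matrix α β (Z Q)) = 0 := by
  rfl
theorem m0_one {α : Type} [DecidableEq α] : m0 (1 : Matrix α α (Z Q)) = 1 := by
  exact Matrix.map_one _ rfl rfl
theorem m0_sum {α β γ : Type} (s : Finset γ) (f : γ → Matrix α β (Z Q)) :
    m0 (∑ i ∈ s, f i) = ∑ i ∈ s, m0 (f i) := by
  ext j i
  simp [m0, Matrix.sum_apply]
theorem mat_ext {α β : Type} {f g : Matrix α β (Z Q)} (h0 : m0 f = m0 g)
    (h1 : ∀ a, m1 f a = m1 g a) (h2 : m2 f = m2 g) : f = g := by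
  ext j i a
  · exact congrFun (congrFun h0 j) i
  · exact congrFun (congrFun (h1 a) j) i
  · exact congrFun (congrFun h2 j) i

end hom

section D
variable {F G H : Obj Q} {p q : ℤ} {f f' : Mor F.toGr G.toGr} {g : Mor G.toGr H.toGr}

theorem Dd_zero : Dd F G p 0 = 0 := by
  simp [Dd]
theorem Dd_add : Dd F G p (f + f') = Dd F G p f + Dd F G p f' := by
  simp only [Dd, Matrix.mul_add, Matrix.add_mul, smul_add]
  abel
theorem Dd_neg : Dd F G p (-f) = -Dd F G p f := by
  simp only [Dd, Matrix.mul_neg, Matrix.neg_mul, smul_neg]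
  abel
theorem Dd_sub : Dd F G p (f - f') = Dd F G p f - Dd F G p f' := by
  rw [sub_eq_add_neg, Dd_add, Dd_neg, ← sub_eq_add_neg]
theorem Dd_smul (r : ℝ) : Dd F G p (r • f) = r • Dd F G p f := by
  simp only [Dd, Matrix.mul_smul, Matrix.smul_mul, smul_sub, smul_comm r]
theorem Dd_sum {α : Type*} (s : Finset α) (φ : α → Mor F.toGr G.toGr) :
    Dd F G p (∑ i ∈ s, φ i) = ∑ i ∈ s, Dd F G p (φ i) := by
  simp only [Dd, Matrix.mul_sum, Matrix.sum_mul, Finset.smul_sum, Finset.sum_sub_distrib]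
theorem Dd_Dd : Dd F G (p + 1) (Dd F G p f) = 0 := by
  simp only [Dd, Matrix.mul_sub, Matrix.sub_mul, Matrix.mul_smul, Matrix.smul_mul, sg_add_one,
    ← Matrix.mul_assoc G.δ G.δ, G.sq, Matrix.mul_assoc f, F.sq, Matrix.zero_mul, Matrix.mul_zero, smul_zero,
    Matrix.mul_assoc G.δ f, neg_smul, sub_zero]
  abel
theorem IsHom.Dd (h : IsHom F.toGr G.toGr p f) : IsHom F.toGr G.toGr (p + 1) (Dd F G p f) := by
  exact (h.mul G.hom).sub (((F.hom.mul h).of_eq (add_comm _ _)).smul _)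
theorem Dd_mul : Dd F H (p + q) (g * f) = Dd G H q g * f + sg q • (g * Dd F G p f) := by
  have h : sg q * sg p = sg (p + q) := by rw [sg_add, mul_comm]
  simp only [Dd, Matrix.mul_sub, Matrix.sub_mul, Matrix.mul_smul, Matrix.smul_mul, smul_sub, smul_smul, h,
    Matrix.mul_assoc]
  abel

theorem Closed.comm (h : Closed F G p f) : G.δ * f = sg p • (f * F.δ) := by
  exact sub_eq_zero.1 h.cl
theorem Closed.comm0 (h : Closed F G 0 f) : G.δ * f = f * F.δ := by
  simpa using h.comm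
theorem Closed.of_comm0 (h : IsHom F.toGr G.toGr 0 f) (e : G.δ * f = f * F.δ) : Closed F G 0 f := by
  exact ⟨h, by simp [Dd, e]⟩
theorem Closed.of_eq (h : Closed F G p f) (e : p = q) : Closed F G q f := e ▸ h
theorem Closed.zero : Closed F G p 0 := by
  exact ⟨IsHom.zero, Dd_zero⟩
theorem Closed.add (h : Closed F G p f) (h' : Closed F G p f') : Closed F G p (f + f') := by
  exact ⟨h.hom.add h'.hom, by rw [Dd_add, h.cl, h'.cl, add_zero]⟩
theorem Closed.neg (h : Closed F G p f) : Closed F G p (-f) := by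
  exact ⟨h.hom.neg, by rw [Dd_neg, h.cl, neg_zero]⟩
theorem Closed.sub (h : Closed F G p f) (h' : Closed F G p f') : Closed F G p (f - f') := by
  exact ⟨h.hom.sub h'.hom, by rw [Dd_sub, h.cl, h'.cl, sub_zero]⟩
theorem Closed.smul (h : Closed F G p f) (r : ℝ) : Closed F G p (r • f) := by
  exact ⟨h.hom.smul r, by rw [Dd_smul, h.cl, smul_zero]⟩
theorem Closed.sum {α : Type*} (s : Finset α) {φ : α → Mor F.toGr G.toGr}
    (h : ∀ i ∈ s, Closed F G p (φ i)) : Closed F G p (∑ i ∈ s, φ i) := by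
  exact Finset.sum_induction φ (Closed F G p) (fun _ _ => Closed.add) Closed.zero h
theorem Closed.mul (hf : Closed F G p f) (hg : Closed G H q g) : Closed F H (p + q) (g * f) := by
  exact ⟨hf.hom.mul hg.hom, by rw [Dd_mul, hf.cl, hg.cl, Matrix.zero_mul, Matrix.mul_zero, smul_zero, add_zero]⟩
theorem Closed.mul0 (hf : Closed F G 0 f) (hg : Closed G H 0 g) : Closed F H 0 (g * f) := by
  exact hf.mul hg
theorem Closed.one : Closed F F 0 1 := by
  exact Closed.of_comm0 IsHom.one (by rw [Matrix.mul_one, Matrix.one_mul])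

theorem Exact.of_eq (h : Exact F G p f) (e : p = q) : Exact F G q f := e ▸ h
theorem Exact.of_D (h : IsHom F.toGr G.toGr p f) : Exact F G (p + 1) (Dd F G p f) := by
  exact ⟨f, h.of_eq (by omega), by rw [add_sub_cancel_right]⟩
theorem Exact.closed (h : Exact F G p f) : Closed F G p f := by
  obtain ⟨g, hg, rfl⟩ := h
  refine ⟨hg.Dd.of_eq (by omega), ?_⟩
  have := Dd_Dd (p := p - 1) (f := g)
  rwa [sub_add_cancel] at this
theorem Exact.zero : Exact F G p 0 := by
  exact ⟨0, IsHom.zero, Dd_zero.symm⟩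
theorem Exact.add (h : Exact F G p f) (h' : Exact F G p f') : Exact F G p (f + f') := by
  obtain ⟨g, hg, rfl⟩ := h
  obtain ⟨g', hg', rfl⟩ := h'
  exact ⟨g + g', hg.add hg', Dd_add.symm⟩
theorem Exact.neg (h : Exact F G p f) : Exact F G p (-f) := by
  obtain ⟨g, hg, rfl⟩ := h
  exact ⟨-g, hg.neg, Dd_neg.symm⟩
theorem Exact.sub (h : Exact F G p f) (h' : Exact F G p f') : Exact F G p (f - f') := by
  rw [sub_eq_add_neg]
  exact h.add h'.neg
theorem Exact.smul (h : Exact F G p f) (r : ℝ) : Exact F G p (r • f) := by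
  obtain ⟨g, hg, rfl⟩ := h
  exact ⟨r • g, hg.smul r, (Dd_smul r).symm⟩
theorem Exact.sum {α : Type*} (s : Finset α) {φ : α → Mor F.toGr G.toGr}
    (h : ∀ i ∈ s, Exact F G p (φ i)) : Exact F G p (∑ i ∈ s, φ i) := by
  exact Finset.sum_induction φ (Exact F G p) (fun _ _ => Exact.add) Exact.zero h
theorem Exact.mul_closed (hf : Closed F G p f) (hg : Exact G H q g) :
    Exact F H (p + q) (g * f) := by
  obtain ⟨k, hk, rfl⟩ := hg
  refine ⟨k * f, (hf.hom.mul hk).of_eq (by omega), ?_⟩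
  rw [add_sub_assoc, Dd_mul, hf.cl, Matrix.mul_zero, smul_zero, add_zero]
theorem Exact.closed_mul (hf : Exact F G p f) (hg : Closed G H q g) :
    Exact F H (p + q) (g * f) := by
  obtain ⟨k, hk, rfl⟩ := hf
  refine ⟨sg q • (g * k), ((hk.mul hg.hom).of_eq (by omega)).smul _, ?_⟩
  rw [Dd_smul, show p + q - 1 = p - 1 + q by omega, Dd_mul, hg.cl, Matrix.zero_mul, zero_add, smul_smul,
    sg_mul_self, one_smul]

/-- an exact morphism between minimal objects has no `c0` part -/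
theorem Exact.m0_eq_zero (hF : Minimal F) (hG : Minimal G) (h : Exact F G p f) : m0 f = 0 := by
  obtain ⟨g, -, rfl⟩ := h
  have h1 : m0 F.δ = 0 := Matrix.ext hF
  have h2 : m0 G.δ = 0 := Matrix.ext hG
  rw [Dd, m0_sub, m0_smul, m0_mul, m0_mul, h1, h2, Matrix.zero_mul, Matrix.mul_zero, smul_zero, sub_zero]

theorem IsMod.minimal (h : IsMod F) : Minimal F := by
  intro j i
  by_contra hc
  have := ((F.hom j i).1 hc).2
  rw [h j, h i] at this
  omega
theorem IsMod.c2_eq_zero (h : IsMod F) (j i : F.ι) : (F.δ j i).c2 = 0 := by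
  by_contra hc
  have := ((F.hom j i).2.2 hc).2
  rw [h j, h i] at this
  omega
theorem simple_isMod (v : Q.V) : IsMod (simple v) := fun _ => rfl

end D

end Crest.Agent.R175
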