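import Mathlib

/-!
# R175/CAmal: the first-edge map of an amalgamated product
-/

set_option autoImplicit false

namespace Crest.Agent.R175C

open Monoid Monoid.PushoutI Monoid.PushoutI.NormalWord

section gen
variable {ι : Type} {G : ι → Type} {E : Type} [∀ i, Group (G i)] [Group E] {φ : ∀ i, E →* G i}
  [DecidableEq ι] [∀ i, DecidableEq (G i)] (d : Transversal φ)

/-- index of the first letter of the normal form -/
noncomputable def amFi (g : PushoutI φ) : Option ι := (g • (NormalWord.empty : NormalWord d)).fstIdx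

theorem amFi_prod (w : NormalWord d) : amFi d w.prod = w.fstIdx := by
  unfold amFi; rw [prod_smul_empty]

theorem amFi_one : amFi d 1 = none := by
  unfold amFi; rw [one_smul]; rfl

theorem amFi_base (e : E) (g : PushoutI φ) : amFi d (base φ e * g) = amFi d g := by
  unfold amFi; rw [mul_smul, base_smul_def]

theorem amFi_cons {i : ι} (x : G i) (hx : x ∉ (φ i).range) (g : PushoutI φ) (hg : amFi d g ≠ some i) :
    amFi d (of (φ := φ) i x * g) = some i := by
  unfold amFi at *
  rw [mul_smul, ← cons_eq_smul x _ hg hx]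
  simp [CoprodI.Word.fstIdx]

theorem amFi_of {i j : ι} (hij : i ≠ j) (y : G j) : amFi d (of (φ := φ) j y) ≠ some i := by
  by_cases hy : y ∈ (φ j).range
  · obtain ⟨e, rfl⟩ := hy
    rw [of_apply_eq_base, ← mul_one (base φ e), amFi_base, amFi_one]
    simp
  · have := amFi_cons d y hy 1 (by rw [amFi_one]; simp)
    rw [mul_one] at this
    rw [this]
    simpa using hij.symm

theorem amFi_right (g : PushoutI φ) {j : ι} (y : G j) (hg : g ∉ (of (φ := φ) j).range) :
    amFi d (g * of (φ := φ) j y) = amFi d g := by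
  obtain ⟨w, rfl⟩ : ∃ w : NormalWord d, w.prod = g := ⟨g • NormalWord.empty, by simp⟩
  induction w using consRecOn with
  | empty => exact absurd (by simp) hg
  | cons i x w hmw _ hx _ ih =>
    rw [prod_cons] at hg ⊢
    have hw : amFi d w.prod ≠ some i := by rwa [amFi_prod]
    rw [amFi_cons d x hx _ hw, mul_assoc]
    apply amFi_cons d x hx
    intro h
    by_cases hr : w.prod ∈ (of (φ := φ) j).range
    · obtain ⟨z, hz⟩ := hr
      by_cases hij : i = j
      · subst hij
        exact hg ⟨x * z, by rw [map_mul, hz]⟩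
      · rw [← hz, ← map_mul] at h
        exact amFi_of d hij _ h
    · rw [ih hr] at h
      exact hw h
  | base e w _ ih =>
    rw [prod_smul] at hg ⊢
    rw [mul_assoc, amFi_base, amFi_base]
    apply ih
    rintro ⟨z, hz⟩
    exact hg ⟨φ j e * z, by rw [map_mul, hz, of_apply_eq_base]⟩

theorem amFi_exists (i : ι) (g : PushoutI φ) :
    ∃ h : G i, amFi d ((of (φ := φ) i h)⁻¹ * g) ≠ some i := by
  obtain ⟨w, rfl⟩ : ∃ w : NormalWord d, w.prod = g := ⟨g • NormalWord.empty, by simp⟩
  induction w using consRecOn with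
  | empty => exact ⟨1, by simp [amFi_one]⟩
  | cons j x w hmw _ hx _ _ =>
    rw [prod_cons]
    have hw : amFi d w.prod ≠ some j := by rwa [amFi_prod]
    by_cases hij : j = i
    · subst hij
      exact ⟨x, by rwa [inv_mul_cancel_left]⟩
    · refine ⟨1, ?_⟩
      rw [map_one, inv_one, one_mul, amFi_cons d x hx _ hw]
      simpa using hij
  | base e w _ ih =>
    obtain ⟨h, hh⟩ := ih
    refine ⟨φ i e * h, ?_⟩
    rw [prod_smul, map_mul, of_apply_eq_base, mul_inv_rev, mul_assoc, inv_mul_cancel_left]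
    exact hh

/-- the first edge -/
noncomputable def amPi (i : ι) (g : PushoutI φ) : G i ⧸ (φ i).range := ((amFi_exists d i g).choose : G i)

theorem amPi_eq (i : ι) (g : PushoutI φ) (h : G i) (hh : amFi d ((of (φ := φ) i h)⁻¹ * g) ≠ some i) :
    amPi d i g = (h : G i ⧸ (φ i).range) := by
  unfold amPi
  have h0 := (amFi_exists d i g).choose_spec
  generalize (amFi_exists d i g).choose = h' at h0
  rw [QuotientGroup.eq]
  by_contra hc
  have := amFi_cons d (h'⁻¹ * h) hc _ hh
  rw [map_mul, map_inv, mul_assoc, mul_inv_cancel_left] at this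
  exact h0 this

theorem amPi_left (i : ι) (h : G i) (g : PushoutI φ) :
    amPi d i (of (φ := φ) i h * g) = h • amPi d i g := by
  obtain ⟨h', hh'⟩ := amFi_exists d i g
  rw [amPi_eq d i g h' hh', amPi_eq d i _ (h * h')]
  · rfl
  · rwa [map_mul, mul_inv_rev, mul_assoc, inv_mul_cancel_left]

theorem amPi_right_same (i : ι) (g : PushoutI φ) (y : G i) (hg : g ∉ (of (φ := φ) i).range) :
    amPi d i (g * of (φ := φ) i y) = amPi d i g := by
  obtain ⟨h', hh'⟩ := amFi_exists d i g
  rw [amPi_eq d i g h' hh', amPi_eq d i _ h']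
  rw [← mul_assoc, amFi_right]
  · exact hh'
  · rintro ⟨z, hz⟩
    exact hg ⟨h' * z, by rw [map_mul, hz, mul_inv_cancel_left]⟩

theorem amPi_right_ne {i j : ι} (hij : i ≠ j) (g : PushoutI φ) (y : G j) :
    amPi d i (g * of (φ := φ) j y) = amPi d i g := by
  obtain ⟨h', hh'⟩ := amFi_exists d i g
  rw [amPi_eq d i g h' hh', amPi_eq d i _ h']
  rw [← mul_assoc]
  by_cases hr : (of (φ := φ) i h')⁻¹ * g ∈ (of (φ := φ) j).range
  · obtain ⟨z, hz⟩ := hr
    rw [← hz, ← map_mul]
    exact amFi_of d hij _
  · rwa [amFi_right d _ _ hr]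

theorem amPi_fin {i i' : ι} (hii : i ≠ i') (f : PushoutI φ) : ∃ W : Set (PushoutI φ), W.Finite ∧
    ∀ c, amPi d i (c * f) ≠ amPi d i c → ∃ w ∈ W, ∃ h, c = of (φ := φ) i h * w := by
  induction f using PushoutI.induction_on with
  | of j y =>
    refine ⟨{1}, Set.finite_singleton _, fun c hc => ⟨1, rfl, ?_⟩⟩
    by_cases hij : i = j
    · subst hij
      by_contra hn
      apply hc
      apply amPi_right_same
      rintro ⟨z, hz⟩
      exact hn ⟨z, by rw [hz, mul_one]⟩
    · exact absurd (amPi_right_ne d hij c y) hc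
  | base e =>
    refine ⟨∅, Set.finite_empty, fun c hc => ?_⟩
    rw [← of_apply_eq_base φ i'] at hc
    exact absurd (amPi_right_ne d hii c _) hc
  | mul x y ihx ihy =>
    obtain ⟨W, hW, h1⟩ := ihx
    obtain ⟨W', hW', h2⟩ := ihy
    refine ⟨W ∪ (fun w => w * x⁻¹) '' W', hW.union (hW'.image _), fun c hc => ?_⟩
    by_cases hx : amPi d i (c * x) = amPi d i c
    · rw [← mul_assoc, ← hx] at hc
      obtain ⟨w, hw, h, hh⟩ := h2 _ hc
      exact ⟨w * x⁻¹, Or.inr ⟨w, hw, rfl⟩, h, by rw [← mul_assoc, ← hh, mul_inv_cancel_right]⟩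
    · obtain ⟨w, hw, h, hh⟩ := h1 _ hx
      exact ⟨w, Or.inl hw, h, hh⟩

end gen

/-- the two-element family -/
def amFam (H K : Type) : Bool → Type
  | true => H
  | false => K

instance amGrp (H K : Type) [h : Group H] [k : Group K] : ∀ b, Group (amFam H K b)
  | true => h
  | false => k

def amMap {H K E : Type} [Group H] [Group K] [Group E] (iH : E →* H) (iK : E →* K) :
    ∀ b, E →* amFam H K b
  | true => iH
  | false => iK

/-- `Γ = H *_E K` (`Monoid.PushoutI` over `Bool`), `π g` = first edge of the geodesic of the Bass–Serre tree from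
the vertex `H` to the vertex `g K`. -/
theorem exists_amal {H K E : Type} [Group H] [Group K] [Group E] (iH : E →* H) (iK : E →* K)
    (hH : Function.Injective iH) (hK : Function.Injective iK) :
    ∃ (Γ : Type) (_ : Group Γ) (jH : H →* Γ) (jK : K →* Γ) (π : Γ → H ⧸ iH.range),
      Function.Injective jH ∧ (∀ e, jH (iH e) = jK (iK e)) ∧
      (∀ (T : Type) [Group T] (fH : H →* T) (fK : K →* T), (∀ e, fH (iH e) = fK (iK e)) →
        ∃ Ψ : Γ →* T, (∀ h, Ψ (jH h) = fH h) ∧ ∀ k, Ψ (jK k) = fK k) ∧
      π 1 = ((1 : H) : H ⧸ iH.range) ∧ (∀ h g, π (jH h * g) = h • π g) ∧ (∀ g k, π (g * jK k) = π g) ∧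
      ∀ f : Γ, ∃ W : Set Γ, W.Finite ∧ ∀ c, π (c * f) ≠ π c → ∃ w ∈ W, ∃ h, c = jH h * w := by
  classical
  have hinj : ∀ b, Function.Injective (amMap iH iK b) := by
    intro b; cases b
    · exact hK
    · exact hH
  obtain ⟨d⟩ := transversal_nonempty (amMap iH iK) hinj
  refine ⟨PushoutI (amMap iH iK), inferInstance, of (φ := amMap iH iK) true, of (φ := amMap iH iK) false,
    amPi d true, of_injective hinj true, fun e => ?_, fun T _ fH fK hf => ?_, ?_, amPi_left d true,
    fun g k => amPi_right_ne d (i := true) (j := false) (by simp) g k,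
    amPi_fin d (i := true) (i' := false) (by simp)⟩
  · exact (of_apply_eq_base (amMap iH iK) true e).trans (of_apply_eq_base (amMap iH iK) false e).symm
  · let f : ∀ b, amFam H K b →* T := fun b => match b with
      | true => fH
      | false => fK
    have hf' : ∀ b, (f b).comp (amMap iH iK b) = fH.comp iH := by
      intro b; cases b
      · ext e; exact (hf e).symm
      · rfl
    exact ⟨PushoutI.lift f (fH.comp iH) hf', fun h => lift_of f _ hf' (i := true) h,
      fun k => lift_of f _ hf' (i := false) k⟩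
  · apply amPi_eq d true 1 1
    simp [amFi_one]

end Crest.Agent.R175C
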