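import Mathlib
import Crest.Prelude.Def_ArtinGroup

/-!
# R175/CArt: Artin groups with labels in `{2, 3, ∞}`: universal property
-/

set_option autoImplicit false

namespace Crest.Agent.R175C

open Crest.GroupTheory

/-- braid relation -/
def Braid {G : Type*} [Group G] (a b : G) : Prop := a * b * a = b * a * b

/-- all labels in `{∞, 2, 3}` -/
def Lab23 {S : Type*} (M : CoxeterMatrix S) : Prop :=
  ∀ s t : S, s ≠ t → M.M s t = 0 ∨ M.M s t = 2 ∨ M.M s t = 3

/-- a Coxeter matrix from an off-diagonal labelling -/
def mkCM {S : Type*} [DecidableEq S] (lab : S → S → ℕ) (hs : ∀ a b, lab a b = lab b a)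
    (h1 : ∀ a b, lab a b ≠ 1) : CoxeterMatrix S where
  M := Matrix.of fun a b => if a = b then 1 else lab a b
  isSymm := by
    ext a b
    by_cases h : a = b
    · subst h; simp
    · simp [h, Ne.symm h, hs a b]
  diagonal := by intro a; simp
  off_diagonal := by intro a b h; simpa [h] using h1 a b

theorem mkCM_apply {S : Type*} [DecidableEq S] (lab : S → S → ℕ) (hs : ∀ a b, lab a b = lab b a)
    (h1 : ∀ a b, lab a b ≠ 1) (a b : S) : (mkCM lab hs h1).M a b = if a = b then 1 else lab a b := rfl

/-- restriction of a Coxeter matrix to a subtype -/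
def restr {S : Type*} (M : CoxeterMatrix S) (p : S → Prop) : CoxeterMatrix {s // p s} where
  M := Matrix.of fun a b => M.M a.1 b.1
  isSymm := by
    ext a b
    simpa using M.isSymm.apply a.1 b.1
  diagonal := by intro a; exact M.diagonal a.1
  off_diagonal := by intro a b h; simpa using M.off_diagonal a.1 b.1 fun e => h (Subtype.ext e)

theorem restr_apply {S : Type*} (M : CoxeterMatrix S) (p : S → Prop) (a b : {s // p s}) :
    (restr M p).M a b = M.M a.1 b.1 := rfl

variable {S : Type*} {M : CoxeterMatrix S} {Γ : Type*} [Group Γ]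

theorem Braid.symm {a b : Γ} (h : Braid a b) : Braid b a := Eq.symm h

theorem Braid.map {Γ' : Type*} [Group Γ'] {a b : Γ} (h : Braid a b) (φ : Γ →* Γ') : Braid (φ a) (φ b) := by
  unfold Braid at *
  simpa using congrArg φ h

theorem Braid.conj {a b : Γ} (h : Braid a b) (k : Γ) : Braid (k * a * k⁻¹) (k * b * k⁻¹) := by
  simpa using h.map (MulAut.conj k).toMonoidHom

/-- `(a b) a (a b)⁻¹ = b` -/
theorem Braid.conj_eq {a b : Γ} (h : Braid a b) : (a * b) * a * (a * b)⁻¹ = b := by
  unfold Braid at h
  rw [h]; group

theorem cart_cube {a b : Γ} (h : Braid a b) : (a * b) ^ 3 = (a * b * a) * (a * b * a) := by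
  have h' : a * b * a = b * a * b := h
  calc (a * b) ^ 3 = (a * b * a) * (b * a * b) := by simp only [pow_succ, pow_zero, one_mul, mul_assoc]
    _ = _ := by rw [← h']

theorem cart_left {a b : Γ} (h : Braid a b) : a * (a * b * a) = (a * b * a) * b := by
  have h' : a * b * a = b * a * b := h
  calc a * (a * b * a) = a * (b * a * b) := by rw [← h']
    _ = _ := by simp only [mul_assoc]

theorem cart_right {a b : Γ} (h : Braid a b) : b * (a * b * a) = (a * b * a) * a := by
  have h' : a * b * a = b * a * b := h
  calc b * (a * b * a) = (b * a * b) * a := by simp only [mul_assoc]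
    _ = _ := by rw [← h']

theorem Braid.comm_left {a b : Γ} (h : Braid a b) : Commute a ((a * b) ^ 3) := by
  rw [cart_cube h, Commute, SemiconjBy, ← mul_assoc a (a * b * a), cart_left h, mul_assoc (a * b * a) b,
    cart_right h, ← mul_assoc (a * b * a)]

theorem Braid.comm_right {a b : Γ} (h : Braid a b) : Commute b ((a * b) ^ 3) := by
  rw [cart_cube h, Commute, SemiconjBy, ← mul_assoc b (a * b * a), cart_right h, mul_assoc (a * b * a) a,
    cart_left h, ← mul_assoc (a * b * a)]

theorem Braid.cube_swap {a b : Γ} (h : Braid a b) : (a * b) ^ 3 = (b * a) ^ 3 := by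
  have h' : a * b * a = b * a * b := h
  rw [cart_cube h, cart_cube h.symm, h']

theorem cart_aw2 (s t : S) : artinAltWord s t 2 = FreeGroup.of s * (FreeGroup.of t * 1) := rfl

theorem cart_aw3 (s t : S) :
    artinAltWord s t 3 = FreeGroup.of s * (FreeGroup.of t * (FreeGroup.of s * 1)) := rfl

theorem cart_rel (s t : S) : PresentedGroup.mk (artinRelators M) (artinAltWord s t (M.M s t)) =
    PresentedGroup.mk (artinRelators M) (artinAltWord t s (M.M s t)) :=
  PresentedGroup.mk_eq_mk_of_mul_inv_mem ⟨(s, t), rfl⟩

theorem gen_comm {s t : S} (h : M.M s t = 2) : Commute (artinGen M s) (artinGen M t) := by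
  have := cart_rel (M := M) s t
  rw [h] at this
  simp only [cart_aw2, mul_one, map_mul] at this
  exact this

theorem gen_braid {s t : S} (h : M.M s t = 3) : Braid (artinGen M s) (artinGen M t) := by
  have := cart_rel (M := M) s t
  rw [h] at this
  simp only [cart_aw3, mul_one, map_mul, ← mul_assoc] at this
  exact this

/-- universal property (`PresentedGroup.toGroup`) -/
theorem exists_lift (hM : Lab23 M) (f : S → Γ) (h2 : ∀ s t, M.M s t = 2 → Commute (f s) (f t))
    (h3 : ∀ s t, M.M s t = 3 → Braid (f s) (f t)) :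
    ∃ φ : ArtinGroup M →* Γ, ∀ s, φ (artinGen M s) = f s := by
  have h : ∀ r ∈ artinRelators M, FreeGroup.lift f r = 1 := by
    rintro _ ⟨⟨s, t⟩, rfl⟩
    simp only [map_mul, map_inv, mul_inv_eq_one]
    by_cases hst : s = t
    · rw [hst]
    · rcases hM s t hst with h | h | h
      · rw [h]
        rfl
      · rw [h]
        simpa only [cart_aw2, mul_one, map_mul, FreeGroup.lift_apply_of] using (h2 s t h).eq
      · rw [h]
        simp only [cart_aw3, mul_one, map_mul, FreeGroup.lift_apply_of, ← mul_assoc]
        exact h3 s t h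
  exact ⟨PresentedGroup.toGroup h, fun s => PresentedGroup.toGroup.of h⟩

theorem hom_ext {φ ψ : ArtinGroup M →* Γ} (h : ∀ s, φ (artinGen M s) = ψ (artinGen M s)) : φ = ψ := by
  exact PresentedGroup.ext h

theorem closure_gen : Subgroup.closure (Set.range (artinGen M)) = ⊤ := by
  exact PresentedGroup.closure_range_of _

/-- exponent sum -/
theorem exists_len (hM : Lab23 M) :
    ∃ len : ArtinGroup M →* Multiplicative ℤ, ∀ s, len (artinGen M s) = Multiplicative.ofAdd 1 := by
  exact exists_lift hM (fun _ => Multiplicative.ofAdd 1) (fun _ _ _ => Commute.refl _) fun _ _ _ => rfl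

/-- If the removed generators have only labels `∞` (or `1` on the diagonal), the restricted Artin group embeds:
killing the removed generators is a retraction. -/
theorem exists_restr_inj (hM : Lab23 M) (p : S → Prop) (hp : ∀ s t, ¬ p s → s ≠ t → M.M s t = 0) :
    ∃ φ : ArtinGroup (restr M p) →* ArtinGroup M, Function.Injective φ ∧
      ∀ s, φ (artinGen (restr M p) s) = artinGen M s.1 := by
  classical
  have hM' : Lab23 (restr M p) := fun s t h => hM s.1 t.1 fun e => h (Subtype.ext e)
  obtain ⟨φ, hφ⟩ := exists_lift hM' (fun s => artinGen M s.1) (fun s t h => gen_comm h)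
    fun s t h => gen_braid h
  have key : ∀ s t, M.M s t = 2 ∨ M.M s t = 3 → p s ∧ p t := by
    intro s t h
    have hst : s ≠ t := by
      rintro rfl
      have := M.diagonal s
      omega
    constructor
    · by_contra hs
      have := hp s t hs hst
      omega
    · by_contra ht
      have h1 := hp t s ht hst.symm
      have h2 : M.M s t = M.M t s := M.symmetric s t
      omega
  obtain ⟨ψ, hψ⟩ := exists_lift hM (fun s => if h : p s then artinGen (restr M p) ⟨s, h⟩ else 1)
    (fun s t h => by
      obtain ⟨hs, ht⟩ := key s t (Or.inl h)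
      rw [dif_pos hs, dif_pos ht]
      exact gen_comm h)
    fun s t h => by
      obtain ⟨hs, ht⟩ := key s t (Or.inr h)
      rw [dif_pos hs, dif_pos ht]
      exact gen_braid h
  have hid : ψ.comp φ = MonoidHom.id _ := hom_ext fun s => by
    rw [MonoidHom.comp_apply, hφ, hψ, dif_pos s.2, MonoidHom.id_apply]
  exact ⟨φ, Function.LeftInverse.injective (g := ψ) fun x => DFunLike.congr_fun hid x, hφ⟩

end Crest.Agent.R175C
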