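import Crest.Agent.R175.CArt

/-!
# R175/CB3: the braid group `B₃` and `SL(2, ℤ)`
-/

set_option autoImplicit false

namespace Crest.Agent.R175C

open Crest.GroupTheory Matrix MatrixGroups

/-- the Coxeter matrix `A₂` -/
def A2 : CoxeterMatrix (Fin 2) := mkCM (fun _ _ => 3) (fun _ _ => rfl) (fun _ _ => by decide)

/-- the braid group on three strands -/
abbrev B3 : Type := ArtinGroup A2

def s0 : B3 := artinGen A2 0
def t0 : B3 := artinGen A2 1
def D0 : B3 := (s0 * t0) ^ 3

theorem braid0 : Braid s0 t0 := gen_braid (by decide)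

theorem lab_A2 : Lab23 A2 := by
  intro s t hst
  right; right
  simp [A2, mkCM_apply, hst]

theorem B3_lift {Γ : Type*} [Group Γ] {a b : Γ} (h : Braid a b) :
    ∃ β : B3 →* Γ, β s0 = a ∧ β t0 = b ∧ β.range = Subgroup.closure {a, b} := by
  obtain ⟨β, hβ⟩ := exists_lift lab_A2 (![a, b] : Fin 2 → Γ)
    (fun s t hst => absurd hst (by
      by_cases h : s = t <;> simp [A2, mkCM_apply, h]))
    (fun s t hst => by
      fin_cases s <;> fin_cases t
      · exact absurd hst (by decide)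
      · exact h
      · exact h.symm
      · exact absurd hst (by decide))
  refine ⟨β, hβ 0, hβ 1, ?_⟩
  rw [MonoidHom.range_eq_map, ← closure_gen, MonoidHom.map_closure, ← Set.range_comp]
  congr 1
  have : β ∘ artinGen A2 = ![a, b] := funext hβ
  rw [this]
  simp [Matrix.range_cons, Matrix.range_empty, Set.pair_comm]

theorem B3_ext {Γ : Type*} [Group Γ] {φ ψ : B3 →* Γ} (hs : φ s0 = ψ s0) (ht : φ t0 = ψ t0) : φ = ψ := by
  refine hom_ext fun s => ?_
  fin_cases s
  · exact hs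
  · exact ht

theorem B3_induction {p : B3 → Prop} (h1 : p 1) (hs : p s0) (ht : p t0)
    (hmul : ∀ a b, p a → p b → p (a * b)) (hinv : ∀ a, p a → p a⁻¹) (b : B3) : p b := by
  have hb : b ∈ Subgroup.closure (Set.range (artinGen A2)) := by rw [closure_gen]; trivial
  induction hb using Subgroup.closure_induction with
  | mem x hx =>
    obtain ⟨s, rfl⟩ := hx
    fin_cases s
    · exact hs
    · exact ht
  | one => exact h1
  | mul x y _ _ hx hy => exact hmul x y hx hy
  | inv x _ hx => exact hinv x hx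

theorem D0_central (b : B3) : Commute b D0 := by
  induction b using B3_induction with
  | h1 => exact Commute.one_left _
  | hs => exact braid0.comm_left
  | ht => exact braid0.comm_right
  | hmul a b ha hb => exact ha.mul_left hb
  | hinv a ha => exact ha.inv_left

def mS : SL(2, ℤ) := ⟨!![1, -1; 0, 1], by simp [Matrix.det_fin_two]⟩
def mT : SL(2, ℤ) := ⟨!![1, 0; 1, 1], by simp [Matrix.det_fin_two]⟩

/-- the normal form predicate -/
def NF (g : B3) : Prop := ∃ (m : ℤ) (e e' : ℕ) (w : B3), e ≤ 1 ∧ e' ≤ 1 ∧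
    w ∈ Submonoid.closure ({s0⁻¹, t0} : Set B3) ∧
    g = D0 ^ m * (s0 * t0 * s0) ^ e * w * (s0 * t0 * s0) ^ e'

theorem cb3_aa : (s0 * t0 * s0) * (s0 * t0 * s0) = D0 := by
  have hb : s0 * t0 * s0 = t0 * s0 * t0 := braid0
  unfold D0
  conv_lhs => enter [2]; rw [hb]
  rw [pow_succ, pow_two]
  group

theorem NF.mul_D {x : B3} (h : NF x) (k : ℤ) : NF (x * D0 ^ k) := by
  obtain ⟨m, e, e', w, he, he', hw, rfl⟩ := h
  refine ⟨k + m, e, e', w, he, he', hw, ?_⟩
  rw [((D0_central _).zpow_right k).eq, _root_.zpow_add]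
  group

theorem NF.mul_a {x : B3} (h : NF x) : NF (x * (s0 * t0 * s0)) := by
  obtain ⟨m, e, e', w, he, he', hw, rfl⟩ := h
  interval_cases e'
  · exact ⟨m, e, 1, w, he, le_rfl, hw, by simp⟩
  · have h0 : NF (D0 ^ m * (s0 * t0 * s0) ^ e * w) := ⟨m, e, 0, w, he, by simp, hw, by simp⟩
    have := h0.mul_D 1
    rwa [pow_one, mul_assoc _ (s0 * t0 * s0), cb3_aa, ← zpow_one D0]

theorem NF.mul_b {x : B3} (h : NF x) : NF (x * (s0 * t0)) := by
  obtain ⟨m, e, e', w, he, he', hw, rfl⟩ := h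
  have hb : s0 * t0 * s0 = t0 * s0 * t0 := braid0
  have hu : s0⁻¹ ∈ Submonoid.closure ({s0⁻¹, t0} : Set B3) := Submonoid.subset_closure (by simp)
  have hv : t0 ∈ Submonoid.closure ({s0⁻¹, t0} : Set B3) := Submonoid.subset_closure (by simp)
  interval_cases e'
  · induction hw using Submonoid.closure_induction_right with
    | one =>
      interval_cases e
      · exact ⟨m, 1, 0, s0⁻¹, le_rfl, by simp, hu, by group⟩
      · refine ⟨m + 1, 0, 0, s0⁻¹, by simp, by simp, hu, ?_⟩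
        rw [_root_.zpow_add_one, ← cb3_aa]
        group
    | mul_right w hw y hy _ =>
      rcases hy with rfl | rfl
      · exact ⟨m, e, 0, w * t0, he, by simp, mul_mem hw hv, by group⟩
      · refine ⟨m, e, 1, w, he, le_rfl, hw, ?_⟩
        rw [pow_one, pow_zero]
        conv_rhs => enter [2]; rw [hb]
        group
  · have h0 : NF (D0 ^ m * (s0 * t0 * s0) ^ e * (w * s0⁻¹)) :=
      ⟨m, e, 0, w * s0⁻¹, he, by simp, mul_mem hw hu, by simp⟩
    have h1 := h0.mul_D 1
    have h2 : s0⁻¹ * D0 ^ (1 : ℤ) = (s0 * t0 * s0) * (s0 * t0) := by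
      rw [zpow_one, (D0_central _).eq, ← cb3_aa]
      group
    convert h1 using 1
    rw [mul_assoc _ (w * s0⁻¹), mul_assoc w, h2]
    group

theorem NF.mul_a_inv {x : B3} (h : NF x) : NF (x * (s0 * t0 * s0)⁻¹) := by
  have := h.mul_a.mul_D (-1)
  convert this using 1
  rw [← cb3_aa]
  group

theorem NF.mul_b_inv {x : B3} (h : NF x) : NF (x * (s0 * t0)⁻¹) := by
  have := h.mul_b.mul_b.mul_D (-1)
  convert this using 1
  unfold D0
  rw [pow_succ, pow_two]
  group

/-- Normal form modulo the centre.  Put `a = s t s` (`a² = D`), `u = s⁻¹`, `v = t`.  Every element is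
`D ^ m * a ^ ε * w * a ^ ε'` with `ε, ε' ∈ {0,1}` and `w` in the submonoid generated by `u, v`.
(Modulo `D`: with `b = s t`, `b³ = D`, `v = a b⁻¹`, `u ≡ a b`, `s ≡ b⁻¹ a = v⁻¹...`; show that the set of such
elements is closed under right multiplication by `a` and by `b` – case distinction on `ε'` and on the last
letter of `w`: `a b ≡ u`, `u b ≡ v`, `v b = a`, `b ≡ a u` – hence under `a⁻¹ ≡ a`, `b⁻¹ ≡ b²`, and `a, b` generate:
`t = a b⁻¹`, `s = b⁻¹ a`.) -/
theorem normal_form (g : B3) : ∃ (m : ℤ) (e e' : ℕ) (w : B3), e ≤ 1 ∧ e' ≤ 1 ∧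
    w ∈ Submonoid.closure ({s0⁻¹, t0} : Set B3) ∧
    g = D0 ^ m * (s0 * t0 * s0) ^ e * w * (s0 * t0 * s0) ^ e' := by
  have h1 : NF 1 := ⟨0, 0, 0, 1, by simp, by simp, one_mem _, by simp⟩
  have key : (∀ x, NF x → NF (x * g)) ∧ (∀ x, NF x → NF (x * g⁻¹)) := by
    have hb : s0 * t0 * s0 = t0 * s0 * t0 := braid0
    induction g using B3_induction with
    | h1 => exact ⟨fun x hx => by simpa using hx, fun x hx => by simpa using hx⟩
    | hs =>
      refine ⟨fun x hx => ?_, fun x hx => ?_⟩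
      · have := hx.mul_b_inv.mul_a
        convert this using 1
        group
      · have := hx.mul_a_inv.mul_b
        convert this using 1
        group
    | ht =>
      refine ⟨fun x hx => ?_, fun x hx => ?_⟩
      · have := hx.mul_a.mul_b_inv
        convert this using 1
        rw [hb]
        group
      · have := hx.mul_b.mul_a_inv
        convert this using 1
        rw [hb]
        group
    | hmul a b ha hb' =>
      refine ⟨fun x hx => ?_, fun x hx => ?_⟩
      · rw [← mul_assoc]; exact hb'.1 _ (ha.1 _ hx)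
      · rw [_root_.mul_inv_rev, ← mul_assoc]; exact ha.2 _ (hb'.2 _ hx)
    | hinv a ha => exact ⟨ha.2, fun x hx => by rw [inv_inv]; exact ha.1 x hx⟩
  have := key.1 1 h1
  rwa [one_mul] at this

/-- `ψ D0 = -1`, `ψ (s t s) = ± !![0,-1;1,0]`; the image of `w` has non-negative entries and diagonal entries
`≥ 1`, and `w = 1` or the sum of the entries is `≥ 3`. -/
theorem psi_ker (ψ : B3 →* SL(2, ℤ)) (hs : ψ s0 = mS) (ht : ψ t0 = mT) {g : B3} (hg : ψ g = 1) :
    g ∈ Subgroup.zpowers D0 := by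
  obtain ⟨m, e, e', w, he, he', hw, rfl⟩ := normal_form g
  have hD : ψ D0 = -1 := by
    unfold D0
    rw [map_pow, map_mul, hs, ht]
    decide
  have ha : ((ψ (s0 * t0 * s0) : SL(2, ℤ)) : Matrix (Fin 2) (Fin 2) ℤ) = !![0, -1; 1, 0] := by
    rw [map_mul, map_mul, hs, ht]
    decide
  have hu : ((ψ s0⁻¹ : SL(2, ℤ)) : Matrix (Fin 2) (Fin 2) ℤ) = !![1, 1; 0, 1] := by
    rw [map_inv, hs]
    decide
  have hW : 1 ≤ (ψ w).1 0 0 ∧ 1 ≤ (ψ w).1 1 1 ∧ 0 ≤ (ψ w).1 0 1 ∧ 0 ≤ (ψ w).1 1 0 ∧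
      (w = 1 ∨ 1 ≤ (ψ w).1 0 1 + (ψ w).1 1 0) := by
    clear hg
    induction hw using Submonoid.closure_induction_right with
    | one => simp
    | mul_right w hw y hy ih =>
      obtain ⟨i1, i2, i3, i4, -⟩ := ih
      rw [map_mul, Matrix.SpecialLinearGroup.coe_mul]
      rcases hy with rfl | rfl
      · rw [hu]
        simp only [Matrix.mul_apply, Fin.sum_univ_two, Matrix.of_apply, Matrix.cons_val', Matrix.cons_val_zero,
          Matrix.cons_val_one, Matrix.cons_val_fin_one]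
        refine ⟨by omega, by omega, by omega, by omega, Or.inr (by omega)⟩
      · rw [ht]
        simp only [mT, Matrix.mul_apply, Fin.sum_univ_two, Matrix.of_apply, Matrix.cons_val',
          Matrix.cons_val_zero, Matrix.cons_val_one, Matrix.cons_val_fin_one]
        refine ⟨by omega, by omega, by omega, by omega, Or.inr (by omega)⟩
  have hz : (ψ ((s0 * t0 * s0) ^ e * w * (s0 * t0 * s0) ^ e')).1 0 1 = 0 ∧
      (ψ ((s0 * t0 * s0) ^ e * w * (s0 * t0 * s0) ^ e')).1 1 0 = 0 := by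
    rw [mul_assoc, mul_assoc, ← mul_assoc ((s0 * t0 * s0) ^ e), map_mul, map_zpow, hD] at hg
    rcases Int.even_or_odd m with hm | hm
    · rw [hm.neg_one_zpow, one_mul] at hg
      rw [hg]; simp
    · rw [hm.neg_one_zpow, neg_one_mul, neg_eq_iff_eq_neg] at hg
      rw [hg]; simp
  obtain ⟨i1, i2, i3, i4, i5⟩ := hW
  rw [map_mul, map_mul, map_pow, map_pow] at hz
  interval_cases e <;> interval_cases e'
  · simp only [pow_zero, one_mul, mul_one] at hz ⊢
    rcases i5 with rfl | i5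
    · exact ⟨m, by simp⟩
    · omega
  · exfalso
    simp only [pow_zero, one_mul, pow_one, Matrix.SpecialLinearGroup.coe_mul, ha, Matrix.mul_apply,
      Fin.sum_univ_two, Matrix.of_apply, Matrix.cons_val', Matrix.cons_val_zero, Matrix.cons_val_one,
      Matrix.cons_val_fin_one] at hz
    omega
  · exfalso
    simp only [pow_zero, mul_one, pow_one, Matrix.SpecialLinearGroup.coe_mul, ha, Matrix.mul_apply,
      Fin.sum_univ_two, Matrix.of_apply, Matrix.cons_val', Matrix.cons_val_zero, Matrix.cons_val_one,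
      Matrix.cons_val_fin_one] at hz
    omega
  · simp only [pow_one, Matrix.SpecialLinearGroup.coe_mul, ha, Matrix.mul_apply,
      Fin.sum_univ_two, Matrix.of_apply, Matrix.cons_val', Matrix.cons_val_zero, Matrix.cons_val_one,
      Matrix.cons_val_fin_one] at hz
    rcases i5 with rfl | i5
    · refine ⟨m + 1, ?_⟩
      simp only [pow_one, mul_one]
      rw [mul_assoc, cb3_aa, _root_.zpow_add_one]
    · omega

theorem exists_psi : ∃ ψ : B3 →* SL(2, ℤ), ψ s0 = mS ∧ ψ t0 = mT := by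
  have hb : Braid mS mT := by
    unfold Braid
    decide
  obtain ⟨ψ, h1, h2, -⟩ := B3_lift hb
  exact ⟨ψ, h1, h2⟩

theorem psi_D0 (ψ : B3 →* SL(2, ℤ)) (hs : ψ s0 = mS) (ht : ψ t0 = mT) : ψ D0 = -1 := by
  unfold D0
  rw [map_pow, map_mul, hs, ht]
  decide

theorem cb3_mS : mS = ModularGroup.T⁻¹ := by
  ext i j
  rw [ModularGroup.coe_T_inv]
  rfl

theorem cb3_mS_zpow (i : ℤ) : ((mS ^ i : SL(2, ℤ)) : Matrix (Fin 2) (Fin 2) ℤ) = !![1, -i; 0, 1] := by
  rw [cb3_mS, _root_.inv_zpow', ModularGroup.coe_T_zpow]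

/-- `SpecialLinearGroup.SL2Z_generators` -/
theorem psi_surj (ψ : B3 →* SL(2, ℤ)) (hs : ψ s0 = mS) (ht : ψ t0 = mT) : Function.Surjective ψ := by
  rw [← MonoidHom.range_eq_top, eq_top_iff, ← SpecialLinearGroup.SL2Z_generators, Subgroup.closure_le]
  rintro x (rfl | rfl)
  · refine ⟨s0 * t0 * s0, ?_⟩
    rw [map_mul, map_mul, hs, ht]
    decide
  · exact ⟨s0⁻¹, by rw [map_inv, hs, cb3_mS, inv_inv]⟩

/-- the centraliser of `mS` in `SL(2,ℤ)` is `± mS ^ i`; then `psi_ker` -/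
theorem cent_s0 {g : B3} (hg : Commute g s0) : ∃ i m : ℤ, g = s0 ^ i * D0 ^ m := by
  obtain ⟨ψ, hs, ht⟩ := exists_psi
  have hD := psi_D0 ψ hs ht
  have hc : ψ g * mS = mS * ψ g := by rw [← hs]; exact (hg.map ψ).eq
  have h00 := congrArg (fun M : SL(2, ℤ) => M.1 0 0) hc
  have h01 := congrArg (fun M : SL(2, ℤ) => M.1 0 1) hc
  have hdet := (ψ g).det_coe
  rw [Matrix.det_fin_two] at hdet
  have hmS : mS.1 = !![1, -1; 0, 1] := rfl
  simp only [Matrix.SpecialLinearGroup.coe_mul, hmS, Matrix.mul_apply,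
      Fin.sum_univ_two, Matrix.of_apply, Matrix.cons_val', Matrix.cons_val_zero, Matrix.cons_val_one,
      Matrix.cons_val_fin_one] at h00 h01
  have h10 : (ψ g).1 1 0 = 0 := by omega
  have h11 : (ψ g).1 1 1 = (ψ g).1 0 0 := by omega
  rw [h10, h11, mul_zero, sub_zero] at hdet
  have key : ∃ i k : ℤ, ψ g = ψ (s0 ^ i * D0 ^ k) := by
    rcases Int.eq_one_or_neg_one_of_mul_eq_one hdet with h | h
    · refine ⟨-(ψ g).1 0 1, 0, ?_⟩
      rw [zpow_zero, mul_one, map_zpow, hs]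
      ext i j
      rw [cb3_mS_zpow]
      fin_cases i <;> fin_cases j <;> simp [h, h10, h11]
    · refine ⟨(ψ g).1 0 1, 1, ?_⟩
      rw [zpow_one, map_mul, map_zpow, hs, hD, mul_neg_one]
      ext i j
      rw [Matrix.SpecialLinearGroup.coe_neg, cb3_mS_zpow]
      fin_cases i <;> fin_cases j <;> simp [h, h10, h11]
  obtain ⟨i, k, hik⟩ := key
  have h1 : ψ ((s0 ^ i * D0 ^ k)⁻¹ * g) = 1 := by rw [map_mul, map_inv, hik, inv_mul_cancel]
  obtain ⟨m, hm⟩ := psi_ker ψ hs ht h1
  refine ⟨i, k + m, ?_⟩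
  simp only at hm
  rw [_root_.zpow_add, ← mul_assoc, hm]
  group

/-- the image in `SL(2,ℤ)` is `-mS ^ 6`; its `n`-th power has upper right entry `± 6 n` -/
theorem inf_order : ¬ IsOfFinOrder (s0 ^ 6 * D0⁻¹) := by
  obtain ⟨ψ, hs, ht⟩ := exists_psi
  intro h
  obtain ⟨n, hn, h1⟩ := isOfFinOrder_iff_pow_eq_one.1 (ψ.isOfFinOrder h)
  rw [map_mul, map_inv, map_pow, hs, psi_D0 ψ hs ht, inv_neg_one, mul_neg_one] at h1
  have h2 : (-mS ^ 6) ^ (2 * n) = 1 := by rw [mul_comm, pow_mul, h1, one_pow]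
  rw [(even_two_mul n).neg_pow, ← pow_mul, ← zpow_natCast] at h2
  have h3 := cb3_mS_zpow ((6 * (2 * n) : ℕ) : ℤ)
  rw [h2] at h3
  have h4 := congrFun (congrFun h3 0) 1
  simp at h4
  omega

end Crest.Agent.R175C
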