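import Crest.Agent.R175.CNorm

/-!
# R175/CBf: the polar form `Bf g ·` is a homomorphism on the centraliser of `g`
-/

set_option autoImplicit false

namespace Crest.Agent.R175C

variable {G X : Type*} [Group G] [MetricSpace X] [MulAction G X]

/-- `ℓ` times the component of `q - p` in the direction of `g` -/
noncomputable def gam (g : G) (p q : X) : ℝ :=
  (dist p q ^ 2 + nm X g ^ 2 - dist (g • p) q ^ 2) / 2

theorem cbf_eq_zero_of_int {x C : ℝ} (h : ∀ n : ℤ, (n : ℝ) * x ≤ C) : x = 0 := by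
  by_contra hx
  rcases lt_or_gt_of_ne hx with hx | hx
  · obtain ⟨n, hn⟩ := exists_nat_gt (C / (-x))
    have h1 := h (-(n : ℤ))
    have h2 : C < n * (-x) := by rwa [div_lt_iff₀ (by linarith)] at hn
    push_cast at h1
    linarith
  · obtain ⟨n, hn⟩ := exists_nat_gt (C / x)
    have h1 := h (n : ℤ)
    have h2 : C < n * x := by rwa [div_lt_iff₀ hx] at hn
    push_cast at h1
    linarith

theorem cbf_le_zero_of_nat {x C : ℝ} (h : ∀ n : ℕ, 1 ≤ n → (n : ℝ) * x ≤ C) : x ≤ 0 := by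
  by_contra hx
  push Not at hx
  obtain ⟨n, hn⟩ := exists_nat_gt (C / x)
  have h1 := h (n + 1) (by omega)
  have h2 : C < n * x := by rwa [div_lt_iff₀ hx] at hn
  push_cast at h1
  nlinarith

theorem Geo.cbf_dist_zpow (H : Geo G X) (g : G) (p q : X) (m n : ℤ) :
    dist (g ^ m • p) (g ^ n • q) = dist (g ^ (m - n) • p) q := by
  rw [← H.dist_smul (g ^ n) (g ^ (m - n) • p) q, smul_smul, ← zpow_add]
  congr 3
  ring

theorem Geo.cbf_second (H : Geo G X) {g : G} {p q : X} (hp : dist p (g • p) = nm X g)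
    (hq : dist q (g • q) = nm X g) (n : ℤ) :
    dist (g ^ (n - 1) • p) q ^ 2 + dist (g ^ (n + 1) • p) q ^ 2 - 2 * dist (g ^ n • p) q ^ 2
      = 2 * nm X g ^ 2 := by
  have hd : ∀ a b : ℤ, dist (g ^ a • p) (g ^ b • p) = |((a - b : ℤ) : ℝ)| * nm X g := by
    intro a b
    rw [H.cbf_dist_zpow, dist_comm, H.min_zpow hp]
  have e1 : dist (g ^ (n - 1) • p) (g ^ n • p) = nm X g := by
    rw [hd]; simp
  have e2 : dist (g ^ n • p) (g ^ (n + 1) • p) = nm X g := by
    rw [hd]; simp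
  have e3 : dist (g ^ (n - 1) • p) (g ^ (n + 1) • p) = 2 * nm X g := by
    rw [hd]
    have : ((n - 1 - (n + 1) : ℤ) : ℝ) = -2 := by push_cast; ring
    rw [this]; norm_num
  have h1 := cn_between H.cat (x := g ^ (n - 1) • p) (y := g ^ n • p) (z := g ^ (n + 1) • p)
    (t := 1 / 2) (by norm_num) (by norm_num) (by rw [e1, e3]; ring) (by rw [e2, e3]; ring) q
  rw [e3] at h1
  have h2 := quad H.cat (g ^ n • p) (g ^ (n + 1) • p) (g • q) q
  have f1 : dist (g ^ n • p) (g • q) = dist (g ^ (n - 1) • p) q := by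
    have := H.cbf_dist_zpow g p q n 1
    rwa [zpow_one] at this
  have f2 : dist (g ^ (n + 1) • p) (g • q) = dist (g ^ n • p) q := by
    have := H.cbf_dist_zpow g p q (n + 1) 1
    rwa [zpow_one, add_sub_cancel_right] at this
  rw [f1, f2, e2, dist_comm (g • q) q, hq, dist_comm q (g ^ n • p)] at h2
  nlinarith

/-- Flat strip.  `a n = dist (g ^ n • p) q ^ 2` has second difference exactly `2 ℓ ^ 2`:
`≥` by `cn_between` (`g ^ n • p` is the midpoint of `g ^ (n-1) • p` and `g ^ (n+1) • p` by `min_zpow`),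
`≤` by `quad` for `g ^ n • p, g ^ (n+1) • p, g • q, q`.  Induction on `n` in both directions. -/
theorem Geo.strip (H : Geo G X) {g : G} {p q : X} (hp : dist p (g • p) = nm X g)
    (hq : dist q (g • q) = nm X g) (n : ℤ) :
    dist (g ^ n • p) q ^ 2 = dist p q ^ 2 - 2 * n * gam g p q + n ^ 2 * nm X g ^ 2 := by
  have hstep : ∀ n : ℤ, dist (g ^ (n + 1) • p) q ^ 2 - dist (g ^ n • p) q ^ 2
      = -2 * gam g p q + (2 * n + 1) * nm X g ^ 2 := by
    intro n
    induction n using Int.induction_on with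
    | zero => simp [gam]; ring
    | succ i ih =>
      have h := H.cbf_second hp hq ((i : ℤ) + 1)
      rw [add_sub_cancel_right] at h
      push_cast at ih ⊢
      linarith
    | pred i ih =>
      have h := H.cbf_second hp hq (-(i : ℤ))
      rw [sub_add_cancel]
      push_cast at ih ⊢
      linarith
  induction n using Int.induction_on with
  | zero => simp
  | succ i ih =>
    have h := hstep i
    push_cast at ih h ⊢
    linarith
  | pred i ih =>
    have h := hstep (-(i : ℤ) - 1)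
    rw [sub_add_cancel] at h
    push_cast at ih h ⊢
    linarith

/-- Cocycle property.  If `ℓ = 0` all three terms vanish (`g` fixes `p`, `q`).  If `ℓ > 0`, `strip` gives
`dist (g ^ n • p) q = |n| ℓ - sign n * gam g p q / ℓ + o(1)`; use
`dist (g ^ (2 n) • p) r ≤ dist (g ^ n • p) q + dist (g ^ n • q) r` for `n → +∞` and `n → -∞`.
(Squared version without limits of square roots: if `u, v, w ≥ 0`, `w ≤ u + v`, then
`w ^ 2 ≤ 2 u ^ 2 + 2 v ^ 2`; this gives `- 4 n gam p r ≤ C - 4 n (gam p q + gam q r)` for all `n : ℤ`, which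
already suffices and needs no case distinction.) -/
theorem Geo.gam_add (H : Geo G X) {g : G} {p q r : X} (hp : dist p (g • p) = nm X g)
    (hq : dist q (g • q) = nm X g) (hr : dist r (g • r) = nm X g) :
    gam g p r = gam g p q + gam g q r := by
  have key : ∀ n : ℤ, (n : ℝ) * (4 * (gam g p q + gam g q r - gam g p r))
      ≤ 2 * dist p q ^ 2 + 2 * dist q r ^ 2 - dist p r ^ 2 := by
    intro n
    have h1 := H.strip hp hr (2 * n)
    have h2 := H.strip hp hq n
    have h3 := H.strip hq hr n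
    have h4 : dist (g ^ (2 * n) • p) r ≤ dist (g ^ n • p) q + dist (g ^ n • q) r := by
      have e := H.cbf_dist_zpow g p q (2 * n) n
      have e' : 2 * n - n = n := by ring
      rw [e'] at e
      rw [← e]
      exact dist_triangle _ _ _
    have h5 : dist (g ^ (2 * n) • p) r ^ 2 ≤ (dist (g ^ n • p) q + dist (g ^ n • q) r) ^ 2 :=
      pow_le_pow_left₀ dist_nonneg h4 2
    have h6 : (dist (g ^ n • p) q + dist (g ^ n • q) r) ^ 2
        ≤ 2 * dist (g ^ n • p) q ^ 2 + 2 * dist (g ^ n • q) r ^ 2 := by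
      nlinarith [sq_nonneg (dist (g ^ n • p) q - dist (g ^ n • q) r)]
    push_cast at h1
    nlinarith
  have := cbf_eq_zero_of_int key
  linarith

theorem Geo.cbf_min_smul (H : Geo G X) {g h : G} (hc : Commute h g) {y : X}
    (hy : dist y (g • y) = nm X g) : dist (h • y) (g • h • y) = nm X g := by
  rw [smul_smul, ← hc.eq, ← smul_smul, H.dist_smul, hy]

theorem Geo.cbf_gam_smul (H : Geo G X) {g h : G} (hc : Commute h g) (p q : X) :
    gam g (h • p) (h • q) = gam g p q := by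
  unfold gam
  rw [smul_smul, ← hc.eq, ← smul_smul, H.dist_smul, H.dist_smul]

theorem Geo.cbf_gam_mul (H : Geo G X) {g h h' : G} (hc : Commute h g) (hc' : Commute h' g) {y : X}
    (hy : dist y (g • y) = nm X g) :
    gam g y ((h * h') • y) = gam g y (h • y) + gam g y (h' • y) := by
  rw [H.gam_add hy (H.cbf_min_smul hc hy) (H.cbf_min_smul (hc.mul_left hc') hy), ← smul_smul,
    H.cbf_gam_smul hc]

theorem Geo.cbf_gam_pow (H : Geo G X) {g h : G} (hc : Commute h g) {y : X}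
    (hy : dist y (g • y) = nm X g) (n : ℕ) : gam g y (h ^ n • y) = n * gam g y (h • y) := by
  induction n with
  | zero => simp [gam, dist_comm (g • y) y, hy]
  | succ i ih =>
    rw [pow_succ, H.cbf_gam_mul (hc.pow_left i) hc hy, ih]
    push_cast
    ring

theorem cbf_sq_near {u A C n : ℝ} (hA : 0 ≤ A) (hn : 1 ≤ n) (h : |u - n * A| ≤ C) :
    |u ^ 2 - n ^ 2 * A ^ 2| ≤ n * (2 * C * A + C ^ 2) := by
  have hC : 0 ≤ C := (abs_nonneg _).trans h
  have e : u ^ 2 - n ^ 2 * A ^ 2 = (u - n * A) * (u - n * A) + 2 * (n * A) * (u - n * A) := by ring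
  have hnA : 0 ≤ n * A := by positivity
  have h1 : |(u - n * A) * (u - n * A)| ≤ C ^ 2 := by
    rw [abs_mul, sq]
    exact mul_le_mul h h (abs_nonneg _) hC
  have h2 : |2 * (n * A) * (u - n * A)| ≤ 2 * (n * A) * C := by
    rw [abs_mul, abs_of_nonneg (by positivity : 0 ≤ 2 * (n * A))]
    exact mul_le_mul_of_nonneg_left h (by positivity)
  rw [e]
  have h3 := abs_add_le ((u - n * A) * (u - n * A)) (2 * (n * A) * (u - n * A))
  nlinarith [sq_nonneg C]

/-- For `h` commuting with `g` and `y` minimal for `g`: `h • y` is minimal, `gam g (h • p) (h • q) = gam g p q`,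
so `gam g y (h ^ n • y) = n * gam g y (h • y)`.  `strip` gives
`dist y ((g * h) ^ n • y) ^ 2 = dist (g ^ (-n) • y) (h ^ n • y) ^ 2
 = dist y (h ^ n • y) ^ 2 + 2 n ^ 2 gam g y (h • y) + n ^ 2 ℓ ^ 2`; divide by `n ^ 2` and use `dist_zpow_near`. -/
theorem Geo.Bf_eq_gam [ProperSpace X] [Nonempty X] (H : Geo G X) {g h : G} (hc : Commute h g) {y : X}
    (hy : dist y (g • y) = nm X g) : Bf X g h = gam g y (h • y) := by
  obtain ⟨C, hC⟩ := H.dist_zpow_near (g * h) y
  obtain ⟨C', hC'⟩ := H.dist_zpow_near h y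
  set A := nm X (g * h)
  set B := nm X h
  set K := 2 * gam g y (h • y) + nm X g ^ 2 with hK
  have hA : 0 ≤ A := nm_nonneg _
  have hB : 0 ≤ B := nm_nonneg _
  have key : ∀ n : ℕ, 1 ≤ n → (n : ℝ) * |A ^ 2 - B ^ 2 - K|
      ≤ (2 * C * A + C ^ 2) + (2 * C' * B + C' ^ 2) := by
    intro n hn
    have hn' : (1 : ℝ) ≤ n := by exact_mod_cast hn
    have h1 := hC n
    have h2 := hC' n
    simp only [Int.cast_natCast, Nat.abs_cast, zpow_natCast] at h1 h2
    have h3 := cbf_sq_near hA hn' h1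
    have h4 := cbf_sq_near hB hn' h2
    have h5 := H.strip hy (H.cbf_min_smul (hc.pow_left n) hy) (-(n : ℤ))
    rw [H.cbf_gam_pow hc hy] at h5
    have h6 : dist y ((g * h) ^ n • y) = dist (g ^ (-(n : ℤ)) • y) (h ^ n • y) := by
      rw [← H.dist_smul (g ^ n) (g ^ (-(n : ℤ)) • y), smul_smul, smul_smul, hc.symm.mul_pow,
        zpow_neg, zpow_natCast, mul_inv_cancel, one_smul]
    rw [← h6] at h5
    push_cast at h5
    have e : (n : ℝ) ^ 2 * (A ^ 2 - B ^ 2 - K) =
        (dist y (h ^ n • y) ^ 2 - n ^ 2 * B ^ 2) - (dist y ((g * h) ^ n • y) ^ 2 - n ^ 2 * A ^ 2) := by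
      rw [h5, hK]; ring
    have h7 : (n : ℝ) ^ 2 * |A ^ 2 - B ^ 2 - K|
        ≤ n * ((2 * C * A + C ^ 2) + (2 * C' * B + C' ^ 2)) := by
      rw [← abs_of_nonneg (sq_nonneg (n : ℝ)), ← abs_mul, e]
      have := abs_sub (dist y (h ^ n • y) ^ 2 - n ^ 2 * B ^ 2)
        (dist y ((g * h) ^ n • y) ^ 2 - n ^ 2 * A ^ 2)
      linarith
    have hpos : (0 : ℝ) < n := by linarith
    rw [sq, mul_assoc] at h7
    exact le_of_mul_le_mul_left h7 hpos
  have h0 := cbf_le_zero_of_nat key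
  have h1 : A ^ 2 - B ^ 2 - K = 0 := abs_nonpos_iff.1 h0
  unfold Bf
  linarith

theorem Geo.min_formula [ProperSpace X] [Nonempty X] (H : Geo G X) {g h : G} (hc : Commute h g) {y : X}
    (hy : dist y (g • y) = nm X g) (n : ℤ) :
    dist (g ^ n • y) (h • y) ^ 2 = dist y (h • y) ^ 2 - 2 * n * Bf X g h + n ^ 2 * nm X g ^ 2 := by
  rw [H.Bf_eq_gam hc hy]
  exact H.strip hy (H.cbf_min_smul hc hy) n

theorem Geo.Bf_mul [ProperSpace X] [Nonempty X] (H : Geo G X) {g h h' : G} (hc : Commute h g)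
    (hc' : Commute h' g) : Bf X g (h * h') = Bf X g h + Bf X g h' := by
  obtain ⟨y, hy⟩ := H.exists_min g
  rw [H.Bf_eq_gam (hc.mul_left hc') hy, H.Bf_eq_gam hc hy, H.Bf_eq_gam hc' hy]
  exact H.cbf_gam_mul hc hc' hy

theorem Geo.Bf_zpow [ProperSpace X] [Nonempty X] (H : Geo G X) {g h : G} (hc : Commute h g) (n : ℤ) :
    Bf X g (h ^ n) = n * Bf X g h := by
  induction n using Int.induction_on with
  | zero =>
    have h1 := H.Bf_mul (Commute.one_left g) (Commute.one_left g)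
    rw [mul_one] at h1
    simp only [zpow_zero, Int.cast_zero, zero_mul]
    linarith
  | succ i ih =>
    rw [zpow_add_one, H.Bf_mul (hc.zpow_left _) hc, ih]
    push_cast
    ring
  | pred i ih =>
    have h1 := H.Bf_mul (hc.zpow_left (-(i : ℤ) - 1)) hc
    rw [← zpow_add_one, sub_add_cancel, ih] at h1
    push_cast at h1 ⊢
    linarith

theorem Bf_comm {g h : G} (hc : Commute h g) : Bf X g h = Bf X h g := by
  unfold Bf
  rw [hc.eq]
  ring

theorem ang_comm {g h : G} (hc : Commute h g) : ang X g h = ang X h g := by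
  unfold ang
  rw [Bf_comm hc, mul_comm (nm X g)]

theorem Geo.Bf_self [ProperSpace X] [Nonempty X] (H : Geo G X) (g : G) : Bf X g g = nm X g ^ 2 := by
  have h := H.nm_zpow g 2
  have e : g ^ (2 : ℤ) = g * g := by rw [zpow_two]
  rw [e] at h
  unfold Bf
  rw [h]
  norm_num
  ring

theorem Geo.Bf_conj (H : Geo G X) (k g h : G) : Bf X (k * g * k⁻¹) (k * h * k⁻¹) = Bf X g h := by
  unfold Bf
  have e : k * g * k⁻¹ * (k * h * k⁻¹) = k * (g * h) * k⁻¹ := by group
  rw [e, H.nm_conj, H.nm_conj, H.nm_conj]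

/-- norm of `g ^ i * h ^ j` for commuting `g, h` (expand with `Bf_zpow`, `Bf_comm`, `nm_zpow`) -/
theorem Geo.nm_mul_zpow [ProperSpace X] [Nonempty X] (H : Geo G X) {g h : G} (hc : Commute h g) (i j : ℤ) :
    nm X (g ^ i * h ^ j) ^ 2 = i ^ 2 * nm X g ^ 2 + 2 * i * j * Bf X g h + j ^ 2 * nm X h ^ 2 := by
  have h1 : Bf X (g ^ i) (h ^ j) = i * j * Bf X g h := by
    rw [H.Bf_zpow (hc.zpow_right i) j, Bf_comm (hc.zpow_right i), H.Bf_zpow hc.symm i,
      Bf_comm hc.symm]
    ring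
  have h2 := H.nm_zpow g i
  have h3 := H.nm_zpow h j
  have h4 : nm X (g ^ i * h ^ j) ^ 2
      = 2 * Bf X (g ^ i) (h ^ j) + nm X (g ^ i) ^ 2 + nm X (h ^ j) ^ 2 := by
    unfold Bf; ring
  rw [h4, h1, h2, h3, mul_pow, mul_pow, sq_abs, sq_abs]
  ring

theorem Geo.cbf_nm_mul_le [ProperSpace X] [Nonempty X] (H : Geo G X) {g h : G} (hc : Commute h g) :
    nm X (g * h) ≤ nm X g + nm X h := by
  obtain ⟨y⟩ := ‹Nonempty X›
  obtain ⟨C, hC⟩ := H.dist_zpow_near (g * h) y
  obtain ⟨C1, hC1⟩ := H.dist_zpow_near g y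
  obtain ⟨C2, hC2⟩ := H.dist_zpow_near h y
  have key : ∀ n : ℕ, 1 ≤ n → (n : ℝ) * (nm X (g * h) - nm X g - nm X h) ≤ C + C1 + C2 := by
    intro n _
    have h0 := abs_le.1 (hC n)
    have h1 := abs_le.1 (hC1 n)
    have h2 := abs_le.1 (hC2 n)
    simp only [Int.cast_natCast, Nat.abs_cast, zpow_natCast] at h0 h1 h2
    have h3 : dist y ((g * h) ^ n • y) ≤ dist y (g ^ n • y) + dist y (h ^ n • y) := by
      rw [hc.symm.mul_pow, ← smul_smul, ← H.dist_smul (g ^ n) y (h ^ n • y)]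
      exact dist_triangle _ _ _
    nlinarith [h0.1, h1.2, h2.2]
  have := cbf_le_zero_of_nat key
  linarith

theorem Geo.cbf_Bf_le [ProperSpace X] [Nonempty X] (H : Geo G X) {g h : G} (hc : Commute h g) :
    Bf X g h ≤ nm X g * nm X h := by
  have h1 := H.cbf_nm_mul_le hc
  have h2 : nm X (g * h) ^ 2 ≤ (nm X g + nm X h) ^ 2 := pow_le_pow_left₀ (nm_nonneg _) h1 2
  unfold Bf
  nlinarith

/-- Cauchy–Schwarz: for `y` minimal for both sides use `nm (g * h) ≤ nm g + nm h` and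
`nm (g * h⁻¹) ≤ nm g + nm h` (from `dist_zpow_near` and the triangle inequality), i.e.
`± 2 Bf g h ≤ 2 nm g * nm h`. -/
theorem Geo.abs_Bf_le [ProperSpace X] [Nonempty X] (H : Geo G X) {g h : G} (hc : Commute h g) :
    |Bf X g h| ≤ nm X g * nm X h := by
  have h1 := H.cbf_Bf_le hc
  have h2 := H.cbf_Bf_le (hc.zpow_left (-1))
  rw [H.Bf_zpow hc, H.nm_zpow] at h2
  norm_num at h2
  exact abs_le.2 ⟨by linarith, h1⟩

theorem Geo.Bf_eq_cos [ProperSpace X] [Nonempty X] (H : Geo G X) {g h : G} (hc : Commute h g)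
    (hg : 0 < nm X g) (hh : 0 < nm X h) : Bf X g h = nm X g * nm X h * Real.cos (ang X g h) := by
  have h1 := abs_le.1 (H.abs_Bf_le hc)
  have hp : 0 < nm X g * nm X h := mul_pos hg hh
  unfold ang
  rw [Real.cos_arccos (by rw [le_div_iff₀ hp]; linarith [h1.1]) (by rw [div_le_iff₀ hp]; linarith [h1.2])]
  field_simp

end Crest.Agent.R175C
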