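import Crest.Agent.R175.CBf
import Crest.Agent.R175.CArt

/-!
# R175/CBraid: in `B₁₁` the angle between `σ₀` and `(σ₀ σ₁)³` is less than `π / 3`
-/

set_option autoImplicit false

namespace Crest.Agent.R175C

open Real

section alg
variable {G : Type*} [Group G]

/-- Jucys–Murphy elements `J 0 = 1`, `J (k+1) = σ k * J k * σ k` -/
def JM (σ : ℕ → G) : ℕ → G
  | 0 => 1
  | k + 1 => σ k * JM σ k * σ k

/-- full twists `T k = J 0 * ⋯ * J k` (on `k + 1` strands) -/
def TW (σ : ℕ → G) : ℕ → G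
  | 0 => 1
  | k + 1 => TW σ k * JM σ (k + 1)

/-- the braid relations for `σ 0, …, σ (n-1)` -/
structure Chain (σ : ℕ → G) (n : ℕ) : Prop where
  braid : ∀ i, i + 1 < n → Braid (σ i) (σ (i + 1))
  comm : ∀ i j, i + 2 ≤ j → j < n → Commute (σ i) (σ j)

variable {σ : ℕ → G} {n : ℕ}

/-- `J k` is a word in `σ 0, …, σ (k-1)` -/
theorem Chain.comm_JM_far (h : Chain σ n) {i k : ℕ} (hik : k + 1 ≤ i) (hi : i < n) :
    Commute (σ i) (JM σ k) := by
  induction k with
  | zero => exact Commute.one_right _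
  | succ k ih =>
    have h1 : Commute (σ i) (σ k) := (h.comm k i (by omega) hi).symm
    exact (h1.mul_right (ih (by omega))).mul_right h1

/-- base case `k = i + 2`: `σ i σ (i+1) σ i J i σ i σ (i+1) = σ (i+1) σ i σ (i+1) J i σ i σ (i+1) = …`;
induction on `k` -/
theorem Chain.comm_JM (h : Chain σ n) {i k : ℕ} (hik : i + 2 ≤ k) (hk : k ≤ n) :
    Commute (σ i) (JM σ k) := by
  induction k, hik using Nat.le_induction with
  | base =>
    have hb : σ i * σ (i + 1) * σ i = σ (i + 1) * σ i * σ (i + 1) := h.braid i (by omega)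
    have hc : σ (i + 1) * JM σ i = JM σ i * σ (i + 1) :=
      (h.comm_JM_far (i := i + 1) (k := i) le_rfl (by omega)).eq
    change σ i * (σ (i + 1) * (σ i * JM σ i * σ i) * σ (i + 1))
      = σ (i + 1) * (σ i * JM σ i * σ i) * σ (i + 1) * σ i
    calc σ i * (σ (i + 1) * (σ i * JM σ i * σ i) * σ (i + 1))
        = (σ i * σ (i + 1) * σ i) * JM σ i * σ i * σ (i + 1) := by group
      _ = σ (i + 1) * σ i * (σ (i + 1) * JM σ i) * σ i * σ (i + 1) := by rw [hb]; group
      _ = σ (i + 1) * σ i * JM σ i * (σ (i + 1) * σ i * σ (i + 1)) := by rw [hc]; group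
      _ = σ (i + 1) * (σ i * JM σ i * σ i) * σ (i + 1) * σ i := by rw [← hb]; group
  | succ k hik ih =>
    have h1 : Commute (σ i) (σ k) := h.comm i k hik (by omega)
    exact (h1.mul_right (ih (by omega))).mul_right h1

/-- `J j` is a word in generators commuting with `J k` -/
theorem Chain.comm_JM_JM (h : Chain σ n) {j k : ℕ} (hjk : j ≤ k) (hk : k ≤ n) :
    Commute (JM σ j) (JM σ k) := by
  rcases hjk.eq_or_lt with rfl | hlt
  · exact Commute.refl _
  clear hjk
  induction j with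
  | zero => exact Commute.one_left _
  | succ j ih =>
    have h1 : Commute (σ j) (JM σ k) := h.comm_JM (by omega) hk
    exact (h1.mul_left (ih (by omega))).mul_left h1

theorem Chain.comm_TW_far (h : Chain σ n) {i k : ℕ} (hik : k + 1 ≤ i) (hi : i < n) :
    Commute (σ i) (TW σ k) := by
  induction k with
  | zero => exact Commute.one_right _
  | succ k ih => exact (ih (by omega)).mul_right (h.comm_JM_far hik hi)

/-- `σ i` commutes with `T (i-1)`, with `J i * J (i+1)` (as `J i` commutes with `J (i+1) = σ i J i σ i`) and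
with the later `J k` -/
theorem Chain.comm_TW (h : Chain σ n) {i k : ℕ} (hik : i < k) (hk : k ≤ n) : Commute (σ i) (TW σ k) := by
  induction k, hik using Nat.le_induction with
  | base =>
    have key : Commute (σ i) (JM σ i * JM σ (i + 1)) := by
      have hc : JM σ i * (σ i * JM σ i * σ i) = (σ i * JM σ i * σ i) * JM σ i :=
        (h.comm_JM_JM (j := i) (k := i + 1) (by omega) hk).eq
      change σ i * (JM σ i * (σ i * JM σ i * σ i)) = JM σ i * (σ i * JM σ i * σ i) * σ i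
      conv_rhs => rw [hc]
      group
    cases i with
    | zero =>
      change Commute (σ 0) (1 * JM σ 1)
      simpa [JM] using key
    | succ m =>
      change Commute (σ (m + 1)) (TW σ m * JM σ (m + 1) * JM σ (m + 2))
      rw [mul_assoc]
      exact (h.comm_TW_far le_rfl (by omega)).mul_right key
  | succ k hik ih =>
    exact (ih (by omega)).mul_right (h.comm_JM (by omega) hk)

theorem Chain.TW_two (h : Chain σ n) (hn : 2 ≤ n) : TW σ 2 = (σ 0 * σ 1) ^ 3 := by
  have hb : σ 0 * σ 1 * σ 0 = σ 1 * σ 0 * σ 1 := h.braid 0 (by omega)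
  change 1 * (σ 0 * 1 * σ 0) * (σ 1 * (σ 0 * 1 * σ 0) * σ 1) = _
  calc 1 * (σ 0 * 1 * σ 0) * (σ 1 * (σ 0 * 1 * σ 0) * σ 1)
      = σ 0 * (σ 0 * σ 1 * σ 0) * σ 0 * σ 1 := by group
    _ = (σ 0 * σ 1) ^ 3 := by rw [hb, pow_succ, pow_two]; group

end alg

variable {G X : Type*} [Group G] [MetricSpace X] [MulAction G X]

theorem Geo.cbr_Bf_braid (H : Geo G X) {a b c : G} (h : Braid a b) (ha : Commute a c) (hb : Commute b c) :
    Bf X c b = Bf X c a := by
  have h1 := H.Bf_conj (a * b) c a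
  have h2 : a * b * c * (a * b)⁻¹ = c := by
    rw [(ha.mul_left hb).eq, mul_inv_cancel_right]
  rwa [h2, h.conj_eq] at h1

theorem Geo.cbr_Bf_one [ProperSpace X] [Nonempty X] (H : Geo G X) (c : G) : Bf X c 1 = 0 := by
  have h1 := H.Bf_mul (Commute.one_left c) (Commute.one_left c)
  rw [mul_one] at h1
  linarith

theorem Geo.cbr_word [ProperSpace X] [Nonempty X] (H : Geo G X) {σ : ℕ → G} {n : ℕ} (h : Chain σ n)
    {c : G} {k : ℕ} (hk : k ≤ n) (hc : ∀ i < k, Commute (σ i) c) :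
    (Commute (JM σ k) c ∧ Bf X c (JM σ k) = 2 * k * Bf X c (σ 0)) ∧
      (Commute (TW σ k) c ∧ Bf X c (TW σ k) = k * (k + 1) * Bf X c (σ 0)) := by
  have hv : ∀ i < k, Bf X c (σ i) = Bf X c (σ 0) := by
    intro i
    induction i with
    | zero => intro _; rfl
    | succ i ih =>
      intro hi
      rw [H.cbr_Bf_braid (h.braid i (by omega)) (hc i (by omega)) (hc (i + 1) hi), ih (by omega)]
  have hJ : ∀ j ≤ k, Commute (JM σ j) c ∧ Bf X c (JM σ j) = 2 * j * Bf X c (σ 0) := by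
    intro j
    induction j with
    | zero => intro _; exact ⟨Commute.one_left _, by simp [JM, H.cbr_Bf_one]⟩
    | succ j ih =>
      intro hj
      obtain ⟨i1, i2⟩ := ih (by omega)
      have c1 := hc j (by omega)
      refine ⟨(c1.mul_left i1).mul_left c1, ?_⟩
      change Bf X c (σ j * JM σ j * σ j) = _
      rw [H.Bf_mul (c1.mul_left i1) c1, H.Bf_mul c1 i1, i2, hv j (by omega)]
      push_cast
      ring
  have hT : ∀ j ≤ k, Commute (TW σ j) c ∧ Bf X c (TW σ j) = j * (j + 1) * Bf X c (σ 0) := by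
    intro j
    induction j with
    | zero => intro _; exact ⟨Commute.one_left _, by simp [TW, H.cbr_Bf_one]⟩
    | succ j ih =>
      intro hj
      obtain ⟨i1, i2⟩ := ih (by omega)
      obtain ⟨j1, j2⟩ := hJ (j + 1) hj
      refine ⟨i1.mul_left j1, ?_⟩
      change Bf X c (TW σ j * JM σ (j + 1)) = _
      rw [H.Bf_mul i1 j1, i2, j2]
      push_cast
      ring
  exact ⟨hJ k le_rfl, hT k le_rfl⟩

/-- Let `s = σ 0`, `P = |s|²`, `Q = Bf s (J 2)`, `R = Bf s (σ 2)`.  `Bf s ·` is additive on the centraliser of `s`,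
where `σ 2, …, σ 9` are conjugate, so `Bf s (J k) = Q + 2 (k - 2) R` (`2 ≤ k ≤ 10`) and
`κ := Bf s (T 10) = 2 P + 9 Q + 72 R`.  `Bf (T 10) ·` is additive on `⟨σ⟩` and takes the value `κ` on each `σ i`
(conjugate), so `Bf (T 10) (J 10) = 20 κ`.  `Bf (J 10) ·` is additive on `⟨σ 0..σ 8, J 10⟩` with value
`Q + 16 R` on `σ i`, `i ≤ 8`; `T 10 = T 9 * J 10`, `T 9` has length `90`.  Hence
`|J 10|² = 20 κ - 90 (Q + 16 R) = 40 P + 90 Q ≥ 0`.  Finally `(σ 0 σ 1)³ = T 2 = s² * J 2`. -/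
theorem Geo.chain_ineq [ProperSpace X] [Nonempty X] (H : Geo G X) {σ : ℕ → G} (h : Chain σ 10) :
    14 / 9 * nm X (σ 0) ^ 2 ≤ Bf X (σ 0) ((σ 0 * σ 1) ^ 3) := by
  have hs : ∀ k, 2 ≤ k → k < 10 → Commute (σ k) (σ 0) := fun k h1 h2 => (h.comm 0 k h1 h2).symm
  have hR : ∀ k, 2 ≤ k → k < 10 → Bf X (σ 0) (σ k) = Bf X (σ 0) (σ 2) := by
    intro k hk
    induction k, hk using Nat.le_induction with
    | base => intro _; rfl
    | succ k hk ih =>
      intro h2
      rw [H.cbr_Bf_braid (h.braid k h2) (hs k hk (by omega)) (hs (k + 1) (by omega) h2), ih (by omega)]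
  have hJ : ∀ k, 2 ≤ k → k ≤ 10 →
      Bf X (σ 0) (JM σ k) = Bf X (σ 0) (JM σ 2) + 2 * ((k : ℝ) - 2) * Bf X (σ 0) (σ 2) := by
    intro k hk
    induction k, hk using Nat.le_induction with
    | base => intro _; norm_num
    | succ k hk ih =>
      intro h2
      have c1 := hs k hk (by omega)
      have c2 : Commute (JM σ k) (σ 0) := (h.comm_JM (i := 0) hk (by omega)).symm
      change Bf X (σ 0) (σ k * JM σ k * σ k) = _
      rw [H.Bf_mul (c1.mul_left c2) c1, H.Bf_mul c1 c2, ih (by omega), hR k hk (by omega)]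
      push_cast
      ring
  have hT : ∀ k, 1 ≤ k → k ≤ 10 →
      Bf X (σ 0) (TW σ k) = 2 * nm X (σ 0) ^ 2 + ((k : ℝ) - 1) * Bf X (σ 0) (JM σ 2)
        + ((k : ℝ) - 1) * ((k : ℝ) - 2) * Bf X (σ 0) (σ 2) := by
    intro k hk
    induction k, hk using Nat.le_induction with
    | base =>
      intro _
      change Bf X (σ 0) (1 * (σ 0 * 1 * σ 0)) = _
      rw [one_mul, mul_one, H.Bf_mul (Commute.refl _) (Commute.refl _), H.Bf_self]
      norm_num
      ring
    | succ k hk ih =>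
      intro h2
      have c1 : Commute (TW σ k) (σ 0) := (h.comm_TW (i := 0) hk (by omega)).symm
      have c2 : Commute (JM σ (k + 1)) (σ 0) := (h.comm_JM (i := 0) (by omega) h2).symm
      change Bf X (σ 0) (TW σ k * JM σ (k + 1)) = _
      rw [H.Bf_mul c1 c2, ih (by omega), hJ (k + 1) (by omega) h2]
      push_cast
      ring
  have a1 := H.cbr_word h (c := TW σ 10) (k := 10) le_rfl (fun i hi => h.comm_TW hi le_rfl)
  have a2 := H.cbr_word h (c := JM σ 10) (k := 9) (by norm_num)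
    (fun i hi => h.comm_JM (by omega) le_rfl)
  have a3 : Bf X (JM σ 10) (TW σ 10) = Bf X (JM σ 10) (TW σ 9) + nm X (JM σ 10) ^ 2 := by
    change Bf X (JM σ 10) (TW σ 9 * JM σ 10) = _
    rw [H.Bf_mul a2.2.1 (Commute.refl _), H.Bf_self]
  have a4 : Bf X (TW σ 10) (JM σ 10) = Bf X (JM σ 10) (TW σ 10) := Bf_comm a1.1.1
  have a5 : Bf X (TW σ 10) (σ 0) = Bf X (σ 0) (TW σ 10) := Bf_comm (h.comm_TW (by norm_num) le_rfl)
  have a6 : Bf X (JM σ 10) (σ 0) = Bf X (σ 0) (JM σ 10) := Bf_comm (h.comm_JM (by norm_num) le_rfl)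
  have a7 := hT 10 (by norm_num) le_rfl
  have a8 := hJ 10 (by norm_num) le_rfl
  have a9 := hT 2 (by norm_num) (by norm_num)
  have b1 := a1.1.2
  have b2 := a2.2.2
  rw [← h.TW_two (by norm_num), a9]
  have := sq_nonneg (nm X (JM σ 10))
  push_cast at a7 a8 b1 b2 ⊢
  linarith

/-- `D = (s t)³`.  For `l` commuting with `s` and `t`: `Bf l ·` is additive on `⟨s,t⟩`, `s ~ t`. -/
theorem Geo.Bf_cube [ProperSpace X] [Nonempty X] (H : Geo G X) {s t l : G} (h : Braid s t)
    (hs : Commute l s) (ht : Commute l t) :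
    Bf X t l = Bf X s l ∧ Bf X ((s * t) ^ 3) l = 6 * Bf X s l := by
  have e1 : Bf X l t = Bf X l s := H.cbr_Bf_braid h hs.symm ht.symm
  have c1 : Commute (s * t) l := hs.symm.mul_left ht.symm
  refine ⟨by rw [Bf_comm ht, Bf_comm hs, e1], ?_⟩
  have e2 := H.Bf_zpow c1 3
  have e3 : (s * t) ^ (3 : ℤ) = (s * t) ^ 3 := by norm_cast
  rw [e3, H.Bf_mul hs.symm ht.symm, e1] at e2
  rw [Bf_comm (c1.pow_left 3).symm, Bf_comm hs, e2]
  push_cast
  ring

/-- `k = Bf s D`, `|D|² = 6 k` (`Bf_cube` with `l = D`), `cos θ = k / (|s| |D|)`, `cos² θ = k / (6 |s|²) ≥ 14/54 > 1/4`.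
`θ > 0`: if `cos θ = 1` then `k = 6 |s|²` and `|s ^ 6 * D⁻¹|² = 36 |s|² - 12 k + 6 k = 0`. -/
theorem Geo.chain_angle [ProperSpace X] [Nonempty X] (H : Geo G X) {σ : ℕ → G} (h : Chain σ 10)
    (h0 : ¬ IsOfFinOrder (σ 0)) (h1 : ¬ IsOfFinOrder (σ 0 ^ 6 * ((σ 0 * σ 1) ^ 3)⁻¹)) :
    0 < nm X (σ 0) ∧ 0 < nm X (σ 1) ∧ 0 < nm X ((σ 0 * σ 1) ^ 3) ∧
    (0 < ang X (σ 0) ((σ 0 * σ 1) ^ 3) ∧ ang X (σ 0) ((σ 0 * σ 1) ^ 3) < π / 3) ∧
    (0 < ang X ((σ 0 * σ 1) ^ 3) (σ 1) ∧ ang X ((σ 0 * σ 1) ^ 3) (σ 1) < π / 3) := by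
  have hb : Braid (σ 0) (σ 1) := h.braid 0 (by norm_num)
  have hk := H.chain_ineq h
  set s := σ 0
  set t := σ 1
  set D := (s * t) ^ 3 with hD
  have cs : Commute D s := hb.comm_left.symm
  have ct : Commute D t := hb.comm_right.symm
  have hs0 : 0 < nm X s := H.nm_pos h0
  have hts : nm X t = nm X s := by rw [← hb.conj_eq, H.nm_conj]
  obtain ⟨e1, e2⟩ := H.Bf_cube hb cs ct
  rw [← hD, H.Bf_self] at e2
  have hk0 : 0 < Bf X s D := lt_of_lt_of_le (by positivity) hk
  have hD0 : 0 < nm X D := by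
    refine lt_of_le_of_ne (nm_nonneg D) fun h0 => ?_
    rw [← h0] at e2
    linarith
  have hp : 0 < nm X s * nm X D := mul_pos hs0 hD0
  have hx1 : Bf X s D < nm X s * nm X D := by
    refine lt_of_le_of_ne (abs_le.1 (H.abs_Bf_le cs)).2 fun hx => ?_
    have h2 := H.nm_mul_zpow cs 6 (-1)
    have e3 : s ^ (6 : ℤ) * D ^ (-1 : ℤ) = s ^ 6 * D⁻¹ := by
      rw [zpow_neg_one]; norm_cast
    rw [e3] at h2
    have h3 := H.nm_pos h1
    have h4 : nm X D = 6 * nm X s := by
      have : nm X D * (nm X D - 6 * nm X s) = 0 := by nlinarith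
      rcases mul_eq_zero.1 this with h5 | h5 <;> linarith
    push_cast at h2
    have h5 : nm X (s ^ 6 * D⁻¹) ^ 2 = 0 := by rw [h2, hx, h4]; ring
    have := pow_pos h3 2
    linarith
  have hx2 : nm X s * nm X D < 2 * Bf X s D := by
    have h2 : (nm X s * nm X D) ^ 2 < (2 * Bf X s D) ^ 2 := by
      rw [mul_pow, e2]
      nlinarith [pow_pos hs0 2]
    exact lt_of_pow_lt_pow_left₀ 2 (by positivity) h2
  have hang : 0 < ang X s D ∧ ang X s D < π / 3 := by
    unfold ang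
    refine ⟨Real.arccos_pos.2 (by rwa [div_lt_one hp]), ?_⟩
    have h3 : arccos (1 / 2) = π / 3 := by
      rw [← cos_pi_div_three, arccos_cos (by positivity) (by linarith [pi_pos])]
    rw [← h3]
    refine Real.arccos_lt_arccos (by norm_num) ?_ ?_
    · rw [lt_div_iff₀ hp]; linarith
    · rw [div_le_one hp]; exact hx1.le
  have hang2 : ang X D t = ang X s D := by
    unfold ang
    rw [Bf_comm ct.symm, e1, hts, mul_comm (nm X D)]
  exact ⟨hs0, hts ▸ hs0, hD0, hang, hang2 ▸ hang⟩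

end Crest.Agent.R175C
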