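import Mathlib

/-!
# R175/CHex: a flat hexagonal cone of total angle `< 2π` does not embed in a CAT(0) (pseudo)metric
-/

set_option autoImplicit false

namespace Crest.Agent.R175C

open Real

/-- a pseudo-distance with the four point form of the CN inequality -/
structure PM {P : Type*} (ρ : P → P → ℝ) : Prop where
  nonneg : ∀ x y, 0 ≤ ρ x y
  symm : ∀ x y, ρ x y = ρ y x
  tri : ∀ x y z, ρ x z ≤ ρ x y + ρ y z
  cn4 : ∀ x y z w (t : ℝ), 0 ≤ t → t ≤ 1 →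
    ρ y w ≤ √((1 - t) * ρ x y ^ 2 + t * ρ z y ^ 2 - t * (1 - t) * ρ x z ^ 2)
      + √((1 - t) * ρ x w ^ 2 + t * ρ z w ^ 2 - t * (1 - t) * ρ x z ^ 2)

variable {P : Type*} {ρ : P → P → ℝ}

/-- Stewart's inequality for a point between two others: `t = ρ x y / ρ x z`; the first root in `cn4` vanishes;
the second radicand is `≥ ((1 - t) * ρ x w - t * ρ z w) ^ 2 ≥ 0` because `ρ x z ≤ ρ x w + ρ z w`. -/
theorem PM.stewart (h : PM ρ) {x y z : P} (hb : ρ x y + ρ y z = ρ x z) (hp : 0 < ρ x z) (w : P) :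
    ρ x z * ρ y w ^ 2 ≤ ρ y z * ρ x w ^ 2 + ρ x y * ρ z w ^ 2 - ρ x y * ρ y z * ρ x z := by
  have ha := h.nonneg x y
  have hb0 := h.nonneg y z
  have hp0 := h.nonneg x w
  have hq0 := h.nonneg z w
  have hd : ρ x z ≤ ρ x w + ρ z w := by have := h.tri x w z; rwa [h.symm w z] at this
  have key := h.cn4 x y z w (ρ x y / ρ x z) (by positivity) (by rw [div_le_one hp]; linarith)
  rw [h.symm z y] at key
  have hm := h.nonneg y w
  generalize ρ x y = a at *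
  generalize ρ y z = b at *
  generalize ρ x w = p at *
  generalize ρ z w = q at *
  generalize ρ y w = m at *
  generalize ρ x z = d at *
  subst hb
  have e1 : (1 - a / (a + b)) * a ^ 2 + a / (a + b) * b ^ 2 - a / (a + b) * (1 - a / (a + b)) * (a + b) ^ 2 = 0 := by
    field_simp; ring
  have e2 : (1 - a / (a + b)) * p ^ 2 + a / (a + b) * q ^ 2 - a / (a + b) * (1 - a / (a + b)) * (a + b) ^ 2 =
      (b * p ^ 2 + a * q ^ 2 - a * b * (a + b)) / (a + b) := by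
    field_simp; ring
  have h0 : 0 ≤ b * p ^ 2 + a * q ^ 2 - a * b * (a + b) := by
    have k1 : (a + b) ^ 2 ≤ (p + q) ^ 2 := by gcongr
    have k2 : a * b * (a + b) ^ 2 ≤ a * b * (p + q) ^ 2 := by gcongr
    have k3 : 0 ≤ (a + b) * (b * p ^ 2 + a * q ^ 2 - a * b * (a + b)) := by
      nlinarith [sq_nonneg (b * p - a * q)]
    exact nonneg_of_mul_nonneg_right k3 hp
  rw [e1, e2, sqrt_zero, zero_add, Real.le_sqrt hm (by positivity), le_div_iff₀ hp] at key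
  linarith

/-- `y ∈ [x,z]`, `z ∈ [y,w]`, `y ≠ z` ⇒ collinear.  With `a = xy, b = yz, c = zw`, `stewart` gives
`b * (ρ x w)² ≥ (a+b)(b+c)² - a c² + a b (a+b) = b (a+b+c)²`. -/
theorem PM.collinear (h : PM ρ) {x y z w : P} (h1 : ρ x y + ρ y z = ρ x z) (h2 : ρ y z + ρ z w = ρ y w)
    (hp : 0 < ρ y z) : ρ x w = ρ x y + ρ y z + ρ z w := by
  have hc := h.nonneg z w
  have ha := h.nonneg x y
  have key := h.stewart h2 (by linarith) x
  rw [h.symm z x, h.symm y x, h.symm w x, ← h1, ← h2] at key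
  have t1 := h.tri x y w
  refine le_antisymm (by linarith) ?_
  have k : (ρ x y + ρ y z + ρ z w) ^ 2 ≤ ρ x w ^ 2 := by
    refine le_of_mul_le_mul_left ?_ hp
    linarith
  exact (pow_le_pow_iff_left₀ (by positivity) (h.nonneg x w) two_ne_zero).1 k

/-- two points between `x` and `z`: `ρ y y' ≤ |ρ x y - ρ x y'|` (`stewart` at `w = y'`) -/
theorem PM.between_unique (h : PM ρ) {x y y' z : P} (h1 : ρ x y + ρ y z = ρ x z)
    (h2 : ρ x y' + ρ y' z = ρ x z) (hp : 0 < ρ x z) : ρ y y' ^ 2 ≤ (ρ x y - ρ x y') ^ 2 := by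
  have key := h.stewart h1 hp y'
  rw [h.symm z y'] at key
  have e1 : ρ y z = ρ x z - ρ x y := by linarith
  have e2 : ρ y' z = ρ x z - ρ x y' := by linarith
  rw [e1, e2] at key
  refine le_of_mul_le_mul_left ?_ hp
  linarith

theorem chex_id (k ψ ψ' : ℝ) (h : 0 < cos ψ) (h' : 0 < cos ψ') :
    (k / cos ψ) ^ 2 + (k / cos ψ') ^ 2 - 2 * (k / cos ψ) * (k / cos ψ') * cos (ψ' - ψ) =
      (k * tan ψ' - k * tan ψ) ^ 2 := by
  have a1 : k / cos ψ * cos ψ = k := by field_simp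
  have a2 : k / cos ψ * sin ψ = k * tan ψ := by rw [tan_eq_sin_div_cos]; ring
  have b1 : k / cos ψ' * cos ψ' = k := by field_simp
  have b2 : k / cos ψ' * sin ψ' = k * tan ψ' := by rw [tan_eq_sin_div_cos]; ring
  have c1 := sin_sq_add_cos_sq ψ
  have c2 := sin_sq_add_cos_sq ψ'
  rw [cos_sub, ← a2, ← b2]
  generalize k / cos ψ = r at *
  generalize k / cos ψ' = r' at *
  have e : r * cos ψ - r' * cos ψ' = 0 := by linarith
  linear_combination (-r ^ 2) * c1 - r' ^ 2 * c2 + (r * cos ψ - r' * cos ψ') * e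

theorem chex_eq {x y : ℝ} (hx : 0 ≤ x) (hy : 0 ≤ y) (h : x ^ 2 = y ^ 2) : x = y :=
  (pow_left_inj₀ hx hy two_ne_zero).1 h

theorem chex_le {x y : ℝ} (hy : 0 ≤ y) (h : x ^ 2 ≤ y ^ 2) : x ≤ y :=
  (abs_le_of_sq_le_sq' h hy).2

/-- Three consecutive sectors of total angle `Θ = a + b + c < π`.  Put `k = cos (Θ/2) > 0`; the chord from
`q0 1` to `q3 1` meets the ray at angle `φ` at radius `r φ = k / cos (φ - Θ/2)`, position `τ φ = k tan (φ - Θ/2)`
along the chord, and `r φ ^ 2 + r φ' ^ 2 - 2 r φ r φ' cos (φ' - φ) = (τ φ' - τ φ) ^ 2`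
(`r cos ψ = k`, `r sin ψ = τ`).  With `φ = 0, a, a + b, Θ` (`r 0 = r Θ = 1`, `τ` strictly increasing): the second
point is between the first and third, the third between the second and fourth, then `collinear`. -/
theorem PM.chain (h : PM ρ) (q0 q1 q2 q3 : ℝ → P) {a b c : ℝ} (ha : 0 < a) (hb : 0 < b) (hc : 0 < c)
    (hs : a + b + c < π)
    (e01 : ∀ α β, 0 < α → 0 < β → ρ (q0 α) (q1 β) ^ 2 = α ^ 2 + β ^ 2 - 2 * α * β * cos a)
    (e12 : ∀ α β, 0 < α → 0 < β → ρ (q1 α) (q2 β) ^ 2 = α ^ 2 + β ^ 2 - 2 * α * β * cos b)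
    (e23 : ∀ α β, 0 < α → 0 < β → ρ (q2 α) (q3 β) ^ 2 = α ^ 2 + β ^ 2 - 2 * α * β * cos c)
    (l02 : ∀ α β, 0 < α → 0 < β → α ^ 2 + β ^ 2 - 2 * α * β * cos (a + b) ≤ ρ (q0 α) (q2 β) ^ 2)
    (l13 : ∀ α β, 0 < α → 0 < β → α ^ 2 + β ^ 2 - 2 * α * β * cos (b + c) ≤ ρ (q1 α) (q3 β) ^ 2) :
    ∃ r, 0 < r ∧ ρ (q0 1) (q1 r) + ρ (q1 r) (q3 1) = ρ (q0 1) (q3 1) ∧ 0 < ρ (q0 1) (q3 1) := by
  obtain ⟨H, hH⟩ : ∃ H, H = (a + b + c) / 2 := ⟨_, rfl⟩
  have hcos : ∀ ψ, -H ≤ ψ → ψ ≤ H → 0 < cos ψ := fun ψ h1 h2 =>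
    cos_pos_of_mem_Ioo ⟨by linarith, by linarith⟩
  have htan : ∀ ψ ψ', -H ≤ ψ → ψ < ψ' → ψ' ≤ H → cos H * tan ψ < cos H * tan ψ' := fun ψ ψ' h1 h2 h3 =>
    mul_lt_mul_of_pos_left (tan_lt_tan_of_lt_of_lt_pi_div_two (by linarith) (by linarith) h2)
      (hcos H (by linarith) le_rfl)
  have c0 := hcos (-H) le_rfl (by linarith)
  have c1 := hcos (a - H) (by linarith) (by linarith)
  have c2 := hcos (a + b - H) (by linarith) (by linarith)
  have c3 := hcos H (by linarith) le_rfl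
  have t01 := htan (-H) (a - H) le_rfl (by linarith) (by linarith)
  have t12 := htan (a - H) (a + b - H) (by linarith) (by linarith) (by linarith)
  have t23 := htan (a + b - H) H (by linarith) (by linarith) le_rfl
  have r0 : cos H / cos (-H) = 1 := by rw [cos_neg, div_self c3.ne']
  have r3 : cos H / cos H = 1 := div_self c3.ne'
  have i01 := chex_id (cos H) _ _ c0 c1
  have i12 := chex_id (cos H) _ _ c1 c2
  have i23 := chex_id (cos H) _ _ c2 c3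
  have i02 := chex_id (cos H) _ _ c0 c2
  have i13 := chex_id (cos H) _ _ c1 c3
  rw [r0, show a - H - -H = a by ring] at i01
  rw [show a + b - H - (a - H) = b by ring] at i12
  rw [r3, show H - (a + b - H) = c by linarith] at i23
  rw [r0, show a + b - H - -H = a + b by ring] at i02
  rw [r3, show H - (a - H) = b + c by linarith] at i13
  have p1 : 0 < cos H / cos (a - H) := div_pos c3 c1
  have p2 : 0 < cos H / cos (a + b - H) := div_pos c3 c2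
  have d01 := chex_eq (h.nonneg _ _) (by linarith) ((e01 1 _ one_pos p1).trans i01)
  have d12 := chex_eq (h.nonneg _ _) (by linarith) ((e12 _ _ p1 p2).trans i12)
  have d23 := chex_eq (h.nonneg _ _) (by linarith) ((e23 _ 1 p2 one_pos).trans i23)
  have d02 := chex_le (h.nonneg _ _) (i02.symm.le.trans (l02 1 _ one_pos p2))
  have d13 := chex_le (h.nonneg _ _) (i13.symm.le.trans (l13 _ 1 p1 one_pos))
  have s02 := h.tri (q0 1) (q1 (cos H / cos (a - H))) (q2 (cos H / cos (a + b - H)))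
  have s13 := h.tri (q1 (cos H / cos (a - H))) (q2 (cos H / cos (a + b - H))) (q3 1)
  have col := h.collinear (x := q0 1) (y := q1 (cos H / cos (a - H))) (z := q2 (cos H / cos (a + b - H)))
    (w := q3 1) (by linarith) (by linarith) (by linarith)
  exact ⟨_, p1, by linarith, by linarith⟩

/-- Apply `chain` to the rays `0,1,2,3` and `0,5,4,3`, then `between_unique`.  In the plane put
`u = (r cos θ0 - 1, r sin θ0)`, `v = (r' cos θ5 - 1, - r' sin θ5)`; then `|u - v|² ≤ (|u| - |v|)²`, i.e.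
`|u| |v| ≤ u₁ v₁ + u₂ v₂ < u₁ v₁ ≤ |u| |v|`. -/
theorem PM.hexagon (h : PM ρ) (q : Fin 6 → ℝ → P) (θ : Fin 6 → ℝ) (hθ : ∀ i, 0 < θ i ∧ θ i < π / 3)
    (h1 : ∀ i α β, 0 < α → 0 < β → ρ (q i α) (q (i + 1) β) ^ 2 = α ^ 2 + β ^ 2 - 2 * α * β * cos (θ i))
    (h2 : ∀ i α β, 0 < α → 0 < β →
      α ^ 2 + β ^ 2 - 2 * α * β * cos (θ i + θ (i + 1)) ≤ ρ (q i α) (q (i + 2) β) ^ 2) : False := by
  have h1' : ∀ i α β, 0 < α → 0 < β →
      ρ (q (i + 1) α) (q i β) ^ 2 = α ^ 2 + β ^ 2 - 2 * α * β * cos (θ i) := fun i α β hα hβ => by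
    rw [h.symm, h1 i β α hβ hα]; ring
  have h2' : ∀ i α β, 0 < α → 0 < β →
      α ^ 2 + β ^ 2 - 2 * α * β * cos (θ (i + 1) + θ i) ≤ ρ (q (i + 2) α) (q i β) ^ 2 := fun i α β hα hβ => by
    have := h2 i β α hβ hα
    rw [h.symm, add_comm (θ (i + 1))]; linarith
  obtain ⟨r, hr, b1, hp⟩ := h.chain (q 0) (q 1) (q 2) (q 3) (hθ 0).1 (hθ 1).1 (hθ 2).1
    (by linarith [(hθ 0).2, (hθ 1).2, (hθ 2).2]) (h1 0) (h1 1) (h1 2) (h2 0) (h2 1)
  obtain ⟨r', hr', b2, -⟩ := h.chain (q 0) (q 5) (q 4) (q 3) (hθ 5).1 (hθ 4).1 (hθ 3).1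
    (by linarith [(hθ 5).2, (hθ 4).2, (hθ 3).2]) (h1' 5) (h1' 4) (h1' 3) (h2' 4) (h2' 3)
  have k1 := h.between_unique b1 b2 hp
  have k2 : r ^ 2 + r' ^ 2 - 2 * r * r' * cos (θ 0 + θ 5) ≤ ρ (q 1 r) (q 5 r') ^ 2 := h2' 5 r r' hr hr'
  have k3 : ρ (q 0 1) (q 1 r) ^ 2 = 1 ^ 2 + r ^ 2 - 2 * 1 * r * cos (θ 0) := h1 0 1 r one_pos hr
  have k4 : ρ (q 0 1) (q 5 r') ^ 2 = 1 ^ 2 + r' ^ 2 - 2 * 1 * r' * cos (θ 5) := h1' 5 1 r' one_pos hr'
  have hA := h.nonneg (q 0 1) (q 1 r)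
  have hB := h.nonneg (q 0 1) (q 5 r')
  have s0 : 0 < sin (θ 0) := sin_pos_of_pos_of_lt_pi (hθ 0).1 (by linarith [(hθ 0).2, pi_pos])
  have s5 : 0 < sin (θ 5) := sin_pos_of_pos_of_lt_pi (hθ 5).1 (by linarith [(hθ 5).2, pi_pos])
  have c0 := sin_sq_add_cos_sq (θ 0)
  have c5 := sin_sq_add_cos_sq (θ 5)
  rw [cos_add] at k2
  generalize ρ (q 0 1) (q 1 r) = A at *
  generalize ρ (q 0 1) (q 5 r') = B at *
  have u1 : |r * cos (θ 0) - 1| ≤ A := by
    refine chex_le hA ?_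
    rw [sq_abs, k3]
    nlinarith [sq_nonneg (r * sin (θ 0))]
  have v1 : |r' * cos (θ 5) - 1| ≤ B := by
    refine chex_le hB ?_
    rw [sq_abs, k4]
    nlinarith [sq_nonneg (r' * sin (θ 5))]
  have w1 : (r * cos (θ 0) - 1) * (r' * cos (θ 5) - 1) ≤ A * B := by
    refine (le_abs_self _).trans ?_
    rw [abs_mul]
    exact mul_le_mul u1 v1 (abs_nonneg _) hA
  have w2 : 0 < r * r' * (sin (θ 0) * sin (θ 5)) := by positivity
  linarith

end Crest.Agent.R175C
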