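import Crest.Agent.R175.CBf
import Crest.Agent.R175.CHex

/-!
# R175/CCone: passing to the asymptotic cone
-/

set_option autoImplicit false

namespace Crest.Agent.R175C

open Real Filter Topology

variable {G X : Type*} [Group G] [MetricSpace X] [MulAction G X]

theorem ccone_ceil {l α : ℝ} (hl : 0 < l) (hα : 0 ≤ α) :
    Tendsto (fun n : ℕ => (⌈α * n / l⌉₊ : ℝ) * l / n) atTop (𝓝 α) := by
  have h := ((tendsto_nat_ceil_mul_div_atTop (div_nonneg hα hl.le)).comp
    tendsto_natCast_atTop_atTop).mul_const l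
  rw [div_mul_cancel₀ _ hl.ne'] at h
  refine h.congr fun n => ?_
  simp only [Function.comp_apply]
  rw [div_mul_eq_mul_div α l, div_mul_eq_mul_div]

theorem ccone_near {u v : ℕ → ℝ} {C L : ℝ} (h : ∀ n, |u n - v n| ≤ C)
    (hv : Tendsto (fun n : ℕ => v n / n) atTop (𝓝 L)) :
    Tendsto (fun n : ℕ => u n / n) atTop (𝓝 L) := by
  have h0 : Tendsto (fun n : ℕ => (u n - v n) / n) atTop (𝓝 0) :=
    squeeze_zero_norm (fun n => by
      rw [Real.norm_eq_abs, abs_div, Nat.abs_cast]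
      exact div_le_div_of_nonneg_right (h n) (Nat.cast_nonneg n))
      (tendsto_const_div_atTop_nhds_zero_nat C)
  simpa only [← add_div, sub_add_cancel, zero_add] using h0.add hv

theorem ccone_sqrt (A : ℝ) (n : ℕ) : √A / n = √(A / n ^ 2) := by
  rw [Real.sqrt_div' _ (sq_nonneg _), Real.sqrt_sq (Nat.cast_nonneg n)]

theorem Geo.ccone_ray [ProperSpace X] [Nonempty X] (H : Geo G X) {a : G} (ha : 0 < nm X a) (x : X)
    {α : ℝ} (hα : 0 ≤ α) :
    Tendsto (fun n : ℕ => dist x (a ^ ⌈α * n / nm X a⌉₊ • x) / n) atTop (𝓝 α) := by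
  obtain ⟨C, hC⟩ := H.dist_zpow_near a x
  refine ccone_near (C := C) (fun n => ?_) (ccone_ceil ha hα)
  simpa only [Int.cast_natCast, Nat.abs_cast, zpow_natCast] using hC (⌈α * n / nm X a⌉₊ : ℕ)

/-- distance of two commuting rays, after rescaling.  With `i n = ⌈α n / |a|⌉₊`, `j n = ⌈β n / |b|⌉₊`.
Change the base point to a minimal point `y` of `a` (bounded error), use `min_formula` for `h = b ^ j`,
`Bf_zpow`, `dist_zpow_near`, `Bf_eq_cos`. -/
theorem Geo.tendsto_comm [ProperSpace X] [Nonempty X] (H : Geo G X) {a b : G} (hc : Commute a b)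
    (ha : 0 < nm X a) (hb : 0 < nm X b) (x : X) {α β : ℝ} (hα : 0 < α) (hβ : 0 < β) :
    Tendsto (fun n : ℕ => dist (a ^ ⌈α * n / nm X a⌉₊ • x) (b ^ ⌈β * n / nm X b⌉₊ • x) / n) atTop
      (𝓝 √(α ^ 2 + β ^ 2 - 2 * α * β * cos (ang X a b))) := by
  obtain ⟨y, hy⟩ := H.exists_min a
  refine ccone_near (C := 2 * dist x y)
    (v := fun n : ℕ => dist (a ^ ⌈α * n / nm X a⌉₊ • y) (b ^ ⌈β * n / nm X b⌉₊ • y)) (fun n => ?_) ?_
  · rw [← Real.dist_eq]
    refine (dist_dist_dist_le _ _ _ _).trans_eq ?_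
    rw [H.dist_smul, H.dist_smul, two_mul]
  · have h1 := ccone_ceil ha hα.le
    have h2 := ccone_ceil hb hβ.le
    have h3 := H.ccone_ray hb y hβ.le
    refine (((h1.pow 2).add (h3.pow 2)).sub (((h1.const_mul 2).mul h2).mul_const
      (cos (ang X a b)))).sqrt.congr fun n => ?_
    have h4 := H.min_formula (hc.symm.pow_left ⌈β * n / nm X b⌉₊) hy (⌈α * n / nm X a⌉₊ : ℕ)
    have h5 := H.Bf_zpow hc.symm (⌈β * n / nm X b⌉₊ : ℕ)
    simp only [Int.cast_natCast, zpow_natCast] at h4 h5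
    rw [← Real.sqrt_sq (dist_nonneg (x := a ^ ⌈α * n / nm X a⌉₊ • y)), ccone_sqrt, h4, h5,
      H.Bf_eq_cos hc.symm ha hb]
    congr 1
    ring

/-- `P = Fin 6 × ℝ`, the point `(i, α)` is the sequence `n ↦ r i ^ ⌈α n / |r i|⌉₊ • x`, and
`ρ p q` is the limit along `hyperfilter ℕ` of the bounded sequence `dist (p n) (q n) / n` (for `n ≥ 1` it is
at most `C (|α| + |β| + 1)`).  `PM ρ` follows from `cn4` (homogeneous of degree one) by continuity;
`tendsto_comm` and `hlg` give the hypotheses of `PM.hexagon`. -/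
theorem Geo.no_hex [ProperSpace X] [Nonempty X] (H : Geo G X) (r : Fin 6 → G)
    (hc : ∀ i, Commute (r i) (r (i + 1))) (hpos : ∀ i, 0 < nm X (r i))
    (hang : ∀ i, 0 < ang X (r i) (r (i + 1)) ∧ ang X (r i) (r (i + 1)) < π / 3) (x : X)
    (hlg : ∀ i, ∃ K : ℝ, ∀ m n : ℕ, 0 < m → 0 < n →
      √((m * nm X (r i)) ^ 2 + (n * nm X (r (i + 2))) ^ 2
        - 2 * (m * nm X (r i)) * (n * nm X (r (i + 2)))
          * cos (ang X (r i) (r (i + 1)) + ang X (r (i + 1)) (r (i + 2))))
        ≤ dist (r i ^ m • x) (r (i + 2) ^ n • x) + K) : False := by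
  set s : Fin 6 × ℝ → ℕ → X := fun p n => r p.1 ^ ⌈|p.2| * n / nm X (r p.1)⌉₊ • x with hs
  have hF : (hyperfilter ℕ : Filter ℕ) ≤ atTop := Nat.hyperfilter_le_atTop
  have ex : ∀ p q, ∃ L, Tendsto (fun n : ℕ => dist (s p n) (s q n) / n) (hyperfilter ℕ) (𝓝 L) := by
    intro p q
    have h1 := ((H.ccone_ray (hpos p.1) x (abs_nonneg p.2)).add
      (H.ccone_ray (hpos q.1) x (abs_nonneg q.2))).eventually_le_const (lt_add_one _)
    obtain ⟨L, -, hL⟩ := (isCompact_Icc (a := (0 : ℝ)) (b := |p.2| + |q.2| + 1)).ultrafilter_le_nhds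
      ((hyperfilter ℕ).map fun n : ℕ => dist (s p n) (s q n) / n) (by
        rw [Ultrafilter.coe_map, le_principal_iff, mem_map]
        filter_upwards [hF h1] with n hn
        refine ⟨by positivity, le_trans ?_ hn⟩
        rw [← add_div]
        exact div_le_div_of_nonneg_right (dist_triangle_left _ _ _) (Nat.cast_nonneg n))
    exact ⟨L, hL⟩
  choose ρ hρ using ex
  have h0 : ∀ p q, 0 ≤ ρ p q := fun p q => ge_of_tendsto' (hρ p q) fun n => by positivity
  have hPM : PM ρ := by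
    refine ⟨h0, fun p q => tendsto_nhds_unique (hρ p q) ((hρ q p).congr fun n => by rw [dist_comm]),
      fun p q w => le_of_tendsto_of_tendsto' (hρ p w) ((hρ p q).add (hρ q w)) fun n => ?_,
      fun a b c d t t0 t1 => le_of_tendsto_of_tendsto' (hρ b d)
        ((((((hρ a b).pow 2).const_mul (1 - t)).add (((hρ c b).pow 2).const_mul t)).sub
          (((hρ a c).pow 2).const_mul (t * (1 - t)))).sqrt.add
        (((((hρ a d).pow 2).const_mul (1 - t)).add (((hρ c d).pow 2).const_mul t)).sub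
          (((hρ a c).pow 2).const_mul (t * (1 - t)))).sqrt) fun n => ?_⟩
    · rw [← add_div]
      exact div_le_div_of_nonneg_right (dist_triangle _ _ _) (Nat.cast_nonneg n)
    · refine (div_le_div_of_nonneg_right (cn4 H.cat (s a n) (s b n) (s c n) (s d n) t0 t1)
        (Nat.cast_nonneg n)).trans_eq ?_
      rw [add_div, ccone_sqrt, ccone_sqrt]
      congr 2 <;> ring
  refine hPM.hexagon (fun i α => (i, α)) (fun i => ang X (r i) (r (i + 1))) hang
    (fun i α β hα hβ => ?_) fun i α β hα hβ => ?_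
  · have h1 := (H.tendsto_comm (hc i) (hpos i) (hpos (i + 1)) x hα hβ).mono_left hF
    have h2 := hρ (i, α) (i + 1, β)
    simp only [hs, abs_of_pos hα, abs_of_pos hβ] at h2
    rw [tendsto_nhds_unique h2 h1, Real.sq_sqrt]
    nlinarith [mul_le_mul_of_nonneg_left (cos_le_one (ang X (r i) (r (i + 1)))) (mul_pos hα hβ).le,
      sq_nonneg (α - β)]
  · obtain ⟨K, hK⟩ := hlg i
    have e : i + 1 + 1 = i + 2 := by rw [add_assoc]; rfl
    have h1 := ccone_ceil (hpos i) hα.le
    have h2 := ccone_ceil (hpos (i + 2)) hβ.le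
    have h3 := hρ (i, α) (i + 2, β)
    simp only [hs, abs_of_pos hα, abs_of_pos hβ] at h3
    have h4 := h3.add ((tendsto_const_div_atTop_nhds_zero_nat K).mono_left hF)
    rw [add_zero] at h4
    rw [e, ← Real.sqrt_le_left (h0 _ _)]
    refine le_of_tendsto_of_tendsto ((((h1.pow 2).add (h2.pow 2)).sub
      (((h1.const_mul 2).mul h2).mul_const _)).sqrt.mono_left hF) h4 ?_
    filter_upwards [hF (eventually_gt_atTop 0)] with n hn
    have hn' : (0 : ℝ) < n := by exact_mod_cast hn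
    have h5 := hK _ _ (Nat.ceil_pos.2 (div_pos (mul_pos hα hn') (hpos i)))
      (Nat.ceil_pos.2 (div_pos (mul_pos hβ hn') (hpos (i + 2))))
    rw [← add_div]
    refine le_trans (le_of_eq ?_) (div_le_div_of_nonneg_right h5 hn'.le)
    rw [ccone_sqrt]
    congr 1
    ring

end Crest.Agent.R175C
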