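import Crest.Agent.R175.CArt

/-!
# R175/CMat: the Coxeter matrices
-/

set_option autoImplicit false

namespace Crest.Agent.R175C

open Crest.GroupTheory

/-- labels of a leaf: a chain `0, …, 9` (braid group `B₁₁`) and free generators -/
def labK (a b : ℕ) : ℕ := if a < 10 ∧ b < 10 then (if a + 1 = b ∨ b + 1 = a then 3 else 2) else 0

theorem labK_symm (a b : ℕ) : labK a b = labK b a := by
  unfold labK; split_ifs <;> omega

theorem labK_mem (a b : ℕ) : labK a b = 0 ∨ labK a b = 2 ∨ labK a b = 3 := by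
  unfold labK; split_ifs <;> omega

/-- the leaf matrix -/
def MK : CoxeterMatrix (Fin 40) :=
  mkCM (fun a b => labK a b) (fun _ _ => labK_symm _ _) (fun a b => by have := labK_mem a b; omega)

/-- symmetric index set (117 generators) -/
abbrev SS : Type := Fin 3 × Fin 39

def labS (p q : SS) : ℕ :=
  if p.2 = 0 ∧ q.2 = 0 then 3
  else if p.1 = q.1 then labK (if p.2 = 0 then 0 else p.2 + 1) (if q.2 = 0 then 0 else q.2 + 1)
  else if p.2 = 0 ∧ p.1 = q.1 + 1 then labK 1 (q.2 + 1)
  else if q.2 = 0 ∧ q.1 = p.1 + 1 then labK (p.2 + 1) 1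
  else 0

theorem labS_symm (p q : SS) : labS p q = labS q p := by
  revert p q
  decide +kernel

theorem labS_mem (p q : SS) : labS p q = 0 ∨ labS p q = 2 ∨ labS p q = 3 := by
  unfold labS
  split_ifs <;> first | exact labK_mem _ _ | simp

def MS : CoxeterMatrix SS := mkCM labS labS_symm (fun a b => by have := labS_mem a b; omega)

/-- the `i`-th leaf -/
def emb (i : Fin 3) (a : Fin 40) : SS :=
  if a = 0 then (i, 0) else if a = 1 then (i + 1, 0) else (i, ⟨a - 1, by omega⟩)

def rot (p : SS) : SS := (p.1 + 1, p.2)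

theorem lab_MK : Lab23 MK := by
  intro s t h
  rw [MK, mkCM_apply, if_neg h]
  exact labK_mem _ _

theorem lab_MS : Lab23 MS := by
  intro s t h
  rw [MS, mkCM_apply, if_neg h]
  exact labS_mem _ _

theorem MS_emb (i : Fin 3) (a b : Fin 40) : MS.M (emb i a) (emb i b) = MK.M a b := by
  rw [MS, MK, mkCM_apply, mkCM_apply]
  revert i a b
  decide +kernel

/-- the position of `p` in the `i`-th leaf -/
def cmat_un (i : Fin 3) (p : SS) : Fin 40 :=
  if p.2 = 0 then (if p.1 = i then 0 else 1) else p.2.succ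

theorem cmat_cases : ∀ p q : SS, (if p = q then 1 else labS p q) ≠ 0 →
    ∃ i, p = emb i (cmat_un i p) ∧ q = emb i (cmat_un i q) := by
  decide +kernel

theorem MS_cases (p q : SS) (h : MS.M p q ≠ 0) : ∃ i a b, p = emb i a ∧ q = emb i b := by
  rw [MS, mkCM_apply] at h
  obtain ⟨i, h1, h2⟩ := cmat_cases p q h
  exact ⟨i, _, _, h1, h2⟩

theorem MS_rot (p q : SS) : MS.M (rot p) (rot q) = MS.M p q := by
  rw [MS, mkCM_apply, mkCM_apply]
  revert p q
  decide +kernel

theorem rot_emb (i : Fin 3) (a : Fin 40) : rot (emb i a) = emb (i + 1) a := by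
  revert i a
  decide +kernel

/-- the only coincidences between different leaves -/
theorem emb_eq {i j : Fin 3} {a b : Fin 40} (h : emb i a = emb j b) :
    (i = j ∧ a = b) ∨ (a = 0 ∧ b = 1 ∧ i = j + 1) ∨ (a = 1 ∧ b = 0 ∧ j = i + 1) := by
  revert i j a b
  decide +kernel

/-- the generators that are kept -/
def keep (p : SS) : Prop := p ≠ (2, 38)

instance : DecidablePred keep := fun p => inferInstanceAs (Decidable (p ≠ (2, 38)))

theorem card_keep : Fintype.card {p // keep p} = 116 := by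
  have : Fintype.card {p // keep p} = Fintype.card {p : SS // ¬p = (2, 38)} :=
    Fintype.card_congr (Equiv.refl _)
  rw [this, Fintype.card_subtype_compl, Fintype.card_subtype_eq]
  simp

theorem MS_free (p q : SS) (hp : ¬ keep p) (hpq : p ≠ q) : MS.M p q = 0 := by
  obtain rfl : p = (2, 38) := not_not.1 hp
  rw [MS, mkCM_apply, if_neg hpq]
  clear hp hpq
  revert q
  decide +kernel

theorem keep_emb (i : Fin 3) (a : Fin 40) (ha : (a : ℕ) < 10) : keep (emb i a) := by
  revert i a
  decide +kernel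

/-- the leaf homomorphisms -/
theorem exists_leaf (i : Fin 3) :
    ∃ φ : ArtinGroup MK →* ArtinGroup MS, ∀ a, φ (artinGen MK a) = artinGen MS (emb i a) :=
  exists_lift lab_MK _ (fun s t h => gen_comm ((MS_emb i s t).trans h))
    fun s t h => gen_braid ((MS_emb i s t).trans h)

/-- the rotation automorphism (inverse: rotate twice) -/
theorem exists_rot : ∃ ρ : MulAut (ArtinGroup MS), (∀ p, ρ (artinGen MS p) = artinGen MS (rot p)) ∧ ρ ^ 3 = 1 := by
  obtain ⟨r, hr⟩ := exists_lift lab_MS (fun p => artinGen MS (rot p))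
    (fun s t h => gen_comm ((MS_rot s t).trans h)) fun s t h => gen_braid ((MS_rot s t).trans h)
  have h3 : ∀ p, rot (rot (rot p)) = p := by decide +kernel
  have e : r.comp (r.comp r) = MonoidHom.id _ :=
    hom_ext fun s => by simp only [MonoidHom.comp_apply, hr, h3, MonoidHom.id_apply]
  refine ⟨MonoidHom.toMulEquiv r (r.comp r) e e, hr, MulEquiv.ext fun x => ?_⟩
  exact DFunLike.congr_fun e x

/-- universal property: three leaves glued cyclically (define `f p` by `f (i, 0) = φ i (σ 0)`,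
`f (i, a) = φ i (σ (a + 1))`; `MS_cases`, `MS_emb`) -/
theorem exists_glue {Γ : Type*} [Group Γ] (φ : Fin 3 → (ArtinGroup MK →* Γ))
    (h : ∀ i, φ i (artinGen MK 1) = φ (i + 1) (artinGen MK 0)) :
    ∃ Φ : ArtinGroup MS →* Γ, ∀ i a, Φ (artinGen MS (emb i a)) = φ i (artinGen MK a) := by
  have key : ∀ i a, φ (emb i a).1 (artinGen MK (cmat_un (emb i a).1 (emb i a))) =
      φ i (artinGen MK a) := by
    intro i a
    have h1 : ∀ (i : Fin 3) (a : Fin 40), ((emb i a).1 = i ∧ cmat_un i (emb i a) = a) ∨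
        (a = 1 ∧ (emb i a).1 = i + 1 ∧ cmat_un (i + 1) (emb i a) = 0) := by decide +kernel
    rcases h1 i a with ⟨e1, e2⟩ | ⟨e0, e1, e2⟩
    · rw [e1, e2]
    · rw [e1, e2, e0, h]
  obtain ⟨Φ, hΦ⟩ := exists_lift lab_MS (fun p => φ p.1 (artinGen MK (cmat_un p.1 p)))
    (fun s t hst => by
      obtain ⟨i, a, b, rfl, rfl⟩ := MS_cases s t (by omega)
      rw [key, key]
      exact (gen_comm ((MS_emb i a b).symm.trans hst)).map _)
    (fun s t hst => by
      obtain ⟨i, a, b, rfl, rfl⟩ := MS_cases s t (by omega)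
      rw [key, key]
      exact (gen_braid ((MS_emb i a b).symm.trans hst)).map _)
  exact ⟨Φ, fun i a => (hΦ _).trans (key i a)⟩

theorem emb_surj (p : SS) : ∃ i a, p = emb i a := by
  obtain ⟨i, a, -, h, -⟩ := MS_cases p p (by rw [MS.diagonal]; exact one_ne_zero)
  exact ⟨i, a, h⟩

end Crest.Agent.R175C
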