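import Crest.Agent.R175.CRep

/-!
# R175/CRepB: the wall in the centraliser of `(s t)³`
-/

set_option autoImplicit false

namespace Crest.Agent.R175C

open Crest.GroupTheory Matrix MatrixGroups

variable {S : Type} {M : CoxeterMatrix S} {s t : S}

theorem crb_comm (hst : M.M s t = 3) {x : ArtinGroup M}
    (hx : x ∈ Subgroup.closure {artinGen M s, artinGen M t}) :
    Commute x ((artinGen M s * artinGen M t) ^ 3) := by
  induction hx using Subgroup.closure_induction with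
  | mem x hx =>
    rcases hx with rfl | rfl
    · exact (gen_braid hst).comm_left
    · exact (gen_braid hst).comm_right
  | one => exact Commute.one_left _
  | mul x y _ _ hx hy => exact hx.mul_left hy
  | inv x _ hx => exact hx.inv_left

theorem crb_mem {G : Type*} [Group G] {c g : G} :
    c ∈ Subgroup.centralizer ({g} : Set G) ↔ Commute c g := Subgroup.mem_centralizer_singleton_iff

theorem crb_s_mem : artinGen M s ∈ Subgroup.closure {artinGen M s, artinGen M t} :=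
  Subgroup.subset_closure (Or.inl rfl)

theorem crb_t_mem : artinGen M t ∈ Subgroup.closure {artinGen M s, artinGen M t} :=
  Subgroup.subset_closure (Or.inr rfl)

theorem crb_setup (ρ : Rep M s t) (hst : M.M s t = 3) :
    ∃ (β : B3 →* ArtinGroup M) (ψ : B3 →* SL(2, ℤ)), β s0 = artinGen M s ∧ β t0 = artinGen M t ∧
      β.range = Subgroup.closure {artinGen M s, artinGen M t} ∧ ψ s0 = mS ∧ ψ t0 = mT ∧
      ∀ b, (ψ b).1 = ρ.mat (β b) := by
  obtain ⟨β, hs, ht, hr⟩ := B3_lift (gen_braid hst)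
  obtain ⟨ψ, hψ⟩ := ρ.exists_psiC
  have hm : ∀ b, β b ∈ Subgroup.centralizer ({(artinGen M s * artinGen M t) ^ 3} : Set (ArtinGroup M)) :=
    fun b => crb_mem.2 (crb_comm hst (hr ▸ ⟨b, rfl⟩))
  have h : ∀ b, ((ψ.comp (β.codRestrict _ hm)) b).1 = ρ.mat (β b) := fun b => hψ _
  refine ⟨β, ψ.comp (β.codRestrict _ hm), hs, ht, hr, Subtype.ext ?_, Subtype.ext ?_, h⟩
  · rw [h, hs, ρ.mat_s]
  · rw [h, ht, ρ.mat_t]

theorem crb_len (hM : Lab23 M) {x y c : ArtinGroup M} {m : ℤ} (h : x = c * y * c⁻¹)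
    (hy : y = x * ((artinGen M s * artinGen M t) ^ 3) ^ m) : m = 0 := by
  obtain ⟨len, hlen⟩ := exists_len hM
  have h1 := congrArg (fun g => Multiplicative.toAdd (len g)) h
  have h2 := congrArg (fun g => Multiplicative.toAdd (len g)) hy
  simp only [map_mul, map_inv, map_zpow, map_pow, hlen, toAdd_mul, toAdd_inv, toAdd_zpow, toAdd_pow,
    toAdd_ofAdd, smul_eq_mul, nsmul_eq_mul] at h1 h2
  push_cast at h2
  omega

/-- two elements of `⟨σ s, σ t⟩` with the same matrix differ by a power of `D`: lift to `B3` (`B3_lift`), the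
composite `B3 → centraliser → SL(2,ℤ)` sends `s0, t0` to `mS, mT`; `psi_ker`. -/
theorem Rep.eq_mul_zpow (ρ : Rep M s t) (hst : M.M s t = 3) {x y : ArtinGroup M}
    (hx : x ∈ Subgroup.closure {artinGen M s, artinGen M t})
    (hy : y ∈ Subgroup.closure {artinGen M s, artinGen M t}) (h : ρ.mat x = ρ.mat y) :
    ∃ m : ℤ, x = y * ((artinGen M s * artinGen M t) ^ 3) ^ m := by
  obtain ⟨β, ψ, hs, ht, hr, ps, pt, hψ⟩ := crb_setup ρ hst
  rw [← hr] at hx hy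
  obtain ⟨a, rfl⟩ := hx
  obtain ⟨b, rfl⟩ := hy
  have h1 : ψ a = ψ b := Subtype.ext (by rw [hψ, hψ, h])
  obtain ⟨m, hm⟩ := psi_ker ψ ps pt (g := b⁻¹ * a) (by rw [map_mul, map_inv, h1, inv_mul_cancel])
  refine ⟨m, ?_⟩
  have h2 := congrArg β hm
  simp only [D0, map_zpow, map_pow, map_mul, map_inv, hs, ht] at h2
  rw [h2, mul_inv_cancel_left]

/-- the kernel lies in `zpowers D0` (`psi_ker`), and the length of `D` is `6` -/
theorem beta_inj [Finite S] (hM : Lab23 M) (hst : M.M s t = 3) (β : B3 →* ArtinGroup M)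
    (hs : β s0 = artinGen M s) (ht : β t0 = artinGen M t) : Function.Injective β := by
  obtain ⟨ρ⟩ := exists_rep hM hst
  obtain ⟨β', ψ, hs', ht', -, ps, pt, hψ⟩ := crb_setup ρ hst
  obtain rfl : β = β' := B3_ext (hs.trans hs'.symm) (ht.trans ht'.symm)
  refine (injective_iff_map_eq_one β).2 fun g hg => ?_
  have h1 : ψ g = ψ 1 := Subtype.ext (by rw [hψ, hψ, hg, map_one])
  obtain ⟨m, hm⟩ := psi_ker ψ ps pt (h1.trans (map_one ψ))
  have h2 := congrArg β hm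
  simp only [D0, map_zpow, map_pow, map_mul, hs, ht, hg] at h2
  have h3 : m = 0 := crb_len (s := s) (t := t) hM (x := 1) (y := 1) (c := 1) (by simp) (by rw [h2, one_mul])
  rw [← hm, h3]
  exact zpow_zero _

theorem crb_R_mul (ρ : Rep M s t) (g h : ArtinGroup M) (v : ρ.V) : ρ.R (g * h) v = ρ.R g (ρ.R h v) := by
  rw [map_mul]
  rfl

theorem crb_R_inv (ρ : Rep M s t) (g : ArtinGroup M) (v : ρ.V) : ρ.R g (ρ.R g⁻¹ v) = v := by
  rw [← crb_R_mul, mul_inv_cancel, map_one]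
  rfl

theorem crb_R_inv' (ρ : Rep M s t) (g : ArtinGroup M) (v : ρ.V) : ρ.R g⁻¹ (ρ.R g v) = v := by
  rw [← crb_R_mul, inv_mul_cancel, map_one]
  rfl

theorem crb_skew (ρ : Rep M s t) (v w : ρ.V) : ρ.Ω v w = -ρ.Ω w v := by
  have h := ρ.alt (v + w)
  simp only [map_add, LinearMap.add_apply, ρ.alt] at h
  linarith

theorem crb_conj (ρ : Rep M s t) (g : ArtinGroup M) (z : S) (v : ρ.V) :
    ρ.R (g * artinGen M z * g⁻¹) v = v + ρ.Ω v (ρ.R g (ρ.a z)) • ρ.R g (ρ.a z) := by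
  rw [crb_R_mul, crb_R_mul, ρ.R_gen, map_add, map_smul, crb_R_inv, ← ρ.R_form g, crb_R_inv]

theorem crb_unip (ρ : Rep M s t) {Z : Set S} (hZ : ∀ z ∈ Z, ∀ z' ∈ Z, ρ.Ω (ρ.a z) (ρ.a z') = 0)
    {k : ArtinGroup M} (hk : k ∈ stdParabolic M Z) :
    (∀ w ∈ Submodule.span ℤ (ρ.a '' Z), ρ.R k w = w) ∧ ∀ v, ρ.R k v - v ∈ Submodule.span ℤ (ρ.a '' Z) := by
  induction hk using Subgroup.closure_induction with
  | mem x hx =>
    obtain ⟨z, hz, rfl⟩ := hx
    constructor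
    · intro w hw
      have h : Submodule.span ℤ (ρ.a '' Z) ≤ LinearMap.ker (ρ.Ω.flip (ρ.a z)) := by
        rw [Submodule.span_le]
        rintro _ ⟨z', hz', rfl⟩
        exact hZ z' hz' z hz
      have h1 : ρ.Ω w (ρ.a z) = 0 := h hw
      rw [ρ.R_gen, h1, zero_smul, add_zero]
    · intro v
      rw [ρ.R_gen, add_sub_cancel_left]
      exact Submodule.smul_mem _ _ (Submodule.subset_span ⟨z, hz, rfl⟩)
  | one => simp
  | mul x y _ _ hx hy =>
    constructor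
    · intro w hw
      rw [crb_R_mul, hy.1 w hw, hx.1 w hw]
    · intro v
      rw [crb_R_mul, ← sub_add_sub_cancel _ (ρ.R y v)]
      exact Submodule.add_mem _ (hx.2 _) (hy.2 _)
  | inv x _ hx =>
    constructor
    · intro w hw
      conv_lhs => rw [← hx.1 w hw]
      exact crb_R_inv' ρ x w
    · intro v
      have h := hx.2 (ρ.R x⁻¹ v)
      rw [crb_R_inv] at h
      rw [← neg_sub]
      exact Submodule.neg_mem _ h

theorem crb_exists_pair (ρ : Rep M s t) {Z : Set S} {g k : ArtinGroup M} (hk : k ∈ stdParabolic M Z)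
    (h : g * k * g⁻¹ = (artinGen M s * artinGen M t) ^ 3) :
    ∃ z ∈ Z, ∃ z' ∈ Z, ρ.Ω (ρ.a z) (ρ.a z') = 1 := by
  by_contra hc
  push Not at hc
  have hZ : ∀ z ∈ Z, ∀ z' ∈ Z, ρ.Ω (ρ.a z) (ρ.a z') = 0 := by
    intro z hz z' hz'
    rcases ρ.val z z' with h | h | h
    · exact h
    · exact absurd h (hc z hz z' hz')
    · exact absurd (by rw [crb_skew, h, neg_neg]) (hc z' hz' z hz)
  obtain ⟨h1, h2⟩ := crb_unip ρ hZ hk
  have hD : ρ.R ((artinGen M s * artinGen M t) ^ 3) (ρ.a s) = -ρ.a s := by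
    rw [ρ.R_D, ρ.st, ρ.alt]
    module
  have hk' : k = g⁻¹ * (artinGen M s * artinGen M t) ^ 3 * g := by
    rw [← h]
    group
  have h3 : ρ.R k (ρ.R g⁻¹ (ρ.a s)) = -ρ.R g⁻¹ (ρ.a s) := by
    rw [hk', crb_R_mul, crb_R_mul, crb_R_inv, hD, map_neg]
  have h4 := h1 _ (h2 (ρ.R g⁻¹ (ρ.a s)))
  rw [map_sub, h3, map_neg, h3] at h4
  have h5 := congrArg (fun v => ρ.Ω v (ρ.R g⁻¹ (ρ.a t))) h4
  simp only [map_sub, map_neg, LinearMap.sub_apply, LinearMap.neg_apply, ρ.R_form, ρ.st] at h5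
  omega

theorem crb_exists_k (ρ : Rep M s t) (hst : M.M s t = 3) {p q : ρ.V} (hp : p ∈ ρ.L) (hq : q ∈ ρ.L)
    (h : ρ.Ω p q = 1) :
    ∃ k ∈ Subgroup.closure {artinGen M s, artinGen M t}, ρ.R k (ρ.a s) = p ∧ ρ.R k (ρ.a t) = q := by
  obtain ⟨β, ψ, hs, ht, hr, ps, pt, hψ⟩ := crb_setup ρ hst
  have hp' := ρ.mem_L.1 hp
  have hq' := ρ.mem_L.1 hq
  have hdet : Matrix.det !![ρ.Ω p (ρ.a t), ρ.Ω q (ρ.a t); ρ.Ω (ρ.a s) p, ρ.Ω (ρ.a s) q] = 1 := by
    have h1 := congrArg (fun v => ρ.Ω p v) hq'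
    simp only [map_add, map_smul, smul_eq_mul, h] at h1
    rw [crb_skew ρ p (ρ.a s)] at h1
    rw [Matrix.det_fin_two_of]
    linarith
  obtain ⟨b, hb⟩ := psi_surj ψ ps pt ⟨_, hdet⟩
  have hk : β b ∈ Subgroup.closure {artinGen M s, artinGen M t} := hr ▸ ⟨b, rfl⟩
  have hm := hψ b
  rw [hb] at hm
  have e00 : ρ.Ω p (ρ.a t) = ρ.Ω (ρ.R (β b) (ρ.a s)) (ρ.a t) := congrFun (congrFun hm 0) 0
  have e01 : ρ.Ω q (ρ.a t) = ρ.Ω (ρ.R (β b) (ρ.a t)) (ρ.a t) := congrFun (congrFun hm 0) 1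
  have e10 : ρ.Ω (ρ.a s) p = ρ.Ω (ρ.a s) (ρ.R (β b) (ρ.a s)) := congrFun (congrFun hm 1) 0
  have e11 : ρ.Ω (ρ.a s) q = ρ.Ω (ρ.a s) (ρ.R (β b) (ρ.a t)) := congrFun (congrFun hm 1) 1
  have ls : ρ.a s ∈ ρ.L := Submodule.subset_span (Or.inl rfl)
  have lt : ρ.a t ∈ ρ.L := Submodule.subset_span (Or.inr rfl)
  refine ⟨β b, hk, ?_, ?_⟩
  · rw [ρ.mem_L.1 (ρ.comm_mem_L (crb_comm hst hk) ls), ← e00, ← e10, ← hp']
  · rw [ρ.mem_L.1 (ρ.comm_mem_L (crb_comm hst hk) lt), ← e01, ← e11, ← hq']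

/-- A parabolic subgroup `P = g A_Z g⁻¹` inside `A = ⟨σ s, σ t⟩` containing `D` is everything.
For `z ∈ Z`, `g σ_z g⁻¹ ∈ A` acts as the transvection along `g (a z)`, so `g (a z) ∈ L` (`sub_mem_L`, `prim`).
If `Ω (a z) (a z') = 0` for all `z, z' ∈ Z`, every `k ∈ A_Z` fixes all `a z` and moves vectors by elements of
`span {a z}`, so `(k - 1)² = 0`; but `(D - 1)² (a s) = 4 a s ≠ 0`.  So (swap if necessary) `Ω p q = 1` for
`p = g (a z)`, `q = g (a z')` in `L`; by `psi_surj` some `k ∈ A` has `k (a s) = p`, `k (a t) = q`.  Then `k σ_s k⁻¹` and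
`g σ_z g⁻¹` act in the same way, so `k σ_s k⁻¹ ∈ P` by `eq_mul_zpow`; same for `t`; so `k A k⁻¹ = A ≤ P`. -/
theorem parab_all [Finite S] (hM : Lab23 M) (hst : M.M s t = 3) {P : Subgroup (ArtinGroup M)}
    (hP : IsParabolic M P) (hle : P ≤ Subgroup.closure {artinGen M s, artinGen M t})
    (hD : (artinGen M s * artinGen M t) ^ 3 ∈ P) : artinGen M s ∈ P ∧ artinGen M t ∈ P := by
  obtain ⟨ρ⟩ := exists_rep hM hst
  obtain ⟨Z, g, hP⟩ := hP
  have hy : ∀ z ∈ Z, g * artinGen M z * g⁻¹ ∈ P := fun z hz =>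
    hP ▸ ⟨artinGen M z, Subgroup.subset_closure ⟨z, hz, rfl⟩, rfl⟩
  have hL : ∀ z ∈ Z, ρ.R g (ρ.a z) ∈ ρ.L := by
    intro z hz
    obtain ⟨v, hv⟩ := ρ.prim z
    have h := ρ.sub_mem_L (hle (hy z hz)) (ρ.R g v)
    rwa [crb_conj, ρ.R_form, hv, one_smul, add_sub_cancel_left] at h
  obtain ⟨k₀, hk₀, hk₀'⟩ := hP ▸ hD
  obtain ⟨z, hz, z', hz', hzz⟩ := crb_exists_pair ρ (g := g) hk₀ hk₀'
  obtain ⟨k, hk, hp, hq⟩ := crb_exists_k ρ hst (hL z hz) (hL z' hz') (by rw [ρ.R_form, hzz])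
  have key : ∀ u, ∀ z ∈ Z, artinGen M u ∈ Subgroup.closure {artinGen M s, artinGen M t} →
      ρ.R k (ρ.a u) = ρ.R g (ρ.a z) → k * artinGen M u * k⁻¹ ∈ P := by
    intro u z hz hu h
    obtain ⟨m, hm⟩ := ρ.eq_mul_zpow hst (x := k * artinGen M u * k⁻¹)
      (Subgroup.mul_mem _ (Subgroup.mul_mem _ hk hu) (Subgroup.inv_mem _ hk)) (hle (hy z hz))
      (by simp only [Rep.mat, crb_conj, h])
    rw [hm]
    exact P.mul_mem (hy z hz) (P.zpow_mem hD m)
  have all : ∀ x ∈ Subgroup.closure {artinGen M s, artinGen M t}, k * x * k⁻¹ ∈ P := by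
    intro x hx
    have h : Subgroup.closure {artinGen M s, artinGen M t} ≤ P.comap (MulAut.conj k).toMonoidHom := by
      rw [Subgroup.closure_le]
      rintro _ (rfl | rfl)
      · exact key s z hz crb_s_mem hp
      · exact key t z' hz' crb_t_mem hq
    exact h hx
  have fin : ∀ x ∈ Subgroup.closure {artinGen M s, artinGen M t}, x ∈ P := by
    intro x hx
    have h := all (k⁻¹ * x * k) (Subgroup.mul_mem _ (Subgroup.mul_mem _ (Subgroup.inv_mem _ hk) hx) hk)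
    rwa [show k * (k⁻¹ * x * k) * k⁻¹ = x by group] at h
  exact ⟨fin _ crb_s_mem, fin _ crb_t_mem⟩

/-- `A ⊓ c A c⁻¹` is parabolic, inside `A`, contains `D`; so `σ s = c y c⁻¹` with `y ∈ A`, `mat y = mat (σ s)`,
`y = σ s * D ^ m`, and the length forces `m = 0`. -/
theorem comm_of_mat [Finite S] (hM : Lab23 M) (hst : M.M s t = 3)
    (hInt : ∀ P Q, IsParabolic M P → IsParabolic M Q → IsParabolic M (P ⊓ Q)) (ρ : Rep M s t)
    {c : ArtinGroup M} (hc : Commute c ((artinGen M s * artinGen M t) ^ 3)) (h1 : ρ.mat c = 1) :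
    Commute c (artinGen M s) ∧ Commute c (artinGen M t) := by
  have hA : stdParabolic M {s, t} = Subgroup.closure {artinGen M s, artinGen M t} := by
    rw [stdParabolic, Set.image_pair]
  have p1 : IsParabolic M (Subgroup.closure {artinGen M s, artinGen M t}) := by
    refine ⟨{s, t}, 1, ?_⟩
    rw [hA]
    ext x
    simp
  have p2 : IsParabolic M ((Subgroup.closure {artinGen M s, artinGen M t}).map (MulAut.conj c).toMonoidHom) :=
    ⟨{s, t}, c, by rw [hA]⟩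
  have hDA : (artinGen M s * artinGen M t) ^ 3 ∈ Subgroup.closure {artinGen M s, artinGen M t} :=
    Subgroup.pow_mem _ (Subgroup.mul_mem _ crb_s_mem crb_t_mem) 3
  obtain ⟨hs, ht⟩ := parab_all hM hst (hInt _ _ p1 p2) inf_le_left
    ⟨hDA, _, hDA, by
      change c * (artinGen M s * artinGen M t) ^ 3 * c⁻¹ = _
      rw [hc.eq, mul_inv_cancel_right]⟩
  obtain ⟨ψ, hψ⟩ := ρ.exists_psiC
  have hc1 : ψ ⟨c, crb_mem.2 hc⟩ = 1 := Subtype.ext ((hψ _).trans h1)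
  have key : ∀ x ∈ Subgroup.closure {artinGen M s, artinGen M t} ⊓
      (Subgroup.closure {artinGen M s, artinGen M t}).map (MulAut.conj c).toMonoidHom, Commute c x := by
    rintro x ⟨hx, y, hy, hxy⟩
    replace hxy : x = c * y * c⁻¹ := hxy.symm
    have e : (⟨x, crb_mem.2 (crb_comm hst hx)⟩ : Subgroup.centralizer {(artinGen M s * artinGen M t) ^ 3}) =
        ⟨c, crb_mem.2 hc⟩ * ⟨y, crb_mem.2 (crb_comm hst hy)⟩ * ⟨c, crb_mem.2 hc⟩⁻¹ := Subtype.ext hxy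
    have e2 := congrArg ψ e
    rw [map_mul, map_mul, map_inv, hc1, one_mul, inv_one, mul_one] at e2
    have e3 := congrArg Subtype.val e2
    rw [hψ, hψ] at e3
    obtain ⟨m, hm⟩ := ρ.eq_mul_zpow hst hy hx e3.symm
    have hm0 := crb_len hM hxy hm
    rw [hm0, zpow_zero, mul_one] at hm
    rw [hm] at hxy
    exact (eq_mul_inv_iff_mul_eq.1 hxy).symm
  exact ⟨key _ hs, key _ ht⟩

/-- `side c = (c commutes with D and sideM (ψ c))`.  For `f` the set of `ψ c` with a change of side is finite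
(`sideM_finite`); choose one preimage `e` of each, then `c * e⁻¹` is in the kernel. -/
theorem sep_D [Finite S] (hM : Lab23 M) (hst : M.M s t = 3)
    (hInt : ∀ P Q, IsParabolic M P → IsParabolic M Q → IsParabolic M (P ⊓ Q)) :
    Sep ((artinGen M s * artinGen M t) ^ 3) (artinGen M s) (artinGen M t)
      {l | Commute l (artinGen M s) ∧ Commute l (artinGen M t)} := by
  obtain ⟨ρ⟩ := exists_rep hM hst
  obtain ⟨ψ, hψ⟩ := ρ.exists_psiC
  have hside : ∀ c : Subgroup.centralizer ({(artinGen M s * artinGen M t) ^ 3} : Set (ArtinGroup M)),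
      (∃ h, sideM (ψ ⟨c.1, h⟩)) ↔ sideM (ψ c) := fun c => ⟨fun ⟨_, h⟩ => h, fun h => ⟨c.2, h⟩⟩
  refine ⟨fun c => ∃ h, sideM (ψ ⟨c, h⟩), fun i j hi hj h => ?_, fun f hf => ?_⟩
  · have es : ψ ⟨_, crb_mem.2 (crb_comm hst crb_s_mem)⟩ = mS := Subtype.ext ((hψ _).trans ρ.mat_s)
    have et : ψ ⟨_, crb_mem.2 (crb_comm hst crb_t_mem)⟩ = mT := Subtype.ext ((hψ _).trans ρ.mat_t)
    have h1 := hside (⟨_, crb_mem.2 (crb_comm hst crb_s_mem)⟩ ^ i)
    have h2 := hside (⟨_, crb_mem.2 (crb_comm hst crb_t_mem)⟩ ^ j)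
    rw [map_pow, es] at h1
    rw [map_pow, et] at h2
    exact sideM_S i hi (h1.1 (h.2 (h2.2 (sideM_T j hj))))
  · refine ⟨_, (sideM_finite (ψ ⟨f, crb_mem.2 hf⟩)).image fun A => (Function.invFun ψ A).1, fun c hc h => ?_⟩
    have h1 := hside ⟨c, crb_mem.2 hc⟩
    have h2 := hside (⟨c, crb_mem.2 hc⟩ * ⟨f, crb_mem.2 hf⟩)
    rw [map_mul] at h2
    have h3 : ψ (Function.invFun ψ (ψ ⟨c, crb_mem.2 hc⟩)) = ψ ⟨c, crb_mem.2 hc⟩ := Function.invFun_eq ⟨_, rfl⟩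
    refine ⟨(⟨c, crb_mem.2 hc⟩ * (Function.invFun ψ (ψ ⟨c, crb_mem.2 hc⟩))⁻¹ :
      Subgroup.centralizer ({(artinGen M s * artinGen M t) ^ 3} : Set (ArtinGroup M))), ?_, _,
      ⟨ψ ⟨c, crb_mem.2 hc⟩, fun h' => h (h1.trans (h'.trans h2.symm)), rfl⟩, by simp⟩
    refine comm_of_mat hM hst hInt ρ (crb_mem.1 (Subtype.property _)) ?_
    rw [← hψ, map_mul, map_inv, h3, mul_inv_cancel]
    rfl

end Crest.Agent.R175C
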