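import Crest.Agent.R175.CH
import Crest.Agent.R175.CMat
import Crest.Agent.R175.CAmal
import Crest.Agent.R175.CRepB

/-!
# R175/CGam: the wall in the centraliser of a generator
-/

set_option autoImplicit false

namespace Crest.Agent.R175C

open Crest.GroupTheory

/-- the triangle generators -/
def gS (i : Fin 3) : ArtinGroup MS := artinGen MS (i, 0)

/-- the data extracted from the amalgam `Γ = H *_{B₃ × ℤ} (A_K × ℤ)` -/
structure GamData where
  Γ : Type
  [i1 : Group Γ]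
  jH : HH →* Γ
  Φ : ArtinGroup MS →* Γ
  χ : Γ →* Multiplicative ℤ
  EE : Subgroup HH
  π : Γ → HH ⧸ EE
  jH_inj : Function.Injective jH
  Φ_inj : Function.Injective Φ
  mem_EE : ∀ h, h ∈ EE ↔ ∃ (b : B3) (m : ℤ), h = SemidirectProduct.inr b * zz ^ m
  Φ0 : Φ (gS 0) = jH hs
  Φ1 : Φ (gS 1) = jH ht
  Φ2 : Φ (gS 2) = jH (tau⁻¹ * hs * tau)
  χΦ : ∀ g, χ (Φ g) = 1
  χz : χ (jH zz) = Multiplicative.ofAdd 3
  π_one : π 1 = ((1 : HH) : HH ⧸ EE)
  π_left : ∀ h g, π (jH h * g) = h • π g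
  π_right : ∀ g h, h ∈ EE → π (g * jH h) = π g
  π_fin : ∀ f : Γ, ∃ W : Set Γ, W.Finite ∧ ∀ c, π (c * f) ≠ π c → ∃ w ∈ W, ∃ h, c = jH h * w

attribute [instance] GamData.i1

/-- `K = ArtinGroup MK × Multiplicative ℤ`, `iK (b, m) = (β b, m)` with `β : B3 → ArtinGroup MK` (`B3_lift`,
`beta_inj`), `iH` from `exists_iH`, `Γ` from `exists_amal`.  `Φ` from `exists_glue` with
`φ i = conj (jH τ ^ i) ∘ jK ∘ inl` (use `tau_s`, `tau_cube`, `zz_central`).  Injectivity: let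
`T = ArtinGroup MS ⋊[zpowersHom ρ] Multiplicative ℤ` (`ρ` from `exists_rot`, `θ = inr (ofAdd 1)`),
`fH` from `exists_HH_lift` (`a = inl (gS 0)`, `b = inl (gS 1)`), `fK (k, m) = inl (leaf 0 k) * θ ^ (3 m)`
(`θ ^ 3` is central), `Ψ : Γ →* T` the induced map; `Ψ ∘ Φ = inl` (check on generators `emb i a`),
`χ = rightHom ∘ Ψ`. -/
theorem exists_gamData : Nonempty GamData := by
  have hK01 : MK.M 0 1 = 3 := by decide
  obtain ⟨β, hβs, hβt, -⟩ := B3_lift (gen_braid hK01)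
  have hβ : Function.Injective β := beta_inj lab_MK hK01 β hβs hβt
  obtain ⟨iH, hiH, hiH'⟩ := exists_iH
  let iK : B3 × Multiplicative ℤ →* ArtinGroup MK × Multiplicative ℤ := β.prodMap (MonoidHom.id _)
  have hiK : Function.Injective iK := by
    rintro ⟨a, b⟩ ⟨c, d⟩ h
    simp only [iK, MonoidHom.coe_prodMap, Prod.map_apply, MonoidHom.id_apply, Prod.mk.injEq] at h
    exact Prod.ext (hβ h.1) h.2
  obtain ⟨Γ, iΓ, jH, jK, π, hjH, hHK, huniv, hπ1, hπl, hπr, hπf⟩ := exists_amal iH iK hiH hiK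
  have hjs : jK (artinGen MK 0, 1) = jH hs := by
    have := hHK (s0, Multiplicative.ofAdd 0)
    rw [hiH'] at this
    simpa [iK, hβs, hs] using this.symm
  have hjt : jK (artinGen MK 1, 1) = jH ht := by
    have := hHK (t0, Multiplicative.ofAdd 0)
    rw [hiH'] at this
    simpa [iK, hβt, ht] using this.symm
  let φ : Fin 3 → (ArtinGroup MK →* Γ) := fun i =>
    (MulAut.conj (jH tau ^ (i : ℕ))).toMonoidHom.comp (jK.comp (MonoidHom.inl _ _))
  have hφ : ∀ i k, φ i k = jH tau ^ (i : ℕ) * jK (k, 1) * (jH tau ^ (i : ℕ))⁻¹ := fun i k => rfl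
  have hts : ht = tau * hs * tau⁻¹ := tau_s.symm
  have hz : ∀ h : HH, tau ^ 3 * h * (tau ^ 3)⁻¹ = h := by
    intro h; rw [tau_cube, ← (zz_central h).eq]; group
  have hglue : ∀ i, φ i (artinGen MK 1) = φ (i + 1) (artinGen MK 0) := by
    intro i
    rw [hφ, hφ, hjs, hjt, ← map_pow, ← map_pow, ← map_inv, ← map_inv, ← map_mul, ← map_mul, ← map_mul,
      ← map_mul]
    congr 1
    rw [hts]
    fin_cases i
    · simp
    · simp [pow_two, mul_assoc]
    · show tau ^ 2 * (tau * hs * tau⁻¹) * (tau ^ 2)⁻¹ = tau ^ 0 * hs * (tau ^ 0)⁻¹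
      calc tau ^ 2 * (tau * hs * tau⁻¹) * (tau ^ 2)⁻¹ = tau ^ 3 * hs * (tau ^ 3)⁻¹ := by group
        _ = hs := hz hs
        _ = _ := by group
  obtain ⟨Φ, hΦ⟩ := exists_glue φ hglue
  obtain ⟨ρ, hρ, hρ3⟩ := exists_rot
  obtain ⟨lf, hlf⟩ := exists_leaf 0
  let α : Multiplicative ℤ →* MulAut (ArtinGroup MS) := zpowersHom _ ρ
  let T : Type := ArtinGroup MS ⋊[α] Multiplicative ℤ
  let θ : T := SemidirectProduct.inr (Multiplicative.ofAdd 1)
  have hθ : ∀ g, θ * SemidirectProduct.inl g * θ⁻¹ = (SemidirectProduct.inl (ρ g) : T) := by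
    intro g
    have := SemidirectProduct.inl_aut (φ := α) (Multiplicative.ofAdd 1) g
    rw [map_inv] at this
    rw [← this]
    simp [α]
  have hθn : ∀ (n : ℕ) g, θ ^ n * SemidirectProduct.inl g * (θ ^ n)⁻¹ = (SemidirectProduct.inl ((ρ ^ n) g) : T) := by
    intro n
    induction n with
    | zero => intro g; simp
    | succ n ih =>
      intro g
      rw [pow_succ' ρ, MulAut.mul_apply, ← hθ, ← ih]
      group
  have hθ3 : ∀ g, Commute (θ ^ 3) (SemidirectProduct.inl g : T) := by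
    intro g
    have := hθn 3 g
    rw [hρ3, MulAut.one_apply, mul_inv_eq_iff_eq_mul] at this
    exact this
  have hb01 : Braid (gS 0) (gS 1) := gen_braid (by decide)
  have hρ0 : ρ (gS 0) = gS 1 := by rw [gS, hρ]; rfl
  obtain ⟨fH, hfs, hft, hfτ⟩ := exists_HH_lift (T := T) (a := SemidirectProduct.inl (gS 0))
    (b := SemidirectProduct.inl (gS 1)) (θ := θ) (hb01.map _) (by rw [hθ, hρ0]) (hθ3 _)
  let fK : ArtinGroup MK × Multiplicative ℤ →* T :=
    MonoidHom.noncommCoprod (SemidirectProduct.inl.comp lf) (zpowersHom _ (θ ^ 3))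
      (fun k m => ((hθ3 (lf k)).symm.zpow_right _))
  have hfK : ∀ k (m : ℤ), fK (k, Multiplicative.ofAdd m) = SemidirectProduct.inl (lf k) * (θ ^ 3) ^ m :=
    fun k m => rfl
  have hfz : fH zz = θ ^ 3 := by rw [← tau_cube, map_pow, hfτ]
  have hagree : ∀ e, fH (iH e) = fK (iK e) := by
    rintro ⟨b, m⟩
    have h1 : fH.comp SemidirectProduct.inr = SemidirectProduct.inl.comp (lf.comp β) := by
      apply B3_ext
      · simp only [MonoidHom.comp_apply, hβs, hlf]; exact hfs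
      · simp only [MonoidHom.comp_apply, hβt, hlf]; exact hft
    have h2 := DFunLike.congr_fun h1 b
    simp only [MonoidHom.comp_apply] at h2
    have h3 : iK (b, m) = (β b, Multiplicative.ofAdd m.toAdd) := rfl
    rw [h3, hfK, show (b, m) = (b, Multiplicative.ofAdd m.toAdd) from rfl, hiH', map_mul, map_zpow, hfz, h2]
  obtain ⟨Ψ, hΨH, hΨK⟩ := huniv T fH fK hagree
  have hΨΦ : Ψ.comp Φ = SemidirectProduct.inl := by
    apply hom_ext
    intro p
    obtain ⟨i, a, rfl⟩ := emb_surj p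
    rw [MonoidHom.comp_apply, hΦ, hφ, map_mul, map_mul, map_inv, map_pow, hΨH, hfτ, hΨK,
      show ((artinGen MK a, 1) : ArtinGroup MK × Multiplicative ℤ) = (artinGen MK a, Multiplicative.ofAdd 0) from rfl,
      hfK, zpow_zero, mul_one, hθn, hlf]
    congr 1
    fin_cases i
    · simp
    · simp [hρ, rot_emb]
    · simp [pow_two, hρ, rot_emb]
  have hΨΦ' : ∀ g, Ψ (Φ g) = SemidirectProduct.inl g := fun g => DFunLike.congr_fun hΨΦ g
  have he : ∀ i : Fin 3, gS i = artinGen MS (emb i 0) := fun i => rfl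
  refine ⟨{ Γ := Γ, jH := jH, Φ := Φ, χ := SemidirectProduct.rightHom.comp Ψ, EE := iH.range, π := π
            jH_inj := hjH, Φ_inj := ?_, mem_EE := ?_, Φ0 := ?_, Φ1 := ?_, Φ2 := ?_, χΦ := ?_, χz := ?_
            π_one := hπ1, π_left := hπl, π_right := ?_, π_fin := hπf }⟩
  · intro a b hab
    apply SemidirectProduct.inl_injective (φ := α)
    rw [← hΨΦ', ← hΨΦ', hab]
  · intro h
    constructor
    · rintro ⟨⟨b, m⟩, rfl⟩
      exact ⟨b, m.toAdd, hiH' b m.toAdd⟩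
    · rintro ⟨b, m, rfl⟩
      exact ⟨_, hiH' b m⟩
  · rw [he, hΦ, hφ, hjs]; simp
  · rw [he, hΦ, hφ, hjs, hts]; simp
  · rw [he, hΦ, hφ, hjs, ← map_pow, ← map_inv, ← map_mul, ← map_mul]
    congr 1
    rw [← hz (tau⁻¹ * hs * tau)]
    simp only [Fin.val_two]
    group
  · intro g
    rw [MonoidHom.comp_apply, hΨΦ']; simp
  · rw [MonoidHom.comp_apply, hΨH, hfz, map_pow]
    simp only [θ, SemidirectProduct.rightHom_inr]
    rfl
  · rintro g _ ⟨e, rfl⟩
    rw [hHK, hπr]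

/-- `side c = sideH (π c).out`; `sideH` is constant on cosets of `EE` (`sideH_mul`).
`π (jH h) = h`, so `side (D₀ ^ j)` holds (`D₀ ∈ EE`) and `side (D₂ ^ i)` fails (`sideH_conj`,
`Φ ((gS 2 * gS 0) ^ 3) = jH (τ⁻¹ * inr D0 * τ)` as `τ⁻¹ t τ = s`).
Finiteness: let `s = jH hs`, `f` commute with `gS 0`, `W` from `π_fin (Φ f)`.  For `w ∈ W` fix (if it exists) `c₀`
commuting with `gS 0` with `Φ c₀ = jH h₀ * w`.  Any other such `c` has `Φ (c * c₀⁻¹) = jH h'` with `h'` commuting with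
`hs`, `h' = inl v * hs ^ i * zz ^ m` (`cent_hs`).  `π (Φ c₀)` and `π (Φ (c₀ * f))` are fixed by `hs` (`π_left`,
`π_right`, `hs ∈ EE`) and by `zz` (central, in `EE`), so `π (Φ c) = inl v • π (Φ c₀)`,
`π (Φ (c * f)) = inl v • π (Φ (c₀ * f))`, and `v` lies in a finite set (`sideH_finite`).  `χ` determines `m` from
`v`.  So `e = gS 0 ^ (-i) * c` has `Φ e = jH (inl v * zz ^ m) * Φ c₀` in a finite set; `Φ` is injective. -/
theorem sep_gS0 : Sep (gS 0) ((gS 2 * gS 0) ^ 3) ((gS 0 * gS 1) ^ 3) (Subgroup.zpowers (gS 0) : Set _) := by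
  classical
  obtain ⟨D⟩ := exists_gamData
  have hq : ∀ h : HH, sideH (h : HH ⧸ D.EE).out ↔ sideH h := by
    intro h
    obtain ⟨⟨e, he⟩, h1⟩ := QuotientGroup.mk_out_eq_mul D.EE h
    obtain ⟨b, m, rfl⟩ := (D.mem_EE e).1 he
    rw [h1]
    exact sideH_mul h b m
  have hπ : ∀ h : HH, D.π (D.jH h) = (h : HH ⧸ D.EE) := by
    intro h
    have := D.π_left h 1
    rw [mul_one, D.π_one] at this
    rw [this]
    simp
  have hsE : hs ∈ D.EE := (D.mem_EE _).2 ⟨s0, 0, by simp [hs]⟩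
  have hzE : zz ∈ D.EE := (D.mem_EE _).2 ⟨1, 1, by simp⟩
  have hD0 : (hs * ht) ^ 3 = (SemidirectProduct.inr D0 : HH) := by simp [hs, ht, D0]
  refine ⟨fun c => sideH (D.π (D.Φ c)).out, fun i j hi hj => ?_, fun f hf => ?_⟩
  · have e1 : D.Φ (((gS 2 * gS 0) ^ 3) ^ i) = D.jH ((tau⁻¹ * SemidirectProduct.inr D0 * tau) ^ i) := by
      rw [map_pow, map_pow, map_mul, D.Φ2, D.Φ0, ← map_mul, ← map_pow, ← map_pow, ← hD0]
      congr 2
      have : hs = tau⁻¹ * ht * tau := by rw [← tau_s]; group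
      calc (tau⁻¹ * hs * tau * hs) ^ 3 = (tau⁻¹ * hs * tau * (tau⁻¹ * ht * tau)) ^ 3 := by rw [← this]
        _ = _ := by simp only [pow_three]; group
    have e2 : D.Φ (((gS 0 * gS 1) ^ 3) ^ j) = D.jH (1 * (SemidirectProduct.inr (D0 ^ j) * zz ^ (0 : ℤ))) := by
      rw [map_pow, map_pow, map_mul, D.Φ1, D.Φ0, ← map_mul, ← map_pow, ← map_pow, hD0]
      simp
    simp only [e1, e2, hπ, hq, sideH_mul]
    intro h
    exact sideH_conj i hi (h.2 sideH_one)
  · obtain ⟨W, hW, hWf⟩ := D.π_fin (D.Φ f)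
    -- fixed cosets
    have hfix : ∀ c, Commute c (gS 0) → ∀ (i m : ℤ), (hs ^ i * zz ^ m) • D.π (D.Φ c) = D.π (D.Φ c) := by
      intro c hc i m
      have h1 : hs • D.π (D.Φ c) = D.π (D.Φ c) := by
        rw [← D.π_left, ← D.Φ0, ← map_mul, ← hc.eq, map_mul, D.Φ0, D.π_right _ _ hsE]
      have h2 : zz • D.π (D.Φ c) = D.π (D.Φ c) := by
        obtain ⟨h, hh⟩ := QuotientGroup.mk_surjective (D.π (D.Φ c))
        rw [← hh]
        show ((zz * h : HH) : HH ⧸ D.EE) = h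
        rw [← (zz_central h).eq]
        exact QuotientGroup.mk_mul_of_mem _ hzE
      exact MulAction.mem_stabilizer_iff.1 (mul_mem (zpow_mem (MulAction.mem_stabilizer_iff.2 h1) i)
        (zpow_mem (MulAction.mem_stabilizer_iff.2 h2) m))
    have hsm : ∀ (v : HH) (q : HH ⧸ D.EE), sideH (v • q).out ↔ sideH (v * q.out) := by
      intro v q
      rw [← hq (v * q.out)]
      have : v • q = ((v * q.out : HH) : HH ⧸ D.EE) := by
        conv_lhs => rw [← QuotientGroup.out_eq' q]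
        rfl
      rw [this]
    have key : ∀ w : D.Γ, ∃ F : Set (ArtinGroup MS), F.Finite ∧ ∀ c, Commute c (gS 0) →
        ¬ (sideH (D.π (D.Φ c)).out ↔ sideH (D.π (D.Φ (c * f))).out) → (∃ h, D.Φ c = D.jH h * w) →
        ∃ l ∈ (Subgroup.zpowers (gS 0) : Set _), ∃ e ∈ F, c = l * e := by
      intro w
      by_cases hex : ∃ c₀, Commute c₀ (gS 0) ∧ ∃ h, D.Φ c₀ = D.jH h * w
      swap
      · exact ⟨∅, Set.finite_empty, fun c hc _ hh => absurd ⟨c, hc, hh⟩ hex⟩
      obtain ⟨c₀, hc₀, h₀, hh₀⟩ := hex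
      have hV := sideH_finite (D.π (D.Φ c₀)).out (D.π (D.Φ (c₀ * f))).out
      let mm : F3 → ℤ := fun v => -(D.χ (D.jH (SemidirectProduct.inl v))).toAdd / 3
      let Y : Set D.Γ := (fun v : F3 => D.jH (SemidirectProduct.inl v * zz ^ mm v) * D.Φ c₀) '' {w : F3 |
        ¬ (sideH (SemidirectProduct.inl w * (D.π (D.Φ c₀)).out) ↔
          sideH (SemidirectProduct.inl w * (D.π (D.Φ (c₀ * f))).out))}
      refine ⟨D.Φ ⁻¹' Y, (hV.image _).preimage D.Φ_inj.injOn, ?_⟩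
      rintro c hc hside ⟨h, hh⟩
      have h1 : D.Φ (c * c₀⁻¹) = D.jH (h * h₀⁻¹) := by
        rw [map_mul, map_inv, hh, hh₀, map_mul, map_inv]; group
      have h2 : Commute (h * h₀⁻¹) hs := by
        apply D.jH_inj
        rw [map_mul, map_mul D.jH hs, ← h1, ← D.Φ0, ← map_mul, ← map_mul, (hc.mul_left hc₀.inv_left).eq]
      obtain ⟨i, m, v, hv, hdec⟩ := cent_hs h2
      have h3 : ∀ y, D.Φ (c * y) = D.jH (SemidirectProduct.inl v * (hs ^ i * zz ^ m)) * D.Φ (c₀ * y) := by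
        intro y
        rw [← mul_assoc, ← hdec, ← h1, ← map_mul]
        congr 1; group
      have h4 : ∀ y, Commute y (gS 0) →
          D.π (D.Φ (c * y)) = (SemidirectProduct.inl v : HH) • D.π (D.Φ (c₀ * y)) := by
        intro y hy
        rw [h3, D.π_left, mul_smul, hfix _ (hc₀.mul_left hy)]
      have h5 := h4 1 (Commute.one_left _)
      rw [mul_one, mul_one] at h5
      rw [h5, h4 f hf, hsm, hsm] at hside
      have h6 : mm v = m := by
        have := congrArg D.χ (h3 1)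
        rw [D.χΦ, map_mul, D.χΦ, mul_one, map_mul, map_mul, map_mul, map_mul, map_zpow, map_zpow, map_zpow,
          map_zpow, ← D.Φ0, D.χΦ, D.χz, one_zpow, one_mul] at this
        have h7 := congrArg Multiplicative.toAdd this
        rw [toAdd_mul, toAdd_zpow, toAdd_one, toAdd_ofAdd, smul_eq_mul] at h7
        simp only [mm]
        omega
      refine ⟨gS 0 ^ i, ⟨i, rfl⟩, (gS 0 ^ i)⁻¹ * c, ⟨v, hside, ?_⟩, by group⟩
      have h8 := h3 1
      rw [mul_one, mul_one] at h8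
      simp only []
      rw [h6, map_mul D.Φ, h8, map_inv, map_zpow, D.Φ0, ← map_zpow, ← map_inv, ← mul_assoc, ← map_mul]
      congr 2
      rw [← mul_assoc (SemidirectProduct.inl v), (hv.zpow_right i).eq]
      group
    choose F hF hF' using key
    refine ⟨⋃ w ∈ W, F w, hW.biUnion fun w _ => hF w, fun c hc hside => ?_⟩
    have hne : D.π (D.Φ c * D.Φ f) ≠ D.π (D.Φ c) := by
      intro h
      apply hside
      simp only [map_mul, h]
    obtain ⟨w, hw, h, hh⟩ := hWf _ hne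
    obtain ⟨l, hl, e, he, hce⟩ := hF' w c hc hside ⟨h, hh⟩
    exact ⟨l, hl, e, Set.mem_biUnion hw he, hce⟩

/-- transport along the rotation (`Sep.comap` with `φ = (ρ ^ i)⁻¹`) -/
theorem sep_gS (i : Fin 3) : Sep (gS (i + 1)) ((gS i * gS (i + 1)) ^ 3) ((gS (i + 1) * gS (i + 2)) ^ 3)
    (Subgroup.zpowers (gS (i + 1)) : Set _) := by
  obtain ⟨ρ, hρ, -⟩ := exists_rot
  have h : ∀ j, ρ (gS j) = gS (j + 1) := fun j => by rw [gS, hρ]; rfl
  have step : ∀ j : Fin 3, Sep (gS (j + 1 + 1)) ((gS (j + 1) * gS (j + 1 + 1)) ^ 3)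
      ((gS (j + 1 + 1) * gS (j + 1 + 2)) ^ 3) (Subgroup.zpowers (gS (j + 1 + 1)) : Set _) →
      Sep (gS (j + 1)) ((gS j * gS (j + 1)) ^ 3) ((gS (j + 1) * gS (j + 2)) ^ 3)
        (Subgroup.zpowers (gS (j + 1)) : Set _) := by
    intro j hj
    apply Sep.comap ρ.toMonoidHom ρ.injective
    have e : j + 2 + 1 = j + 1 + 2 := by abel
    simpa only [MulEquiv.toMonoidHom_eq_coe, MonoidHom.coe_coe, map_pow, map_mul, h, e] using hj
  have h2 : Sep (gS (2 + 1)) ((gS 2 * gS (2 + 1)) ^ 3) ((gS (2 + 1) * gS (2 + 2)) ^ 3)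
      (Subgroup.zpowers (gS (2 + 1)) : Set _) := sep_gS0
  have h1 := step 1 h2
  have h0 := step 0 h1
  fin_cases i
  · exact h0
  · exact h1
  · exact h2

end Crest.Agent.R175C
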