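import Mathlib
import Crest.Prelude.Def_GeometricAction

/-!
# R175/CGeo: elementary CAT(0) inequalities (for S0264)
-/

set_option autoImplicit false

namespace Crest.Agent.R175C

open Crest.Geometry

variable {X : Type*} [MetricSpace X]

/-- CN inequality.  Take a geodesic `γ` from `x` to `z`, `m = γ (t * dist x z)`; for `w` take a geodesic `γ'` from
`x` to `w` and apply the comparison inequality with parameters `t * dist x z` and `dist x w` (so `γ' _ = w`).
Degenerate cases `dist x z = 0`, `dist x w = 0` (division by zero) are treated separately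
(`x = z = m`, resp. `w = x`). -/
theorem cn (hX : IsCAT0Space X) (x z : X) {t : ℝ} (h0 : 0 ≤ t) (h1 : t ≤ 1) :
    ∃ m : X, dist x m = t * dist x z ∧ dist m z = (1 - t) * dist x z ∧
      ∀ w, dist m w ^ 2 ≤ (1 - t) * dist x w ^ 2 + t * dist z w ^ 2 - t * (1 - t) * dist x z ^ 2 := by
  obtain ⟨γ, hγ⟩ := hX.1 x z
  have ha : 0 ≤ dist x z := dist_nonneg
  have hm : t * dist x z ∈ Set.Icc (0 : ℝ) (dist x z) := ⟨by positivity, by nlinarith⟩
  have h0m : (0 : ℝ) ∈ Set.Icc (0 : ℝ) (dist x z) := ⟨le_rfl, ha⟩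
  have ham : dist x z ∈ Set.Icc (0 : ℝ) (dist x z) := ⟨ha, le_rfl⟩
  have e1 : dist x (γ (t * dist x z)) = t * dist x z := by
    have := hγ.2.2 0 h0m _ hm
    rw [hγ.1] at this
    rw [this, zero_sub, abs_neg, abs_of_nonneg hm.1]
  have e2 : dist (γ (t * dist x z)) z = (1 - t) * dist x z := by
    have := hγ.2.2 _ hm _ ham
    rw [hγ.2.1] at this
    rw [this, abs_of_nonpos (by linarith [hm.2])]
    ring
  refine ⟨γ (t * dist x z), e1, e2, fun w => ?_⟩
  by_cases hxz : dist x z = 0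
  · have hz : z = x := (dist_eq_zero.1 hxz).symm
    have hm' : γ (t * dist x z) = x := by rw [hxz, mul_zero, hγ.1]
    rw [hm', hxz, hz]
    nlinarith
  by_cases hxw : dist x w = 0
  · have hw : w = x := (dist_eq_zero.1 hxw).symm
    rw [hw, dist_comm _ x, e1, dist_self, dist_comm z x]
    nlinarith
  obtain ⟨γ', hγ'⟩ := hX.1 x w
  have h := hX.2 x z w γ γ' hγ hγ' _ hm (dist x w) ⟨dist_nonneg, le_rfl⟩
  rw [hγ'.2.1] at h
  have e : t * dist x z * dist x w * (dist x z ^ 2 + dist x w ^ 2 - dist z w ^ 2) / (dist x z * dist x w)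
      = t * (dist x z ^ 2 + dist x w ^ 2 - dist z w ^ 2) := by
    field_simp
  rw [e] at h
  nlinarith

/-- CN for any point `y` between `x` and `z`: with `m` from `cn`, the inequality at `w = y` gives
`dist m y ^ 2 ≤ 0`, so `y = m`. -/
theorem cn_between (hX : IsCAT0Space X) {x y z : X} {t : ℝ} (h0 : 0 ≤ t) (h1 : t ≤ 1)
    (hxy : dist x y = t * dist x z) (hyz : dist y z = (1 - t) * dist x z) (w : X) :
    dist y w ^ 2 ≤ (1 - t) * dist x w ^ 2 + t * dist z w ^ 2 - t * (1 - t) * dist x z ^ 2 := by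
  obtain ⟨m, -, -, hm⟩ := cn hX x z h0 h1
  have h := hm y
  rw [hxy, dist_comm z y, hyz] at h
  have h2 : dist m y ^ 2 ≤ 0 := by nlinarith
  have h3 : m = y := dist_eq_zero.1 (pow_eq_zero_iff two_ne_zero |>.1 (le_antisymm h2 (sq_nonneg _)))
  rw [← h3]
  exact hm w

/-- Quadrilateral inequality: `m` midpoint of `p r`; `dist q s ≤ dist q m + dist m s`, so
`dist q s ^ 2 ≤ 2 dist m q ^ 2 + 2 dist m s ^ 2`, then `cn` twice. -/
theorem quad (hX : IsCAT0Space X) (p q r s : X) :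
    dist p r ^ 2 + dist q s ^ 2 ≤ dist p q ^ 2 + dist q r ^ 2 + dist r s ^ 2 + dist s p ^ 2 := by
  obtain ⟨m, -, -, hm⟩ := cn hX p r (t := 1 / 2) (by norm_num) (by norm_num)
  have h1 := hm q
  have h2 := hm s
  have h3 : dist q s ≤ dist m q + dist m s := by
    rw [dist_comm m q]; exact dist_triangle _ _ _
  have h4 : dist q s ^ 2 ≤ (dist m q + dist m s) ^ 2 := pow_le_pow_left₀ dist_nonneg h3 2
  rw [dist_comm r q] at h1
  rw [dist_comm p s] at h2
  nlinarith [sq_nonneg (dist m q - dist m s)]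

/-- A four point form of CN which passes to limits: `dist y w ≤ dist m y + dist m w`. -/
theorem cn4 (hX : IsCAT0Space X) (x y z w : X) {t : ℝ} (h0 : 0 ≤ t) (h1 : t ≤ 1) :
    dist y w ≤ √((1 - t) * dist x y ^ 2 + t * dist z y ^ 2 - t * (1 - t) * dist x z ^ 2)
      + √((1 - t) * dist x w ^ 2 + t * dist z w ^ 2 - t * (1 - t) * dist x z ^ 2) := by
  obtain ⟨m, -, -, hm⟩ := cn hX x z h0 h1
  have h3 : dist y w ≤ dist m y + dist m w := by
    rw [dist_comm m y]; exact dist_triangle _ _ _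
  have h4 := Real.le_sqrt_of_sq_le (hm y)
  have h5 := Real.le_sqrt_of_sq_le (hm w)
  linarith

/-- Convexity of the displacement function.  `f y` is between `f x` and `f z` with the same `t`.
`cn_between` for `f y` at `w = y`, then for `y` at `w = f x` and `w = f z`, and `quad` for `x, f x, f z, z`
give `dist y (f y) ^ 2 ≤ (1 - t) * dist x (f x) ^ 2 + t * dist z (f z) ^ 2`. -/
theorem disp_convex (hX : IsCAT0Space X) (f : X → X) (hf : ∀ a b, dist (f a) (f b) = dist a b)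
    {x y z : X} {t : ℝ} (h0 : 0 ≤ t) (h1 : t ≤ 1)
    (hxy : dist x y = t * dist x z) (hyz : dist y z = (1 - t) * dist x z) {L : ℝ}
    (hx : dist x (f x) ≤ L) (hz : dist z (f z) ≤ L) : dist y (f y) ≤ L := by
  have a1 := cn_between hX (x := f x) (y := f y) (z := f z) h0 h1 (by rw [hf, hf, hxy])
    (by rw [hf, hf, hyz]) y
  have a2 := cn_between hX h0 h1 hxy hyz (f x)
  have a3 := cn_between hX h0 h1 hxy hyz (f z)
  have a4 := quad hX x (f x) (f z) z
  rw [hf, dist_comm (f y) y, dist_comm (f x) y, dist_comm (f z) y] at a1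
  rw [hf, dist_comm (f x) z, dist_comm (f z) z, dist_comm z x] at a4
  have hL : 0 ≤ L := dist_nonneg.trans hx
  have b1 : dist x (f x) ^ 2 ≤ L ^ 2 := pow_le_pow_left₀ dist_nonneg hx 2
  have b2 : dist z (f z) ^ 2 ≤ L ^ 2 := pow_le_pow_left₀ dist_nonneg hz 2
  have h1' : 0 ≤ 1 - t := by linarith
  have c2 := mul_le_mul_of_nonneg_left a2 h1'
  have c3 := mul_le_mul_of_nonneg_left a3 h0
  have c4 := mul_le_mul_of_nonneg_left a4 (mul_nonneg h0 h1')
  have c5 := mul_le_mul_of_nonneg_left b1 h1'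
  have c6 := mul_le_mul_of_nonneg_left b2 h0
  have : dist y (f y) ^ 2 ≤ L ^ 2 := by nlinarith
  exact (pow_le_pow_iff_left₀ dist_nonneg hL two_ne_zero).1 this

/-- Discretised geodesic: `n = ⌈dist x z⌉₊ + 1`, `y j = γ (min j n / n * dist x z)`. -/
theorem exists_chain (hX : IsCAT0Space X) (x z : X) :
    ∃ (n : ℕ) (y : ℕ → X), y 0 = x ∧ y n = z ∧ (∀ j < n, dist (y j) (y (j + 1)) ≤ 1) ∧
      ∀ j ≤ n, ∃ t : ℝ, 0 ≤ t ∧ t ≤ 1 ∧ dist x (y j) = t * dist x z ∧ dist (y j) z = (1 - t) * dist x z := by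
  obtain ⟨γ, hγ⟩ := hX.1 x z
  have ha : 0 ≤ dist x z := dist_nonneg
  set n : ℕ := ⌈dist x z⌉₊ + 1 with hn
  have hn0 : (0 : ℝ) < n := by rw [hn]; positivity
  have hna : dist x z ≤ n := by
    rw [hn]; push_cast; linarith [Nat.le_ceil (dist x z)]
  have hmem : ∀ j ≤ n, (j : ℝ) / n * dist x z ∈ Set.Icc (0 : ℝ) (dist x z) := by
    intro j hj
    have hj' : (j : ℝ) / n ≤ 1 := by
      rw [div_le_one hn0]; exact_mod_cast hj
    exact ⟨by positivity, by nlinarith⟩
  have h0m : (0 : ℝ) ∈ Set.Icc (0 : ℝ) (dist x z) := ⟨le_rfl, ha⟩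
  have ham : dist x z ∈ Set.Icc (0 : ℝ) (dist x z) := ⟨ha, le_rfl⟩
  refine ⟨n, fun j => γ ((j : ℝ) / n * dist x z), ?_, ?_, ?_, ?_⟩
  · simp [hγ.1]
  · simp only [div_self hn0.ne', one_mul, hγ.2.1]
  · intro j hj
    rw [hγ.2.2 _ (hmem j hj.le) _ (hmem (j + 1) hj)]
    have e : (j : ℝ) / n * dist x z - ((j + 1 : ℕ) : ℝ) / n * dist x z = -(dist x z / n) := by
      push_cast; ring
    rw [e, abs_neg, abs_of_nonneg (by positivity), div_le_one hn0]
    exact hna
  · intro j hj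
    have hj' : (j : ℝ) / n ≤ 1 := by
      rw [div_le_one hn0]; exact_mod_cast hj
    refine ⟨(j : ℝ) / n, by positivity, hj', ?_, ?_⟩
    · have := hγ.2.2 0 h0m _ (hmem j hj)
      rw [hγ.1] at this
      rw [this, zero_sub, abs_neg, abs_of_nonneg (hmem j hj).1]
    · have := hγ.2.2 _ (hmem j hj) _ ham
      rw [hγ.2.1] at this
      rw [this, abs_of_nonpos (by linarith [(hmem j hj).2])]
      ring

end Crest.Agent.R175C
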