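import Crest.Agent.R175.CSide

/-!
# R175/CH: the group `H = F₃ ⋊ B₃`
-/

set_option autoImplicit false

namespace Crest.Agent.R175C

open FreeGroup (of)

abbrev F3 : Type := FreeGroup (Fin 3)

/-- `x₀ ↦ x₁, x₁ ↦ x₁⁻¹ x₀ x₁, x₂ ↦ x₂` -/
def autS : MulAut F3 :=
  MonoidHom.toMulEquiv (FreeGroup.lift ![of 1, (of 1)⁻¹ * of 0 * of 1, of 2])
    (FreeGroup.lift ![of 0 * of 1 * (of 0)⁻¹, of 0, of 2])
    (by ext i; fin_cases i <;> simp [mul_assoc]) (by ext i; fin_cases i <;> simp [mul_assoc])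

/-- `x₀ ↦ x₀, x₁ ↦ x₂, x₂ ↦ x₂⁻¹ x₁ x₂` -/
def autT : MulAut F3 :=
  MonoidHom.toMulEquiv (FreeGroup.lift ![of 0, of 2, (of 2)⁻¹ * of 1 * of 2])
    (FreeGroup.lift ![of 0, of 1 * of 2 * (of 1)⁻¹, of 1])
    (by ext i; fin_cases i <;> simp [mul_assoc]) (by ext i; fin_cases i <;> simp [mul_assoc])

theorem ch_S0 : autS (of 0) = of 1 := by simp [autS]
theorem ch_S1 : autS (of 1) = (of 1)⁻¹ * of 0 * of 1 := by simp [autS]
theorem ch_S2 : autS (of 2) = of 2 := by simp [autS]
theorem ch_T0 : autT (of 0) = of 0 := by simp [autT]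
theorem ch_T1 : autT (of 1) = of 2 := by simp [autT]
theorem ch_T2 : autT (of 2) = (of 2)⁻¹ * of 1 * of 2 := by simp [autT]

theorem ch_hom_ext {T : Type*} [Group T] {φ ψ : F3 →* T} (h0 : φ (of 0) = ψ (of 0))
    (h1 : φ (of 1) = ψ (of 1)) (h2 : φ (of 2) = ψ (of 2)) : φ = ψ := by
  ext i
  fin_cases i
  · exact h0
  · exact h1
  · exact h2

theorem ch_aut_ext {φ ψ : MulAut F3} (h0 : φ (of 0) = ψ (of 0))
    (h1 : φ (of 1) = ψ (of 1)) (h2 : φ (of 2) = ψ (of 2)) : φ = ψ :=
  MulEquiv.toMonoidHom_injective (ch_hom_ext h0 h1 h2)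

theorem braid_aut : Braid autS autT := by
  refine ch_aut_ext ?_ ?_ ?_ <;>
    simp only [MulAut.mul_apply, map_mul, map_inv, ch_S0, ch_S1, ch_S2, ch_T0, ch_T1, ch_T2] <;> group

/-- Artin's action -/
noncomputable def act : B3 →* MulAut F3 := (B3_lift braid_aut).choose

theorem act_s0 : act s0 = autS := (B3_lift braid_aut).choose_spec.1
theorem act_t0 : act t0 = autT := (B3_lift braid_aut).choose_spec.2.1

abbrev HH : Type := F3 ⋊[act] B3

def del : F3 := of 0 * of 1 * of 2

noncomputable def hs : HH := SemidirectProduct.inr s0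
noncomputable def ht : HH := SemidirectProduct.inr t0
noncomputable def tau : HH := SemidirectProduct.inl (of 0) * hs * ht
noncomputable def zz : HH := SemidirectProduct.inl del * SemidirectProduct.inr D0

theorem act_del (b : B3) : act b del = del := by
  induction b using B3_induction with
  | h1 => simp
  | hs =>
    simp only [act_s0, del, map_mul, ch_S0, ch_S1, ch_S2]
    group
  | ht =>
    simp only [act_t0, del, map_mul, ch_T0, ch_T1, ch_T2]
    group
  | hmul a b ha hb => rw [map_mul, MulAut.mul_apply, hb, ha]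
  | hinv a ha =>
    rw [map_inv]
    nth_rewrite 1 [← ha]
    exact MulAut.inv_apply_self _ _ _

theorem act_D0 (w : F3) : act D0 w = del⁻¹ * w * del := by
  have h : act D0 = MulAut.conj del⁻¹ := by
    refine ch_aut_ext ?_ ?_ ?_ <;> rw [MulAut.conj_apply] <;>
      simp only [D0, pow_succ, pow_zero, one_mul, act_s0, act_t0, MulAut.mul_apply, map_mul, map_inv,
        ch_S0, ch_S1, ch_S2, ch_T0, ch_T1, ch_T2, del] <;> group
  rw [h, MulAut.conj_apply, inv_inv]

theorem ch_zz_left : zz.left = del := by simp [zz]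
theorem ch_zz_right : zz.right = D0 := by simp [zz]

theorem ch_del_comm (b : B3) : Commute (SemidirectProduct.inl del : HH) (SemidirectProduct.inr b) := by
  ext
  · simp [act_del]
  · simp

theorem ch_zz_zpow (m : ℤ) :
    zz ^ m = SemidirectProduct.inl (del ^ m) * SemidirectProduct.inr (D0 ^ m) := by
  rw [zz, (ch_del_comm D0).mul_zpow, map_zpow, map_zpow]

theorem ch_left (b : B3) (m : ℤ) : (SemidirectProduct.inr b * zz ^ m : HH).left = del ^ m := by
  rw [ch_zz_zpow]
  simp only [SemidirectProduct.mul_left, SemidirectProduct.left_inr, SemidirectProduct.right_inr,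
    SemidirectProduct.left_inl, map_one, mul_one, one_mul]
  rw [map_zpow, act_del]

theorem ch_right (b : B3) (m : ℤ) : (SemidirectProduct.inr b * zz ^ m : HH).right = b * D0 ^ m := by
  rw [ch_zz_zpow]
  simp only [SemidirectProduct.mul_right, SemidirectProduct.right_inr, SemidirectProduct.right_inl,
    one_mul]

theorem ch_tau_left : tau.left = of 0 := by simp [tau, hs, ht]
theorem ch_tau_right : tau.right = s0 * t0 := by simp [tau, hs, ht]

theorem zz_central (h : HH) : Commute h zz := by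
  ext
  · simp only [SemidirectProduct.mul_left, ch_zz_left, ch_zz_right, act_del, act_D0]
    group
  · simp only [SemidirectProduct.mul_right, ch_zz_right]
    exact D0_central _

theorem tau_cube : tau ^ 3 = zz := by
  ext
  · simp only [pow_succ, pow_zero, one_mul, SemidirectProduct.mul_left, SemidirectProduct.mul_right,
      ch_tau_left, ch_tau_right, ch_zz_left, map_mul, act_s0, act_t0, MulAut.mul_apply, ch_S0, ch_S2,
      ch_T0, ch_T1, del]
  · simp only [pow_succ, pow_zero, one_mul, SemidirectProduct.mul_right, ch_tau_right, ch_zz_right, D0]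

theorem tau_s : tau * hs * tau⁻¹ = ht := by
  rw [mul_inv_eq_iff_eq_mul]
  ext
  · simp [hs, ht, ch_tau_left, act_t0, ch_T0]
  · simp only [hs, ht, SemidirectProduct.mul_right, SemidirectProduct.right_inr, ch_tau_right]
    rw [← mul_assoc]
    exact braid0

theorem ch_del_zpow {m : ℤ} (h : del ^ m = 1) : m = 0 := by
  let φ : F3 →* Multiplicative ℤ := FreeGroup.lift ![Multiplicative.ofAdd 1, 1, 1]
  have h0 : φ del = Multiplicative.ofAdd 1 := by simp [φ, del]
  have h1 := congrArg φ h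
  rw [map_zpow, h0, φ.map_one] at h1
  simpa using congrArg Multiplicative.toAdd h1

/-- the edge group `B₃ × ℤ → H`, `(b, m) ↦ b z ^ m` -/
theorem exists_iH : ∃ iH : B3 × Multiplicative ℤ →* HH, Function.Injective iH ∧
    ∀ (b : B3) (m : ℤ), iH (b, Multiplicative.ofAdd m) = SemidirectProduct.inr b * zz ^ m := by
  refine ⟨MonoidHom.noncommCoprod SemidirectProduct.inr (zpowersHom HH zz)
    fun b m => (zz_central _).zpow_right _, (injective_iff_map_eq_one _).2 ?_, fun b m => rfl⟩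
  rintro ⟨b, m⟩ h
  have h' : (SemidirectProduct.inr b * zz ^ m.toAdd : HH) = 1 := h
  have h1 := ch_left b m.toAdd
  have h2 := ch_right b m.toAdd
  rw [h'] at h1 h2
  have h3 : m.toAdd = 0 := ch_del_zpow h1.symm
  rw [h3, zpow_zero, mul_one] at h2
  exact Prod.ext h2.symm h3

/-- `h = w b` commutes with `s` ⇒ `b` commutes with `s0` ⇒ `b = s0 ^ i * D0 ^ m` (`cent_s0`), `D0 = δ⁻¹ z`;
`w' = w δ ^ (-m)` commutes with `s` because `h`, `s ^ i`, `z ^ m` do. -/
theorem cent_hs {h : HH} (hc : Commute h hs) :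
    ∃ (i m : ℤ) (w : F3), Commute (SemidirectProduct.inl w : HH) hs ∧
      h = SemidirectProduct.inl w * hs ^ i * zz ^ m := by
  have h1 : Commute h.right s0 := by
    have := hc.map SemidirectProduct.rightHom
    simpa [hs] using this
  obtain ⟨i, m, hb⟩ := cent_s0 h1
  have e : h = SemidirectProduct.inl (h.left * (del ^ m)⁻¹) * hs ^ i * zz ^ m := by
    rw [hs, ← map_zpow, mul_assoc]
    ext
    · rw [SemidirectProduct.mul_left, ch_left, SemidirectProduct.left_inl,
        SemidirectProduct.right_inl, map_one, MulAut.one_apply, inv_mul_cancel_right]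
    · rw [SemidirectProduct.mul_right, ch_right, ← hb, SemidirectProduct.right_inl, one_mul]
  refine ⟨i, m, h.left * (del ^ m)⁻¹, ?_, e⟩
  have e' : (SemidirectProduct.inl (h.left * (del ^ m)⁻¹) : HH) = h * (zz ^ m)⁻¹ * (hs ^ i)⁻¹ := by
    rw [eq_mul_inv_iff_mul_eq, eq_mul_inv_iff_mul_eq]
    exact e.symm
  rw [e']
  exact (hc.mul_left ((zz_central hs).symm.zpow_left m).inv_left).mul_left
    ((Commute.refl hs).zpow_left i).inv_left

/-- change of basis with `δ ↦ e₀`, `x₀ ↦ e₁`, `δ x₂ δ⁻¹ ↦ e₂` -/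
def kap : F3 →* F3 := FreeGroup.lift ![of 1, (of 1)⁻¹ * (of 2)⁻¹ * of 0, (of 0)⁻¹ * of 2 * of 0]

theorem ch_kap0 : kap (of 0) = of 1 := by simp [kap]
theorem ch_kap1 : kap (of 1) = (of 1)⁻¹ * (of 2)⁻¹ * of 0 := by simp [kap]
theorem ch_kap2 : kap (of 2) = (of 0)⁻¹ * of 2 * of 0 := by simp [kap]

theorem kap_del : kap del = of 0 := by
  simp only [del, map_mul, ch_kap0, ch_kap1, ch_kap2]
  group

/-- left inverse `e₀ ↦ δ, e₁ ↦ x₀, e₂ ↦ δ x₂ δ⁻¹` -/
theorem kap_inj : Function.Injective kap := by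
  have h : (FreeGroup.lift ![del, of 0, del * of 2 * del⁻¹]).comp kap = MonoidHom.id F3 := by
    refine ch_hom_ext ?_ ?_ ?_
    · simp [ch_kap0]
    · simp [ch_kap1, del, mul_assoc]
    · simp [ch_kap2, mul_assoc]
  exact Function.LeftInverse.injective (g := FreeGroup.lift ![del, of 0, del * of 2 * del⁻¹])
    fun w => DFunLike.congr_fun h w

def sideH (h : HH) : Prop := sideW (kap h.left)

/-- right multiplication by `b z ^ m` multiplies the left component by `δ ^ m` -/
theorem sideH_mul (h : HH) (b : B3) (m : ℤ) : sideH (h * (SemidirectProduct.inr b * zz ^ m)) ↔ sideH h := by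
  unfold sideH
  rw [SemidirectProduct.mul_left, ch_left, map_zpow, act_del, map_mul, map_zpow, kap_del]
  exact sideW_mul_zpow _ _

theorem sideH_finite (h h' : HH) :
    {w : F3 | ¬ (sideH (SemidirectProduct.inl w * h) ↔ sideH (SemidirectProduct.inl w * h'))}.Finite := by
  refine ((sideW_finite (kap h.left) (kap h'.left)).preimage kap_inj.injOn).subset fun w hw => ?_
  simpa [sideH] using hw

theorem sideH_one : sideH 1 := by
  unfold sideH
  rw [SemidirectProduct.one_left, map_one]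
  exact sideW_one

/-- `τ⁻¹ D τ = y⁻¹ δ⁻¹ y z` with `y = δ x₂ δ⁻¹`, so the `j`-th power is `y⁻¹ δ⁻ʲ y z ^ j` (`sideH_mul` with `b = 1`,
`sideW_conj`) -/
theorem sideH_conj (j : ℕ) (hj : 0 < j) : ¬ sideH ((tau⁻¹ * SemidirectProduct.inr D0 * tau) ^ j) := by
  have e1 : (SemidirectProduct.inr D0 : HH) = SemidirectProduct.inl del⁻¹ * zz := by
    rw [zz, map_inv, inv_mul_cancel_left]
  have e2 : (SemidirectProduct.inl del⁻¹ : HH) * tau =
      tau * SemidirectProduct.inl ((del * of 2 * del⁻¹)⁻¹ * del⁻¹ * (del * of 2 * del⁻¹)) := by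
    ext
    · simp only [SemidirectProduct.mul_left, SemidirectProduct.left_inl, SemidirectProduct.right_inl,
        ch_tau_left, ch_tau_right, map_one, MulAut.one_apply]
      simp only [map_mul, map_inv, act_s0, act_t0, MulAut.mul_apply, del, ch_S0, ch_S1, ch_S2, ch_T0,
        ch_T1, ch_T2]
      group
    · simp only [SemidirectProduct.mul_right, SemidirectProduct.right_inl, one_mul, mul_one]
  have e3 : tau⁻¹ * SemidirectProduct.inr D0 * tau =
      SemidirectProduct.inl ((del * of 2 * del⁻¹)⁻¹ * del⁻¹ * (del * of 2 * del⁻¹)) * zz := by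
    rw [e1, mul_assoc, mul_assoc, ← (zz_central tau).eq, ← mul_assoc _ tau, e2, mul_assoc,
      inv_mul_cancel_left]
  have e4 : kap (del * of 2 * del⁻¹) = of 2 := by
    simp only [map_mul, map_inv, kap_del, ch_kap2]
    group
  have e5 : zz ^ j = SemidirectProduct.inr 1 * zz ^ (j : ℤ) := by rw [map_one, one_mul, zpow_natCast]
  rw [e3, (zz_central _).mul_pow, e5, sideH_mul, ← map_pow]
  unfold sideH
  have e6 : ∀ y d : F3, (y⁻¹ * d * y) ^ j = y⁻¹ * d ^ j * y := fun y d => by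
    simpa using conj_pow (i := j) (a := y⁻¹) (b := d)
  rw [SemidirectProduct.left_inl, map_pow, map_mul, map_mul, map_inv, e4, map_inv, kap_del, e6]
  exact sideW_conj j hj

/-- A homomorphism out of `H`: `s ↦ a`, `t ↦ b`, `τ ↦ θ`, provided `θ a θ⁻¹ = b`, `θ³` commutes with `a`.
Put `c = θ b θ⁻¹` (so `θ c θ⁻¹ = a`, and `b, c` and `c, a` braid), `X₀ = θ b⁻¹ a⁻¹`, `X₁ = a X₀ a⁻¹`, `X₂ = b X₁ b⁻¹`.
Check `b X₀ = X₀ b`, `a X₀ a X₀ = X₀ a X₀ a` (both sides are `c⁻¹ a⁻¹ θ²`), `a X₂ = X₂ a`,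
`b X₁ b X₁ = X₁ b X₁ b` (conjugate by `a b`).  The set of `g : B3` with the compatibility condition of
`SemidirectProduct.lift` is closed under products and inverses (`B3_induction`). -/
theorem exists_HH_lift {T : Type*} [Group T] {a b θ : T} (hab : Braid a b) (h1 : θ * a * θ⁻¹ = b)
    (h3 : Commute (θ ^ 3) a) : ∃ f : HH →* T, f hs = a ∧ f ht = b ∧ f tau = θ := by
  obtain ⟨β, hβs, hβt, -⟩ := B3_lift hab
  have inv_br : ∀ {x y : T}, Braid x y → x * y⁻¹ * x⁻¹ = y⁻¹ * x⁻¹ * y := fun {x y} h => by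
    have h' : x * y * x = y * x * y := h
    calc x * y⁻¹ * x⁻¹ = x * (y * x * y)⁻¹ * y := by group
      _ = y⁻¹ * x⁻¹ * y := by rw [← h']; group
  obtain ⟨c, hc⟩ : ∃ c, θ * b * θ⁻¹ = c := ⟨_, rfl⟩
  have h2 : θ * c * θ⁻¹ = a := by
    calc θ * c * θ⁻¹ = θ ^ 3 * a * (θ ^ 3)⁻¹ := by rw [← hc, ← h1, pow_three]; group
      _ = a := by rw [h3.eq, mul_inv_cancel_right]
  have hca : Braid c a := by
    have := (hab.conj θ).conj θ
    rwa [h1, hc, h2] at this
  obtain ⟨X, hX⟩ : ∃ X, θ * b⁻¹ * a⁻¹ = X := ⟨_, rfl⟩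
  have r1 : b * X * b⁻¹ = X := by
    calc b * X * b⁻¹ = θ * (a * b⁻¹ * a⁻¹) * b⁻¹ := by
          rw [← hX]
          nth_rewrite 1 [← h1]
          group
      _ = X := by rw [inv_br hab, ← hX]; group
  have r2 : a * X * a * X = X * a * X * a := by
    have e1 : X * a * X * a = c⁻¹ * a⁻¹ * θ ^ 2 := by
      rw [← hX]
      nth_rewrite 5 [← h2]
      rw [← hc]
      group
    have e2 : θ ^ 2 * a = c * θ ^ 2 := by rw [← hc, ← h1, pow_two]; group
    calc a * X * a * X = a * (X * a * X * a) * a⁻¹ := by group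
      _ = a * c⁻¹ * a⁻¹ * θ ^ 2 * a⁻¹ := by rw [e1]; group
      _ = c⁻¹ * a⁻¹ * (c * θ ^ 2) * a⁻¹ := by rw [inv_br hca.symm]; group
      _ = X * a * X * a := by rw [← e2, e1]; group
  have hba : a * b * a = b * a * b := hab
  have r3 : a * (b * (a * X * a⁻¹) * b⁻¹) * a⁻¹ = b * (a * X * a⁻¹) * b⁻¹ := by
    calc a * (b * (a * X * a⁻¹) * b⁻¹) * a⁻¹ = (a * b * a) * X * (a * b * a)⁻¹ := by group
      _ = b * (a * (b * X * b⁻¹) * a⁻¹) * b⁻¹ := by rw [hba]; group
      _ = _ := by rw [r1]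
  have r4 : b * (a * X * a⁻¹) * b * (a * X * a⁻¹) = (a * X * a⁻¹) * b * (a * X * a⁻¹) * b := by
    have e1 : (a * b) * X * (a * b)⁻¹ = a * X * a⁻¹ := by
      nth_rewrite 2 [← r1]
      group
    have e2 := hab.conj_eq
    rw [← e1]
    generalize a * b = k at e2 ⊢
    subst e2
    calc _ = k * (a * X * a * X) * k⁻¹ := by group
      _ = _ := by rw [r2]; group
  let N : F3 →* T := FreeGroup.lift ![X, a * X * a⁻¹, b * (a * X * a⁻¹) * b⁻¹]
  have N0 : N (of 0) = X := by simp [N]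
  have N1 : N (of 1) = a * X * a⁻¹ := by simp [N]
  have N2 : N (of 2) = b * (a * X * a⁻¹) * b⁻¹ := by simp [N]
  have key : ∀ (g : B3) (w : F3), N (act g w) = β g * N w * (β g)⁻¹ := by
    have gen : ∀ g : B3, N (act g (of 0)) = β g * N (of 0) * (β g)⁻¹ →
        N (act g (of 1)) = β g * N (of 1) * (β g)⁻¹ → N (act g (of 2)) = β g * N (of 2) * (β g)⁻¹ →
        ∀ w, N (act g w) = β g * N w * (β g)⁻¹ := fun g k0 k1 k2 w =>
      DFunLike.congr_fun (ch_hom_ext (φ := N.comp (act g).toMonoidHom)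
        (ψ := (MulAut.conj (β g)).toMonoidHom.comp N) k0 k1 k2) w
    intro g
    induction g using B3_induction with
    | h1 => simp
    | hs =>
      refine gen _ ?_ ?_ ?_
      · rw [act_s0, ch_S0, hβs, N0, N1]
      · rw [act_s0, ch_S1, hβs, map_mul, map_mul, map_inv, N0, N1]
        calc _ = a * X⁻¹ * a⁻¹ * (X * a * X * a) * a⁻¹ * a⁻¹ := by group
          _ = _ := by rw [← r2]; group
      · rw [act_s0, ch_S2, hβs, N2, r3]
    | ht =>
      refine gen _ ?_ ?_ ?_
      · rw [act_t0, ch_T0, hβt, N0, r1]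
      · rw [act_t0, ch_T1, hβt, N1, N2]
      · rw [act_t0, ch_T2, hβt, map_mul, map_mul, map_inv, N1, N2]
        generalize a * X * a⁻¹ = Y at r4 ⊢
        calc _ = b * Y⁻¹ * b⁻¹ * (Y * b * Y * b) * b⁻¹ * b⁻¹ := by group
          _ = _ := by rw [← r4]; group
    | hmul g g' hg hg' =>
      intro w
      rw [map_mul, MulAut.mul_apply, hg, hg', map_mul]
      group
    | hinv g hg =>
      intro w
      have := hg (act g⁻¹ w)
      rw [← MulAut.mul_apply, ← map_mul, mul_inv_cancel, map_one, MulAut.one_apply] at this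
      rw [this, map_inv β]
      group
  refine ⟨SemidirectProduct.lift N β fun g => MonoidHom.ext fun w => key g w, ?_, ?_, ?_⟩
  · rw [hs, SemidirectProduct.lift_inr, hβs]
  · rw [ht, SemidirectProduct.lift_inr, hβt]
  · rw [tau, hs, ht, map_mul, map_mul, SemidirectProduct.lift_inl, SemidirectProduct.lift_inr,
      SemidirectProduct.lift_inr, hβs, hβt, N0, ← hX]
    group

end Crest.Agent.R175C
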