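import Crest.Agent.R175.Lev

/-!
# R175: from spherical to arbitrary `J`.
-/

set_option autoImplicit false

namespace Crest.Agent.R175

open CoxeterSystem Crest.Agent.R61 Crest.GroupTheory

variable {S : Type} [Fintype S] [DecidableEq S] {M : CoxeterMatrix S}
  {n : ArtinGroup M → S → ℤ → ℝ} {J : Finset S} {g₀ : ArtinGroup M} {m : ℕ} {b c : S → ℝ}

theorem Hyp.union_left {J₁ J₂ : Finset S} (h : NAx n) (hd : Disjoint J₁ J₂)
    (h0 : ∀ i ∈ J₁, ∀ j ∈ J₂, aa M i j = 0) (hy : Hyp n (J₁ ∪ J₂) g₀ m b) : Hyp n J₁ g₀ m b := by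
  intro i hi
  rcases hy i (Finset.mem_union_left _ hi) with ⟨j, hj, h1⟩ | h1
  · exact Or.inl ⟨j, fun h2 => hj (Finset.mem_union_left _ h2), h1⟩
  refine Or.inr ?_
  have h2 : ∑ j ∈ J₁, aa M i j * b j = ∑ j ∈ J₁ ∪ J₂, aa M i j * b j :=
    Finset.sum_subset Finset.subset_union_left fun j hj hj' => by
      rw [h0 i hi j ((Finset.mem_union.1 hj).resolve_left hj'), zero_mul]
  have h3 : ∑ j ∈ (J₁ ∪ J₂)ᶜ, aa M i j * n g₀ j (dS m) = ∑ j ∈ J₁ᶜ, aa M i j * n g₀ j (dS m) :=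
    Finset.sum_subset (Finset.compl_subset_compl.2 Finset.subset_union_left) fun j hj hj' => by
      rw [Finset.mem_compl, not_not] at hj'
      rw [h0 i hi j ((Finset.mem_union.1 hj').resolve_left (Finset.mem_compl.1 hj)), zero_mul]
  unfold SubAt at h1 ⊢
  linarith

theorem CL_hyp_erase {g : ArtinGroup M} {i : S} {t : ℝ} (hi : i ∈ J) (hy : Hyp n J g m b)
    (ht : 0 ≤ t) (hc : ∀ j ∈ J, 2 * c j ≤ ∑ k ∈ J, aa M j k * c k ∨
      ∃ k, k ∉ J ∧ aa M j k ≠ 0 ∧ ¬ InReg n m g k) (he : n g i (dS m) = b i + t * c i) :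
    Hyp n (J.erase i) g m fun j => b j + t * c j := by
  intro j hj
  have hj' := Finset.mem_of_mem_erase hj
  rcases hy j hj' with ⟨k, hk, h1⟩ | h1
  · exact Or.inl ⟨k, fun h2 => hk (Finset.mem_of_mem_erase h2), h1⟩
  rcases hc j hj' with h2 | ⟨k, hk, h2⟩
  swap
  · exact Or.inl ⟨k, fun h2 => hk (Finset.mem_of_mem_erase h2), h2⟩
  refine Or.inr (SubAt.erase hi ?_ he.ge)
  have h3 := mul_le_mul_of_nonneg_left h2 ht
  unfold SubAt at h1 ⊢
  simp only [mul_add, Finset.sum_add_distrib, mul_left_comm _ t, ← Finset.mul_sum]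
  linarith

/-- `exhaust` for `ℓ = lev n m b c`, `lam = toLex (m, 0)`, `Top μ = (top → (ofLex μ).1 ≤ m₁)`.
Let `ℓ g i = (m', t) ≥ (m, 0)` (`lev_cases`).  If `m' = m` then `t ≥ 0`, put `b' = b + t c`, otherwise
`b' = t c`.  The two predicates are `NegS n m' b'`, `TieS n m' b'` on `J.erase i`
(`lev_lt_base`, …, `CC.congr`, `LL.congr`), and `Hyp n (J.erase i) g m' b'` holds: for `j ∈ J.erase i`
a boundary neighbour of `J` outside the region `m'` is one of `J.erase i`; otherwise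
`SubAt n J g (dS m') b' j` (from `hy`, `hc`; for `m' > m` the right side is `≥ 0`), and
`SubAt.erase` applies because `n g i (dS m') = b' i`. -/
theorem cl_exhaust (h : NAx n) (top : Prop) (m₁ : ℕ) (hm : m ≤ m₁) (hy : Hyp n J g₀ m b)
    (hc0 : ∀ j ∈ J, 0 < c j)
    (hc : ∀ j ∈ J, 2 * c j ≤ ∑ k ∈ J, aa M j k * c k ∨
      (top ∧ ∃ k, k ∉ J ∧ aa M j k ≠ 0 ∧ ¬ InReg n m₁ g₀ k))
    (htop : CC J g₀ fun g i => top → InReg n m₁ g i)
    (ih : ∀ i ∈ J, ∀ g m b, Hyp n (J.erase i) g m b →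
      CC (J.erase i) g (NegS n m b) ∧ LL (J.erase i) g (TieS n m b) (NegS n m b)) :
    CC J g₀ (NegS n m b) ∧ LL J g₀ (TieS n m b) (NegS n m b) := by
  have key := exhaust (J := J) (g₀ := g₀) (lev n m b c) (lev_inv h) (toLex (m, 0))
    (fun μ => top → (ofLex μ).1 ≤ m₁)
    (fun x y hxy hy ht => le_trans (Prod.Lex.monotone_fst x y hxy) (hy ht)) (fun _ => hm)
    (lev_isWF h hc0) (htop.congr fun g i _ _ => imp_congr_right fun _ => (lev_fst_le h hm).symm) ?_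
  · have e : ∀ g i, NegS n m (fun j => b j + 0 * c j) g i ↔ NegS n m b g i := fun g i => by simp
    have e' : ∀ g i, TieS n m (fun j => b j + 0 * c j) g i ↔ TieS n m b g i := fun g i => by simp
    exact ⟨key.1.congr fun g i _ hi => (lev_lt_base h (hc0 i hi)).trans (e g i),
      key.2.congr (fun g i _ hi hT => (lev_eq_base h (hc0 i hi)).2 ((e' g i).2 hT))
        fun g i _ hi => (lev_lt_base h (hc0 i hi)).trans (e g i)⟩
  intro g i hg hi hle hT
  have hc' : ∀ m', (top → m' ≤ m₁) → ∀ j ∈ J, 2 * c j ≤ ∑ k ∈ J, aa M j k * c k ∨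
      ∃ k, k ∉ J ∧ aa M j k ≠ 0 ∧ ¬ InReg n m' g k := fun m' hm' j hj =>
    (hc j hj).imp_right fun ⟨ht, k, hk, h1, h2⟩ => ⟨k, hk, h1, fun h3 => h2 (by
      have h4 := h3.mono (hm' ht)
      rw [← mul_inv_cancel_left g₀ g] at h4
      exact ((h.vinv_InReg m₁).of_mem hg hk).1 h4)⟩
  have hc1 : ∀ j ∈ J.erase i, 0 < c j := fun j hj => hc0 j (Finset.mem_of_mem_erase hj)
  rcases lev_cases (m := m) (b := b) h (hc0 i hi) g with ⟨t, e⟩ | ⟨m', t, hm', ht, e⟩
  · rw [e] at hle ⊢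
    have ht : 0 ≤ t := by simpa [Prod.Lex.toLex_le_toLex] using hle
    have hy' : Hyp n J g m b := by
      have := (h.hyp_of_mem hg).2 hy
      rwa [mul_inv_cancel_left] at this
    obtain ⟨h1, h2⟩ := ih i hi g m _ (CL_hyp_erase hi hy' ht (hc' m fun _ => hm)
      ((lev_eq_base h (hc0 i hi)).1 e).2)
    exact ⟨h1.congr fun g j _ hj => (lev_lt_base h (hc1 j hj)).symm,
      h2.congr (fun g j _ hj hT => (lev_eq_base h (hc1 j hj)).1 hT)
        fun g j _ hj => (lev_lt_base h (hc1 j hj)).symm⟩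
  · rw [e] at hT ⊢
    have hy' : Hyp n J g m' fun _ => 0 := fun j _ => Or.inr (by
      unfold SubAt
      simp only [mul_zero, Finset.sum_const_zero, sub_zero]
      exact Finset.sum_nonneg fun k _ => mul_nonneg (aa_nonneg _ _) (h.nonneg _ _ _))
    have h0 := CL_hyp_erase hi hy' ht.le (hc' m' hT)
      (by rw [zero_add]; exact ((lev_eq_high h (hc0 i hi) hm' ht).1 e).2)
    simp only [zero_add] at h0
    obtain ⟨h1, h2⟩ := ih i hi g m' _ h0
    exact ⟨h1.congr fun g j _ hj => (lev_lt_high h (hc1 j hj) hm' ht).symm,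
      h2.congr (fun g j _ hj hT => (lev_eq_high h (hc1 j hj) hm' ht).1 hT)
        fun g j _ hj => (lev_lt_high h (hc1 j hj) hm' ht).symm⟩

omit [Fintype S] in
theorem CL_small (J : Finset S) (δ : S → ℝ) (h : ∀ j ∈ J, 0 < δ j) :
    ∃ ε : ℝ, 0 < ε ∧ ∀ j ∈ J, ε ≤ δ j := by
  induction J using Finset.induction_on with
  | empty => exact ⟨1, one_pos, by simp⟩
  | insert s J _ ih =>
    obtain ⟨ε, h1, h2⟩ := ih fun j hj => h j (Finset.mem_insert_of_mem hj)
    refine ⟨min ε (δ s), lt_min h1 (h s (Finset.mem_insert_self _ _)), fun j hj => ?_⟩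
    rcases Finset.mem_insert.1 hj with rfl | hj
    exacts [min_le_right _ _, (min_le_left _ _).trans (h2 j hj)]

/-- Let `m₂ > m` be least such that all boundary neighbours lie in the region `m₂`, `m₁ = m₂ - 1`,
`β j = ∑ k ∉ J, aa j k * n g₀ k (dS m₂)`, `I = {j ∈ J | β j > 0} ≠ ∅`, `c` from `Irr.pathVec`.  For small
`ε > 0`: `Sub n J g₀ (dS m₂) (ε c)`, and `NegS n m₂ (ε c) = InReg n m₁` on `J`
(`NAx.exists_gap 0`, `inReg_succ_iff`). -/
theorem exists_top_region (h : NAx n) (hS : HasCLS n) (hJ : Sph M J) (hI : Irr M J)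
    (hb : ¬ Bd (M := M) J (InReg n m g₀)) : ∃ (m₁ : ℕ) (c : S → ℝ), m ≤ m₁ ∧ (∀ j ∈ J, 0 < c j) ∧
      (∀ j ∈ J, 2 * c j ≤ ∑ k ∈ J, aa M j k * c k ∨
        ∃ k, k ∉ J ∧ aa M j k ≠ 0 ∧ ¬ InReg n m₁ g₀ k) ∧ CC J g₀ (InReg n m₁) := by
  classical
  have hex : ∃ m₂, Bd (M := M) J (InReg n m₂ g₀) :=
    (h.exists_inReg g₀).imp fun m₂ h2 _ _ j _ _ => h2 j
  have h1 := Nat.find_spec hex
  have h2 : m < Nat.find hex := by
    by_contra h3
    exact hb fun i hi j hj hij => (h1 i hi j hj hij).mono (not_lt.1 h3)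
  obtain ⟨m₁, e⟩ : ∃ m₁, Nat.find hex = m₁ + 1 := ⟨Nat.find hex - 1, by omega⟩
  have h3 : ¬ Bd (M := M) J (InReg n m₁ g₀) := Nat.find_min hex (by omega)
  rw [e] at h1 h2
  obtain ⟨c, hc0, hc⟩ := hI.pathVec (I := J.filter fun j => ∃ k, k ∉ J ∧ aa M j k ≠ 0 ∧
    ¬ InReg n m₁ g₀ k) (Finset.filter_subset _ _) (by
      by_contra h4
      refine h3 fun i hi j hj hij => ?_
      by_contra h5
      exact h4 ⟨i, Finset.mem_filter.2 ⟨hi, j, hj, hij, h5⟩⟩)
  have hc' : ∀ j ∈ J, 2 * c j ≤ ∑ k ∈ J, aa M j k * c k ∨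
      ∃ k, k ∉ J ∧ aa M j k ≠ 0 ∧ ¬ InReg n m₁ g₀ k := fun j hj =>
    or_iff_not_imp_right.2 fun h4 => hc j hj fun h5 => h4 (Finset.mem_filter.1 h5).2
  refine ⟨m₁, c, by omega, hc0, hc', ?_⟩
  obtain ⟨ε₀, hε₀, hgap⟩ := h.exists_gap 0
  have hnn : ∀ j, ∀ k ∈ Jᶜ, 0 ≤ aa M j k * n g₀ k (dS (m₁ + 1)) := fun j k _ =>
    mul_nonneg (aa_nonneg _ _) (h.nonneg _ _ _)
  obtain ⟨ε, hε, hsm⟩ := CL_small J (fun j => min (ε₀ / c j)
    (if 2 * c j ≤ ∑ k ∈ J, aa M j k * c k then 1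
      else (∑ k ∈ Jᶜ, aa M j k * n g₀ k (dS (m₁ + 1))) / (2 * c j))) fun j hj => by
    have := hc0 j hj
    refine lt_min (by positivity) ?_
    split_ifs with h4
    · exact one_pos
    obtain ⟨k, hk, h5, h6⟩ := (hc' j hj).resolve_left h4
    refine div_pos (Finset.sum_pos' (hnn j) ⟨k, Finset.mem_compl.2 hk, mul_pos
      ((aa_nonneg _ _).lt_of_ne' h5) ((h.nonneg _ _ _).lt_of_ne' fun h7 => ?_)⟩) (by positivity)
    exact h6 (inReg_succ_iff.2 ⟨h1 j hj k hk h5, h7⟩)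
  refine (hS J g₀ (m₁ + 1) (fun j => ε * c j) hJ h1 fun j hj => ?_).1.congr fun g i _ hi => ?_
  · have h4 := (hsm j hj).trans (min_le_right _ _)
    have h5 := Finset.sum_nonneg (hnn j)
    have h6 := hc0 j hj
    unfold SubAt
    simp only [mul_left_comm _ ε, ← Finset.mul_sum]
    split_ifs at h4 with h7
    · have := mul_le_mul_of_nonneg_left h7 hε.le
      linarith
    · rw [le_div_iff₀ (by positivity)] at h4
      have : 0 ≤ ε * ∑ k ∈ J, aa M j k * c k := mul_nonneg hε.le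
        (Finset.sum_nonneg fun k hk => mul_nonneg (aa_nonneg _ _) (hc0 k hk).le)
      linarith
  · have h4 := (hsm i hi).trans (min_le_left _ _)
    rw [le_div_iff₀ (hc0 i hi)] at h4
    rw [inReg_succ_iff (m := m₁)]
    refine and_congr_right fun _ => ⟨fun h5 => le_antisymm (hgap _ _ _ ?_) (h.nonneg _ _ _),
      fun h5 => ?_⟩
    · linarith
    · rw [h5]
      exact mul_pos hε (hc0 i hi)

/-- Strong induction on `J`.  Reducible: `exists_decomp`, `cc_join`, `ll_join`.  Irreducible and not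
spherical: `Irr.dichotomy`, `cc_true`, `cl_exhaust` with `top = False`.  Spherical with all boundary
neighbours in the region: `hS`.  Otherwise `exists_top_region`, `cl_exhaust` with `top = True`. -/
theorem hasCL_of_hasCLS (h : NAx n) (hS : HasCLS n) : HasCL n := by
  intro J
  induction J using Finset.strongInduction with
  | H J ih =>
  intro g₀ m b hy
  by_cases hI : Irr M J
  swap
  · obtain ⟨J₁, J₂, rfl, hd, n1, n2, h0⟩ := exists_decomp hI
    have h0' : ∀ i ∈ J₂, ∀ j ∈ J₁, aa M i j = 0 := fun i hi j hj => by rw [aa_symm, h0 j hj i hi]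
    obtain ⟨x, hx⟩ := n2
    obtain ⟨y, hy'⟩ := n1
    have h1 := ih J₁ ((Finset.ssubset_iff_of_subset Finset.subset_union_left).2
      ⟨x, Finset.mem_union_right _ hx, Finset.disjoint_right.1 hd hx⟩) g₀ m b
      (hy.union_left h hd h0)
    have h2 := ih J₂ ((Finset.ssubset_iff_of_subset Finset.subset_union_right).2
      ⟨y, Finset.mem_union_left _ hy', Finset.disjoint_left.1 hd hy'⟩) g₀ m b
      (Hyp.union_left h hd.symm h0' (by rwa [Finset.union_comm]))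
    exact ⟨cc_join hd h0 (h.vinv_NegS m b) h1.1 h2.1,
      ll_join hd h0 (h.vinv_NegS m b) (h.vinv_TieS m b) h1.2 h2.2⟩
  have ih' := fun i (hi : i ∈ J) => ih _ (Finset.erase_ssubset hi)
  by_cases hJ : Sph M J
  swap
  · obtain ⟨c, hc⟩ := hI.dichotomy.resolve_left hJ
    have h2 : 2 ≤ J.card := by
      by_contra h3
      exact hJ (sph_of_card_le_one (by omega))
    exact cl_exhaust h False m le_rfl hy (fun j hj => (hc j hj).1) (fun j hj => Or.inl (hc j hj).2)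
      ((cc_true h2 g₀).congr fun _ _ _ _ => by simp) ih'
  by_cases hb : Bd (M := M) J (InReg n m g₀)
  · exact hS J g₀ m b hJ hb fun i hi => (hy i hi).resolve_left
      fun ⟨j, hj, h1, h2⟩ => h2 (hb i hi j hj h1)
  obtain ⟨m₁, c, hm, hc0, hc, htop⟩ := exists_top_region h hS hJ hI hb
  exact cl_exhaust h True m₁ hm hy hc0 (fun j hj => (hc j hj).imp_right fun h1 => ⟨trivial, h1⟩)
    (htop.congr fun _ _ _ _ => by simp) ih'

end Crest.Agent.R175
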