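import Crest.Agent.R175.Lev

/-!
# R175: from the one-sided to the two-sided statements (spherical `J`).
-/

set_option autoImplicit false

namespace Crest.Agent.R175

open CoxeterSystem Crest.Agent.R61 Crest.GroupTheory

variable {S : Type} [Fintype S] [DecidableEq S] {M : CoxeterMatrix S}
  {n : ArtinGroup M → S → ℤ → ℝ}

theorem CL2_bd {J : Finset S} {P : ArtinGroup M → S → Prop} (h : VInv P) {g₀ g : ArtinGroup M}
    (hg : g₀⁻¹ * g ∈ AP M J) (hb : Bd (M := M) J (P g₀)) : Bd (M := M) J (P g) := by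
  have := Bd.of_mem h hg hb
  rwa [mul_inv_cancel_left] at this

theorem CL2_sub (h : NAx n) {J : Finset S} {g₀ g : ArtinGroup M} (hg : g₀⁻¹ * g ∈ AP M J) {k : ℤ}
    {b : S → ℝ} (hs : Sub n J g₀ k b) : Sub n J g k b := by
  have := (h.sub_of_mem hg).2 hs
  rwa [mul_inv_cancel_left] at this

theorem CL2_shift {J : Finset S} (b γ : S → ℝ) (t : ℝ) (j : S) :
    2 * (b j + t * γ j) - ∑ k ∈ J, aa M j k * (b k + t * γ k) =
      2 * b j - ∑ k ∈ J, aa M j k * b k + t * (2 * γ j - ∑ k ∈ J, aa M j k * γ k) := by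
  simp only [mul_add, Finset.sum_add_distrib, mul_left_comm _ t, ← Finset.mul_sum]
  ring

theorem CL2_sub_shift {J : Finset S} {g : ArtinGroup M} {k : ℤ} {b γ : S → ℝ}
    (hγ : ∀ i ∈ J, 0 < γ i ∧ ∑ j ∈ J, aa M i j * γ j < 2 * γ i) (hs : Sub n J g k b) {t : ℝ}
    (ht : t ≤ 0) : Sub n J g k fun j => b j + t * γ j := fun j hj => by
  have h1 : _ ≤ _ := hs j hj
  have h2 := mul_nonpos_of_nonpos_of_nonneg ht (sub_nonneg.2 (hγ j hj).2.le)
  unfold SubAt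
  rw [CL2_shift]
  linarith

/-- Let `γ` come from `Sph`.  Among the vertices of the residue with `Lo` take `(g, i)` that minimises
`t = (n g i lo - b i) / γ i` (`NAx.exists_min`); `t < 0`, `b + t γ` is strictly subharmonic, and `HasA0`
(with base point `g`) gives `Hi`.  The statement describes all minimisers. -/
theorem exists_minimiser (h : NAx n) (hA : HasA0 n) {J : Finset S} {g₀ : ArtinGroup M} {lo hi : ℤ}
    {b γ : S → ℝ} (hγ : ∀ i ∈ J, 0 < γ i ∧ ∑ j ∈ J, aa M i j * γ j < 2 * γ i) (hlh : lo ≤ hi)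
    (hlo : Bd (M := M) J (Lo n lo g₀)) (hhi : Bd (M := M) J (Hi n hi g₀)) (hs : Sub n J g₀ lo b)
    (hne : ∃ g i, g₀⁻¹ * g ∈ AP M J ∧ i ∈ J ∧ Neg1 n lo b g i) :
    ∃ t : ℝ, t < 0 ∧
      (∃ g i, g₀⁻¹ * g ∈ AP M J ∧ i ∈ J ∧ Tie1 n lo (fun j => b j + t * γ j) g i) ∧
      (∀ g i, g₀⁻¹ * g ∈ AP M J → i ∈ J → ¬ Neg1 n lo (fun j => b j + t * γ j) g i) ∧
      ∀ g i, g₀⁻¹ * g ∈ AP M J → i ∈ J → Tie1 n lo (fun j => b j + t * γ j) g i → Hi n hi g i := by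
  obtain ⟨g₁, i₁, hg₁, hi₁, hN⟩ := hne
  obtain ⟨x, ⟨hx1, hx2, hx3⟩, hmin⟩ := h.exists_min lo b γ (fun i hi => (hγ i hi).1)
    {x | g₀⁻¹ * x.1 ∈ AP M J ∧ x.2 ∈ J ∧ Lo n lo x.1 x.2} ⟨(g₁, i₁), hg₁, hi₁, hN.1⟩
    fun x hx => hx.2.1
  set t := (n x.1 x.2 lo - b x.2) / γ x.2 with ht
  have ht0 : t < 0 := (hmin (g₁, i₁) ⟨hg₁, hi₁, hN.1⟩).trans_lt
    (div_neg_of_neg_of_pos (sub_neg.2 hN.2) (hγ i₁ hi₁).1)
  have hno : ∀ g i, g₀⁻¹ * g ∈ AP M J → i ∈ J → Lo n lo g i → b i + t * γ i ≤ n g i lo :=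
    fun g i hg hi hl => by
      have := hmin (g, i) ⟨hg, hi, hl⟩
      rw [le_div_iff₀ (hγ i hi).1] at this
      linarith
  refine ⟨t, ht0, ⟨x.1, x.2, hx1, hx2, hx3, ?_⟩,
    fun g i hg hi hN => absurd hN.2 (not_lt.2 (hno g i hg hi hN.1)), fun g i hg hi' hT => ?_⟩
  · have := (hγ x.2 hx2).1.ne'
    simp only [ht]
    field_simp
    ring
  · refine hA J g lo hi _ i ⟨γ, hγ⟩ hlh (CL2_bd (h.vinv_Lo lo) hg hlo)
      (CL2_bd (h.vinv_Hi _) hg hhi) (fun j hj => ?_) (fun a ha j hj hl => hno _ j ?_ hj hl) hi' hT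
    · have h1 : _ ≤ _ := CL2_sub h hg hs j hj
      have h2 := mul_neg_of_neg_of_pos ht0 (sub_pos.2 (hγ j hj).2)
      rw [CL2_shift]
      linarith
    · rw [← mul_assoc]
      exact mul_mem hg ha

theorem hasA_of_hasA0 (h : NAx n) (hA : HasA0 n) : HasA n := by
  rintro J g₀ lo hi b ⟨γ, hγ⟩ hlh hlo hhi hs hne
  obtain ⟨t, ht, ⟨g, i, hg, hi', hT⟩, -, hH⟩ := exists_minimiser h hA hγ hlh hlo hhi hs hne
  refine ⟨g, i, hg, hi', hH g i hg hi' hT, hT.1, ?_⟩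
  have := mul_neg_of_neg_of_pos ht (hγ i hi').1
  have e : n g i lo = b i + t * γ i := hT.2
  linarith

theorem CL2_ll (h : NAx n) (hL : HasL1 n) (hA : HasA0 n) {J : Finset S} {g₀ : ArtinGroup M}
    {lo hi : ℤ} {b : S → ℝ} (hJ : Sph M J) (hlh : lo ≤ hi) (hlo : Bd (M := M) J (Lo n lo g₀))
    (hhi : Bd (M := M) J (Hi n hi g₀)) (hs : Sub n J g₀ lo b) :
    LL J g₀ (Tie2 n lo hi b) (Neg2 n lo hi b) := by
  rintro g i hg hi' hT ⟨g', j, hg', hj, hP⟩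
  obtain ⟨a, ha, k, hk, hki, hN⟩ := hL J g₀ lo b hJ hlo hs g i hg hi' hT.2 ⟨g', j, hg', hj, hP.2⟩
  obtain ⟨g₁, l, hg₁, hl, hN'⟩ := hasA_of_hasA0 h hA (J.erase i) g lo hi b
    (hJ.mono (Finset.erase_subset _ _)) hlh ((CL2_bd (h.vinv_Lo lo) hg hlo).erase hT.2.1)
    ((CL2_bd (h.vinv_Hi hi) hg hhi).erase hT.1)
    (fun j hj => SubAt.erase hi' (CL2_sub h hg hs j (Finset.mem_of_mem_erase hj)) hT.2.2.ge)
    ⟨g * a, k, by rwa [inv_mul_cancel_left], Finset.mem_erase.2 ⟨hki, hk⟩, hN⟩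
  exact ⟨g⁻¹ * g₁, hg₁, l, Finset.mem_of_mem_erase hl, Finset.ne_of_mem_erase hl,
    by rwa [mul_inv_cancel_left]⟩

/-- `LL`: `HasL1` gives a `Neg1`-neighbour, `HasA` for `J.erase i` a `Neg2`-neighbour.
`CC`: let `t` be as in `exists_minimiser`.  For small `ε > 0` with `t + ε ≤ 0` the `Neg1`-vertices for
`b + (t + ε) γ` are the minimisers (`NAx.exists_gap'`); they are connected by `HasC1`, and all are
`Neg2`-vertices for `b`.  A `Neg2`-vertex `(g, i)` with `τ = (n g i lo - b i) / γ i > t` is a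
`Tie2`-vertex for the subharmonic `b + τ γ`, so it has a `Neg2`-neighbour with smaller `τ`.  If some
`Neg2`-vertex were not connected to a minimiser, take one with least `τ` (`NAx.exists_min`). -/
theorem hasCL2_of (h : NAx n) (hC : HasC1 n) (hL : HasL1 n) (hA : HasA0 n) : HasCL2 n := by
  intro J g₀ lo hi b hJ hlh hlo hhi hs
  refine ⟨?_, CL2_ll h hL hA hJ hlh hlo hhi hs⟩
  obtain ⟨γ, hγ⟩ := id hJ
  intro g g' i j hg hg' hi' hj hP hP'
  obtain ⟨t, ht, ⟨g₁, i₁, hg₁, hi₁, hT₁⟩, hno, hH⟩ :=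
    exists_minimiser h hA hγ hlh hlo hhi hs ⟨g, i, hg, hi', hP.2⟩
  obtain ⟨ε₀, hε₀, hgap⟩ := h.exists_gap' fun j => b j + t * γ j
  have hsum : 0 < 1 + ∑ k ∈ J, γ k :=
    add_pos_of_pos_of_nonneg one_pos (Finset.sum_nonneg fun k hk => (hγ k hk).1.le)
  set ε := min (-t) (ε₀ / (1 + ∑ k ∈ J, γ k)) with hε
  have hε0 : 0 < ε := lt_min (neg_pos.2 ht) (div_pos hε₀ hsum)
  have hε1 : t + ε ≤ 0 := by linarith [min_le_left (-t) (ε₀ / (1 + ∑ k ∈ J, γ k))]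
  have hε2 : ∀ k ∈ J, ε * γ k ≤ ε₀ := fun k hk => by
    have h1 : ε ≤ ε₀ / (1 + ∑ k ∈ J, γ k) := min_le_right _ _
    rw [le_div_iff₀ hsum] at h1
    have h2 : γ k ≤ ∑ k ∈ J, γ k := Finset.single_le_sum (fun k hk => (hγ k hk).1.le) hk
    exact (mul_le_mul_of_nonneg_left (by linarith) hε0.le).trans h1
  have hmin : ∀ g i, g₀⁻¹ * g ∈ AP M J → i ∈ J → Tie1 n lo (fun j => b j + t * γ j) g i →
      Conn J (Neg2 n lo hi b) (g, i) (g₁, i₁) := fun g i hg hi' hT => by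
    have h1 : ∀ g i, i ∈ J → Tie1 n lo (fun j => b j + t * γ j) g i →
        Neg1 n lo (fun j => b j + (t + ε) * γ j) g i := fun g i hi' hT => ⟨hT.1, by
      have e : n g i lo = b i + t * γ i := hT.2
      have := mul_pos hε0 (hγ i hi').1
      change n g i lo < b i + (t + ε) * γ i
      linarith⟩
    refine (hC J g₀ lo _ hJ hlo (CL2_sub_shift hγ hs hε1) g g₁ i i₁ hg hg₁ hi' hi₁ (h1 g i hi' hT)
      (h1 g₁ i₁ hi₁ hT₁)).mono_res (g₀ := g₀) hg fun g i hg hi' hN => ?_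
    have h2 : n g i lo < b i + (t + ε) * γ i := hN.2
    have h3 : n g i lo ≤ b i + t * γ i := hgap g i lo (by linarith [hε2 i hi'])
    have h4 : n g i lo = b i + t * γ i :=
      h3.eq_of_not_lt fun h5 => hno g i hg hi' ⟨hN.1, h5⟩
    have := mul_neg_of_neg_of_pos ht (hγ i hi').1
    exact ⟨hH g i hg hi' ⟨hN.1, h4⟩, hN.1, by linarith⟩
  have key : ∀ g i, g₀⁻¹ * g ∈ AP M J → i ∈ J → Neg2 n lo hi b g i →
      Conn J (Neg2 n lo hi b) (g, i) (g₁, i₁) := by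
    by_contra hcon
    push Not at hcon
    obtain ⟨g₂, i₂, hcon⟩ := hcon
    obtain ⟨⟨g, i⟩, ⟨hg, hi', hP, hn⟩, hm⟩ := h.exists_min lo b γ (fun i hi => (hγ i hi).1)
      {x | g₀⁻¹ * x.1 ∈ AP M J ∧ x.2 ∈ J ∧ Neg2 n lo hi b x.1 x.2 ∧
        ¬ Conn J (Neg2 n lo hi b) x (g₁, i₁)} ⟨(g₂, i₂), hcon⟩ fun x hx => hx.2.1
    simp only at hg hi' hP hm
    set τ := (n g i lo - b i) / γ i with hτ
    have hγi := (hγ i hi').1
    have e : n g i lo = b i + τ * γ i := by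
      simp only [hτ]
      field_simp
      ring
    have hτ0 : τ < 0 := div_neg_of_neg_of_pos (sub_neg.2 hP.2.2) hγi
    have htτ : t < τ := by
      by_contra h1
      have h2 := mul_le_mul_of_nonneg_right (not_lt.1 h1) hγi.le
      refine hn (hmin g i hg hi' ⟨hP.2.1, le_antisymm (by linarith) (not_lt.1 fun h3 => ?_)⟩)
      exact hno g i hg hi' ⟨hP.2.1, h3⟩
    obtain ⟨a, ha, k, hk, hki, hN⟩ := CL2_ll h hL hA hJ hlh hlo hhi (CL2_sub_shift hγ hs hτ0.le)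
      g i hg hi' ⟨hP.1, hP.2.1, e⟩ ⟨g₁, i₁, hg₁, hi₁, hH g₁ i₁ hg₁ hi₁ hT₁, hT₁.1, by
        have e₁ : n g₁ i₁ lo = b i₁ + t * γ i₁ := hT₁.2
        have := mul_lt_mul_of_pos_right htτ (hγ i₁ hi₁).1
        change n g₁ i₁ lo < b i₁ + τ * γ i₁
        linarith⟩
    have h1 : n (g * a) k lo < b k + τ * γ k := hN.2.2
    have h2 := mul_neg_of_neg_of_pos hτ0 (hγ k hk).1
    have h3 : Neg2 n lo hi b (g * a) k := ⟨hN.1, hN.2.1, by linarith⟩
    have h4 : g₀⁻¹ * (g * a) ∈ AP M J := by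
      rw [← mul_assoc]
      exact mul_mem hg (AP_mono (Finset.erase_subset _ _) ha)
    have h5 : Neg2 n lo hi b (g * a) i :=
      ((h.vinv_Neg2 lo hi b).of_mem ha (Finset.notMem_erase _ _)).2 hP
    have h6 : Conn J (Neg2 n lo hi b) (g * a, k) (g₁, i₁) := by
      by_contra h7
      have h8 := hm (g * a, k) ⟨h4, hk, h3, h7⟩
      rw [le_div_iff₀ (hγ k hk).1] at h8
      linarith
    exact hn (((conn_coset hi' (by rwa [inv_mul_cancel_left]) hP h5).trans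
      (conn_same hi' hk h5 h3)).trans h6)
  exact (key g i hg hi' hP).trans (key g' j hg' hj hP').symm

/-- `m = 2 r`: `lo = -r`, `hi = r`.  `m = 2 r + 1`: apply `HasCL2` with `lo = -(r+1)`, `hi = r` at the
base point `iota M g₀` and use `CC.iota`, `LL.iota`. -/
theorem hasCLS_of (h2 : HasCL2 n) (hd : ∀ g i k, n (iota M g) i (-k) = n g i k) : HasCLS n := by
  intro J g₀ m b hJ hb hs
  obtain ⟨r, rfl | rfl⟩ := Nat.even_or_odd' m
  · rw [dS_even] at hs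
    obtain ⟨h3, h4⟩ := h2 J g₀ (-(r : ℤ)) r b hJ (by omega)
      (fun i hi j hj hij => ((inReg_even r).1 (hb i hi j hj hij)).1)
      (fun i hi j hj hij => ((inReg_even r).1 (hb i hi j hj hij)).2) hs
    have e : ∀ g i, Neg2 n (-(r : ℤ)) r b g i ↔ NegS n (2 * r) b g i := fun g i => by
      simp only [Neg2, Neg1, NegS, inReg_even, dS_even]
      tauto
    refine ⟨h3.congr fun g i _ _ => e g i, h4.congr (fun g i _ _ => ?_) fun g i _ _ => e g i⟩
    simp only [Tie2, Tie1, TieS, inReg_even, dS_even]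
    tauto
  · have hd' : ∀ g i k, n (iota M g) i k = n g i (-k) := fun g i k => by rw [← hd g, neg_neg]
    have hLo : ∀ g i lo, Lo n lo (iota M g) i ↔ Hi n (-lo) g i := fun g i lo =>
      ⟨fun h k hk => by rw [← hd]; exact h _ (by omega),
        fun h k hk => by rw [hd']; exact h _ (by omega)⟩
    have hHi : ∀ g i hi, Hi n hi (iota M g) i ↔ Lo n (-hi) g i := fun g i hi =>
      ⟨fun h k hk => by rw [← hd]; exact h _ (by omega),
        fun h k hk => by rw [hd']; exact h _ (by omega)⟩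
    rw [dS_odd] at hs
    obtain ⟨h3, h4⟩ := h2 J (iota M g₀) (-((r : ℤ) + 1)) r b hJ (by omega)
      (fun i hi j hj hij => (hLo _ _ _).2 (by
        rw [neg_neg]; exact ((inReg_odd r).1 (hb i hi j hj hij)).2))
      (fun i hi j hj hij => (hHi _ _ _).2 ((inReg_odd r).1 (hb i hi j hj hij)).1)
      (fun i hi => by simpa only [SubAt, hd] using hs i hi)
    have e : ∀ g i, Neg2 n (-((r : ℤ) + 1)) r b g i ↔ NegS n (2 * r + 1) b (iota M g) i :=
      fun g i => by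
        simp only [Neg2, Neg1, NegS, inReg_odd, dS_odd, hLo, hHi, hd', neg_neg]
        tauto
    refine ⟨CC.iota (h3.congr fun g i _ _ => e g i),
      LL.iota (h4.congr (fun g i _ _ => ?_) fun g i _ _ => e g i)⟩
    simp only [Tie2, Tie1, TieS, inReg_odd, dS_odd, hLo, hHi, hd', neg_neg]
    tauto

end Crest.Agent.R175
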