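import Crest.Agent.R175.CBf

/-!
# R175/CLG: two flat sectors meeting along the ray of `g` unfold isometrically
-/

set_option autoImplicit false

namespace Crest.Agent.R175C

/-- `a ^ i` and `b ^ j` are separated inside the centraliser of `g` by a wall coarsely equal to `Λ`. -/
def Sep {G : Type*} [Group G] (g a b : G) (Λ : Set G) : Prop :=
  ∃ side : G → Prop, (∀ i j : ℕ, 0 < i → 0 < j → ¬ (side (a ^ i) ↔ side (b ^ j))) ∧
    ∀ f, Commute f g → ∃ F : Set G, F.Finite ∧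
      ∀ c, Commute c g → ¬ (side c ↔ side (c * f)) → ∃ l ∈ Λ, ∃ e ∈ F, c = l * e

variable {G X : Type*} [Group G] [MetricSpace X] [MulAction G X]

/-- Points of displacement `≤ L` are uniformly close to the orbit of the centraliser.  `y` is within `r` of
`k • x` (`cocompact`), so `k⁻¹ * g * k` lies in the finite set `F = {h | dist x (h • x) ≤ L + 2 r}`; for each
`h ∈ F` conjugate to `g` fix `k_h` with `k_h⁻¹ * g * k_h = h`; `c = k * k_h⁻¹` commutes with `g` and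
`dist y (c • x) ≤ r + dist x (k_h • x)`. -/
theorem Geo.near_cent [ProperSpace X] (H : Geo G X) (g : G) (x : X) (L : ℝ) :
    ∃ R : ℝ, ∀ y : X, dist y (g • y) ≤ L → ∃ c : G, Commute c g ∧ dist y (c • x) ≤ R := by
  classical
  obtain ⟨r, hr⟩ := H.cocompact x
  have hF := H.finite_ball x (L + 2 * r)
  have hκ : ∀ h : G, ∃ κ : G, (∃ k : G, k⁻¹ * g * k = h) → κ⁻¹ * g * κ = h := fun h => by
    by_cases hh : ∃ k : G, k⁻¹ * g * k = h
    · obtain ⟨k, hk⟩ := hh
      exact ⟨k, fun _ => hk⟩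
    · exact ⟨1, fun h' => absurd h' hh⟩
  choose κ hκ using hκ
  obtain ⟨M, hM⟩ := (hF.image fun h => dist x (κ h • x)).bddAbove
  refine ⟨r + M, fun y hy => ?_⟩
  obtain ⟨k, hk⟩ := hr y
  have h1 : dist x ((k⁻¹ * g * k) • x) ≤ L + 2 * r := by
    rw [← H.dist_smul k, smul_smul, ← mul_assoc, ← mul_assoc, mul_inv_cancel, one_mul, mul_smul]
    have h2 := dist_triangle4 (k • x) y (g • y) (g • k • x)
    rw [H.dist_smul g, dist_comm (k • x) y] at h2
    linarith
  have h2 := hM (Set.mem_image_of_mem _ h1)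
  have h3 := hκ (k⁻¹ * g * k) ⟨k, rfl⟩
  generalize κ (k⁻¹ * g * k) = q at h2 h3
  refine ⟨k * q⁻¹, ?_, ?_⟩
  · show k * q⁻¹ * g = g * (k * q⁻¹)
    calc k * q⁻¹ * g = k * (q⁻¹ * g * q) * q⁻¹ := by group
      _ = g * (k * q⁻¹) := by rw [h3]; group
  · have h4 := dist_triangle y (k • x) ((k * q⁻¹) • x)
    rw [mul_smul, H.dist_smul k, ← H.dist_smul q x, smul_inv_smul, dist_comm (q • x)] at h4
    rw [mul_smul]
    linarith

/-- The geodesic from `a ^ i • x` to `b ^ j • x` (`exists_chain`) has displacement `≤ L = dist x (g • x)`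
(`disp_convex`), so `y k` is within `R` (may assume `R ≥ 0`) of `c k • x`, `c k` in the centraliser, with
`c 0 = a ^ i`, `c n = b ^ j`.  At some `k < n` the side changes; `f = (c k)⁻¹ * c (k+1)` lies in the finite set
`{f | dist x (f • x) ≤ 2 R + 1}`, hence `c k = l * e` with `e` in a fixed finite set. -/
theorem Geo.lg_pass [ProperSpace X] (H : Geo G X) {g a b : G} {Λ : Set G} (ha : Commute a g)
    (hb : Commute b g) (hs : Sep g a b Λ) (x : X) :
    ∃ K : ℝ, ∀ i j : ℕ, 0 < i → 0 < j → ∃ l ∈ Λ,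
      dist (a ^ i • x) (l • x) + dist (l • x) (b ^ j • x) ≤ dist (a ^ i • x) (b ^ j • x) + K := by
  classical
  obtain ⟨side, hs1, hs2⟩ := hs
  obtain ⟨R0, hR0⟩ := H.near_cent g x (dist x (g • x))
  obtain ⟨R, hR, hR'⟩ : ∃ R : ℝ, 0 ≤ R ∧ R0 ≤ R := ⟨max R0 0, le_max_right _ _, le_max_left _ _⟩
  choose! F hF hF' using hs2
  have hfin : (⋃ f ∈ {f : G | dist x (f • x) ≤ 2 * R + 1 ∧ Commute f g}, F f).Finite :=
    ((H.finite_ball x (2 * R + 1)).subset fun f hf => hf.1).biUnion fun f hf => hF f hf.2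
  obtain ⟨M, hM⟩ := (hfin.image fun e => dist x (e • x)).bddAbove
  refine ⟨2 * (M + R), fun i j hi hj => ?_⟩
  by_contra hcon
  have step : ∀ (y : X) (c c' : G), dist (a ^ i • x) y + dist y (b ^ j • x) =
      dist (a ^ i • x) (b ^ j • x) → Commute c g → Commute c' g → dist y (c • x) ≤ R →
      dist y (c' • x) ≤ R + 1 → (side c ↔ side c') := by
    intro y c c' hy hc hc' h1 h2
    by_contra hne
    have hf : Commute (c⁻¹ * c') g := hc.inv_left.mul_left hc'
    have h3 : dist x ((c⁻¹ * c') • x) ≤ 2 * R + 1 := by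
      rw [← H.dist_smul c, mul_smul, smul_inv_smul]
      have := dist_triangle_left (c • x) (c' • x) y
      linarith
    obtain ⟨l, hl, e, he, rfl⟩ := hF' _ hf c hc (by rwa [mul_inv_cancel_left])
    have h4 : dist x (e • x) ≤ M :=
      hM (Set.mem_image_of_mem _ (Set.mem_biUnion (show _ ∈ {f : G | _} from ⟨h3, hf⟩) he))
    have h5 : dist y (l • x) ≤ M + R := by
      have := dist_triangle_right y (l • x) ((l * e) • x)
      rw [mul_smul l e, H.dist_smul l, ← mul_smul] at this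
      linarith
    refine hcon ⟨l, hl, ?_⟩
    have h6 := dist_triangle (a ^ i • x) y (l • x)
    have h7 := dist_triangle_left (l • x) (b ^ j • x) y
    linarith
  have disp : ∀ c : G, Commute c g → dist (c • x) (g • c • x) ≤ dist x (g • x) := fun c hc => by
    rw [← mul_smul, ← hc.eq, mul_smul, H.dist_smul]
  obtain ⟨n, y, y0, yn, y1, y2⟩ := exists_chain H.cat (a ^ i • x) (b ^ j • x)
  have hy : ∀ k, ∃ c : G, k ≤ n → Commute c g ∧ dist (y k) (c • x) ≤ R := fun k => by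
    by_cases hk : k ≤ n
    · obtain ⟨t, t0, t1, e1, e2⟩ := y2 k hk
      obtain ⟨c, hc, hd⟩ := hR0 (y k) (disp_convex H.cat (fun p => g • p) (H.dist_smul g) t0 t1 e1 e2
        (disp _ (ha.pow_left i)) (disp _ (hb.pow_left j)))
      exact ⟨c, fun _ => ⟨hc, hd.trans hR'⟩⟩
    · exact ⟨1, fun h => absurd h hk⟩
  choose c hc using hy
  have btw : ∀ k ≤ n, dist (a ^ i • x) (y k) + dist (y k) (b ^ j • x) =
      dist (a ^ i • x) (b ^ j • x) := fun k hk => by
    obtain ⟨t, -, -, e1, e2⟩ := y2 k hk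
    rw [e1, e2]
    ring
  have ind : ∀ k ≤ n, (side (a ^ i) ↔ side (c k)) := by
    intro k
    induction k with
    | zero =>
      intro hk
      exact step (y 0) _ _ (btw 0 hk) (ha.pow_left i) (hc 0 hk).1 (by rw [y0, dist_self]; exact hR)
        (by linarith [(hc 0 hk).2])
    | succ k ih =>
      intro hk
      have hk' : k ≤ n := by omega
      refine (ih hk').trans (step (y k) _ _ (btw k hk') (hc k hk').1 (hc _ hk).1 (hc k hk').2 ?_)
      have := dist_triangle (y k) (y (k + 1)) (c (k + 1) • x)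
      linarith [y1 k (by omega), (hc _ hk).2]
  exact hs1 i j hi hj ((ind n le_rfl).trans (step (y n) _ _ (btw n le_rfl) (hc n le_rfl).1
    (hb.pow_left j) (hc n le_rfl).2 (by rw [yn, dist_self]; linarith)))

theorem clg_mink {u v u' v' d d' : ℝ} (hd : 0 ≤ d) (hd' : 0 ≤ d') (h : u ^ 2 + v ^ 2 ≤ d ^ 2)
    (h' : u' ^ 2 + v' ^ 2 ≤ d' ^ 2) : (u + u') ^ 2 + (v + v') ^ 2 ≤ (d + d') ^ 2 := by
  have h1 : (u * u' + v * v') ^ 2 ≤ (d * d') ^ 2 := by
    have h2 := mul_le_mul h h' (by positivity) (by positivity)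
    nlinarith [sq_nonneg (u * v' - v * u')]
  have h3 := (abs_le_of_sq_le_sq' h1 (mul_nonneg hd hd')).2
  nlinarith

theorem Geo.clg_one [ProperSpace X] [Nonempty X] (H : Geo G X) {g a l : G} (ha : Commute a g)
    (hg0 : 0 < nm X g) (ha0 : 0 < nm X a) (h1 : Commute l g) (h2 : Commute l a)
    (h3 : Bf X a l * nm X g ^ 2 = Bf X a g * Bf X g l) (x : X) (i : ℕ) :
    (i * nm X a * Real.cos (ang X a g) - Bf X g l / nm X g) ^ 2 +
      (i * nm X a * Real.sin (ang X a g)) ^ 2 ≤ dist (a ^ i • x) (l • x) ^ 2 := by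
  have e1 := H.nm_mul_zpow h2 (-(i : ℤ)) 1
  have e2 := nm_le (a ^ (-(i : ℤ)) * l ^ (1 : ℤ)) x
  have e3 : dist x ((a ^ (-(i : ℤ)) * l ^ (1 : ℤ)) • x) = dist (a ^ i • x) (l • x) := by
    rw [← H.dist_smul (a ^ i), zpow_neg, zpow_natCast, zpow_one, mul_smul, smul_inv_smul]
  have e4 := pow_le_pow_left₀ (nm_nonneg _) e2 2
  rw [e1, e3] at e4
  push_cast at e4
  obtain ⟨μ, hμ⟩ : ∃ μ, Bf X g l = μ * nm X g := ⟨_, (div_mul_cancel₀ _ hg0.ne').symm⟩
  have e5 := H.abs_Bf_le h1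
  rw [hμ, abs_mul, abs_of_pos hg0, mul_comm] at e5
  have e6 : μ ^ 2 ≤ nm X l ^ 2 := by
    rw [← sq_abs]
    exact pow_le_pow_left₀ (abs_nonneg _) (le_of_mul_le_mul_left e5 hg0) 2
  have e7 : Bf X a l = nm X a * Real.cos (ang X a g) * μ := by
    rw [H.Bf_eq_cos ha.symm ha0 hg0, hμ] at h3
    refine mul_right_cancel₀ (pow_ne_zero 2 hg0.ne') (h3.trans ?_)
    ring
  rw [hμ, mul_div_cancel_right₀ _ hg0.ne']
  rw [e7] at e4
  have e8 := Real.cos_sq_add_sin_sq (ang X a g)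
  have e9 : (i * nm X a * Real.cos (ang X a g) - μ) ^ 2 + (i * nm X a * Real.sin (ang X a g)) ^ 2 =
      (i * nm X a) ^ 2 - 2 * i * (nm X a * Real.cos (ang X a g) * μ) + μ ^ 2 := by
    linear_combination (i * nm X a) ^ 2 * e8
  rw [e9]
  nlinarith

/-- `dist (a ^ i • x) (l • x) ≥ nm (a ^ (-i) * l)`, whose square is
`i² |a|² - 2 i Bf a l + |l|² ≥ (i |a| cos θ - μ)² + (i |a| sin θ)²` with `μ = Bf g l / |g|`
(`abs_Bf_le` gives `|l|² ≥ μ²`, the hypothesis gives `Bf a l = |a| cos θ * μ`).  Same for `b`; then the triangle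
inequality in the plane (Minkowski). -/
theorem Geo.lg [ProperSpace X] [Nonempty X] (H : Geo G X) {g a b : G} {Λ : Set G} (ha : Commute a g)
    (hb : Commute b g) (hs : Sep g a b Λ) (hg0 : 0 < nm X g) (ha0 : 0 < nm X a) (hb0 : 0 < nm X b)
    (hΛ : ∀ l ∈ Λ, Commute l g ∧ Commute l a ∧ Commute l b ∧
      Bf X a l * nm X g ^ 2 = Bf X a g * Bf X g l ∧ Bf X b l * nm X g ^ 2 = Bf X b g * Bf X g l) (x : X) :
    ∃ K : ℝ, ∀ i j : ℕ, 0 < i → 0 < j →
      √((i * nm X a) ^ 2 + (j * nm X b) ^ 2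
        - 2 * (i * nm X a) * (j * nm X b) * Real.cos (ang X a g + ang X g b))
        ≤ dist (a ^ i • x) (b ^ j • x) + K := by
  obtain ⟨K, hK⟩ := H.lg_pass ha hb hs x
  refine ⟨K, fun i j hi hj => ?_⟩
  obtain ⟨l, hl, h⟩ := hK i j hi hj
  obtain ⟨h1, h2, h3, h4, h5⟩ := hΛ l hl
  have k1 := H.clg_one ha hg0 ha0 h1 h2 h4 x i
  have k2 := H.clg_one hb hg0 hb0 h1 h3 h5 x j
  rw [dist_comm, ← ang_comm hb] at k2
  refine le_trans (Real.sqrt_le_iff.2 ⟨by positivity, ?_⟩) h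
  rw [← neg_sq] at k2
  have := clg_mink dist_nonneg dist_nonneg k1 k2
  refine le_trans (le_of_eq ?_) this
  rw [Real.cos_add]
  linear_combination (-(i * nm X a) ^ 2) * Real.cos_sq_add_sin_sq (ang X a g) -
    (j * nm X b) ^ 2 * Real.cos_sq_add_sin_sq (ang X g b)

/-- pull back along an injective homomorphism -/
theorem Sep.comap {G' : Type*} [Group G'] (φ : G →* G') (hφ : Function.Injective φ) {g a b : G}
    (h : Sep (φ g) (φ a) (φ b) (Subgroup.zpowers (φ g) : Set G')) :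
    Sep g a b (Subgroup.zpowers g : Set G) := by
  obtain ⟨side, h1, h2⟩ := h
  refine ⟨fun c => side (φ c), fun i j hi hj => ?_, fun f hf => ?_⟩
  · simpa only [map_pow] using h1 i j hi hj
  · obtain ⟨F, hF, h3⟩ := h2 (φ f) (hf.map φ)
    refine ⟨φ ⁻¹' F, hF.preimage hφ.injOn, fun c hc hne => ?_⟩
    obtain ⟨l, ⟨n, rfl⟩, e, he, h4⟩ := h3 (φ c) (hc.map φ) (by simpa only [map_mul] using hne)
    refine ⟨g ^ n, ⟨n, rfl⟩, (g ^ n)⁻¹ * c, ?_, (mul_inv_cancel_left _ _).symm⟩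
    rw [Set.mem_preimage, map_mul, map_inv, map_zpow, h4]
    simpa using he

end Crest.Agent.R175C
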