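import Crest.Agent.R175.CGam
import Crest.Agent.R175.CCone
import Crest.Agent.R175.CBraid

/-!
# R175/CMain: S0264 from the parabolic intersection property
-/

set_option autoImplicit false

namespace Crest.Agent.R175C

open Crest.GroupTheory Crest.Geometry Real

/-- the Coxeter matrix on 116 generators -/
def M116 : CoxeterMatrix {p // keep p} := restr MS keep

theorem lab_M116 : Lab23 M116 := by
  intro s t hst
  exact lab_MS s.1 t.1 fun e => hst (Subtype.ext e)

def gg (i : Fin 3) : ArtinGroup M116 := artinGen M116 ⟨(i, 0), by revert i; decide⟩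

theorem main_MK_apply (a b : Fin 40) (hab : a ≠ b) : MK.M a b = labK a b := by
  unfold MK
  rw [mkCM_apply, if_neg hab]

/-- the index of the `a`-th generator of the `i`-th chain -/
def mainIdx (i : Fin 3) (a : ℕ) (ha : a < 10) : {p // keep p} :=
  ⟨emb i ⟨a, by omega⟩, keep_emb i _ ha⟩

theorem main_M116_idx (i : Fin 3) (a b : ℕ) (ha : a < 10) (hb : b < 10) (hab : a ≠ b) :
    M116.M (mainIdx i a ha) (mainIdx i b hb) = labK a b := by
  unfold M116
  rw [restr_apply]
  show MS.M (emb i ⟨a, by omega⟩) (emb i ⟨b, by omega⟩) = labK a b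
  rw [MS_emb, main_MK_apply _ _ (fun e => hab (congrArg Fin.val e))]

theorem main_idx_zero (i : Fin 3) : mainIdx i 0 (by omega) = ⟨(i, 0), by revert i; decide⟩ := by
  apply Subtype.ext
  show emb i 0 = (i, 0)
  simp [emb]

theorem main_idx_one (i : Fin 3) : mainIdx i 1 (by omega) = ⟨(i + 1, 0), by revert i; decide⟩ := by
  apply Subtype.ext
  show emb i 1 = (i + 1, 0)
  simp [emb]

/-- the chain `σ a = generator (emb i a)` (`a < 10`; `1` otherwise) -/
theorem exists_chain116 (i : Fin 3) :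
    ∃ σ : ℕ → ArtinGroup M116, Chain σ 10 ∧ σ 0 = gg i ∧ σ 1 = gg (i + 1) := by
  refine ⟨fun a => if ha : a < 10 then artinGen M116 (mainIdx i a ha) else 1, ⟨?_, ?_⟩, ?_, ?_⟩
  · intro a ha
    have ha' : a < 10 := by omega
    simp only [dif_pos ha, dif_pos ha']
    apply gen_braid
    rw [main_M116_idx i a (a + 1) ha' ha (by omega)]
    unfold labK
    rw [if_pos ⟨ha', ha⟩, if_pos (Or.inl rfl)]
  · intro a b hab hb
    have ha : a < 10 := by omega
    simp only [dif_pos ha, dif_pos hb]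
    apply gen_comm
    rw [main_M116_idx i a b ha hb (by omega)]
    unfold labK
    rw [if_pos ⟨ha, hb⟩, if_neg (by omega)]
  · have h0 : (0 : ℕ) < 10 := by omega
    simp only [dif_pos h0]
    rw [main_idx_zero]
    rfl
  · have h1 : (1 : ℕ) < 10 := by omega
    simp only [dif_pos h1]
    rw [main_idx_one]
    rfl

theorem main_M116_gg (i : Fin 3) :
    M116.M ⟨(i, 0), by revert i; decide⟩ ⟨(i + 1, 0), by revert i; decide⟩ = 3 := by
  rw [← main_idx_zero, ← main_idx_one, main_M116_idx i 0 1 _ _ (by omega)]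
  decide

theorem main_braid (i : Fin 3) : Braid (gg i) (gg (i + 1)) := gen_braid (main_M116_gg i)

/-- length, resp. `beta_inj` and `inf_order` -/
theorem gg_inf (i : Fin 3) :
    ¬ IsOfFinOrder (gg i) ∧ ¬ IsOfFinOrder (gg i ^ 6 * ((gg i * gg (i + 1)) ^ 3)⁻¹) := by
  constructor
  · obtain ⟨len, hlen⟩ := exists_len lab_M116
    intro h
    have h2 := len.isOfFinOrder h
    unfold gg at h2
    rw [hlen] at h2
    obtain ⟨n, hn, h3⟩ := isOfFinOrder_iff_pow_eq_one.1 h2
    have h4 : ((n : ℕ) : ℤ) = 0 := by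
      have := congrArg Multiplicative.toAdd h3
      simpa using this
    omega
  · obtain ⟨β, hs, ht, -⟩ := B3_lift (main_braid i)
    have hinj : Function.Injective β := beta_inj lab_M116 (main_M116_gg i) β hs ht
    intro h
    apply inf_order
    rw [← hinj.isOfFinOrder_iff (f := β)]
    simpa [D0, hs, ht] using h

/-- `Sep.comap` along `exists_restr_inj` -/
theorem sep_gg (i : Fin 3) : Sep (gg (i + 1)) ((gg i * gg (i + 1)) ^ 3) ((gg (i + 1) * gg (i + 2)) ^ 3)
    (Subgroup.zpowers (gg (i + 1)) : Set _) := by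
  obtain ⟨φ, hinj, hφ⟩ : ∃ φ : ArtinGroup M116 →* ArtinGroup MS, Function.Injective φ ∧
      ∀ s, φ (artinGen M116 s) = artinGen MS s.1 := exists_restr_inj lab_MS keep MS_free
  have hg : ∀ j, φ (gg j) = gS j := fun j => hφ _
  apply Sep.comap φ hinj
  simp only [map_pow, map_mul, hg]
  exact sep_gS i

section
variable {X : Type*} [MetricSpace X] [ProperSpace X] [Nonempty X] [MulAction (ArtinGroup M116) X]

theorem main_angle (H : Geo (ArtinGroup M116) X) (i : Fin 3) :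
    0 < nm X (gg i) ∧ 0 < nm X (gg (i + 1)) ∧ 0 < nm X ((gg i * gg (i + 1)) ^ 3) ∧
    (0 < ang X (gg i) ((gg i * gg (i + 1)) ^ 3) ∧ ang X (gg i) ((gg i * gg (i + 1)) ^ 3) < π / 3) ∧
    (0 < ang X ((gg i * gg (i + 1)) ^ 3) (gg (i + 1)) ∧
      ang X ((gg i * gg (i + 1)) ^ 3) (gg (i + 1)) < π / 3) := by
  obtain ⟨σ, hσ, h0, h1⟩ := exists_chain116 i
  have h := H.chain_angle hσ (by rw [h0]; exact (gg_inf i).1) (by rw [h0, h1]; exact (gg_inf i).2)
  rw [h0, h1] at h
  exact h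

theorem main_lgD (hInt : ∀ P Q, IsParabolic M116 P → IsParabolic M116 Q → IsParabolic M116 (P ⊓ Q))
    (H : Geo (ArtinGroup M116) X) (i : Fin 3) (x : X) :
    ∃ K : ℝ, ∀ m n : ℕ, 0 < m → 0 < n →
      √((m * nm X (gg i)) ^ 2 + (n * nm X (gg (i + 1))) ^ 2
        - 2 * (m * nm X (gg i)) * (n * nm X (gg (i + 1)))
          * cos (ang X (gg i) ((gg i * gg (i + 1)) ^ 3) + ang X ((gg i * gg (i + 1)) ^ 3) (gg (i + 1))))
        ≤ dist (gg i ^ m • x) (gg (i + 1) ^ n • x) + K := by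
  obtain ⟨h0, h1, hD, -, -⟩ := main_angle H i
  have hb := main_braid i
  have hs : Sep ((gg i * gg (i + 1)) ^ 3) (gg i) (gg (i + 1))
      {l | Commute l (gg i) ∧ Commute l (gg (i + 1))} := sep_D lab_M116 (main_M116_gg i) hInt
  refine H.lg hb.comm_left hb.comm_right hs hD h0 h1 ?_ x
  rintro l ⟨hl0, hl1⟩
  obtain ⟨e1, e2⟩ := H.Bf_cube hb hl0 hl1
  obtain ⟨e3, e4⟩ := H.Bf_cube hb hb.comm_left.symm hb.comm_right.symm
  rw [H.Bf_self] at e4
  refine ⟨(hl0.mul_right hl1).pow_right 3, hl0, hl1, ?_, ?_⟩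
  · rw [e4, e2]; ring
  · rw [e4, e2, e1, e3]; ring

theorem main_lgg (H : Geo (ArtinGroup M116) X) (i : Fin 3) (x : X) :
    ∃ K : ℝ, ∀ m n : ℕ, 0 < m → 0 < n →
      √((m * nm X ((gg i * gg (i + 1)) ^ 3)) ^ 2 + (n * nm X ((gg (i + 1) * gg (i + 1 + 1)) ^ 3)) ^ 2
        - 2 * (m * nm X ((gg i * gg (i + 1)) ^ 3)) * (n * nm X ((gg (i + 1) * gg (i + 1 + 1)) ^ 3))
          * cos (ang X ((gg i * gg (i + 1)) ^ 3) (gg (i + 1))
            + ang X (gg (i + 1)) ((gg (i + 1) * gg (i + 1 + 1)) ^ 3)))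
        ≤ dist (((gg i * gg (i + 1)) ^ 3) ^ m • x) (((gg (i + 1) * gg (i + 1 + 1)) ^ 3) ^ n • x) + K := by
  obtain ⟨-, h1, hD, -, -⟩ := main_angle H i
  obtain ⟨-, -, hD', -, -⟩ := main_angle H (i + 1)
  have hb := main_braid i
  have hb' := main_braid (i + 1)
  have hs : Sep (gg (i + 1)) ((gg i * gg (i + 1)) ^ 3) ((gg (i + 1) * gg (i + 1 + 1)) ^ 3)
      (Subgroup.zpowers (gg (i + 1)) : Set _) := by
    have e : i + 1 + 1 = i + 2 := by rw [add_assoc]; rfl
    rw [e]
    exact sep_gg i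
  refine H.lg hb.comm_right.symm hb'.comm_left.symm hs h1 hD hD' ?_ x
  rintro l ⟨k, rfl⟩
  show Commute (gg (i + 1) ^ k) _ ∧ Commute (gg (i + 1) ^ k) _ ∧ Commute (gg (i + 1) ^ k) _ ∧
    Bf X _ (gg (i + 1) ^ k) * _ = _ * Bf X _ (gg (i + 1) ^ k) ∧
    Bf X _ (gg (i + 1) ^ k) * _ = _ * Bf X _ (gg (i + 1) ^ k)
  refine ⟨(Commute.refl _).zpow_left k, hb.comm_right.zpow_left k, hb'.comm_left.zpow_left k, ?_, ?_⟩
  · rw [H.Bf_zpow hb.comm_right, H.Bf_zpow (Commute.refl _), H.Bf_self]; ring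
  · rw [H.Bf_zpow hb'.comm_left, H.Bf_zpow (Commute.refl _), H.Bf_self]; ring

end

/-- `Geo.no_hex` for `r = ![g 0, D 0, g 1, D 1, g 2, D 2]`, `D i = (g i * g (i+1)) ^ 3`; angles from `chain_angle`,
`hlg` from `Geo.lg` with `sep_D` (and `Bf_cube`: for `l` commuting with `s, t`,
`Bf s l * |D|² = Bf s l * 6 Bf s D = Bf s D * Bf D l`) resp. `sep_gg` (`Bf_zpow`, `Bf_self`). -/
theorem no_geo (hInt : ∀ P Q, IsParabolic M116 P → IsParabolic M116 Q → IsParabolic M116 (P ⊓ Q))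
    (X : Type*) [MetricSpace X] [ProperSpace X] [Nonempty X] [MulAction (ArtinGroup M116) X]
    (hX : IsCAT0Space X) : ¬ IsGeometricAction (ArtinGroup M116) X := by
  intro hact
  have H : Geo (ArtinGroup M116) X := ⟨hX, hact⟩
  obtain ⟨x⟩ := ‹Nonempty X›
  have a0 := main_angle H 0
  have a1 := main_angle H 1
  have a2 := main_angle H 2
  refine H.no_hex ![gg 0, (gg 0 * gg 1) ^ 3, gg 1, (gg 1 * gg 2) ^ 3, gg 2, (gg 2 * gg 0) ^ 3] ?_ ?_ ?_ x ?_
  · intro i
    fin_cases i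
    · exact (main_braid 0).comm_left
    · exact (main_braid 0).comm_right.symm
    · exact (main_braid 1).comm_left
    · exact (main_braid 1).comm_right.symm
    · exact (main_braid 2).comm_left
    · exact (main_braid 2).comm_right.symm
  · intro i
    fin_cases i
    · exact a0.1
    · exact a0.2.2.1
    · exact a1.1
    · exact a1.2.2.1
    · exact a2.1
    · exact a2.2.2.1
  · intro i
    fin_cases i
    · exact a0.2.2.2.1
    · exact a0.2.2.2.2
    · exact a1.2.2.2.1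
    · exact a1.2.2.2.2
    · exact a2.2.2.2.1
    · exact a2.2.2.2.2
  · intro i
    fin_cases i
    · exact main_lgD hInt H 0 x
    · exact main_lgg H 0 x
    · exact main_lgD hInt H 1 x
    · exact main_lgg H 1 x
    · exact main_lgD hInt H 2 x
    · exact main_lgg H 2 x

/-- S0264 from S0263 -/
theorem main264.{u} (hInt : ∀ P Q, IsParabolic M116 P → IsParabolic M116 Q → IsParabolic M116 (P ⊓ Q)) :
    ∃ (S : Type) (_ : Fintype S) (M : CoxeterMatrix S),
      Fintype.card S = 116 ∧ (∀ s t : S, s ≠ t → M.M s t = 0 ∨ M.M s t = 2 ∨ M.M s t = 3) ∧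
      ∀ (X : Type u) [MetricSpace X] [ProperSpace X] [Nonempty X]
        [MulAction (Crest.GroupTheory.ArtinGroup M) X],
        Crest.Geometry.IsCAT0Space X → ¬ Crest.Geometry.IsGeometricAction (Crest.GroupTheory.ArtinGroup M) X :=
  ⟨{p // keep p}, inferInstance, M116, card_keep, lab_M116, fun X _ _ _ _ hX => no_geo hInt X hX⟩

end Crest.Agent.R175C
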