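import Crest.Agent.R175.CGeo

/-!
# R175/CNorm: translation lengths and their polar form for a geometric action on a CAT(0) space
-/

set_option autoImplicit false

namespace Crest.Agent.R175C

open Crest.Geometry

/-- `G` acts geometrically on the CAT(0) space `X`. -/
structure Geo (G X : Type*) [Group G] [MetricSpace X] [MulAction G X] : Prop where
  cat : IsCAT0Space X
  act : IsGeometricAction G X

/-- translation length -/
noncomputable def nm {G : Type*} (X : Type*) [Group G] [MetricSpace X] [MulAction G X] (g : G) : ℝ :=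
  ⨅ y : X, dist y (g • y)

/-- polar form of `nm ^ 2` -/
noncomputable def Bf {G : Type*} (X : Type*) [Group G] [MetricSpace X] [MulAction G X] (g h : G) : ℝ :=
  (nm X (g * h) ^ 2 - nm X g ^ 2 - nm X h ^ 2) / 2

/-- angle between two (commuting) elements -/
noncomputable def ang {G : Type*} (X : Type*) [Group G] [MetricSpace X] [MulAction G X] (g h : G) : ℝ :=
  Real.arccos (Bf X g h / (nm X g * nm X h))

variable {G X : Type*} [Group G] [MetricSpace X] [MulAction G X]

theorem Geo.dist_smul (H : Geo G X) (g : G) (x y : X) : dist (g • x) (g • y) = dist x y := by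
  haveI := H.act.1
  exact _root_.dist_smul g x y

/-- properness for the compact ball `closedBall x (max R 0)` -/
theorem Geo.finite_ball [ProperSpace X] (H : Geo G X) (x : X) (R : ℝ) :
    {g : G | dist x (g • x) ≤ R}.Finite := by
  refine (H.act.2.1 _ (isCompact_closedBall x (max R 0))).subset fun g hg => ?_
  refine ⟨g • x, ⟨x, Metric.mem_closedBall_self (le_max_right _ _), rfl⟩, ?_⟩
  rw [Metric.mem_closedBall, dist_comm]
  exact le_max_of_le_left hg

/-- the compact set `K` of cocompactness lies in a ball around `x` -/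
theorem Geo.cocompact (H : Geo G X) (x : X) : ∃ r : ℝ, ∀ y : X, ∃ g : G, dist y (g • x) ≤ r := by
  obtain ⟨K, hK, hcov⟩ := H.act.2.2
  obtain ⟨r, hr⟩ := hK.isBounded.subset_closedBall x
  refine ⟨r, fun y => ?_⟩
  obtain ⟨g, k, hk, rfl⟩ := hcov y
  refine ⟨g, ?_⟩
  rw [H.dist_smul]
  exact hr hk

theorem nm_le (g : G) (y : X) : nm X g ≤ dist y (g • y) := by
  exact ciInf_le ⟨0, by rintro _ ⟨y, rfl⟩; exact dist_nonneg⟩ y

theorem nm_nonneg (g : G) : 0 ≤ nm X g := by
  exact Real.iInf_nonneg fun _ => dist_nonneg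

theorem Geo.nm_conj (H : Geo G X) (k g : G) : nm X (k * g * k⁻¹) = nm X g := by
  unfold nm
  rw [← (MulAction.toPerm k).surjective.iInf_comp]
  refine iInf_congr fun y => ?_
  simp only [MulAction.toPerm_apply, smul_smul, inv_mul_cancel_right]
  rw [← smul_smul, H.dist_smul]

/-- The minimal displacement is attained.  Fix `x`, `r` from `cocompact`, `L = dist x (g • x)`.  Every `y` is
`k • y₀` with `y₀ ∈ closedBall x r`, and `dist y (g • y) = dist y₀ ((k⁻¹ * g * k) • y₀)`; if this is `≤ L`
then `k⁻¹ * g * k` lies in the finite set `{h | dist x (h • x) ≤ L + 2 r}`.  For each of the finitely many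
conjugates `h` of `g` in that set the continuous function `y₀ ↦ dist y₀ (h • y₀)` attains its minimum on the
compact ball. -/
theorem Geo.exists_min [ProperSpace X] [Nonempty X] (H : Geo G X) (g : G) :
    ∃ y : X, dist y (g • y) = nm X g := by
  obtain ⟨x⟩ := ‹Nonempty X›
  obtain ⟨r, hr⟩ := H.cocompact x
  have hr0 : 0 ≤ r := by
    obtain ⟨k, hk⟩ := hr x
    exact dist_nonneg.trans hk
  set L := dist x (g • x) with hL
  have hfin : {h : G | dist x (h • x) ≤ L + 2 * r ∧ ∃ k : G, h = k⁻¹ * g * k}.Finite :=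
    (H.finite_ball x (L + 2 * r)).subset fun h hh => hh.1
  have hne : {h : G | dist x (h • x) ≤ L + 2 * r ∧ ∃ k : G, h = k⁻¹ * g * k}.Nonempty :=
    ⟨g, by linarith, 1, by simp⟩
  have hmin : ∀ h : G, ∃ y ∈ Metric.closedBall x r,
      ∀ y' ∈ Metric.closedBall x r, dist y (h • y) ≤ dist y' (h • y') := by
    intro h
    have hc : Continuous fun y : X => dist y (h • y) := by
      have : Isometry fun y : X => h • y := Isometry.of_dist_eq fun a b => H.dist_smul h a b
      exact continuous_id.dist this.continuous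
    obtain ⟨y, hy, hy'⟩ := (isCompact_closedBall x r).exists_isMinOn
      ⟨x, Metric.mem_closedBall_self hr0⟩ hc.continuousOn
    exact ⟨y, hy, fun y' h' => hy' h'⟩
  choose p hp hp' using hmin
  obtain ⟨h, ⟨hh1, k, hk⟩, hh⟩ := hfin.exists_minimalFor (fun h => dist (p h) (h • p h)) _ hne
  have hconj : ∀ (k : G) (y : X), dist (k • y) (g • k • y) = dist y ((k⁻¹ * g * k) • y) := by
    intro k y
    rw [← H.dist_smul k y, smul_smul, smul_smul]
    congr 2
    group
  have hle : ∀ h' : G, dist x (h' • x) ≤ L + 2 * r → (∃ k : G, h' = k⁻¹ * g * k) →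
      dist (p h) (h • p h) ≤ dist (p h') (h' • p h') := by
    intro h' h1 h2
    rcases le_total (dist (p h) (h • p h)) (dist (p h') (h' • p h')) with h3 | h3
    · exact h3
    · exact hh ⟨h1, h2⟩ h3
  refine ⟨k • p h, le_antisymm ?_ (nm_le _ _)⟩
  rw [hconj, ← hk]
  refine le_ciInf fun y => ?_
  by_cases hy : dist y (g • y) ≤ L
  · obtain ⟨k', hk'⟩ := hr y
    have e : y = k' • (k'⁻¹ • y) := by simp
    have hb : k'⁻¹ • y ∈ Metric.closedBall x r := by
      rw [Metric.mem_closedBall, ← H.dist_smul k', ← e]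
      exact hk'
    have e2 : dist y (g • y) = dist (k'⁻¹ • y) ((k'⁻¹ * g * k') • k'⁻¹ • y) := by
      rw [← hconj, ← e]
    have h1 : dist x ((k'⁻¹ * g * k') • x) ≤ L + 2 * r := by
      have t1 := dist_triangle4 x (k'⁻¹ • y) ((k'⁻¹ * g * k') • k'⁻¹ • y) ((k'⁻¹ * g * k') • x)
      rw [H.dist_smul, ← e2, dist_comm x (k'⁻¹ • y)] at t1
      have := Metric.mem_closedBall.1 hb
      linarith
    rw [e2]
    exact (hle _ h1 ⟨k', rfl⟩).trans (hp' _ _ hb)
  · have h1 := hle g (by linarith) ⟨1, by simp⟩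
    have h2 := hp' g x (Metric.mem_closedBall_self hr0)
    linarith

/-- On a point of minimal displacement the orbit is on a line.  Let `ℓ = nm X g`, `m` the midpoint of `y` and
`g • y` (`cn`, `t = 1/2`); `g • m` is the midpoint of `g • y` and `g • g • y`.  `cn_between` twice gives
`dist m (g • m) ≤ dist y (g • g • y) / 2`, and `ℓ ≤ dist m (g • m)`, so `dist y (g ^ 2 • y) = 2 ℓ`.
Induction: `a = g^n y` is between `y` and `b = g^(n+1) y` with `t = n/(n+1)`; `cn_between` at `w = c = g^(n+2) y`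
(`dist a c = 2 ℓ`, `dist b c = ℓ`) gives `dist y c ^ 2 ≥ ((n+2) ℓ)^2`; `≤` is the triangle inequality.
Negative exponents by invariance of the distance. -/
theorem Geo.min_zpow (H : Geo G X) {g : G} {y : X} (hy : dist y (g • y) = nm X g) (n : ℤ) :
    dist y (g ^ n • y) = |(n : ℝ)| * nm X g := by
  have hl : 0 ≤ nm X g := nm_nonneg g
  have hstep : ∀ k : ℕ, dist (g ^ k • y) (g ^ (k + 1) • y) = nm X g := by
    intro k
    rw [pow_succ, ← smul_smul, H.dist_smul, hy]
  have hstep2 : ∀ k : ℕ, dist (g ^ k • y) (g ^ (k + 2) • y) = dist y (g • g • y) := by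
    intro k
    rw [pow_add, ← smul_smul, H.dist_smul, pow_two, ← smul_smul]
  have h2 : dist y (g • g • y) = 2 * nm X g := by
    obtain ⟨m, hm1, hm2, hm⟩ := cn H.cat y (g • y) (t := 1 / 2) (by norm_num) (by norm_num)
    have a1 := hm (g • m)
    have a2 := cn_between H.cat (x := g • y) (y := g • m) (z := g • g • y) (t := 1 / 2) (by norm_num)
      (by norm_num) (by rw [H.dist_smul, H.dist_smul, hm1]) (by rw [H.dist_smul, H.dist_smul, hm2]) y
    rw [H.dist_smul, hm1, hy, dist_comm y (g • m)] at a1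
    rw [H.dist_smul, dist_comm (g • y) y, hy, dist_comm (g • g • y) y] at a2
    have a3 : nm X g ^ 2 ≤ dist m (g • m) ^ 2 := pow_le_pow_left₀ hl (nm_le g m) 2
    have a4 : (2 * nm X g) ^ 2 ≤ dist y (g • g • y) ^ 2 := by nlinarith
    have a5 := (pow_le_pow_iff_left₀ (by positivity) dist_nonneg two_ne_zero).1 a4
    have a6 := dist_triangle y (g • y) (g • g • y)
    rw [H.dist_smul, hy] at a6
    linarith
  have hnat : ∀ k : ℕ, dist y (g ^ k • y) = k * nm X g ∧
      dist y (g ^ (k + 1) • y) = (k + 1) * nm X g := by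
    intro k
    induction k with
    | zero => simp [hy]
    | succ i ih =>
      refine ⟨by rw [ih.2]; push_cast; ring, ?_⟩
      have hi : (0 : ℝ) < (i : ℝ) + 1 := by positivity
      have a1 := cn_between H.cat (x := y) (y := g ^ i • y) (z := g ^ (i + 1) • y)
        (t := (i : ℝ) / (i + 1)) (by positivity) (by rw [div_le_one hi]; linarith)
        (by rw [ih.1, ih.2]; field_simp) (by rw [hstep, ih.2]; field_simp; ring) (g ^ (i + 2) • y)
      rw [hstep2, h2, hstep (i + 1), ih.2] at a1
      have a2 : ((i + 2) * nm X g) ^ 2 ≤ dist y (g ^ (i + 2) • y) ^ 2 := by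
        have e : (1 - (i : ℝ) / (i + 1)) = 1 / (i + 1) := by field_simp; ring
        rw [e] at a1
        have a3 := mul_le_mul_of_nonneg_left a1 hi.le
        have e2 : ((i : ℝ) + 1) * (1 / (i + 1) * dist y (g ^ (i + 2) • y) ^ 2 + i / (i + 1) * nm X g ^ 2
            - i / (i + 1) * (1 / (i + 1)) * ((i + 1) * nm X g) ^ 2)
            = dist y (g ^ (i + 2) • y) ^ 2 + i * nm X g ^ 2 - i * (i + 1) * nm X g ^ 2 := by
          field_simp
        rw [e2] at a3
        nlinarith
      have a5 := (pow_le_pow_iff_left₀ (by positivity) dist_nonneg two_ne_zero).1 a2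
      have a6 := dist_triangle y (g ^ (i + 1) • y) (g ^ (i + 1 + 1) • y)
      rw [hstep, ih.2] at a6
      push_cast
      have e3 : i + 1 + 1 = i + 2 := rfl
      rw [e3] at a6 ⊢
      linarith
  rcases Int.eq_nat_or_neg n with ⟨k, rfl | rfl⟩
  · rw [zpow_natCast, (hnat k).1]
    simp
  · rw [← H.dist_smul (g ^ k), smul_smul, zpow_neg, zpow_natCast, mul_inv_cancel, one_smul, dist_comm,
      (hnat k).1]
    simp

/-- bounded distance from the linear growth, `C = 2 * dist x y` for a minimal point `y` -/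
theorem Geo.dist_zpow_near [ProperSpace X] [Nonempty X] (H : Geo G X) (g : G) (x : X) :
    ∃ C : ℝ, ∀ n : ℤ, |dist x (g ^ n • x) - (|(n : ℝ)| * nm X g)| ≤ C := by
  obtain ⟨y, hy⟩ := H.exists_min g
  refine ⟨2 * dist x y, fun n => ?_⟩
  rw [← H.min_zpow hy n]
  have t1 := dist_triangle4 x y (g ^ n • y) (g ^ n • x)
  have t2 := dist_triangle4 y x (g ^ n • x) (g ^ n • y)
  rw [H.dist_smul, dist_comm y x] at t1
  rw [H.dist_smul, dist_comm y x] at t2
  rw [abs_le]
  constructor <;> linarith

/-- compare `dist_zpow_near` for `g` at exponent `n * k` and for `g ^ n` at exponent `k → ∞` -/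
theorem Geo.nm_zpow [ProperSpace X] [Nonempty X] (H : Geo G X) (g : G) (n : ℤ) :
    nm X (g ^ n) = |(n : ℝ)| * nm X g := by
  obtain ⟨x⟩ := ‹Nonempty X›
  obtain ⟨C, hC⟩ := H.dist_zpow_near g x
  obtain ⟨C', hC'⟩ := H.dist_zpow_near (g ^ n) x
  have key : ∀ k : ℕ, (k : ℝ) * |nm X (g ^ n) - (|(n : ℝ)| * nm X g)| ≤ C + C' := by
    intro k
    have h1 := abs_le.1 (hC (n * k))
    have h2 := abs_le.1 (hC' k)
    rw [← zpow_mul] at h2
    push_cast at h1 h2
    rw [abs_mul, Nat.abs_cast] at h1
    rw [Nat.abs_cast] at h2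
    rw [← abs_of_nonneg (Nat.cast_nonneg (α := ℝ) k), ← abs_mul, abs_le]
    constructor <;> nlinarith [h1.1, h1.2, h2.1, h2.2]
  by_contra hne
  have hpos : 0 < |nm X (g ^ n) - (|(n : ℝ)| * nm X g)| := abs_pos.2 (sub_ne_zero.2 hne)
  obtain ⟨k, hk⟩ := exists_nat_gt ((C + C') / |nm X (g ^ n) - (|(n : ℝ)| * nm X g)|)
  rw [div_lt_iff₀ hpos] at hk
  linarith [key k]

/-- if `nm X g = 0` a minimal point is fixed by all powers of `g`, which lie in the finite set
`finite_ball y 0` -/
theorem Geo.nm_pos [ProperSpace X] [Nonempty X] (H : Geo G X) {g : G} (hg : ¬ IsOfFinOrder g) :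
    0 < nm X g := by
  refine lt_of_le_of_ne (nm_nonneg g) fun h0 => hg ?_
  obtain ⟨y, hy⟩ := H.exists_min g
  rw [← finite_zpowers]
  refine (H.finite_ball y 0).subset ?_
  rintro _ ⟨n, rfl⟩
  have := H.min_zpow hy n
  rw [← h0, mul_zero] at this
  exact this.le

end Crest.Agent.R175C
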