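import Crest.Agent.R175.CSide
import Crest.Agent.R175.CLG

/-!
# R175/CRep: the transvection representation; the wall in the centraliser of `(s t)³`
-/

set_option autoImplicit false

namespace Crest.Agent.R175C

open Crest.GroupTheory Matrix MatrixGroups

/-- an alternating form on a `ℤ`-module with vectors `a z` and the action by transvections -/
structure Rep {S : Type} (M : CoxeterMatrix S) (s t : S) where
  V : Type
  [i1 : AddCommGroup V]
  Ω : V →ₗ[ℤ] V →ₗ[ℤ] ℤ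
  alt : ∀ v, Ω v v = 0
  tf : ∀ v : V, (2 : ℤ) • v = 0 → v = 0
  a : S → V
  prim : ∀ z, ∃ v, Ω v (a z) = 1
  val : ∀ z z', Ω (a z) (a z') = 0 ∨ Ω (a z) (a z') = 1 ∨ Ω (a z) (a z') = -1
  st : Ω (a s) (a t) = 1
  R : ArtinGroup M →* (V ≃ₗ[ℤ] V)
  R_gen : ∀ z v, R (artinGen M z) v = v + Ω v (a z) • a z

attribute [instance] Rep.i1

variable {S : Type} {M : CoxeterMatrix S} {s t : S}

section tv
variable {V : Type} [AddCommGroup V] (Ω : V →ₗ[ℤ] V →ₗ[ℤ] ℤ) (alt : ∀ v, Ω v v = 0)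

include alt in
theorem cr_skew (v w : V) : Ω v w = -Ω w v := by
  have := alt (v + w)
  simp only [map_add, LinearMap.add_apply, alt] at this
  omega

/-- the transvection -/
def cr_tv (a : V) : V ≃ₗ[ℤ] V where
  toFun v := v + Ω v a • a
  invFun v := v - Ω v a • a
  map_add' v w := by simp only [map_add, LinearMap.add_apply]; module
  map_smul' c v := by simp only [map_smul, LinearMap.smul_apply, smul_eq_mul, RingHom.id_apply]; module
  left_inv v := by simp [alt]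
  right_inv v := by simp [alt]

theorem cr_tv_apply (a v : V) : cr_tv Ω alt a v = v + Ω v a • a := rfl

theorem cr_comm {a b : V} (h : Ω a b = 0) : Commute (cr_tv Ω alt a) (cr_tv Ω alt b) := by
  have h' : Ω b a = 0 := by rw [cr_skew Ω alt, h, neg_zero]
  ext v
  simp only [LinearEquiv.mul_apply, cr_tv_apply, map_add, map_smul, LinearMap.add_apply, LinearMap.smul_apply,
    h, h', smul_eq_mul]
  module

theorem cr_braid {a b : V} (h : Ω a b = 1 ∨ Ω a b = -1) : Braid (cr_tv Ω alt a) (cr_tv Ω alt b) := by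
  have h' : Ω b a = -Ω a b := cr_skew Ω alt _ _
  unfold Braid
  ext v
  rcases h with h | h <;>
  · simp only [LinearEquiv.mul_apply, cr_tv_apply, map_add, map_smul, LinearMap.add_apply, LinearMap.smul_apply,
      h, h', alt, smul_eq_mul]
    module

end tv

theorem cr_orient [Finite S] (hst : M.M s t = 3) : ∃ o : Matrix S S ℤ, (∀ p q, o p q = -o q p) ∧ o s t = 1 ∧
    ∀ p q, (M.M p q = 3 → o p q = 1 ∨ o p q = -1) ∧ (M.M p q ≠ 3 → o p q = 0) := by
  obtain ⟨n, ⟨e⟩⟩ := Finite.exists_equiv_fin S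
  let o : S → S → ℤ := fun p q => if M.M p q = 3 then (if e p < e q then 1 else -1) else 0
  have h1 : ∀ p q, M.M p q = 3 → o p q = 1 ∨ o p q = -1 := fun p q h => by
    simp only [o, if_pos h]
    split_ifs <;> simp
  have h2 : ∀ p q, o p q = -o q p := fun p q => by
    have hs : M.M q p = M.M p q := M.isSymm.apply p q
    simp only [o, hs]
    by_cases h : M.M p q = 3
    · have hne : e p ≠ e q := fun h' => by
        rw [e.injective h', M.diagonal] at h
        omega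
      rcases lt_or_gt_of_ne hne with h' | h'
      · simp [h, h', not_lt.2 h'.le]
      · simp [h, h', not_lt.2 h'.le]
    · simp [h]
  refine ⟨Matrix.of fun p q => o s t * o p q, fun p q => ?_, ?_, fun p q => ⟨fun h => ?_, fun h => ?_⟩⟩
  · simp only [of_apply]; rw [h2 p q]; ring
  · rcases h1 s t hst with h | h <;> simp [h]
  · rcases h1 s t hst with h' | h' <;> rcases h1 p q h with h'' | h'' <;> simp [h', h'']
  · simp [o, h]

/-- `V = (S → ℤ) × (S → ℤ)`, `Ω (x,ξ) (y,η) = ∑ x p * o p q * y q + ξ ⬝ᵥ y - η ⬝ᵥ x`, `a z = (Pi.single z 1, 0)`, with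
`o p q = ± 1` (skew, sign from a linear order on `S`, multiplied by `o s t`) if `M p q = 3` and `0` otherwise.
Transvections `T_a v = v + Ω v a • a` (inverse `v - Ω v a • a`) commute if `Ω a b = 0` and satisfy the braid
relation if `Ω a b = ± 1`; `exists_lift`. -/
theorem exists_rep [Finite S] (hM : Lab23 M) (hst : M.M s t = 3) : Nonempty (Rep M s t) := by
  classical
  have := Fintype.ofFinite S
  obtain ⟨o, ho, host, h3⟩ := cr_orient hst
  let Ω : (S → ℤ) × (S → ℤ) →ₗ[ℤ] (S → ℤ) × (S → ℤ) →ₗ[ℤ] ℤ :=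
    LinearMap.mk₂ ℤ (fun v w => v.1 ⬝ᵥ o *ᵥ w.1 + v.2 ⬝ᵥ w.1 - w.2 ⬝ᵥ v.1)
      (fun _ _ _ => by simp only [Prod.fst_add, Prod.snd_add, add_dotProduct, dotProduct_add]; ring)
      (fun _ _ _ => by
        simp only [Prod.smul_fst, Prod.smul_snd, smul_dotProduct, dotProduct_smul, smul_eq_mul]; ring)
      (fun _ _ _ => by simp only [Prod.fst_add, Prod.snd_add, add_dotProduct, dotProduct_add, mulVec_add]; ring)
      (fun _ _ _ => by
        simp only [Prod.smul_fst, Prod.smul_snd, smul_dotProduct, dotProduct_smul, smul_eq_mul, mulVec_smul]; ring)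
  have alt : ∀ v, Ω v v = 0 := fun v => by
    have hT : oᵀ = -o := by ext p q; simp [ho q p]
    have h1 : v.1 ⬝ᵥ o *ᵥ v.1 = -(v.1 ⬝ᵥ o *ᵥ v.1) := by
      conv_lhs => rw [dotProduct_mulVec, ← mulVec_transpose, hT, neg_mulVec, neg_dotProduct, dotProduct_comm]
    simp only [Ω, LinearMap.mk₂_apply]
    omega
  let a : S → (S → ℤ) × (S → ℤ) := fun z => (Pi.single z 1, 0)
  have ha : ∀ z z', Ω (a z) (a z') = o z z' := fun z z' => by simp [Ω, a]
  obtain ⟨R, hR⟩ := exists_lift hM (fun z => cr_tv Ω alt (a z))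
    (fun p q h => cr_comm Ω alt (by rw [ha]; exact (h3 p q).2 (by omega)))
    fun p q h => cr_braid Ω alt (by rw [ha]; exact (h3 p q).1 h)
  refine ⟨⟨(S → ℤ) × (S → ℤ), Ω, alt, fun v hv => ?_, a, fun z => ⟨(0, Pi.single z 1), by simp [Ω, a]⟩,
    fun z z' => ?_, by rw [ha, host], R, fun z v => by rw [hR]; rfl⟩⟩
  · exact (smul_eq_zero.1 hv).resolve_left (by norm_num)
  · rw [ha]
    by_cases h : M.M z z' = 3
    · exact Or.inr ((h3 z z').1 h)
    · exact Or.inl ((h3 z z').2 h)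

namespace Rep
variable (ρ : Rep M s t)

theorem cr_ts : ρ.Ω (ρ.a t) (ρ.a s) = -1 := by rw [cr_skew ρ.Ω ρ.alt, ρ.st]

theorem cr_mul (g h : ArtinGroup M) (v : ρ.V) : ρ.R (g * h) v = ρ.R g (ρ.R h v) := by
  rw [map_mul]; rfl

theorem cr_inv (g : ArtinGroup M) (v : ρ.V) : ρ.R g (ρ.R g⁻¹ v) = v := by
  rw [← cr_mul, mul_inv_cancel, map_one]; rfl

/-- induction over generators -/
theorem R_form (g : ArtinGroup M) (v w : ρ.V) : ρ.Ω (ρ.R g v) (ρ.R g w) = ρ.Ω v w := by
  have hg : g ∈ Subgroup.closure (Set.range (artinGen M)) := by rw [closure_gen]; trivial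
  induction hg using Subgroup.closure_induction generalizing v w with
  | mem x hx =>
    obtain ⟨z, rfl⟩ := hx
    simp only [ρ.R_gen, map_add, map_smul, LinearMap.add_apply, LinearMap.smul_apply, ρ.alt, smul_eq_mul,
      cr_skew ρ.Ω ρ.alt (ρ.a z) w]
    ring
  | one => simp
  | mul x y _ _ hx hy => rw [cr_mul, cr_mul, hx, hy]
  | inv x _ hx => rw [← hx, cr_inv, cr_inv]

/-- the rank two lattice spanned by `a s`, `a t` -/
def L : Submodule ℤ ρ.V := Submodule.span ℤ {ρ.a s, ρ.a t}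

theorem mem_L {v : ρ.V} : v ∈ ρ.L ↔ v = ρ.Ω v (ρ.a t) • ρ.a s + ρ.Ω (ρ.a s) v • ρ.a t := by
  rw [L, Submodule.mem_span_pair]
  refine ⟨?_, fun h => ⟨_, _, h.symm⟩⟩
  rintro ⟨x, y, rfl⟩
  simp [ρ.alt, ρ.st]

/-- elements of `⟨σ s, σ t⟩` move every vector by an element of `L` -/
theorem sub_mem_L {g : ArtinGroup M} (hg : g ∈ Subgroup.closure {artinGen M s, artinGen M t}) (v : ρ.V) :
    ρ.R g v - v ∈ ρ.L := by
  induction hg using Subgroup.closure_induction generalizing v with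
  | mem x hx =>
    rcases hx with rfl | rfl <;>
    · rw [ρ.R_gen, add_sub_cancel_left]
      exact Submodule.smul_mem _ _ (Submodule.subset_span (by simp))
  | one => simp
  | mul x y _ _ hx hy => simpa [cr_mul] using ρ.L.add_mem (hx (ρ.R y v)) (hy v)
  | inv x _ hx => simpa [cr_inv] using ρ.L.neg_mem (hx (ρ.R x⁻¹ v))

/-- `D` acts as `v ↦ v - 2 pr_L v` -/
theorem R_D (v : ρ.V) : ρ.R ((artinGen M s * artinGen M t) ^ 3) v
    = v - (2 : ℤ) • (ρ.Ω v (ρ.a t) • ρ.a s + ρ.Ω (ρ.a s) v • ρ.a t) := by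
  simp only [pow_succ, pow_zero, one_mul, cr_mul, ρ.R_gen, map_add, map_smul, LinearMap.add_apply,
    LinearMap.smul_apply, ρ.alt, ρ.st, cr_ts, smul_eq_mul, cr_skew ρ.Ω ρ.alt (ρ.a s) v]
  module

/-- the matrix of `g` on `L` (columns: coordinates of `g (a s)`, `g (a t)`) -/
def mat (g : ArtinGroup M) : Matrix (Fin 2) (Fin 2) ℤ :=
  !![ρ.Ω (ρ.R g (ρ.a s)) (ρ.a t), ρ.Ω (ρ.R g (ρ.a t)) (ρ.a t);
     ρ.Ω (ρ.a s) (ρ.R g (ρ.a s)), ρ.Ω (ρ.a s) (ρ.R g (ρ.a t))]

/-- An element commuting with `D` preserves `L`: if `v ∈ L` then `D (g v) = g (D v) = - g v`, so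
`2 • (g v - pr_L (g v)) = 0`. -/
theorem comm_mem_L {g : ArtinGroup M}
    (hg : Commute g ((artinGen M s * artinGen M t) ^ 3)) {v : ρ.V} (hv : v ∈ ρ.L) : ρ.R g v ∈ ρ.L := by
  have h1 : ρ.R ((artinGen M s * artinGen M t) ^ 3) v = -v := by
    rw [R_D, ← ρ.mem_L.1 hv]; module
  have h2 : ρ.R ((artinGen M s * artinGen M t) ^ 3) (ρ.R g v) = -ρ.R g v := by
    rw [← cr_mul, ← hg.eq, cr_mul, h1, map_neg]
  rw [R_D] at h2
  rw [mem_L, ← sub_eq_zero]
  refine ρ.tf _ ?_
  linear_combination (norm := module) h2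

theorem mat_s : ρ.mat (artinGen M s) = mS.1 := by
  simp [mat, mS, ρ.R_gen, ρ.alt, ρ.st, cr_ts]

theorem mat_t : ρ.mat (artinGen M t) = mT.1 := by
  simp [mat, mT, ρ.R_gen, ρ.alt, ρ.st]

/-- on the centraliser of `D`, `mat` is multiplicative (`mem_L`) of determinant
`Ω (g (a s)) (g (a t)) = 1` -/
theorem exists_psiC :
    ∃ ψ : Subgroup.centralizer ({(artinGen M s * artinGen M t) ^ 3} : Set (ArtinGroup M)) →* SL(2, ℤ),
      ∀ c, (ψ c).1 = ρ.mat c.1 := by
  have hL : ∀ c : Subgroup.centralizer ({(artinGen M s * artinGen M t) ^ 3} : Set (ArtinGroup M)),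
      ρ.R c.1 (ρ.a s) = ρ.mat c.1 0 0 • ρ.a s + ρ.mat c.1 1 0 • ρ.a t ∧
      ρ.R c.1 (ρ.a t) = ρ.mat c.1 0 1 • ρ.a s + ρ.mat c.1 1 1 • ρ.a t := fun c => by
    have hc : Commute c.1 ((artinGen M s * artinGen M t) ^ 3) :=
      Subgroup.mem_centralizer_singleton_iff.1 c.2
    exact ⟨ρ.mem_L.1 (ρ.comm_mem_L hc (Submodule.subset_span (by simp))),
      ρ.mem_L.1 (ρ.comm_mem_L hc (Submodule.subset_span (by simp)))⟩
  refine ⟨MonoidHom.mk' (fun c => ⟨ρ.mat c.1, ?_⟩) fun c d => Subtype.ext ?_, fun c => rfl⟩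
  · have := ρ.R_form c.1 (ρ.a s) (ρ.a t)
    rw [(hL c).1, (hL c).2] at this
    simp only [map_add, map_smul, LinearMap.add_apply, LinearMap.smul_apply, ρ.alt, ρ.st, cr_ts,
      smul_eq_mul] at this
    rw [Matrix.det_fin_two]
    linarith
  · change ρ.mat (c.1 * d.1) = ρ.mat c.1 * ρ.mat d.1
    rw [mat, cr_mul, cr_mul, (hL d).1, (hL d).2]
    generalize ρ.mat d.1 = B
    ext i j
    fin_cases i <;> fin_cases j <;> simp [mat, Matrix.mul_apply, Fin.sum_univ_two, mul_comm]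

end Rep

end Crest.Agent.R175C
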