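import Crest.Agent.R175.CB3

/-!
# R175/CSide: walls in `SL(2, ℤ)` and in free groups
-/

set_option autoImplicit false

namespace Crest.Agent.R175C

open Matrix MatrixGroups

/-- the real part of `A • i` is positive -/
def sideM (A : SL(2, ℤ)) : Prop := 0 < A.1 0 0 * A.1 1 0 + A.1 0 1 * A.1 1 1

theorem cs_S_pow (i : ℕ) : (mS ^ i).1 = !![1, -(i : ℤ); 0, 1] := by
  induction i with
  | zero => simp [Matrix.one_fin_two]
  | succ i ih =>
    rw [pow_succ, Matrix.SpecialLinearGroup.coe_mul, ih]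
    simp [mS, add_comm]

theorem cs_T_pow (i : ℕ) : (mT ^ i).1 = !![1, 0; (i : ℤ), 1] := by
  induction i with
  | zero => simp [Matrix.one_fin_two]
  | succ i ih =>
    rw [pow_succ, Matrix.SpecialLinearGroup.coe_mul, ih]
    simp [mT]

theorem sideM_S (i : ℕ) (hi : 0 < i) : ¬ sideM (mS ^ i) := by
  rw [sideM, cs_S_pow]; simp

theorem sideM_T (j : ℕ) (hj : 0 < j) : sideM (mT ^ j) := by
  rw [sideM, cs_T_pow]; simpa using hj

theorem cs_real {a b c d l : ℝ} (h0 : 0 ≤ l) (h1 : l ≤ 1) (hdet : a * d - b * c = 1)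
    (h : (1 - l) * (a * c + b * d) + l * (a * c + (a + b) * (c + d)) = 0) :
    (a ^ 2 + b ^ 2) * (c ^ 2 + d ^ 2) ≤ 12 := by
  have hQ : ∀ x y : ℝ, (x ^ 2 + y ^ 2) / 3 ≤ (1 + l) * x ^ 2 + 2 * l * x * y + y ^ 2 := by
    intro x y
    nlinarith [sq_nonneg (3 * l * x + 2 * y), mul_nonneg (mul_nonneg h0 (sub_nonneg.2 h1)) (sq_nonneg x),
      sq_nonneg x, mul_nonneg (sub_nonneg.2 h1) (sq_nonneg x)]
  have e : ((1 + l) * a ^ 2 + 2 * l * a * b + b ^ 2) * ((1 + l) * c ^ 2 + 2 * l * c * d + d ^ 2) =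
      (1 + l - l ^ 2) * (a * d - b * c) ^ 2 +
        ((1 - l) * (a * c + b * d) + l * (a * c + (a + b) * (c + d))) ^ 2 := by ring
  rw [hdet, h] at e
  have h2 := mul_le_mul (hQ a b) (hQ c d) (by positivity) ((by positivity : (0 : ℝ) ≤ _).trans (hQ a b))
  rw [e] at h2
  nlinarith [sq_nonneg (l - 1 / 2)]

theorem cs_int {a b c d : ℤ} (hdet : a * d - b * c = 1)
    (h : ¬ (0 < a * c + b * d ↔ 0 < a * c + (a + b) * (c + d))) :
    (a ^ 2 + b ^ 2) * (c ^ 2 + d ^ 2) ≤ 12 := by
  set q := a * c + b * d with hq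
  set q' := a * c + (a + b) * (c + d) with hq'
  have hne : (q : ℝ) - q' ≠ 0 := by
    intro e
    have : q = q' := by exact_mod_cast sub_eq_zero.1 e
    exact h (by rw [this])
  have h01 : 0 ≤ (q : ℝ) / (q - q') ∧ (q : ℝ) / (q - q') ≤ 1 := by
    by_cases h0 : 0 < q
    · have h1 : q' ≤ 0 := by by_contra h2; exact h ⟨fun _ => by omega, fun _ => h0⟩
      have h0' : (0 : ℝ) < q := by exact_mod_cast h0
      have h1' : (q' : ℝ) ≤ 0 := by exact_mod_cast h1
      exact ⟨div_nonneg h0'.le (by linarith), (div_le_one (by linarith)).2 (by linarith)⟩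
    · have h1 : 0 < q' := by by_contra h2; exact h ⟨fun h3 => absurd h3 h0, fun h3 => absurd h3 h2⟩
      have h0' : (q : ℝ) ≤ 0 := by exact_mod_cast not_lt.1 h0
      have h1' : (0 : ℝ) < q' := by exact_mod_cast h1
      exact ⟨div_nonneg_of_nonpos h0' (by linarith), (div_le_one_of_neg (by linarith)).2 (by linarith)⟩
  have := cs_real (a := a) (b := b) (c := c) (d := d) h01.1 h01.2 (by exact_mod_cast hdet) (by
    have e1 : (a : ℝ) * c + b * d = q := by rw [hq]; push_cast; ring
    have e2 : (a : ℝ) * c + (a + b) * (c + d) = q' := by rw [hq']; push_cast; ring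
    rw [e1, e2]; field_simp; ring)
  exact_mod_cast this

theorem cs_bdd {a b c d : ℤ} (hdet : a * d - b * c = 1) (h : (a ^ 2 + b ^ 2) * (c ^ 2 + d ^ 2) ≤ 12) :
    a ∈ Set.Icc (-4 : ℤ) 4 ∧ b ∈ Set.Icc (-4 : ℤ) 4 ∧ c ∈ Set.Icc (-4 : ℤ) 4 ∧ d ∈ Set.Icc (-4 : ℤ) 4 := by
  have h1 : 1 ≤ a ^ 2 + b ^ 2 := by
    by_contra h2
    have ha : a = 0 := by nlinarith [sq_nonneg a, sq_nonneg b]
    have hb : b = 0 := by nlinarith [sq_nonneg a, sq_nonneg b]
    simp [ha, hb] at hdet
  have h2 : 1 ≤ c ^ 2 + d ^ 2 := by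
    by_contra h2
    have ha : c = 0 := by nlinarith [sq_nonneg c, sq_nonneg d]
    have hb : d = 0 := by nlinarith [sq_nonneg c, sq_nonneg d]
    simp [ha, hb] at hdet
  have h3 : a ^ 2 + b ^ 2 ≤ 12 := by nlinarith
  have h4 : c ^ 2 + d ^ 2 ≤ 12 := by nlinarith
  refine ⟨⟨?_, ?_⟩, ⟨?_, ?_⟩, ⟨?_, ?_⟩, ⟨?_, ?_⟩⟩ <;> nlinarith [sq_nonneg a, sq_nonneg b, sq_nonneg c, sq_nonneg d]

/-- The set of `f` with this property is closed under products and inverses (`A ↦ A * f` is a bijection), so it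
suffices to treat generators `ModularGroup.S` (the form `a c + b d` is invariant) and `ModularGroup.T`:
`q = a c + b d`, `q' = a c + (a + b) (c + d)`, `a d - b c = 1`; if `q`, `q'` lie on different sides of `0`
then all entries are bounded: with `r₁ = (a,b)`, `r₂ = (c,d)` and a convex combination `Q` of the two positive
forms with `Q(r₁,r₂) = 0` one has `Q(r₁) Q(r₂) = det Q ≤ 5/4` and `Q(r) ≥ |r|²/3`. -/
theorem sideM_finite (f : SL(2, ℤ)) : {A : SL(2, ℤ) | ¬ (sideM A ↔ sideM (A * f))}.Finite := by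
  have hf : f ∈ Subgroup.closure ({ModularGroup.S, ModularGroup.T} : Set SL(2, ℤ)) := by
    rw [SpecialLinearGroup.SL2Z_generators]; trivial
  induction hf using Subgroup.closure_induction with
  | mem x hx =>
    rcases hx with rfl | rfl
    · refine Set.Finite.subset Set.finite_empty fun A hA => hA ?_
      rw [sideM, sideM, Matrix.SpecialLinearGroup.coe_mul, ModularGroup.coe_S]
      simp [Matrix.mul_apply, Fin.sum_univ_two, add_comm]
    · have hfin : {B : Fin 2 → Fin 2 → ℤ | ∀ i, B i ∈ {r : Fin 2 → ℤ | ∀ j, r j ∈ Set.Icc (-4 : ℤ) 4}}.Finite :=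
        Set.Finite.pi' fun _ => Set.Finite.pi' fun _ => Set.finite_Icc _ _
      refine (hfin.preimage (f := fun A : SL(2, ℤ) => (A.1 : Fin 2 → Fin 2 → ℤ))
        Subtype.val_injective.injOn).subset fun A hA => ?_
      have hdet : A.1 0 0 * A.1 1 1 - A.1 0 1 * A.1 1 0 = 1 := by rw [← Matrix.det_fin_two]; exact A.2
      obtain ⟨h1, h2, h3, h4⟩ := cs_bdd hdet (cs_int hdet (by
        rw [Set.mem_ofPred_eq, sideM, sideM, Matrix.SpecialLinearGroup.coe_mul, ModularGroup.coe_T] at hA
        simpa [Matrix.mul_apply, Fin.sum_univ_two] using hA))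
      intro i j
      fin_cases i <;> fin_cases j <;> assumption
  | one => simp
  | mul x y _ _ hx hy =>
    refine (hx.union (hy.preimage (mul_left_injective x).injOn)).subset fun A hA => ?_
    simp only [Set.mem_union, Set.mem_preimage, Set.mem_ofPred_eq, ← mul_assoc] at hA ⊢
    tauto
  | inv x _ hx =>
    refine (hx.preimage (mul_left_injective x⁻¹).injOn).subset fun A hA => ?_
    simp only [Set.mem_preimage, Set.mem_ofPred_eq, inv_mul_cancel_right] at hA ⊢
    tauto

/-- the reduced word is empty or starts with the generator `0` (or its inverse) -/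
def sideW (w : FreeGroup (Fin 3)) : Prop := ∀ p ∈ w.toWord.head?, p.1 = 0

theorem cs_letter (w : FreeGroup (Fin 3)) (x : Fin 3 × Bool) :
    (w * FreeGroup.mk [x]).toWord = w.toWord ++ [x] ∨
      w.toWord = (w * FreeGroup.mk [x]).toWord ++ [(x.1, !x.2)] := by
  have e : w * FreeGroup.mk [x] = FreeGroup.mk (w.toWord ++ [x]) := by
    rw [← FreeGroup.mul_mk, FreeGroup.mk_toWord]
  have hr : FreeGroup.IsReduced w.toWord := FreeGroup.isReduced_toWord
  rw [e]
  generalize w.toWord = L at hr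
  rcases L.eq_nil_or_concat with rfl | ⟨L', y, rfl⟩
  · left; rfl
  · rw [List.concat_eq_append] at hr ⊢
    by_cases hy : y = (x.1, !x.2)
    · right
      subst hy
      have : FreeGroup.mk (L' ++ [(x.1, !x.2)] ++ [x]) = FreeGroup.mk L' := by
        have := FreeGroup.Red.Step.not (L₁ := L') (L₂ := []) (x := x.1) (b := !x.2)
        have h2 : FreeGroup.mk _ = FreeGroup.mk _ := Quot.sound this
        simpa using h2
      rw [this, FreeGroup.toWord_mk, (hr.infix (List.prefix_append _ _).isInfix).reduce_eq]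
    · left
      refine FreeGroup.IsReduced.reduce_eq (hr.append_overlap ?_ (by simp))
      obtain ⟨y1, y2⟩ := y
      obtain ⟨x1, x2⟩ := x
      change FreeGroup.IsReduced [_, _]
      rw [FreeGroup.isReduced_cons_cons]
      refine ⟨?_, FreeGroup.IsReduced.singleton⟩
      rintro (rfl : y1 = x1)
      cases y2 <;> cases x2 <;> simp_all

theorem cs_head (L : List (Fin 3 × Bool)) (w : FreeGroup (Fin 3)) (h : L.length < w.norm) :
    (w * FreeGroup.mk L).toWord.head? = w.toWord.head? := by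
  induction L generalizing w with
  | nil => rw [← FreeGroup.one_eq_mk, mul_one]
  | cons x L ih =>
    have e : w * FreeGroup.mk (x :: L) = w * FreeGroup.mk [x] * FreeGroup.mk L := by
      rw [mul_assoc, FreeGroup.mul_mk]; rfl
    simp only [FreeGroup.norm, List.length_cons] at h ih
    rw [e]
    rcases cs_letter w x with h1 | h1
    · rw [ih _ (by rw [h1]; simp; omega), h1, List.head?_append_of_ne_nil]
      intro h2; simp [h2] at h
    · have h2 := congrArg List.length h1
      simp only [List.length_append, List.length_singleton] at h2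
      rw [ih _ (by omega), h1, List.head?_append_of_ne_nil]
      intro h3; rw [h3] at h2; simp at h2; omega

theorem cs_side (w : FreeGroup (Fin 3)) (b : Bool) : sideW (w * FreeGroup.mk [(0, b)]) ↔ sideW w := by
  have key : ∀ (L : List (Fin 3 × Bool)) (c : Bool),
      (∀ p ∈ (L ++ [((0 : Fin 3), c)]).head?, p.1 = 0) ↔ ∀ p ∈ L.head?, p.1 = 0 := by
    intro L c
    cases L <;> simp
  unfold sideW
  rcases cs_letter w (0, b) with h | h
  · rw [h, key]
  · conv_rhs => rw [h, key]

/-- cancellation removes at most `norm v` letters -/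
theorem head_mul (w v : FreeGroup (Fin 3)) (h : v.norm < w.norm) : (w * v).toWord.head? = w.toWord.head? := by
  conv_lhs => rw [← FreeGroup.mk_toWord (x := v)]
  exact cs_head _ w h

theorem sideW_mul_zpow (w : FreeGroup (Fin 3)) (m : ℤ) : sideW (w * FreeGroup.of 0 ^ m) ↔ sideW w := by
  induction m using Int.induction_on with
  | zero => simp
  | succ n ih => rw [_root_.zpow_add_one, ← mul_assoc, ← ih]; exact cs_side _ true
  | pred n ih => rw [_root_.zpow_sub_one, ← mul_assoc, ← ih]; exact cs_side _ false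

theorem sideW_finite (v v' : FreeGroup (Fin 3)) : {w | ¬ (sideW (w * v) ↔ sideW (w * v'))}.Finite := by
  refine ((List.finite_length_le (Fin 3 × Bool) (max v.norm v'.norm)).preimage
    FreeGroup.toWord_injective.injOn).subset fun w hw => ?_
  by_contra h
  have h' : max v.norm v'.norm < w.norm := not_le.1 h
  refine hw ?_
  unfold sideW
  rw [head_mul w v ((le_max_left _ _).trans_lt h'), head_mul w v' ((le_max_right _ _).trans_lt h')]

theorem sideW_one : sideW 1 := by
  simp [sideW]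

theorem sideW_conj (j : ℕ) (hj : 0 < j) :
    ¬ sideW ((FreeGroup.of 2)⁻¹ * (FreeGroup.of 0)⁻¹ ^ j * FreeGroup.of 2) := by
  obtain ⟨j, rfl⟩ : ∃ k, j = k + 1 := ⟨j - 1, by omega⟩
  have e : ((FreeGroup.of (2 : Fin 3))⁻¹ * (FreeGroup.of 0)⁻¹ ^ (j + 1)).toWord =
      (2, false) :: List.replicate (j + 1) (0, false) := by
    have e1 : ((FreeGroup.of (0 : Fin 3))⁻¹ ^ (j + 1)).toWord = List.replicate (j + 1) (0, false) := by
      rw [inv_pow, FreeGroup.toWord_inv, FreeGroup.toWord_of_pow]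
      simp [FreeGroup.invRev]
    rw [FreeGroup.toWord_mul, e1]
    change FreeGroup.reduce ((2, false) :: List.replicate (j + 1) (0, false)) = _
    rw [FreeGroup.reduce.cons, FreeGroup.reduce_replicate]
    simp [List.replicate_succ]
  unfold sideW
  rw [head_mul _ _ (by rw [FreeGroup.norm_of, FreeGroup.norm, e]; simp), e]
  simp

end Crest.Agent.R175C
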