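import Crest.Agent.R175.Zero

/-!
# R175: the canonical neighbour; irreducible non-spherical `K`.
-/

set_option autoImplicit false

namespace Crest.Agent.R175

open CoxeterSystem Crest.Agent.R61 Crest.GroupTheory

variable {S : Type} [Fintype S] [DecidableEq S] {M : CoxeterMatrix S}
  {n : ArtinGroup M → S → ℤ → ℝ} {z : S} {K : Finset S} {c : S → ℝ}

theorem canon_lt (h : NAx n) {g : ArtinGroup M} {i : S} (hc : 0 < c i) {m : ℕ} {t : ℝ}
    (ht : m = 0 ∨ 0 < t) : lev n 0 0 c g i < toLex (m, t) ↔ NegS n m (fun j => t * c j) g i := by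
  rcases Nat.eq_zero_or_pos m with rfl | hm
  · simpa using lev_lt_base (b := 0) (t := t) (m := 0) (g := g) h hc
  · exact lev_lt_high h hc hm (ht.resolve_left hm.ne')

theorem canon_eq (h : NAx n) {g : ArtinGroup M} {i : S} (hc : 0 < c i) {m : ℕ} {t : ℝ}
    (ht : m = 0 ∨ 0 < t) : lev n 0 0 c g i = toLex (m, t) ↔ TieS n m (fun j => t * c j) g i := by
  rcases Nat.eq_zero_or_pos m with rfl | hm
  · simpa using lev_eq_base (b := 0) (t := t) (m := 0) (g := g) h hc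
  · exact lev_eq_high h hc hm (ht.resolve_left hm.ne')

theorem canon_shape (h : NAx n) {i : S} (hc : 0 < c i) (g : ArtinGroup M) :
    ∃ m t, lev n 0 0 c g i = toLex (m, t) ∧ 0 ≤ t ∧ (m = 0 ∨ 0 < t) ∧ (¬ Zer n g i → 0 < t) := by
  rcases lev_cases (m := 0) (b := 0) h hc g with ⟨t, e⟩ | ⟨m, t, -, ht, e⟩
  · obtain ⟨h1, h2⟩ := (canon_eq h hc (Or.inl rfl)).1 e
    have h2' : n g i 0 = t * c i := h2
    have h3 : 0 ≤ t := nonneg_of_mul_nonneg_left (h2' ▸ h.nonneg g i 0) hc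
    refine ⟨0, t, e, h3, Or.inl rfl, fun hz => lt_of_le_of_ne h3 fun e => hz ?_⟩
    exact zer_iff.2 ⟨h1, by rw [h2', ← e, zero_mul]⟩
  · exact ⟨m, t, e, ht.le, Or.inr ht, fun _ => ht⟩

theorem canon_sub (h : NAx n) {J : Finset S} {g : ArtinGroup M} {k : ℤ} {b : S → ℝ} {j : S}
    (hb : 2 * b j ≤ ∑ k ∈ J, aa M j k * b k) : SubAt n J g k b j :=
  (sub_nonpos.2 hb).trans (Finset.sum_nonneg fun _ _ => mul_nonneg (aa_nonneg _ _) (h.nonneg _ _ _))

omit [Fintype S] in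
theorem canon_mul {J : Finset S} {j : S} {t : ℝ} (ht : 0 ≤ t)
    (hc : 2 * c j ≤ ∑ k ∈ J, aa M j k * c k) : 2 * (t * c j) ≤ ∑ k ∈ J, aa M j k * (t * c k) := by
  have := mul_le_mul_of_nonneg_left hc ht
  rw [Finset.mul_sum] at this
  calc 2 * (t * c j) = t * (2 * c j) := by ring
    _ ≤ _ := this
    _ = _ := Finset.sum_congr rfl fun k _ => by ring

/-- The level is `(m, μ)` with `μ > 0` (`lev_cases`); `(g, i)` is a `TieS n m (μ c)`-vertex, `(1, i)`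
is a `NegS`-vertex, `Hyp n K g m (μ c)` holds. -/
theorem exists_lower (hE : EData n z) (hz : z ∉ K)
    (hc : ∀ j ∈ K, 0 < c j ∧ 2 * c j ≤ ∑ k ∈ K, aa M j k * c k) {g : ArtinGroup M}
    (hg : g ∈ AP M K) {i : S} (hi : i ∈ K) (hne : ¬ Zer n g i) :
    ∃ a ∈ AP M (K.erase i), ∃ j ∈ K.erase i, lev n 0 0 c (g * a) j < lev n 0 0 c g i := by
  obtain ⟨m, t, e, -, h2, h3⟩ := canon_shape hE.ax (hc i hi).1 g
  have ht := h3 hne
  have h1 : ∀ k, n 1 i k = 0 := fun k => hE.one_ne i k fun e => hz (e ▸ hi)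
  obtain ⟨a, ha, j, hj, hne, p⟩ := (hE.cl K g m (fun j => t * c j) fun j hj =>
    Or.inr (canon_sub hE.ax (canon_mul ht.le (hc j hj).2))).2 g i (by simp) hi
    ((canon_eq hE.ax (hc i hi).1 h2).1 e) ⟨1, i, by simpa using hg, hi, fun k _ => h1 k, by
      rw [h1]; exact mul_pos ht (hc i hi).1⟩
  exact ⟨a, ha, j, Finset.mem_erase.2 ⟨hne, hj⟩, e ▸ (canon_lt hE.ax (hc j hj).1 h2).2 p⟩

/-- Let `(m', μ')` be the least level in the link (`lev_isWF`), `μ' ≥ 0`, `T` the set of types that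
attain it, `j₀, p` from `Irr.pathVec_sel`, `b' = μ' c + ε p`.  For small `ε` the `NegS n m' b'`-vertices
of the link are the minimisers of type `j₀` (`NAx.exists_gap'`).  `Hyp n (K.erase i) g m' b'`: for
`j ∈ K.erase i`, `2 b' j ≤ ∑ k ∈ K, aa j k * b' k`.  If `¬ InReg n m' g i`, use the first alternative
or `aa j i = 0`.  Otherwise the level of `(g, i)` is `(m', μ)` with `μ' < μ` and `SubAt.erase`
applies.  `Conn.mem_erase` finishes the proof. -/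
theorem canon (hE : EData n z) (hz : z ∉ K) (hK : Irr M K)
    (hc : ∀ j ∈ K, 0 < c j ∧ 2 * c j ≤ ∑ k ∈ K, aa M j k * c k) {g : ArtinGroup M}
    (hg : g ∈ AP M K) {i : S} (hi : i ∈ K) (hne : ¬ Zer n g i) :
    ∃ a ∈ AP M (K.erase i), ∃ j ∈ K.erase i, lev n 0 0 c (g * a) j < lev n 0 0 c g i ∧
      ∀ a' ∈ AP M (K.erase i), lev n 0 0 c (g * a') j = lev n 0 0 c (g * a) j →
        a⁻¹ * a' ∈ AP M ((K.erase i).erase j) := by
  classical
  have ax := hE.ax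
  have hc0 : ∀ j ∈ K.erase i, 0 < c j := fun j hj => (hc j (Finset.mem_of_mem_erase hj)).1
  have hwf : {μ | ∃ a ∈ AP M (K.erase i), ∃ j ∈ K.erase i, lev n 0 0 c (g * a) j = μ}.IsWF :=
    (lev_isWF (m := 0) (b := 0) ax hc0).mono fun μ ⟨a, _, j, hj, e⟩ => ⟨_, j, hj, e⟩
  obtain ⟨a₂, ha₂, j₂, hj₂, hlt⟩ := exists_lower hE hz hc hg hi hne
  have hne' : {μ | ∃ a ∈ AP M (K.erase i), ∃ j ∈ K.erase i, lev n 0 0 c (g * a) j = μ}.Nonempty :=
    ⟨_, a₂, ha₂, j₂, hj₂, rfl⟩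
  obtain ⟨a₁, ha₁, j₁, hj₁, e₁⟩ := hwf.min_mem hne'
  obtain ⟨m, t, e₂, ht, h2, -⟩ := canon_shape ax (hc0 j₁ hj₁) (g * a₁)
  have hmin : ∀ a ∈ AP M (K.erase i), ∀ j ∈ K.erase i, ¬ lev n 0 0 c (g * a) j < toLex (m, t) := by
    intro a ha j hj
    rw [← e₂, e₁]
    exact hwf.not_lt_min hne' ⟨a, ha, j, hj, rfl⟩
  have hlt' : toLex (m, t) < lev n 0 0 c g i := lt_of_le_of_lt (not_lt.1 (hmin a₂ ha₂ j₂ hj₂)) hlt
  obtain ⟨j₀, hj₀, p, p0, p1, p2, p3⟩ := hK.pathVec_sel hi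
    (T := (K.erase i).filter fun j => ∃ a ∈ AP M (K.erase i), lev n 0 0 c (g * a) j = toLex (m, t))
    (Finset.filter_subset _ _) ⟨j₁, Finset.mem_filter.2 ⟨hj₁, a₁, ha₁, e₂⟩⟩
  obtain ⟨hj₀', a₀, ha₀, e₀⟩ := Finset.mem_filter.1 hj₀
  obtain ⟨ε₀, hε₀, hgap⟩ := ax.exists_gap' fun j => t * c j
  obtain ⟨δ, hδ, d1, d2⟩ : ∃ δ : ℝ, 0 < δ ∧ δ ≤ ε₀ ∧ (InReg n m g i → t * c i + δ ≤ n g i (dS m)) := by
    by_cases hr : InReg n m g i
    · have a1 : ¬ n g i (dS m) < t * c i := fun h =>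
        lt_asymm hlt' ((canon_lt ax (hc i hi).1 h2).2 ⟨hr, h⟩)
      have a2 : n g i (dS m) ≠ t * c i := fun h =>
        hlt'.ne' ((canon_eq ax (hc i hi).1 h2).2 ⟨hr, h⟩)
      have a3 : t * c i < n g i (dS m) := lt_of_le_of_ne (not_lt.1 a1) a2.symm
      exact ⟨min ε₀ (n g i (dS m) - t * c i), lt_min hε₀ (sub_pos.2 a3), min_le_left _ _,
        fun _ => by linarith [min_le_right ε₀ (n g i (dS m) - t * c i)]⟩
    · exact ⟨ε₀, hε₀, le_rfl, fun h => absurd h hr⟩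
  obtain ⟨ε, hε, hεp⟩ := zero_small K p (v := fun _ => δ) fun _ _ => hδ
  have hyp : Hyp n (K.erase i) g m fun j => t * c j + ε * p j := by
    intro j hj
    have hj' := Finset.mem_erase.1 hj
    have h3 : 2 * (t * c j + ε * p j) ≤ ∑ k ∈ K, aa M j k * (t * c k + ε * p k) := by
      simp only [mul_add, Finset.sum_add_distrib]
      exact add_le_add (canon_mul ht (hc j hj'.2).2) (canon_mul hε.le (p3 j hj'.2 hj'.1))
    by_cases hr : InReg n m g i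
    · exact Or.inr (SubAt.erase hi (canon_sub ax h3) (by linarith [d2 hr, hεp i hi]))
    by_cases h0 : aa M j i = 0
    · refine Or.inr (canon_sub ax ?_)
      rwa [← Finset.add_sum_erase K _ hi, h0, zero_mul, zero_add] at h3
    · exact Or.inl ⟨i, Finset.notMem_erase _ _, h0, hr⟩
  have neg : ∀ a ∈ AP M (K.erase i), lev n 0 0 c (g * a) j₀ = toLex (m, t) →
      NegS n m (fun j => t * c j + ε * p j) (g * a) j₀ := by
    intro a _ e
    obtain ⟨b1, b2⟩ := (canon_eq ax (hc0 j₀ hj₀') h2).1 e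
    exact ⟨b1, by linarith [mul_pos hε p1]⟩
  refine ⟨a₀, ha₀, j₀, hj₀', e₀ ▸ hlt', fun a' ha' e' => ?_⟩
  have cn := (hE.cl _ g m _ hyp).1 (g * a₀) (g * a') j₀ j₀ (by rwa [inv_mul_cancel_left])
    (by rwa [inv_mul_cancel_left]) hj₀' hj₀' (neg a₀ ha₀ e₀) (neg a' ha' (e'.trans e₀))
  have := cn.mem_erase (g₀ := g) (j := j₀) (by rwa [inv_mul_cancel_left]) fun g' j hg' hj ng => by
    by_contra hjj
    have b1 : n g' j (dS m) ≤ t * c j :=
      hgap g' j _ (by linarith [ng.2, hεp j (Finset.mem_of_mem_erase hj)])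
    have b2 := hmin _ hg' j hj
    rw [mul_inv_cancel_left, canon_lt ax (hc0 j hj) h2] at b2
    have b3 : n g' j (dS m) = t * c j := le_antisymm b1 (not_lt.1 fun h => b2 ⟨ng.1, h⟩)
    have b4 := p2 j (Finset.mem_filter.2 ⟨hj, _, hg', by
      rw [mul_inv_cancel_left]
      exact (canon_eq ax (hc0 j hj) h2).2 ⟨ng.1, b3⟩⟩) hjj
    have b5 := ng.2
    simp only [b3, b4, mul_zero, add_zero, lt_irrefl] at b5
  rwa [mul_inv_rev, mul_assoc, inv_mul_cancel_left] at this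

/-- apply `hc` to `Z`, `Y`, `h⁻¹` -/
theorem ClaimAt.restrict {X Y Y' : Finset S} {g : ArtinGroup M} (h : ClaimAt M X Y' g)
    (hc : Claim M Y') (hY : Y ⊆ Y') : ClaimAt M X Y g := by
  obtain ⟨h₁, m1, Z, hZ, c1⟩ := h
  obtain ⟨h₂, m2, Z', hZ', c2⟩ := hc Z hZ Y hY h₁⁻¹ (inv_mem m1)
  refine ⟨h₂, m2, Z', hZ', fun x => ?_⟩
  have c3 := c2 ((g * h₁)⁻¹ * x * (g * h₁))
  have e1 : h₁⁻¹⁻¹ * ((g * h₁)⁻¹ * x * (g * h₁)) * h₁⁻¹ = g⁻¹ * x * g := by group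
  have e2 : (h₁⁻¹ * h₂)⁻¹ * ((g * h₁)⁻¹ * x * (g * h₁)) * (h₁⁻¹ * h₂) =
      (g * h₂)⁻¹ * x * (g * h₂) := by group
  rw [e1, e2, ← c1] at c3
  rw [← c3]
  exact ⟨fun h => ⟨⟨h.1, AP_mono hY h.2⟩, h.2⟩, fun h => ⟨h.1.1, h.2⟩⟩

/-- Well-founded induction on the level.  Zero vertices: `zero_set`, `VdL` (`h = a⁻¹`,
`Z = X ∩ K.erase i`).  Otherwise take `a, j` from `canon` and `ClaimAt M X ((K.erase i).erase j) (g a)`
from the induction hypothesis and `ClaimAt.restrict`; for `y ∈ A_X` with `g⁻¹ y g ∈ A_{K ∖ i}` put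
`a' = g⁻¹ y g a` (`left_AP`, `lev_congr`). -/
theorem claimAt_vertex (hE : EData n z) {X : Finset S} (hX : X ⊆ K) (hz : IsFr M K X z)
    (hK : Irr M K) (hc : ∀ j ∈ K, 0 < c j ∧ 2 * c j ≤ ∑ k ∈ K, aa M j k * c k) (hv : VdL M K)
    (ih : ∀ j ∈ K, Claim M (K.erase j)) {g : ArtinGroup M} (hg : g ∈ AP M K) {i : S}
    (hi : i ∈ K) : ClaimAt M X (K.erase i) g := by
  classical
  have hX0 : ∀ s ∈ X, s ≠ z ∧ aa M s z = 0 := fun s hs =>
    ⟨fun e => hz.1 (e ▸ hX hs), (hz.2 s (hX hs)).2 hs⟩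
  refine Set.WellFoundedOn.induction (lev_isWF (m := 0) (b := 0) hE.ax fun j hj => (hc j hj).1)
    (P := fun μ => ∀ g ∈ AP M K, ∀ i ∈ K, lev n 0 0 c g i = μ → ClaimAt M X (K.erase i) g)
    ⟨g, i, hi, rfl⟩ ?_ g hg i hi rfl
  rintro _ - ih' g hg i hi rfl
  by_cases h0 : Zer n g i
  · obtain ⟨x₀, hx₀, ha⟩ := hE.zero_set K hz.1 hg hi h0
    have hx₀' : x₀ ∈ AP M X := AP_mono (fun s hs =>
      (hz.2 s (Finset.mem_filter.1 hs).1).1 (Finset.mem_filter.1 hs).2) hx₀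
    refine ⟨(x₀⁻¹ * g)⁻¹, inv_mem ha, X ∩ K.erase i, Finset.inter_subset_right, fun x => ?_⟩
    have e : g * (x₀⁻¹ * g)⁻¹ = x₀ := by group
    rw [e]
    refine ⟨fun h => hv X hX _ (Finset.erase_subset _ _) _
      (mul_mem (mul_mem (inv_mem hx₀') h.1) hx₀') ?_, fun h => ⟨?_, ?_⟩⟩
    · have := mul_mem (mul_mem ha h.2) (inv_mem ha)
      convert this using 1
      group
    · have := mul_mem (mul_mem hx₀' (AP_mono Finset.inter_subset_left h)) (inv_mem hx₀')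
      convert this using 1
      group
    · have := mul_mem (mul_mem (inv_mem ha) (AP_mono Finset.inter_subset_right h)) ha
      convert this using 1
      group
  · obtain ⟨a, ha, j, hj, hlt, hu⟩ := canon hE hz.1 hK hc hg hi h0
    have hjK := Finset.mem_of_mem_erase hj
    obtain ⟨h', m', Z, hZ, c1⟩ := (ih' _ ⟨_, j, hjK, rfl⟩ hlt (g * a)
      (mul_mem hg (AP_mono (Finset.erase_subset _ _) ha)) j hjK rfl).restrict (ih j hjK)
      (Y := (K.erase i).erase j) (Finset.erase_subset_erase j (Finset.erase_subset i K))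
    refine ⟨a * h', mul_mem ha (AP_mono (Finset.erase_subset _ _) m'), Z,
      hZ.trans (Finset.erase_subset _ _), fun x => ?_⟩
    rw [← mul_assoc g a h', ← c1]
    refine and_congr_right fun hx => ⟨fun h => ?_, fun h => ?_⟩
    · have := hu (g⁻¹ * x * g * a) (mul_mem h ha) (lev_congr fun k => by
        rw [← hE.left_AP hX0 hx (g * a)]
        congr 1
        group)
      convert this using 1
      group
    · have := mul_mem (mul_mem ha (AP_mono (Finset.erase_subset _ _) h)) (inv_mem ha)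
      convert this using 1
      group

/-- `Y = K`: `h = g⁻¹`, `Z = X`.  Otherwise `Y ⊆ K.erase i`. -/
theorem claim_of_vec (hE : ∀ z : S, ∃ n : ArtinGroup M → S → ℤ → ℝ, EData n z) (hF : Framed M K)
    (hK : Irr M K) (hc : ∀ j ∈ K, 0 < c j ∧ 2 * c j ≤ ∑ k ∈ K, aa M j k * c k)
    (ih : ∀ j ∈ K, Claim M (K.erase j)) : Claim M K := by
  intro X hX Y hY g hg
  by_cases e : K ⊆ Y
  · refine ⟨g⁻¹, AP_mono e (inv_mem hg), X, hX.trans e, fun x => ?_⟩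
    simp only [mul_inv_cancel, inv_one, one_mul, mul_one]
    exact ⟨fun h => h.1, fun h => ⟨h, AP_mono e
      (mul_mem (mul_mem (inv_mem hg) (AP_mono hX h)) hg)⟩⟩
  · obtain ⟨i, hi, hiY⟩ := Finset.not_subset.1 e
    obtain ⟨z, hz⟩ := hF X hX
    obtain ⟨n, hn⟩ := hE z
    exact (claimAt_vertex hn hX hz hK hc (vdL_of_framed hE hF) ih hg hi).restrict (ih i hi)
      fun s hs => Finset.mem_erase.2 ⟨fun e => hiY (e ▸ hs), hY hs⟩

end Crest.Agent.R175
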