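import Crest.Agent.R175.ThR

/-!
# R175: `Φ T_U = T_{U'} Φ` when `Φ` carries the simples of `U` to the simples of `U'`.

1. `exists_minimal (ThObj U F)` gives `Y` with `Y.δ = 0`, supported on `U`, and a homotopy
   equivalence `e : Y → Θ F`.  Put `φ = ev * e : Y → F`; `Tm U F ≃ ext F Y[1] φ` (`ext_congr`), so
   `Φ (Tm U F) ≃ ext (Φ F) (Φ Y[1]) (Φ φ)` (`DGFun.map_ext`).
2. Let `X` have the indices and degrees of `Y`, vertices `σ (vtx i)`, `δ = 0`.  With the column /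
   row matrices `ι_i : S_{vtx i} → Y` (closed of degree `deg i`), `π_i` (degree `-deg i`), the same
   for `X`, and chosen equivalences `ρ_v : S_{σ v} → Φ S_v` with inverses `ρ'_v`, the matrix
   `ρ = ∑ i, Φ ι_i * ρ_{vtx i} * π^X_i : X → Φ Y` is a homotopy equivalence with inverse
   `∑ i, ι^X_i * ρ'_{vtx i} * Φ π_i`.
3. `ψ = shM (Φ φ * ρ) : X → Θ_{U'} (Φ F)` is closed, `ev * ψ = Φ φ * ρ`, and it is a
   quasi-isomorphism: a vector `u ∈ Cc X (σ v) k` is a map `c_u = ∑ u i • ι_i : S_v → Y`, it goes to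
   the vector of `Φ (φ c_u) ρ_v`; `u ↦ φ c_u` is a bijection onto `H^k Hom (S_v, F)` because `e` is
   a quasi-isomorphism, and `QFF Φ` does the rest.  So `ψ` is a homotopy equivalence
   (`isHE_of_quasiIso`), and `ext_congr` finishes the proof (handle the shift `[1]` with
   `DGFun.map_shift`-like maps, or apply steps 2, 3 directly to `Y[1]`).
-/

set_option autoImplicit false

namespace Crest.Agent.R175

open Matrix

variable {Q : Qv}

/-- a vector as a scalar map out of a simple object -/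
def cjCol (v : Q.V) (X : Gr Q) : (X.ι → ℝ) →ₗ[ℝ] Mor (simple v).toGr X where
  toFun u := fun x _ => Z.sc (u x)
  map_add' u w := by
    funext x y
    change Z.sc (u x + w x) = Z.sc (u x) + Z.sc (w x)
    ext a <;> simp
  map_smul' r u := by
    funext x y
    change Z.sc (r * u x) = r • Z.sc (u x)
    ext a <;> simp

/-- a coordinate as a scalar map to a simple object -/
def cjRow (v : Q.V) (X : Gr Q) (i : X.ι) : Mor X (simple v).toGr := fun _ x => if x = i then 1 else 0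

theorem cjCol_apply (v : Q.V) (X : Gr Q) (u : X.ι → ℝ) (x : X.ι) (y : (simple v).ι) :
    cjCol v X u x y = Z.sc (u x) := rfl

theorem cjCol_scalar (v : Q.V) (X : Gr Q) (u : X.ι → ℝ) : Scalar (cjCol v X u) :=
  fun _ _ => ⟨fun _ => rfl, rfl⟩

theorem cjCol_hom {v : Q.V} {X : Gr Q} {k : ℤ} {u : X.ι → ℝ} (hu : u ∈ Cc X v k) :
    IsHom (simple v).toGr X k (cjCol v X u) := by
  intro x y
  refine ⟨fun h => ?_, fun a h => absurd rfl h, fun h => absurd rfl h⟩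
  by_contra hc
  refine h (hu x fun hx => hc ⟨hx.1, ?_⟩)
  rw [hx.2]
  exact (zero_add k).symm

theorem cj_mul_col {v : Q.V} {X X' : Gr Q} {ψ : Mor X X'} (h : Scalar ψ) (u : X.ι → ℝ) :
    ψ * cjCol v X u = cjCol v X' ((m0 ψ).mulVec u) := by
  funext x y
  rw [Matrix.mul_apply, cjCol_apply]
  ext a
  · simp [cjCol_apply, m0, mulVec, dotProduct]
  · simp [cjCol_apply, (h x _).1]
  · simp [cjCol_apply, (h x _).2]

theorem cj_eq_col {v : Q.V} {X : Gr Q} {c : Mor (simple v).toGr X} (h : Scalar c) :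
    c = cjCol v X fun x => (c x ()).c0 := by
  funext x y
  rw [cjCol_apply]
  ext a
  · rfl
  · exact (h x y).1 a
  · exact (h x y).2

theorem cj_mem_Cc {v : Q.V} {X : Gr Q} {k : ℤ} {c : Mor (simple v).toGr X}
    (h : IsHom (simple v).toGr X k c) : (fun x => (c x ()).c0) ∈ Cc X v k := by
  intro x hx
  by_contra hc
  obtain ⟨h1, h2⟩ := (h x ()).1 hc
  exact hx ⟨h1, h2.trans (zero_add k)⟩

theorem cjCol_inj {v : Q.V} {X : Gr Q} {u w : X.ι → ℝ} (h : cjCol v X u = cjCol v X w) : u = w :=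
  funext fun x => congrArg Z.c0 (congrFun (congrFun h x) ())

theorem cj_D {v : Q.V} {F : Obj Q} (p : ℤ) (t : Mor (simple v).toGr F.toGr) :
    Dd (simple v) F p t = F.δ * t := by
  have : (simple v : Obj Q).δ = 0 := rfl
  rw [Dd, this, Matrix.mul_zero, smul_zero, sub_zero]

theorem cj_row_col (v w : Q.V) (X : Gr Q) (i : X.ι) (u : X.ι → ℝ) (a : (simple w).ι)
    (b : (simple v).ι) : (cjRow w X i * cjCol v X u) a b = Z.sc (u i) := by
  simp [Matrix.mul_apply, cjRow, cjCol_apply]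

theorem cj_col_row (v : Q.V) (X : Gr Q) (i : X.ι) (u : X.ι → ℝ) (x y : X.ι) :
    (cjCol v X u * cjRow v X i) x y = if y = i then Z.sc (u x) else 0 := by
  rw [Matrix.mul_apply, Fintype.sum_eq_single (α := (simple v).ι) () fun _ h => absurd rfl h]
  simp only [cjRow, mul_ite, mul_one, mul_zero]
  rfl

theorem cj_row_col_same (v : Q.V) (X : Gr Q) (i : X.ι) (u : X.ι → ℝ) :
    cjRow v X i * cjCol v X u = u i • (1 : Mor (simple v).toGr (simple v).toGr) := by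
  funext a b
  obtain rfl : a = b := rfl
  rw [cj_row_col, Matrix.smul_apply, Matrix.one_apply_eq, Z.sc_eq_smul_one]

theorem cj_row_col_zero (v w : Q.V) (X : Gr Q) (i : X.ι) {u : X.ι → ℝ} (h : u i = 0) :
    cjRow w X i * cjCol v X u = 0 := by
  funext a b
  rw [cj_row_col, h]
  rfl

/-- `G` is the direct sum of the `S i` placed in the degrees `d i` -/
structure CjBi {I : Type} [Fintype I] (d : I → ℤ) (S : I → Obj Q) (G : Obj Q)
    (ι : ∀ i, Mor (S i).toGr G.toGr) (π : ∀ i, Mor G.toGr (S i).toGr) : Prop where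
  cι : ∀ i, Closed (S i) G (d i) (ι i)
  cπ : ∀ i, Closed G (S i) (-d i) (π i)
  h1 : ∀ i, π i * ι i = 1
  h0 : ∀ i j, i ≠ j → π i * ι j = 0
  hs : ∑ i, ι i * π i = 1

section bi
variable {I : Type} [Fintype I] {d : I → ℤ} {S S' : I → Obj Q} {G G' : Obj Q}
  {ι : ∀ i, Mor (S i).toGr G.toGr} {π : ∀ i, Mor G.toGr (S i).toGr}
  {ι' : ∀ i, Mor (S' i).toGr G'.toGr} {π' : ∀ i, Mor G'.toGr (S' i).toGr}

theorem CjBi.map (h : CjBi d S G ι π) (Φ : DGFun Q) :
    CjBi d (fun i => Φ.obj (S i)) (Φ.obj G) (fun i => Φ.map _ _ (d i) (ι i))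
      (fun i => Φ.map _ _ (-d i) (π i)) where
  cι i := Φ.map_closed (h.cι i)
  cπ i := Φ.map_closed (h.cπ i)
  h1 i := by rw [← Φ.map_mul (h.cι i).hom (h.cπ i).hom, h.h1, add_neg_cancel, Φ.map_one]
  h0 i j hij := by rw [← Φ.map_mul (h.cι j).hom (h.cπ i).hom, h.h0 i j hij, map_zero]
  hs := by
    rw [Finset.sum_congr rfl fun i _ => by
      rw [← Φ.map_mul (h.cπ i).hom (h.cι i).hom, neg_add_cancel], ← map_sum, h.hs, Φ.map_one]

theorem CjBi.pi_mul (h : CjBi d S G ι π) {H : Gr Q} (f : ∀ i, Mor H (S i).toGr) (j : I) :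
    π j * ∑ i, ι i * f i = f j := by
  rw [Matrix.mul_sum, Finset.sum_eq_single j
    (fun i _ hi => by rw [← Matrix.mul_assoc, h.h0 j i hi.symm, Matrix.zero_mul]) (by simp),
    ← Matrix.mul_assoc, h.h1, Matrix.one_mul]

theorem CjBi.closed (h : CjBi d S G ι π) (h' : CjBi d S' G' ι' π') {r : ∀ i, Mor (S i).toGr (S' i).toGr}
    (hr : ∀ i, Closed (S i) (S' i) 0 (r i)) : Closed G G' 0 (∑ i, ι' i * (r i * π i)) :=
  Closed.sum _ fun i _ => (((h.cπ i).mul (hr i)).mul (h'.cι i)).of_eq (by omega)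

theorem CjBi.exact (h : CjBi d S G ι π) (h' : CjBi d S' G' ι' π') {r : ∀ i, Mor (S i).toGr (S' i).toGr}
    {r' : ∀ i, Mor (S' i).toGr (S i).toGr} (he : ∀ i, Exact (S i) (S i) 0 (r' i * r i - 1)) :
    Exact G G 0 ((∑ i, ι i * (r' i * π' i)) * (∑ i, ι' i * (r i * π i)) - 1) := by
  rw [Matrix.sum_mul, ← h.hs, ← Finset.sum_sub_distrib]
  refine Exact.sum _ fun i _ => ?_
  have := ((Exact.mul_closed (h.cπ i) (he i)).closed_mul (h.cι i)).of_eq (q := 0) (by omega)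
  rwa [Matrix.mul_assoc, Matrix.mul_assoc, h'.pi_mul, ← Matrix.mul_sub, ← Matrix.mul_assoc (r' i),
    ← Matrix.one_mul (π i), ← Matrix.mul_assoc (r' i * r i), Matrix.mul_one, ← Matrix.sub_mul]

theorem CjBi.isHE (h : CjBi d S G ι π) (h' : CjBi d S' G' ι' π') {r : ∀ i, Mor (S i).toGr (S' i).toGr}
    (hr : ∀ i, IsHE (S i) (S' i) (r i)) : IsHE G G' (∑ i, ι' i * (r i * π i)) := by
  choose r' hc h1 h2 using fun i => (hr i).2
  exact ⟨h.closed h' fun i => (hr i).1, _, h'.closed h hc, h.exact h' h1, h'.exact h h2⟩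

end bi

theorem cj_bi {X : Obj Q} (h0 : X.δ = 0) :
    CjBi X.deg (fun i => simple (X.vtx i)) X (fun i => cjCol (X.vtx i) X.toGr (Pi.single i 1))
      (fun i => cjRow (X.vtx i) X.toGr i) where
  cι i := ⟨cjCol_hom fun j hj => Pi.single_eq_of_ne (by rintro rfl; exact hj ⟨rfl, rfl⟩) _,
    by rw [cj_D, h0, Matrix.zero_mul]⟩
  cπ i := by
    refine ⟨fun a x => ?_, ?_⟩
    · unfold cjRow
      split_ifs with hx
      · subst hx
        exact (Ok.one (k := 0)).of_eq (by simp [simple])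
      · exact Ok.zero _ _ _ _ _
    · have : (simple (X.vtx i) : Obj Q).δ = 0 := rfl
      rw [Dd, this, h0, Matrix.mul_zero, Matrix.zero_mul, smul_zero, sub_zero]
  h1 i := by rw [cj_row_col_same, Pi.single_eq_same, one_smul]
  h0 i j hij := cj_row_col_zero _ _ _ _ (Pi.single_eq_of_ne hij _)
  hs := by
    funext x y
    rw [Matrix.sum_apply, Finset.sum_eq_single x, Matrix.one_apply]
    · rw [cj_col_row]
      simp [eq_comm]
    · intro i _ hi
      simp [Matrix.mul_apply, cjCol_apply, Pi.single_eq_of_ne hi.symm]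
    · simp

/-- `φ : X → F` represents the cohomology of `Hom (S_v, F)`, `U v` -/
structure CjUniv (U : Q.V → Prop) (X F : Obj Q) (φ : Mor X.toGr F.toGr) : Prop where
  zero : X.δ = 0
  supp : ∀ i, U (X.vtx i)
  cl : Closed X F 0 φ
  inj : ∀ v k, U v → ∀ u ∈ Cc X.toGr v k, Exact (simple v) F k (φ * cjCol v X.toGr u) → u = 0
  surj : ∀ v k, U v → ∀ g, Closed (simple v) F k g →
    ∃ u ∈ Cc X.toGr v k, Exact (simple v) F k (g - φ * cjCol v X.toGr u)

section univ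
variable {U : Q.V → Prop} [DecidablePred U] {X F : Obj Q} {v : Q.V} {k : ℤ}

/-- `evM` with the type of a morphism of objects -/
def cjEv (U : Q.V → Prop) [DecidablePred U] (F : Obj Q) : Mor (ThObj U F).toGr F.toGr := evM U F.toGr

/-- `shM` with the type of a morphism of objects -/
def cjSh (U : Q.V → Prop) [DecidablePred U] (G : Gr Q) (F : Obj Q) :
    Mor G F.toGr →ₗ[ℝ] Mor G (ThObj U F).toGr := shM U G F.toGr

theorem cjTh_scalar (F : Obj Q) : Scalar (ThObj U F).δ := ThM_scalar _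

theorem cjEv_closed (F : Obj Q) : Closed (ThObj U F) F 0 (cjEv U F) := closed_evM U F

theorem cjSh_scalar {G : Gr Q} (g : Mor G F.toGr) : Scalar (cjSh U G F g) := shM_scalar g

theorem cjSh_hom {G : Gr Q} {g : Mor G F.toGr} (hG : ∀ i, U (G.vtx i)) (h : IsHom G F.toGr k g) :
    IsHom G (ThObj U F).toGr k (cjSh U G F g) := shM_hom hG h

theorem cjEv_sh {G : Gr Q} {g : Mor G F.toGr} (hG : ∀ i, U (G.vtx i)) (h : IsHom G F.toGr k g) :
    cjEv U F * cjSh U G F g = g := evM_mul_shM hG h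

theorem cjSh_ev {G : Gr Q} {ψ : Mor G (ThObj U F).toGr} (h : Scalar ψ) :
    cjSh U G F (cjEv U F * ψ) = ψ := shM_evM_mul h

theorem cjSh_δ {G : Gr Q} {g : Mor G F.toGr} (hG : ∀ i, U (G.vtx i)) (h : IsHom G F.toGr k g) :
    cjSh U G F (F.δ * g) = (ThObj U F).δ * cjSh U G F g := shM_mul_left hG h F.hom

theorem cj_delta_ev (F : Obj Q) (v : Q.V) (w : (ThObj U F).ι → ℝ) :
    F.δ * (cjEv U F * cjCol v _ w) = cjEv U F * cjCol v _ ((m0 (ThObj U F).δ).mulVec w) := by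
  rw [← Matrix.mul_assoc, (cjEv_closed F).comm0, Matrix.mul_assoc, cj_mul_col (cjTh_scalar F)]

theorem cj_exact_ev (hv : U v) {w : (ThObj U F).ι → ℝ} :
    Exact (simple v) F k (cjEv U F * cjCol v _ w) ↔ w ∈ Bc (ThObj U F) v k := by
  constructor
  · rintro ⟨t, ht, e⟩
    refine coh_mem_Bc.2 ⟨_, cj_mem_Cc (cjSh_hom (U := U) (fun _ => hv) ht), cjCol_inj (v := v) ?_⟩
    have h1 := congrArg (cjSh U _ _) e
    rw [cjSh_ev (cjCol_scalar _ _ _), cj_D, cjSh_δ (fun _ => hv) ht,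
      cj_eq_col (cjSh_scalar t), cj_mul_col (cjTh_scalar F)] at h1
    exact h1.symm
  · intro hw
    obtain ⟨w', hw', rfl⟩ := coh_mem_Bc.1 hw
    refine ⟨_, ((cjCol_hom hw').mul (cjEv_closed F).hom).of_eq (add_zero _), ?_⟩
    rw [cj_D, cj_delta_ev]

theorem cj_closed_ev {w : (ThObj U F).ι → ℝ} (hw : w ∈ Zc (ThObj U F) v k) :
    Closed (simple v) F k (cjEv U F * cjCol v _ w) := by
  refine ⟨((cjCol_hom hw.1).mul (cjEv_closed F).hom).of_eq (add_zero _), ?_⟩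
  rw [cj_D, cj_delta_ev, (coh_mem_Zc.1 hw).2, map_zero, Matrix.mul_zero]

theorem cj_exists_ev (hv : U v) {g : Mor (simple v).toGr F.toGr} (hg : Closed (simple v) F k g) :
    ∃ w ∈ Zc (ThObj U F) v k, g = cjEv U F * cjCol v _ w := by
  refine ⟨_, coh_mem_Zc.2 ⟨cj_mem_Cc (cjSh_hom (U := U) (fun _ => hv) hg.hom), cjCol_inj (v := v) ?_⟩, ?_⟩
  · have h1 := congrArg (cjSh U _ _) hg.cl
    rw [cj_D, cjSh_δ (fun _ => hv) hg.hom, cj_eq_col (cjSh_scalar g),
      cj_mul_col (cjTh_scalar F), map_zero] at h1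
    exact h1.trans (map_zero _).symm
  · rw [← cj_eq_col (cjSh_scalar g), cjEv_sh (fun _ => hv) hg.hom]

theorem cj_Zc (h0 : X.δ = 0) {u : X.ι → ℝ} : u ∈ Zc X v k ↔ u ∈ Cc X.toGr v k := by
  rw [coh_mem_Zc, h0, m0_zero, zero_mulVec]
  simp

theorem cj_Bc (h0 : X.δ = 0) {u : X.ι → ℝ} : u ∈ Bc X v k ↔ u = 0 := by
  refine ⟨fun h => ?_, fun h => h ▸ Submodule.zero_mem _⟩
  obtain ⟨w, -, rfl⟩ := coh_mem_Bc.1 h
  rw [h0, m0_zero, zero_mulVec]

omit [DecidablePred U] in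
theorem cj_zero_of_not {G : Gr Q} (hG : ∀ i, U (G.vtx i)) (hv : ¬ U v) {u : G.ι → ℝ}
    (hu : u ∈ Cc G v k) : u = 0 :=
  funext fun i => hu i fun hi => hv (hi.1 ▸ hG i)

theorem CjUniv.he {φ : Mor X.toGr F.toGr} (h : CjUniv U X F φ) (hφ : Closed (shift 1 X) F 1 φ) :
    HE (ext F (shift 1 X) φ hφ) ((Tm U).obj F) := by
  have hψ : Closed X (ThObj U F) 0 (cjSh U _ _ φ) := by
    refine Closed.of_comm0 (cjSh_hom h.supp h.cl.hom) ?_
    rw [← cjSh_δ h.supp h.cl.hom, h.cl.comm0, h.zero, Matrix.mul_zero, Matrix.mul_zero, map_zero]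
  have hev := cjEv_sh h.supp h.cl.hom
  have hc : ∀ v u, φ * cjCol v X.toGr u =
      cjEv U F * cjCol v _ ((m0 (cjSh U _ _ φ)).mulVec u) := fun v u => by
    rw [← cj_mul_col (cjSh_scalar φ), ← Matrix.mul_assoc, hev]
  have hHE : IsHE X (ThObj U F) (cjSh U _ _ φ) := by
    refine isHE_of_quasiIso hψ (fun v k u hu hb => (cj_Bc h.zero).2 ?_) fun v k w hw => ?_
    · by_cases hv : U v
      · refine h.inj v k hv u hu.1 ?_
        rw [hc]
        exact (cj_exact_ev hv).2 hb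
      · exact cj_zero_of_not h.supp hv hu.1
    · by_cases hv : U v
      · obtain ⟨u, hu, e⟩ := h.surj v k hv _ (cj_closed_ev hw)
        rw [hc, ← Matrix.mul_sub, ← map_sub] at e
        exact ⟨u, (cj_Zc h.zero).2 hu, (cj_exact_ev hv).1 e⟩
      · refine ⟨0, Submodule.zero_mem _, ?_⟩
        rw [cj_zero_of_not (G := (ThObj U F).toGr) U_vtx_ThGr hv hw.1, mulVec_zero, sub_zero]
        exact Submodule.zero_mem _
  refine ext_congr hφ (closed_evM' U F) (IsHE.refl F) (hHE.shift 1) ?_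
  have e : (1 : Mor F.toGr F.toGr) * φ - cjEv U F * cjSh U _ _ φ = 0 := by
    rw [hev, Matrix.one_mul, sub_self]
  exact Eq.subst (motive := fun x => Exact (shift 1 X) F 1 x) e.symm Exact.zero

theorem cj_exists (U : Q.V → Prop) [DecidablePred U] (F : Obj Q) :
    ∃ (X : Obj Q) (φ : Mor X.toGr F.toGr), CjUniv U X F φ := by
  obtain ⟨X, -, hX, h0, hs⟩ := exists_minimal (ThObj U F)
  obtain ⟨e, he⟩ := hX.symm
  have h0 := h0 (cjTh_scalar F)
  obtain ⟨e₀, he₀⟩ : ∃ e₀ : Mor X.toGr (ThObj U F).toGr, e₀ = (m0 e).map Z.sc := ⟨_, rfl⟩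
  have hsc : Scalar e₀ := he₀ ▸ fun _ _ => ⟨fun _ => rfl, rfl⟩
  have hm : m0 e₀ = m0 e := he₀ ▸ rfl
  have hh : IsHom X.toGr (ThObj U F).toGr 0 e₀ := he₀ ▸ fun j i =>
    ⟨(he.1.hom j i).1, fun a h => absurd rfl h, fun h => absurd rfl h⟩
  have hcl : Closed X (ThObj U F) 0 e₀ := by
    refine Closed.of_comm0 hh ?_
    have h1 := congrArg m0 he.1.comm0
    rw [h0, Matrix.mul_zero, m0_mul, m0_zero, ← hm] at h1
    have hδ := cjTh_scalar (U := U) F
    rw [h0, Matrix.mul_zero]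
    funext j i
    ext a
    · exact congrFun (congrFun ((m0_mul _ _).trans h1) j) i
    · simp [Matrix.mul_apply, (hsc _ i).1, (hδ j _).1]
    · simp [Matrix.mul_apply, (hsc _ i).1, (hsc _ i).2, (hδ j _).2]
  have hc : ∀ v u, cjEv U F * e₀ * cjCol v X.toGr u =
      cjEv U F * cjCol v _ ((m0 e).mulVec u) := fun v u => by
    rw [Matrix.mul_assoc, cj_mul_col hsc, hm]
  refine ⟨X, cjEv U F * e₀, h0, fun j => ?_, hcl.mul0 (cjEv_closed F), fun v k hv u hu e => ?_,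
    fun v k hv g hg => ?_⟩
  · obtain ⟨i, hi, -⟩ := hs j
    exact hi ▸ U_vtx_ThGr i
  · rw [hc] at e
    exact (cj_Bc h0).1 (he.injAt v k u ((cj_Zc h0).2 hu) ((cj_exact_ev hv).1 e))
  · obtain ⟨w, hw, rfl⟩ := cj_exists_ev hv hg
    obtain ⟨u, hu, hb⟩ := he.surjAt v k w hw
    refine ⟨u, hu.1, ?_⟩
    rw [hc, ← Matrix.mul_sub, ← map_sub]
    exact (cj_exact_ev hv).2 hb

end univ

/-- relabel the vertices, forget the differential -/
abbrev cjX (σ : Q.V → Q.V) (Y : Obj Q) : Obj Q where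
  ι := Y.ι
  vtx i := σ (Y.vtx i)
  deg := Y.deg
  δ := 0
  hom _ _ := Ok.zero _ _ _ _ _
  sq := by simp

theorem cj_rho (Φ : DGFun Q) (σ : Q.V → Q.V) {Y : Obj Q} (h0 : Y.δ = 0)
    (r : ∀ v, Mor (simple (σ v)).toGr (Φ.obj (simple v)).toGr)
    (hr : ∀ i, IsHE _ _ (r (Y.vtx i))) :
    ∃ ρ, IsHE (cjX σ Y) (Φ.obj Y) ρ ∧ ∀ v k, ∀ u ∈ Cc Y.toGr v k,
      ρ * cjCol (σ v) (cjX σ Y).toGr u = Φ.map (simple v) Y k (cjCol v Y.toGr u) * r v := by
  refine ⟨_, (cj_bi (X := cjX σ Y) rfl).isHE ((cj_bi h0).map Φ) hr, fun v k u hu => ?_⟩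
  rw [Matrix.sum_mul]
  conv_rhs => rw [← Finset.univ_sum_single u, map_sum, map_sum, Matrix.sum_mul]
  refine Finset.sum_congr rfl fun (i : Y.ι) _ => ?_
  rw [Matrix.mul_assoc, Matrix.mul_assoc]
  by_cases hi : Y.vtx i = v ∧ Y.deg i = k
  · obtain ⟨rfl, rfl⟩ := hi
    have e : (Pi.single i (u i) : Y.ι → ℝ) = u i • Pi.single i 1 := by
      rw [← Pi.single_smul, smul_eq_mul, mul_one]
    rw [e, map_smul, map_smul, Matrix.smul_mul, ← Matrix.mul_smul]
    congr 1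
    refine (congrArg _ (cj_row_col_same (σ (Y.vtx i)) (cjX σ Y).toGr i u)).trans ?_
    rw [Matrix.mul_smul, Matrix.mul_one]
  · rw [cj_row_col_zero _ _ (cjX σ Y).toGr i (hu i hi), hu i hi, Pi.single_zero, map_zero, map_zero,
      Matrix.mul_zero, Matrix.mul_zero, Matrix.zero_mul]

theorem cj_shift (Φ : DGFun Q) (Y : Obj Q) :
    IsHE (shift 1 (Φ.obj Y)) (Φ.obj (shift 1 Y)) (Φ.map Y (shift 1 Y) (-1) (1 : Mor Y.toGr Y.toGr)) := by
  have h1 : Closed Y (shift 1 Y) (-1) (1 : Mor Y.toGr Y.toGr) := (closed_shift_right 1).2 Closed.one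
  have h2 : Closed (shift 1 Y) Y 1 (1 : Mor Y.toGr Y.toGr) := (closed_shift_left 1).2 Closed.one
  refine IsHE.of_inv (g := Φ.map (shift 1 Y) Y 1 (1 : Mor Y.toGr Y.toGr))
    ((closed_shift_left 1).2 (Φ.map_closed h1)) ((closed_shift_right 1).2 (Φ.map_closed h2)).hom ?_ ?_
  · exact (Φ.map_mul h1.hom h2.hom).symm.trans
      ((congrArg _ (Matrix.one_mul _)).trans (Φ.map_one Y))
  · exact (Φ.map_mul h2.hom h1.hom).symm.trans
      ((congrArg _ (Matrix.one_mul _)).trans (Φ.map_one (shift 1 Y)))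

theorem conj_twist (Φ : DGFun Q) (hΦ : QFF Φ) (U U' : Q.V → Prop) [DecidablePred U]
    [DecidablePred U'] (σ : Q.V → Q.V) (hmap : ∀ v, U v → U' (σ v))
    (hinj : ∀ v w, U v → U w → σ v = σ w → v = w) (hsurj : ∀ w, U' w → ∃ v, U v ∧ σ v = w)
    (h : ∀ v, U v → HE (Φ.obj (simple v)) (simple (σ v))) (F : Obj Q) :
    HE (Φ.obj ((Tm U).obj F)) ((Tm U').obj (Φ.obj F)) := by
  obtain ⟨Y, φ, hY⟩ := cj_exists U F
  have hex : ∀ v, ∃ r : Mor (simple (σ v)).toGr (Φ.obj (simple v)).toGr, U v → IsHE _ _ r := fun v => by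
    by_cases hv : U v
    · obtain ⟨r, hr⟩ := (h v hv).symm
      exact ⟨r, fun _ => hr⟩
    · exact ⟨0, fun h => absurd h hv⟩
  choose r hr using hex
  obtain ⟨ρ, hρ, hcol⟩ := cj_rho Φ σ hY.zero r fun i => hr _ (hY.supp i)
  have hC : ∀ v k, U v → ∀ u, u ∈ Cc (cjX σ Y).toGr (σ v) k ↔ u ∈ Cc Y.toGr v k := fun v k hv u =>
    forall_congr' fun i => imp_congr_left (not_congr (and_congr_left'
      ⟨hinj _ _ (hY.supp i) hv, congrArg σ⟩))
  have hc : ∀ v k, ∀ u ∈ Cc Y.toGr v k, Φ.map Y F 0 φ * ρ * cjCol (σ v) (cjX σ Y).toGr u =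
      Φ.map (simple v) F k (φ * cjCol v Y.toGr u) * r v := fun v k u hu => by
    rw [Matrix.mul_assoc, hcol v k u hu, ← Matrix.mul_assoc, ← Φ.map_mul (cjCol_hom hu) hY.cl.hom,
      add_zero]
  have hcl : ∀ v k, ∀ u ∈ Cc Y.toGr v k, Closed (simple v) F k (φ * cjCol v Y.toGr u) := fun v k u hu =>
    (Closed.mul ⟨cjCol_hom hu, by rw [cj_D, hY.zero, Matrix.zero_mul]⟩ hY.cl).of_eq (add_zero k)
  have hX : CjUniv U' (cjX σ Y) (Φ.obj F) (Φ.map Y F 0 φ * ρ) := by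
    refine ⟨rfl, fun i => hmap _ (hY.supp i), hρ.1.mul0 (Φ.map_closed hY.cl), fun w k hw u hu e => ?_,
      fun w k hw g hg => ?_⟩
    · obtain ⟨v, hv, rfl⟩ := hsurj w hw
      obtain ⟨-, r', hr', -, h2⟩ := hr v hv
      have hu' := (hC v k hv u).1 hu
      rw [hc v k u hu'] at e
      refine hY.inj v k hv u hu' (hΦ.faithful _ _ _ _ (hcl v k u hu') ?_)
      have h3 := (Exact.mul_closed hr' e).sub (h2.closed_mul (Φ.map_closed (hcl v k u hu')))
      rw [Matrix.mul_sub, Matrix.mul_assoc, Matrix.mul_one, sub_sub_cancel] at h3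
      exact h3.of_eq (zero_add k)
    · obtain ⟨v, hv, rfl⟩ := hsurj w hw
      obtain ⟨hr0, r', hr', h1, -⟩ := hr v hv
      obtain ⟨f, hf, e⟩ := hΦ.full _ _ k _ ((hr'.mul hg).of_eq (zero_add k))
      obtain ⟨u, hu, e'⟩ := hY.surj v k hv f hf
      refine ⟨u, (hC v k hv u).2 hu, ?_⟩
      have h3 := (Exact.mul_closed hr0 ((Φ.map_exact e').sub e)).sub (h1.closed_mul hg)
      rw [map_sub, sub_sub_sub_cancel_left, Matrix.sub_mul, Matrix.mul_sub, Matrix.mul_assoc,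
        Matrix.mul_one, sub_sub_sub_cancel_left] at h3
      rw [hc v k u hu]
      exact h3.of_eq (zero_add k)
  have h1 : Closed (shift 1 Y) F 1 φ := (closed_shift_left 1).2 hY.cl
  have h2 : Closed (shift 1 (cjX σ Y)) (Φ.obj F) 1 (Φ.map Y F 0 φ * ρ) := (closed_shift_left 1).2 hX.cl
  refine ((Φ.map_he (hY.he h1).symm).trans (Φ.map_ext h1)).trans (HE.trans (HE.symm ?_) (hX.he h2))
  refine ext_congr h2 _ (IsHE.refl _) ((hρ.shift 1).comp (cj_shift Φ Y)) ?_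
  have h3 : Closed Y (shift 1 Y) (-1) (1 : Mor Y.toGr Y.toGr) := (closed_shift_right 1).2 Closed.one
  have e : Φ.map (shift 1 Y) F 1 φ * Φ.map Y (shift 1 Y) (-1) (1 : Mor Y.toGr Y.toGr) = Φ.map Y F 0 φ :=
    (Φ.map_mul h3.hom h1.hom).symm.trans (congrArg _ (Matrix.mul_one φ))
  have e' : (1 : Mor (Φ.obj F).toGr (Φ.obj F).toGr) * (Φ.map Y F 0 φ * ρ) - Φ.map (shift 1 Y) F 1 φ *
      (Φ.map Y (shift 1 Y) (-1) (1 : Mor Y.toGr Y.toGr) * ρ) = 0 := by
    rw [Matrix.one_mul, ← e]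
    exact sub_eq_zero.2 (Matrix.mul_assoc _ _ _)
  exact Eq.subst (motive := fun x => Exact (shift 1 (cjX σ Y)) (Φ.obj F) 1 x) e'.symm Exact.zero

end Crest.Agent.R175
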