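import Crest.Agent.R175.TmCoh

/-!
# R175: reflection of modules with two layers (Bernstein-Gelfand-Ponomarev).
-/

set_option autoImplicit false
set_option linter.unusedSectionVars false

namespace Crest.Agent.R175

open Matrix

variable {Q : Qv} {U : Q.V → Prop} [DecidablePred U] {B : Obj Q}

theorem tl_topd (hB : IsMod B) (v : Q.V) {k : ℤ} (hk : k ≠ 0) : topd B v k = 0 := by
  have h1 : topd B v k ≤ Module.finrank ℝ (Cc B.toGr v k) := Submodule.finrank_mono inf_le_left
  rw [finrank_Cc, cnt_eq_zero_iff.2 fun i hi => hk (hi.2.symm.trans (hB i))] at h1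
  omega

theorem tl_m0 (hB : IsMod B) : m0 B.δ = 0 := by
  ext j i
  exact hB.minimal j i

/-- there are no maps from the simples of `U` to `Tm B` -/
theorem tl_col (hU : Indep U) (hB : IsMod B) {B' : Obj Q} (hB' : IsMod B') (he : HE ((Tm U).obj B) B')
    {g : Mor B.toGr B'.toGr} (hg : Closed B B' 0 g) {j : B.ι} (hj : U (B.vtx j)) (h0 : ∀ l, B.δ l j = 0)
    (l : B'.ι) : (g l j).c0 = 0 := by
  have h1 : HomZero (0 - 1) (simple (B.vtx j)) B :=
    homZero_of_deg fun i l => Or.inl (by rw [hB l, simple_isMod _ i]; norm_num)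
  have h2 : HomZero 0 (simple (B.vtx j)) B' := ((homZero_Tm_iff hU hj).2 h1).of_HE (HE.refl _) he
  let φ : Mor (simple (B.vtx j)).toGr B.toGr := fun l _ => if l = j then 1 else 0
  have hφ : Closed (simple (B.vtx j)) B 0 φ := by
    refine Closed.of_comm0 (fun l i => ?_) ?_
    · show Ok (B.vtx j) 0 (B.vtx l) (B.deg l) 0 (if l = j then 1 else 0)
      split_ifs with e
      · rw [e, hB j]; exact Ok.one
      · exact Ok.zero _ _ _ _ _
    · have e : (simple (B.vtx j)).δ = 0 := rfl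
      rw [e, Matrix.mul_zero]
      funext l i
      simp [φ, Matrix.mul_apply, h0]
  have h3 := (h2 _ (hφ.mul0 hg)).m0_eq_zero (simple_isMod _).minimal hB'.minimal
  have h4 : ((g * φ) l ()).c0 = 0 := congrFun (congrFun h3 l) ()
  simpa [φ, Matrix.mul_apply] using h4

/-- Let `K_v ⊆ N_v = {(i, a) : src a = v, tgt a = vtx i} → ℝ` be the kernel of `in` (`v ∈ U`), with a
basis `k_{v,1}, …`.  `B'` has the indices `i` of `B` outside `U` and the `(v, n)`;
`δ' i (v, n) = ∑ a, k_{v,n} (i, a) • ξ_a`, all other entries zero.  The map `f : B' → Tm B`,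
`f i = inl i - ∑ j, δ j i • inr (j, one)`, `f (v, n) = ∑ k_{v,n} (i, a) • inr (i, arr a)` is closed
and injective on cohomology, and `hd B' = hd (Tm B)` by `hd_Tm`, `hd_Tm_of_not`; so it is a
quasi-isomorphism (`surjAt_of_injAt`, `isHE_of_quasiIso`). -/
theorem twoLayer_reflect (hU : Indep U) (hB : IsMod B)
    (h : ∀ j i, B.δ j i ≠ 0 → U (B.vtx j) ∧ ¬ U (B.vtx i)) (htop : ∀ v, U v → topd B v 0 = 0) :
    ∃ B' : Obj Q, IsMod B' ∧ HE ((Tm U).obj B) B' ∧
      ∀ j i, B'.δ j i ≠ 0 → U (B'.vtx i) ∧ ¬ U (B'.vtx j) := by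
  have hB' : IsMod (mm ((Tm U).obj B)) := by
    refine isMod_mm fun v k hk => ?_
    by_cases hv : U v
    · have h1 := hd_Tm hB.minimal hv k
      have h2 : nb B v k = 0 := nb_eq_zero_iff.2 fun a _ => hB.hd_eq_zero _ hk
      have h3 : topd B v (k - 1) = 0 := by
        by_cases e : k - 1 = 0
        · rw [e]; exact htop v hv
        · exact tl_topd hB v e
      rw [h2, h3, tl_topd hB v hk] at h1
      omega
    · rw [hd_Tm_of_not hv, hB.hd_eq_zero v hk]
  have he := he_mm ((Tm U).obj B)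
  refine ⟨_, hB', he, ?_⟩
  generalize mm ((Tm U).obj B) = B' at hB' he
  have key : ∀ j i, ¬ U (B'.vtx i) → B'.δ j i = 0 := by
    intro j i hi
    obtain ⟨f, hf⟩ := id he
    obtain ⟨g, hg, hs⟩ : ∃ g, Closed B B' 0 g ∧ SurjAt B B' (B'.vtx i) 0 g :=
      ⟨_, (closed_inTm U B).mul0 hf.closed, surjAt_of_injAt ((closed_inTm U B).mul0 hf.closed)
        (InjAt.comp (closed_inTm U B) (injAt_inTm hi B 0) (hf.injAt _ 0))
        (by rw [← he.hd_eq, hd_Tm_of_not hi])⟩
    have hw : Pi.single i (1 : ℝ) ∈ Zc B' (B'.vtx i) 0 := by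
      refine coh_mem_Zc.2 ⟨fun l hl => Pi.single_eq_of_ne (fun e => hl ?_) _, by rw [tl_m0 hB', zero_mulVec]⟩
      rw [e]; exact ⟨rfl, hB' i⟩
    obtain ⟨u, -, hu⟩ := hs _ hw
    obtain ⟨w, -, hw'⟩ := coh_mem_Bc.1 hu
    rw [tl_m0 hB', zero_mulVec, eq_comm, sub_eq_zero] at hw'
    refine Z.ext (hB'.minimal j i) (funext fun a => ?_) (hB'.c2_eq_zero j i)
    have h1 : m0 g * m1 B.δ a = 0 := by
      ext l l'
      rw [Matrix.mul_apply]
      refine Finset.sum_eq_zero fun m _ => ?_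
      by_cases e : B.δ m l' = 0
      · simp [m1, e]
      · have : (g l m).c0 = 0 := tl_col hU hB hB' he hg (h m l' e).1
          (fun l => by_contra fun e' => (h l m e').2 (h m l' e).1) l
        simp [m0, this]
    have h2 := congrArg (fun x => m1 x a) hg.comm0
    simp only [m1_mul, tl_m0 hB, tl_m0 hB', h1, Matrix.zero_mul, Matrix.mul_zero, zero_add] at h2
    have h3 : (m1 B'.δ a).mulVec (Pi.single i 1) = 0 := by rw [hw', mulVec_mulVec, h2, zero_mulVec]
    have h4 := congrFun h3 j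
    simpa [m1] using h4
  intro j i hji
  have hi : U (B'.vtx i) := by_contra fun hi => hji (key j i hi)
  refine ⟨hi, fun hj => hji ?_⟩
  refine Z.ext (hB'.minimal j i) (funext fun a => by_contra fun e => ?_) (hB'.c2_eq_zero j i)
  obtain ⟨h1, h2, -⟩ := (B'.hom j i).2.1 a e
  exact hU a ⟨h1 ▸ hi, h2 ▸ hj⟩

/-- If `0 ≠ φ ∈ TopSp B v 0`, `φ i₀ ≠ 0`, the matrix `e j i = sc (δ_{j i₀} φ i)` is a closed
endomorphism (`δ e = 0` because `δ j i₀ = 0`), so `m0 e` is a scalar matrix: `i₀` is the only index. -/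
theorem brick_top (hB : IsMod B) (hE : EndScal B) (h : ∀ j i, U (B.vtx i) → B.δ j i = 0)
    {v : Q.V} (hv : U v) (ht : topd B v 0 ≠ 0) (w : Q.V) :
    hd B w 0 = if w = v then 1 else 0 := by
  obtain ⟨φ, hφ, hne⟩ := (Submodule.ne_bot_iff (TopSp B v 0)).1 fun e => ht (by rw [topd, e, finrank_bot])
  obtain ⟨i₀, hi₀⟩ := Function.ne_iff.1 hne
  have hC : ∀ i, φ i ≠ 0 → B.vtx i = v := fun i hi => by_contra fun e => hi (hφ.1 i fun k => e k.1)
  have hK : ∀ a, vecMul φ (m1 B.δ a) = 0 := fun a => (Submodule.mem_iInf _).1 hφ.2 a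
  let e : Mor B.toGr B.toGr := fun j i => Z.sc (if j = i₀ then φ i else 0)
  have he : Closed B B 0 e := by
    refine Closed.of_comm0 (fun j i => ?_) ?_
    · refine ⟨fun k => ?_, fun a k => absurd rfl k, fun k => absurd rfl k⟩
      have k' : (if j = i₀ then φ i else 0) ≠ 0 := k
      split_ifs at k' with e'
      · rw [e', hC i k', hC i₀ hi₀, hB i₀, hB i]; exact ⟨rfl, rfl⟩
      · exact absurd rfl k'
    · have h1 : B.δ * e = 0 := by
        funext j i
        rw [Matrix.mul_apply]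
        refine Finset.sum_eq_zero fun l _ => ?_
        by_cases e' : l = i₀
        · rw [h j l (by rw [e', hC i₀ hi₀]; exact hv), zero_mul]
        · simp [e, e']
      have h2 : e * B.δ = 0 := by
        funext j i
        rw [Matrix.mul_apply]
        by_cases e' : j = i₀
        · refine Z.ext ?_ (funext fun a => ?_) ?_
          · simp [hB.minimal _ i]
          · have := congrFun (hK a) i
            simpa [e, e', vecMul, dotProduct, m1] using this
          · simp [e, hB.c2_eq_zero]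
        · simp [e, e']
      rw [h1, h2]
  obtain ⟨c, hc⟩ := hE e he
  have h0 := hc.m0_eq_zero hB.minimal hB.minimal
  have h1 : ∀ j, (if j = i₀ then φ j else 0) = c := fun j => by
    have := congrFun (congrFun h0 j) j
    simpa [m0, e, sub_eq_zero] using this
  have h2 : ∀ j, j = i₀ := fun j => by_contra fun k => hi₀ (by
    have a1 := h1 j
    have a2 := h1 i₀
    rw [if_neg k] at a1
    rw [if_pos rfl, ← a1] at a2
    exact a2)
  rw [hB.minimal.hd_eq_cnt]
  split_ifs with hw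
  · refine Finset.card_eq_one.2 ⟨i₀, Finset.ext fun j => ?_⟩
    rw [h2 j]
    simp [hC i₀ hi₀, hw, hB i₀]
  · exact cnt_eq_zero_iff.2 fun i k => hw (by rw [← k.1, h2 i, hC i₀ hi₀])

end Crest.Agent.R175
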