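import Crest.Agent.R175.Unf
import Crest.Agent.R175.TwoLayer
import Crest.Agent.R175.Conj

/-!
# R175: the rank two chain and the braid relations.
-/

set_option autoImplicit false

namespace Crest.Agent.R175

open CoxeterSystem Crest.Agent.R61 Crest.GroupTheory

variable {S : Type} [Fintype S] [DecidableEq S] {M : CoxeterMatrix S}

/-- `geoa_a_two`, `geoa_a_sin` -/
theorem geoa_a_pos {s t : S} (h : s ≠ t) {r : ℕ} (h1 : 1 ≤ r) (hr : M s t = 0 ∨ r < M s t) :
    0 < geoa_a (aa M s t) r := by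
  rw [aa_of_ne h, geoa_neg_kk]
  by_cases h0 : M s t = 0
  · rw [h0, Nat.cast_zero, div_zero, Real.cos_zero, mul_one, geoa_a_two]
    exact_mod_cast h1
  · have h2 := geoa_two_le M h h0
    have h3 := geoa_sin_pos h2
    have h4 := geoa_a_sin (Real.pi / (M s t : ℝ)) r
    have hm : (0 : ℝ) < M s t := by exact_mod_cast Nat.pos_of_ne_zero h0
    have hr' : (r : ℝ) < M s t := by exact_mod_cast hr.resolve_left h0
    have hr0 : (0 : ℝ) < r := by exact_mod_cast h1
    have h5 : 0 < Real.sin (r * (Real.pi / (M s t : ℝ))) := by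
      refine Real.sin_pos_of_pos_of_lt_pi (by positivity) ?_
      rw [← mul_div_assoc, div_lt_iff₀ hm, mul_comm]
      exact mul_lt_mul_of_pos_left hr' Real.pi_pos
    rw [← h4] at h5
    exact (mul_pos_iff_of_pos_right h3).1 h5

theorem geoa_a_top {s t : S} (h : s ≠ t) (h0 : M s t ≠ 0) : geoa_a (aa M s t) (M s t) = 0 := by
  rw [aa_of_ne h, geoa_neg_kk]
  have h3 := geoa_sin_pos (geoa_two_le M h h0)
  have h4 := geoa_a_sin (Real.pi / (M s t : ℝ)) (M s t)
  have hm : (M s t : ℝ) ≠ 0 := by exact_mod_cast h0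
  rw [mul_div_cancel₀ _ hm, Real.sin_pi] at h4
  exact (mul_eq_zero.1 h4).resolve_right h3.ne'

theorem altL_cases {α : Type} (s t : α) (r : ℕ) :
    (altL s t r = t ∧ altL s t (r + 1) = s) ∨ (altL s t r = s ∧ altL s t (r + 1) = t) := by
  by_cases h : Even r <;> simp [altL, Nat.even_add_one, h]

theorem altL_add_two {α : Type} (s t : α) (r : ℕ) : altL s t (r + 2) = altL s t r := by
  simp [altL, Nat.even_add]

namespace Unf

variable (U : Unf M)

theorem chain_wN {B : Obj U.Q} {w : U.Q.V} (h : ∀ u, hd B u 0 = if u = w then 1 else 0) (x : S) :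
    U.wN B x 0 = if U.typ w = x then U.d w else 0 := by
  rw [← U.ws_ite]
  exact U.ws_congr fun u _ => by rw [h]; split_ifs <;> simp

theorem chain_mem {B : Obj U.Q} (hB : IsMod B) {P : S → Prop} (h : ∀ i, P (U.typ (B.vtx i)))
    {w : U.Q.V} {k : ℤ} (hw : hd B w k ≠ 0) : P (U.typ w) := by
  by_contra hP
  exact hw (hB.minimal.hd_eq_zero_iff.2 fun i hi => hP (hi.1 ▸ h i))

theorem chain_step0 {x y : S} (hxy : x ≠ y) {B : Obj U.Q} (hB : IsMod B) (hE : EndScal B)
    (h1 : ∀ i, U.typ (B.vtx i) = x ∨ U.typ (B.vtx i) = y)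
    (h2 : ∀ j i, B.δ j i ≠ 0 → U.typ (B.vtx j) = x ∧ U.typ (B.vtx i) = y) (h3 : U.wN B y 0 ≠ 0) :
    ∃ B' : Obj U.Q, IsMod B' ∧ HE ((U.TT x).obj B) B' ∧
      (∀ i, U.typ (B'.vtx i) = x ∨ U.typ (B'.vtx i) = y) ∧
      (∀ j i, B'.δ j i ≠ 0 → U.typ (B'.vtx j) = y ∧ U.typ (B'.vtx i) = x) ∧
      U.wN B' y 0 = U.wN B y 0 ∧ U.wN B' x 0 = aa M x y * U.wN B y 0 - U.wN B x 0 := by
  have htop : ∀ w, U.typ w = x → topd B w 0 = 0 := fun w hw => by
    by_contra ht
    have := U.chain_wN (brick_top (U := fun v => U.typ v = x) hB hE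
      (fun j i hi => by_contra fun e => hxy (hi.symm.trans (h2 j i e).2)) hw ht) y
    rw [if_neg fun e => hxy (hw.symm.trans e)] at this
    exact h3 this
  obtain ⟨B', hB', he, hδ⟩ := twoLayer_reflect (U.indep x) hB
    (fun j i e => ⟨(h2 j i e).1, fun e' => hxy (e'.symm.trans (h2 j i e).2)⟩) htop
  have h4 : ∀ i, U.typ (B'.vtx i) = x ∨ U.typ (B'.vtx i) = y := fun i => by
    by_cases e : U.typ (B'.vtx i) = x
    · exact Or.inl e
    · have := hB'.minimal.hd_ne_zero i
      rw [← he.hd_eq, hd_Tm_of_not (U := fun v => U.typ v = x) e] at this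
      exact U.chain_mem hB (P := fun z => z = x ∨ z = y) h1 this
  refine ⟨B', hB', he, h4, fun j i e => ⟨(h4 j).resolve_left (hδ j i e).2, (hδ j i e).1⟩, ?_, ?_⟩
  · refine U.ws_congr fun w hw => ?_
    rw [← he.hd_eq, hd_Tm_of_not (U := fun v => U.typ v = x) fun e => hxy (e.symm.trans hw)]
  · have h5 : ∑ t, aa M x t * U.wN B t 0 = aa M x y * U.wN B y 0 := by
      refine Finset.sum_eq_single y (fun t _ ht => ?_) (fun e => absurd (Finset.mem_univ _) e)
      by_cases e : t = x
      · rw [e, aa_self, zero_mul]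
      · rw [U.wN_eq_zero_iff.2 fun w hw => by_contra fun hne => ?_, mul_zero]
        rcases U.chain_mem hB (P := fun z => z = x ∨ z = y) h1 hne with e' | e'
        exacts [e (hw.symm.trans e'), ht (hw.symm.trans e')]
    rw [← h5, ← U.ws_nb', eq_sub_iff_add_eq, wN, wN, ← U.ws_add]
    refine U.ws_congr fun w hw => ?_
    have := hd_Tm (U := fun v => U.typ v = x) hB.minimal hw 0
    rw [htop w hw, tl_topd hB w (by omega), he.hd_eq] at this
    exact_mod_cast this

/-- Induction on `r`.  Let `x = altL s t r`.  `topd B w 0 = 0` for `typ w = x`: otherwise `brick_top`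
(`EndScal` by `qff_TW`) shows that `B` is supported on `x`, but `geoa_a (r + 1) ≠ 0`.  Apply
`twoLayer_reflect`; the vertices of `B'` are over `s`, `t` (`Minimal.hd_ne_zero`, `hd_Tm_of_not`);
the weighted dimensions follow from `hd_Tm`, `ws_nb'`. -/
theorem chain_mod {s t : S} (hst : s ≠ t) {v : U.Q.V} (hv : U.typ v = s) (r : ℕ)
    (hr : M s t = 0 ∨ r < M s t) : ∃ B : Obj U.Q, IsMod B ∧
      HE ((U.TW (altW s t r)).obj (simple v)) B ∧
      (∀ i, U.typ (B.vtx i) = s ∨ U.typ (B.vtx i) = t) ∧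
      (∀ j i, B.δ j i ≠ 0 →
        U.typ (B.vtx j) = altL s t r ∧ U.typ (B.vtx i) = altL s t (r + 1)) ∧
      U.wN B (altL s t r) 0 = U.d v * geoa_a (aa M s t) r ∧
      U.wN B (altL s t (r + 1)) 0 = U.d v * geoa_a (aa M s t) (r + 1) := by
  induction r with
  | zero =>
    have h := fun x => U.chain_wN (B := simple v) (w := v) (fun u => by simp [hd_simple]) x
    refine ⟨simple v, simple_isMod v, HE.refl _, fun _ => Or.inl hv, fun j i e => absurd rfl e, ?_, ?_⟩
    · rw [h, if_neg (show ¬ U.typ v = altL s t 0 from fun e => hst (hv.symm.trans e))]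
      simp [geoa_a]
    · rw [h, if_pos (show U.typ v = altL s t (0 + 1) from hv)]
      simp [geoa_a]
  | succ r ih =>
    obtain ⟨B, hB, he, h1, h2, h3, h4⟩ := ih (hr.imp_right fun e => by omega)
    have hc := altL_cases s t r
    have hxy : altL s t r ≠ altL s t (r + 1) := by
      rcases hc with ⟨e, e'⟩ | ⟨e, e'⟩ <;> rw [e, e']
      exacts [hst.symm, hst]
    have ha : aa M (altL s t r) (altL s t (r + 1)) = aa M s t := by
      rcases hc with ⟨e, e'⟩ | ⟨e, e'⟩ <;> rw [e, e']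
      exact aa_symm _ _
    have hor : ∀ z, (z = altL s t r ∨ z = altL s t (r + 1)) ↔ (z = s ∨ z = t) := fun z => by
      rcases hc with ⟨e, e'⟩ | ⟨e, e'⟩ <;> rw [e, e']
      exact or_comm
    obtain ⟨B', hB', he', g1, g2, g3, g4⟩ := U.chain_step0 hxy hB
      (((U.qff_TW _).endScal (endScal_simple v)).of_HE he) (fun i => (hor _).2 (h1 i)) h2
      (by rw [h4]; exact mul_ne_zero (U.d_pos v).ne' (geoa_a_pos hst (by omega) hr).ne')
    refine ⟨B', hB', ?_, fun i => (hor _).1 (g1 i), ?_, g3.trans h4, ?_⟩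
    · rw [altW_succ, TW_append]
      exact ((U.TT _).map_he he).trans he'
    · rw [altL_add_two]
      exact g2
    · rw [altL_add_two, g4, ha, h3, h4, geoa_a]
      ring

theorem chain_filt {s t : S} (hst : s ≠ t) {v : U.Q.V} (hv : U.typ v = s) (r : ℕ)
    (hr : M s t = 0 ∨ r < M s t) :
    Filt (fun w => U.typ w = s ∨ U.typ w = t) ((U.TW (altW s t r)).obj (simple v)) := by
  obtain ⟨B, hB, he, h1, h2, -⟩ := U.chain_mod hst hv r hr
  refine (filt_of_twoLayer (fun w => U.typ w = altL s t r) hB (fun j i e => ⟨(h2 j i e).1, ?_⟩)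
    h1).of_HE he.symm
  rw [(h2 j i e).2]
  rcases altL_cases s t r with ⟨e, e'⟩ | ⟨e, e'⟩ <;> rw [e, e']
  exacts [hst, hst.symm]

/-- For `r = m - 1` the module `B` is supported on `x = altL s t r` and non-zero, `δ = 0`; so
`topd B w 0 ≠ 0` for some `w` (`topd_eq_hd`), and `brick_top`, `he_simple_of_hd` apply. -/
theorem chain_end {s t : S} (hst : s ≠ t) (h0 : M s t ≠ 0) {v : U.Q.V} (hv : U.typ v = s) :
    ∃ w, U.typ w = altL s t (M s t - 1) ∧
      HE ((U.TW (altW s t (M s t - 1))).obj (simple v)) (simple w) := by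
  have h2m := geoa_two_le M hst h0
  obtain ⟨B, hB, he, h1, h2, h3, h4⟩ := U.chain_mod hst hv (M s t - 1) (Or.inr (by omega))
  have hc := altL_cases s t (M s t - 1)
  rw [show geoa_a (aa M s t) (M s t - 1 + 1) = 0 by
    rw [Nat.sub_add_cancel (by omega)]; exact geoa_a_top hst h0, mul_zero, wN_eq_zero_iff] at h4
  have h5 : ∀ i, U.typ (B.vtx i) ≠ altL s t (M s t - 1 + 1) := fun i e =>
    hB.minimal.hd_ne_zero i (by rw [hB i]; exact h4 _ e)
  have h6 : ∀ i, U.typ (B.vtx i) = altL s t (M s t - 1) := fun i => by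
    have g1 := h1 i
    have g2 := h5 i
    rcases hc with ⟨e, e'⟩ | ⟨e, e'⟩ <;> rw [e'] at g2 <;> rw [e]
    exacts [g1.resolve_left g2, g1.resolve_right g2]
  have h7 : U.wN B (altL s t (M s t - 1)) 0 ≠ 0 := by
    rw [h3]
    exact mul_ne_zero (U.d_pos v).ne' (geoa_a_pos hst (by omega) (Or.inr (by omega))).ne'
  rw [Ne, wN_eq_zero_iff] at h7
  push Not at h7
  obtain ⟨w, hw, hne⟩ := h7
  have h8 : nb B w 0 = 0 := nb_eq_zero_iff.2 fun a ha => by_contra fun e =>
    U.typ_ne a ((ha ▸ hw).trans (U.chain_mem hB (P := fun z => z = altL s t (M s t - 1)) h6 e).symm)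
  have h9 := brick_top (U := fun v => U.typ v = altL s t (M s t - 1)) hB
    (((U.qff_TW _).endScal (endScal_simple v)).of_HE he)
    (fun j i _ => by_contra fun e => h5 i (h2 j i e).2) hw (by rw [topd_eq_hd hB.minimal h8]; exact hne)
  refine ⟨w, hw, he.trans (he_simple_of_hd fun u k => ?_)⟩
  by_cases hk : k = 0
  · simp [hk, h9]
  · simp [hk, hB.hd_eq_zero u hk]

/-- `chain_end` gives an injection (`QFF.homZero_iff`, `not_homZero_simple_self`) -/
theorem chain_inj {s t : S} (hst : s ≠ t) (h0 : M s t ≠ 0) : ∃ σ : U.Q.V → U.Q.V,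
    (∀ v, U.typ v = s → U.typ (σ v) = altL s t (M s t - 1) ∧
      HE ((U.TW (altW s t (M s t - 1))).obj (simple v)) (simple (σ v))) ∧
    ∀ v w, U.typ v = s → U.typ w = s → σ v = σ w → v = w := by
  choose σ h1 h2 using fun (v : U.Q.V) (hv : U.typ v = s) => U.chain_end hst h0 hv
  refine ⟨fun v => if hv : U.typ v = s then σ v hv else v, fun v hv => ?_, fun v w hv hw e => ?_⟩
  · simp only [dif_pos hv]
    exact ⟨h1 v hv, h2 v hv⟩
  · simp only [dif_pos hv, dif_pos hw] at e
    by_contra hne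
    have h3 : HomZero 0 (simple v) (simple w) :=
      homZero_simple (fun _ => hne) (fun _ => hne) (fun e => absurd e (by decide))
    have h4 := ((U.qff_TW (altW s t (M s t - 1))).homZero_iff.2 h3).of_HE (h2 v hv) (h2 w hw)
    rw [e] at h4
    exact not_homZero_simple_self _ h4

/-- The injection is onto the vertices of type `x = altL s t (m - 1)`: if `x = s` by finiteness, if
`x = t` because `chain_inj` for `(t, s)` gives an injection the other way.  `conj_twist`,
`altW_succ`, `altW_succ'`. -/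
theorem braid {s t : S} (hst : s ≠ t) (h0 : M s t ≠ 0) (F : Obj U.Q) :
    HE ((U.TW (altW s t (M s t))).obj F) ((U.TW (altW t s (M s t))).obj F) := by
  have h2m := geoa_two_le M hst h0
  obtain ⟨σ, h1, h2⟩ := U.chain_inj hst h0
  have hcard : (Finset.univ.filter fun v => U.typ v = altL s t (M s t - 1)).card ≤
      (Finset.univ.filter fun v => U.typ v = s).card := by
    by_cases he : Even (M s t - 1)
    · obtain ⟨σ', g1, g2⟩ := U.chain_inj hst.symm (by rwa [M.symmetric])
      rw [M.symmetric t s, altL, if_pos he] at g1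
      rw [altL, if_pos he]
      refine Finset.card_le_card_of_injOn σ' (fun v hv => ?_) fun v hv w hw e => ?_
      · simp only [Finset.coe_filter, Finset.mem_univ, true_and, Set.mem_ofPred_eq] at hv ⊢
        exact (g1 v hv).1
      · simp only [Finset.coe_filter, Finset.mem_univ, true_and, Set.mem_ofPred_eq] at hv hw
        exact g2 v w hv hw e
    · rw [altL, if_neg he]
  have hsurj : ∀ w, U.typ w = altL s t (M s t - 1) → ∃ v, U.typ v = s ∧ σ v = w := fun w hw => by
    obtain ⟨v, hv, e⟩ := Finset.surj_on_of_inj_on_of_card_le (fun v _ => σ v)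
      (fun v hv => Finset.mem_filter.2 ⟨Finset.mem_univ _, (h1 v (Finset.mem_filter.1 hv).2).1⟩)
      (fun v w hv hw e => h2 v w (Finset.mem_filter.1 hv).2 (Finset.mem_filter.1 hw).2 e) hcard w
      (Finset.mem_filter.2 ⟨Finset.mem_univ _, hw⟩)
    exact ⟨v, (Finset.mem_filter.1 hv).2, e.symm⟩
  have h3 := conj_twist (U.TW (altW s t (M s t - 1))) (U.qff_TW _) (fun v => U.typ v = s)
    (fun v => U.typ v = altL s t (M s t - 1)) σ (fun v hv => (h1 v hv).1) h2 hsurj
    (fun v hv => (h1 v hv).2) F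
  obtain ⟨r, hr⟩ : ∃ r, M s t = r + 1 := ⟨M s t - 1, by omega⟩
  rw [hr, Nat.add_sub_cancel] at h3
  rw [hr, altW_succ, altW_succ', TW_append]
  exact h3.symm

end Unf

end Crest.Agent.R175
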