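import Crest.Agent.R175.HE

/-!
# R175: the cohomology dimensions `hd`.
A homogeneous morphism `f` of degree `p` has `m0 f` mapping `Cc F v k` to `Cc G v (k+p)`.
-/

set_option autoImplicit false

namespace Crest.Agent.R175

open Matrix

variable {Q : Qv} {F G H : Obj Q} {p : ℤ} {f f' : Mor F.toGr G.toGr} {g : Mor G.toGr H.toGr}
  {v : Q.V} {k : ℤ}

/-- coordinates on `Cc` -/
def cohEquiv (F : Gr Q) (v : Q.V) (k : ℤ) :
    Cc F v k ≃ₗ[ℝ] ({i // F.vtx i = v ∧ F.deg i = k} → ℝ) where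
  toFun u i := u.1 i.1
  invFun w := ⟨fun i => if h : F.vtx i = v ∧ F.deg i = k then w ⟨i, h⟩ else 0, fun _ hi => dif_neg hi⟩
  map_add' _ _ := rfl
  map_smul' _ _ := rfl
  left_inv u := Subtype.ext (funext fun i => by
    by_cases h : F.vtx i = v ∧ F.deg i = k
    · exact dif_pos h
    · exact (dif_neg h).trans (u.2 i h).symm)
  right_inv _ := funext fun i => dif_pos i.2

theorem finrank_Cc (F : Gr Q) (v : Q.V) (k : ℤ) : Module.finrank ℝ (Cc F v k) = cnt F v k := by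
  rw [(cohEquiv F v k).finrank_eq, Module.finrank_fintype_fun_eq_card, Fintype.card_subtype, cnt]

theorem cnt_eq_zero_iff {F : Gr Q} : cnt F v k = 0 ↔ ∀ i, ¬ (F.vtx i = v ∧ F.deg i = k) := by
  rw [cnt, Finset.card_eq_zero, Finset.filter_eq_empty_iff]
  exact ⟨fun h i => h (Finset.mem_univ i), fun h i _ => h i⟩

theorem IsHom.mapsC {F G : Gr Q} {f : Mor F G} (h : IsHom F G p f) {u : F.ι → ℝ}
    (hu : u ∈ Cc F v k) : (m0 f).mulVec u ∈ Cc G v (k + p) := by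
  intro j hj
  refine Finset.sum_eq_zero fun i _ => ?_
  by_cases h0 : (f j i).c0 = 0
  · exact mul_eq_zero_of_left h0 _
  · refine mul_eq_zero_of_right _ (hu i fun hi => hj ?_)
    obtain ⟨h1, h2⟩ := (h j i).1 h0
    exact ⟨h1.trans hi.1, by rw [h2, hi.2]⟩

theorem coh_mem_Zc {u : F.ι → ℝ} : u ∈ Zc F v k ↔ u ∈ Cc F.toGr v k ∧ (m0 F.δ).mulVec u = 0 :=
  Iff.rfl

theorem coh_mem_Bc {u : F.ι → ℝ} :
    u ∈ Bc F v k ↔ ∃ w ∈ Cc F.toGr v (k - 1), (m0 F.δ).mulVec w = u := Iff.rfl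

theorem coh_comm (h : Closed F G p f) (u : F.ι → ℝ) :
    (m0 G.δ).mulVec ((m0 f).mulVec u) = sg p • (m0 f).mulVec ((m0 F.δ).mulVec u) := by
  rw [mulVec_mulVec, mulVec_mulVec, ← m0_mul, ← m0_mul, h.comm, m0_smul, smul_mulVec]

theorem Bc_le_Zc (F : Obj Q) (v : Q.V) (k : ℤ) : Bc F v k ≤ Zc F v k := by
  rintro _ ⟨u, hu, rfl⟩
  refine coh_mem_Zc.2 ⟨?_, ?_⟩
  · have := F.hom.mapsC hu
    rwa [sub_add_cancel] at this
  · rw [mulVecLin_apply, mulVec_mulVec, ← m0_mul, F.sq, m0_zero, zero_mulVec]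

theorem Closed.mapsZ (h : Closed F G p f) {u : F.ι → ℝ} (hu : u ∈ Zc F v k) :
    (m0 f).mulVec u ∈ Zc G v (k + p) := by
  refine coh_mem_Zc.2 ⟨h.hom.mapsC hu.1, ?_⟩
  rw [coh_comm h, (coh_mem_Zc.1 hu).2, mulVec_zero, smul_zero]

theorem Closed.mapsB (h : Closed F G p f) {u : F.ι → ℝ} (hu : u ∈ Bc F v k) :
    (m0 f).mulVec u ∈ Bc G v (k + p) := by
  obtain ⟨w, hw, rfl⟩ := coh_mem_Bc.1 hu
  refine coh_mem_Bc.2 ⟨sg p • (m0 f).mulVec w, Submodule.smul_mem _ _ ?_, ?_⟩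
  · have := h.hom.mapsC hw
    rwa [sub_add_eq_add_sub] at this
  · rw [mulVec_smul, coh_comm h, smul_smul, sg_mul_self, one_smul]

theorem Exact.mapsZB (h : Exact F G p f) {u : F.ι → ℝ} (hu : u ∈ Zc F v k) :
    (m0 f).mulVec u ∈ Bc G v (k + p) := by
  obtain ⟨g, hg, rfl⟩ := h
  refine coh_mem_Bc.2 ⟨(m0 g).mulVec u, ?_, ?_⟩
  · have := hg.mapsC hu.1
    rwa [← add_sub_assoc] at this
  · rw [Dd, m0_sub, m0_smul, m0_mul, m0_mul, sub_mulVec, smul_mulVec, ← mulVec_mulVec, ← mulVec_mulVec,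
      (coh_mem_Zc.1 hu).2, mulVec_zero, smul_zero, sub_zero]

theorem Closed.mapsZ0 (h : Closed F G 0 f) {u : F.ι → ℝ} (hu : u ∈ Zc F v k) :
    (m0 f).mulVec u ∈ Zc G v k := by
  have := h.mapsZ hu
  rwa [add_zero] at this

theorem Closed.mapsB0 (h : Closed F G 0 f) {u : F.ι → ℝ} (hu : u ∈ Bc F v k) :
    (m0 f).mulVec u ∈ Bc G v k := by
  have := h.mapsB hu
  rwa [add_zero] at this

theorem Exact.mapsZB0 (h : Exact F G 0 f) {u : F.ι → ℝ} (hu : u ∈ Zc F v k) :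
    (m0 f).mulVec u ∈ Bc G v k := by
  have := h.mapsZB hu
  rwa [add_zero] at this

theorem coh_rank {V W : Type} [AddCommGroup V] [Module ℝ V] [FiniteDimensional ℝ V]
    [AddCommGroup W] [Module ℝ W] (ψ : V →ₗ[ℝ] W) (Z : Submodule ℝ V) :
    Module.finrank ℝ (Z.map ψ) + Module.finrank ℝ (Z ⊓ LinearMap.ker ψ : Submodule ℝ V) =
      Module.finrank ℝ Z := by
  rw [← LinearMap.finrank_range_add_finrank_ker (ψ.domRestrict Z), LinearMap.range_domRestrict,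
    ← (Submodule.comapSubtypeEquivOfLe (inf_le_left : Z ⊓ LinearMap.ker ψ ≤ Z)).finrank_eq,
    LinearMap.ker_domRestrict, Submodule.comap_inf, Submodule.comap_subtype_self, top_inf_eq]

theorem coh_rank_mkQ {V : Type} [AddCommGroup V] [Module ℝ V] [FiniteDimensional ℝ V]
    {Z B : Submodule ℝ V} (hB : B ≤ Z) :
    Module.finrank ℝ (Z.map B.mkQ) = Module.finrank ℝ Z - Module.finrank ℝ B := by
  have := coh_rank B.mkQ Z
  rw [Submodule.ker_mkQ, inf_eq_right.2 hB] at this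
  omega

/-- linear algebra: an injection `Z/B → Z'/B'` -/
theorem finrank_sub_le {V V' : Type} [AddCommGroup V] [Module ℝ V] [FiniteDimensional ℝ V]
    [AddCommGroup V'] [Module ℝ V'] [FiniteDimensional ℝ V'] {Z B : Submodule ℝ V}
    {Z' B' : Submodule ℝ V'} (hB : B ≤ Z) (hB' : B' ≤ Z') (φ : V →ₗ[ℝ] V')
    (hZ : ∀ u ∈ Z, φ u ∈ Z') (hBB : ∀ u ∈ B, φ u ∈ B') (hinj : ∀ u ∈ Z, φ u ∈ B' → u ∈ B) :
    Module.finrank ℝ Z - Module.finrank ℝ B ≤ Module.finrank ℝ Z' - Module.finrank ℝ B' ∧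
    (Module.finrank ℝ Z' - Module.finrank ℝ B' ≤ Module.finrank ℝ Z - Module.finrank ℝ B →
      ∀ w ∈ Z', ∃ u ∈ Z, w - φ u ∈ B') := by
  have h1 := coh_rank (B'.mkQ ∘ₗ φ) Z
  have h2 : Z ⊓ LinearMap.ker (B'.mkQ ∘ₗ φ) = B := by
    ext u
    simp only [Submodule.mem_inf, LinearMap.mem_ker, LinearMap.comp_apply, Submodule.mkQ_apply,
      Submodule.Quotient.mk_eq_zero]
    exact ⟨fun h => hinj u h.1 h.2, fun h => ⟨hB h, hBB u h⟩⟩
  rw [h2] at h1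
  have h3 : Z.map (B'.mkQ ∘ₗ φ) ≤ Z'.map B'.mkQ := by
    rintro _ ⟨u, hu, rfl⟩
    exact ⟨φ u, hZ u hu, rfl⟩
  have h4 := Submodule.finrank_mono h3
  have h5 := coh_rank_mkQ hB'
  refine ⟨by omega, fun h w hw => ?_⟩
  have h6 := Submodule.eq_of_le_of_finrank_le h3 (by omega)
  have h7 : B'.mkQ w ∈ Z.map (B'.mkQ ∘ₗ φ) := h6 ▸ ⟨w, hw, rfl⟩
  obtain ⟨u, hu, e⟩ := h7
  exact ⟨u, hu, (Submodule.Quotient.eq B').1 e.symm⟩

theorem hd_le_of_injAt (h : Closed F G 0 f) (hi : InjAt F G v k f) : hd F v k ≤ hd G v k :=   (finrank_sub_le (Bc_le_Zc F v k) (Bc_le_Zc G v k) (m0 f).mulVecLin (fun _ => h.mapsZ0)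
    (fun _ => h.mapsB0) hi).1

theorem hd_le_of_surjAt (h : Closed F G 0 f) (hs : SurjAt F G v k f) : hd G v k ≤ hd F v k := by
  have h1 := coh_rank ((Bc G v k).mkQ ∘ₗ (m0 f).mulVecLin) (Zc F v k)
  have h2 : Bc F v k ≤ Zc F v k ⊓ LinearMap.ker ((Bc G v k).mkQ ∘ₗ (m0 f).mulVecLin) := fun u hu =>
    ⟨Bc_le_Zc F v k hu, (Submodule.Quotient.mk_eq_zero _).2 (h.mapsB0 hu)⟩
  have h3 : (Zc G v k).map (Bc G v k).mkQ ≤ (Zc F v k).map ((Bc G v k).mkQ ∘ₗ (m0 f).mulVecLin) := by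
    rintro _ ⟨w, hw, rfl⟩
    obtain ⟨u, hu, e⟩ := hs w hw
    exact ⟨u, hu, ((Submodule.Quotient.eq _).2 e).symm⟩
  have h4 := Submodule.finrank_mono h2
  have h5 := Submodule.finrank_mono h3
  rw [coh_rank_mkQ (Bc_le_Zc G v k)] at h5
  unfold hd
  omega

theorem surjAt_of_injAt (h : Closed F G 0 f) (hi : InjAt F G v k f) (hle : hd G v k ≤ hd F v k) :
    SurjAt F G v k f :=   (finrank_sub_le (Bc_le_Zc F v k) (Bc_le_Zc G v k) (m0 f).mulVecLin (fun _ => h.mapsZ0)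
    (fun _ => h.mapsB0) hi).2 hle

theorem IsHE.injAt (h : IsHE F G f) (v : Q.V) (k : ℤ) : InjAt F G v k f := by
  obtain ⟨-, g, hg, h1, -⟩ := h
  intro u hu hfu
  have h2 := Submodule.sub_mem _ (hg.mapsB0 hfu) (h1.mapsZB0 hu)
  rwa [m0_sub, m0_one, m0_mul, sub_mulVec, one_mulVec, mulVec_mulVec, sub_sub_cancel] at h2

theorem IsHE.surjAt (h : IsHE F G f) (v : Q.V) (k : ℤ) : SurjAt F G v k f := by
  obtain ⟨-, g, hg, -, h1⟩ := h
  intro w hw
  refine ⟨_, hg.mapsZ0 hw, ?_⟩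
  have h2 := Submodule.neg_mem _ (h1.mapsZB0 hw)
  rwa [m0_sub, m0_one, m0_mul, sub_mulVec, one_mulVec, neg_sub, ← mulVec_mulVec] at h2

theorem InjAt.comp (hf : Closed F G 0 f) (h : InjAt F G v k f) (h' : InjAt G H v k g) :
    InjAt F H v k (g * f) := by
  intro u hu hb
  rw [m0_mul, ← mulVec_mulVec] at hb
  exact h u hu (h' _ (hf.mapsZ0 hu) hb)

theorem InjAt.of_exact_sub (h : InjAt F G v k f) (he : Exact F G 0 (f' - f)) :
    InjAt F G v k f' := by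
  intro u hu hb
  have h2 := Submodule.sub_mem _ hb (he.mapsZB0 hu)
  rw [m0_sub, sub_mulVec, sub_sub_cancel] at h2
  exact h u hu h2

theorem HE.hd_eq (h : HE F G) (v : Q.V) (k : ℤ) : hd F v k = hd G v k := by
  obtain ⟨f, hf⟩ := h
  exact le_antisymm (hd_le_of_injAt hf.1 (hf.injAt v k)) (hd_le_of_surjAt hf.1 (hf.surjAt v k))

theorem HE.nb_eq (h : HE F G) (v : Q.V) (k : ℤ) : nb F v k = nb G v k :=   Finset.sum_congr rfl fun _ _ => h.hd_eq _ _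

theorem hd_eq_zero_iff : hd F v k = 0 ↔ Zc F v k ≤ Bc F v k := by
  rw [hd, Nat.sub_eq_zero_iff_le]
  exact ⟨fun h => (Submodule.eq_of_le_of_finrank_le (Bc_le_Zc F v k) h).ge, Submodule.finrank_mono⟩

theorem hd_le_cnt (F : Obj Q) (v : Q.V) (k : ℤ) : hd F v k ≤ cnt F.toGr v k := by
  rw [← finrank_Cc]
  exact (Nat.sub_le _ _).trans (Submodule.finrank_mono inf_le_left)

theorem Minimal.hd_eq_cnt (h : Minimal F) (v : Q.V) (k : ℤ) : hd F v k = cnt F.toGr v k := by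
  have h0 : m0 F.δ = 0 := Matrix.ext fun j i => h j i
  rw [hd, Zc, Bc, h0, mulVecLin_zero, LinearMap.ker_zero, inf_top_eq, Submodule.map_zero, finrank_bot,
    Nat.sub_zero, finrank_Cc]

theorem Minimal.hd_eq_zero_iff (h : Minimal F) :
    hd F v k = 0 ↔ ∀ i, ¬ (F.vtx i = v ∧ F.deg i = k) := by
  rw [h.hd_eq_cnt, cnt_eq_zero_iff]

theorem IsMod.hd_eq_zero (h : IsMod F) (v : Q.V) (hk : k ≠ 0) : hd F v k = 0 :=   h.minimal.hd_eq_zero_iff.2 fun i hi => hk (hi.2.symm.trans (h i))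

theorem coh_Cc_shift (n : ℤ) (F : Obj Q) (v : Q.V) (k : ℤ) :
    Cc (shift n F).toGr v k = Cc F.toGr v (k + n) := by
  have h : ∀ i : F.ι, F.deg i - n = k ↔ F.deg i = k + n := fun i => by omega
  ext u
  exact forall_congr' fun i => imp_congr_left (not_congr (and_congr_right' (h i)))

theorem coh_m1_smul {α β : Type} (r : ℝ) (f : Matrix α β (Z Q)) (a : Q.A) :
    m1 (r • f) a = r • m1 f a := rfl

theorem hd_shift (n : ℤ) (F : Obj Q) (v : Q.V) (k : ℤ) : hd (shift n F) v k = hd F v (k + n) := by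
  have h1 : (m0 (shift n F).δ).mulVecLin = sg n • (m0 F.δ).mulVecLin :=
    LinearMap.ext fun u => smul_mulVec (sg n) (m0 F.δ) u
  have h2 : Zc (shift n F) v k = Zc F v (k + n) := by
    rw [Zc, Zc, coh_Cc_shift, h1]
    exact congrArg _ (LinearMap.ker_smul _ _ (sg_ne_zero n))
  have h3 : Bc (shift n F) v k = Bc F v (k + n) := by
    rw [Bc, Bc, coh_Cc_shift, h1, sub_add_eq_add_sub]
    exact Submodule.map_smul _ _ _ (sg_ne_zero n)
  rw [hd, hd, h2, h3]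
  rfl

theorem nb_shift (n : ℤ) (F : Obj Q) (v : Q.V) (k : ℤ) : nb (shift n F) v k = nb F v (k + n) :=   Finset.sum_congr rfl fun _ _ => hd_shift _ _ _ _

theorem topd_shift (n : ℤ) (F : Obj Q) (v : Q.V) (k : ℤ) :
    topd (shift n F) v k = topd F v (k + n) := by
  have h1 : ∀ a, (m1 (shift n F).δ a).vecMulLinear = sg n • (m1 F.δ a).vecMulLinear := fun a =>
    LinearMap.ext fun u => vecMul_smul u (sg n) (m1 F.δ a)
  have h2 : TopSp (shift n F) v k = TopSp F v (k + n) := by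
    rw [TopSp, TopSp, coh_Cc_shift]
    refine congrArg _ (iInf_congr fun a => ?_)
    rw [h1]
    exact LinearMap.ker_smul _ _ (sg_ne_zero n)
  rw [topd, topd, h2]
  rfl

theorem socd_shift (n : ℤ) (F : Obj Q) (v : Q.V) (k : ℤ) :
    socd (shift n F) v k = socd F v (k + n) := by
  have h1 : ∀ a, (m1 (shift n F).δ a).mulVecLin = sg n • (m1 F.δ a).mulVecLin := fun a =>
    LinearMap.ext fun u => smul_mulVec (sg n) (m1 F.δ a) u
  have h2 : SocSp (shift n F) v k = SocSp F v (k + n) := by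
    rw [SocSp, SocSp, coh_Cc_shift]
    refine congrArg _ (iInf_congr fun a => ?_)
    rw [h1]
    exact LinearMap.ker_smul _ _ (sg_ne_zero n)
  rw [socd, socd, h2]
  rfl

theorem hd_simple (w v : Q.V) (k : ℤ) : hd (simple w) v k = if v = w ∧ k = 0 then 1 else 0 := by
  rw [(simple_isMod w).minimal.hd_eq_cnt]
  split_ifs with h
  · obtain ⟨rfl, rfl⟩ := h
    rw [cnt, Finset.filter_true_of_mem fun _ _ => ⟨rfl, rfl⟩]
    rfl
  · exact cnt_eq_zero_iff.2 fun i hi => h ⟨hi.1.symm, hi.2.symm⟩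

theorem nb_eq_zero_iff : nb F v k = 0 ↔ ∀ a, Q.src a = v → hd F (Q.tgt a) k = 0 := by
  simp [nb]

/-- the cohomology is bounded -/
theorem exists_hd_bound (F : Obj Q) : ∃ n : ℕ, ∀ v k, (n : ℤ) ≤ |k| → hd F v k = 0 := by
  refine ⟨Finset.univ.sup (fun i => (F.deg i).natAbs) + 1, fun v k hk => ?_⟩
  refine Nat.eq_zero_of_le_zero ((hd_le_cnt F v k).trans_eq (cnt_eq_zero_iff.2 fun i hi => ?_))
  have h1 := Finset.le_sup (f := fun i => (F.deg i).natAbs) (Finset.mem_univ i)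
  rw [← hi.2, Int.abs_eq_natAbs] at hk
  omega

theorem Contr.hd_eq_zero (h : Contr F) (v : Q.V) (k : ℤ) : hd F v k = 0 := by
  refine hd_eq_zero_iff.2 fun u hu => ?_
  have := Exact.mapsZB0 h hu
  rwa [m0_one, one_mulVec] at this

theorem InjAt.scalar_ne_zero {f : Mor F.toGr F.toGr} {c : ℝ} (h : InjAt F F v k f)
    (he : Exact F F 0 (f - c • (1 : Mor F.toGr F.toGr))) (hne : hd F v k ≠ 0) : c ≠ 0 := by
  rintro rfl
  rw [zero_smul, sub_zero] at he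
  exact hne (hd_eq_zero_iff.2 fun u hu => h u hu (he.mapsZB0 hu))

theorem coh_pi {X V : Type} [Fintype X] [AddCommGroup V] [Module ℝ V] {W : X → Type}
    [∀ x, AddCommGroup (W x)] [∀ x, Module ℝ (W x)] [∀ x, FiniteDimensional ℝ (W x)]
    (i : ∀ x, W x →ₗ[ℝ] V) (p : ∀ x, V →ₗ[ℝ] W x) (h1 : ∀ x w, p x (i x w) = w)
    (h0 : ∀ x y, x ≠ y → ∀ w, p x (i y w) = 0) (hs : ∀ u, ∑ x, i x (p x u) = u)
    (S : Submodule ℝ V) (T : ∀ x, Submodule ℝ (W x)) (hi : ∀ x, ∀ w ∈ T x, i x w ∈ S)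
    (hp : ∀ x, ∀ u ∈ S, p x u ∈ T x) :
    Module.finrank ℝ S = ∑ x, Module.finrank ℝ (T x) := by
  rw [← Module.finrank_pi_fintype]
  refine (LinearEquiv.ofBijective (LinearMap.pi fun x => (p x).restrict (hp x)) ⟨?_, ?_⟩).finrank_eq
  · intro u u' h
    refine Subtype.ext ?_
    rw [← hs u, ← hs u']
    exact Finset.sum_congr rfl fun x _ => congrArg _ (congrArg Subtype.val (congrFun h x))
  · intro w
    refine ⟨⟨∑ x, i x (w x), S.sum_mem fun x _ => hi x _ (w x).2⟩, funext fun x => Subtype.ext ?_⟩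
    change p x (∑ y, i y (w y)) = w x
    rw [map_sum, Finset.sum_eq_single x (fun y _ hy => h0 x y hy.symm _) (by simp), h1]

/-- additivity: `Zc G ≃ Π x, Zc (B x)` and `Bc G ≃ Π x, Bc (B x)` via the `m0 (π x)`, `m0 (ι x)` -/
theorem hd_biprod {X : Type} [Fintype X] [DecidableEq X] (B : X → Obj Q) (G : Obj Q)
    (ι : ∀ x, Mor (B x).toGr G.toGr) (π : ∀ x, Mor G.toGr (B x).toGr)
    (hι : ∀ x, Closed (B x) G 0 (ι x)) (hπ : ∀ x, Closed G (B x) 0 (π x))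
    (h1 : ∀ x, π x * ι x = 1) (h0 : ∀ x y, x ≠ y → π x * ι y = 0)
    (hs : ∑ x, ι x * π x = 1) (v : Q.V) (k : ℤ) : hd G v k = ∑ x, hd (B x) v k := by
  have key := coh_pi (fun x => (m0 (ι x)).mulVecLin) (fun x => (m0 (π x)).mulVecLin)
    (fun x w => by
      rw [mulVecLin_apply, mulVecLin_apply, mulVec_mulVec, ← m0_mul, h1, m0_one, one_mulVec])
    (fun x y h w => by
      rw [mulVecLin_apply, mulVecLin_apply, mulVec_mulVec, ← m0_mul, h0 x y h, m0_zero, zero_mulVec])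
    (fun u => by
      simp only [mulVecLin_apply, mulVec_mulVec, ← m0_mul]
      rw [← sum_mulVec, ← m0_sum, hs, m0_one, one_mulVec])
  unfold hd
  rw [key (Zc G v k) (fun x => Zc (B x) v k) (fun x _ => (hι x).mapsZ0) (fun x _ => (hπ x).mapsZ0),
    key (Bc G v k) (fun x => Bc (B x) v k) (fun x _ => (hι x).mapsB0) (fun x _ => (hπ x).mapsB0),
    Finset.sum_tsub_distrib _ fun x _ => Submodule.finrank_mono (Bc_le_Zc (B x) v k)]

end Crest.Agent.R175
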