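import Crest.Agent.R175.Misc

/-!
# R175: correspondences and the functors that they define.
-/

set_option autoImplicit false

namespace Crest.Agent.R175

open Matrix

variable {Q : Qv}

/-- The data of a functor `S_v ↦ ⊕_{q y = v} S_{p y}`, `ξ_b ↦ ∑ R a y' y b • ξ_a`, `ω ↦ κ y • ω`. -/
structure Corr (Q : Qv) where
  Y : Type
  [fY : Fintype Y]
  [dY : DecidableEq Y]
  p : Y → Q.V
  q : Y → Q.V
  κ : Y → ℝ
  κ_ne : ∀ y, κ y ≠ 0
  R : Q.A → Y → Y → Q.A → ℝ
  supp : ∀ a y' y b, R a y' y b ≠ 0 →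
    Q.src a = p y ∧ Q.tgt a = p y' ∧ Q.src b = q y ∧ Q.tgt b = q y'
  unit : ∀ y y'' b b', Q.src b = q y → Q.tgt b = Q.src b' → Q.tgt b' = q y'' →
    ∑ a, ∑ y', R (Q.bar a) y'' y' b' * R a y' y b = if y = y'' ∧ b' = Q.bar b then κ y else 0
  counit : ∀ y' y₂ a a₂, q y' = q y₂ → Q.tgt a = p y' → Q.tgt a₂ = p y₂ →
    ∑ y, ∑ b, R a₂ y₂ y b * (κ y)⁻¹ * R (Q.bar a) y y' (Q.bar b) =
      if y' = y₂ ∧ a = a₂ then 1 else 0

attribute [instance] Corr.fY Corr.dY

variable (c : Corr Q)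

/-- the indices -/
def Corr.XGr (F : Gr Q) : Gr Q where
  ι := {x : F.ι × c.Y // F.vtx x.1 = c.q x.2}
  vtx x := c.p x.1.2
  deg x := F.deg x.1.1

/-- the entries -/
def Corr.XZ (y' y : c.Y) : Z Q →ₗ[ℝ] Z Q where
  toFun z := ⟨if y' = y then z.c0 else 0, fun a => ∑ b, c.R a y' y b * z.c1 b,
    if y' = y then c.κ y * z.c2 else 0⟩
  map_add' z w := by
    ext a
    · simp only [Z.add_c0]; split_ifs <;> simp
    · simp [mul_add, Finset.sum_add_distrib]
    · simp only [Z.add_c2]; split_ifs <;> simp [mul_add]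
  map_smul' r z := by
    ext a
    · simp only [Z.smul_c0, RingHom.id_apply]; split_ifs <;> simp
    · simp [Finset.mul_sum, mul_left_comm]
    · simp only [Z.smul_c2, RingHom.id_apply]; split_ifs <;> simp [mul_left_comm]

@[simp] theorem Corr.XZ_c0 (y' y : c.Y) (z : Z Q) :
    (c.XZ y' y z).c0 = if y' = y then z.c0 else 0 := rfl
@[simp] theorem Corr.XZ_c1 (y' y : c.Y) (z : Z Q) (a : Q.A) :
    (c.XZ y' y z).c1 a = ∑ b, c.R a y' y b * z.c1 b := rfl
@[simp] theorem Corr.XZ_c2 (y' y : c.Y) (z : Z Q) :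
    (c.XZ y' y z).c2 = if y' = y then c.κ y * z.c2 else 0 := rfl

/-- the functor on morphisms -/
def Corr.XM (F G : Gr Q) : Mor F G →ₗ[ℝ] Mor (c.XGr F) (c.XGr G) where
  toFun f := fun y x => c.XZ y.1.2 x.1.2 (f y.1.1 x.1.1)
  map_add' f g := by
    funext y x
    exact map_add (c.XZ y.1.2 x.1.2) (f y.1.1 x.1.1) (g y.1.1 x.1.1)
  map_smul' r f := by
    funext y x
    exact map_smul (c.XZ y.1.2 x.1.2) r (f y.1.1 x.1.1)

theorem Corr.XM_apply {F G : Gr Q} (f : Mor F G) (y : (c.XGr G).ι) (x : (c.XGr F).ι) :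
    c.XM F G f y x = c.XZ y.1.2 x.1.2 (f y.1.1 x.1.1) := rfl

theorem Corr.sum_XGr {F : Gr Q} {N : Type*} [AddCommMonoid N] (φ : F.ι → c.Y → N)
    (h : ∀ j y, F.vtx j ≠ c.q y → φ j y = 0) :
    ∑ x : (c.XGr F).ι, φ x.1.1 x.1.2 = ∑ j, ∑ y, φ j y := by
  rw [← Fintype.sum_prod_type', ← Finset.sum_filter_of_ne (s := Finset.univ)
    (p := fun x : F.ι × c.Y => F.vtx x.1 = c.q x.2) fun x _ hx => by_contra fun e => hx (h _ _ e)]
  exact (Finset.sum_subtype (p := fun x : F.ι × c.Y => F.vtx x.1 = c.q x.2) _ (by simp)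
    fun x => φ x.1 x.2).symm

theorem corr_XZ_zero {y y' : c.Y} {w : Q.V} {k l r : ℤ} {x : Z Q} (hx : Ok (c.q y) k w l r x)
    (h : w ≠ c.q y') : c.XZ y' y x = 0 := by
  ext a
  · rw [Corr.XZ_c0, Z.zero_c0]
    split_ifs with e
    · exact by_contra fun h0 => h (e ▸ (hx.1 h0).1)
    · rfl
  · rw [Corr.XZ_c1, Z.zero_c1]
    refine Finset.sum_eq_zero fun b _ => by_contra fun h0 => h ?_
    rw [← (hx.2.1 b (right_ne_zero_of_mul h0)).2.1, (c.supp _ _ _ _ (left_ne_zero_of_mul h0)).2.2.2]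
  · rw [Corr.XZ_c2, Z.zero_c2]
    split_ifs with e
    · exact by_contra fun h0 => h (e ▸ (hx.2.2 (right_ne_zero_of_mul h0)).1)
    · rfl

theorem corr_key {y y'' : c.Y} {w : Q.V} {k l m r s : ℤ} {x x' : Z Q}
    (hx : Ok (c.q y) k w l r x) (hx' : Ok w l (c.q y'') m s x') :
    ∑ y', ∑ a, (∑ b', c.R (Q.bar a) y'' y' b' * x'.c1 b') * ∑ b, c.R a y' y b * x.c1 b =
      if y'' = y then c.κ y * ∑ b, x'.c1 (Q.bar b) * x.c1 b else 0 := by
  have h1 : ∀ b b', (∑ a, ∑ y', c.R (Q.bar a) y'' y' b' * c.R a y' y b) * (x'.c1 b' * x.c1 b) =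
      (if y = y'' ∧ b' = Q.bar b then c.κ y else 0) * (x'.c1 b' * x.c1 b) := fun b b' => by
    by_cases h0 : x'.c1 b' * x.c1 b = 0
    · rw [h0, mul_zero, mul_zero]
    · have e := hx.2.1 b (right_ne_zero_of_mul h0)
      have e' := hx'.2.1 b' (left_ne_zero_of_mul h0)
      rw [c.unit y y'' b b' e.1 (e.2.1.trans e'.1.symm) e'.2.1]
  calc _ = ∑ b, ∑ b', (∑ a, ∑ y', c.R (Q.bar a) y'' y' b' * c.R a y' y b) *
        (x'.c1 b' * x.c1 b) := by
        simp only [Finset.sum_mul, Finset.mul_sum]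
        rw [Finset.sum_comm]
        conv_lhs => enter [2, a]; rw [Finset.sum_comm]; enter [2, b]; rw [Finset.sum_comm]
        rw [Finset.sum_comm]
        refine Finset.sum_congr rfl fun b _ => ?_
        rw [Finset.sum_comm]
        refine Finset.sum_congr rfl fun b' _ => Finset.sum_congr rfl fun a _ =>
          Finset.sum_congr rfl fun y' _ => by ring
    _ = _ := by
        simp only [h1]
        by_cases e : y'' = y
        · subst e
          simp [Finset.mul_sum]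
        · simp [e, Ne.symm e]

/-- The key computation.  The terms with `q y' ≠ w` vanish.  For `c2` expand, exchange the sums and use
`unit` (the terms with `x'.c1 b' * x.c1 b ≠ 0` are composable). -/
theorem Corr.XZ_mul {y y'' : c.Y} {w : Q.V} {k l m r s : ℤ} {x x' : Z Q}
    (hx : Ok (c.q y) k w l r x) (hx' : Ok w l (c.q y'') m s x') :
    (∀ y', w ≠ c.q y' → c.XZ y'' y' x' * c.XZ y' y x = 0) ∧
      ∑ y', c.XZ y'' y' x' * c.XZ y' y x = c.XZ y'' y (x' * x) := by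
  refine ⟨fun y' h => by rw [corr_XZ_zero c hx h, mul_zero], ?_⟩
  ext a
  · by_cases e : y'' = y
    · subst e
      simp
    · simp [e]
  · simp only [Z.sum_c1, Z.mul_c1, Corr.XZ_c0, Corr.XZ_c1, Finset.sum_add_distrib, ite_mul, mul_ite,
      zero_mul, mul_zero, Finset.sum_ite_eq, Finset.sum_ite_eq', Finset.mem_univ, if_true]
    simp only [mul_add, Finset.mul_sum, Finset.sum_mul, Finset.sum_add_distrib]
    congr 1 <;> exact Finset.sum_congr rfl fun b _ => by ring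
  · simp only [Z.sum_c2, Z.mul_c2, Corr.XZ_c0, Corr.XZ_c1, Corr.XZ_c2, Finset.sum_add_distrib,
      corr_key c hx hx']
    by_cases e : y'' = y
    · subst e
      simp
      ring
    · simp [e]

section
variable {F G H : Gr Q} {p q : ℤ} {f : Mor F G} {g : Mor G H}

theorem Corr.XM_hom (h : IsHom F G p f) : IsHom (c.XGr F) (c.XGr G) p (c.XM F G f) := by
  intro j i
  have h0 := h j.1.1 i.1.1
  refine ⟨fun e => ?_, fun a e => ?_, fun e => ?_⟩
  · rw [Corr.XM_apply, Corr.XZ_c0] at e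
    split_ifs at e with e'
    · exact ⟨congrArg c.p e', (h0.1 e).2⟩
    · exact absurd rfl e
  · rw [Corr.XM_apply, Corr.XZ_c1] at e
    obtain ⟨b, -, hb⟩ := Finset.exists_ne_zero_of_sum_ne_zero e
    have h1 := c.supp _ _ _ _ (left_ne_zero_of_mul hb)
    exact ⟨h1.1, h1.2.1, (h0.2.1 b (right_ne_zero_of_mul hb)).2.2⟩
  · rw [Corr.XM_apply, Corr.XZ_c2] at e
    split_ifs at e with e'
    · exact ⟨congrArg c.p e', (h0.2.2 (right_ne_zero_of_mul e)).2⟩
    · exact absurd rfl e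

theorem Corr.XM_mul (hf : IsHom F G p f) (hg : IsHom G H q g) :
    c.XM F H (g * f) = c.XM G H g * c.XM F G f := by
  funext l i
  have h := fun j => c.XZ_mul (y := i.1.2) (y'' := l.1.2) (i.2 ▸ hf j i.1.1) (l.2 ▸ hg l.1.1 j)
  rw [Corr.XM_apply, Matrix.mul_apply, Matrix.mul_apply, map_sum]
  simp only [Corr.XM_apply]
  rw [c.sum_XGr (fun j y' => c.XZ l.1.2 y' (g l.1.1 j) * c.XZ y' i.1.2 (f j i.1.1))
    fun j y' e => (h j).1 y' e]
  exact Finset.sum_congr rfl fun j _ => (h j).2.symm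

theorem Corr.XM_one : c.XM F F 1 = 1 := by
  funext j i
  rw [Corr.XM_apply, Matrix.one_apply, Matrix.one_apply]
  have e : j = i ↔ j.1.1 = i.1.1 ∧ j.1.2 = i.1.2 := Subtype.ext_iff.trans Prod.ext_iff
  by_cases h1 : j.1.1 = i.1.1
  · by_cases h2 : j.1.2 = i.1.2
    · rw [if_pos h1, if_pos (e.2 ⟨h1, h2⟩)]
      ext a <;> simp [h2]
    · rw [if_pos h1, if_neg fun h => h2 (e.1 h).2]
      ext a <;> simp [h2]
  · rw [if_neg h1, if_neg fun h => h1 (e.1 h).1, map_zero]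

end

/-- the functor on objects -/
def Corr.XObj (F : Obj Q) : Obj Q where
  toGr := c.XGr F.toGr
  δ := c.XM F.toGr F.toGr F.δ
  hom := c.XM_hom F.hom
  sq := by rw [← c.XM_mul F.hom F.hom, F.sq, map_zero]

theorem Corr.XM_D {F G : Obj Q} {p : ℤ} {f : Mor F.toGr G.toGr} (h : IsHom F.toGr G.toGr p f) :
    c.XM F.toGr G.toGr (Dd F G p f) = Dd (c.XObj F) (c.XObj G) p (c.XM F.toGr G.toGr f) := by
  unfold Dd
  rw [map_sub, map_smul, c.XM_mul h G.hom, c.XM_mul F.hom h]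
  rfl

/-- the functor -/
def Corr.X : DGFun Q where
  obj := c.XObj
  map F G _ := c.XM F.toGr G.toGr
  map_hom := c.XM_hom
  map_mul := c.XM_mul
  map_one _ := c.XM_one
  map_D := c.XM_D

theorem corr_hd_min {F : Obj Q} (hF : Minimal F) (v : Q.V) (k : ℤ) :
    hd (c.X.obj F) v k = ∑ y with c.p y = v, hd F (c.q y) k := by
  have h1 : Minimal (c.X.obj F) := fun j i => by
    change (c.XZ j.1.2 i.1.2 (F.δ j.1.1 i.1.1)).c0 = 0
    rw [Corr.XZ_c0, hF, ite_self]
  have h2 := c.sum_XGr (F := F.toGr)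
    (fun j y => if c.p y = v then if F.vtx j = c.q y ∧ F.deg j = k then 1 else 0 else 0 : _ → _ → ℕ)
    fun j y e => by simp [e]
  rw [h1.hd_eq_cnt, Finset.sum_filter]
  simp only [hF.hd_eq_cnt, cnt, Finset.card_filter]
  refine Eq.trans (Finset.sum_congr rfl fun x _ => ?_) (h2.trans (Finset.sum_comm.trans
    (Finset.sum_congr rfl fun y _ => ?_)))
  · change (if c.p x.1.2 = v ∧ F.deg x.1.1 = k then 1 else 0) = _
    simp only [x.2, true_and, ite_and]
  · split_ifs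
    · rfl
    · exact Finset.sum_const_zero

/-- for minimal `F` also `X F` is minimal, count the indices; in general pass to `mm F` -/
theorem Corr.hd_X (F : Obj Q) (v : Q.V) (k : ℤ) :
    hd (c.X.obj F) v k = ∑ y with c.p y = v, hd F (c.q y) k := by
  rw [(c.X.map_he (he_mm F)).hd_eq, corr_hd_min c (mm_minimal F)]
  exact Finset.sum_congr rfl fun y _ => ((he_mm F).hd_eq _ _).symm

/-- `hd_map_semisimple` -/
theorem Corr.hd_map_X_simple (Φ : DGFun Q) (v w : Q.V) (k : ℤ) :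
    hd (Φ.obj (c.X.obj (simple v))) w k = ∑ y with c.q y = v, hd (Φ.obj (simple (c.p y))) w k := by
  have h2 := c.sum_XGr (F := (simple v).toGr)
    (fun _ y => if c.q y = v then hd (Φ.obj (simple (c.p y))) w k else 0)
    fun j y e => if_neg fun h => e h.symm
  rw [hd_map_semisimple Φ (F := c.X.obj (simple v)) (fun _ => rfl) (map_zero (c.XM _ _)),
    Finset.sum_filter]
  refine Eq.trans (Finset.sum_congr rfl fun x _ => ?_) (h2.trans (Fintype.sum_unique (ι := Unit) _))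
  exact (if_pos x.2.symm).symm

end Crest.Agent.R175
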