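import Crest.Agent.R61.GeoB

/-!
# R175: the geometric representation on `B → ℝ`, decomposition along dihedral subgroups.
Everything is transferred from `Crest.Agent.R61.GeoA/GeoB` (`rho`, `rho_al_nonneg`, `sig_liftable`)
along the injective linear map `(B → ℝ) → E B`, `v ↦ ∑ i, v i • al i`.
-/

set_option autoImplicit false

namespace Crest.Agent.R175

open CoxeterSystem Crest.Agent.R61

/-- the letter number `r` (from `0`) of the alternating word `t s t s ⋯` -/
def altL {α : Type} (s t : α) (r : ℕ) : α := if Even r then t else s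

/-- the alternating word `t s t s ⋯` with `r` letters -/
def altW {α : Type} (s t : α) (r : ℕ) : List α := (List.range r).map (altL s t)

@[simp] theorem altW_zero {α : Type} (s t : α) : altW s t 0 = [] := rfl

theorem altW_succ {α : Type} (s t : α) (r : ℕ) : altW s t (r + 1) = altW s t r ++ [altL s t r] := by
  simp [altW, List.range_succ]

theorem altL_succ {α : Type} (s t : α) (r : ℕ) : altL t s (r + 1) = altL s t r := by
  unfold altL
  by_cases h : Even r <;> simp [h, Nat.even_add_one]

theorem altW_succ' {α : Type} (s t : α) (r : ℕ) : altW t s (r + 1) = s :: altW s t r := by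
  simp only [altW, List.range_succ_eq_map, List.map_cons, List.map_map]
  congr 1
  exact List.map_congr_left fun a _ => altL_succ s t a

@[simp] theorem length_altW {α : Type} (s t : α) (r : ℕ) : (altW s t r).length = r := by
  simp [altW]

theorem mem_altW {α : Type} {s t x : α} {r : ℕ} (h : x ∈ altW s t r) : x = s ∨ x = t := by
  simp only [altW, List.mem_map] at h
  obtain ⟨a, -, rfl⟩ := h
  unfold altL
  split_ifs <;> simp

variable {B W : Type} [Fintype B] [DecidableEq B] [Group W] {M : CoxeterMatrix B}

/-- the simple reflection `v ↦ v - (∑ j, kk i j * v j) α_i` -/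
noncomputable def refl0 (M : CoxeterMatrix B) (i : B) : Module.End ℝ (B → ℝ) :=
  LinearMap.id - (∑ j, kk M i j • LinearMap.proj j : (B → ℝ) →ₗ[ℝ] ℝ).smulRight (Pi.single i 1)

theorem refl0_apply (i : B) (v : B → ℝ) :
    refl0 M i v = v - (∑ j, kk M i j * v j) • (Pi.single i 1 : B → ℝ) := by
  simp [refl0, LinearMap.sum_apply]

/-- the embedding `v ↦ ∑ i, v i • al i` -/
noncomputable def cox_emb : (B → ℝ) →ₗ[ℝ] E B :=
  ∑ i, (LinearMap.proj i : (B → ℝ) →ₗ[ℝ] ℝ).smulRight (al i)

omit [DecidableEq B] in
theorem cox_emb_apply (v : B → ℝ) : cox_emb v = ∑ i, v i • (al i : E B) := by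
  simp [cox_emb, LinearMap.sum_apply]

theorem cox_emb_inl (v : B → ℝ) (k : B) : cox_emb v (Sum.inl k) = v k := by
  rw [cox_emb_apply, Finsupp.finsetSum_apply]
  simp [al, Finsupp.single_apply]

theorem cox_emb_inj : Function.Injective (cox_emb : (B → ℝ) →ₗ[ℝ] E B) := by
  intro u v h
  funext k
  rw [← cox_emb_inl u k, h, cox_emb_inl]

theorem cox_emb_single (i : B) : cox_emb (Pi.single i 1 : B → ℝ) = al i := by
  rw [cox_emb_apply, Finset.sum_eq_single i]
  · simp
  · intro j _ hj
    simp [hj]
  · simp

theorem cox_emb_refl0 (i : B) (v : B → ℝ) : cox_emb (refl0 M i v) = sig M i (cox_emb v) := by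
  rw [refl0_apply, map_sub, map_smul, cox_emb_single, sig_apply]
  congr 2
  rw [cox_emb_apply, map_sum]
  refine Finset.sum_congr rfl fun j _ => ?_
  rw [map_smul, co0_al, smul_eq_mul, mul_comm]

theorem refl0_liftable : M.IsLiftable (refl0 M) := by
  intro i j
  have key : ∀ (k : ℕ) (v : B → ℝ), cox_emb (((refl0 M i * refl0 M j) ^ k) v) =
      ((sig M i * sig M j) ^ k) (cox_emb v) := by
    intro k
    induction k with
    | zero => intro v; simp
    | succ k ih =>
      intro v
      rw [pow_succ, pow_succ, Module.End.mul_apply, Module.End.mul_apply, ih, cox_emb_refl0,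
        cox_emb_refl0, Module.End.mul_apply, Module.End.mul_apply]
  refine LinearMap.ext fun v => cox_emb_inj ?_
  rw [key, sig_liftable M i j, Module.End.one_apply, Module.End.one_apply]

variable (cs : CoxeterSystem M W)

/-- the geometric representation -/
noncomputable def rep : W →* Module.End ℝ (B → ℝ) := cs.lift ⟨refl0 M, refl0_liftable⟩

theorem rep_simple (i : B) : rep cs (cs.simple i) = refl0 M i :=
  cs.lift_apply_simple refl0_liftable i

theorem cox_rep_mul (w w' : W) (v : B → ℝ) : rep cs (w * w') v = rep cs w (rep cs w' v) := by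
  rw [map_mul, Module.End.mul_apply]

theorem cox_emb_rep (w : W) (v : B → ℝ) : cox_emb (rep cs w v) = rho cs w (cox_emb v) := by
  induction w using cs.simple_induction_left with
  | one => simp
  | mul_simple_left w i ih =>
    rw [cox_rep_mul, rep_simple, cox_emb_refl0, ih, geob_rho_mul, rho_simple]

theorem cox_refl0_self (i : B) : refl0 M i (Pi.single i 1) = -Pi.single i 1 := by
  apply cox_emb_inj
  rw [cox_emb_refl0, map_neg, cox_emb_single, geoa_sig_self]

theorem cox_rep_mul_simple (w : W) (i : B) :
    rep cs (w * cs.simple i) (Pi.single i 1) = -rep cs w (Pi.single i 1) := by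
  rw [cox_rep_mul, rep_simple, cox_refl0_self, map_neg]

theorem rep_pos {w : W} {i : B} (h : cs.length w < cs.length (w * cs.simple i)) :
    0 ≤ rep cs w (Pi.single i 1) := by
  intro k
  have := rho_al_nonneg cs w i h (Sum.inl k)
  rw [← cox_emb_single, ← cox_emb_rep, cox_emb_inl] at this
  exact this

theorem rep_neg {w : W} {i : B} (h : cs.length (w * cs.simple i) < cs.length w) :
    rep cs w (Pi.single i 1) ≤ 0 := by
  have h1 := rep_pos cs (w := w * cs.simple i) (i := i)
    (by rw [cs.simple_mul_simple_cancel_right]; exact h)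
  rw [cox_rep_mul_simple] at h1
  exact neg_nonneg.1 h1

theorem rep_single_ne_zero (w : W) (i : B) : rep cs w (Pi.single i 1) ≠ 0 := by
  intro h
  have h1 : rep cs w⁻¹ (rep cs w (Pi.single i 1)) = Pi.single i 1 := by
    rw [← cox_rep_mul, inv_mul_cancel, map_one, Module.End.one_apply]
  rw [h, map_zero] at h1
  have := congrFun h1 i
  simp at this

theorem cox_form_refl0 (k : B) (u v : B → ℝ) :
    ∑ i, ∑ j, kk M i j * refl0 M k u i * refl0 M k v j = ∑ i, ∑ j, kk M i j * u i * v j := by
  set a := ∑ j, kk M k j * u j with ha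
  set b := ∑ j, kk M k j * v j with hb
  have e : ∀ i j, kk M i j * refl0 M k u i * refl0 M k v j =
      kk M i j * u i * v j - b * (kk M i j * u i * (Pi.single k 1 : B → ℝ) j) -
        a * (kk M i j * (Pi.single k 1 : B → ℝ) i * v j) +
        a * b * (kk M i j * (Pi.single k 1 : B → ℝ) i * (Pi.single k 1 : B → ℝ) j) := by
    intro i j
    rw [refl0_apply, refl0_apply, ← ha, ← hb]
    simp only [Pi.sub_apply, Pi.smul_apply, smul_eq_mul]
    ring
  have e1 : ∑ i, ∑ j, kk M i j * u i * (Pi.single k 1 : B → ℝ) j = a := by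
    rw [ha]
    refine Finset.sum_congr rfl fun i _ => ?_
    simp [Pi.single_apply, kk_symm M k i]
  have e2 : ∑ i, ∑ j, kk M i j * (Pi.single k 1 : B → ℝ) i * v j = b := by
    rw [hb, Finset.sum_comm]
    refine Finset.sum_congr rfl fun i _ => ?_
    simp [Pi.single_apply]
  have e3 : ∑ i, ∑ j, kk M i j * (Pi.single k 1 : B → ℝ) i * (Pi.single k 1 : B → ℝ) j = 2 := by
    simp [Pi.single_apply, kk_self]
  simp only [e, Finset.sum_add_distrib, Finset.sum_sub_distrib, ← Finset.mul_sum]
  simp only [Finset.mul_sum] at e1 e2 e3 ⊢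
  simp only [← Finset.mul_sum] at e1 e2 e3 ⊢
  rw [e1, e2, e3]
  ring

/-- the form is invariant -/
theorem rep_form (w : W) (u v : B → ℝ) :
    ∑ i, ∑ j, kk M i j * rep cs w u i * rep cs w v j = ∑ i, ∑ j, kk M i j * u i * v j := by
  induction w using cs.simple_induction_left with
  | one => simp
  | mul_simple_left w i ih =>
    rw [cox_rep_mul, cox_rep_mul, rep_simple, cox_form_refl0, ih]

theorem cox_reverse_altW {α : Type} (s t : α) (r : ℕ) :
    (altW s t r).reverse = alternatingWord s t r := by
  induction r with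
  | zero => rfl
  | succ r ih => rw [altW_succ, alternatingWord_succ', List.reverse_append, ih]; rfl

omit [Fintype B] [DecidableEq B] in
/-- the longest alternating prefix -/
theorem cox_left {w : W} {i j : B} (hj : cs.length (cs.simple j * w) < cs.length w) :
    ∃ (r : ℕ) (w' : W), 1 ≤ r ∧ w = cs.wordProd (altW i j r) * w' ∧
      cs.length w = r + cs.length w' ∧ cs.length w' < cs.length (cs.simple i * w') ∧
      cs.length w' < cs.length (cs.simple j * w') := by
  classical
  have hj' : cs.length (cs.simple j * w) + 1 = cs.length w := by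
    rcases cs.length_simple_mul w j with h | h <;> omega
  let P : ℕ → Prop := fun m => ∃ v : W, w = cs.wordProd (altW i j m) * v ∧
    cs.length w = m + cs.length v
  have hP1 : P 1 := ⟨cs.simple j * w, by simp [altW, altL], by omega⟩
  have hle : 1 ≤ cs.length w := by omega
  have hPm : P (Nat.findGreatest P (cs.length w)) := Nat.findGreatest_spec hle hP1
  have hm1 : 1 ≤ Nat.findGreatest P (cs.length w) := Nat.le_findGreatest hle hP1
  have hmax : ¬ P (Nat.findGreatest P (cs.length w) + 1) := by
    intro hP
    have hb : Nat.findGreatest P (cs.length w) + 1 ≤ cs.length w := by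
      obtain ⟨v, -, hv⟩ := hP
      omega
    exact Nat.findGreatest_is_greatest (Nat.lt_succ_self _) hb hP
  generalize Nat.findGreatest P (cs.length w) = m at hPm hm1 hmax
  obtain ⟨m', rfl⟩ : ∃ m', m = m' + 1 := ⟨m - 1, by omega⟩
  obtain ⟨v, hv, hl⟩ := hPm
  have ha : cs.length v < cs.length (cs.simple (altL i j (m' + 1)) * v) := by
    rcases cs.length_simple_mul v (altL i j (m' + 1)) with h1 | h1
    · omega
    · exfalso
      apply hmax
      refine ⟨cs.simple (altL i j (m' + 1)) * v, ?_, by omega⟩
      rw [altW_succ i j (m' + 1), cs.wordProd_append, cs.wordProd_singleton, mul_assoc,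
        cs.simple_mul_simple_cancel_left]
      exact hv
  have hb : cs.length v < cs.length (cs.simple (altL i j m') * v) := by
    have h1 : w = cs.wordProd (altW i j m') * (cs.simple (altL i j m') * v) := by
      rw [hv, altW_succ i j m', cs.wordProd_append, cs.wordProd_singleton, mul_assoc]
    have h2 := cs.length_mul_le (cs.wordProd (altW i j m')) (cs.simple (altL i j m') * v)
    have h3 := cs.length_wordProd_le (altW i j m')
    rw [length_altW] at h3
    rw [← h1] at h2
    omega
  refine ⟨m' + 1, v, hm1, hv, hl, ?_⟩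
  unfold altL at ha hb
  by_cases he : Even m'
  · have he' : ¬ Even (m' + 1) := by simp [he, parity_simps]
    rw [if_neg he'] at ha
    rw [if_pos he] at hb
    exact ⟨ha, hb⟩
  · have he' : Even (m' + 1) := by simp [he, parity_simps]
    rw [if_pos he'] at ha
    rw [if_neg he] at hb
    exact ⟨hb, ha⟩

/-- Mirror image of the argument in `R61.geob_aux` (apply it to `w⁻¹`, or redo it on the left). -/
theorem decomp_left {w : W} {i : B} (h : cs.length w < cs.length (cs.simple i * w)) (hw : w ≠ 1) :
    ∃ (j : B) (r : ℕ) (w' : W), j ≠ i ∧ 1 ≤ r ∧ w = cs.wordProd (altW i j r) * w' ∧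
      cs.length w = r + cs.length w' ∧ cs.length w' < cs.length (cs.simple i * w') ∧
      cs.length w' < cs.length (cs.simple j * w') ∧ (M i j = 0 ∨ r < M i j) := by
  obtain ⟨j, hj⟩ := cs.exists_leftDescent_of_ne_one hw
  have hj' : cs.length (cs.simple j * w) < cs.length w := hj
  have hij : i ≠ j := by
    rintro rfl
    omega
  obtain ⟨r, w', hr, e, hl, h1, h2⟩ := cox_left cs (i := i) hj'
  refine ⟨j, r, w', hij.symm, hr, e, hl, h1, h2, ?_⟩
  have hred : cs.IsReduced (altW j i (r + 1)) := by
    have e' : cs.simple i * w = cs.wordProd (altW j i (r + 1)) * w' := by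
      rw [altW_succ', cs.wordProd_cons, mul_assoc, ← e]
    have h3 := cs.length_mul_le (cs.wordProd (altW j i (r + 1))) w'
    have h4 := cs.length_wordProd_le (altW j i (r + 1))
    rw [← e'] at h3
    unfold CoxeterSystem.IsReduced
    rw [length_altW] at h4 ⊢
    omega
  by_contra hcon
  rw [not_or, not_lt] at hcon
  have := hred.reverse
  rw [cox_reverse_altW] at this
  refine cs.not_isReduced_alternatingWord j i (m := r + 1) ?_ ?_ this
  · rw [M.symmetric j i]
    exact hcon.1
  · rw [M.symmetric j i]
    exact Nat.lt_succ_of_le hcon.2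

/-- Two left descents.  Take the largest `r` with `w = π (altW i j r) w'`, lengths adding up; then
`i`, `j` are not left descents of `w'`, `r ≤ M i j` if `M i j ≠ 0` (the word is reduced), and if
`M i j = 0 ∨ r < M i j` then `rho w⁻¹ (al i) ≥ 0` by `alt_nonneg`, so `i` is no left descent of `w`. -/
theorem decomp_two {w : W} {i j : B} (hij : i ≠ j)
    (hi : cs.length (cs.simple i * w) < cs.length w)
    (hj : cs.length (cs.simple j * w) < cs.length w) :
    M i j ≠ 0 ∧ ∃ w' : W, w = cs.wordProd (altW i j (M i j)) * w' ∧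
      w = cs.wordProd (altW j i (M i j)) * w' ∧ cs.length w = M i j + cs.length w' := by
  obtain ⟨r, w', hr, e, hl, h1, h2⟩ := cox_left cs (i := i) hj
  have hinv : ∀ (u : W) (k : B), cs.length (u⁻¹ * cs.simple k) = cs.length (cs.simple k * u) := by
    intro u k
    rw [← cs.length_inv, mul_inv_rev, inv_inv, cs.inv_simple]
  have hM : ¬ (M i j = 0 ∨ r < M i j) := by
    intro hM
    obtain ⟨a, b, ha0, hb0, hab⟩ := alt_nonneg M hij r hM
    have p1 := rho_al_nonneg cs w'⁻¹ i (by rw [hinv, cs.length_inv]; exact h1)
    have p2 := rho_al_nonneg cs w'⁻¹ j (by rw [hinv, cs.length_inv]; exact h2)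
    have p3 : 0 ≤ rho cs w⁻¹ (al i) := by
      rw [e, mul_inv_rev, ← cs.wordProd_reverse, cox_reverse_altW, geob_rho_mul, rho_wordProd, hab,
        map_add, map_smul, map_smul]
      exact add_nonneg (smul_nonneg ha0 p1) (smul_nonneg hb0 p2)
    have p4 := rep_neg cs (w := w⁻¹) (i := i) (by rw [hinv, cs.length_inv]; exact hi)
    refine rep_single_ne_zero cs w⁻¹ i (le_antisymm p4 fun k => ?_)
    have := p3 (Sum.inl k)
    rw [← cox_emb_single, ← cox_emb_rep, cox_emb_inl] at this
    exact this
  rw [not_or, not_lt] at hM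
  have hred : cs.IsReduced (altW i j r) := by
    have h3 := cs.length_mul_le (cs.wordProd (altW i j r)) w'
    have h4 := cs.length_wordProd_le (altW i j r)
    rw [← e] at h3
    unfold CoxeterSystem.IsReduced
    rw [length_altW] at h4 ⊢
    omega
  have hrM : r = M i j := by
    by_contra hne
    have := hred.reverse
    rw [cox_reverse_altW] at this
    exact cs.not_isReduced_alternatingWord i j (m := r) hM.1 (lt_of_le_of_ne hM.2 (Ne.symm hne)) this
  subst hrM
  refine ⟨hM.1, w', e, ?_, hl⟩
  have hb : cs.wordProd (altW j i (M i j)) = cs.wordProd (altW i j (M i j)) := by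
    apply inv_injective
    rw [← cs.wordProd_reverse, ← cs.wordProd_reverse, cox_reverse_altW, cox_reverse_altW]
    have := cs.wordProd_braidWord_eq i j
    unfold braidWord at this
    rw [M.symmetric j i] at this
    exact this.symm
  rw [hb]
  exact e

end Crest.Agent.R175
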