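import Crest.Agent.R175.Cox

/-!
# R175: Matsumoto's theorem, finite Coxeter groups, the Garside element.
-/

set_option autoImplicit false

namespace Crest.Agent.R175

open CoxeterSystem Crest.Agent.R61

variable {B W : Type} [Fintype B] [DecidableEq B] [Group W] {M : CoxeterMatrix B}
  (cs : CoxeterSystem M W)

/-- the braid relations -/
def BraidRel (M : CoxeterMatrix B) {G : Type*} [Monoid G] (f : B → G) : Prop :=
  ∀ i j, i ≠ j → M i j ≠ 0 → ((altW i j (M i j)).map f).prod = ((altW j i (M i j)).map f).prod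

/-- Matsumoto: induction on the length; for different first letters use `decomp_two` and a reduced
word of `w'`. -/
theorem matsumoto {G : Type*} [Monoid G] {f : B → G} (hf : BraidRel M f) {ω ω' : List B}
    (h : cs.IsReduced ω) (h' : cs.IsReduced ω') (e : cs.wordProd ω = cs.wordProd ω') :
    (ω.map f).prod = (ω'.map f).prod := by
  have tail : ∀ {i : B} {τ : List B}, cs.IsReduced (i :: τ) → cs.IsReduced τ := fun h => by
    simpa using h.drop 1
  induction hn : ω.length using Nat.strong_induction_on generalizing ω ω' with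
  | _ n ih =>
  have hl : ω.length = ω'.length := by rw [← h.eq, ← h'.eq, e]
  rcases ω with _ | ⟨j, τ⟩
  · rw [List.length_nil, eq_comm, List.length_eq_zero_iff] at hl
    rw [hl]
  rcases ω' with _ | ⟨i, τ'⟩
  · simp at hl
  simp only [List.length_cons] at hn hl
  by_cases hij : i = j
  · subst hij
    rw [cs.wordProd_cons, cs.wordProd_cons] at e
    simp only [List.map_cons, List.prod_cons]
    rw [ih τ.length (by omega) (tail h) (tail h') (mul_left_cancel e) rfl]
  have hw := h.eq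
  have d1 : cs.length (cs.simple j * cs.wordProd (j :: τ)) < cs.length (cs.wordProd (j :: τ)) := by
    rw [hw, cs.wordProd_cons, cs.simple_mul_simple_cancel_left, (tail h).eq]
    simp
  have d2 : cs.length (cs.simple i * cs.wordProd (j :: τ)) < cs.length (cs.wordProd (j :: τ)) := by
    rw [hw, e, cs.wordProd_cons, cs.simple_mul_simple_cancel_left, (tail h').eq]
    simp only [List.length_cons]
    omega
  obtain ⟨hM, w', e1, e2, hl'⟩ := decomp_two cs hij d2 d1
  obtain ⟨σ, hσ, rfl⟩ := cs.exists_isReduced w'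
  have hb := hf i j hij hM
  obtain ⟨k, hk⟩ : ∃ k, M i j = k + 1 := ⟨M i j - 1, by omega⟩
  rw [hk] at e1 e2 hl' hb
  rw [hw, hσ.eq] at hl'
  simp only [List.length_cons] at hl'
  have key : ∀ {a b : B} {τ : List B}, cs.IsReduced (a :: τ) → τ.length + 1 = n →
      cs.wordProd (a :: τ) = cs.wordProd (altW b a (k + 1)) * cs.wordProd σ →
      ((a :: τ).map f).prod = ((altW b a (k + 1)).map f).prod * (σ.map f).prod := by
    intro a b τ hτ hτn e3
    rw [altW_succ', cs.wordProd_cons, cs.wordProd_cons, mul_assoc, ← cs.wordProd_append] at e3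
    have e4 := mul_left_cancel e3
    have r : cs.IsReduced (altW a b k ++ σ) := by
      unfold CoxeterSystem.IsReduced
      rw [← e4, (tail hτ).eq, List.length_append, length_altW]
      omega
    rw [altW_succ', List.map_cons, List.map_cons, List.prod_cons, List.prod_cons,
      ih τ.length (by omega) (tail hτ) r e4 rfl, List.map_append, List.prod_append, mul_assoc]
  rw [key h hn e1, key h' (by omega) (e.symm.trans e2), hb]

/-- the lift of `w` along a reduced word -/
noncomputable def lft {G : Type*} [Monoid G] (f : B → G) (w : W) : G :=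
  ((cs.exists_isReduced w).choose.map f).prod

section lift
variable {G : Type*} [Group G] {f : B → G}

theorem lft_wordProd (hf : BraidRel M f) {ω : List B} (h : cs.IsReduced ω) :
    lft cs f (cs.wordProd ω) = (ω.map f).prod := by
  have h0 := (cs.exists_isReduced (cs.wordProd ω)).choose_spec
  exact matsumoto cs hf h0.1 h h0.2.symm

theorem lft_one : lft cs f 1 = 1 := by
  have h0 := (cs.exists_isReduced (1 : W)).choose_spec
  have h1 := h0.1.eq
  rw [← h0.2, cs.length_one, eq_comm, List.length_eq_zero_iff] at h1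
  unfold lft
  rw [h1]
  rfl

theorem lft_mul (hf : BraidRel M f) {u w : W}
    (h : cs.length (u * w) = cs.length u + cs.length w) :
    lft cs f (u * w) = lft cs f u * lft cs f w := by
  obtain ⟨σ, hσ, rfl⟩ := cs.exists_isReduced u
  obtain ⟨τ, hτ, rfl⟩ := cs.exists_isReduced w
  have r : cs.IsReduced (σ ++ τ) := by
    unfold CoxeterSystem.IsReduced
    rw [cs.wordProd_append, h, hσ.eq, hτ.eq, List.length_append]
  rw [← cs.wordProd_append, lft_wordProd cs hf r, lft_wordProd cs hf hσ, lft_wordProd cs hf hτ,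
    List.map_append, List.prod_append]

theorem lft_simple (hf : BraidRel M f) (i : B) : lft cs f (cs.simple i) = f i := by
  have r : cs.IsReduced [i] := by
    unfold CoxeterSystem.IsReduced
    simp
  rw [← cs.wordProd_singleton, lft_wordProd cs hf r]
  simp

theorem lft_mul_simple (hf : BraidRel M f) {w : W} {i : B}
    (h : cs.length w < cs.length (w * cs.simple i)) :
    lft cs f (w * cs.simple i) = lft cs f w * f i := by
  rw [lft_mul cs hf, lft_simple cs hf]
  rw [cs.length_simple]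
  rcases cs.length_mul_simple w i with h1 | h1 <;> omega

theorem lft_simple_mul (hf : BraidRel M f) {w : W} {i : B}
    (h : cs.length w < cs.length (cs.simple i * w)) :
    lft cs f (cs.simple i * w) = f i * lft cs f w := by
  rw [lft_mul cs hf, lft_simple cs hf]
  rw [cs.length_simple]
  rcases cs.length_simple_mul w i with h1 | h1 <;> omega

theorem lft_mem (w : W) : lft cs f w ∈ Submonoid.closure (Set.range f) := by
  unfold lft
  refine Submonoid.list_prod_mem _ fun x hx => ?_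
  obtain ⟨i, -, rfl⟩ := List.mem_map.1 hx
  exact Submonoid.subset_closure ⟨i, rfl⟩

end lift

omit [Fintype B] [DecidableEq B] in
theorem cox2_kk_nonpos {i j : B} (hij : i ≠ j) : kk M i j ≤ 0 := by
  have h := geoa_a_nonneg M hij 2 (by
    by_cases h0 : M i j = 0
    · exact Or.inl h0
    · exact Or.inr (geoa_two_le M hij h0))
  simp only [geoa_a, mul_one, sub_zero] at h
  linarith

omit [Fintype B] [DecidableEq B] in
theorem cox2_abs_kk (i j : B) : |kk M i j| ≤ 2 := by
  unfold kk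
  rw [abs_mul, abs_neg, abs_two]
  have := Real.abs_cos_le_one (Real.pi / (M i j : ℝ))
  linarith

theorem cox2_form_ge {γ : B → ℝ} (h0 : ∀ i, 0 < γ i) (v : B → ℝ) :
    ∑ i, v i ^ 2 * ((∑ j, kk M i j * γ j) / γ i) ≤ ∑ i, ∑ j, kk M i j * v i * v j := by
  have e1 : ∑ i, v i ^ 2 * ((∑ j, kk M i j * γ j) / γ i) =
      ∑ i, ∑ j, kk M i j * γ i * γ j * (v i / γ i) ^ 2 := by
    refine Finset.sum_congr rfl fun i _ => ?_
    rw [Finset.sum_div, Finset.mul_sum]
    refine Finset.sum_congr rfl fun j _ => ?_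
    have := (h0 i).ne'
    field_simp
  have e2 : ∑ i, ∑ j, kk M i j * γ i * γ j * (v i / γ i) ^ 2 =
      ∑ i, ∑ j, kk M i j * γ i * γ j * (v j / γ j) ^ 2 := by
    rw [Finset.sum_comm]
    refine Finset.sum_congr rfl fun i _ => Finset.sum_congr rfl fun j _ => ?_
    rw [kk_symm M j i]
    ring
  have h : ∑ i, ∑ j, kk M i j * γ i * γ j * (v i / γ i) ^ 2 +
      ∑ i, ∑ j, kk M i j * γ i * γ j * (v j / γ j) ^ 2 ≤ 2 * ∑ i, ∑ j, kk M i j * v i * v j := by
    rw [Finset.mul_sum, ← Finset.sum_add_distrib]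
    refine Finset.sum_le_sum fun i _ => ?_
    rw [Finset.mul_sum, ← Finset.sum_add_distrib]
    refine Finset.sum_le_sum fun j _ => ?_
    have hi := h0 i
    have hj := h0 j
    have e : 2 * (kk M i j * v i * v j) - (kk M i j * γ i * γ j * (v i / γ i) ^ 2 +
        kk M i j * γ i * γ j * (v j / γ j) ^ 2) =
        -kk M i j * (γ i * γ j * (v i / γ i - v j / γ j) ^ 2) := by
      field_simp
      ring
    rw [← sub_nonneg, e]
    by_cases hij : i = j
    · subst hij
      simp
    · exact mul_nonneg (neg_nonneg.2 (cox2_kk_nonpos hij)) (by positivity)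
  rw [e1]
  linarith

/-- The form `(u, v) = ∑ kk i j u i v j` is positive definite:
for `v = γ u`, `(v, v) = ∑ i, u i ^ 2 γ i (kk γ) i + ½ ∑ i ≠ j, (-kk i j) γ i γ j (u i - u j) ^ 2`
(`kk i j ≤ 0` for `i ≠ j`). -/
theorem form_posDef {γ : B → ℝ} (h0 : ∀ i, 0 < γ i) (h1 : ∀ i, 0 < ∑ j, kk M i j * γ j)
    (v : B → ℝ) (hv : v ≠ 0) : 0 < ∑ i, ∑ j, kk M i j * v i * v j := by
  refine lt_of_lt_of_le ?_ (cox2_form_ge h0 v)
  obtain ⟨k, hk⟩ := Function.ne_iff.1 hv
  refine Finset.sum_pos' (fun i _ => mul_nonneg (sq_nonneg _) (div_pos (h1 i) (h0 i)).le)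
    ⟨k, Finset.mem_univ _, mul_pos ?_ (div_pos (h1 k) (h0 k))⟩
  exact pow_pos (abs_pos.2 hk) 2 |>.trans_eq (sq_abs _)

include cs in
/-- Put `c i = (γ, α_i) > 0`, `c₀ = min c`.  For a positive root `β = ∑ b i α_i`, `(β, β) = 2` and
`(β, α_i) ≤ 2` (Cauchy-Schwarz) give `∑ b i ≥ 1`, so `(γ, β) ≥ c₀`.  For `w ≠ 1` with left descent `i`:
`(w γ - γ, α_i) ≤ -2 c₀`, so `(wγ - γ, wγ - γ) ≥ 2 c₀²`.  The orbit of `γ` is a separated subset of a
bounded set in a finite dimensional space, hence finite, and `w ↦ w γ` is injective. -/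
theorem finite_of_pos {γ : B → ℝ} (h0 : ∀ i, 0 < γ i) (h1 : ∀ i, 0 < ∑ j, kk M i j * γ j) :
    Finite W := by
  have hmin : ∀ a : B → ℝ, (∀ i, 0 < a i) → ∃ c : ℝ, 0 < c ∧ ∀ i, c ≤ a i := by
    intro a ha
    rcases isEmpty_or_nonempty B with hB | hB
    · exact ⟨1, one_pos, fun i => isEmptyElim i⟩
    · obtain ⟨i, hi⟩ := Finite.exists_min a
      exact ⟨a i, ha i, hi⟩
  obtain ⟨l, hl0, hl⟩ := hmin (fun i => (∑ j, kk M i j * γ j) / γ i) fun i => div_pos (h1 i) (h0 i)
  obtain ⟨c, hc0, hc⟩ := hmin _ h1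
  set Q : (B → ℝ) → ℝ := fun v => ∑ i, ∑ j, kk M i j * v i * v j with hQ
  have hlow : ∀ v : B → ℝ, l * ‖v‖ ^ 2 ≤ Q v := by
    intro v
    have hk : ∀ k, l * v k ^ 2 ≤ Q v := by
      intro k
      refine le_trans ?_ (cox2_form_ge h0 v)
      refine le_trans ?_ (Finset.single_le_sum (f := fun i => v i ^ 2 * ((∑ j, kk M i j * γ j) / γ i))
        (fun i _ => mul_nonneg (sq_nonneg _) (div_pos (h1 i) (h0 i)).le) (Finset.mem_univ k))
      rw [mul_comm]
      exact mul_le_mul_of_nonneg_left (hl k) (sq_nonneg _)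
    have hQ0 : 0 ≤ Q v := le_trans (Finset.sum_nonneg fun i _ =>
      mul_nonneg (sq_nonneg _) (div_pos (h1 i) (h0 i)).le) (cox2_form_ge h0 v)
    have h2 : ‖v‖ ≤ √(Q v / l) := by
      refine (pi_norm_le_iff_of_nonneg (Real.sqrt_nonneg _)).2 fun k => ?_
      rw [Real.norm_eq_abs]
      refine Real.abs_le_sqrt ?_
      rw [le_div_iff₀ hl0, mul_comm]
      exact hk k
    have h3 : ‖v‖ ^ 2 ≤ Q v / l := by
      rw [← Real.sq_sqrt (div_nonneg hQ0 hl0.le)]
      gcongr
    rwa [le_div_iff₀ hl0, mul_comm] at h3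
  set n : ℝ := Fintype.card B + 1 with hn
  have hn0 : 0 < n := by positivity
  have hup : ∀ v : B → ℝ, Q v ≤ 2 * n ^ 2 * ‖v‖ ^ 2 := by
    intro v
    have : Q v ≤ ∑ _i : B, ∑ _j : B, 2 * ‖v‖ ^ 2 := by
      refine Finset.sum_le_sum fun i _ => Finset.sum_le_sum fun j _ => ?_
      refine (le_abs_self _).trans ?_
      rw [abs_mul, abs_mul, sq, ← mul_assoc]
      have a1 : |v i| ≤ ‖v‖ := norm_le_pi_norm v i
      have a2 : |v j| ≤ ‖v‖ := norm_le_pi_norm v j
      have a3 := cox2_abs_kk (M := M) i j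
      gcongr
    simp only [Finset.sum_const, Finset.card_univ, nsmul_eq_mul] at this
    refine this.trans ?_
    have h2 : (Fintype.card B : ℝ) ≤ n := by linarith
    calc (Fintype.card B : ℝ) * (Fintype.card B * (2 * ‖v‖ ^ 2)) ≤ n * (n * (2 * ‖v‖ ^ 2)) := by gcongr
      _ = _ := by ring
  have hinv : ∀ (w : W) (v : B → ℝ), Q (rep cs w v) = Q v := fun w v => rep_form cs w v v
  have hsep : ∀ w : W, w ≠ 1 → c ≤ 2 * n * ‖rep cs w γ - γ‖ := by
    intro w hw
    obtain ⟨i, hi⟩ := cs.exists_leftDescent_of_ne_one hw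
    have hi' : cs.length (w⁻¹ * cs.simple i) < cs.length w⁻¹ := by
      rw [← cs.length_inv, mul_inv_rev, inv_inv, cs.inv_simple, cs.length_inv]
      exact hi
    have p1 := rep_neg cs hi'
    have p2 := rep_form cs w (rep cs w⁻¹ (Pi.single i 1)) γ
    rw [← cox_rep_mul, mul_inv_cancel, map_one, Module.End.one_apply] at p2
    have e1 : ∑ a, ∑ j, kk M a j * (Pi.single i 1 : B → ℝ) a * rep cs w γ j =
        ∑ j, kk M i j * rep cs w γ j := by
      rw [Finset.sum_comm]
      refine Finset.sum_congr rfl fun j _ => ?_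
      simp [Pi.single_apply]
    have p3 : ∑ a, ∑ j, kk M a j * rep cs w⁻¹ (Pi.single i 1) a * γ j ≤ 0 := by
      refine Finset.sum_nonpos fun a _ => ?_
      have : ∑ j, kk M a j * rep cs w⁻¹ (Pi.single i 1) a * γ j =
          rep cs w⁻¹ (Pi.single i 1) a * ∑ j, kk M a j * γ j := by
        rw [Finset.mul_sum]
        exact Finset.sum_congr rfl fun j _ => by ring
      rw [this]
      exact mul_nonpos_of_nonpos_of_nonneg (p1 a) (h1 a).le
    rw [e1] at p2
    have p4 : ∑ j, kk M i j * γ j - ∑ j, kk M i j * rep cs w γ j ≤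
        ∑ _j : B, 2 * ‖rep cs w γ - γ‖ := by
      rw [← Finset.sum_sub_distrib]
      refine Finset.sum_le_sum fun j _ => ?_
      rw [← mul_sub]
      refine (le_abs_self _).trans ?_
      rw [abs_mul, abs_sub_comm]
      have a1 : |rep cs w γ j - γ j| ≤ ‖rep cs w γ - γ‖ := norm_le_pi_norm (rep cs w γ - γ) j
      have a3 := cox2_abs_kk (M := M) i j
      gcongr
    simp only [Finset.sum_const, Finset.card_univ, nsmul_eq_mul] at p4
    have h2 : (Fintype.card B : ℝ) ≤ n := by linarith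
    have h3 := hc i
    have h4 : (Fintype.card B : ℝ) * (2 * ‖rep cs w γ - γ‖) ≤ n * (2 * ‖rep cs w γ - γ‖) := by gcongr
    linarith
  obtain ⟨ε, hε0, hε⟩ : ∃ ε : ℝ, 0 < ε ∧ 2 * n ^ 2 * (2 * ε) ^ 2 ≤ l * (c / (2 * n)) ^ 2 := by
    refine ⟨√(l * (c / (2 * n)) ^ 2 / (8 * n ^ 2)), by positivity, le_of_eq ?_⟩
    rw [mul_pow, Real.sq_sqrt (by positivity)]
    field_simp
    ring
  have hb : ∀ w : W, rep cs w γ ∈ Metric.closedBall (0 : B → ℝ) √(Q γ / l) := by
    intro w
    rw [mem_closedBall_zero_iff]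
    refine Real.le_sqrt_of_sq_le ?_
    rw [le_div_iff₀ hl0, mul_comm, ← hinv w]
    exact hlow _
  obtain ⟨t, ht, hcov⟩ := Metric.totallyBounded_iff.1
    (isCompact_closedBall (0 : B → ℝ) √(Q γ / l)).totallyBounded ε hε0
  have hex : ∀ w : W, ∃ y : t, dist (rep cs w γ) y < ε := by
    intro w
    have := hcov (hb w)
    simp only [Set.mem_iUnion, Metric.mem_ball] at this
    obtain ⟨y, hy, h⟩ := this
    exact ⟨⟨y, hy⟩, h⟩
  choose g hg using hex
  haveI := ht.to_subtype
  refine Finite.of_injective g fun u w huw => ?_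
  by_contra hne
  have d1 : ‖rep cs w γ - rep cs u γ‖ < 2 * ε := by
    rw [← dist_eq_norm]
    have a1 := hg u
    have a2 := hg w
    rw [huw] at a1
    have := dist_triangle_right (rep cs w γ) (rep cs u γ) (g w)
    linarith
  have d2 := hsep (u⁻¹ * w) fun h => hne (inv_mul_eq_one.1 h)
  have d3 : Q (rep cs w γ - rep cs u γ) = Q (rep cs (u⁻¹ * w) γ - γ) := by
    rw [← hinv u (rep cs (u⁻¹ * w) γ - γ), map_sub, ← cox_rep_mul, mul_inv_cancel_left]
  have d4 := hup (rep cs w γ - rep cs u γ)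
  have d5 := hlow (rep cs (u⁻¹ * w) γ - γ)
  have d6 : c / (2 * n) ≤ ‖rep cs (u⁻¹ * w) γ - γ‖ := by
    rw [div_le_iff₀ (by positivity), mul_comm]
    exact d2
  have d7 : l * (c / (2 * n)) ^ 2 ≤ l * ‖rep cs (u⁻¹ * w) γ - γ‖ ^ 2 := by gcongr
  have d8 : 2 * n ^ 2 * ‖rep cs w γ - rep cs u γ‖ ^ 2 < 2 * n ^ 2 * (2 * ε) ^ 2 := by gcongr
  linarith

/-- Let `w₀` have maximal length; all `i` are right descents.  If `w` also has all right descents
then `w⁻¹ w₀` (or `w w₀⁻¹`) maps all simple roots to non-negative vectors, so it is `1`.  Downward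
induction on `ℓ w` gives the formula. -/
theorem exists_longest [Finite W] :
    ∃ w₀ : W, ∀ w, cs.length w + cs.length (w⁻¹ * w₀) = cs.length w₀ := by
  obtain ⟨w₀, hw₀⟩ := Finite.exists_max cs.length
  refine ⟨w₀, fun w => ?_⟩
  have hneg : ∀ j, rep cs w₀⁻¹ (Pi.single j 1) ≤ 0 := by
    intro j
    refine rep_neg cs ?_
    have := hw₀ (w₀⁻¹ * cs.simple j)
    rw [← cs.length_inv w₀] at this
    exact lt_of_le_of_ne this (cs.length_mul_simple_ne _ _)
  induction hn : cs.length w₀ - cs.length w using Nat.strong_induction_on generalizing w with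
  | _ n ih =>
  by_cases hw : ∃ i, cs.length w < cs.length (w * cs.simple i)
  · obtain ⟨i, hi⟩ := hw
    have h1 := hw₀ (w * cs.simple i)
    have h2 := ih _ (by omega) (w * cs.simple i) rfl
    rw [mul_inv_rev, cs.inv_simple, mul_assoc] at h2
    have h3 := cs.length_mul_le w (w⁻¹ * w₀)
    rw [mul_inv_cancel_left] at h3
    rcases cs.length_mul_simple w i with h4 | h4 <;>
      rcases cs.length_simple_mul (w⁻¹ * w₀) i with h5 | h5 <;> omega
  · have hall : ∀ i, rep cs w (Pi.single i 1) ≤ 0 := fun i =>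
      rep_neg cs (lt_of_le_of_ne (not_lt.1 fun h => hw ⟨i, h⟩) (cs.length_mul_simple_ne _ _))
    have h1 : w * w₀⁻¹ = 1 := by
      by_contra hne
      obtain ⟨j, hj⟩ := cs.exists_rightDescent_of_ne_one hne
      refine rep_single_ne_zero cs (w * w₀⁻¹) j (le_antisymm (rep_neg cs hj) ?_)
      rw [cox_rep_mul, pi_eq_sum_univ' (rep cs w₀⁻¹ (Pi.single j 1)), map_sum]
      refine Finset.sum_nonneg fun i _ => ?_
      rw [map_smul]
      exact smul_nonneg_of_nonpos_of_nonpos (hneg j i) (hall i)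
    rw [mul_inv_eq_one] at h1
    subst h1
    simp

include cs in
/-- `Δ = lft w₀`.  `w₀ = w₀⁻¹`, `ℓ (w₀ s w₀) = 1`, so `w₀ s_i = s_{σ i} w₀` for a permutation `σ`;
with `y = lft (w₀ s_i)`: `Δ = y f i = f (σ i) y`, hence `Δ f i = f (σ i) Δ`.  Every `f i` is
`p⁻¹ Δ` and every `(f i)⁻¹` is `p⁻¹ Δ ^ 0`; these elements are closed under products. -/
theorem exists_garside [Finite W] {G : Type*} [Group G] {f : B → G} (hf : BraidRel M f) :
    ∃ Δ ∈ Submonoid.closure (Set.range f),
      (∀ p ∈ Submonoid.closure (Set.range f), Δ * p * Δ⁻¹ ∈ Submonoid.closure (Set.range f) ∧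
        Δ⁻¹ * p * Δ ∈ Submonoid.closure (Set.range f)) ∧
      ∀ g ∈ Subgroup.closure (Set.range f), ∃ n : ℕ, ∃ p ∈ Submonoid.closure (Set.range f),
        g = p⁻¹ * Δ ^ n := by
  obtain ⟨w₀, hw₀⟩ := exists_longest cs
  have hsq : w₀ * w₀ = 1 := by
    have := hw₀ w₀⁻¹
    rw [cs.length_inv, inv_inv] at this
    exact cs.length_eq_zero_iff.1 (by omega)
  have hinv : w₀⁻¹ = w₀ := inv_eq_of_mul_eq_one_right hsq
  have h1 : ∀ i, cs.length (w₀ * cs.simple i) + 1 = cs.length w₀ := by
    intro i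
    have := hw₀ (w₀ * cs.simple i)
    rwa [mul_inv_rev, cs.inv_simple, mul_assoc, inv_mul_cancel, mul_one, cs.length_simple] at this
  have h2 : ∀ i, ∃ j, w₀ * cs.simple i * w₀ = cs.simple j := by
    intro i
    have a1 := hw₀ (cs.simple i * w₀)
    have a2 := h1 i
    rw [← cs.length_inv, mul_inv_rev, cs.inv_simple, hinv] at a1
    exact cs.length_eq_one_iff.1 (by omega)
  set Δ := lft cs f w₀ with hΔ
  have h3 : ∀ i, Δ = lft cs f (w₀ * cs.simple i) * f i := by
    intro i
    rw [← lft_mul_simple cs hf, cs.simple_mul_simple_cancel_right]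
    rw [cs.simple_mul_simple_cancel_right]
    have := h1 i
    omega
  have h4 : ∀ i j, w₀ * cs.simple i * w₀ = cs.simple j → Δ * f i = f j * Δ := by
    intro i j e
    have e1 : cs.simple j * (w₀ * cs.simple i) = w₀ := by
      rw [← e, mul_assoc, ← mul_assoc w₀ w₀, hsq, one_mul, cs.simple_mul_simple_cancel_right]
    have e2 : Δ = f j * lft cs f (w₀ * cs.simple i) := by
      rw [← lft_simple_mul cs hf, e1]
      rw [e1]
      have := h1 i
      omega
    conv_lhs => rw [e2]
    rw [mul_assoc, ← h3 i]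
  have h5 : ∀ p ∈ Submonoid.closure (Set.range f), Δ * p * Δ⁻¹ ∈ Submonoid.closure (Set.range f) ∧
      Δ⁻¹ * p * Δ ∈ Submonoid.closure (Set.range f) := by
    intro p hp
    induction hp using Submonoid.closure_induction with
    | mem x hx =>
      obtain ⟨i, rfl⟩ := hx
      obtain ⟨j, hj⟩ := h2 i
      have hj' : w₀ * cs.simple j * w₀ = cs.simple i := by
        rw [← hj, ← mul_assoc, ← mul_assoc, hsq, one_mul, mul_assoc, hsq, mul_one]
      constructor
      · rw [h4 i j hj, mul_inv_cancel_right]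
        exact Submonoid.subset_closure ⟨j, rfl⟩
      · rw [mul_assoc, ← h4 j i hj', inv_mul_cancel_left]
        exact Submonoid.subset_closure ⟨j, rfl⟩
    | one => simp
    | mul x y _ _ hx hy =>
      constructor
      · have : Δ * (x * y) * Δ⁻¹ = (Δ * x * Δ⁻¹) * (Δ * y * Δ⁻¹) := by group
        rw [this]
        exact mul_mem hx.1 hy.1
      · have : Δ⁻¹ * (x * y) * Δ = (Δ⁻¹ * x * Δ) * (Δ⁻¹ * y * Δ) := by group
        rw [this]
        exact mul_mem hx.2 hy.2
  have h6 : ∀ (n : ℕ), ∀ p ∈ Submonoid.closure (Set.range f),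
      Δ ^ n * p * (Δ ^ n)⁻¹ ∈ Submonoid.closure (Set.range f) := by
    intro n
    induction n with
    | zero => intro p hp; simpa using hp
    | succ n ih =>
      intro p hp
      have : Δ ^ (n + 1) * p * (Δ ^ (n + 1))⁻¹ = Δ ^ n * (Δ * p * Δ⁻¹) * (Δ ^ n)⁻¹ := by
        rw [pow_succ]; group
      rw [this]
      exact ih _ (h5 p hp).1
  refine ⟨Δ, lft_mem cs w₀, h5, fun g hg => ?_⟩
  induction hg using Subgroup.closure_induction'' with
  | mem x hx =>
    obtain ⟨i, rfl⟩ := hx
    exact ⟨1, _, lft_mem cs (w₀ * cs.simple i), by rw [pow_one, h3 i, inv_mul_cancel_left]⟩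
  | inv_mem x hx => exact ⟨0, x, Submonoid.subset_closure hx, by simp⟩
  | one => exact ⟨0, 1, one_mem _, by simp⟩
  | mul x y _ _ hx hy =>
    obtain ⟨n, p, hp, rfl⟩ := hx
    obtain ⟨k, q, hq, rfl⟩ := hy
    refine ⟨n + k, Δ ^ n * q * (Δ ^ n)⁻¹ * p, mul_mem (h6 n q hq) hp, ?_⟩
    rw [pow_add]
    group

end Crest.Agent.R175
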