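import Crest.Agent.R175.Theta

/-!
# R175: duality.
-/

set_option autoImplicit false

namespace Crest.Agent.R175

open Matrix

variable {Q : Qv}

/-- the dual graded set -/
def dualGr (F : Gr Q) : Gr Q where
  ι := F.ι
  vtx := F.vtx
  deg i := -F.deg i

/-- the dual of a matrix -/
def dualM {α β : Type} (f : Matrix α β (Z Q)) : Matrix β α (Z Q) := fᵀ.map (Z.barZ Q)

theorem dualM_mul {α β γ : Type} [Fintype β] (g : Matrix α β (Z Q)) (f : Matrix β γ (Z Q)) :
    dualM (g * f) = dualM f * dualM g := by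
  unfold dualM
  rw [transpose_mul, Matrix.map_mul]

theorem dualM_dualM {α β : Type} (f : Matrix α β (Z Q)) : dualM (dualM f) = f := by
  funext i j
  ext a <;> simp [dualM]

theorem dualM_zero {α β : Type} : dualM (0 : Matrix α β (Z Q)) = 0 := by
  funext i j
  simp [dualM]

theorem dualM_apply {α β : Type} (f : Matrix α β (Z Q)) (j : β) (i : α) :
    dualM f j i = Z.barZ Q (f i j) := rfl

theorem dualM_sub {α β : Type} (f g : Matrix α β (Z Q)) : dualM (f - g) = dualM f - dualM g := by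
  funext i j
  simp [dualM]

theorem dualM_smul {α β : Type} (r : ℝ) (f : Matrix α β (Z Q)) : dualM (r • f) = r • dualM f := by
  funext i j
  ext a <;> simp [dualM]

theorem dualM_one {α : Type} [DecidableEq α] : dualM (1 : Matrix α α (Z Q)) = 1 := by
  unfold dualM
  rw [transpose_one, Matrix.map_one _ (map_zero _) (map_one _)]

theorem IsHom.dual {F G : Gr Q} {p : ℤ} {f : Mor F G} (h : IsHom F G p f) :
    IsHom (dualGr G) (dualGr F) p (dualM f) := by
  intro i j
  obtain ⟨h0, h1, h2⟩ := h j i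
  refine ⟨fun e => ?_, fun a e => ?_, fun e => ?_⟩
  · obtain ⟨a1, a2⟩ := h0 e
    exact ⟨a1.symm, by dsimp only [dualGr]; omega⟩
  · obtain ⟨a1, a2, a3⟩ := h1 (Q.bar a) e
    rw [Qv.src_bar'] at a1
    rw [Qv.tgt_bar] at a2
    exact ⟨a2, a1, by dsimp only [dualGr]; omega⟩
  · obtain ⟨a1, a2⟩ := h2 e
    exact ⟨a1.symm, by dsimp only [dualGr]; omega⟩

/-- the dual object -/
def dual (F : Obj Q) : Obj Q where
  toGr := dualGr F.toGr
  δ := dualM F.δ
  hom := F.hom.dual
  sq := by
    have := dualM_mul F.δ F.δ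
    rw [F.sq, dualM_zero] at this
    exact this.symm

variable {F G : Obj Q} {p : ℤ}

theorem dual_Dd (f : Mor F.toGr G.toGr) :
    Dd (dual G) (dual F) p (dualM f) = (-sg p) • dualM (Dd F G p f) := by
  have e : dualM F.δ * dualM f - sg p • (dualM f * dualM G.δ) =
      (-sg p) • dualM (G.δ * f - sg p • (f * F.δ)) := by
    rw [dualM_sub, dualM_smul, dualM_mul, dualM_mul, smul_sub, smul_smul, neg_mul, sg_mul_self,
      neg_smul, neg_smul, one_smul]
    abel
  exact e

/-- `Dd (dual G) (dual F) p (dualM f) = -sg p • dualM (Dd F G p f)` -/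
theorem Closed.dual {f : Mor F.toGr G.toGr} (h : Closed F G p f) :
    Closed (dual G) (dual F) p (dualM f) := by
  refine ⟨h.hom.dual, ?_⟩
  have e : (-sg p) • dualM (0 : Matrix G.ι F.ι (Z Q)) = 0 := by rw [dualM_zero, smul_zero]
  rw [dual_Dd, h.cl]
  exact e

theorem Exact.dual {f : Mor F.toGr G.toGr} (h : Exact F G p f) :
    Exact (dual G) (dual F) p (dualM f) := by
  obtain ⟨g, hg, rfl⟩ := h
  refine ⟨dualM ((-sg (p - 1)) • g), (hg.smul _).dual, ?_⟩
  rw [dual_Dd, Dd_smul, dualM_smul]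
  have e : ∀ x : Matrix F.ι G.ι (Z Q), x = (-sg (p - 1)) • (-sg (p - 1)) • x := fun x => by
    rw [smul_smul, neg_mul_neg, sg_mul_self, one_smul]
  exact e _

theorem HE.dual (h : HE F G) : HE (dual F) (dual G) := by
  obtain ⟨f, hf, g, hg, h1, h2⟩ := h
  refine ⟨dualM g, hg.dual, dualM f, hf.dual, ?_, ?_⟩
  · have e : dualM (g * f - 1) = dualM f * dualM g - 1 := by rw [dualM_sub, dualM_mul, dualM_one]
    exact (congrArg (Exact (R175.dual F) (R175.dual F) 0) e).mp h1.dual
  · have e : dualM (f * g - 1) = dualM g * dualM f - 1 := by rw [dualM_sub, dualM_mul, dualM_one]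
    exact (congrArg (Exact (R175.dual G) (R175.dual G) 0) e).mp h2.dual

theorem dual_dual_he (F : Obj Q) : HE (dual (dual F)) F :=
  HE.of_equiv (Equiv.refl _) (fun _ => rfl) (fun _ => (neg_neg _).symm)
    fun j i => (congrFun (congrFun (dualM_dualM F.δ) j) i).symm

theorem dual_isHom_iff {f : Mor F.toGr G.toGr} :
    IsHom (dual (dual F)).toGr (dual (dual G)).toGr p f ↔ IsHom F.toGr G.toGr p f :=
  forall_congr' fun j => forall_congr' fun i =>
    ⟨fun h => Ok.of_eq h (by dsimp only [dual, dualGr]; omega),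
      fun h => Ok.of_eq h (by dsimp only [dual, dualGr]; omega)⟩

theorem dual_dual_Dd (f : Mor F.toGr G.toGr) :
    Dd (dual (dual F)) (dual (dual G)) p f = Dd F G p f := by
  have e : dualM (dualM G.δ) * f - sg p • (f * dualM (dualM F.δ)) = G.δ * f - sg p • (f * F.δ) := by
    rw [dualM_dualM, dualM_dualM]
  exact e

theorem Closed.of_dual {f : Mor (R175.dual G).toGr (R175.dual F).toGr}
    (h : Closed (R175.dual G) (R175.dual F) p f) : Closed F G p (dualM f) :=
  ⟨dual_isHom_iff.1 h.dual.hom, (dual_dual_Dd _).symm.trans h.dual.cl⟩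

theorem HomZero.dual (h : HomZero p F G) : HomZero p (dual G) (dual F) := by
  intro f hf
  exact (congrArg (Exact (R175.dual G) (R175.dual F) p) (dualM_dualM f)).mp (h _ hf.of_dual).dual

theorem EndScal.dual (h : EndScal F) : EndScal (dual F) := by
  intro f hf
  obtain ⟨c, hc⟩ := h _ hf.of_dual
  refine ⟨c, ?_⟩
  have e : ∀ φ : Matrix F.ι F.ι (Z Q), dualM (dualM φ - c • 1) = φ - c • 1 := fun φ => by
    rw [dualM_sub, dualM_dualM, dualM_smul, dualM_one]
  exact (congrArg (Exact (R175.dual F) (R175.dual F) 0) (e f)).mp hc.dual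

/-- for a minimal model both sides are `cnt` -/
theorem hd_dual_of_minimal (hF : Minimal F) (v : Q.V) (k : ℤ) : hd (dual F) v k = hd F v (-k) := by
  have h1 : Minimal (dual F) := fun j i => hF i j
  rw [h1.hd_eq_cnt, hF.hd_eq_cnt]
  show (Finset.univ.filter fun i => F.vtx i = v ∧ -F.deg i = k).card =
    (Finset.univ.filter fun i => F.vtx i = v ∧ F.deg i = -k).card
  congr 1
  exact Finset.filter_congr fun i _ => and_congr_right fun _ => neg_eq_iff_eq_neg

theorem dual_simple (v : Q.V) : HE (dual (simple v)) (simple v) :=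
  HE.of_equiv (Equiv.refl _) (fun _ => rfl) (fun _ => rfl)
    fun j i => (congrFun (congrFun dualM_zero j) i).symm

/-- `one ↔ top` -/
def dualFlip : Bs Q → Bs Q
  | .one => .top
  | .arr a => .arr a
  | .top => .one

theorem dualFlip_flip (β : Bs Q) : dualFlip (dualFlip β) = β := by cases β <;> rfl

theorem dualFlip_ok {U : Q.V → Prop} {v : Q.V} {β : Bs Q} (h : okB U v β) : okB U v (dualFlip β) := by
  cases β <;> exact h

theorem dualFlip_vtx (v : Q.V) (β : Bs Q) : vtxB v (dualFlip β) = vtxB v β := by cases β <;> rfl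

theorem dualFlip_dg (β : Bs Q) : (dualFlip β).dg = 2 - β.dg := by cases β <;> rfl

theorem dualFlip_el (β : Bs Q) : Bs.el (dualFlip β).dual = Z.barZ Q (Bs.el β) := by
  cases β <;> ext a <;> simp [dualFlip, Bs.el, Bs.dual, Qv.bar_eq_iff]

theorem dualFlip_co (β β' : Bs Q) (z : Z Q) :
    Bs.co (dualFlip β') (Z.barZ Q z * Bs.el (dualFlip β)) = Bs.co β (z * Bs.el β') := by
  cases β <;> cases β' <;> simp [dualFlip, Bs.el, Bs.co, eq_comm]

/-- the flip on the indices of `Θ F` -/
def dualFlipE (U : Q.V → Prop) (F : Gr Q) :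
    {x : F.ι × Bs Q // okB U (F.vtx x.1) x.2} ≃ {x : F.ι × Bs Q // okB U (F.vtx x.1) x.2} where
  toFun x := ⟨(x.1.1, dualFlip x.1.2), dualFlip_ok x.2⟩
  invFun x := ⟨(x.1.1, dualFlip x.1.2), dualFlip_ok x.2⟩
  left_inv x := Subtype.ext (Prod.ext rfl (dualFlip_flip _))
  right_inv x := Subtype.ext (Prod.ext rfl (dualFlip_flip _))

/-- `HE.of_equiv` along `Sum.swap` and `(i, β) ↦ (i, β')` with `one ↔ top`, `arr a ↦ arr a`;
note `barZ (el β) = el β'.dual` and `Bs.co_mul_el`. -/
theorem dual_Tm (U : Q.V → Prop) [DecidablePred U] (F : Obj Q) :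
    HE (dual ((Tm U).obj F)) ((Tp U).obj (dual F)) := by
  refine HE.of_equiv ((Equiv.sumCongr (Equiv.refl F.ι) (dualFlipE U F.toGr)).trans (Equiv.sumComm _ _))
    ?_ ?_ ?_
  · rintro (i | x)
    · rfl
    · exact dualFlip_vtx _ _
  · rintro (i | x)
    · rfl
    · show -F.deg x.1.1 + (dualFlip x.1.2).dg - 1 = -(F.deg x.1.1 + x.1.2.dg - 1)
      rw [dualFlip_dg]
      omega
  · rintro (j | y) (i | x)
    · rfl
    · exact (map_zero (Z.barZ Q)).symm
    · show (if y.1.1 = i then Bs.el (dualFlip y.1.2).dual else 0) =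
        Z.barZ Q (if i = y.1.1 then Bs.el y.1.2 else 0)
      by_cases h : y.1.1 = i
      · rw [if_pos h, if_pos h.symm, dualFlip_el]
      · rw [if_neg h, if_neg fun e => h e.symm, map_zero]
    · show sg 1 • (Z.sc (Bs.co (dualFlip y.1.2) (Z.barZ Q (F.δ x.1.1 y.1.1) * Bs.el (dualFlip x.1.2))) : Z Q) =
        Z.barZ Q (sg 1 • Z.sc (Bs.co x.1.2 (F.δ x.1.1 y.1.1 * Bs.el y.1.2)))
      rw [dualFlip_co]
      ext a <;> simp

end Crest.Agent.R175
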