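import Crest.Agent.R175.C1

/-!
# R175: the one-sided statement `HasL1`.
-/

set_option autoImplicit false

namespace Crest.Agent.R175

open CoxeterSystem Crest.Agent.R61 Crest.GroupTheory

variable {S : Type} [Fintype S] [DecidableEq S] {M : CoxeterMatrix S}
  {n : ArtinGroup M → S → ℤ → ℝ} {J : Finset S} {c g : ArtinGroup M} {lo : ℤ} {b : S → ℝ}

theorem L1_pow (h : NAx n) (hO : OneS n) {s : S} (hb : Bd (M := M) {s} (Lo n lo c))
    (hs : Sub n {s} c lo b) (hc : Lo n lo c s) (m : ℕ) :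
    2 * b s ≤ n c s lo + n (c * artinGen M s ^ (m + 1)) s lo := by
  have hc' : Ch n {s} lo c := fun i hi => by rwa [Finset.mem_singleton.1 hi]
  have hss := Finset.mem_singleton_self s
  induction m with
  | zero =>
    have h1 := hO.cvx c s lo
    have h2 : _ ≤ _ := hs s hss
    rw [← Finset.sum_add_sum_compl {s}] at h1
    rw [Finset.sum_singleton, aa_self, zero_mul] at h1 h2
    rw [zero_add, pow_one]
    linarith
  | succ m ih =>
    have hp : artinGen M s ^ m ∈ PP M {s} := pow_mem (gen_mem_PP hss) m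
    have h1 := hO.dem {s} (c * artinGen M s ^ m) lo s 1 s
      (Bd.of_mem (h.vinv_Lo lo) (mem_AP_of_PP hp) hb) (Ch.mul_PP h hO hb hc' hp) hss (one_mem _)
    rw [mul_one, mul_one, mul_assoc, ← pow_succ, mul_assoc, ← pow_succ] at h1
    linarith

/-- Rank one.  An element of `AP M {s}` is `s ^ k`; if `g' = g s ^ k` with `k > 0` then
`n g' s lo ≥ n (g s) s lo` (`OneS.dem` with `q = 1`, repeatedly) and
`n g s lo + n (g s) s lo ≥ 2 b s` (`OneS.cvx`). -/
theorem rank_one (h : NAx n) (hO : OneS n) {s : S} (hb : Bd (M := M) {s} (Lo n lo g))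
    (hs : Sub n {s} g lo b) {g' : ArtinGroup M} (hg : g⁻¹ * g' ∈ AP M {s})
    (h1 : Tie1 n lo b g s) (h2 : Neg1 n lo b g' s) : False := by
  have hg' : g⁻¹ * g' ∈ Subgroup.closure {artinGen M s} := by
    simpa [AP, stdParabolic] using hg
  obtain ⟨k, hk⟩ := Subgroup.mem_closure_singleton.1 hg'
  have e1 := h1.2
  have e2 := h2.2
  rcases k with (_ | m) | m
  · have : g = g' := by simpa [inv_mul_eq_one, eq_comm] using hk
    rw [this] at e1
    linarith
  · have h3 := L1_pow h hO hb hs h1.1 m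
    have : artinGen M s ^ (m + 1) = g⁻¹ * g' := by
      rw [← hk, ← zpow_natCast]
      rfl
    rw [this, mul_inv_cancel_left] at h3
    linarith
  · have h3 := L1_pow h hO (C1_bd (h.vinv_Lo lo) hg hb) (C1_sub h hg hs) h2.1 m
    have : artinGen M s ^ (m + 1) = g'⁻¹ * g := by
      rw [zpow_negSucc, inv_eq_iff_eq_inv] at hk
      rw [hk, mul_inv_rev, inv_inv]
    rw [this, mul_inv_cancel_left] at h3
    linarith

/-- The antipodal case.  Let `f v = ∑ j, kk s j * v j`, `φ = aptF n J g lo b`.  `Antip.eq_coroot` and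
`pair_lamv_le` give `f (lamv φ w) = 0` for all `w`.  For `j ∈ J` take `u` from
`exists_rep_not_orth` (`Irr.reflTransGen`); `lamv_sub` shows that the slack at `(u, j)` vanishes, and
`aptF_cvx` shows that `b` is harmonic at `j`.  Now `OneS.anti`. -/
theorem antip_case (h : NAx n) (hO : OneS n) (hJ : Sph M J) (hI : Irr M J)
    (hb : Bd (M := M) J (Lo n lo g)) (hc : Ch n J lo g) (hs : Sub n J g lo b)
    {s t i : {s // s ∈ J}} (hst : aa M s.1 t.1 ≠ 0) {u : WJ M J}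
    (hl : (csJ M J).length u < (csJ M J).length ((csJ M J).simple s * u))
    (ha : Antip (csJ M J) u i ((csJ M J).simple s * u) i) (h1 : aptF n J g lo b u i ≤ 0)
    (h2 : aptF n J g lo b ((csJ M J).simple s * u) i ≤ 0)
    (h0 : ∀ w j, 0 ≤ aptF n J g lo b w j) :
    aptF n J g lo b 1 t ≤ 0 ∧ ¬ Antip (csJ M J) ((csJ M J).simple s * u) i 1 t := by
  have hφ := locCvx_aptF h hO.cvx hs
  obtain ⟨e, he, f1, f2⟩ := Antip.eq_coroot hl ha
  have hf : ∀ w, ∑ j, kk (res M J) s j * lamv (csJ M J) (aptF n J g lo b) w j = 0 := fun w => by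
    have a1 := pair_lamv_le hφ u w i
    have a2 := pair_lamv_le hφ ((csJ M J).simple s * u) w i
    rw [f1] at a1
    rw [f2] at a2
    exact mul_left_cancel₀ he.ne' (by linarith)
  have heq : ∀ j ∈ J, 2 * b j - ∑ k ∈ J, aa M j k * b k = ∑ k ∈ Jᶜ, aa M j k * n g k lo := by
    intro j hj
    obtain ⟨v, hv⟩ := exists_rep_not_orth (cs := csJ M J) (hI.reflTransGen ⟨j, hj⟩ s)
    have a1 := lamv_sub hφ v ⟨j, hj⟩
    have a2 := aptF_cvx (c := g) (lo := lo) (b := b) h hO.cvx v ⟨j, hj⟩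
    have a3 : _ ≤ _ := hs j hj
    generalize hd : aptF n J g lo b v ⟨j, hj⟩ + aptF n J g lo b (v * (csJ M J).simple ⟨j, hj⟩) ⟨j, hj⟩ -
      (2 * aptF n J g lo b v ⟨j, hj⟩ - ∑ k, kk (res M J) ⟨j, hj⟩ k * aptF n J g lo b v k) = d at a1
    have a4 : d * ∑ k, kk (res M J) s k * rep (csJ M J) v (Pi.single ⟨j, hj⟩ 1) k = 0 := by
      rw [← sub_self (0 : ℝ)]
      conv_rhs => rw [← hf v]
      conv_rhs => enter [2]; rw [hf v, ← hf (v * (csJ M J).simple ⟨j, hj⟩)]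
      rw [← Finset.sum_sub_distrib, Finset.mul_sum]
      refine Finset.sum_congr rfl fun k _ => ?_
      have := congrFun a1 k
      simp only [Pi.sub_apply, Pi.smul_apply, smul_eq_mul] at this
      rw [← mul_sub, this]
      ring
    have a5 : d = 0 := (mul_eq_zero.1 a4).resolve_right hv
    simp only at a2
    linarith
  refine ⟨?_, fun ⟨e', he', f3⟩ => ?_⟩
  · unfold aptF
    rw [LJ_one, mul_one]
    exact sub_nonpos.2 (hO.anti J g lo b s t u ((csJ M J).simple s * u) i i e e hJ hb hc heq hst he he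
      f1 f2 (sub_nonpos.1 h1) (sub_nonpos.1 h2) fun w j => sub_nonneg.1 (h0 w j))
  · have a1 := f3 (Pi.single s 1)
    have hts : t ≠ s := fun e => ne_of_aa_ne_zero hst (by rw [e])
    rw [f2, apt_sum_single, kk_self, inv_one, apt_one, Pi.single_eq_of_ne hts] at a1
    linarith

theorem L1_le (h : NAx n) (hO : OneS n) (hb : Bd (M := M) J (Lo n lo c)) (hc : Ch n J lo c)
    (w : WJ M J) (i : {s // s ∈ J}) (h1 : aptF n J c lo b w i ≤ 0) :
    Neg1 n lo b (c * LJ M J w) i.1 ∨ Tie1 n lo b (c * LJ M J w) i.1 :=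
  (sub_nonpos.1 h1).lt_or_eq.imp (fun e => ⟨Ch.mul_PP h hO hb hc (LJ_mem_PP J w) i.1 i.2, e⟩)
    fun e => ⟨Ch.mul_PP h hO hb hc (LJ_mem_PP J w) i.1 i.2, e⟩

theorem L1_conn (h : NAx n) (hO : OneS n) (hb : Bd (M := M) J (Lo n lo c)) (hc : Ch n J lo c)
    (hs : Sub n J c lo b) {w w' : WJ M J} {i i' : {s // s ∈ J}} (h1 : aptF n J c lo b w i ≤ 0)
    (h2 : aptF n J c lo b w' i' ≤ 0) (ha : ¬ Antip (csJ M J) w i w' i') :
    Conn J (fun g i => Neg1 n lo b g i ∨ Tie1 n lo b g i) (c * LJ M J w, i.1)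
      (c * LJ M J w', i'.1) :=
  conn_of_apt (P := fun g i => Neg1 n lo b g i ∨ Tie1 n lo b g i) (L1_le h hO hb hc)
    (apt_le (locCvx_aptF h hO.cvx hs) h1 h2 ha)

/-- As `neg_to_apt`.  In the case `w = s w'`: if `(w', j)` and `(s w', j)` are not antipodal use
`apt_le`; if the apartment of `c s` contains a negative vertex, it is not antipodal to `y`
(`Antip.not_neg`), use `apt_le`; otherwise `antip_case` (`t` from `Irr.exists_nb`) connects `y` to
`(c s, t)`, which is the vertex `(c, t)`. -/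
theorem le_to_apt (h : NAx n) (hO : OneS n) (hJ : Sph M J) (hI : Irr M J) (h2 : 2 ≤ J.card)
    (hb : Bd (M := M) J (Lo n lo c)) (hc : Ch n J lo c) (hs : Sub n J c lo b)
    {p : ArtinGroup M} (hp : p ∈ PP M J) {i : S} (hi : i ∈ J) (hx : n (c * p) i lo ≤ b i) :
    (∃ y : ArtinGroup M × S, Neg1 n lo b y.1 y.2 ∧
      Conn J (fun g i => Neg1 n lo b g i ∨ Tie1 n lo b g i) (c * p, i) y) ∨
    ∃ (w : WJ M J) (j : {s // s ∈ J}), aptF n J c lo b w j ≤ 0 ∧
      Conn J (fun g i => Neg1 n lo b g i ∨ Tie1 n lo b g i) (c * p, i) (c * LJ M J w, j.1) := by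
  refine PP_induction_left (P := fun p => ∀ c, Bd (M := M) J (Lo n lo c) → Ch n J lo c →
    Sub n J c lo b → n (c * p) i lo ≤ b i → (∃ y : ArtinGroup M × S, Neg1 n lo b y.1 y.2 ∧
      Conn J (fun g i => Neg1 n lo b g i ∨ Tie1 n lo b g i) (c * p, i) y) ∨
    ∃ (w : WJ M J) (j : {s // s ∈ J}), aptF n J c lo b w j ≤ 0 ∧
      Conn J (fun g i => Neg1 n lo b g i ∨ Tie1 n lo b g i) (c * p, i) (c * LJ M J w, j.1))
    ?_ ?_ hp c hb hc hs hx
  · intro c _ _ _ hx
    refine Or.inr ⟨1, ⟨i, hi⟩, ?_, ?_⟩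
    · unfold aptF
      rw [LJ_one]
      exact sub_nonpos.2 hx
    · rw [LJ_one]
      exact Conn.refl _
  · intro p s hp hs ih c hb hc hS hx
    have hb' := Bd.of_mem (h.vinv_Lo lo) (gen_mem_AP hs) hb
    have hc' := Ch.mul_gen h hO hb hc hs
    have hS' := (h.sub_of_mem (gen_mem_AP hs)).2 hS
    rw [← mul_assoc] at hx ⊢
    rcases ih _ hb' hc' hS' hx with h0 | ⟨w, j, h1, h3⟩
    · exact Or.inl h0
    rcases C1_cases w ⟨s, hs⟩ with e | ⟨hl, e⟩
    · refine Or.inr ⟨(csJ M J).simple ⟨s, hs⟩ * w, j, ?_, ?_⟩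
      · unfold aptF at h1 ⊢
        rwa [e, ← mul_assoc]
      · rwa [e, ← mul_assoc]
    have h4 : aptF n J (c * artinGen M s) lo b ((csJ M J).simple ⟨s, hs⟩ * w) j ≤ 0 := by
      have := hO.dem J c lo s _ j.1 hb hc hs (LJ_mem_PP J ((csJ M J).simple ⟨s, hs⟩ * w))
      unfold aptF at h1 ⊢
      rw [e, ← mul_assoc] at h1
      linarith
    by_cases ha : Antip (csJ M J) w j ((csJ M J).simple ⟨s, hs⟩ * w) j
    swap
    · have h5 := L1_conn h hO hb' hc' hS' h1 h4 ha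
      refine Or.inr ⟨w, j, ?_, ?_⟩
      · unfold aptF at h4 ⊢
        rwa [mul_assoc, ← e] at h4
      · rw [mul_assoc c _ (LJ M J ((csJ M J).simple ⟨s, hs⟩ * w)), ← e] at h5
        exact h3.trans h5
    by_cases hn : ∃ w' j', aptF n J (c * artinGen M s) lo b w' j' < 0
    · obtain ⟨w', j', hn⟩ := hn
      exact Or.inl ⟨(_, _), C1_neg h hO hb' hc' w' j' hn, h3.trans (L1_conn h hO hb' hc' hS' h1 hn.le
        fun ha' => ha'.not_neg (locCvx_aptF h hO.cvx hS') h1 hn)⟩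
    obtain ⟨t, ht, hst⟩ := hI.exists_nb h2 hs
    have ew := (csJ M J).simple_mul_simple_cancel_left (w := w) ⟨s, hs⟩
    obtain ⟨h5, h6⟩ := antip_case h hO hJ hI hb' hc' hS' (s := ⟨s, hs⟩) (t := ⟨t, ht⟩) (i := j) hst
      (u := (csJ M J).simple ⟨s, hs⟩ * w) (by rwa [ew]) (by rw [ew]; exact ha.symm) h4
      (by rwa [ew]) fun w' j' => not_lt.1 fun h7 => hn ⟨w', j', h7⟩
    rw [ew] at h6
    have h7 := L1_conn h hO hb' hc' hS' h1 h5 h6
    have h8 : aptF n J c lo b 1 ⟨t, ht⟩ ≤ 0 := by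
      unfold aptF at h5 ⊢
      rwa [LJ_one, mul_one, h.inv _ _ _ _ (ne_of_aa_ne_zero hst), ← mul_one c, ← LJ_one J] at h5
    refine Or.inr ⟨1, ⟨t, ht⟩, h8, (h3.trans h7).trans (conn_coset ht ?_
      (L1_le h hO hb' hc' 1 ⟨t, ht⟩ h5) (L1_le h hO hb hc 1 ⟨t, ht⟩ h8))⟩
    simpa [LJ_one] using gen_mem_AP (M := M) (Finset.mem_erase.2 ⟨ne_of_aa_ne_zero hst, hs⟩)

theorem L1_bd_left {J₁ J₂ : Finset S} (h0 : ∀ i ∈ J₁, ∀ j ∈ J₂, aa M i j = 0) {p : S → Prop}
    (hb : Bd (M := M) (J₁ ∪ J₂) p) : Bd (M := M) J₁ p := fun i hi j hj hij =>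
  hb i (Finset.mem_union_left _ hi) j
    (fun h => (Finset.mem_union.1 h).elim hj fun h' => hij (h0 i hi j h')) hij

theorem L1_sub_left {J₁ J₂ : Finset S} (h0 : ∀ i ∈ J₁, ∀ j ∈ J₂, aa M i j = 0) {k : ℤ}
    (hs : Sub n (J₁ ∪ J₂) g k b) : Sub n J₁ g k b := fun i hi => by
  have h1 : _ ≤ _ := hs i (Finset.mem_union_left _ hi)
  have h2 : ∑ j ∈ J₁, aa M i j * b j = ∑ j ∈ J₁ ∪ J₂, aa M i j * b j :=
    Finset.sum_subset Finset.subset_union_left fun j hj hj' => by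
      rw [h0 i hi j ((Finset.mem_union.1 hj).resolve_left hj'), zero_mul]
  have h3 : ∑ j ∈ (J₁ ∪ J₂)ᶜ, aa M i j * n g j k = ∑ j ∈ J₁ᶜ, aa M i j * n g j k :=
    Finset.sum_subset (Finset.compl_subset_compl.2 Finset.subset_union_left) fun j hj hj' => by
      rw [Finset.mem_compl, not_not] at hj'
      rw [h0 i hi j ((Finset.mem_union.1 hj').resolve_left (Finset.mem_compl.1 hj)), zero_mul]
  unfold SubAt
  linarith

/-- Strong induction on `J`.  Reducible: `ll_join`.  `J = {s}`: `rank_one`.  Otherwise: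
`exists_ch`, `OneS.meet`, `neg_to_apt`, `le_to_apt`, `apt_le` connect the vertex to a negative vertex
through vertices with `n ≤ b`; `propagate` (with `Bd.erase`, `SubAt.erase`). -/
theorem hasL1_of (h : NAx n) (hO : OneS n) : HasL1 n := by
  intro J
  induction J using Finset.strongInduction with
  | H J ih =>
  intro g₀ lo b hJ hb hs
  by_cases hI : Irr M J
  swap
  · obtain ⟨J₁, J₂, rfl, hd, n1, n2, h0⟩ := exists_decomp hI
    have h0' : ∀ i ∈ J₂, ∀ j ∈ J₁, aa M i j = 0 := fun i hi j hj => by rw [aa_symm, h0 j hj i hi]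
    refine ll_join hd h0 (h.vinv_Neg1 lo b) (h.vinv_Tie1 lo b)
      (ih J₁ ?_ g₀ lo b (hJ.mono Finset.subset_union_left) (L1_bd_left h0 hb) (L1_sub_left h0 hs))
      (ih J₂ ?_ g₀ lo b (hJ.mono Finset.subset_union_right)
        (L1_bd_left h0' (by rwa [Finset.union_comm])) (L1_sub_left h0' (by rwa [Finset.union_comm])))
    · obtain ⟨x, hx⟩ := n2
      exact (Finset.ssubset_iff_of_subset Finset.subset_union_left).2
        ⟨x, Finset.mem_union_right _ hx, Finset.disjoint_right.1 hd hx⟩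
    · obtain ⟨x, hx⟩ := n1
      exact (Finset.ssubset_iff_of_subset Finset.subset_union_right).2
        ⟨x, Finset.mem_union_left _ hx, Finset.disjoint_left.1 hd hx⟩
  rintro g i hg hi hT ⟨g', j, hg', hj, hP⟩
  by_cases h2 : 2 ≤ J.card
  swap
  · obtain rfl : J = {i} := Finset.eq_singleton_iff_unique_mem.2
      ⟨hi, fun x hx => Finset.card_le_one.1 (by omega) x hx i hi⟩
    obtain rfl := Finset.mem_singleton.1 hj
    exact (rank_one h hO (C1_bd (h.vinv_Lo lo) hg hb) (C1_sub h hg hs)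
      (by simpa [mul_assoc] using mul_mem (inv_mem hg) hg') hT hP).elim
  obtain ⟨c, p, p', hp, hp', e, e', hc0, hc⟩ := C1_meet h hO hJ hb hg hg' hT.1 hP.1
  have hb' := C1_bd (h.vinv_Lo lo) hc0 hb
  have hs' := C1_sub h hc0 hs
  have h1 := C1_vinv (h.vinv_Tie1 lo b) e hT
  have h3 := C1_vinv (h.vinv_Neg1 lo b) e' hP
  have h4 : Conn J (fun g i => Neg1 n lo b g i ∨ Tie1 n lo b g i) (g, i) (c * p, i) :=
    conn_coset hi e (Or.inr hT) (Or.inr h1)
  obtain ⟨y, hy, h5⟩ : ∃ y : ArtinGroup M × S, Neg1 n lo b y.1 y.2 ∧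
      Conn J (fun g i => Neg1 n lo b g i ∨ Tie1 n lo b g i) (c * p, i) y := by
    rcases le_to_apt h hO hJ hI h2 hb' hc hs' hp hi h1.2.le with h0 | ⟨w, k, h6, h7⟩
    · exact h0
    obtain ⟨w', k', h8, -⟩ := neg_to_apt h hO hb' hc hs' hp' hj h3
    exact ⟨(_, _), C1_neg h hO hb' hc w' k' h8, h7.trans (L1_conn h hO hb' hc hs' h6 h8.le
      fun ha' => ha'.not_neg (locCvx_aptF h hO.cvx hs') h6 h8)⟩
  have h6 := h4.trans h5
  have h7 : g₀⁻¹ * y.1 ∈ AP M J := by simpa [mul_assoc] using mul_mem hg h6.mem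
  refine (propagate (g₀ := g₀) (fun g i hg hi hT => ih _ (Finset.erase_ssubset hi) g lo b
    (hJ.mono (Finset.erase_subset _ _)) ((C1_bd (h.vinv_Lo lo) hg hb).erase hT.1)
    fun j hj => SubAt.erase hi (C1_sub h hg hs j (Finset.mem_of_mem_erase hj)) hT.2.ge)
    (h.vinv_Neg1 lo b) h7 hy h6.symm).resolve_left fun hN => ?_
  exact absurd hT.2 hN.2.ne

end Crest.Agent.R175
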