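import Crest.Agent.R175.AB
import Crest.Agent.R175.L1
import Crest.Agent.R175.CL
import Crest.Agent.R175.CL2

/-!
# R175: the family of the simple objects of type `z`.
-/

set_option autoImplicit false

namespace Crest.Agent.R175

open CoxeterSystem Crest.Agent.R61 Crest.GroupTheory

variable {S : Type} [Fintype S] [DecidableEq S] {M : CoxeterMatrix S}

namespace Unf

variable (U : Unf M)

/-- the multiplicities for the family `(S_y)`, `typ y = z` -/
noncomputable def nE (z : S) : ArtinGroup M → S → ℤ → ℝ :=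
  U.NN (fun y : {y // U.typ y = z} => U.d y.1) fun y => simple y.1

/-- `homZero_of_neg`, `homZero_simple`, `endScal_simple`, `symm_simple`
(`Finset.sum_subtype_eq_sum_filter` or `Finset.sum_subtype`) -/
theorem good_E (z : S) : U.Good (fun y : {y // U.typ y = z} => U.d y.1) fun y => simple y.1 := by
  refine ⟨fun y => U.d_pos _, fun y y' p hp => homZero_of_neg (simple_isMod _) (simple_isMod _) hp,
    fun y y' h => homZero_simple (fun _ e => h (Subtype.ext e)) (fun e => by omega)
      (fun e => by omega), fun y => endScal_simple _, fun g k v v' h => ?_⟩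
  have e : ∀ x : U.Q.V, ∑ y : {y // U.typ y = z}, U.d y.1 * (hd (U.ac (simple y.1) g) x k : ℝ) =
      ∑ y with U.typ y = z, U.d y * (hd (U.ac (simple y) g) x k : ℝ) := fun x =>
    (Finset.sum_subtype (Finset.univ.filter fun y => U.typ y = z) (p := fun y => U.typ y = z)
      (by simp) (fun y => U.d y * (hd (U.ac (simple y) g) x k : ℝ))).symm
  rw [e, e]
  exact U.symm_simple z g k v v' h

/-- `ac_dual`, `dual_simple`, `hd_dual` -/
theorem nE_iota (z : S) (g : ArtinGroup M) (i : S) (k : ℤ) :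
    U.nE z (iota M g) i (-k) = U.nE z g i k := by
  refine NN_congr fun y v _ => ?_
  rw [← U.ac_congr (dual_simple y.1), ← (U.ac_dual _ g).hd_eq, hd_dual, neg_neg]

/-- `he_Tm_simple_of_not`, `aa_ne_zero_of_arr` -/
theorem ac_simple_gen {s : S} {y : U.Q.V} (hs : s ≠ U.typ y) (h : aa M s (U.typ y) = 0) :
    HE (U.ac (simple y) (artinGen M s)) (simple y) := by
  refine (U.ac_gen _ s).trans (he_Tm_simple_of_not (Ne.symm hs) fun a ha e => ?_)
  refine U.aa_ne_zero_of_arr a ?_
  rw [ha, e, h]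

theorem hasCL_E (z : S) : HasCL (U.nE z) :=
  have hw := (U.good_E z).pos
  have hA := nAx hw fun y : {y // U.typ y = z} => (simple y.1 : Obj U.Q)
  have hO := oneS hw fun y : {y // U.typ y = z} => (simple y.1 : Obj U.Q)
  hasCL_of_hasCLS hA (hasCLS_of
    (hasCL2_of hA (hasC1_of hA hO) (hasL1_of hA hO) (U.good_E z).hasA0) (U.nE_iota z))

theorem eData (z : S) : EData (U.nE z) z := by
  have hw := (U.good_E z).pos
  have h1 : ∀ (y v : U.Q.V) (k : ℤ), hd (U.ac (simple y) 1) v k = if v = y ∧ k = 0 then 1 else 0 :=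
    fun y v k => by rw [(U.ac_one _).hd_eq, hd_simple]
  refine ⟨nAx hw _, U.hasCL_E z, fun s hs h g i k => NN_congr fun y v _ => ?_,
    fun i k hi => (NN_eq_zero_iff hw).2 fun y v hv => ?_,
    fun k hk => (NN_eq_zero_iff hw).2 fun y v _ => ?_, ?_⟩
  · rw [ac_mul, U.ac_congr (U.ac_simple_gen (by rw [y.2]; exact hs) (by rw [y.2]; exact h))]
  · rw [h1, if_neg]
    rintro ⟨e, -⟩
    exact hi (by rw [← hv, e, y.2])
  · rw [h1, if_neg fun e => hk e.2]
  · refine lt_of_le_of_ne ((nAx hw _).nonneg _ _ _) fun e => ?_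
    obtain ⟨y, hy⟩ := U.surj z
    have := (NN_eq_zero_iff hw).1 e.symm ⟨y, hy⟩ y hy
    rw [h1] at this
    simp at this

/-- the stabiliser of the family -/
def St (z : S) : Subgroup (ArtinGroup M) where
  carrier := {x | ∀ y, U.typ y = z → HE (U.ac (simple y) x) (simple y)}
  one_mem' y _ := U.ac_one _
  mul_mem' {a b} ha hb y hy := by
    rw [ac_mul, U.ac_congr (ha y hy)]
    exact hb y hy
  inv_mem' {a} ha y hy := by
    rw [← U.ac_congr (ha y hy)]
    exact U.ac_ac_inv _ _

theorem mem_St {z : S} {x : ArtinGroup M} :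
    x ∈ U.St z ↔ ∀ y, U.typ y = z → HE (U.ac (simple y) x) (simple y) := Iff.rfl

/-- Let `F = ac (simple y) g`.  Then `ac F (t p) = F`.  `exists_inj` for `ac F t` and `p`, composed with
homotopy equivalences, gives `r : Tm F → F`; `homZero_of_retract` (`hd F y 0 = 1` by `hd_ac_of_mem`),
`he_Tm_of_homZero`; so `ac F t ≃ F` and `ac (simple y) (g t g⁻¹) = ac F g⁻¹`. -/
theorem acyc {K : Finset S} {z : S} (hz : z ∉ K) {g p : ArtinGroup M} (hg : g ∈ AP M K) {t : S}
    (ht : t ∈ K) (hp : p ∈ PP M K) (h : g * (artinGen M t * p) * g⁻¹ ∈ U.St z) :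
    g * artinGen M t * g⁻¹ ∈ U.St z := by
  intro y hy
  have hyK : U.typ y ∉ K := by rw [hy]; exact hz
  have e1 : U.ac (U.ac (U.ac (simple y) g) (artinGen M t)) p = U.ac (simple y) g := by
    rw [← ac_mul, ← ac_mul, show g * (artinGen M t * p) = g * (artinGen M t * p) * g⁻¹ * g by group,
      ac_mul, U.ac_congr (h y hy)]
  obtain ⟨r, hr, hi⟩ := U.exists_inj hp ((U.TT t).obj (U.ac (simple y) g))
  have e2 : U.ac ((U.TT t).obj (U.ac (simple y) g)) p = U.ac (simple y) g := by
    rw [← U.ac_congr (U.ac_gen _ t), e1]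
  obtain ⟨φ, hφ⟩ : HE (U.ac ((U.TT t).obj (U.ac (simple y) g)) p) (U.ac (simple y) g) := by
    rw [e2]
    exact HE.refl _
  have h0 : ∀ v, U.typ v = t → ∀ k, HomZero k (simple v) (U.ac (simple y) g) := fun v hv k =>
    homZero_of_retract (U := fun v => U.typ v = t) (y := y) (fun e => hyK (e ▸ ht))
      (U.endScal_ac (endScal_simple y) g)
      (by rw [U.hd_ac_of_mem hg hyK, hd_simple]; simp) (hr.mul0 hφ.closed)
      (InjAt.comp hr (hi y 0 hyK) (hφ.injAt y 0)) hv k
  have h1 : HE (U.ac (U.ac (simple y) g) (artinGen M t)) (U.ac (simple y) g) :=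
    (U.ac_gen _ t).trans (he_Tm_of_homZero h0)
  rw [ac_mul, ac_mul, U.ac_congr h1]
  exact U.ac_ac_inv _ _

/-- `inv`: if `aa s z ≠ 0` take `v` of type `s` (`surj`) and an arrow `a` from `v` to type `z`
(`exists_arr`); `homZero_Tp_iff`, `not_homZero_simple_arr`. -/
theorem rTh {K : Finset S} {z : S} (hz : z ∉ K) :
    RTh K z (fun g => ∀ y, U.typ y = z → U.RZ K (U.ac (simple y) g) 1) (U.St z) := by
  refine ⟨fun y hy => RZ.of_HE (fun v hv k hk => ?_) (U.ac_one _).symm,
    fun g s hs h y hy => ?_, fun x hx g h y hy => ?_, fun s hs h y hy => ?_, fun g h => ?_,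
    fun s hs h => ?_, fun g hg t ht p hp h => U.acyc hz hg ht hp h⟩
  · refine homZero_simple (fun _ e => hz ?_) (fun e => by omega) (fun e => by omega)
    rw [← hy, ← e]
    exact hv
  · rw [ac_mul]
    exact (h y hy).up hs
  · rw [ac_mul, U.ac_congr (hx y hy)]
    exact h y hy
  · exact U.ac_simple_gen (fun e => hz (by rw [← hy, ← e]; exact hs)) (by rw [hy]; exact h)
  · push Not at h
    obtain ⟨y, hy, h⟩ := h
    obtain ⟨s, hs⟩ := pprime h
    exact ⟨s, fun Y hY p hp hP => hs Y hY p hp (by rw [← ac_mul]; exact hP y hy)⟩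
  · by_contra h0
    obtain ⟨v, hv⟩ := U.surj s
    obtain ⟨a, ha, hz'⟩ := U.exists_arr (v := v) (t := z) (by rw [hv]; exact h0)
    have h1 := (h _ hz').of_HE (U.ac_gen_inv _ s) v (by rw [hv]; exact hs) 0 (by omega)
    have h2 := (homZero_Tp_iff (U := fun v => U.typ v = s) (U.indep s) hv).1 h1
    rw [← ha, zero_add] at h2
    exact not_homZero_simple_arr a h2

end Unf

end Crest.Agent.R175
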