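import Crest.Agent.R175.Art2

/-!
# R175: spherical `K`.
-/

set_option autoImplicit false

namespace Crest.Agent.R175

open CoxeterSystem Crest.Agent.R61 Crest.GroupTheory

variable {S : Type} [Fintype S] [DecidableEq S] {M : CoxeterMatrix S} {K X Y : Finset S} {z : S}
  {P : ArtinGroup M → Prop} {St : Subgroup (ArtinGroup M)} {g p : ArtinGroup M}

theorem RTh.up_PP (h : RTh K z P St) (hp : p ∈ PP M K) (hg : P g) : P (g * p) := by
  refine PP_induction_right (P := fun p => P (g * p)) (by rwa [mul_one]) ?_ hp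
  intro p s _ hs ih
  rw [← mul_assoc]
  exact h.up _ s hs ih

theorem RTh.mem_St (h : RTh K z P St) (hz : IsFr M K X z) (hX : X ⊆ K) (hg : g ∈ AP M X) :
    g ∈ St := by
  refine AP_induction (P := fun g => g ∈ St) (one_mem _) ?_ ?_ hg
  · exact fun g s _ hs ih => mul_mem ih (h.gen s (hX hs) ((hz.2 s (hX hs)).2 hs))
  · exact fun g s _ hs ih => mul_mem ih (inv_mem (h.gen s (hX hs) ((hz.2 s (hX hs)).2 hs)))

/-- `PP_induction_right`: if `p = p₁ s` then `P (p⁻¹ p₁)`, so `s ∈ X`, and `p₁⁻¹ = s p⁻¹` -/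
theorem RTh.mem_PP_of_inv (h : RTh K z P St) (hz : IsFr M K X z) (hp : p ∈ PP M K)
    (hP : P p⁻¹) : p ∈ PP M X := by
  refine PP_induction_right (P := fun p => P p⁻¹ → p ∈ PP M X) (fun _ => one_mem _) ?_ hp hP
  intro p s hp hs ih hP
  have h1 := h.up_PP hp hP
  rw [mul_inv_rev, inv_mul_cancel_right] at h1
  have h2 := h.inv s hs h1
  have h3 := h.left _ (h.gen s hs h2) _ hP
  rw [mul_inv_rev, mul_inv_cancel_left] at h3
  exact mul_mem (ih h3) (gen_mem_PP ((hz.2 s hs).1 h2))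

/-- `exists_meet` for `1` and `g` -/
theorem RTh.decomp (h : RTh K z P St) (hz : IsFr M K X z) (hK : Sph M K) (hg : g ∈ AP M K)
    (hP : P g) : ∃ a ∈ PP M X, a * g ∈ PP M K := by
  obtain ⟨c, p, p', hp, hp', e1, e2, hc⟩ := exists_meet (P := P) (g := 1) (g' := g) hK
    (fun c _ hc => (h.pp c hc).imp fun s hs => hs K subset_rfl) (by simpa using hg) h.one hP
  have e3 : c = p⁻¹ := eq_inv_of_mul_eq_one_left e1.symm
  subst e3
  exact ⟨p, h.mem_PP_of_inv hz hp hc, by rwa [e2, mul_inv_cancel_left]⟩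

/-- `PP_induction_left` on `p'` with `acyc` -/
theorem RTh.acyc' (h : RTh K z P St) (hg : g ∈ AP M K) {p' : ArtinGroup M} (hp' : p' ∈ PP M K)
    (hp : p ∈ PP M K) (hs : g * (p' * p) * g⁻¹ ∈ St) : g * p' * g⁻¹ ∈ St := by
  refine PP_induction_left (P := fun p' => g * (p' * p) * g⁻¹ ∈ St → g * p' * g⁻¹ ∈ St)
    (fun _ => by simp) ?_ hp' hs
  intro q s hq hs ih h1
  have h2 := h.acyc g hg s hs (q * p) (mul_mem hq hp) (by rwa [← mul_assoc (artinGen M s)])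
  have h3 := ih (by
    convert mul_mem (inv_mem h2) h1 using 1
    group)
  convert mul_mem h2 h3 using 1
  group

/-- `decomp` reduces to positive `g = t q`; `acyc` (at `1`) gives `t ∈ St`, so `P t⁻¹`, `t ∈ X` -/
theorem RTh.mem_AP_of_St (h : RTh K z P St) (hz : IsFr M K X z) (hX : X ⊆ K) (hK : Sph M K)
    (hg : g ∈ AP M K) (hs : g ∈ St) : g ∈ AP M X := by
  obtain ⟨a, ha, hag⟩ := h.decomp hz hK hg (by simpa using h.left g hs 1 h.one)
  have key : ∀ q ∈ PP M K, q ∈ St → q ∈ AP M X := by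
    intro q hq
    refine PP_induction_left (P := fun q => q ∈ St → q ∈ AP M X) (fun _ => one_mem _) ?_ hq
    intro q t hq ht ih h1
    have h2 : artinGen M t ∈ St := by
      simpa using h.acyc 1 (one_mem _) t ht q hq (by simpa using h1)
    have h3 := h.inv t ht (by simpa using h.left _ (inv_mem h2) 1 h.one)
    exact mul_mem (gen_mem_AP ((hz.2 t ht).1 h3)) (ih ((St.mul_mem_cancel_left h2).1 h1))
  have ha' := mem_AP_of_PP ha
  exact ((AP M X).mul_mem_cancel_left ha').1 (key _ hag (mul_mem (h.mem_St hz hX ha') hs))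

/-- for the frame of `∅`, `P` is positivity -/
theorem RTh.pos_pp (h : RTh K z P St) (hz : IsFr M K ∅ z) (hK : Sph M K) (hg : g ∈ AP M K)
    (hn : g ∉ PP M K) : ∃ s, ∀ Y ⊆ K, ∀ p ∈ PP M Y, g * p ∈ PP M K →
      s ∈ Y ∧ (artinGen M s)⁻¹ * p ∈ PP M Y := by
  obtain ⟨s, hs⟩ := h.pp g fun hP => by
    obtain ⟨a, ha, hag⟩ := h.decomp hz hK hg hP
    rw [eq_one_of_mem_AP_empty (mem_AP_of_PP ha), one_mul] at hag
    exact hn hag
  exact ⟨s, fun Y hY p hp hgp => hs Y hY p hp (by simpa using h.up_PP hgp h.one)⟩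

/-- Take a word of minimal length for `a`.  Let `c = e (a y)⁻¹`; `c (a y) = e` and
`c a = e y⁻¹ = y⁻¹ e` are positive.  If `c` is not positive, the letter `s` from `hp` divides `a y`
(`Y = K`) and `a` (`Y = X`), and `s⁻¹ a` is shorter. -/
theorem interval_step (hX : X ⊆ K)
    (hp : ∀ g ∈ AP M K, g ∉ PP M K → ∃ s, ∀ Y ⊆ K, ∀ p ∈ PP M Y, g * p ∈ PP M K →
      s ∈ Y ∧ (artinGen M s)⁻¹ * p ∈ PP M Y)
    {e y a : ArtinGroup M} (he : e ∈ PP M K) (hc : ∀ g ∈ AP M K, Commute e g) (hy : y ∈ AP M K)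
    (h1 : y⁻¹ * e ∈ PP M K) (ha : a ∈ PP M X) (h2 : a * y ∈ PP M K) :
    ∃ a' ∈ PP M X, a' * y ∈ PP M K ∧ (a' * y)⁻¹ * e ∈ PP M K := by
  classical
  have hex : ∃ N : ℕ, ∃ l : List S, l.length = N ∧ (∀ s ∈ l, s ∈ X) ∧ wd M l * y ∈ PP M K := by
    obtain ⟨l, hl, rfl⟩ := mem_PP_iff.1 ha
    exact ⟨_, l, rfl, hl, h2⟩
  obtain ⟨l, hN, hl, hl'⟩ := Nat.find_spec hex
  refine ⟨wd M l, wd_mem_PP hl, hl', ?_⟩
  rw [← (hc _ (inv_mem (mem_AP_of_PP hl'))).eq]
  by_contra hn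
  obtain ⟨s, hs⟩ := hp _ (mul_mem (mem_AP_of_PP he) (inv_mem (mem_AP_of_PP hl'))) hn
  have a1 := hs X hX _ (wd_mem_PP hl) (by
    rw [mul_inv_rev, mul_assoc, inv_mul_cancel_right, (hc _ (inv_mem hy)).eq]
    exact h1)
  have a2 := hs K subset_rfl _ hl' (by rwa [inv_mul_cancel_right])
  obtain ⟨l', hl1, e1⟩ := mem_PP_iff.1 a1.2
  have e2 : wd M (s :: l') = wd M l := by rw [wd_cons, e1, mul_inv_cancel_left]
  have e3 := length_eq_of_wd_eq e2
  refine Nat.find_min hex (m := l'.length) ?_ ⟨l', rfl, hl1, ?_⟩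
  · rw [← hN, ← e3]
    simp
  · rw [e1, mul_assoc]
    exact a2.2

/-- Let `e = ζ ^ N` with `g⁻¹ e` positive.  The set `A` of the positive `g' ∈ A_X g A_Y` with
`g'⁻¹ e` positive is finite (`finite_interval`) and contains `g`.  The relation
`r g'' g' := ∃ x ∈ A_X, ∃ p ∈ PP M Y, g'' = x g' p⁻¹ ∧ g' p g'⁻¹ ∉ St` is transitive (`acyc'`) and
irreflexive on `AP M K`.  An `r`-minimal element of `A` works (`decomp`, `interval_step`). -/
theorem RTh.exists_locMin (h : RTh K z P St) (hz : IsFr M K X z) (hX : X ⊆ K) (hY : Y ⊆ K)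
    (hK : Sph M K)
    (hp : ∀ g ∈ AP M K, g ∉ PP M K → ∃ s, ∀ Y ⊆ K, ∀ p ∈ PP M Y, g * p ∈ PP M K →
      s ∈ Y ∧ (artinGen M s)⁻¹ * p ∈ PP M Y) (hg : g ∈ PP M K) :
    ∃ x ∈ AP M X, ∃ y ∈ AP M Y, P (x * g * y) ∧ ∀ s ∈ Y, P (x * g * y * (artinGen M s)⁻¹) →
      x * g * y * artinGen M s * (x * g * y)⁻¹ ∈ St := by
  obtain ⟨ζ, hζ, hc, hz'⟩ := hK.exists_central
  obtain ⟨n, p, hp', e⟩ := hz' g (mem_AP_of_PP hg)
  have hce : ∀ g ∈ AP M K, Commute (ζ ^ n) g := fun g hg => (hc g hg).pow_left n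
  set A : Set (ArtinGroup M) := {g' | (g' ∈ PP M K ∧ g'⁻¹ * ζ ^ n ∈ PP M K) ∧
    ∃ x ∈ AP M X, ∃ y ∈ AP M Y, g' = x * g * y} with hA
  have hfin : A.Finite := (finite_interval K (ζ ^ n)).subset fun _ h => h.1
  have : Finite A := hfin.to_subtype
  have hgA : g ∈ A := ⟨⟨hg, by
    rw [e, mul_inv_rev, inv_inv, mul_assoc, ← (hce p (mem_AP_of_PP hp')).eq, inv_mul_cancel_left]
    exact hp'⟩, 1, one_mem _, 1, one_mem _, by simp⟩
  let r : A → A → Prop := fun g'' g' => ∃ x ∈ AP M X, ∃ p ∈ PP M Y,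
    g''.1 = x * g'.1 * p⁻¹ ∧ g'.1 * p * g'.1⁻¹ ∉ St
  have : IsTrans A r := ⟨by
    rintro a b c ⟨x', hx', q', hq', e1, -⟩ ⟨x, hx, q, hq, e2, n2⟩
    refine ⟨x' * x, mul_mem hx' hx, q' * q, mul_mem hq' hq, by rw [e1, e2]; group, fun hs => n2 ?_⟩
    have h1 := h.acyc' (mem_AP_of_PP c.2.1.1) (PP_mono hY hq') (PP_mono hY hq) hs
    convert mul_mem (inv_mem h1) hs using 1
    group⟩
  have : Std.Irrefl r := ⟨by
    rintro a ⟨x, hx, q, hq, e1, n1⟩
    refine n1 ?_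
    have : a.1 * q * a.1⁻¹ = x := by
      rw [mul_inv_eq_iff_eq_mul, ← eq_mul_inv_iff_mul_eq]
      exact e1
    rw [this]
    exact h.mem_St hz hX hx⟩
  obtain ⟨⟨g₀, ⟨m1, m2⟩, x, hx, y, hy, rfl⟩, -, hmin⟩ :=
    (Finite.wellFounded_of_trans_of_irrefl r).has_min Set.univ ⟨⟨g, hgA⟩, trivial⟩
  refine ⟨x, hx, y, hy, by simpa using h.up_PP m1 h.one, fun s hs hP => ?_⟩
  by_contra hn
  have m3 : x * g * y * (artinGen M s)⁻¹ ∈ AP M K :=
    mul_mem (mem_AP_of_PP m1) (inv_mem (gen_mem_AP (hY hs)))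
  obtain ⟨a, ha, hag⟩ := h.decomp hz hK m3 hP
  obtain ⟨a', ha', b1, b2⟩ := interval_step hX hp (pow_mem hζ n) hce m3 (by
    rw [mul_inv_rev, inv_inv, mul_assoc]
    exact mul_mem (gen_mem_PP (hY hs)) m2) ha hag
  refine hmin ⟨a' * (x * g * y * (artinGen M s)⁻¹), ⟨b1, b2⟩, a' * x,
    mul_mem (mem_AP_of_PP ha') hx, y * (artinGen M s)⁻¹, mul_mem hy (inv_mem (gen_mem_AP hs)),
    by group⟩ trivial ⟨a', mem_AP_of_PP ha', artinGen M s, gen_mem_PP hs, ?_, hn⟩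
  exact (mul_assoc _ _ _).symm

open Classical in
/-- `Z = {s ∈ Y | g s g⁻¹ ∈ St}`.  If `P (g p⁻¹)`, `p ∈ PP M Y`, then `p ∈ A_Z`
(`PP_induction_right`: `g p₁⁻¹ = (g s g⁻¹) g p⁻¹`).  For `a ∈ A_X` with `g⁻¹ a g ∈ A_Y` apply
`exists_meet` (with `J = Y`) to `g` and `a g`. -/
theorem RTh.claim_locMin (h : RTh K z P St) (hz : IsFr M K X z) (hX : X ⊆ K) (hY : Y ⊆ K)
    (hK : Sph M K) (hg : g ∈ AP M K) (hP : P g)
    (hm : ∀ s ∈ Y, P (g * (artinGen M s)⁻¹) → g * artinGen M s * g⁻¹ ∈ St) (a : ArtinGroup M) :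
    (a ∈ AP M X ∧ g⁻¹ * a * g ∈ AP M Y) ↔
      g⁻¹ * a * g ∈ AP M (Y.filter fun s => g * artinGen M s * g⁻¹ ∈ St) := by
  set Z := Y.filter fun s => g * artinGen M s * g⁻¹ ∈ St with hZ
  have hZY : Z ⊆ Y := Finset.filter_subset _ _
  constructor
  · rintro ⟨ha, hy⟩
    have key : ∀ p ∈ PP M Y, P (g * p⁻¹) → p ∈ AP M Z := by
      intro p hp
      refine PP_induction_right (P := fun p => P (g * p⁻¹) → p ∈ AP M Z) (fun _ => one_mem _) ?_ hp
      intro p s hp hs ih hP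
      have h1 := h.up_PP (PP_mono hY hp) hP
      rw [mul_inv_rev, ← mul_assoc, inv_mul_cancel_right] at h1
      have h2 := hm s hs h1
      have h3 := h.left _ h2 _ hP
      have e : g * artinGen M s * g⁻¹ * (g * (p * artinGen M s)⁻¹) = g * p⁻¹ := by group
      rw [e] at h3
      exact mul_mem (ih h3) (gen_mem_AP (Finset.mem_filter.2 ⟨hs, h2⟩))
    have haS := h.mem_St hz hX ha
    obtain ⟨c, p, p', hp, hp', e1, e2, hc⟩ := exists_meet (P := P) (g := g) (g' := a * g)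
      (hK.mono hY) (fun c _ hc => (h.pp c hc).imp fun s hs => hs Y hY)
      (by rwa [← mul_assoc]) hP (h.left a haS g hP)
    have k1 := key p hp (by rwa [e1, mul_inv_cancel_right])
    have k2 := key p' hp' (by
      have := h.left _ (inv_mem haS) c hc
      rwa [eq_mul_inv_of_mul_eq e2.symm, mul_assoc, inv_mul_cancel_left] at this)
    have e3 : g⁻¹ * a * g = p⁻¹ * p' := by
      rw [mul_assoc, e2]
      conv_lhs => rw [e1]
      group
    rw [e3]
    exact mul_mem (inv_mem k1) k2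
  · intro ha
    have key : ∀ u ∈ AP M Z, g * u * g⁻¹ ∈ St := by
      intro u hu
      refine AP_induction (P := fun u => g * u * g⁻¹ ∈ St) (by simp) ?_ ?_ hu
      · intro u s _ hs ih
        convert mul_mem ih (Finset.mem_filter.1 hs).2 using 1
        group
      · intro u s _ hs ih
        convert mul_mem ih (inv_mem (Finset.mem_filter.1 hs).2) using 1
        group
    have e : g * (g⁻¹ * a * g) * g⁻¹ = a := by group
    refine ⟨h.mem_AP_of_St hz hX hK ?_ (e ▸ key _ ha), AP_mono hZY ha⟩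
    rw [← e]
    exact mul_mem (mul_mem hg (AP_mono (hZY.trans hY) ha)) (inv_mem hg)

/-- Replace `g` by the positive element `g ζ ^ N` (`Sph.exists_central` for `g⁻¹`). -/
theorem claim_of_sph (hR : ∀ z, z ∉ K → ∃ (P : ArtinGroup M → Prop) (St : Subgroup (ArtinGroup M)),
    RTh K z P St) (hF : Framed M K) (hK : Sph M K) : Claim M K := by
  classical
  intro X hX Y hY g hg
  obtain ⟨z, hz⟩ := hF X hX
  obtain ⟨z', hz'⟩ := hF ∅ (Finset.empty_subset _)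
  obtain ⟨P, St, h⟩ := hR z hz.1
  obtain ⟨P', St', h'⟩ := hR z' hz'.1
  obtain ⟨ζ, hζ, hc, hcen⟩ := hK.exists_central
  obtain ⟨n, p, hp, e⟩ := hcen g⁻¹ (inv_mem hg)
  have hce : ∀ g ∈ AP M K, Commute (ζ ^ n) g := fun g hg => (hc g hg).pow_left n
  have ep : p = g * ζ ^ n := by
    rw [← (hce g hg).eq, ← inv_inv g, e]
    group
  obtain ⟨x, hx, y, hy, hP, hm⟩ := h.exists_locMin hz hX hY hK
    (fun g hg hn => h'.pos_pp hz' hK hg hn) hp
  have m0 : x * p * y ∈ AP M K := mul_mem (mul_mem (AP_mono hX hx) (mem_AP_of_PP hp)) (AP_mono hY hy)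
  refine ⟨y, hy, _, Finset.filter_subset
    (fun s => x * p * y * artinGen M s * (x * p * y)⁻¹ ∈ St) Y, fun a => ?_⟩
  by_cases ha : a ∈ AP M K
  · have k := h.claim_locMin hz hX hY hK m0 hP hm (x * a * x⁻¹)
    have e1 : (x * p * y)⁻¹ * (x * a * x⁻¹) * (x * p * y) = (g * y)⁻¹ * a * (g * y) := by
      have := (hce _ (mul_mem (mul_mem (inv_mem hg) ha) hg)).eq
      calc _ = y⁻¹ * ((ζ ^ n)⁻¹ * (g⁻¹ * a * g * ζ ^ n)) * y := by rw [ep]; group
        _ = _ := by rw [← this]; group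
    rw [e1] at k
    rw [← k]
    refine and_congr ⟨fun h => mul_mem (mul_mem hx h) (inv_mem hx), fun h => ?_⟩
      ⟨fun h => ?_, fun h => ?_⟩
    · convert mul_mem (mul_mem (inv_mem hx) h) hx using 1
      group
    · convert mul_mem (mul_mem (inv_mem hy) h) hy using 1
      group
    · convert mul_mem (mul_mem hy h) (inv_mem hy) using 1
      group
  · refine ⟨fun h => absurd (AP_mono hX h.1) ha, fun h => absurd ?_ ha⟩
    have k := mul_mem hg (AP_mono hY hy)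
    convert mul_mem (mul_mem k (AP_mono ((Finset.filter_subset _ _).trans hY) h)) (inv_mem k) using 1
    group

end Crest.Agent.R175
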