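import Mathlib
import Crest.Prelude.Def_ArtinGroup

/-!
# R175: the strong form of the parabolic intersection theorem (statement only).  Owner: helper19.
It is proved in `Crest.Agent.R175.Main` as `strongPar`.
-/

set_option autoImplicit false

namespace Crest.Agent.R175

open Crest.GroupTheory

/-- `A_X ∩ g A_Y g⁻¹ = (g h) A_Z (g h)⁻¹` with `h ∈ A_Y` and `Z ⊆ Y`. -/
def StrongPar {S : Type*} (M : CoxeterMatrix S) : Prop :=
  ∀ (X Y : Set S) (g : ArtinGroup M), ∃ h ∈ stdParabolic M Y, ∃ Z : Set S, Z ⊆ Y ∧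
    stdParabolic M X ⊓ (stdParabolic M Y).map (MulAut.conj g).toMonoidHom =
      (stdParabolic M Z).map (MulAut.conj (g * h)).toMonoidHom

end Crest.Agent.R175
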