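import Crest.Agent.R175.Canon
import Crest.Agent.R175.SphK
import Crest.Agent.R175.Strong

/-!
# R175: the induction on `K`, frames, and the final reduction.
-/

set_option autoImplicit false

namespace Crest.Agent.R175

open CoxeterSystem Crest.Agent.R61 Crest.GroupTheory

section
variable {S : Type} [Fintype S] [DecidableEq S] {M : CoxeterMatrix S}

/-- strong induction on `K`: `claim_union`, `Irr.dichotomy`, `claim_of_sph`, `claim_of_vec` -/
theorem claim_of_framed (hE : ∀ z : S, ∃ n : ArtinGroup M → S → ℤ → ℝ, EData n z)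
    (hR : ∀ (K : Finset S) z, z ∉ K → ∃ (P : ArtinGroup M → Prop) (St : Subgroup (ArtinGroup M)),
      RTh K z P St) (K : Finset S) (hF : Framed M K) : Claim M K := by
  induction K using Finset.strongInduction with
  | H K ih =>
  by_cases hK : Irr M K
  · rcases hK.dichotomy with h | ⟨c, hc⟩
    · exact claim_of_sph (hR K) hF h
    · exact claim_of_vec hE hF hK hc fun j hj =>
        ih _ (Finset.erase_ssubset hj) (hF.mono (Finset.erase_subset _ _))
  · obtain ⟨K₁, K₂, rfl, hd, ⟨i, hi⟩, ⟨j, hj⟩, h0⟩ := exists_decomp hK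
    refine claim_union hd h0 (vdL_of_framed hE hF) (ih _ ?_ (hF.mono Finset.subset_union_left))
      (ih _ ?_ (hF.mono Finset.subset_union_right))
    · exact ⟨Finset.subset_union_left, fun h =>
        Finset.disjoint_left.1 hd (h (Finset.mem_union_right _ hj)) hj⟩
    · exact ⟨Finset.subset_union_right, fun h =>
        Finset.disjoint_left.1 hd hi (h (Finset.mem_union_left _ hi))⟩

/-- the labels of the framed diagram -/
def frL (M : CoxeterMatrix S) : S ⊕ Finset S → S ⊕ Finset S → ℕ
  | .inl s, .inl t => M s t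
  | .inl s, .inr X => if s ∈ X then 2 else 0
  | .inr X, .inl s => if s ∈ X then 2 else 0
  | .inr X, .inr Y => if X = Y then 1 else 0

/-- the framed diagram -/
def frM (M : CoxeterMatrix S) : CoxeterMatrix (S ⊕ Finset S) where
  M := Matrix.of (frL M)
  isSymm := by
    ext i j
    rcases i with s | X <;> rcases j with t | Y <;> simp [frL, M.symmetric, eq_comm]
  diagonal i := by rcases i with s | X <;> simp [frL]
  off_diagonal i j h := by
    rcases i with s | X <;> rcases j with t | Y
    · exact M.off_diagonal s t fun e => h (by rw [e])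
    · simp only [Matrix.of_apply, frL]; split_ifs <;> simp
    · simp only [Matrix.of_apply, frL]; split_ifs <;> simp
    · have : X ≠ Y := fun e => h (by rw [e])
      simp [frL, this]

theorem framed_frM (M : CoxeterMatrix S) :
    Framed (frM M) (Finset.univ.map Function.Embedding.inl) := by
  intro X _
  refine ⟨.inr (Finset.univ.filter fun s => Sum.inl s ∈ X), by simp, fun s hs => ?_⟩
  obtain ⟨s, -, rfl⟩ := Finset.mem_map.1 hs
  rw [aa_eq_zero_iff (by simp)]
  change frL M (.inl s) (.inr _) = 2 ↔ Sum.inl s ∈ X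
  simp [frL]

end

theorem frame_lift {S : Type*} (M : CoxeterMatrix S) {G : Type*} [Group G] (f : S → G)
    (hf : ∀ s t, FreeGroup.lift f (artinAltWord s t (M s t)) =
      FreeGroup.lift f (artinAltWord t s (M s t))) :
    ∃ φ : ArtinGroup M →* G, ∀ s, φ (artinGen M s) = f s := by
  have h : ∀ r ∈ artinRelators M, FreeGroup.lift f r = 1 := by
    rintro r ⟨⟨s, t⟩, rfl⟩
    simp only [map_mul, map_inv, mul_inv_eq_one]
    exact hf s t
  exact ⟨PresentedGroup.toGroup h, fun s => PresentedGroup.toGroup.of h⟩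

theorem frame_alt {S S' : Type*} (M' : CoxeterMatrix S') (f : S → ArtinGroup M') (m : ℕ) :
    ∀ (s t : S) (s' t' : S'), f s = artinGen M' s' → f t = artinGen M' t' →
      FreeGroup.lift f (artinAltWord s t m) =
        PresentedGroup.mk (artinRelators M') (artinAltWord s' t' m) := by
  induction m with
  | zero => intro s t s' t' _ _; simp [artinAltWord]
  | succ m ih =>
    intro s t s' t' hs ht
    rw [artinAltWord, artinAltWord, map_mul, map_mul, ih t s t' s' ht hs, FreeGroup.lift_apply_of,
      hs]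
    rfl

theorem frame_rel {S : Type*} (M : CoxeterMatrix S) (s t : S) :
    PresentedGroup.mk (artinRelators M) (artinAltWord s t (M s t)) =
      PresentedGroup.mk (artinRelators M) (artinAltWord t s (M s t)) :=
  PresentedGroup.mk_eq_mk_of_mul_inv_mem ⟨(s, t), rfl⟩

theorem frame_conj {G : Type*} [Group G] (H : Subgroup G) (g x : G) :
    x ∈ H.map (MulAut.conj g).toMonoidHom ↔ g⁻¹ * x * g ∈ H := by
  constructor
  · rintro ⟨y, hy, rfl⟩
    simpa [mul_assoc] using hy
  · intro h
    exact ⟨_, h, by simp [mul_assoc]⟩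

/-- Let `j : A → A'` be the homomorphism with `j (gen s) = gen (e s)` (`PresentedGroup.toGroup`);
`r ∘ j = id`; `x ∈ A_X ↔ j x ∈ A'_{e X}`; the elements of `A'_{e X}` are images under `j`. -/
theorem strongPar_of_claim {S : Type*} [Finite S] (M : CoxeterMatrix S) {S' : Type} [Fintype S']
    [DecidableEq S'] (M' : CoxeterMatrix S') (e : S → S') (hinj : Function.Injective e)
    (he : ∀ s t, M' (e s) (e t) = M s t) (r : ArtinGroup M' →* ArtinGroup M)
    (hr : ∀ s, r (artinGen M' (e s)) = artinGen M s) (K : Finset S')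
    (hK : ∀ s', s' ∈ K ↔ s' ∈ Set.range e) (h : Claim M' K) : StrongPar M := by
  classical
  obtain ⟨j, hj⟩ := frame_lift M (fun s => artinGen M' (e s)) fun s t => by
    rw [frame_alt M' _ _ s t _ _ rfl rfl, frame_alt M' _ _ t s _ _ rfl rfl, ← he, frame_rel]
  have hrj : ∀ x, r (j x) = x := fun x => by
    have : r.comp j = MonoidHom.id _ := PresentedGroup.ext fun s => by
      change r (j (artinGen M s)) = artinGen M s
      rw [hj, hr]
    exact DFunLike.congr_fun this x
  have hmap : ∀ (X : Set S) (X' : Finset S'), (X' : Set S') = e '' X →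
      (stdParabolic M X).map j = AP M' X' := fun X X' hX => by
    rw [stdParabolic, MonoidHom.map_closure, AP, stdParabolic, hX, Set.image_image,
      Set.image_image]
    simp only [hj]
  have hjinj : Function.Injective j := Function.LeftInverse.injective hrj
  have hmem : ∀ (X : Set S) (X' : Finset S'), (X' : Set S') = e '' X → ∀ x,
      j x ∈ AP M' X' ↔ x ∈ stdParabolic M X := fun X X' hX x => by
    rw [← hmap X X' hX, Subgroup.mem_map_iff_mem hjinj]
  have hfin : ∀ X : Set S, ∃ X' : Finset S', (X' : Set S') = e '' X ∧ X' ⊆ K := fun X =>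
    ⟨(e '' X).toFinite.toFinset, Set.Finite.coe_toFinset _, fun s hs =>
      (hK s).2 (Set.image_subset_range _ _ ((Set.Finite.mem_toFinset _).1 hs))⟩
  intro X Y g
  obtain ⟨X', hX, hXK⟩ := hfin X
  obtain ⟨Y', hY, hYK⟩ := hfin Y
  have hg : j g ∈ AP M' K := by
    rw [hmem Set.univ K (by rw [Set.image_univ]; exact Set.ext hK), stdParabolic, Set.image_univ]
    exact (PresentedGroup.closure_range_of _).ge (Subgroup.mem_top g)
  obtain ⟨h', hh, Z', hZ, hc⟩ := h X' hXK Y' hYK (j g) hg
  rw [← hmap Y Y' hY] at hh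
  obtain ⟨a, ha, rfl⟩ := hh
  have hZY : (Z' : Set S') ⊆ e '' Y := hY ▸ Finset.coe_subset.2 hZ
  have hZe : (Z' : Set S') = e '' (e ⁻¹' Z') :=
    (Set.image_preimage_eq_of_subset (hZY.trans (Set.image_subset_range _ _))).symm
  refine ⟨a, ha, e ⁻¹' Z', fun s hs => hinj.mem_set_image.1 (hZY hs), Subgroup.ext fun x => ?_⟩
  have := hc (j x)
  simp only [← map_mul, ← map_inv] at this
  rw [hmem X X' hX, hmem Y Y' hY, hmem _ Z' hZe] at this
  rw [Subgroup.mem_inf, frame_conj, frame_conj, this]

/-- `S ≃ Fin n`, `M' = frM (M.reindex e)`; the retraction kills the frames (`exists_lift`). -/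
theorem strongPar_of
    (H : ∀ (S' : Type) [Fintype S'] [DecidableEq S'] (M' : CoxeterMatrix S') (K : Finset S'),
      Framed M' K → Claim M' K) {S : Type*} [Finite S] (M : CoxeterMatrix S) : StrongPar M := by
  obtain ⟨n, ⟨e⟩⟩ := Finite.exists_equiv_fin S
  obtain ⟨r, hr⟩ := frame_lift (frM (M.reindex e))
    (Sum.elim (fun i => artinGen M (e.symm i)) fun _ => 1) fun s t => by
      rcases s with s | X <;> rcases t with t | Y
      · exact (frame_alt M _ _ (Sum.inl s) (Sum.inl t) (e.symm s) (e.symm t) rfl rfl).trans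
          ((frame_rel M (e.symm s) (e.symm t)).trans
            (frame_alt M _ _ (Sum.inl t) (Sum.inl s) (e.symm t) (e.symm s) rfl rfl).symm)
      · change FreeGroup.lift _ (artinAltWord _ _ (if s ∈ Y then 2 else 0)) =
          FreeGroup.lift _ (artinAltWord _ _ (if s ∈ Y then 2 else 0))
        split_ifs <;> simp [artinAltWord]
      · change FreeGroup.lift _ (artinAltWord _ _ (if t ∈ X then 2 else 0)) =
          FreeGroup.lift _ (artinAltWord _ _ (if t ∈ X then 2 else 0))
        split_ifs <;> simp [artinAltWord]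
      · change FreeGroup.lift _ (artinAltWord _ _ (if X = Y then 1 else 0)) =
          FreeGroup.lift _ (artinAltWord _ _ (if X = Y then 1 else 0))
        split_ifs <;> simp [artinAltWord]
  refine strongPar_of_claim M (frM (M.reindex e)) (fun s => .inl (e s))
    (Sum.inl_injective.comp e.injective) (fun s t => ?_) r (fun s => ?_) _ (fun s' => ?_)
    (H _ _ _ (framed_frM _))
  · change M (e.symm (e s)) (e.symm (e t)) = M s t
    simp
  · rw [hr]
    simp
  · simp only [Finset.mem_map, Finset.mem_univ, true_and, Set.mem_range]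
    exact ⟨fun ⟨a, ha⟩ => ⟨e.symm a, by simpa using ha⟩, fun ⟨a, ha⟩ => ⟨e a, ha⟩⟩

theorem StrongPar.isParabolic_inf {S : Type*} {M : CoxeterMatrix S} (h : StrongPar M)
    {P Q : Subgroup (ArtinGroup M)} (hP : IsParabolic M P) (hQ : IsParabolic M Q) :
    IsParabolic M (P ⊓ Q) := by
  obtain ⟨X, g, rfl⟩ := hP
  obtain ⟨Y, g', rfl⟩ := hQ
  obtain ⟨a, -, Z, -, hc⟩ := h X Y (g⁻¹ * g')
  refine ⟨Z, g' * a, Subgroup.ext fun x => ?_⟩
  have := SetLike.ext_iff.1 hc (g⁻¹ * x * g)
  rw [Subgroup.mem_inf, frame_conj, frame_conj] at this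
  rw [Subgroup.mem_inf, frame_conj, frame_conj, frame_conj]
  rwa [show (g⁻¹ * g')⁻¹ * (g⁻¹ * x * g) * (g⁻¹ * g') = g'⁻¹ * x * g' by group,
    show (g⁻¹ * g' * a)⁻¹ * (g⁻¹ * x * g) * (g⁻¹ * g' * a) = (g' * a)⁻¹ * x * (g' * a) by group]
    at this

end Crest.Agent.R175
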