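import Crest.Agent.R175.HE

/-!
# R175: dg functors.
-/

set_option autoImplicit false

namespace Crest.Agent.R175

open Matrix

variable {Q : Qv}

section funct
variable (Φ : DGFun Q) {F G : Obj Q} {p : ℤ} {f : Mor F.toGr G.toGr}

theorem DGFun.map_closed (h : Closed F G p f) :
    Closed (Φ.obj F) (Φ.obj G) p (Φ.map F G p f) := by
  exact ⟨Φ.map_hom h.hom, by rw [← Φ.map_D h.hom, h.cl, map_zero]⟩
theorem DGFun.map_exact (h : Exact F G p f) :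
    Exact (Φ.obj F) (Φ.obj G) p (Φ.map F G p f) := by
  obtain ⟨g, hg, rfl⟩ := h
  refine ⟨_, Φ.map_hom hg, ?_⟩
  rw [← Φ.map_D hg, sub_add_cancel]
theorem DGFun.map_isHE (h : IsHE F G f) : IsHE (Φ.obj F) (Φ.obj G) (Φ.map F G 0 f) := by
  obtain ⟨hf, g, hg, h1, h2⟩ := h
  have e1 := Φ.map_exact h1
  have e2 := Φ.map_exact h2
  have m1 : Φ.map F F 0 (g * f) = _ := Φ.map_mul hf.hom hg.hom
  have m2 : Φ.map G G 0 (f * g) = _ := Φ.map_mul hg.hom hf.hom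
  rw [map_sub, Φ.map_one, m1] at e1
  rw [map_sub, Φ.map_one, m2] at e2
  exact ⟨Φ.map_closed hf, _, Φ.map_closed hg, e1, e2⟩
theorem DGFun.map_he (h : HE F G) : HE (Φ.obj F) (Φ.obj G) := by
  obtain ⟨f, hf⟩ := h
  exact ⟨_, Φ.map_isHE hf⟩
theorem DGFun.map_contr (h : Contr F) : Contr (Φ.obj F) := by
  have e := Φ.map_exact h
  rwa [Φ.map_one] at e
/-- `Φ.map` of the identity `F[n] → F` (closed of degree `n`) and of its inverse (degree `-n`) are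
mutually inverse; now use `closed_shift_*`. -/
theorem DGFun.map_shift (n : ℤ) (F : Obj Q) : HE (Φ.obj (shift n F)) (shift n (Φ.obj F)) := by
  have ha : Closed (shift n F) F n (1 : Matrix F.ι F.ι (Z Q)) :=
    (closed_shift_left n).2 (Closed.one.of_eq (sub_self n).symm)
  have hb : Closed F (shift n F) (-n) (1 : Matrix F.ι F.ι (Z Q)) :=
    (closed_shift_right n).2 (Closed.one.of_eq (neg_add_cancel n).symm)
  have m1 := Φ.map_mul ha.hom hb.hom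
  have m2 := Φ.map_mul hb.hom ha.hom
  rw [add_neg_cancel] at m1
  rw [neg_add_cancel] at m2
  have e : (1 : Matrix F.ι F.ι (Z Q)) * (1 : Matrix F.ι F.ι (Z Q)) = 1 := Matrix.mul_one _
  refine ⟨Φ.map _ _ n (1 : Matrix F.ι F.ι (Z Q)), IsHE.of_inv (g := Φ.map _ _ (-n) (1 : Matrix F.ι F.ι (Z Q)))
    ((closed_shift_right n).2 ((Φ.map_closed ha).of_eq (zero_add n).symm))
    ((closed_shift_left n).2 ((Φ.map_closed hb).of_eq (zero_sub n).symm)).hom ?_ ?_⟩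
  · exact m1.symm.trans ((congrArg (Φ.map (shift n F) (shift n F) 0) e).trans (Φ.map_one (shift n F)))
  · exact m2.symm.trans ((congrArg (Φ.map _ _ 0) e).trans (Φ.map_one F))

theorem QFF.id : QFF (DGFun.id Q) := by
  exact ⟨fun _ _ _ _ _ h => h, fun _ _ _ φ h => ⟨φ, h, (sub_self φ).symm ▸ Exact.zero⟩⟩
theorem QFF.comp {Φ Ψ : DGFun Q} (h : QFF Φ) (h' : QFF Ψ) : QFF (Φ.comp Ψ) := by
  refine ⟨fun F G p f hf e => h.faithful F G p f hf (h'.faithful _ _ p _ (Φ.map_closed hf) e),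
    fun F G p (φ : Mor (Ψ.obj (Φ.obj F)).toGr (Ψ.obj (Φ.obj G)).toGr) hφ => ?_⟩
  obtain ⟨g, hg, e1⟩ := h'.full _ _ p φ hφ
  obtain ⟨f, hf, e2⟩ := h.full F G p g hg
  have e3 := (Ψ.map_exact e2).add e1
  rw [map_sub, sub_add_sub_cancel] at e3
  exact ⟨f, hf, e3⟩
theorem QFF.homZero_iff {Φ : DGFun Q} (h : QFF Φ) :
    HomZero p (Φ.obj F) (Φ.obj G) ↔ HomZero p F G := by
  refine ⟨fun h0 f hf => h.faithful F G p f hf (h0 _ (Φ.map_closed hf)), fun h0 φ hφ => ?_⟩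
  obtain ⟨f, hf, e⟩ := h.full F G p φ hφ
  have e2 := (Φ.map_exact (h0 f hf)).sub e
  rwa [sub_sub_cancel] at e2
theorem QFF.endScal {Φ : DGFun Q} (h : QFF Φ) (hF : EndScal F) : EndScal (Φ.obj F) := by
  intro φ hφ
  obtain ⟨f, hf, e⟩ := h.full F F 0 φ hφ
  obtain ⟨c, hc⟩ := hF f hf
  have e2 := (Φ.map_exact hc).sub e
  rw [map_sub, map_smul, Φ.map_one, sub_sub_sub_cancel_left] at e2
  exact ⟨c, e2⟩

theorem fn_faithful (Φ Ψ : DGFun Q) (ι : ∀ F : Obj Q, Mor F.toGr (Ψ.obj (Φ.obj F)).toGr)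
    (hι : ∀ F, IsHE F _ (ι F))
    (nat : ∀ (F G : Obj Q) (p : ℤ) (f : Mor F.toGr G.toGr), IsHom F.toGr G.toGr p f →
      Ψ.map _ _ p (Φ.map F G p f) * ι F = ι G * f) (F G : Obj Q) (p : ℤ) (f : Mor F.toGr G.toGr)
    (hf : Closed F G p f) (e : Exact (Φ.obj F) (Φ.obj G) p (Φ.map F G p f)) : Exact F G p f := by
  obtain ⟨-, k, hk, h1, -⟩ := hι G
  have e1 := (Exact.mul_closed (hι F).closed (Ψ.map_exact e)).of_eq (zero_add p)
  rw [nat F G p f hf.hom] at e1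
  have e2 := ((e1.closed_mul hk).sub (Exact.mul_closed hf h1)).of_eq (add_zero p)
  rwa [Matrix.sub_mul, Matrix.one_mul, Matrix.mul_assoc, sub_sub_cancel] at e2

/-- If `Ψ ∘ Φ` and `Φ ∘ Ψ` are naturally equivalent to the identity, `Φ` is quasi fully faithful.
Faithful: `Φ f` exact ⇒ `ΨΦ f * ι F = ι G * f` exact ⇒ `f` exact (compose with an inverse of `ι G`);
likewise `Ψ` is faithful.  Full: given `φ` put `f = (ι G)⁻¹ * Ψ φ * ι F`; then `ΨΦ f - Ψ φ` is exact,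
so `Φ f - φ` is exact. -/
theorem qff_of_nat (Φ Ψ : DGFun Q)
    (ι : ∀ F : Obj Q, Mor F.toGr (Ψ.obj (Φ.obj F)).toGr)
    (ι' : ∀ F : Obj Q, Mor F.toGr (Φ.obj (Ψ.obj F)).toGr)
    (hι : ∀ F, IsHE F _ (ι F)) (hι' : ∀ F, IsHE F _ (ι' F))
    (nat : ∀ (F G : Obj Q) (p : ℤ) (f : Mor F.toGr G.toGr), IsHom F.toGr G.toGr p f →
      Ψ.map _ _ p (Φ.map F G p f) * ι F = ι G * f)
    (nat' : ∀ (F G : Obj Q) (p : ℤ) (f : Mor F.toGr G.toGr), IsHom F.toGr G.toGr p f →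
      Φ.map _ _ p (Ψ.map F G p f) * ι' F = ι' G * f) : QFF Φ := by
  refine ⟨fn_faithful Φ Ψ ι hι nat, fun F G p φ hφ => ?_⟩
  obtain ⟨-, k, hk, -, h2⟩ := hι G
  obtain ⟨-, k', hk', -, h2'⟩ := hι F
  have c1 := ((hι F).closed.mul (Ψ.map_closed hφ)).of_eq (zero_add p)
  have hf := (c1.mul hk).of_eq (add_zero p)
  refine ⟨_, hf, fn_faithful Ψ Φ ι' hι' nat' _ _ p _ ((Φ.map_closed hf).sub hφ) ?_⟩
  have c2 := Ψ.map_closed ((Φ.map_closed hf).sub hφ)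
  have e1 := (Exact.mul_closed c1 h2).of_eq (add_zero p)
  rw [Matrix.sub_mul, Matrix.one_mul, Matrix.mul_assoc, ← nat F G p _ hf.hom, ← Matrix.sub_mul, ← map_sub] at e1
  have e2 := ((Exact.mul_closed hk' e1).sub (h2'.closed_mul c2)).of_eq (zero_add p)
  rwa [Matrix.mul_sub, Matrix.mul_one, Matrix.mul_assoc, sub_sub_cancel] at e2

end funct

end Crest.Agent.R175
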