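import Crest.Agent.R61.GeoA

/-!
# R175: quantum integers and the connection on the path `0 - 1 - ⋯ - (m - 2)`.
-/

set_option autoImplicit false
set_option linter.unusedSimpArgs false

namespace Crest.Agent.R175

open Crest.Agent.R61

/-- the quantum integer `[k] = sin (k π / m) / sin (π / m)` -/
noncomputable def qq (m k : ℕ) : ℝ := geoa_a (2 * Real.cos (Real.pi / (m : ℝ))) k

@[simp] theorem qq_zero (m : ℕ) : qq m 0 = 0 := rfl
@[simp] theorem qq_one (m : ℕ) : qq m 1 = 1 := rfl

theorem qq_add_two (m k : ℕ) :
    qq m (k + 2) = 2 * Real.cos (Real.pi / (m : ℝ)) * qq m (k + 1) - qq m k := rfl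

/-- `geoa_a_sin`, `geoa_sin_pos` -/
theorem qq_pos {m k : ℕ} (h1 : 1 ≤ k) (h2 : k < m) : 0 < qq m k := by
  have hm : 2 ≤ m := by omega
  have hs := geoa_sin_pos hm
  have h := geoa_a_sin (Real.pi / (m : ℝ)) k
  have hm' : (0 : ℝ) < m := by exact_mod_cast (by omega : 0 < m)
  have hk : (0 : ℝ) < k := by exact_mod_cast h1
  have hk' : (k : ℝ) < m := by exact_mod_cast h2
  have hpos : 0 < Real.sin (k * (Real.pi / (m : ℝ))) := by
    apply Real.sin_pos_of_pos_of_lt_pi
    · have := Real.pi_pos
      positivity
    · rw [← mul_div_assoc, div_lt_iff₀ hm']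
      nlinarith [Real.pi_pos]
  rw [← h] at hpos
  exact (mul_pos_iff_of_pos_right hs).1 hpos

theorem qq_self {m : ℕ} (h : 2 ≤ m) : qq m m = 0 := by
  have hs := geoa_sin_pos h
  have h1 := geoa_a_sin (Real.pi / (m : ℝ)) m
  have hm' : (m : ℝ) ≠ 0 := by exact_mod_cast (by omega : m ≠ 0)
  rw [mul_div_cancel₀ _ hm', Real.sin_pi] at h1
  exact (mul_eq_zero.1 h1).resolve_right hs.ne'

/-- induction on `k` -/
theorem qq_sq (m k : ℕ) : qq m (k + 1) ^ 2 - qq m (k + 2) * qq m k = 1 := by
  induction k with
  | zero => simp
  | succ k ih =>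
    rw [qq_add_two m (k + 1)]
    rw [qq_add_two m k] at ih ⊢
    linear_combination ih

/-- neighbours on the path -/
def adj1 (j j' : ℕ) : Prop := j' = j + 1 ∨ j' + 1 = j

instance : DecidableRel adj1 := fun _ _ => inferInstanceAs (Decidable (_ ∨ _))

theorem adj1_symm {j j' : ℕ} (h : adj1 j j') : adj1 j' j := by
  unfold adj1 at *; omega

/-- the connection: the coefficient of the square `x - u`, `x - x₁`, `u - w`, `x₁ - w` -/
noncomputable def rr (m x u x₁ w : ℕ) : ℝ :=
  if w = x then
    (if u = x₁ then 1 / qq m (x + 1)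
      else (if u = x + 1 then 1 else -1) * qq m (u + 1) / qq m (x + 1))
  else if u = x + 1 then 1 else -1

theorem sum_adj1 (n x : ℕ) (hx : x < n) (f : ℕ → ℝ) :
    ∑ j ∈ (Finset.range n).filter (adj1 x), f j =
      (if x + 1 < n then f (x + 1) else 0) + if x = 0 then 0 else f (x - 1) := by
  rcases x with _ | x
  · have : (Finset.range n).filter (adj1 0) = (Finset.range n).filter (· = 1) :=
      Finset.filter_congr fun j _ => by unfold adj1; omega
    rw [this, Finset.sum_filter, Finset.sum_ite_eq']
    simp
  · have : ∀ j, (if adj1 (x + 1) j then f j else 0) =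
        (if j = x + 1 + 1 then f j else 0) + if j = x then f j else 0 := by
      intro j
      by_cases h1 : j = x + 1 + 1
      · rw [if_pos (show adj1 (x + 1) j from Or.inl h1), if_pos h1, if_neg (by omega), add_zero]
      by_cases h2 : j = x
      · rw [if_pos (show adj1 (x + 1) j from Or.inr (by omega)), if_neg h1, if_pos h2, zero_add]
      · rw [if_neg (by unfold adj1; omega), if_neg h1, if_neg h2, add_zero]
    rw [Finset.sum_filter, Finset.sum_congr rfl fun j _ => this j, Finset.sum_add_distrib, Finset.sum_ite_eq',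
      Finset.sum_ite_eq', if_pos (Finset.mem_range.2 (by omega : x < n))]
    simp

theorem pf1 {m x : ℕ} (hx : x + 2 ≤ m) :
    ∑ j ∈ (Finset.range (m - 1)).filter (adj1 x), qq m (j + 1) =
      2 * Real.cos (Real.pi / (m : ℝ)) * qq m (x + 1) := by
  rw [sum_adj1 _ _ (by omega)]
  have h1 := qq_add_two m x
  have h2 : (if x + 1 < m - 1 then qq m (x + 1 + 1) else 0) = qq m (x + 2) := by
    split_ifs with h
    · rfl
    · rw [show x + 2 = m by omega, qq_self (by omega)]
  have h3 : (if x = 0 then 0 else qq m (x - 1 + 1)) = qq m x := by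
    split_ifs with h
    · rw [h, qq_zero]
    · rw [show x - 1 + 1 = x by omega]
  rw [h2, h3]
  linear_combination h1

/-- two step induction -/
theorem uniq1 {m : ℕ} (f : ℕ → ℝ)
    (h : ∀ x, x + 2 ≤ m → ∑ j ∈ (Finset.range (m - 1)).filter (adj1 x), f j =
      2 * Real.cos (Real.pi / (m : ℝ)) * f x) {x : ℕ} (hx : x + 2 ≤ m) :
    f x = qq m (x + 1) * f 0 := by
  have key : ∀ x, (x + 2 ≤ m → f x = qq m (x + 1) * f 0) ∧ (x + 3 ≤ m → f (x + 1) = qq m (x + 2) * f 0) := by
    intro x
    induction x with
    | zero =>
      refine ⟨fun _ => by simp, fun h0 => ?_⟩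
      have := h 0 (by omega)
      rw [sum_adj1 _ _ (by omega), if_pos (by omega), if_pos rfl, add_zero] at this
      rw [this, qq_add_two]
      simp
    | succ x ih =>
      refine ⟨fun h0 => ih.2 (by omega), fun h0 => ?_⟩
      have := h (x + 1) (by omega)
      rw [sum_adj1 _ _ (by omega), if_pos (by omega), if_neg (by omega), Nat.add_sub_cancel, ih.1 (by omega),
        ih.2 (by omega)] at this
      rw [qq_add_two m (x + 1)]
      linear_combination this
  exact (key x).1 hx

theorem fus1_n1 (c : ℕ) : (c + 1 + 1 = c) = False := eq_false (by omega)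

theorem fus1_n2 (c : ℕ) : (c = c + 1 + 1) = False := eq_false (by omega)

theorem fus1_sum (n x : ℕ) (hx : x < n) (p : ℕ → Prop) [DecidablePred p] (f : ℕ → ℝ) :
    ∑ j ∈ (Finset.range n).filter (fun j => adj1 x j ∧ p j), f j =
      (if x + 1 < n ∧ p (x + 1) then f (x + 1) else 0) + if x ≠ 0 ∧ p (x - 1) then f (x - 1) else 0 := by
  rw [← Finset.filter_filter, Finset.sum_filter, sum_adj1 _ _ hx]
  congr 1
  · by_cases h : x + 1 < n <;> simp [h]
  · by_cases h : x = 0 <;> simp [h]

/-- If `u ≠ x₁` then `x = x₂` is the only common neighbour `w` of `x₁` and `u`.  If `u = x₁ = c`,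
`x, x₂, w ∈ {c - 1, c + 1}`; with `d j = qq m (j + 1)` use `d c ^ 2 - d (c+1) * d (c-1) = 1` (`qq_sq`;
for `c = 0` or `c = m - 2` one of the factors is `qq m 0 = 0` or `qq m m = 0`). -/
theorem unit1 {m x u x₁ x₂ : ℕ} (hx : x + 2 ≤ m) (hu : u + 2 ≤ m) (hx₁ : x₁ + 2 ≤ m)
    (hx₂ : x₂ + 2 ≤ m) (h1 : adj1 x u) (h2 : adj1 x₂ u) (h3 : adj1 x x₁) (h4 : adj1 x₁ x₂) :
    ∑ w ∈ (Finset.range (m - 1)).filter (fun w => adj1 x₁ w ∧ adj1 u w),
      rr m x₁ w x₂ u * rr m x u x₁ w = if x = x₂ then qq m (u + 1) / qq m (x + 1) else 0 := by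
  rw [fus1_sum _ _ (by omega)]
  have px := (qq_pos (m := m) (k := x + 1) (by omega) (by omega)).ne'
  have pu := (qq_pos (m := m) (k := u + 1) (by omega) (by omega)).ne'
  have px₁ := (qq_pos (m := m) (k := x₁ + 1) (by omega) (by omega)).ne'
  have px₂ := (qq_pos (m := m) (k := x₂ + 1) (by omega) (by omega)).ne'
  have hq := qq_sq m x₁
  have hm : x₁ + 2 = m → qq m (x₁ + 2) = 0 := fun h => by rw [h, qq_self (by omega)]
  unfold adj1 at *
  by_cases hux : u = x₁
  · subst hux
    rcases u with _ | c
    · obtain rfl : x = 1 := by omega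
      obtain rfl : x₂ = 1 := by omega
      rw [if_pos (by omega), if_neg (by omega)]
      simp [rr, fus1_n1, fus1_n2]
    · rcases h1 with h1 | rfl <;> rcases h2 with h2 | rfl
      · obtain rfl : c = x := by omega
        obtain rfl : c = x₂ := by omega
        by_cases hc : c + 1 + 2 = m
        · have := hm hc
          rw [if_neg (by omega), if_pos (by omega)]
          simp only [rr]
          simp [fus1_n1, fus1_n2]
          field_simp
          rw [this] at hq
          linear_combination -hq
        · have p3 := (qq_pos (m := m) (k := c + 1 + 1 + 1) (by omega) (by omega)).ne'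
          rw [if_pos (by omega), if_pos (by omega)]
          simp only [rr]
          simp [fus1_n1, fus1_n2]
          field_simp
          linear_combination -hq
      · obtain rfl : c = x := by omega
        rw [if_pos (by omega), if_pos (by omega)]
        simp only [rr]
        simp [fus1_n1, fus1_n2]
        field_simp
        ring
      · obtain rfl : c = x₂ := by omega
        rw [if_pos (by omega), if_pos (by omega)]
        simp only [rr]
        simp [fus1_n1, fus1_n2]
        field_simp
        ring
      · rw [if_pos (by omega), if_pos (by omega)]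
        simp only [rr]
        simp [fus1_n1, fus1_n2]
        field_simp
        linear_combination -hq
  · obtain rfl : x = x₂ := by omega
    rcases h1 with rfl | rfl
    · obtain rfl : x = x₁ + 1 := by omega
      rw [if_pos (by omega), if_neg (by omega)]
      simp [rr, fus1_n1, fus1_n2]
    · obtain rfl : x₁ = u + 2 := by omega
      rw [if_neg (by omega), if_pos (by omega)]
      simp [rr, fus1_n1, fus1_n2, neg_div]

/-- the same cases -/
theorem counit1 {m v u w w₂ : ℕ} (hv : v + 2 ≤ m) (hu : u + 2 ≤ m) (hw : w + 2 ≤ m)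
    (hw₂ : w₂ + 2 ≤ m) (h1 : adj1 v w) (h2 : adj1 v w₂) (h3 : adj1 u w) (h4 : adj1 u w₂) :
    ∑ x ∈ (Finset.range (m - 1)).filter (fun x => adj1 x u ∧ adj1 x v),
      rr m x u v w₂ * (qq m (u + 1) / qq m (x + 1))⁻¹ * rr m v w x u =
        if w = w₂ then 1 else 0 := by
  have e : (Finset.range (m - 1)).filter (fun x => adj1 x u ∧ adj1 x v) =
      (Finset.range (m - 1)).filter (fun x => adj1 u x ∧ adj1 v x) :=
    Finset.filter_congr fun x _ => ⟨fun h => ⟨adj1_symm h.1, adj1_symm h.2⟩, fun h => ⟨adj1_symm h.1, adj1_symm h.2⟩⟩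
  rw [e, fus1_sum _ _ (by omega)]
  have pv := (qq_pos (m := m) (k := v + 1) (by omega) (by omega)).ne'
  have pu := (qq_pos (m := m) (k := u + 1) (by omega) (by omega)).ne'
  have pw := (qq_pos (m := m) (k := w + 1) (by omega) (by omega)).ne'
  have pw₂ := (qq_pos (m := m) (k := w₂ + 1) (by omega) (by omega)).ne'
  have hq := qq_sq m u
  have hm : u + 2 = m → qq m (u + 2) = 0 := fun h => by rw [h, qq_self (by omega)]
  unfold adj1 at *
  by_cases huv : u = v
  · subst huv
    rcases u with _ | c
    · obtain rfl : w = 1 := by omega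
      obtain rfl : w₂ = 1 := by omega
      rw [if_pos (by omega), if_neg (by omega)]
      simp [rr, pw]
    · rcases h1 with rfl | h1 <;> rcases h2 with rfl | h2
      · rw [if_pos (by omega), if_pos (by omega)]
        simp only [rr]
        simp [fus1_n1, fus1_n2]
        field_simp
        linear_combination -hq
      · obtain rfl : c = w₂ := by omega
        rw [if_pos (by omega), if_pos (by omega)]
        simp only [rr]
        simp [fus1_n1, fus1_n2]
        field_simp
        ring
      · obtain rfl : c = w := by omega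
        rw [if_pos (by omega), if_pos (by omega)]
        simp only [rr]
        simp [fus1_n1, fus1_n2]
        field_simp
        ring
      · obtain rfl : c = w := by omega
        obtain rfl : c = w₂ := by omega
        by_cases hc : c + 1 + 2 = m
        · have := hm hc
          rw [if_neg (by omega), if_pos (by omega)]
          simp only [rr]
          simp [fus1_n1, fus1_n2]
          field_simp
          rw [this] at hq
          linear_combination -hq
        · have p3 := (qq_pos (m := m) (k := c + 1 + 1 + 1) (by omega) (by omega)).ne'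
          rw [if_pos (by omega), if_pos (by omega)]
          simp only [rr]
          simp [fus1_n1, fus1_n2]
          field_simp
          linear_combination -hq
  · obtain rfl : w = w₂ := by omega
    rcases h1 with rfl | rfl
    · obtain rfl : u = v + 2 := by omega
      rw [if_neg (by omega), if_pos (by omega)]
      simp [rr, fus1_n1, fus1_n2]
      field_simp
    · obtain rfl : w = u + 1 := by omega
      rw [if_pos (by omega), if_neg (by omega)]
      simp [rr, fus1_n1, fus1_n2]
      field_simp

end Crest.Agent.R175
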