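import Crest.Agent.R175.Fus1

/-!
# R175: fusion data: a product of paths.
-/

set_option autoImplicit false

namespace Crest.Agent.R175

open Crest.Agent.R61

/-- a finite set with one graph for every label `m < B`, and connections -/
structure Fus (B : ℕ) where
  X : Type
  [fX : Fintype X]
  [dX : DecidableEq X]
  x₀ : X
  d : X → ℝ
  d_pos : ∀ x, 0 < d x
  E : ℕ → X → X → Prop
  [dE : ∀ m, DecidableRel (E m)]
  E_zero : ∀ x x', E 0 x x' ↔ x = x'
  E_symm : ∀ m x x', E m x x' → E m x' x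
  pf : ∀ m x, 2 ≤ m → m < B →
    ∑ x' with E m x x', d x' = 2 * Real.cos (Real.pi / (m : ℝ)) * d x
  uniq : ∀ f : X → ℝ, (∀ m x, 2 ≤ m → m < B →
    ∑ x' with E m x x', f x' = 2 * Real.cos (Real.pi / (m : ℝ)) * f x) →
    ∀ x x', f x * d x' = f x' * d x
  ρ : ℕ → ℕ → X → X → X → X → ℝ
  unit : ∀ c m x u x₁ x₂, 2 ≤ c → E c x u → E c x₂ u → E m x x₁ → E m x₁ x₂ →
    ∑ w with E c x₁ w ∧ E m u w, ρ c m x₁ w x₂ u * ρ c m x u x₁ w =
      if x = x₂ then d u / d x else 0
  counit : ∀ c m v u w w₂, 2 ≤ c → E c v w → E c v w₂ → E m u w → E m u w₂ →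
    ∑ x with E c x u ∧ E m x v, ρ c m x u v w₂ * (d u / d x)⁻¹ * ρ c m v w x u =
      if w = w₂ then 1 else 0

attribute [instance] Fus.fX Fus.dX Fus.dE

/-- one point of the path `0, …, m - 2` for every `2 ≤ m < B` -/
def XX (B : ℕ) : Type := {x : ℕ → ℕ // ∀ m, x m ≠ 0 → m < B ∧ x m + 2 ≤ m}

variable {B : ℕ}

/-- inject into `Fin B → Fin B` (or `Fin B → Fin (B + 1)`) -/
theorem finite_XX (B : ℕ) : Finite (XX B) := by
  refine Finite.of_injective (fun (x : XX B) (m : Fin B) => (⟨min (x.1 m) B, by omega⟩ : Fin (B + 1)))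
    fun x x' h => Subtype.ext (funext fun m => ?_)
  by_cases hm : m < B
  · have e := congrArg Fin.val (congrFun h ⟨m, hm⟩)
    have h1 := x.2 m
    have h2 := x'.2 m
    simp only at e
    omega
  · have h1 := x.2 m
    have h2 := x'.2 m
    omega

noncomputable instance : Fintype (XX B) := @Fintype.ofFinite _ (finite_XX B)
noncomputable instance : DecidableEq (XX B) := Classical.decEq _

/-- the weight -/
noncomputable def dXX (x : XX B) : ℝ := ∏ m ∈ Finset.range B, qq m (x.1 m + 1)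

/-- the graphs -/
def EX (m : ℕ) (x x' : XX B) : Prop :=
  if m = 0 then x = x' else (∀ k, k ≠ m → x'.1 k = x.1 k) ∧ adj1 (x.1 m) (x'.1 m)

noncomputable instance (m : ℕ) : DecidableRel (EX (B := B) m) := Classical.decRel _

/-- the connections -/
noncomputable def rhoX (c m : ℕ) (x u x₁ w : XX B) : ℝ :=
  if m = c then rr c (x.1 c) (u.1 c) (x₁.1 c) (w.1 c) else Real.sqrt (dXX u / dXX x)

/-- change one coordinate -/
noncomputable def updX (x : XX B) (m j : ℕ) : XX B :=
  if h : j ≠ 0 → m < B ∧ j + 2 ≤ m then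
    ⟨Function.update x.1 m j, fun k hk => by
      by_cases e : k = m
      · subst e
        rw [Function.update_self] at hk ⊢
        exact h hk
      · rw [Function.update_of_ne e] at hk ⊢
        exact x.2 k hk⟩
  else x

theorem updX_self (x : XX B) {m j : ℕ} (h : j ≠ 0 → m < B ∧ j + 2 ≤ m) : (updX x m j).1 m = j := by
  unfold updX
  rw [dif_pos h]
  simp

theorem updX_ne (x : XX B) {m k : ℕ} (j : ℕ) (h : k ≠ m) : (updX x m j).1 k = x.1 k := by
  unfold updX
  split_ifs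
  · simp [h]
  · rfl

theorem dXX_pos (x : XX B) : 0 < dXX x := by
  refine Finset.prod_pos fun m _ => ?_
  by_cases h : x.1 m = 0
  · simp [h]
  · exact qq_pos (by omega) (by have := x.2 m h; omega)

theorem dXX_mul {m : ℕ} (hm : m < B) {x x' : XX B} (h : ∀ k, k ≠ m → x'.1 k = x.1 k) :
    dXX x' * qq m (x.1 m + 1) = dXX x * qq m (x'.1 m + 1) := by
  unfold dXX
  rw [← Finset.mul_prod_erase _ _ (Finset.mem_range.2 hm),
    ← Finset.mul_prod_erase _ (fun k => qq k (x.1 k + 1)) (Finset.mem_range.2 hm),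
    Finset.prod_congr rfl (fun k hk => by rw [h k (Finset.ne_of_mem_erase hk)])]
  ring

/-- the points that agree with `x` outside `m` (`Finset.sum_bij`) -/
theorem sum_line {m : ℕ} (h2 : 2 ≤ m) (hm : m < B) (x : XX B) (P : XX B → Prop) [DecidablePred P]
    (p : ℕ → Prop) [DecidablePred p]
    (hP : ∀ x', P x' ↔ (∀ k, k ≠ m → x'.1 k = x.1 k) ∧ p (x'.1 m)) (f : XX B → ℝ) :
    ∑ x' with P x', f x' = ∑ j ∈ (Finset.range (m - 1)).filter p, f (updX x m j) := by
  symm
  have hv : ∀ j ∈ (Finset.range (m - 1)).filter p, j ≠ 0 → m < B ∧ j + 2 ≤ m := fun j hj _ => by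
    have := Finset.mem_range.1 (Finset.mem_filter.1 hj).1
    omega
  refine Finset.sum_bij (fun j _ => updX x m j) (fun j hj => ?_) (fun j hj j' hj' e => ?_)
    (fun x' hx' => ?_) (fun _ _ => rfl)
  · refine Finset.mem_filter.2 ⟨Finset.mem_univ _, (hP _).2 ⟨fun k hk => updX_ne x j hk, ?_⟩⟩
    rw [updX_self x (hv j hj)]
    exact (Finset.mem_filter.1 hj).2
  · rw [← updX_self x (hv j hj), ← updX_self x (hv j' hj')]
    exact congrArg (fun y => y.1 m) e
  · obtain ⟨h1, h3⟩ := (hP _).1 (Finset.mem_filter.1 hx').2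
    refine ⟨x'.1 m, Finset.mem_filter.2 ⟨Finset.mem_range.2 ?_, h3⟩, Subtype.ext (funext fun k => ?_)⟩
    · have := x'.2 m
      omega
    · by_cases e : k = m
      · subst e
        exact updX_self x (x'.2 k)
      · rw [updX_ne x _ e, h1 k e]

theorem fus2_EX {m : ℕ} (h0 : m ≠ 0) (x x' : XX B) :
    EX m x x' ↔ (∀ k, k ≠ m → x'.1 k = x.1 k) ∧ adj1 (x.1 m) (x'.1 m) := by
  unfold EX
  rw [if_neg h0]

theorem fus2_ext {m : ℕ} {x x' : XX B} (h : x.1 m = x'.1 m) (h' : ∀ k, k ≠ m → x.1 k = x'.1 k) :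
    x = x' := by
  refine Subtype.ext (funext fun k => ?_)
  by_cases e : k = m
  · rw [e, h]
  · exact h' k e

theorem fus2_coord {m c : ℕ} {x x' : XX B} (h : EX m x x') (hc : c ≠ m) (_hc0 : c ≠ 0) :
    x'.1 c = x.1 c := by
  by_cases h0 : m = 0
  · unfold EX at h
    rw [if_pos h0] at h
    rw [h]
  · exact ((fus2_EX h0 _ _).1 h).1 c hc

theorem EX_bound {m : ℕ} (h0 : m ≠ 0) {x x' : XX B} (h : EX m x x') :
    m < B ∧ x.1 m + 2 ≤ m ∧ x'.1 m + 2 ≤ m := by
  unfold EX at h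
  rw [if_neg h0] at h
  have h1 := x.2 m
  have h2 := x'.2 m
  have h3 := h.2
  unfold adj1 at h3
  omega

theorem EX_symm (m : ℕ) (x x' : XX B) (h : EX m x x') : EX m x' x := by
  unfold EX at *
  split_ifs at * with e
  · exact h.symm
  · exact ⟨fun k hk => (h.1 k hk).symm, adj1_symm h.2⟩

theorem pfX (m : ℕ) (x : XX B) (h2 : 2 ≤ m) (hm : m < B) :
    ∑ x' with EX m x x', dXX x' = 2 * Real.cos (Real.pi / (m : ℝ)) * dXX x := by
  have hx : x.1 m + 2 ≤ m := by have := x.2 m; omega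
  have hq : 0 < qq m (x.1 m + 1) := qq_pos (by omega) (by omega)
  rw [sum_line h2 hm x _ (adj1 (x.1 m)) (fun x' => fus2_EX (by omega) x x')]
  refine mul_right_cancel₀ hq.ne' ?_
  rw [Finset.sum_mul, mul_right_comm, ← pf1 hx, Finset.sum_mul]
  refine Finset.sum_congr rfl fun j hj => ?_
  have hj' := Finset.mem_range.1 (Finset.mem_filter.1 hj).1
  rw [dXX_mul hm (fun k hk => updX_ne x j hk), updX_self x (fun _ => by omega), mul_comm]

/-- `uniq1` gives `f x = qq m (x m + 1) * f (updX x m 0)`; induction on the number of non-zero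
coordinates gives `f x = dXX x * f 0`. -/
theorem uniqX (f : XX B → ℝ) (h : ∀ m x, 2 ≤ m → m < B →
    ∑ x' with EX m x x', f x' = 2 * Real.cos (Real.pi / (m : ℝ)) * f x) (x x' : XX B) :
    f x * dXX x' = f x' * dXX x := by
  have key : ∀ (n : ℕ) (x : XX B), (∀ k, n ≤ k → x.1 k = 0) →
      f x = dXX x * f ⟨fun _ => 0, fun _ h => absurd rfl h⟩ := by
    intro n
    induction n with
    | zero =>
      intro x hx
      have e : x = ⟨fun _ => 0, fun _ h => absurd rfl h⟩ :=
        Subtype.ext (funext fun k => hx k (Nat.zero_le k))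
      rw [e]
      simp [dXX]
    | succ n ih =>
      intro x hx
      by_cases h0 : x.1 n = 0
      · refine ih x fun k hk => ?_
        rcases hk.eq_or_lt with e | e
        · exact e ▸ h0
        · exact hx k e
      · obtain ⟨hn, hxn⟩ := x.2 n h0
        have h1 := uniq1 (m := n) (fun j => f (updX x n j)) (fun j hj => by
          have e : (updX x n j).1 n = j := updX_self x fun _ => ⟨hn, hj⟩
          rw [← h n (updX x n j) (by omega) hn,
            sum_line (by omega) hn x _ (adj1 j) (fun x' => ?_)]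
          rw [fus2_EX (by omega), e]
          refine and_congr_left fun _ => forall_congr' fun k => forall_congr' fun hk => ?_
          rw [updX_ne x j hk]) hxn
        have e1 : updX x n (x.1 n) = x := Subtype.ext (funext fun k => by
          by_cases e : k = n
          · subst e
            exact updX_self x (x.2 k)
          · exact updX_ne x _ e)
        have e2 : (updX x n 0).1 n = 0 := updX_self x fun h => absurd rfl h
        simp only [e1] at h1
        rw [h1, ih (updX x n 0) (fun k hk => ?_)]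
        · have := dXX_mul hn (fun k hk => updX_ne x 0 hk)
          rw [e2] at this
          simp only [zero_add, qq_one, mul_one] at this
          rw [← this]
          ring
        · rcases hk.eq_or_lt with e | e
          · exact e ▸ e2
          · rw [updX_ne x 0 (by omega)]
            exact hx k e
  have hB : ∀ x : XX B, ∀ k, B ≤ k → x.1 k = 0 := fun x k hk => by
    have := x.2 k
    omega
  rw [key B x (hB x), key B x' (hB x')]
  ring

theorem fus2_ratio {m : ℕ} (hm : m < B) {x x' : XX B} (h : ∀ k, k ≠ m → x'.1 k = x.1 k) :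
    dXX x' / dXX x = qq m (x'.1 m + 1) / qq m (x.1 m + 1) := by
  have hq : 0 < qq m (x.1 m + 1) := by
    by_cases h : x.1 m = 0
    · simp [h]
    · exact qq_pos (by omega) (by have := x.2 m h; omega)
  rw [div_eq_div_iff (dXX_pos x).ne' hq.ne', dXX_mul hm h, mul_comm]

/-- squares for two different labels can be completed in exactly one way -/
theorem fus2_square {c m : ℕ} (hc0 : c ≠ 0) (e : m ≠ c) {x u x₁ : XX B} (h1 : EX c x u)
    (h3 : EX m x x₁) : ∃ w, EX c x₁ w ∧ EX m u w ∧ ∀ w', EX c x₁ w' → EX m u w' → w' = w := by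
  have e3 : x₁.1 c = x.1 c := fus2_coord h3 (Ne.symm e) hc0
  have s1 : (updX x₁ c (u.1 c)).1 c = u.1 c := updX_self x₁ (u.2 c)
  have h1' := (fus2_EX hc0 _ _).1 h1
  refine ⟨updX x₁ c (u.1 c), ?_, ?_, fun w' a b => ?_⟩
  · rw [fus2_EX hc0, s1, e3]
    exact ⟨fun k hk => updX_ne x₁ _ hk, h1'.2⟩
  · by_cases h0 : m = 0
    · unfold EX at h3 ⊢
      rw [if_pos h0] at h3 ⊢
      subst h3
      exact fus2_ext s1.symm fun k hk => by rw [updX_ne x _ hk, h1'.1 k hk]
    · have h3' := (fus2_EX h0 _ _).1 h3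
      rw [fus2_EX h0, updX_ne x₁ _ e, h1'.1 m e]
      refine ⟨fun k hk => ?_, h3'.2⟩
      by_cases ek : k = c
      · rw [ek, s1]
      · rw [updX_ne x₁ _ ek, h3'.1 k hk, h1'.1 k ek]
  · refine fus2_ext (m := c) ?_ fun k hk => ?_
    · rw [s1, fus2_coord b (Ne.symm e) hc0]
    · rw [updX_ne x₁ _ hk, ((fus2_EX hc0 _ _).1 a).1 k hk]

/-- `m = c`: `sum_line`, `unit1`, `dXX_mul`.  `m ≠ c`: `x₂ = x`, the only `w` is `updX x₁ c (u c)`
(`w = u` for `m = 0`), and `dXX w / dXX x₁ = dXX u / dXX x`. -/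
theorem unitX (c m : ℕ) (x u x₁ x₂ : XX B) (hc : 2 ≤ c) (h1 : EX c x u) (h2 : EX c x₂ u)
    (h3 : EX m x x₁) (h4 : EX m x₁ x₂) :
    ∑ w with EX c x₁ w ∧ EX m u w, rhoX c m x₁ w x₂ u * rhoX c m x u x₁ w =
      if x = x₂ then dXX u / dXX x else 0 := by
  have hc0 : c ≠ 0 := by omega
  obtain ⟨hcB, hx, hu⟩ := EX_bound hc0 h1
  by_cases e : m = c
  · subst e
    obtain ⟨-, -, hx₁⟩ := EX_bound hc0 h3
    obtain ⟨-, hx₂, -⟩ := EX_bound hc0 h2
    rw [fus2_EX hc0] at h1 h2 h3 h4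
    rw [sum_line hc hcB x _ (fun w => adj1 (x₁.1 m) w ∧ adj1 (u.1 m) w) (fun w => ?_)]
    · rw [Finset.sum_congr rfl (g := fun w => rr m (x₁.1 m) w (x₂.1 m) (u.1 m) *
        rr m (x.1 m) (u.1 m) (x₁.1 m) w) (fun j hj => ?_),
        unit1 hx hu hx₁ hx₂ h1.2 h2.2 h3.2 h4.2, fus2_ratio hcB h1.1]
      · refine if_congr ⟨fun e => fus2_ext e fun k hk => ?_, fun e => by rw [e]⟩ rfl rfl
        rw [← h1.1 k hk, h2.1 k hk]
      · have hj' := Finset.mem_range.1 (Finset.mem_filter.1 hj).1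
        simp only [rhoX, if_true]
        rw [updX_self x (fun _ => by omega)]
    · rw [fus2_EX hc0, fus2_EX hc0]
      constructor
      · rintro ⟨a, b⟩
        exact ⟨fun k hk => (b.1 k hk).trans (h1.1 k hk), a.2, b.2⟩
      · rintro ⟨a, b, c'⟩
        exact ⟨⟨fun k hk => (a k hk).trans (h3.1 k hk).symm, b⟩,
          fun k hk => (a k hk).trans (h1.1 k hk).symm, c'⟩
  · have e3 : x₁.1 c = x.1 c := fus2_coord h3 (Ne.symm e) hc0
    have e2 : x = x₂ := fus2_ext (m := c) (e3.symm.trans (fus2_coord h4 (Ne.symm e) hc0).symm)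
      fun k hk => by
        rw [← ((fus2_EX hc0 _ _).1 h1).1 k hk, ((fus2_EX hc0 _ _).1 h2).1 k hk]
    subst e2
    obtain ⟨w, hw1, hw2, hw3⟩ := fus2_square hc0 e h1 h3
    rw [if_pos rfl, Finset.sum_eq_single w]
    · simp only [rhoX, if_neg e]
      rw [fus2_ratio hcB ((fus2_EX hc0 _ _).1 hw1).1, fus2_coord hw2 (Ne.symm e) hc0, e3,
        ← fus2_ratio hcB ((fus2_EX hc0 _ _).1 h1).1,
        Real.mul_self_sqrt (div_pos (dXX_pos _) (dXX_pos _)).le]
    · intro w' hw' hne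
      exact absurd (hw3 w' (Finset.mem_filter.1 hw').2.1 (Finset.mem_filter.1 hw').2.2) hne
    · intro h
      exact absurd (Finset.mem_filter.2 ⟨Finset.mem_univ _, hw1, hw2⟩) h

/-- `m = c`: `counit1`.  `m ≠ c`: `w₂ = w`, the only `x` is `updX u c (v c)`. -/
theorem counitX (c m : ℕ) (v u w w₂ : XX B) (hc : 2 ≤ c) (h1 : EX c v w) (h2 : EX c v w₂)
    (h3 : EX m u w) (h4 : EX m u w₂) :
    ∑ x with EX c x u ∧ EX m x v, rhoX c m x u v w₂ * (dXX u / dXX x)⁻¹ * rhoX c m v w x u =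
      if w = w₂ then 1 else 0 := by
  have hc0 : c ≠ 0 := by omega
  obtain ⟨hcB, hv, hw⟩ := EX_bound hc0 h1
  by_cases e : m = c
  · subst e
    obtain ⟨-, hu, -⟩ := EX_bound hc0 h3
    obtain ⟨-, -, hw₂⟩ := EX_bound hc0 h2
    rw [fus2_EX hc0] at h1 h2 h3 h4
    rw [sum_line hc hcB u _ (fun x => adj1 x (u.1 m) ∧ adj1 x (v.1 m)) (fun x => ?_)]
    · rw [Finset.sum_congr rfl (g := fun x => rr m x (u.1 m) (v.1 m) (w₂.1 m) *
        (qq m (u.1 m + 1) / qq m (x + 1))⁻¹ * rr m (v.1 m) (w.1 m) x (u.1 m)) (fun j hj => ?_),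
        counit1 hv hu hw hw₂ h1.2 h2.2 h3.2 h4.2]
      · refine if_congr ⟨fun e => fus2_ext e fun k hk => ?_, fun e => by rw [e]⟩ rfl rfl
        rw [h1.1 k hk, h2.1 k hk]
      · have hj' := Finset.mem_range.1 (Finset.mem_filter.1 hj).1
        simp only [rhoX, if_true]
        rw [fus2_ratio hcB (fun k hk => (updX_ne u j hk).symm), updX_self u (fun _ => by omega)]
    · rw [fus2_EX hc0, fus2_EX hc0]
      constructor
      · rintro ⟨a, b⟩
        exact ⟨fun k hk => (a.1 k hk).symm, a.2, b.2⟩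
      · rintro ⟨a, b, c'⟩
        exact ⟨⟨fun k hk => (a k hk).symm, b⟩,
          fun k hk => ((h1.1 k hk).symm.trans (h3.1 k hk)).trans (a k hk).symm, c'⟩
  · have e3 : w.1 c = u.1 c := fus2_coord h3 (Ne.symm e) hc0
    have e2 : w = w₂ := fus2_ext (m := c) (e3.trans (fus2_coord h4 (Ne.symm e) hc0).symm)
      fun k hk => by
        rw [((fus2_EX hc0 _ _).1 h1).1 k hk, ((fus2_EX hc0 _ _).1 h2).1 k hk]
    subst e2
    obtain ⟨x, hx1, hx2, hx3⟩ := fus2_square hc0 e (EX_symm _ _ _ h1) (EX_symm _ _ _ h3)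
    have hx1' := EX_symm _ _ _ hx1
    rw [if_pos rfl, Finset.sum_eq_single x]
    · simp only [rhoX, if_neg e]
      have r : dXX w / dXX v = dXX u / dXX x := by
        rw [fus2_ratio hcB ((fus2_EX hc0 _ _).1 h1).1, fus2_ratio hcB ((fus2_EX hc0 _ _).1 hx1').1,
          e3, fus2_coord hx2 (Ne.symm e) hc0]
      have hp : 0 < dXX u / dXX x := div_pos (dXX_pos _) (dXX_pos _)
      rw [r, mul_right_comm, Real.mul_self_sqrt hp.le, mul_inv_cancel₀ hp.ne']
    · intro x' hx' hne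
      exact absurd (hx3 x' (EX_symm _ _ _ (Finset.mem_filter.1 hx').2.1)
        (EX_symm _ _ _ (Finset.mem_filter.1 hx').2.2)) hne
    · intro h
      exact absurd (Finset.mem_filter.2 ⟨Finset.mem_univ _, hx1', EX_symm _ _ _ hx2⟩) h

/-- the fusion data -/
noncomputable def fus (B : ℕ) : Fus B where
  X := XX B
  x₀ := ⟨fun _ => 0, fun _ h => absurd rfl h⟩
  d := dXX
  d_pos := dXX_pos
  E := EX
  E_zero _ _ := by simp [EX]
  E_symm := EX_symm
  pf := pfX
  uniq := uniqX
  ρ := rhoX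
  unit := unitX
  counit := counitX

end Crest.Agent.R175
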