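import Crest.Agent.R175.Basic

/-!
# R175: homotopy equivalences, shifts, simple objects.
-/

set_option autoImplicit false

namespace Crest.Agent.R175

open Matrix

variable {Q : Qv}

section D
variable {F G H : Obj Q} {p q : ℤ} {f f' : Mor F.toGr G.toGr} {g : Mor G.toGr H.toGr}

theorem he_L (hf : Exact F G p f) (hg : Closed G H 0 g) : Exact F H p (g * f) :=
  (Exact.closed_mul hf hg).of_eq (add_zero p)

theorem he_R (hf : Closed F G 0 f) (hg : Exact G H p g) : Exact F H p (g * f) :=
  (Exact.mul_closed hf hg).of_eq (zero_add p)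

theorem he_congr (h : Exact F G p f) (e : f' = f) : Exact F G p f' := e ▸ h

theorem IsHE.closed (h : IsHE F G f) : Closed F G 0 f := h.1
theorem IsHE.refl (F : Obj Q) : IsHE F F 1 :=
  ⟨Closed.one, 1, Closed.one, he_congr Exact.zero (by simp), he_congr Exact.zero (by simp)⟩
theorem IsHE.comp (hf : IsHE F G f) (hg : IsHE G H g) : IsHE F H (g * f) := by
  obtain ⟨hf, a, ha, h1, h2⟩ := hf
  obtain ⟨hg, b, hb, h3, h4⟩ := hg
  refine ⟨hf.mul0 hg, a * b, hb.mul0 ha, ?_, ?_⟩
  · refine he_congr ((he_L (he_R hf h3) ha).add h1) ?_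
    simp only [Matrix.sub_mul, Matrix.mul_sub, Matrix.one_mul, Matrix.mul_assoc]
    abel
  · refine he_congr ((he_L (he_R hb h2) hg).add h4) ?_
    simp only [Matrix.sub_mul, Matrix.mul_sub, Matrix.one_mul, Matrix.mul_assoc]
    abel
theorem IsHE.of_exact_sub (hf : IsHE F G f) (h : Exact F G 0 (f' - f)) : IsHE F G f' := by
  obtain ⟨hf, a, ha, h1, h2⟩ := hf
  refine ⟨?_, a, ha, ?_, ?_⟩
  · have := hf.add h.closed
    rwa [add_sub_cancel] at this
  · refine he_congr (h1.add (he_L h ha)) ?_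
    simp only [Matrix.mul_sub]
    abel
  · refine he_congr (h2.add (he_R ha h)) ?_
    simp only [Matrix.sub_mul]
    abel
theorem IsHE.exists_inv (hf : IsHE F G f) : ∃ g, IsHE G F g ∧ Exact F F 0 (g * f - 1) ∧
    Exact G G 0 (f * g - 1) := by
  obtain ⟨hf, a, ha, h1, h2⟩ := hf
  exact ⟨a, ⟨ha, f, hf, h2, h1⟩, h1, h2⟩
/-- two out of three -/
theorem IsHE.of_comp_left (hf : Closed F G 0 f) (hg : IsHE G H g) (h : IsHE F H (g * f)) :
    IsHE F G f := by
  obtain ⟨b, hb, h1, -⟩ := hg.exists_inv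
  refine (h.comp hb).of_exact_sub (he_congr (he_R hf h1).neg ?_)
  simp only [Matrix.sub_mul, Matrix.one_mul, Matrix.mul_assoc]
  abel
theorem IsHE.of_comp_right (hf : IsHE F G f) (hg : Closed G H 0 g) (h : IsHE F H (g * f)) :
    IsHE G H g := by
  obtain ⟨a, ha, -, h2⟩ := hf.exists_inv
  refine (ha.comp h).of_exact_sub (he_congr (he_L h2 hg).neg ?_)
  simp only [Matrix.mul_sub, Matrix.mul_one, Matrix.mul_assoc]
  abel
/-- a closed invertible matrix: the inverse is automatically closed -/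
theorem IsHE.of_inv {g : Mor G.toGr F.toGr} (hf : Closed F G 0 f) (hg : IsHom G.toGr F.toGr 0 g)
    (h1 : g * f = 1) (h2 : f * g = 1) : IsHE F G f := by
  refine ⟨hf, g, Closed.of_comm0 hg ?_, he_congr Exact.zero (by rw [h1, sub_self]),
    he_congr Exact.zero (by rw [h2, sub_self])⟩
  calc F.δ * g = (g * f) * F.δ * g := by rw [h1, Matrix.one_mul]
    _ = g * (f * F.δ) * g := by simp only [Matrix.mul_assoc]
    _ = g * (G.δ * f) * g := by rw [hf.comm0]
    _ = g * G.δ * (f * g) := by simp only [Matrix.mul_assoc]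
    _ = g * G.δ := by rw [h2, Matrix.mul_one]

theorem HE.refl (F : Obj Q) : HE F F := ⟨1, IsHE.refl F⟩
theorem HE.symm (h : HE F G) : HE G F := by
  obtain ⟨f, hf⟩ := h
  obtain ⟨g, hg, -⟩ := hf.exists_inv
  exact ⟨g, hg⟩
theorem HE.trans (h : HE F G) (h' : HE G H) : HE F H := by
  obtain ⟨f, hf⟩ := h
  obtain ⟨g, hg⟩ := h'
  exact ⟨g * f, hf.comp hg⟩

/-- reindexing: use the matrix `fun j i => if j = e i then 1 else 0` -/
theorem HE.of_equiv (e : F.ι ≃ G.ι) (hv : ∀ i, G.vtx (e i) = F.vtx i)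
    (hk : ∀ i, G.deg (e i) = F.deg i) (hδ : ∀ j i, G.δ (e j) (e i) = F.δ j i) : HE F G := by
  let M : Mor F.toGr G.toGr := Matrix.of fun j i => if j = e i then 1 else 0
  let N : Mor G.toGr F.toGr := Matrix.of fun i j => if j = e i then 1 else 0
  have hM : IsHom F.toGr G.toGr 0 M := by
    intro j i
    by_cases h : j = e i
    · subst h
      simp only [M, Matrix.of_apply, if_true]
      rw [hv, hk]
      exact Ok.one
    · simp only [M, Matrix.of_apply, if_neg h]
      exact Ok.zero _ _ _ _ _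
  have hN : IsHom G.toGr F.toGr 0 N := by
    intro i j
    by_cases h : j = e i
    · subst h
      simp only [N, Matrix.of_apply, if_true]
      rw [hv, hk]
      exact Ok.one
    · simp only [N, Matrix.of_apply, if_neg h]
      exact Ok.zero _ _ _ _ _
  refine ⟨M, IsHE.of_inv (g := N) (Closed.of_comm0 hM ?_) hN ?_ ?_⟩
  · refine Matrix.ext fun j i => ?_
    obtain ⟨j, rfl⟩ := e.surjective j
    simp [M, Matrix.mul_apply, hδ]
  · refine Matrix.ext fun j i => ?_
    simp [M, N, Matrix.mul_apply, Matrix.one_apply, eq_comm]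
  · refine Matrix.ext fun j i => ?_
    obtain ⟨j, rfl⟩ := e.surjective j
    obtain ⟨i, rfl⟩ := e.surjective i
    simp [M, N, Matrix.mul_apply, Matrix.one_apply]

theorem HomZero.of_HE {F' G' : Obj Q} (h : HomZero p F G) (hF : HE F F') (hG : HE G G') :
    HomZero p F' G' := by
  obtain ⟨a, ha, a', ha', -, h2⟩ := hF
  obtain ⟨b, hb, b', hb', -, h4⟩ := hG
  intro φ hφ
  have c1 : Closed F G p (b' * (φ * a)) :=
    (((ha.mul hφ).of_eq (zero_add p)).mul hb').of_eq (add_zero p)
  have e1 := he_L (he_R ha' (h _ c1)) hb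
  have c2 : Closed F' G' p (φ * (a * a')) := ((ha'.mul0 ha).mul hφ).of_eq (zero_add p)
  have e2 := (Exact.mul_closed c2 h4).of_eq (add_zero p)
  have e3 := (Exact.closed_mul h2 hφ).of_eq (zero_add p)
  refine he_congr ((e1.sub e2).sub e3) ?_
  simp only [Matrix.sub_mul, Matrix.mul_sub, Matrix.one_mul, Matrix.mul_one, Matrix.mul_assoc]
  abel
theorem homZero_congr {F' G' : Obj Q} (hF : HE F F') (hG : HE G G') :
    HomZero p F G ↔ HomZero p F' G' :=
  ⟨fun h => h.of_HE hF hG, fun h => h.of_HE hF.symm hG.symm⟩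
theorem EndScal.of_HE (h : EndScal F) (hF : HE F G) : EndScal G := by
  obtain ⟨a, ha, a', ha', -, h2⟩ := hF
  intro φ hφ
  obtain ⟨c, hc⟩ := h _ ((ha.mul0 hφ).mul0 ha')
  refine ⟨c, ?_⟩
  have e1 := he_L (he_R ha' hc) ha
  have e2 := he_R ((ha'.mul0 ha).mul0 hφ) h2
  have e3 := he_L h2 hφ
  refine he_congr (((e1.sub e2).sub e3).add (h2.smul c)) ?_
  simp only [Matrix.sub_mul, Matrix.mul_sub, Matrix.one_mul, Matrix.mul_one, Matrix.mul_assoc,
    Matrix.smul_mul, Matrix.mul_smul, smul_sub]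
  abel
theorem Contr.of_HE (h : Contr F) (hF : HE F G) : Contr G := by
  obtain ⟨a, ha, a', ha', -, h2⟩ := hF
  refine he_congr ((he_L (he_R ha' h) ha).sub h2) ?_
  simp only [Matrix.one_mul]
  abel
theorem Contr.homZero_left (h : Contr F) : HomZero p F G := fun f hf =>
  he_congr ((Exact.closed_mul h hf).of_eq (zero_add p)) (Matrix.mul_one f).symm
theorem Contr.homZero_right (h : Contr G) : HomZero p F G := fun f hf =>
  he_congr ((Exact.mul_closed hf h).of_eq (add_zero p)) (Matrix.one_mul f).symm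
theorem Contr.he (h : Contr F) (h' : Contr G) : HE F G :=
  ⟨0, Closed.zero, 0, Closed.zero, he_congr (Exact.neg h) (by simp),
    he_congr (Exact.neg h') (by simp)⟩
theorem contr_of_isEmpty (h : IsEmpty F.ι) : Contr F :=
  he_congr Exact.zero (Matrix.ext fun j _ => h.elim j)

/-- there are no homogeneous morphisms for degree reasons -/
theorem homZero_of_deg
    (h : ∀ i j, F.deg i + p < G.deg j ∨ G.deg j < F.deg i + p - 2) : HomZero p F G := by
  intro f hf
  refine he_congr Exact.zero (Matrix.ext fun j i => ?_)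
  obtain ⟨h0, h1, h2⟩ := hf.hom j i
  have := h i j
  refine Z.ext ?_ (funext fun a => ?_) ?_
  · by_contra hc
    have := (h0 hc).2
    omega
  · by_contra hc
    have := (h1 a hc).2.2
    omega
  · by_contra hc
    have := (h2 hc).2
    omega

theorem he_hom_right (n : ℤ) {f : Mor F.toGr G.toGr} :
    IsHom F.toGr (shift n G).toGr p f ↔ IsHom F.toGr G.toGr (p + n) f :=
  ⟨fun h j i => Ok.of_eq (h j i) (by simp only [shift]; omega),
    fun h j i => Ok.of_eq (h j i) (by simp only [shift]; omega)⟩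

theorem he_hom_left (n : ℤ) {f : Mor F.toGr G.toGr} :
    IsHom (shift n F).toGr G.toGr p f ↔ IsHom F.toGr G.toGr (p - n) f :=
  ⟨fun h j i => Ok.of_eq (h j i) (by simp only [shift]; omega),
    fun h j i => Ok.of_eq (h j i) (by simp only [shift]; omega)⟩

theorem he_D_right (n : ℤ) (f : Mor F.toGr G.toGr) :
    Dd F (shift n G) p f = sg n • Dd F G (p + n) f := by
  change (sg n • G.δ) * f - sg p • (f * F.δ) = sg n • (G.δ * f - sg (p + n) • (f * F.δ))
  rw [Matrix.smul_mul, smul_sub, smul_smul, sg_add, mul_comm (sg p), ← mul_assoc, sg_mul_self,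
    one_mul]

theorem he_D_left (n : ℤ) (f : Mor F.toGr G.toGr) :
    Dd (shift n F) G p f = Dd F G (p - n) f := by
  change G.δ * f - sg p • (f * (sg n • F.δ)) = G.δ * f - sg (p - n) • (f * F.δ)
  rw [Matrix.mul_smul, smul_smul, sg_sub]

theorem closed_shift_right (n : ℤ) {f : Mor F.toGr G.toGr} :
    Closed F (shift n G) p f ↔ Closed F G (p + n) f := by
  constructor
  · intro h
    refine ⟨(he_hom_right n).1 h.hom, ?_⟩
    have h1 : sg n • Dd F G (p + n) f = 0 := (he_D_right n f).symm.trans h.cl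
    exact (smul_eq_zero.1 h1).resolve_left (sg_ne_zero n)
  · intro h
    refine ⟨(he_hom_right n).2 h.hom, (he_D_right n f).trans ?_⟩
    exact (congrArg (fun x : Mor F.toGr G.toGr => sg n • x) h.cl).trans (smul_zero _)
theorem closed_shift_left (n : ℤ) {f : Mor F.toGr G.toGr} :
    Closed (shift n F) G p f ↔ Closed F G (p - n) f :=
  ⟨fun h => ⟨(he_hom_left n).1 h.hom, (he_D_left n f).symm.trans h.cl⟩,
    fun h => ⟨(he_hom_left n).2 h.hom, (he_D_left n f).trans h.cl⟩⟩
theorem exact_shift_right (n : ℤ) {f : Mor F.toGr G.toGr} :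
    Exact F (shift n G) p f ↔ Exact F G (p + n) f := by
  have e : p - 1 + n = p + n - 1 := by ring
  constructor
  · rintro ⟨g, hg, h⟩
    have hg' : IsHom F.toGr G.toGr (p - 1 + n) g := (he_hom_right n).1 hg
    have h' : f = sg n • Dd F G (p - 1 + n) g := h.trans (he_D_right (F := F) (G := G) n g)
    rw [e] at hg' h'
    exact ⟨_, hg'.smul (sg n), h'.trans (Dd_smul (F := F) (G := G) (sg n)).symm⟩
  · rintro ⟨g, hg, h⟩
    rw [← e] at hg h
    refine ⟨(sg n • g : Mor F.toGr G.toGr), (he_hom_right n).2 (hg.smul _), ?_⟩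
    refine Eq.trans ?_ (he_D_right n (sg n • g)).symm
    rw [Dd_smul, smul_smul, sg_mul_self, one_smul]
    exact h
theorem exact_shift_left (n : ℤ) {f : Mor F.toGr G.toGr} :
    Exact (shift n F) G p f ↔ Exact F G (p - n) f := by
  have e : p - 1 - n = p - n - 1 := by ring
  constructor
  · rintro ⟨g, hg, h⟩
    have hg' : IsHom F.toGr G.toGr (p - 1 - n) g := (he_hom_left n).1 hg
    have h' : f = Dd F G (p - 1 - n) g := h.trans (he_D_left (F := F) (G := G) n g)
    rw [e] at hg' h'
    exact ⟨g, hg', h'⟩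
  · rintro ⟨g, hg, h⟩
    rw [← e] at hg h
    exact ⟨g, (he_hom_left n).2 hg, h.trans (he_D_left n g).symm⟩
theorem homZero_shift_right (n : ℤ) : HomZero p F (shift n G) ↔ HomZero (p + n) F G :=
  ⟨fun h f hf => (exact_shift_right n).1 (h f ((closed_shift_right n).2 hf)),
    fun h f hf => (exact_shift_right n).2 (h f ((closed_shift_right n).1 hf))⟩
theorem homZero_shift_left (n : ℤ) : HomZero p (shift n F) G ↔ HomZero (p - n) F G :=
  ⟨fun h f hf => (exact_shift_left n).1 (h f ((closed_shift_left n).2 hf)),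
    fun h f hf => (exact_shift_left n).2 (h f ((closed_shift_left n).1 hf))⟩

theorem he_closed_both (n : ℤ) (h : Closed F G p f) : Closed (shift n F) (shift n G) p f :=
  (closed_shift_right (F := shift n F) n).2
    ((closed_shift_left n).2 (h.of_eq (by ring)))

theorem he_exact_both (n : ℤ) (h : Exact F G p f) : Exact (shift n F) (shift n G) p f :=
  (exact_shift_right (F := shift n F) n).2
    ((exact_shift_left n).2 (h.of_eq (by ring)))

theorem IsHE.shift (h : IsHE F G f) (n : ℤ) : IsHE (shift n F) (shift n G) f := by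
  obtain ⟨hf, a, ha, h1, h2⟩ := h
  exact ⟨he_closed_both n hf, a, he_closed_both n ha, he_exact_both n h1, he_exact_both n h2⟩
theorem HE.shift (h : HE F G) (n : ℤ) : HE (shift n F) (shift n G) := by
  obtain ⟨f, hf⟩ := h
  exact ⟨f, hf.shift n⟩
theorem shift_zero_he (F : Obj Q) : HE (shift 0 F) F :=
  HE.of_equiv (Equiv.refl F.ι) (fun _ => rfl) (fun i => (sub_zero (F.deg i)).symm)
    (fun j i => by
      change F.δ j i = sg 0 • F.δ j i
      rw [sg_zero, one_smul])
theorem shift_shift_he (m n : ℤ) (F : Obj Q) : HE (shift m (shift n F)) (shift (m + n) F) :=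
  HE.of_equiv (Equiv.refl F.ι) (fun _ => rfl)
    (fun i => by
      change F.deg i - (m + n) = F.deg i - n - m
      ring)
    (fun j i => by
      change sg (m + n) • F.δ j i = sg m • sg n • F.δ j i
      rw [sg_add, smul_smul])
theorem Minimal.shift (h : Minimal F) (n : ℤ) : Minimal (shift n F) := fun j i => by
  change sg n * (F.δ j i).c0 = 0
  rw [h j i, mul_zero]
theorem Contr.shift (h : Contr F) (n : ℤ) : Contr (shift n F) := he_exact_both n h

theorem homZero_simple {v w : Q.V} (h0 : p = 0 → v ≠ w) (h2 : p = 2 → v ≠ w)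
    (h1 : p = 1 → ∀ a, ¬ (Q.src a = v ∧ Q.tgt a = w)) : HomZero p (simple v) (simple w) := by
  intro f hf
  refine he_congr Exact.zero (Matrix.ext fun j i => ?_)
  have k : Ok v 0 w 0 p (f j i) := hf.hom j i
  obtain ⟨k0, k1, k2⟩ := k
  refine Z.ext ?_ (funext fun a => ?_) ?_
  · by_contra hc
    exact h0 (by have := (k0 hc).2; omega) (k0 hc).1.symm
  · by_contra hc
    exact h1 (by have := (k1 a hc).2.2; omega) a ⟨(k1 a hc).1, (k1 a hc).2.1⟩
  · by_contra hc
    exact h2 (by have := (k2 hc).2; omega) (k2 hc).1.symm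

theorem he_D_simple {v w : Q.V} (f : Mor (simple v).toGr (simple w).toGr) :
    Dd (simple v) (simple w) p f = 0 := by
  have e1 : (simple v).δ = 0 := rfl
  have e2 : (simple w).δ = 0 := rfl
  rw [Dd, e1, e2, Matrix.zero_mul, Matrix.mul_zero, smul_zero, sub_zero]

theorem not_homZero_simple_arr (a : Q.A) :
    ¬ HomZero 1 (simple (Q.src a)) (simple (Q.tgt a)) := by
  intro h
  have hc : Closed (simple (Q.src a)) (simple (Q.tgt a)) 1 (Matrix.of fun _ _ => Z.xi a) := by
    refine ⟨fun j i => ?_, he_D_simple _⟩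
    change Ok (Q.src a) 0 (Q.tgt a) 0 1 (Z.xi a)
    refine ⟨fun h => absurd rfl h, fun b hb => ?_, fun h => absurd rfl h⟩
    have : b = a := by
      by_contra hne
      exact hb (by simp [hne])
    subst this
    exact ⟨rfl, rfl, by norm_num⟩
  obtain ⟨g, -, hg⟩ := h _ hc
  rw [he_D_simple] at hg
  have h1 : Z.xi a = 0 := congrFun (congrFun hg ()) ()
  have h2 := congrArg (fun x : Z Q => x.c1 a) h1
  simp at h2
theorem endScal_simple (v : Q.V) : EndScal (simple v) := by
  intro f hf
  refine ⟨(f () ()).c0, he_congr Exact.zero (Matrix.ext fun j i => ?_)⟩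
  have k : Ok v 0 v 0 0 (f () ()) := hf.hom () ()
  obtain ⟨-, k1, k2⟩ := k
  have e : (1 : Mor (simple v).toGr (simple v).toGr) () () = 1 := Matrix.one_apply_eq _
  change f () () - (f () ()).c0 • (1 : Mor (simple v).toGr (simple v).toGr) () () = 0
  rw [e]
  refine Z.ext ?_ (funext fun a => ?_) ?_
  · simp
  · have : (f () ()).c1 a = 0 := by
      by_contra hc
      have := (k1 a hc).2.2
      omega
    simp [this]
  · have : (f () ()).c2 = 0 := by
      by_contra hc
      have := (k2 hc).2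
      omega
    simp [this]

end D

end Crest.Agent.R175
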