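import Crest.Agent.R175.Theta

/-!
# R175: `Tm U` and `Tp U` are inverse to each other.

Let `X` be supported on `U` (e.g. `X = Θ F`).  As `U` is independent, the indices of `Θ X` are
`(x, one)` and `(x, top)`: there are scalar matrices `j1, jw : X → Θ X`, `p1, pw : Θ X → X` with
`p1 j1 = 1 = pw jw`, `p1 jw = 0 = pw j1`, `j1 p1 + jw pw = 1`, and for scalar `g`:
`Θ g * j1 = j1 * g`, `Θ g * jw = jw * g`, `p1 * Θ g = g * p1`, `pw * Θ g = g * pw`.
Let `μ = Θ (ω • 1) : Θ F → Θ F` (it sends `(i, one)` to `(i, top)`), `ω = Z.om`.  Then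
`coev * ev = ω + μ`, `coev_X = ω j1 + jw`, `ev_X = p1 + ω pw`, `Θ ev = p1 + μ pw`,
`Θ coev = j1 μ + jw`.

Write an element of `Tp (Tm F)` as `(x, y, z, u, w)`: `x ∈ F`, `y ∈ Θ F` (inside `Tm F`),
`z ∈ Θ F`, `(u, w) ∈ Θ Θ F` (inside `Θ (Tm F)`, decomposed with `Θ` of the four block matrices
`in1, in2, pr1, pr2` of `Tm F`).  Then
`δ (x,y,z,u,w) = (δ x + ev y, -Θδ y, coev x - Θδ z - u - μ w, ω y + Θδ u, y + Θδ w)`,
`ι x = (x,0,0,coev x,0)`, `π = x - ev w`, `κ (x,y,z,u,w) = (0,w,0,-z,0)`: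
`π ι = 1`, `1 - ι π = δ κ + κ δ`.
For `Tm (Tp F)`:
`δ (x,y,z,u,w) = (δ x + ev z, coev x - Θδ y + u + ω w, -Θδ z, -μ z + Θδ u, -z + Θδ w)`,
`ι x = (x,0,0,-coev x,0)`, `π = x + ev w`, `κ = (0,0,-w,y,0)`.
Naturality of `ι`: `Tp (Tm f)` is block diagonal with blocks `f, σ Θf, σ Θf, ΘΘ f`, `σ = sg p`.
-/

set_option autoImplicit false

namespace Crest.Agent.R175

open Matrix

variable {Q : Qv} {U : Q.V → Prop} [DecidablePred U]

/-- `i ↦ (i, β)` -/
def invJ (U : Q.V → Prop) [DecidablePred U] (X : Gr Q) (β : Bs Q) : Mor X (ThGr U X) :=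
  fun y i => if y.1 = (i, β) then 1 else 0

/-- `(i, β) ↦ i` -/
def invP (U : Q.V → Prop) [DecidablePred U] (X : Gr Q) (β : Bs Q) : Mor (ThGr U X) X :=
  fun i y => if y.1 = (i, β) then 1 else 0

section entries
variable {X : Gr Q} {κ : Type}

theorem inv_mul_J (M : Matrix κ (ThGr U X).ι (Z Q)) (β : Bs Q) (k : κ) (i : X.ι)
    (h : okB U (X.vtx i) β) : (M * invJ U X β) k i = M k ⟨(i, β), h⟩ := by
  rw [Matrix.mul_apply, Finset.sum_eq_single ⟨(i, β), h⟩]
  · simp [invJ]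
  · intro y _ hy
    have : y.1 ≠ (i, β) := fun e => hy (Subtype.ext e)
    simp only [invJ, if_neg this, mul_zero]
  · exact fun h => absurd (Finset.mem_univ _) h

theorem inv_P_mul (M : Matrix (ThGr U X).ι κ (Z Q)) (β : Bs Q) (k : κ) (i : X.ι)
    (h : okB U (X.vtx i) β) : (invP U X β * M) i k = M ⟨(i, β), h⟩ k := by
  rw [Matrix.mul_apply, Finset.sum_eq_single ⟨(i, β), h⟩]
  · simp [invP]
  · intro y _ hy
    have : y.1 ≠ (i, β) := fun e => hy (Subtype.ext e)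
    simp only [invP, if_neg this, zero_mul]
  · exact fun h => absurd (Finset.mem_univ _) h

theorem inv_J_mul (M : Matrix X.ι κ (Z Q)) (β : Bs Q) (k : κ) (y : (ThGr U X).ι) :
    (invJ U X β * M) y k = if y.1.2 = β then M y.1.1 k else 0 := by
  rw [Matrix.mul_apply, Finset.sum_eq_single y.1.1]
  · by_cases h : y.1.2 = β
    · have : y.1 = (y.1.1, β) := by rw [← h]
      simp only [invJ, if_pos this, if_pos h, one_mul]
    · have : y.1 ≠ (y.1.1, β) := fun e => h (by rw [e])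
      simp only [invJ, if_neg this, if_neg h, zero_mul]
  · intro j _ hj
    have : y.1 ≠ (j, β) := fun e => hj (by rw [e])
    simp only [invJ, if_neg this, zero_mul]
  · simp

theorem inv_mul_P (M : Matrix κ X.ι (Z Q)) (β : Bs Q) (k : κ) (y : (ThGr U X).ι) :
    (M * invP U X β) k y = if y.1.2 = β then M k y.1.1 else 0 := by
  rw [Matrix.mul_apply, Finset.sum_eq_single y.1.1]
  · by_cases h : y.1.2 = β
    · have : y.1 = (y.1.1, β) := by rw [← h]
      simp only [invP, if_pos this, if_pos h, mul_one]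
    · have : y.1 ≠ (y.1.1, β) := fun e => h (by rw [e])
      simp only [invP, if_neg this, if_neg h, mul_zero]
  · intro j _ hj
    have : y.1 ≠ (j, β) := fun e => hj (by rw [e])
    simp only [invP, if_neg this, mul_zero]
  · simp

theorem inv_J_hom : IsHom X (ThGr U X) 0 (invJ U X .one) := by
  rintro ⟨⟨j, β⟩, hy⟩ i
  unfold invJ
  split_ifs with h
  · obtain ⟨rfl, rfl⟩ := Prod.mk.inj h
    exact Ok.sc 1 rfl
  · exact Ok.zero _ _ _ _ _

theorem inv_P_hom : IsHom (ThGr U X) X (-2) (invP U X .top) := by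
  rintro i ⟨⟨j, β⟩, hy⟩
  unfold invP
  split_ifs with h
  · obtain ⟨rfl, rfl⟩ := Prod.mk.inj h
    refine Ok.sc 1 ?_
    change X.deg j = X.deg j + 2 + -2
    omega
  · exact Ok.zero _ _ _ _ _

theorem inv_P_J (hX : ∀ i, U (X.vtx i)) : invP U X .top * invJ U X .one = 0 := by
  funext i k
  rw [inv_P_mul _ .top k i (hX i)]
  simp [invJ]

theorem inv_JP (hU : Indep U) (hX : ∀ i, U (X.vtx i)) :
    invJ U X .one * invP U X .one + invJ U X .top * invP U X .top = 1 := by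
  funext y y'
  rw [Matrix.add_apply, inv_J_mul, inv_J_mul, Matrix.one_apply]
  have e : ∀ β, y.1.2 = β → (if y'.1 = (y.1.1, β) then (1 : Z Q) else 0) = if y = y' then 1 else 0 :=
    fun β hβ => by
      by_cases h : y = y'
      · rw [if_pos h, if_pos (by rw [← h, ← hβ])]
      · rw [if_neg h, if_neg (fun e => h (Subtype.ext (by rw [e, ← hβ])))]
  have hy := y.2
  rcases hβ : y.1.2 with _ | a | _
  · simp only [invP, if_true, reduceCtorEq, if_false, add_zero]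
    exact e _ hβ
  · rw [hβ] at hy
    exact absurd ⟨hy.1, hy.2 ▸ hX y.1.1⟩ (hU a)
  · simp only [invP, if_true, reduceCtorEq, if_false, zero_add]
    exact e _ hβ

theorem inv_Th_J {Y : Gr Q} {g : Mor X Y} (hX : ∀ i, U (X.vtx i)) (hg : Scalar g) :
    ThM U X Y g * invJ U X .one = invJ U Y .one * g := by
  funext y i
  rw [inv_mul_J _ .one y i (hX i), inv_J_mul]
  change Z.sc (Bs.co y.1.2 (g y.1.1 i * Bs.el .one)) = _
  have h := hg y.1.1 i
  generalize g y.1.1 i = x at h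
  generalize y.1.2 = β
  cases β <;> ext a <;> simp [Bs.co, Bs.el, h.1, h.2]

theorem inv_P_Th {Y : Gr Q} {g : Mor X Y} (hY : ∀ i, U (Y.vtx i)) (hg : Scalar g) :
    invP U Y .top * ThM U X Y g = g * invP U X .top := by
  funext j y
  rw [inv_P_mul _ .top y j (hY j), inv_mul_P]
  change Z.sc (Bs.co .top (g j y.1.1 * Bs.el y.1.2)) = _
  have h := hg j y.1.1
  generalize g j y.1.1 = x at h
  generalize y.1.2 = β
  cases β <;> ext a <;> simp [Bs.co, Bs.el, h.1, h.2]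

theorem inv_ev_J (hX : ∀ i, U (X.vtx i)) : evM U X * invJ U X .one = 1 := by
  funext j i
  rw [inv_mul_J _ .one j i (hX i), Matrix.one_apply]
  rfl

theorem inv_ev_Jw (hX : ∀ i, U (X.vtx i)) : evM U X * invJ U X .top = (Z.om : Z Q) • 1 := by
  funext j i
  rw [inv_mul_J _ .top j i (hX i), Matrix.smul_apply, Matrix.one_apply]
  simp [evM, Bs.el]

theorem inv_P_coev (hX : ∀ i, U (X.vtx i)) : invP U X .top * coevM U X = 1 := by
  funext j i
  rw [inv_P_mul _ .top i j (hX j), Matrix.one_apply]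
  rfl

theorem inv_P1_coev (hX : ∀ i, U (X.vtx i)) : invP U X .one * coevM U X = (Z.om : Z Q) • 1 := by
  funext j i
  rw [inv_P_mul _ .one i j (hX j), Matrix.smul_apply, Matrix.one_apply]
  simp [coevM, Bs.el, Bs.dual]

end entries

section theta
variable {A : Gr Q}

theorem inv_Thι_eq {y z : (ThGr U A).ι} : y = z ↔ y.1.1 = z.1.1 ∧ y.1.2 = z.1.2 :=
  ⟨fun h => by rw [h]; exact ⟨rfl, rfl⟩, fun h => Subtype.ext (Prod.ext h.1 h.2)⟩

theorem inv_Thev_J : ThM U (ThGr U A) A (evM U A) * invJ U (ThGr U A) .one = 1 := by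
  funext y i
  rw [inv_mul_J _ .one y i (U_vtx_ThGr i), Matrix.one_apply]
  change Z.sc (Bs.co y.1.2 ((if y.1.1 = i.1.1 then Bs.el i.1.2 else 0) * 1)) = _
  rw [mul_one]
  by_cases h : y.1.1 = i.1.1
  · rw [if_pos h, Bs.co_el]
    by_cases h' : y.1.2 = i.1.2
    · rw [if_pos h', if_pos (inv_Thι_eq.2 ⟨h, h'⟩), Z.sc_one]
    · rw [if_neg h', if_neg (fun e => h' (inv_Thι_eq.1 e).2), Z.sc_zero]
  · rw [if_neg h, if_neg (fun e => h (inv_Thι_eq.1 e).1), Bs.co_zero, Z.sc_zero]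

theorem inv_Thev_Jw : ThM U (ThGr U A) A (evM U A) * invJ U (ThGr U A) .top =
    ThM U A A ((Z.om : Z Q) • 1) := by
  funext y i
  rw [inv_mul_J _ .top y i (U_vtx_ThGr i)]
  change Z.sc (Bs.co y.1.2 ((if y.1.1 = i.1.1 then Bs.el i.1.2 else 0) * Z.om)) =
    Z.sc (Bs.co y.1.2 (((Z.om : Z Q) • (1 : Mor A A)) y.1.1 i.1.1 * Bs.el i.1.2))
  rw [Matrix.smul_apply, Matrix.one_apply]
  congr 2
  split_ifs <;> simp [mul_comm]

theorem inv_P_Thcoev : invP U (ThGr U A) .top * ThM U A (ThGr U A) (coevM U A) = 1 := by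
  funext i y
  rw [inv_P_mul _ .top y i (U_vtx_ThGr i), Matrix.one_apply]
  change Z.sc (((if i.1.1 = y.1.1 then Bs.el i.1.2.dual else 0) * Bs.el y.1.2).c2) = _
  by_cases h : i.1.1 = y.1.1
  · rw [if_pos h, ← Bs.co_eq_tr, Bs.co_el]
    by_cases h' : i.1.2 = y.1.2
    · rw [if_pos h', if_pos (inv_Thι_eq.2 ⟨h, h'⟩), Z.sc_one]
    · rw [if_neg h', if_neg (fun e => h' (inv_Thι_eq.1 e).2), Z.sc_zero]
  · rw [if_neg h, if_neg (fun e => h (inv_Thι_eq.1 e).1), zero_mul, Z.zero_c2, Z.sc_zero]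

theorem inv_P1_Thcoev : invP U (ThGr U A) .one * ThM U A (ThGr U A) (coevM U A) =
    ThM U A A ((Z.om : Z Q) • 1) := by
  funext i y
  rw [inv_P_mul _ .one y i (U_vtx_ThGr i)]
  change Z.sc (((if i.1.1 = y.1.1 then Bs.el i.1.2.dual else 0) * Bs.el y.1.2).c0) =
    Z.sc (Bs.co i.1.2 (((Z.om : Z Q) • (1 : Mor A A)) i.1.1 y.1.1 * Bs.el y.1.2))
  rw [Matrix.smul_apply, Matrix.one_apply]
  congr 1
  generalize i.1.2 = β
  generalize y.1.2 = β'
  split_ifs
  · cases β <;> cases β' <;> simp [Bs.co, Bs.el, Bs.dual]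
  · simp

omit [DecidablePred U] in
theorem inv_el_mul (hU : Indep U) {v : Q.V} {β β' : Bs Q} (h : okB U v β) (h' : okB U v β') :
    Bs.el β.dual * Bs.el β' =
      (if β = β' then (Z.om : Z Q) else 0) + Z.sc (Bs.co β (Z.om * Bs.el β')) := by
  cases β with
  | one =>
    cases β' <;> ext a <;> simp [Bs.co, Bs.el, Bs.dual]
  | top =>
    cases β' with
    | arr b => exact absurd ⟨h'.1, h'.2 ▸ h⟩ (hU b)
    | one => ext a <;> simp [Bs.co, Bs.el, Bs.dual]
    | top => ext a <;> simp [Bs.co, Bs.el, Bs.dual]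
  | arr b =>
    cases β' with
    | one => exact absurd ⟨h.1, h.2 ▸ h'⟩ (hU b)
    | top => ext a <;> simp [Bs.co, Bs.el, Bs.dual]
    | arr c =>
      by_cases e : b = c
      · subst e
        ext a <;> simp [Bs.co, Bs.el, Bs.dual]
      · ext a <;> simp [Bs.co, Bs.el, Bs.dual, e, Qv.bar_inj, Ne.symm e]

theorem inv_coev_ev (hU : Indep U) :
    coevM U A * evM U A = (Z.om : Z Q) • 1 + ThM U A A ((Z.om : Z Q) • 1) := by
  funext y z
  rw [Matrix.mul_apply, Finset.sum_eq_single y.1.1, Matrix.add_apply, Matrix.smul_apply,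
    Matrix.one_apply]
  · change (if y.1.1 = y.1.1 then Bs.el y.1.2.dual else 0) *
      (if y.1.1 = z.1.1 then Bs.el z.1.2 else 0) = _ +
        Z.sc (Bs.co y.1.2 (((Z.om : Z Q) • (1 : Mor A A)) y.1.1 z.1.1 * Bs.el z.1.2))
    rw [if_pos rfl, Matrix.smul_apply, Matrix.one_apply]
    by_cases h : y.1.1 = z.1.1
    · rw [if_pos h, if_pos h, inv_el_mul hU y.2 (h ▸ z.2), smul_eq_mul, smul_eq_mul, mul_one]
      congr 1
      by_cases h' : y.1.2 = z.1.2
      · rw [if_pos h', if_pos (inv_Thι_eq.2 ⟨h, h'⟩), mul_one]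
      · rw [if_neg h', if_neg (fun e => h' (inv_Thι_eq.1 e).2), mul_zero]
    · rw [if_neg h, if_neg h, if_neg (fun e => h (inv_Thι_eq.1 e).1)]
      simp
  · intro j _ hj
    simp only [coevM, if_neg (Ne.symm hj), zero_mul]
  · exact fun h => absurd (Finset.mem_univ _) h

theorem inv_E2 (hU : Indep U) :
    invJ U (ThGr U A) .one * ThM U (ThGr U A) A (evM U A) +
      coevM U (ThGr U A) * invP U (ThGr U A) .top =
    1 + invJ U (ThGr U A) .one * (coevM U A * evM U A) * invP U (ThGr U A) .top := by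
  have hX : ∀ i, U ((ThGr U A).vtx i) := U_vtx_ThGr
  have h := inv_JP hU hX
  have h1 : ThM U (ThGr U A) A (evM U A) =
      invP U (ThGr U A) .one + ThM U A A ((Z.om : Z Q) • 1) * invP U (ThGr U A) .top := by
    rw [← Matrix.mul_one (ThM U (ThGr U A) A (evM U A)), ← h, Matrix.mul_add, ← Matrix.mul_assoc,
      ← Matrix.mul_assoc, inv_Thev_J, inv_Thev_Jw, Matrix.one_mul]
  have h2 : coevM U (ThGr U A) =
      (Z.om : Z Q) • invJ U (ThGr U A) .one + invJ U (ThGr U A) .top := by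
    rw [← Matrix.one_mul (coevM U (ThGr U A)), ← h, Matrix.add_mul, Matrix.mul_assoc,
      Matrix.mul_assoc, inv_P1_coev hX, inv_P_coev hX, Matrix.mul_one, Matrix.mul_smul, Matrix.mul_one]
  rw [h1, h2, inv_coev_ev hU, ← h]
  simp only [Matrix.mul_add, Matrix.add_mul, Matrix.mul_smul, Matrix.smul_mul, Matrix.mul_one,
    Matrix.mul_assoc]
  abel

theorem inv_E8 (hU : Indep U) :
    ThM U A (ThGr U A) (coevM U A) * invP U (ThGr U A) .top +
      invJ U (ThGr U A) .one * evM U (ThGr U A) =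
    1 + invJ U (ThGr U A) .one * (coevM U A * evM U A) * invP U (ThGr U A) .top := by
  have hX : ∀ i, U ((ThGr U A).vtx i) := U_vtx_ThGr
  have h := inv_JP hU hX
  have h1 : ThM U A (ThGr U A) (coevM U A) =
      invJ U (ThGr U A) .one * ThM U A A ((Z.om : Z Q) • 1) + invJ U (ThGr U A) .top := by
    rw [← Matrix.one_mul (ThM U A (ThGr U A) (coevM U A)), ← h, Matrix.add_mul, Matrix.mul_assoc,
      Matrix.mul_assoc, inv_P1_Thcoev, inv_P_Thcoev, Matrix.mul_one]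
  have h2 : evM U (ThGr U A) =
      invP U (ThGr U A) .one + (Z.om : Z Q) • invP U (ThGr U A) .top := by
    rw [← Matrix.mul_one (evM U (ThGr U A)), ← h, Matrix.mul_add, ← Matrix.mul_assoc,
      ← Matrix.mul_assoc, inv_ev_J hX, inv_ev_Jw hX, Matrix.one_mul, Matrix.smul_mul, Matrix.one_mul]
  rw [h1, h2, inv_coev_ev hU, ← h]
  simp only [Matrix.mul_add, Matrix.add_mul, Matrix.mul_smul, Matrix.smul_mul, Matrix.mul_one,
    Matrix.mul_assoc]
  abel

end theta

section alg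
variable {R : Type} [CommRing R] {α β γ m τ : Type} [Fintype α] [Fintype β] [Fintype γ] [Fintype m]
  [Fintype τ] [DecidableEq α] [DecidableEq β] [DecidableEq γ] [DecidableEq m] [DecidableEq τ]

theorem inv_assoc {k l n : Type} [Fintype l] [Fintype n] {A : Matrix k l R} {B : Matrix l n R}
    {C : Matrix k n R} (h : A * B = C) {κ : Type} (Y : Matrix n κ R) : A * (B * Y) = C * Y := by
  rw [← Matrix.mul_assoc, h]

theorem inv_alg1 {d : Matrix α α R} {D : Matrix β β R} {DD : Matrix γ γ R} {dM : Matrix m m R}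
    {TM : Matrix τ τ R} {ev : Matrix α β R} {co : Matrix β α R} {a : Matrix m α R}
    {b : Matrix m β R} {a' : Matrix α m R} {b' : Matrix β m R} {Ta : Matrix τ β R}
    {Tb : Matrix τ γ R} {Ta' : Matrix β τ R} {Tb' : Matrix γ τ R} {cM : Matrix τ m R}
    {cX : Matrix γ β R} {Tev : Matrix β γ R} {j : Matrix γ β R} {w : Matrix β γ R}
    {DX : Matrix β β R} {TN : Matrix τ τ R} (hD : DX = -D) (hT : TN = -TM)
    (hda : dM * a = a * d) (hdb : dM * b = a * ev + b * DX) (had : a' * dM = d * a' + ev * b')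
    (hTb : TM * Tb = Ta * Tev + Tb * DD) (hTa' : Ta' * TM = D * Ta' + Tev * Tb')
    (hTb' : Tb' * TM = DD * Tb') (hca : cM * a = Ta * co) (hcb : cM * b = Tb * cX)
    (hca' : Ta' * cM = co * a') (hcb' : Tb' * cM = cX * b') (haa : a' * a = 1)
    (hs : a * a' + b * b' = 1) (hbb : Tb' * Tb = 1) (hTs : Ta * Ta' + Tb * Tb' = 1)
    (hev : d * ev = ev * D) (hco : co * d = D * co) (E1 : Tev * j = 1)
    (E2 : j * Tev + cX * w = 1 + j * (co * ev) * w) (E3 : w * cX = 1) (E4 : w * j = 0)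
    (E5 : DD * j = j * DX) (E6 : w * DD = DX * w) :
    fromBlocks TN cM 0 dM * fromRows (Tb * j * co) a = fromRows (Tb * j * co) a * d ∧
    d * fromCols (-(ev * w * Tb')) a' = fromCols (-(ev * w * Tb')) a' * fromBlocks TN cM 0 dM ∧
    fromCols (-(ev * w * Tb')) a' * fromRows (Tb * j * co) a = 1 ∧
    fromRows (Tb * j * co) a * fromCols (-(ev * w * Tb')) a' - 1 =
      fromBlocks TN cM 0 dM * fromBlocks (Tb * j * Ta') 0 (-(b * w * Tb')) 0 +
        fromBlocks (Tb * j * Ta') 0 (-(b * w * Tb')) 0 * fromBlocks TN cM 0 dM := by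
  subst hD hT
  refine ⟨?_, ?_, ?_, ?_⟩
  · rw [fromBlocks_mul_fromRows, fromRows_mul, Matrix.zero_mul, zero_add, hda]
    congr 1
    simp only [Matrix.mul_assoc, Matrix.neg_mul, Matrix.mul_neg, inv_assoc hTb, Matrix.add_mul,
      inv_assoc E1, inv_assoc E5, hca, hco, Matrix.one_mul]
    abel
  · rw [fromCols_mul_fromBlocks, mul_fromCols, Matrix.mul_zero, add_zero]
    congr 1
    · simp only [Matrix.mul_assoc, Matrix.neg_mul, Matrix.mul_neg, hTb', inv_assoc E6,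
        inv_assoc hev, neg_neg]
    · simp only [Matrix.mul_assoc, Matrix.neg_mul, hcb', inv_assoc E3, had, Matrix.one_mul]
      abel
  · rw [fromCols_mul_fromRows]
    simp only [Matrix.mul_assoc, Matrix.neg_mul, inv_assoc hbb, Matrix.one_mul, inv_assoc E4,
      Matrix.zero_mul, Matrix.mul_zero, neg_zero, zero_add, haa]
  · rw [fromRows_mul_fromCols, fromBlocks_multiply, fromBlocks_multiply, ← fromBlocks_one,
      sub_eq_add_neg, fromBlocks_neg, fromBlocks_add, fromBlocks_add]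
    have E2' : ∀ {κ : Type} (Y : Matrix γ κ R), cX * (w * Y) =
        Y + j * (co * (ev * (w * Y))) - j * (Tev * Y) := fun Y => by
      have := congrArg (· * Y) E2
      simp only [Matrix.add_mul, Matrix.mul_assoc, Matrix.one_mul] at this
      rw [← this]
      abel
    congr 1
    · simp only [Matrix.mul_assoc, Matrix.neg_mul, Matrix.mul_neg, inv_assoc hTb, Matrix.add_mul,
        inv_assoc E1, inv_assoc E5, inv_assoc hcb, hTa', Matrix.mul_add, Matrix.mul_sub, E2',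
        Matrix.one_mul, Matrix.zero_mul, ← hTs]
      abel
    · simp only [Matrix.mul_assoc, Matrix.mul_zero, Matrix.zero_mul, hca', neg_zero, add_zero,
        zero_add]
    · simp only [Matrix.mul_assoc, Matrix.neg_mul, Matrix.mul_neg, inv_assoc hdb, Matrix.add_mul,
        hTb', inv_assoc E6, Matrix.zero_mul]
      abel
    · simp only [Matrix.mul_assoc, Matrix.neg_mul, Matrix.mul_zero, Matrix.zero_mul, hcb',
        inv_assoc E3, Matrix.one_mul, ← hs]
      abel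

theorem inv_alg2 {d : Matrix α α R} {D : Matrix β β R} {DD : Matrix γ γ R} {dM : Matrix m m R}
    {TM : Matrix τ τ R} {ev : Matrix α β R} {co : Matrix β α R} {a : Matrix m α R}
    {b : Matrix m β R} {a' : Matrix α m R} {b' : Matrix β m R} {Ta : Matrix τ β R}
    {Tb : Matrix τ γ R} {Ta' : Matrix β τ R} {Tb' : Matrix γ τ R} {eM : Matrix m τ R}
    {eX : Matrix β γ R} {Tco : Matrix γ β R} {j : Matrix γ β R} {w : Matrix β γ R}
    {DX : Matrix β β R} {TN : Matrix τ τ R} (hD : DX = -D) (hT : TN = -TM)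
    (hda : dM * a = b * co + a * d) (had : a' * dM = d * a') (hbd : b' * dM = DX * b' + co * a')
    (hTa : TM * Ta = Tb * Tco + Ta * D) (hTb : TM * Tb = Tb * DD)
    (hTb' : Tb' * TM = DD * Tb' + Tco * Ta') (hea : eM * Ta = a * ev) (heb : eM * Tb = b * eX)
    (hea' : a' * eM = ev * Ta') (heb' : b' * eM = eX * Tb') (haa : a' * a = 1)
    (hs : a * a' + b * b' = 1) (hbb : Tb' * Tb = 1) (hTs : Ta * Ta' + Tb * Tb' = 1)
    (hev : d * ev = ev * D) (hco : co * d = D * co) (E1 : eX * j = 1)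
    (E2 : Tco * w + j * eX = 1 + j * (co * ev) * w) (E3 : w * Tco = 1) (E4 : w * j = 0)
    (E5 : DD * j = j * DX) (E6 : w * DD = DX * w) :
    fromBlocks dM eM 0 TN * fromRows a (-(Tb * j * co)) = fromRows a (-(Tb * j * co)) * d ∧
    d * fromCols a' (ev * w * Tb') = fromCols a' (ev * w * Tb') * fromBlocks dM eM 0 TN ∧
    fromCols a' (ev * w * Tb') * fromRows a (-(Tb * j * co)) = 1 ∧
    fromRows a (-(Tb * j * co)) * fromCols a' (ev * w * Tb') - 1 =
      fromBlocks dM eM 0 TN * fromBlocks 0 0 (-(Tb * j * b')) (Ta * w * Tb') +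
        fromBlocks 0 0 (-(Tb * j * b')) (Ta * w * Tb') * fromBlocks dM eM 0 TN := by
  subst hD hT
  refine ⟨?_, ?_, ?_, ?_⟩
  · rw [fromBlocks_mul_fromRows, fromRows_mul, Matrix.zero_mul, zero_add]
    congr 1
    · simp only [Matrix.mul_assoc, Matrix.mul_neg, hda, inv_assoc heb, inv_assoc E1, Matrix.one_mul]
      abel
    · simp only [Matrix.mul_assoc, Matrix.neg_mul, Matrix.mul_neg, inv_assoc hTb, inv_assoc E5, hco,
        neg_neg]
  · rw [fromCols_mul_fromBlocks, mul_fromCols, Matrix.mul_zero, add_zero, had]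
    congr 1
    simp only [Matrix.mul_assoc, Matrix.mul_neg, Matrix.neg_mul, hTb', Matrix.mul_add, inv_assoc E6,
      inv_assoc hev, inv_assoc E3, hea', Matrix.one_mul]
    abel
  · rw [fromCols_mul_fromRows]
    simp only [Matrix.mul_assoc, Matrix.mul_neg, inv_assoc hbb, Matrix.one_mul, inv_assoc E4,
      Matrix.zero_mul, Matrix.mul_zero, neg_zero, add_zero, haa]
  · rw [fromRows_mul_fromCols, fromBlocks_multiply, fromBlocks_multiply, ← fromBlocks_one,
      sub_eq_add_neg, fromBlocks_neg, fromBlocks_add, fromBlocks_add]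
    have E2' : ∀ {κ : Type} (Y : Matrix γ κ R), Tco * (w * Y) =
        Y + j * (co * (ev * (w * Y))) - j * (eX * Y) := fun Y => by
      have := congrArg (· * Y) E2
      simp only [Matrix.add_mul, Matrix.mul_assoc, Matrix.one_mul] at this
      rw [← this]
      abel
    congr 1
    · simp only [Matrix.mul_assoc, Matrix.mul_neg, Matrix.mul_zero, Matrix.zero_mul, inv_assoc heb,
        inv_assoc E1, Matrix.one_mul, ← hs]
      abel
    · simp only [Matrix.mul_assoc, Matrix.mul_zero, Matrix.zero_mul, inv_assoc hea, neg_zero,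
        add_zero, zero_add]
    · simp only [Matrix.mul_assoc, Matrix.neg_mul, Matrix.mul_neg, inv_assoc hTb, hbd,
        Matrix.mul_add, inv_assoc E5, Matrix.mul_zero]
      abel
    · simp only [Matrix.mul_assoc, Matrix.neg_mul, Matrix.mul_neg, inv_assoc hTa, Matrix.add_mul,
        heb', hTb', Matrix.mul_add, Matrix.mul_sub, E2', inv_assoc E3, inv_assoc E6,
        Matrix.one_mul, Matrix.mul_zero, ← hTs]
      abel

end alg

section extd
variable {A C : Obj Q} {u : Mor C.toGr A.toGr}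

/-- inclusion of the first summand -/
noncomputable def invI1 (hu : Closed C A 1 u) : Mor A.toGr (ext A C u hu).toGr :=
  (fromRows 1 0 : Matrix (A.ι ⊕ C.ι) A.ι (Z Q))
/-- inclusion of the second summand -/
noncomputable def invI2 (hu : Closed C A 1 u) : Mor C.toGr (ext A C u hu).toGr :=
  (fromRows 0 1 : Matrix (A.ι ⊕ C.ι) C.ι (Z Q))
/-- projection to the first summand -/
noncomputable def invR1 (hu : Closed C A 1 u) : Mor (ext A C u hu).toGr A.toGr :=
  (fromCols 1 0 : Matrix A.ι (A.ι ⊕ C.ι) (Z Q))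
/-- projection to the second summand -/
noncomputable def invR2 (hu : Closed C A 1 u) : Mor (ext A C u hu).toGr C.toGr :=
  (fromCols 0 1 : Matrix C.ι (A.ι ⊕ C.ι) (Z Q))

variable (hu : Closed C A 1 u)

theorem inv_hom_rows {F : Gr Q} {p : ℤ} {s : Mor F A.toGr} {t : Mor F C.toGr}
    (hs : IsHom F A.toGr p s) (ht : IsHom F C.toGr p t) :
    IsHom F (ext A C u hu).toGr p (fromRows s t : Matrix (A.ι ⊕ C.ι) F.ι (Z Q)) := by
  rintro (j | j) i
  · exact hs j i
  · exact ht j i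

theorem inv_hom_cols {F : Gr Q} {p : ℤ} {s : Mor A.toGr F} {t : Mor C.toGr F}
    (hs : IsHom A.toGr F p s) (ht : IsHom C.toGr F p t) :
    IsHom (ext A C u hu).toGr F p (fromCols s t : Matrix F.ι (A.ι ⊕ C.ι) (Z Q)) := by
  rintro j (i | i)
  · exact hs j i
  · exact ht j i

theorem inv_hom_blocks {p : ℤ} {a : Mor A.toGr A.toGr} {b : Mor C.toGr A.toGr}
    {c : Mor A.toGr C.toGr} {d : Mor C.toGr C.toGr} (ha : IsHom A.toGr A.toGr p a)
    (hb : IsHom C.toGr A.toGr p b) (hc : IsHom A.toGr C.toGr p c) (hd : IsHom C.toGr C.toGr p d) :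
    IsHom (ext A C u hu).toGr (ext A C u hu).toGr p (fromBlocks a b c d) := by
  rintro (j | j) (i | i)
  · exact ha j i
  · exact hb j i
  · exact hc j i
  · exact hd j i

theorem invI1_hom : IsHom A.toGr (ext A C u hu).toGr 0 (invI1 hu) :=
  inv_hom_rows hu IsHom.one IsHom.zero
theorem invI2_hom : IsHom C.toGr (ext A C u hu).toGr 0 (invI2 hu) :=
  inv_hom_rows hu IsHom.zero IsHom.one
theorem invR1_hom : IsHom (ext A C u hu).toGr A.toGr 0 (invR1 hu) :=
  inv_hom_cols hu IsHom.one IsHom.zero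
theorem invR2_hom : IsHom (ext A C u hu).toGr C.toGr 0 (invR2 hu) :=
  inv_hom_cols hu IsHom.zero IsHom.one

theorem inv_d_I1 : (ext A C u hu).δ * invI1 hu = invI1 hu * A.δ := by
  change fromBlocks A.δ u 0 C.δ * (fromRows 1 0 : Matrix (A.ι ⊕ C.ι) A.ι (Z Q)) =
    (fromRows 1 0 : Matrix (A.ι ⊕ C.ι) A.ι (Z Q)) * A.δ
  simp [fromBlocks_mul_fromRows, fromRows_mul]

theorem inv_d_I2 : (ext A C u hu).δ * invI2 hu = invI1 hu * u + invI2 hu * C.δ := by
  change fromBlocks A.δ u 0 C.δ * (fromRows 0 1 : Matrix (A.ι ⊕ C.ι) C.ι (Z Q)) =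
    (fromRows 1 0 : Matrix (A.ι ⊕ C.ι) A.ι (Z Q)) * u +
      (fromRows 0 1 : Matrix (A.ι ⊕ C.ι) C.ι (Z Q)) * C.δ
  rw [fromBlocks_mul_fromRows, fromRows_mul, fromRows_mul]
  ext1 (j | j) i <;> simp

theorem inv_R1_d : invR1 hu * (ext A C u hu).δ = A.δ * invR1 hu + u * invR2 hu := by
  change (fromCols 1 0 : Matrix A.ι (A.ι ⊕ C.ι) (Z Q)) * fromBlocks A.δ u 0 C.δ =
    A.δ * (fromCols 1 0 : Matrix A.ι (A.ι ⊕ C.ι) (Z Q)) +
      u * (fromCols 0 1 : Matrix C.ι (A.ι ⊕ C.ι) (Z Q))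
  rw [fromCols_mul_fromBlocks, mul_fromCols, mul_fromCols]
  ext1 j (i | i) <;> simp

theorem inv_R2_d : invR2 hu * (ext A C u hu).δ = C.δ * invR2 hu := by
  change (fromCols 0 1 : Matrix C.ι (A.ι ⊕ C.ι) (Z Q)) * fromBlocks A.δ u 0 C.δ =
    C.δ * (fromCols 0 1 : Matrix C.ι (A.ι ⊕ C.ι) (Z Q))
  simp [fromCols_mul_fromBlocks, mul_fromCols]

theorem inv_R1_I1 : invR1 hu * invI1 hu = 1 := by
  change (fromCols 1 0 : Matrix A.ι (A.ι ⊕ C.ι) (Z Q)) *
    (fromRows 1 0 : Matrix (A.ι ⊕ C.ι) A.ι (Z Q)) = 1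
  simp [fromCols_mul_fromRows]

theorem inv_R2_I2 : invR2 hu * invI2 hu = 1 := by
  change (fromCols 0 1 : Matrix C.ι (A.ι ⊕ C.ι) (Z Q)) *
    (fromRows 0 1 : Matrix (A.ι ⊕ C.ι) C.ι (Z Q)) = 1
  simp [fromCols_mul_fromRows]

theorem inv_IR : invI1 hu * invR1 hu + invI2 hu * invR2 hu = 1 := by
  change (fromRows 1 0 : Matrix (A.ι ⊕ C.ι) A.ι (Z Q)) *
    (fromCols 1 0 : Matrix A.ι (A.ι ⊕ C.ι) (Z Q)) +
    (fromRows 0 1 : Matrix (A.ι ⊕ C.ι) C.ι (Z Q)) *
    (fromCols 0 1 : Matrix C.ι (A.ι ⊕ C.ι) (Z Q)) = (1 : Matrix (A.ι ⊕ C.ι) (A.ι ⊕ C.ι) (Z Q))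
  rw [fromRows_mul_fromCols, fromRows_mul_fromCols, fromBlocks_add, ← fromBlocks_one]
  simp

theorem inv_Td_I1 : ThM U _ _ (ext A C u hu).δ * ThM U _ _ (invI1 hu) =
    ThM U _ _ (invI1 hu) * ThM U _ _ A.δ := by
  rw [← ThM_mul (invI1_hom hu) (ext A C u hu).hom, inv_d_I1, ThM_mul A.hom (invI1_hom hu)]

theorem inv_Td_I2 : ThM U _ _ (ext A C u hu).δ * ThM U _ _ (invI2 hu) =
    ThM U _ _ (invI1 hu) * ThM U _ _ u + ThM U _ _ (invI2 hu) * ThM U _ _ C.δ := by
  rw [← ThM_mul (invI2_hom hu) (ext A C u hu).hom, inv_d_I2, map_add, ThM_mul hu.hom (invI1_hom hu),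
    ThM_mul C.hom (invI2_hom hu)]

theorem inv_TR1_d : ThM U _ _ (invR1 hu) * ThM U _ _ (ext A C u hu).δ =
    ThM U _ _ A.δ * ThM U _ _ (invR1 hu) + ThM U _ _ u * ThM U _ _ (invR2 hu) := by
  rw [← ThM_mul (ext A C u hu).hom (invR1_hom hu), inv_R1_d, map_add, ThM_mul (invR1_hom hu) A.hom,
    ThM_mul (invR2_hom hu) hu.hom]

theorem inv_TR2_d : ThM U _ _ (invR2 hu) * ThM U _ _ (ext A C u hu).δ =
    ThM U _ _ C.δ * ThM U _ _ (invR2 hu) := by
  rw [← ThM_mul (ext A C u hu).hom (invR2_hom hu), inv_R2_d, ThM_mul (invR2_hom hu) C.hom]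

theorem inv_TR1_I1 : ThM U _ _ (invR1 hu) * ThM U _ _ (invI1 hu) = 1 := by
  rw [← ThM_mul (invI1_hom hu) (invR1_hom hu), inv_R1_I1, ThM_one]

theorem inv_TR2_I2 : ThM U _ _ (invR2 hu) * ThM U _ _ (invI2 hu) = 1 := by
  rw [← ThM_mul (invI2_hom hu) (invR2_hom hu), inv_R2_I2, ThM_one]

theorem inv_TIR : ThM U _ _ (invI1 hu) * ThM U _ _ (invR1 hu) +
    ThM U _ _ (invI2 hu) * ThM U _ _ (invR2 hu) = 1 := by
  rw [← ThM_mul (invR1_hom hu) (invI1_hom hu), ← ThM_mul (invR2_hom hu) (invI2_hom hu), ← map_add,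
    inv_IR, ThM_one]

end extd

theorem inv_hom_shift_right {F : Gr Q} {G : Obj Q} {p q : ℤ} {f : Mor F G.toGr}
    (h : IsHom F G.toGr q f) (e : q = p + 1) : IsHom F (shift 1 G).toGr p f := fun j i =>
  (h j i).of_eq (by change G.deg j - 1 - F.deg i - p = _; omega)

theorem inv_hom_shift_left {F : Obj Q} {G : Gr Q} {p q : ℤ} {f : Mor F.toGr G}
    (h : IsHom F.toGr G q f) (e : q = p - 1) : IsHom (shift 1 F).toGr G p f := fun j i =>
  (h j i).of_eq (by change G.deg j - (F.deg i - 1) - p = _; omega)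

theorem inv_hom_shift_both {F G : Obj Q} {p : ℤ} {f : Mor F.toGr G.toGr}
    (h : IsHom F.toGr G.toGr p f) : IsHom (shift 1 F).toGr (shift 1 G).toGr p f := fun j i =>
  (h j i).of_eq (by change G.deg j - 1 - (F.deg i - 1) - p = _; omega)

theorem inv_shift_δ (F : Obj Q) : (shift 1 F).δ = -F.δ := by
  change sg 1 • F.δ = _
  rw [sg_one, neg_smul, one_smul]

theorem inv_scalar_smul {α β : Type} {g : Matrix α β (Z Q)} (h : Scalar g) (r : ℝ) :
    Scalar (r • g) := fun j i =>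
  ⟨fun a => by simp [(h j i).1 a], by simp [(h j i).2]⟩

theorem inv_isHE {F N : Obj Q} {ι : Mor F.toGr N.toGr} {π : Mor N.toGr F.toGr}
    {κ : Mor N.toGr N.toGr} (hι : IsHom F.toGr N.toGr 0 ι) (hπ : IsHom N.toGr F.toGr 0 π)
    (hκ : IsHom N.toGr N.toGr (-1) κ)
    (h : N.δ * ι = ι * F.δ ∧ F.δ * π = π * N.δ ∧ π * ι = 1 ∧ ι * π - 1 = N.δ * κ + κ * N.δ) :
    IsHE F N ι := by
  refine ⟨Closed.of_comm0 hι h.1, π, Closed.of_comm0 hπ h.2.1, ?_, κ, hκ.of_eq (by norm_num), ?_⟩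
  · rw [h.2.2.1, sub_self]
    exact Exact.zero
  · rw [h.2.2.2, Dd, sg_sub_one, sg_zero, neg_smul, one_smul, sub_neg_eq_add]


section main
variable (U)

/-- `Θ F [1]` -/
noncomputable abbrev invX (F : Obj Q) : Obj Q := shift 1 (ThObj U F)

/-- `ev`, from `Θ F [1]` -/
def invEv (F : Obj Q) : Mor (invX U F).toGr F.toGr := evM U F.toGr
/-- `coev`, to `Θ F [1]` -/
def invCo (F : Obj Q) : Mor F.toGr (invX U F).toGr := coevM U F.toGr
/-- `Θ g`, to `Θ F [1]` -/
def invTo (F : Obj Q) {G : Gr Q} (g : Mor G F.toGr) : Mor (ThGr U G) (invX U F).toGr :=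
  ThM U G F.toGr g
/-- `Θ g`, from `Θ F [1]` -/
def invFr (F : Obj Q) {G : Gr Q} (g : Mor F.toGr G) : Mor (invX U F).toGr (ThGr U G) :=
  ThM U F.toGr G g
/-- `Θ f : Θ F [1] → Θ G [1]` -/
def invTh (F G : Obj Q) (g : Mor F.toGr G.toGr) : Mor (invX U F).toGr (invX U G).toGr :=
  ThM U F.toGr G.toGr g

theorem inv_X_vtx (F : Obj Q) : ∀ i, U ((invX U F).vtx i) := U_vtx_ThGr (F := F.toGr)

theorem inv_X_scalar (F : Obj Q) : Scalar (invX U F).δ :=
  inv_scalar_smul (ThM_scalar (U := U) F.δ) (sg 1)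

/-- `F → Tp (Tm F)` -/
noncomputable def invIo1 (F : Obj Q) : Mor F.toGr (TpObj U (TmObj U F)).toGr :=
  fromRows (ThM U _ _ (invI2 (closed_evM' U F)) * invJ U (invX U F).toGr .one * invCo U F)
    (invI1 (closed_evM' U F))

/-- `F → Tm (Tp F)` -/
noncomputable def invIo2 (F : Obj Q) : Mor F.toGr (TmObj U (TpObj U F)).toGr :=
  fromRows (invI2 (closed_coevM' U F))
    (-(ThM U _ _ (invI1 (closed_coevM' U F)) * invJ U (invX U F).toGr .one * invCo U F))

variable {U}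

theorem inv_he1 (hU : Indep U) (F : Obj Q) : IsHE F (TpObj U (TmObj U F)) (invIo1 U F) := by
  have hu := closed_evM' U F
  have hX := inv_X_vtx U F
  have hev : IsHom (invX U F).toGr F.toGr 1 (invEv U F) := hu.hom
  have hco : IsHom F.toGr (invX U F).toGr 1 (invCo U F) := (closed_coevM' U F).hom
  have hTa : IsHom _ (invX U F).toGr (-1) (invTo U F (invR1 hu)) :=
    inv_hom_shift_right (G := ThObj U F) (ThM_hom (invR1_hom hu)) (by norm_num)
  refine inv_isHE
    (π := fromCols (-(invEv U F * invP U (invX U F).toGr .top * ThM U _ _ (invR2 hu))) (invR1 hu))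
    (κ := fromBlocks (ThM U _ _ (invI2 hu) * invJ U (invX U F).toGr .one * invTo U F (invR1 hu)) 0
      (-(invI2 hu * invP U (invX U F).toGr .top * ThM U _ _ (invR2 hu))) 0) ?_ ?_ ?_ ?_
  · refine inv_hom_rows (closed_coevM' U (TmObj U F)) ?_ (invI1_hom hu)
    exact inv_hom_shift_right (G := ThObj U (TmObj U F))
      (hco.mul (inv_J_hom.mul (ThM_hom (invI2_hom hu)))) (by norm_num)
  · refine inv_hom_cols (closed_coevM' U (TmObj U F)) ?_ (invR1_hom hu)
    exact inv_hom_shift_left (F := ThObj U (TmObj U F))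
      ((ThM_hom (invR2_hom hu)).mul (inv_P_hom.mul hev)).neg (by norm_num)
  · refine inv_hom_blocks (closed_coevM' U (TmObj U F)) ?_ IsHom.zero ?_ IsHom.zero
    · exact inv_hom_shift_both (F := ThObj U (TmObj U F)) (G := ThObj U (TmObj U F))
        ((hTa.mul (inv_J_hom.mul (ThM_hom (invI2_hom hu)))).of_eq (by norm_num))
    · exact inv_hom_shift_left (F := ThObj U (TmObj U F))
        ((ThM_hom (invR2_hom hu)).mul (inv_P_hom.mul (invI2_hom hu))).neg (by norm_num)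
  · exact inv_alg1 (D := invTh U F F F.δ) (Ta := invFr U F (invI1 hu)) (cX := coevM U (invX U F).toGr)
      (inv_shift_δ (ThObj U F)) (inv_shift_δ (ThObj U (TmObj U F))) (inv_d_I1 hu) (inv_d_I2 hu)
      (inv_R1_d hu) (inv_Td_I2 hu) (inv_TR1_d hu) (inv_TR2_d hu) (coevM_mul (invI1_hom hu))
      (coevM_mul (invI2_hom hu)) (coevM_mul (invR1_hom hu)).symm (coevM_mul (invR2_hom hu)).symm
      (inv_R1_I1 hu) (inv_IR hu) (inv_TR2_I2 hu) (inv_TIR hu) (mul_evM F.hom) (coevM_mul F.hom)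
      inv_Thev_J (inv_E2 hU) (inv_P_coev hX) (inv_P_J hX) (inv_Th_J hX (inv_X_scalar U F))
      (inv_P_Th hX (inv_X_scalar U F))

theorem inv_he2 (hU : Indep U) (F : Obj Q) : IsHE F (TmObj U (TpObj U F)) (invIo2 U F) := by
  have hu := closed_coevM' U F
  have hX := inv_X_vtx U F
  have hev : IsHom (invX U F).toGr F.toGr 1 (invEv U F) := (closed_evM' U F).hom
  have hco : IsHom F.toGr (invX U F).toGr 1 (invCo U F) := hu.hom
  have hTa : IsHom (invX U F).toGr _ 1 (invFr U F (invI2 hu)) :=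
    inv_hom_shift_left (F := ThObj U F) (ThM_hom (invI2_hom hu)) (by norm_num)
  refine inv_isHE
    (π := fromCols (invR2 hu) (invEv U F * invP U (invX U F).toGr .top * ThM U _ _ (invR1 hu)))
    (κ := fromBlocks 0 0 (-(ThM U _ _ (invI1 hu) * invJ U (invX U F).toGr .one * invR1 hu))
      (invFr U F (invI2 hu) * invP U (invX U F).toGr .top * ThM U _ _ (invR1 hu))) ?_ ?_ ?_ ?_
  · refine inv_hom_rows (closed_evM' U (TpObj U F)) (invI2_hom hu) ?_
    exact inv_hom_shift_right (G := ThObj U (TpObj U F))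
      (hco.mul (inv_J_hom.mul (ThM_hom (invI1_hom hu)))).neg (by norm_num)
  · refine inv_hom_cols (closed_evM' U (TpObj U F)) (invR2_hom hu) ?_
    exact inv_hom_shift_left (F := ThObj U (TpObj U F))
      ((ThM_hom (invR1_hom hu)).mul (inv_P_hom.mul hev)) (by norm_num)
  · refine inv_hom_blocks (closed_evM' U (TpObj U F)) IsHom.zero IsHom.zero ?_ ?_
    · exact inv_hom_shift_right (G := ThObj U (TpObj U F))
        ((invR1_hom hu).mul (inv_J_hom.mul (ThM_hom (invI1_hom hu)))).neg (by norm_num)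
    · exact inv_hom_shift_both (F := ThObj U (TpObj U F)) (G := ThObj U (TpObj U F))
        (((ThM_hom (invR1_hom hu)).mul (inv_P_hom.mul hTa)).of_eq (by norm_num))
  · exact inv_alg2 (D := invTh U F F F.δ) (Ta' := invTo U F (invR2 hu)) (eX := evM U (invX U F).toGr)
      (inv_shift_δ (ThObj U F)) (inv_shift_δ (ThObj U (TpObj U F))) (inv_d_I2 hu) (inv_R2_d hu)
      (inv_R1_d hu) (inv_Td_I2 hu) (inv_Td_I1 hu) (inv_TR1_d hu) (mul_evM (invI2_hom hu)).symm
      (mul_evM (invI1_hom hu)).symm (mul_evM (invR2_hom hu)) (mul_evM (invR1_hom hu))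
      (inv_R2_I2 hu) ((add_comm _ _).trans (inv_IR hu)) (inv_TR1_I1 hu)
      ((add_comm _ _).trans (inv_TIR hu)) (mul_evM F.hom) (coevM_mul F.hom)
      (inv_ev_J hX) (inv_E8 hU) inv_P_Thcoev (inv_P_J hX) (inv_Th_J hX (inv_X_scalar U F))
      (inv_P_Th hX (inv_X_scalar U F))

theorem inv_alg3 {α β γ τ α' β' γ' τ' : Type} [Fintype α'] [Fintype β] [Fintype γ]
    [Fintype τ] [Fintype β'] [Fintype γ'] {f : Matrix α' α (Z Q)} {Tf : Matrix β' β (Z Q)}
    {TTf : Matrix γ' γ (Z Q)} {Tg : Matrix τ' τ (Z Q)} {Tb : Matrix τ γ (Z Q)}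
    {Tb' : Matrix τ' γ' (Z Q)} {j : Matrix γ β (Z Q)} {j' : Matrix γ' β' (Z Q)}
    {co : Matrix β α (Z Q)} {co' : Matrix β' α' (Z Q)} (p : ℤ)
    (h1 : Tg * Tb = sg p • (Tb' * TTf)) (h2 : TTf * j = j' * Tf) (h3 : co' * f = Tf * co) :
    (sg p • Tg) * (Tb * j * co) = Tb' * j' * co' * f := by
  simp only [Matrix.mul_assoc, Matrix.smul_mul, inv_assoc h1, inv_assoc h2, h3, smul_smul,
    sg_mul_self, one_smul]

theorem inv_nat1 (F G : Obj Q) (p : ℤ) (f : Mor F.toGr G.toGr) (hf : IsHom F.toGr G.toGr p f) :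
    TpM U _ _ p (TmM U F G p f) * invIo1 U F = invIo1 U G * f := by
  have hu := closed_evM' U F
  have hv := closed_evM' U G
  have hT : IsHom (invX U F).toGr (invX U G).toGr p (invTh U F G f) :=
    inv_hom_shift_both (F := ThObj U F) (G := ThObj U G) (ThM_hom hf)
  obtain ⟨g, hg⟩ : ∃ g : Mor (ext F (invX U F) _ hu).toGr (ext G (invX U G) _ hv).toGr,
      g = TmM U F G p f := ⟨_, rfl⟩
  have hgh : IsHom _ _ p g := hg ▸ TmM_hom U hf
  have h1 : g * invI1 hu = invI1 hv * f := by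
    rw [hg]
    change fromBlocks f 0 0 (sg p • invTh U F G f) *
      (fromRows 1 0 : Matrix (F.ι ⊕ (invX U F).ι) F.ι (Z Q)) =
        (fromRows 1 0 : Matrix (G.ι ⊕ (invX U G).ι) G.ι (Z Q)) * f
    simp [fromBlocks_mul_fromRows, fromRows_mul]
  have h2 : g * invI2 hu = invI2 hv * (sg p • invTh U F G f) := by
    rw [hg]
    change fromBlocks f 0 0 (sg p • invTh U F G f) *
      (fromRows 0 1 : Matrix (F.ι ⊕ (invX U F).ι) (invX U F).ι (Z Q)) =
        (fromRows 0 1 : Matrix (G.ι ⊕ (invX U G).ι) (invX U G).ι (Z Q)) * (sg p • invTh U F G f)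
    rw [fromBlocks_mul_fromRows, fromRows_mul]
    simp
  have h3 : ThM U _ _ g * ThM U _ _ (invI2 hu) =
      sg p • (ThM U _ _ (invI2 hv) * ThM U _ _ (invTh U F G f)) := by
    rw [← ThM_mul (invI2_hom hu) hgh, h2, Matrix.mul_smul, map_smul, ThM_mul hT (invI2_hom hv)]
  have h4 := inv_alg3 (co := invCo U F) (co' := invCo U G) p h3
    (inv_Th_J (inv_X_vtx U F) (ThM_scalar (U := U) f)) (coevM_mul hf)
  rw [← hg]
  change fromBlocks (sg p • ThM U _ _ g) 0 0 g *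
    fromRows (ThM U _ _ (invI2 hu) * invJ U (invX U F).toGr .one * invCo U F) (invI1 hu) =
    fromRows (ThM U _ _ (invI2 hv) * invJ U (invX U G).toGr .one * invCo U G) (invI1 hv) * f
  rw [fromBlocks_mul_fromRows, fromRows_mul, Matrix.zero_mul, Matrix.zero_mul, add_zero, zero_add,
    h1, h4]

theorem inv_nat2 (F G : Obj Q) (p : ℤ) (f : Mor F.toGr G.toGr) (hf : IsHom F.toGr G.toGr p f) :
    TmM U _ _ p (TpM U F G p f) * invIo2 U F = invIo2 U G * f := by
  have hu := closed_coevM' U F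
  have hv := closed_coevM' U G
  have hT : IsHom (invX U F).toGr (invX U G).toGr p (invTh U F G f) :=
    inv_hom_shift_both (F := ThObj U F) (G := ThObj U G) (ThM_hom hf)
  obtain ⟨g, hg⟩ : ∃ g : Mor (ext (invX U F) F _ hu).toGr (ext (invX U G) G _ hv).toGr,
      g = TpM U F G p f := ⟨_, rfl⟩
  have hgh : IsHom _ _ p g := hg ▸ TpM_hom U hf
  have h1 : g * invI2 hu = invI2 hv * f := by
    rw [hg]
    change fromBlocks (sg p • invTh U F G f) 0 0 f *
      (fromRows 0 1 : Matrix ((invX U F).ι ⊕ F.ι) F.ι (Z Q)) =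
        (fromRows 0 1 : Matrix ((invX U G).ι ⊕ G.ι) G.ι (Z Q)) * f
    simp [fromBlocks_mul_fromRows, fromRows_mul]
  have h2 : g * invI1 hu = invI1 hv * (sg p • invTh U F G f) := by
    rw [hg]
    change fromBlocks (sg p • invTh U F G f) 0 0 f *
      (fromRows 1 0 : Matrix ((invX U F).ι ⊕ F.ι) (invX U F).ι (Z Q)) =
        (fromRows 1 0 : Matrix ((invX U G).ι ⊕ G.ι) (invX U G).ι (Z Q)) * (sg p • invTh U F G f)
    rw [fromBlocks_mul_fromRows, fromRows_mul]
    simp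
  have h3 : ThM U _ _ g * ThM U _ _ (invI1 hu) =
      sg p • (ThM U _ _ (invI1 hv) * ThM U _ _ (invTh U F G f)) := by
    rw [← ThM_mul (invI1_hom hu) hgh, h2, Matrix.mul_smul, map_smul, ThM_mul hT (invI1_hom hv)]
  have h4 := inv_alg3 (co := invCo U F) (co' := invCo U G) p h3
    (inv_Th_J (inv_X_vtx U F) (ThM_scalar (U := U) f)) (coevM_mul hf)
  rw [← hg]
  change fromBlocks g 0 0 (sg p • ThM U _ _ g) *
    fromRows (invI2 hu) (-(ThM U _ _ (invI1 hu) * invJ U (invX U F).toGr .one * invCo U F)) =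
    fromRows (invI2 hv) (-(ThM U _ _ (invI1 hv) * invJ U (invX U G).toGr .one * invCo U G)) * f
  rw [fromBlocks_mul_fromRows, fromRows_mul, Matrix.zero_mul, Matrix.zero_mul, add_zero, zero_add,
    h1, Matrix.mul_neg, h4, Matrix.neg_mul]

end main

theorem exists_nat_TpTm (hU : Indep U) :
    ∃ ι : ∀ F : Obj Q, Mor F.toGr ((Tp U).obj ((Tm U).obj F)).toGr,
      (∀ F, IsHE F _ (ι F)) ∧
      ∀ (F G : Obj Q) (p : ℤ) (f : Mor F.toGr G.toGr), IsHom F.toGr G.toGr p f →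
        (Tp U).map _ _ p ((Tm U).map F G p f) * ι F = ι G * f := by
  exact ⟨invIo1 U, inv_he1 hU, inv_nat1⟩

theorem exists_nat_TmTp (hU : Indep U) :
    ∃ ι : ∀ F : Obj Q, Mor F.toGr ((Tm U).obj ((Tp U).obj F)).toGr,
      (∀ F, IsHE F _ (ι F)) ∧
      ∀ (F G : Obj Q) (p : ℤ) (f : Mor F.toGr G.toGr), IsHom F.toGr G.toGr p f →
        (Tm U).map _ _ p ((Tp U).map F G p f) * ι F = ι G * f := by
  exact ⟨invIo2 U, inv_he2 hU, inv_nat2⟩

theorem he_Tp_Tm (hU : Indep U) (F : Obj Q) : HE ((Tp U).obj ((Tm U).obj F)) F := by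
  obtain ⟨ι, h, -⟩ := exists_nat_TpTm hU
  exact HE.symm ⟨ι F, h F⟩

theorem he_Tm_Tp (hU : Indep U) (F : Obj Q) : HE ((Tm U).obj ((Tp U).obj F)) F := by
  obtain ⟨ι, h, -⟩ := exists_nat_TmTp hU
  exact HE.symm ⟨ι F, h F⟩

theorem qff_Tm (hU : Indep U) : QFF (Tm U) := by
  obtain ⟨ι, h, n⟩ := exists_nat_TpTm hU
  obtain ⟨ι', h', n'⟩ := exists_nat_TmTp hU
  exact qff_of_nat _ _ ι ι' h h' n n'

theorem qff_Tp (hU : Indep U) : QFF (Tp U) := by
  obtain ⟨ι, h, n⟩ := exists_nat_TpTm hU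
  obtain ⟨ι', h', n'⟩ := exists_nat_TmTp hU
  exact qff_of_nat _ _ ι' ι h' h n' n

end Crest.Agent.R175
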