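import Crest.Agent.R175.Art2

/-!
# R175: joins, propagation and exhaustion.
-/

set_option autoImplicit false

namespace Crest.Agent.R175

open CoxeterSystem Crest.Agent.R61 Crest.GroupTheory

variable {S : Type} [Fintype S] [DecidableEq S] {M : CoxeterMatrix S}
  {J J₁ J₂ : Finset S} {P T : ArtinGroup M → S → Prop} {g₀ : ArtinGroup M}

theorem join_sub₁ {i : S} (h : i ∉ J₁) : J₁ ⊆ (J₁ ∪ J₂).erase i := fun _ hk =>
  Finset.mem_erase.2 ⟨fun e => h (e ▸ hk), Finset.mem_union_left _ hk⟩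

theorem join_sub₂ {i : S} (h : i ∉ J₂) : J₂ ⊆ (J₁ ∪ J₂).erase i := fun _ hk =>
  Finset.mem_erase.2 ⟨fun e => h (e ▸ hk), Finset.mem_union_right _ hk⟩

theorem join_dec (h0 : ∀ i ∈ J₁, ∀ j ∈ J₂, aa M i j = 0) {g : ArtinGroup M}
    (h : g₀⁻¹ * g ∈ AP M (J₁ ∪ J₂)) : ∃ a ∈ AP M J₁, ∃ b ∈ AP M J₂, g = g₀ * a * b := by
  obtain ⟨a, ha, b, hb, e⟩ := exists_mul_of_mem_union h0 h
  exact ⟨a, ha, b, hb, by rw [mul_assoc, ← e, mul_inv_cancel_left]⟩

theorem join_cc (hd : Disjoint J₁ J₂) (h0 : ∀ i ∈ J₁, ∀ j ∈ J₂, aa M i j = 0) (hP : VInv P)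
    (h1 : CC J₁ g₀ P) {g g' : ArtinGroup M} {i j : S} (m1 : g₀⁻¹ * g ∈ AP M (J₁ ∪ J₂))
    (m2 : g₀⁻¹ * g' ∈ AP M (J₁ ∪ J₂)) (hi : i ∈ J₁) (hj : j ∈ J₁ ∪ J₂) (p1 : P g i) (p2 : P g' j) :
    Conn (J₁ ∪ J₂) P (g, i) (g', j) := by
  obtain ⟨a, ha, b, hb, rfl⟩ := join_dec h0 m1
  obtain ⟨a', ha', b', hb', rfl⟩ := join_dec h0 m2
  have hi2 : i ∉ J₂ := Finset.disjoint_left.1 hd hi
  have hi' : i ∈ J₁ ∪ J₂ := Finset.mem_union_left _ hi
  have q1 : P (g₀ * a) i := (hP.of_mem hb hi2).1 p1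
  rcases Finset.mem_union.1 hj with hj1 | hj2
  · have hj2 : j ∉ J₂ := Finset.disjoint_left.1 hd hj1
    have q2 : P (g₀ * a') j := (hP.of_mem hb' hj2).1 p2
    refine ((conn_coset hi' ?_ q1 p1).symm.trans ((h1 _ _ i j ?_ ?_ hi hj1 q1 q2).mono
      Finset.subset_union_left fun _ _ h => h)).trans (conn_coset hj ?_ q2 p2)
    · rw [inv_mul_cancel_left]; exact AP_mono (join_sub₂ hi2) hb
    · rwa [inv_mul_cancel_left]
    · rwa [inv_mul_cancel_left]
    · rw [inv_mul_cancel_left]; exact AP_mono (join_sub₂ hj2) hb'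
  · have hj1 : j ∉ J₁ := Finset.disjoint_right.1 hd hj2
    have q2 : P (g₀ * a * b') i := (hP.of_mem hb' hi2).2 q1
    have e : g₀ * a' * b' = g₀ * a * b' * (a⁻¹ * a') := by
      rw [mul_assoc (g₀ * a), ← (commute_AP h0 (mul_mem (inv_mem ha) ha') hb').eq]
      group
    have q3 : P (g₀ * a * b') j := (hP.of_mem (mul_mem (inv_mem ha) ha') hj1).1 (e ▸ p2)
    refine ((conn_coset hi' ?_ p1 q2).trans (conn_same hi' hj q2 q3)).trans (conn_coset hj ?_ q3 p2)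
    · have : (g₀ * a * b)⁻¹ * (g₀ * a * b') = b⁻¹ * b' := by group
      rw [this]
      exact AP_mono (join_sub₂ hi2) (mul_mem (inv_mem hb) hb')
    · rw [e, inv_mul_cancel_left]
      exact AP_mono (join_sub₁ hj1) (mul_mem (inv_mem ha) ha')

/-- Write `g = g₀ a₁ a₂`, `g' = g₀ a₁' a₂'` (`exists_mul_of_mem_union`, `commute_AP`).  For
`i ∈ J₁`, `j ∈ J₂` the vertices `(g, i)` and `(g', j)` both belong to the chamber `g₀ a₁ a₂'`.
For `i, j ∈ J₁` they are the vertices `(g₀ a₁, i)`, `(g₀ a₁', j)` of the residue `g₀ A_{J₁}`. -/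
theorem cc_join (hd : Disjoint J₁ J₂) (h0 : ∀ i ∈ J₁, ∀ j ∈ J₂, aa M i j = 0) (hP : VInv P)
    (h1 : CC J₁ g₀ P) (h2 : CC J₂ g₀ P) : CC (J₁ ∪ J₂) g₀ P := by
  intro g g' i j m1 m2 hi hj p1 p2
  rcases Finset.mem_union.1 hi with hi | hi
  · exact join_cc hd h0 hP h1 m1 m2 hi hj p1 p2
  · rw [Finset.union_comm] at m1 m2 hj ⊢
    exact join_cc hd.symm (fun i hi j hj => by rw [aa_symm]; exact h0 j hj i hi) hP h2 m1 m2 hi hj
      p1 p2

theorem join_ll (hd : Disjoint J₁ J₂) (h0 : ∀ i ∈ J₁, ∀ j ∈ J₂, aa M i j = 0) (hP : VInv P)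
    (hT : VInv T) (h1 : LL J₁ g₀ T P) {g : ArtinGroup M} {i : S} (m1 : g₀⁻¹ * g ∈ AP M (J₁ ∪ J₂))
    (hi : i ∈ J₁) (t : T g i) (hex : ∃ g' j, g₀⁻¹ * g' ∈ AP M (J₁ ∪ J₂) ∧ j ∈ J₁ ∪ J₂ ∧ P g' j) :
    HasNb (J₁ ∪ J₂) P g i := by
  obtain ⟨g', j, m2, hj, p2⟩ := hex
  obtain ⟨a, ha, b, hb, rfl⟩ := join_dec h0 m1
  obtain ⟨a', ha', b', hb', rfl⟩ := join_dec h0 m2
  have hi2 : i ∉ J₂ := Finset.disjoint_left.1 hd hi
  rcases Finset.mem_union.1 hj with hj1 | hj2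
  · have hj2 : j ∉ J₂ := Finset.disjoint_left.1 hd hj1
    obtain ⟨c, hc, j', hj', hne, p⟩ := h1 (g₀ * a) i (by rwa [inv_mul_cancel_left]) hi
      ((hT.of_mem hb hi2).1 t)
      ⟨g₀ * a', j, by rwa [inv_mul_cancel_left], hj1, (hP.of_mem hb' hj2).1 p2⟩
    refine ⟨c, AP_mono (Finset.erase_subset_erase _ Finset.subset_union_left) hc, j',
      Finset.mem_union_left _ hj', hne, ?_⟩
    rw [mul_assoc (g₀ * a), ← (commute_AP h0 (AP_mono (Finset.erase_subset _ _) hc) hb).eq,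
      ← mul_assoc]
    exact (hP.of_mem hb (Finset.disjoint_left.1 hd hj')).2 p
  · have hj1 : j ∉ J₁ := Finset.disjoint_right.1 hd hj2
    have e : g₀ * a' * b' = g₀ * a * b * (b⁻¹ * b') * (a⁻¹ * a') := by
      have : g₀ * a * b * (b⁻¹ * b') = g₀ * a * b' := by group
      rw [this, mul_assoc (g₀ * a), ← (commute_AP h0 (mul_mem (inv_mem ha) ha') hb').eq]
      group
    exact ⟨b⁻¹ * b', AP_mono (join_sub₂ hi2) (mul_mem (inv_mem hb) hb'), j, hj,
      fun e => hj1 (e ▸ hi), (hP.of_mem (mul_mem (inv_mem ha) ha') hj1).1 (e ▸ p2)⟩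

/-- For `i ∈ J₁` and a `P`-vertex of type `j ∈ J₂` as above.  For `j ∈ J₁` apply `h1` to
`(g₀ a₁, i)`; a neighbour `(g₀ a₁ a, j')` gives the neighbour `(g a, j')` because
`g a = g₀ a₁ a a₂`. -/
theorem ll_join (hd : Disjoint J₁ J₂) (h0 : ∀ i ∈ J₁, ∀ j ∈ J₂, aa M i j = 0) (hP : VInv P)
    (hT : VInv T) (h1 : LL J₁ g₀ T P) (h2 : LL J₂ g₀ T P) : LL (J₁ ∪ J₂) g₀ T P := by
  intro g i m1 hi t hex
  rcases Finset.mem_union.1 hi with hi | hi
  · exact join_ll hd h0 hP hT h1 m1 hi t hex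
  · rw [Finset.union_comm] at m1 hex ⊢
    exact join_ll hd.symm (fun i hi j hj => by rw [aa_symm]; exact h0 j hj i hi) hP hT h2 m1 hi t hex

/-- Induction along the path: every vertex on it is a `P`-vertex or has a `P`-neighbour.  If `y` is
a `T`-vertex with a `P`-neighbour and `y₂ ≠ y` is a `T`-vertex of the same chamber, apply `h` to the
link of `y`. -/
theorem propagate (h : ∀ g i, g₀⁻¹ * g ∈ AP M J → i ∈ J → T g i → LL (J.erase i) g T P)
    (hP : VInv P) {x y : ArtinGroup M × S} (hx : g₀⁻¹ * x.1 ∈ AP M J) (hxP : P x.1 x.2)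
    (hc : Conn J (fun g i => P g i ∨ T g i) x y) : P y.1 y.2 ∨ HasNb J P y.1 y.2 := by
  induction hc with
  | refl => exact Or.inl hxP
  | @tail y z hc hs ih =>
    have m1 := art2_trans hx (Conn.mem hc)
    obtain ⟨g, i⟩ := y
    obtain ⟨g', j⟩ := z
    obtain ⟨hi, hj, py, pz, h5⟩ := hs
    dsimp only at *
    rcases pz with pz | tz
    · exact Or.inl pz
    rcases h5 with e | ⟨e, ha⟩
    · subst e
      by_cases hij : i = j
      · exact hij ▸ ih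
      right
      by_cases p : P g i
      · exact ⟨1, one_mem _, i, hi, hij, by rwa [mul_one]⟩
      obtain ⟨a, ha, k, hk, hne, pk⟩ := ih.resolve_left p
      exact (h g i m1 hi (py.resolve_left p) g j (by simp) (Finset.mem_erase.2 ⟨Ne.symm hij, hj⟩) tz
        ⟨g * a, k, by rwa [inv_mul_cancel_left], Finset.mem_erase.2 ⟨hne, hk⟩, pk⟩).mono
        (Finset.erase_subset _ _)
    · subst e
      rcases ih with p | nb
      · left
        rw [← mul_inv_cancel_left g g']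
        exact (hP.of_mem ha (Finset.notMem_erase _ _)).2 p
      · right
        rw [← mul_inv_cancel_left g' g] at nb
        exact nb.of_mem (art2_symm ha)

/-- Removal of one level.  Induction along the path, as in `propagate`. -/
theorem one_level (hP : VInv P) (hTP : ∀ g i, T g i → ¬ P g i)
    (h : ∀ g i, g₀⁻¹ * g ∈ AP M J → i ∈ J → T g i → CC (J.erase i) g P ∧ LL (J.erase i) g T P)
    {x y : ArtinGroup M × S} (hx : g₀⁻¹ * x.1 ∈ AP M J) (hxP : P x.1 x.2)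
    (hc : Conn J (fun g i => P g i ∨ T g i) x y) :
    (P y.1 y.2 → Conn J P x y) ∧ (T y.1 y.2 → ∃ a ∈ AP M (J.erase y.2), ∃ j ∈ J, j ≠ y.2 ∧
      P (y.1 * a) j ∧ Conn J P x (y.1 * a, j)) := by
  induction hc with
  | refl => exact ⟨fun _ => Conn.refl _, fun t => absurd hxP (hTP _ _ t)⟩
  | @tail y z hc hs ih =>
    have m1 := art2_trans hx (Conn.mem hc)
    obtain ⟨g, i⟩ := y
    obtain ⟨g', j⟩ := z
    obtain ⟨hi, hj, py, -, h5⟩ := hs
    dsimp only at *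
    have hco : ∀ k, g⁻¹ * g' ∈ AP M (J.erase k) → (P g' k ↔ P g k) := fun k ha => by
      conv_lhs => rw [← mul_inv_cancel_left g g']
      exact hP.of_mem ha (Finset.notMem_erase _ _)
    rcases py with py | ty
    · refine ⟨fun pz => Relation.ReflTransGen.tail (ih.1 py) ⟨hi, hj, py, pz, h5⟩, fun tz => ?_⟩
      rcases h5 with e | ⟨e, ha⟩
      · subst e
        refine ⟨1, one_mem _, i, hi, ?_, by rwa [mul_one], by rw [mul_one]; exact ih.1 py⟩
        rintro rfl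
        exact hTP _ _ tz py
      · subst e
        exact absurd ((hco i ha).2 py) (hTP _ _ tz)
    · obtain ⟨a, ha, k, hk, hne, pk, ck⟩ := ih.2 ty
      rcases h5 with e | ⟨e, ha'⟩
      · subst e
        by_cases hij : i = j
        · exact hij ▸ ih
        obtain ⟨cc, ll⟩ := h g i m1 hi ty
        have hj' : j ∈ J.erase i := Finset.mem_erase.2 ⟨Ne.symm hij, hj⟩
        have hk' : k ∈ J.erase i := Finset.mem_erase.2 ⟨hne, hk⟩
        have ma : g⁻¹ * (g * a) ∈ AP M (J.erase i) := by rwa [inv_mul_cancel_left]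
        refine ⟨fun pz => ck.trans ((cc _ _ k j ma (by simp) hk' hj' pk pz).mono
          (Finset.erase_subset _ _) fun _ _ h => h), fun tz => ?_⟩
        obtain ⟨a', ha', k', hk'', hne', pk'⟩ := ll g j (by simp) hj' tz ⟨_, k, ma, hk', pk⟩
        refine ⟨a', AP_mono (Finset.erase_subset_erase _ (Finset.erase_subset _ _)) ha', k',
          Finset.mem_of_mem_erase hk'', hne', pk', ck.trans ((cc _ _ k k' ma ?_ hk' hk'' pk pk').mono
            (Finset.erase_subset _ _) fun _ _ h => h)⟩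
        rw [inv_mul_cancel_left]
        exact AP_mono (Finset.erase_subset _ _) ha'
      · subst e
        refine ⟨fun pz => absurd ((hco i ha').1 pz) (hTP _ _ ty), fun _ => ?_⟩
        have e : g' * (g'⁻¹ * g * a) = g * a := by group
        exact ⟨g'⁻¹ * g * a, mul_mem (art2_symm ha') ha, k, hk, hne, by rwa [e], by rwa [e]⟩

/-- Exhaustion.  (1) A path through `Top`-vertices is a path through the vertices of level `≤ μ`,
where `μ` is a level with `Top μ` that is attained in the residue, or `μ = lam` (take maxima).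
(2) Well-founded induction on `μ`: if `ℓ x, ℓ y ≤ lam < μ`, `one_level` gives a path through the
levels `< μ`, so by (1) (with `Top' = (· < μ)`) through the levels `≤ μ'` with `μ' < μ`.
(3) `one_level` at the level `lam`. -/
theorem exhaust {Λ : Type} [LinearOrder Λ] (ℓ : ArtinGroup M → S → Λ)
    (hinv : ∀ g i s, s ≠ i → ℓ (g * artinGen M s) i = ℓ g i) (lam : Λ) (Top : Λ → Prop)
    (hT : ∀ a b, a ≤ b → Top b → Top a) (hlam : Top lam)
    (hwf : {μ | ∃ g, ∃ i ∈ J, ℓ g i = μ}.IsWF)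
    (htop : CC J g₀ fun g i => Top (ℓ g i))
    (hloc : ∀ g i, g₀⁻¹ * g ∈ AP M J → i ∈ J → lam ≤ ℓ g i → Top (ℓ g i) →
      CC (J.erase i) g (fun g' j => ℓ g' j < ℓ g i) ∧
      LL (J.erase i) g (fun g' j => ℓ g' j = ℓ g i) fun g' j => ℓ g' j < ℓ g i) :
    CC J g₀ (fun g i => ℓ g i < lam) ∧
      LL J g₀ (fun g i => ℓ g i = lam) fun g i => ℓ g i < lam := by
  have vinv : ∀ Q : Λ → Prop, VInv fun g i => Q (ℓ g i) := fun Q g i s hs => by
    simp only [hinv g i s hs]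
  have h1 : ∀ (Q : Λ → Prop) {x y : ArtinGroup M × S}, Conn J (fun g i => Q (ℓ g i)) x y →
      ∃ μ, lam ≤ μ ∧ (μ = lam ∨ ((∃ g, ∃ i ∈ J, ℓ g i = μ) ∧ Q μ)) ∧
        Conn J (fun g i => ℓ g i ≤ μ) x y := by
    intro Q x y hc
    induction hc with
    | refl => exact ⟨lam, le_rfl, Or.inl rfl, Conn.refl _⟩
    | @tail y z _ hs ih =>
      obtain ⟨μ, h1, h2, h3⟩ := ih
      obtain ⟨hi, hj, py, pz, h5⟩ := hs
      refine ⟨max μ (max (ℓ y.1 y.2) (ℓ z.1 z.2)), le_max_of_le_left h1, ?_,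
        Relation.ReflTransGen.tail (h3.mono subset_rfl fun _ _ h => le_max_of_le_left h)
          ⟨hi, hj, le_max_of_le_right (le_max_left _ _), le_max_of_le_right (le_max_right _ _), h5⟩⟩
      rcases max_choice μ (max (ℓ y.1 y.2) (ℓ z.1 z.2)) with e | e
      · rwa [e]
      · rw [e]
        rcases max_choice (ℓ y.1 y.2) (ℓ z.1 z.2) with e | e <;> rw [e]
        · exact Or.inr ⟨⟨_, _, hi, rfl⟩, py⟩
        · exact Or.inr ⟨⟨_, _, hj, rfl⟩, pz⟩
  have lvl : ∀ μ, lam ≤ μ → Top μ → ∀ {x y : ArtinGroup M × S}, g₀⁻¹ * x.1 ∈ AP M J →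
      ℓ x.1 x.2 < μ → Conn J (fun g i => ℓ g i ≤ μ) x y →
      (ℓ y.1 y.2 < μ → Conn J (fun g i => ℓ g i < μ) x y) ∧
        (ℓ y.1 y.2 = μ → HasNb J (fun g i => ℓ g i < μ) y.1 y.2) := by
    intro μ hμ tμ x y hx px hc
    have := one_level (P := fun g i => ℓ g i < μ) (T := fun g i => ℓ g i = μ) (vinv (· < μ))
      (fun g i t => by rw [t]; exact lt_irrefl _)
      (fun g i m hi t => by
        have := hloc g i m hi (t ▸ hμ) (t ▸ tμ)
        rwa [t] at this)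
      hx px (hc.mono subset_rfl fun _ _ h => h.lt_or_eq)
    refine ⟨this.1, fun t => ?_⟩
    obtain ⟨a, ha, j, hj, hne, p, -⟩ := this.2 t
    exact ⟨a, ha, j, hj, hne, p⟩
  have h2 : ∀ μ ∈ {μ | ∃ g, ∃ i ∈ J, ℓ g i = μ}, lam ≤ μ → Top μ → ∀ {x y : ArtinGroup M × S},
      g₀⁻¹ * x.1 ∈ AP M J → ℓ x.1 x.2 ≤ lam → ℓ y.1 y.2 ≤ lam →
      Conn J (fun g i => ℓ g i ≤ μ) x y → Conn J (fun g i => ℓ g i ≤ lam) x y := by
    intro μ hμ
    refine Set.WellFoundedOn.induction hwf hμ (P := fun μ => lam ≤ μ → Top μ →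
      ∀ {x y : ArtinGroup M × S}, g₀⁻¹ * x.1 ∈ AP M J → ℓ x.1 x.2 ≤ lam → ℓ y.1 y.2 ≤ lam →
      Conn J (fun g i => ℓ g i ≤ μ) x y → Conn J (fun g i => ℓ g i ≤ lam) x y) ?_
    intro μ _ ih hl tμ x y hx px py hc
    rcases hl.eq_or_lt with e | hlt
    · rwa [← e] at hc
    obtain ⟨μ', a1, a2, a3⟩ := h1 (· < μ)
      ((lvl μ hl tμ hx (px.trans_lt hlt) hc).1 (py.trans_lt hlt))
    rcases a2 with e | ⟨a2, a4⟩
    · rwa [e] at a3
    · exact ih μ' a2 a4 a1 (hT _ _ a4.le tμ) hx px py a3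
  have h3 : ∀ g g' i j, g₀⁻¹ * g ∈ AP M J → g₀⁻¹ * g' ∈ AP M J → i ∈ J → j ∈ J → ℓ g i ≤ lam →
      ℓ g' j ≤ lam → Conn J (fun g i => ℓ g i ≤ lam) (g, i) (g', j) := by
    intro g g' i j m1 m2 hi hj p1 p2
    obtain ⟨μ, a1, a2, a3⟩ := h1 Top (htop g g' i j m1 m2 hi hj (hT _ _ p1 hlam) (hT _ _ p2 hlam))
    rcases a2 with e | ⟨a2, a4⟩
    · rwa [e] at a3
    · exact h2 μ a2 a1 a4 m1 p1 p2 a3
  constructor
  · intro g g' i j m1 m2 hi hj p1 p2
    exact (lvl lam le_rfl hlam (x := (g, i)) m1 p1 (h3 g g' i j m1 m2 hi hj p1.le p2.le)).1 p2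
  · rintro g i m1 hi t ⟨g', j, m2, hj, p⟩
    exact (lvl lam le_rfl hlam (x := (g', j)) m2 p (h3 g' g j i m2 m1 hj hi p.le t.le)).2 t

end Crest.Agent.R175
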