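import Crest.Agent.R175.Join
import Crest.Agent.R175.PF

/-!
# R175: the level function.
-/

set_option autoImplicit false

namespace Crest.Agent.R175

open CoxeterSystem Crest.Agent.R61 Crest.GroupTheory

variable {S : Type} [Fintype S] [DecidableEq S] {M : CoxeterMatrix S}
  {n : ArtinGroup M → S → ℤ → ℝ} {J : Finset S} {g g' : ArtinGroup M} {i j : S} {m m' : ℕ}
  {b c : S → ℝ} {t : ℝ}

theorem scl_dS (m : ℕ) : scl (dS m) = m := by
  unfold scl dS
  simp only [Nat.even_iff]
  split_ifs <;> omega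

theorem dS_scl (k : ℤ) : dS (scl k) = k := by
  unfold scl dS
  simp only [Nat.even_iff]
  split_ifs <;> omega

theorem InReg.mono (h : InReg n m g i) (hm : m ≤ m') : InReg n m' g i := by
  exact fun k hk => h k (lt_of_le_of_lt hm hk)

theorem inReg_succ_iff : InReg n m g i ↔ InReg n (m + 1) g i ∧ n g i (dS (m + 1)) = 0 := by
  refine ⟨fun h => ⟨h.mono (Nat.le_succ m), h _ (by rw [scl_dS]; omega)⟩, fun h k hk => ?_⟩
  by_cases e : scl k = m + 1
  · rw [← dS_scl k, e]
    exact h.2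
  · exact h.1 k (by omega)

theorem InReg.eq_zero (h : InReg n m g i) (hm : m < m') : n g i (dS m') = 0 := by
  exact h _ (by rwa [scl_dS])

theorem NAx.exists_inReg (h : NAx n) (g : ArtinGroup M) : ∃ m, ∀ i, InReg n m g i := by
  obtain ⟨b, hb⟩ := h.fin g
  refine ⟨2 * b, fun i k hk => hb i k ?_⟩
  unfold scl at hk
  rw [le_abs]
  split_ifs at hk <;> omega

theorem inReg_even (r : ℕ) : InReg n (2 * r) g i ↔ Lo n (-(r : ℤ)) g i ∧ Hi n r g i := by
  refine ⟨fun h => ⟨fun k hk => h k ?_, fun k hk => h k ?_⟩, fun h k hk => ?_⟩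
  · unfold scl; split_ifs <;> omega
  · unfold scl; split_ifs <;> omega
  · unfold scl at hk
    split_ifs at hk
    · exact h.2 k (by omega)
    · exact h.1 k (by omega)

theorem inReg_odd (r : ℕ) :
    InReg n (2 * r + 1) g i ↔ Lo n (-(r : ℤ)) g i ∧ Hi n ((r : ℤ) + 1) g i := by
  refine ⟨fun h => ⟨fun k hk => h k ?_, fun k hk => h k ?_⟩, fun h k hk => ?_⟩
  · unfold scl; split_ifs <;> omega
  · unfold scl; split_ifs <;> omega
  · unfold scl at hk
    split_ifs at hk
    · exact h.2 k (by omega)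
    · exact h.1 k (by omega)

theorem dS_even (r : ℕ) : dS (2 * r) = -(r : ℤ) := by
  unfold dS
  simp only [Nat.even_iff]
  split_ifs <;> omega

theorem dS_odd (r : ℕ) : dS (2 * r + 1) = (r : ℤ) + 1 := by
  unfold dS
  simp only [Nat.even_iff]
  split_ifs <;> omega

theorem zer_iff : Zer n g i ↔ InReg n 0 g i ∧ n g i 0 = 0 := by
  refine ⟨fun h => ⟨fun k _ => h k, h 0⟩, fun h k => ?_⟩
  by_cases e : k = 0
  · rw [e]; exact h.2
  · refine h.1 k ?_
    unfold scl
    split_ifs <;> omega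

omit [Fintype S] [DecidableEq S] in
theorem lev_congr' (h : ∀ k, n g i k = n g' i k) : lev n m b c g i = lev n m b c g' i := by
  have e : ∀ m, InReg n m g i ↔ InReg n m g' i := fun m => by simp only [InReg, h]
  unfold lev
  by_cases hr : InReg n m g i
  · rw [if_pos hr, if_pos ((e m).1 hr), h]
  · rw [if_neg hr, if_neg fun h => hr ((e m).2 h)]
    simp only [e, h]

theorem lev_inv (h : NAx n) (g : ArtinGroup M) (i s : S) (hs : s ≠ i) :
    lev n m b c (g * artinGen M s) i = lev n m b c g i := by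
  exact lev_congr' fun k => h.inv g i s k hs

theorem lev_congr (h : ∀ k, n g i k = n g' i k) : lev n m b c g i = lev n m b c g' i := by
  exact lev_congr' h

omit [Fintype S] [DecidableEq S] in
theorem lev_low (hr : InReg n m g i) :
    lev n m b c g i = toLex (m, (n g i (dS m) - b i) / c i) := by
  unfold lev
  rw [if_pos hr]

theorem lev_high (h : NAx n) (hr : ¬ InReg n m g i) : ∃ k, m < k ∧
    (∀ m', InReg n m' g i ↔ k ≤ m') ∧ 0 < n g i (dS k) ∧
      lev n m b c g i = toLex (k, n g i (dS k) / c i) := by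
  have hne : {m' | InReg n m' g i}.Nonempty := (h.exists_inReg g).imp fun _ h => h i
  have h1 : InReg n (sInf {m' | InReg n m' g i}) g i := Nat.sInf_mem hne
  have h2 : ∀ m', InReg n m' g i ↔ sInf {m' | InReg n m' g i} ≤ m' := fun m' =>
    ⟨fun h => Nat.sInf_le h, fun h => h1.mono h⟩
  have h3 : m < sInf {m' | InReg n m' g i} := not_le.1 fun h => hr ((h2 m).2 h)
  refine ⟨_, h3, h2, ?_, by unfold lev; rw [if_neg hr]⟩
  generalize sInf {m' | InReg n m' g i} = k at h1 h2 h3
  obtain ⟨k, rfl⟩ : ∃ k', k = k' + 1 := ⟨k - 1, by omega⟩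
  refine lt_of_le_of_ne (h.nonneg _ _ _) fun e => ?_
  have := (h2 k).1 (inReg_succ_iff.2 ⟨h1, e.symm⟩)
  omega

/-- in a non-empty set of levels take the least first coordinate, then `NAx.exists_min` -/
theorem lev_isWF (h : NAx n) (hc : ∀ i ∈ J, 0 < c i) :
    {μ | ∃ g, ∃ i ∈ J, lev n m b c g i = μ}.IsWF := by
  classical
  refine WellFounded.wellFounded_iff_has_min.2 fun s hs => ?_
  have hex : ∃ k : ℕ, ∃ μ ∈ s, (ofLex μ.1).1 = k := by
    obtain ⟨μ, hμ⟩ := hs
    exact ⟨_, μ, hμ, rfl⟩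
  set m₀ := Nat.find hex with hm₀
  have hshape : ∀ g i, (ofLex (lev n m b c g i)).1 = m₀ → lev n m b c g i =
      toLex (m₀, (n g i (dS m₀) - (if m₀ = m then b else 0) i) / c i) := by
    intro g i e
    by_cases hr : InReg n m g i
    · rw [lev_low hr] at e ⊢
      simp only [ofLex_toLex] at e
      rw [← e, if_pos rfl]
    · obtain ⟨k, hk, -, -, e2⟩ := lev_high (b := b) (c := c) h hr
      rw [e2] at e ⊢
      simp only [ofLex_toLex] at e
      rw [← e, if_neg hk.ne']
      simp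
  obtain ⟨x, ⟨hx, μ, hμ, e1, e2⟩, hmin⟩ := h.exists_min (J := J) (dS m₀) (if m₀ = m then b else 0) c hc
    {x | x.2 ∈ J ∧ ∃ μ ∈ s, μ.1 = lev n m b c x.1 x.2 ∧ (ofLex μ.1).1 = m₀} (by
      obtain ⟨μ, hμ, e⟩ := Nat.find_spec hex
      obtain ⟨g, i, hi, e'⟩ := μ.2
      exact ⟨(g, i), hi, μ, hμ, e'.symm, e⟩) fun x hx => hx.1
  refine ⟨μ, hμ, fun ν hν hlt => ?_⟩
  obtain ⟨g, i, hi, e'⟩ := ν.2
  have h1 : m₀ ≤ (ofLex ν.1).1 := Nat.find_min' hex ⟨ν, hν, rfl⟩
  have hlt' : ν.1 < μ.1 := hlt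
  have h2 : (ofLex ν.1).1 = m₀ := by
    rcases Prod.Lex.lt_iff.1 hlt' with h3 | h3 <;> omega
  have h3 := hmin (g, i) ⟨hi, ν, hν, e'.symm, h2⟩
  rw [← e', e1, hshape x.1 x.2 (by rw [← e1]; exact e2),
    hshape g i (by rw [e']; exact h2), Prod.Lex.toLex_lt_toLex] at hlt'
  rcases hlt' with h4 | h4
  · exact lt_irrefl _ h4
  · exact absurd h4.2 (not_lt.2 h3)

theorem lev_lt_base (h : NAx n) (hc : 0 < c i) :
    lev n m b c g i < toLex (m, t) ↔ NegS n m (fun j => b j + t * c j) g i := by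
  unfold NegS
  by_cases hr : InReg n m g i
  · rw [lev_low hr, Prod.Lex.toLex_lt_toLex]
    simp only [lt_irrefl, true_and, false_or, hr, div_lt_iff₀ hc]
    constructor <;> intro h <;> linarith
  · obtain ⟨k, hk, -, -, e⟩ := lev_high (b := b) (c := c) h hr
    rw [e, Prod.Lex.toLex_lt_toLex]
    simp only [hr, false_and, iff_false, not_or, not_and]
    exact ⟨by omega, fun h => by omega⟩

theorem lev_eq_base (h : NAx n) (hc : 0 < c i) :
    lev n m b c g i = toLex (m, t) ↔ TieS n m (fun j => b j + t * c j) g i := by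
  unfold TieS
  by_cases hr : InReg n m g i
  · rw [lev_low hr, toLex_inj, Prod.mk.injEq]
    simp only [true_and, hr, div_eq_iff hc.ne']
    constructor <;> intro h <;> linarith
  · obtain ⟨k, hk, -, -, e⟩ := lev_high (b := b) (c := c) h hr
    rw [e, toLex_inj, Prod.mk.injEq]
    simp only [hr, false_and, iff_false, not_and]
    exact fun h => by omega

theorem lev_lt_high (h : NAx n) (hc : 0 < c i) (hm : m < m') (ht : 0 < t) :
    lev n m b c g i < toLex (m', t) ↔ NegS n m' (fun j => t * c j) g i := by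
  unfold NegS
  by_cases hr : InReg n m g i
  · rw [lev_low hr, Prod.Lex.toLex_lt_toLex]
    refine ⟨fun _ => ⟨hr.mono hm.le, ?_⟩, fun _ => Or.inl hm⟩
    rw [hr.eq_zero hm]
    exact mul_pos ht hc
  · obtain ⟨k, -, h2, -, e⟩ := lev_high (b := b) (c := c) h hr
    rw [e, Prod.Lex.toLex_lt_toLex, h2]
    dsimp only
    rcases lt_trichotomy k m' with h3 | h3 | h3
    · refine ⟨fun _ => ⟨h3.le, ?_⟩, fun _ => Or.inl h3⟩
      rw [((h2 k).2 le_rfl).eq_zero h3]
      exact mul_pos ht hc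
    · subst h3
      simp [div_lt_iff₀ hc]
    · exact ⟨fun h => by omega, fun h => by omega⟩

theorem lev_eq_high (h : NAx n) (hc : 0 < c i) (hm : m < m') (ht : 0 < t) :
    lev n m b c g i = toLex (m', t) ↔ TieS n m' (fun j => t * c j) g i := by
  unfold TieS
  by_cases hr : InReg n m g i
  · rw [lev_low hr, toLex_inj, Prod.mk.injEq, hr.eq_zero hm]
    exact ⟨fun h => by omega, fun h => absurd h.2 (mul_pos ht hc).ne⟩
  · obtain ⟨k, -, h2, -, e⟩ := lev_high (b := b) (c := c) h hr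
    rw [e, toLex_inj, Prod.mk.injEq, h2]
    rcases lt_trichotomy k m' with h3 | h3 | h3
    · rw [((h2 k).2 le_rfl).eq_zero h3]
      exact ⟨fun h => by omega, fun h => absurd h.2 (mul_pos ht hc).ne⟩
    · subst h3
      simp [div_eq_iff hc.ne']
    · exact ⟨fun h => by omega, fun h => by omega⟩

/-- the shape of a level -/
theorem lev_cases (h : NAx n) (hc : 0 < c i) (g : ArtinGroup M) :
    (∃ t, lev n m b c g i = toLex (m, t)) ∨
      ∃ m' t, m < m' ∧ 0 < t ∧ lev n m b c g i = toLex (m', t) := by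
  by_cases hr : InReg n m g i
  · exact Or.inl ⟨_, lev_low hr⟩
  · obtain ⟨k, hk, -, h3, e⟩ := lev_high (b := b) (c := c) h hr
    exact Or.inr ⟨k, _, hk, div_pos h3 hc, e⟩

theorem lev_fst_le (h : NAx n) (hm : m ≤ m') :
    (ofLex (lev n m b c g i)).1 ≤ m' ↔ InReg n m' g i := by
  by_cases hr : InReg n m g i
  · rw [lev_low hr]
    exact ⟨fun _ => hr.mono hm, fun _ => hm⟩
  · obtain ⟨k, -, h2, -, e⟩ := lev_high (b := b) (c := c) h hr
    rw [e, h2]
    rfl

end Crest.Agent.R175
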