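import Crest.Agent.R175.Coh

/-!
# R175: minimal models (Gaussian elimination) and quasi-isomorphisms.
-/

set_option autoImplicit false

namespace Crest.Agent.R175

open Matrix

variable {Q : Qv}

theorem mm_alg {R α β : Type} [Ring R] [Fintype α] [DecidableEq α] [Fintype β] [DecidableEq β]
    {δ κ E1 E2 : Matrix α α R} {ι : Matrix α β R} {π : Matrix β α R} (h1 : δ * δ = 0) (h2 : κ * κ = 0)
    (h3 : κ * δ * κ = κ) (h4 : π * κ = 0) (h5 : κ * ι = 0) (h6 : π * ι = 1) (h7 : ι * π = 1 - E1 - E2)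
    (h8 : κ * δ * E1 = E1) (h9 : E2 * δ * κ = E2) {P : Matrix β α R} {I : Matrix α β R}
    (hP : P = π * (1 - δ * κ)) (hI : I = (1 - κ * δ) * ι) :
    P * I = 1 ∧ I * P - 1 = δ * -κ + -κ * δ ∧ P * δ * I * P = P * δ ∧ δ * I = I * (P * δ * I) ∧
      P * δ * I * (P * δ * I) = 0 := by
  have a1 : (1 - δ * κ) * (1 - κ * δ) = 1 - δ * κ - κ * δ := by
    rw [mul_sub, mul_one, sub_mul, one_mul, mul_assoc δ, ← mul_assoc κ, h2, zero_mul, mul_zero, sub_zero]
  have a2 : (1 - κ * δ) * (1 - δ * κ) = 1 - κ * δ - δ * κ := by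
    rw [mul_sub, mul_one, sub_mul, one_mul, mul_assoc κ, ← mul_assoc δ, h1, zero_mul, mul_zero, sub_zero]
  have a3 : (1 - κ * δ) * E1 = 0 := by rw [sub_mul, one_mul, h8, sub_self]
  have a4 : E2 * (1 - δ * κ) = 0 := by rw [mul_sub, mul_one, ← mul_assoc, h9, sub_self]
  have a5 : (1 - δ * κ) * (δ * κ) = 0 := by
    rw [sub_mul, one_mul, mul_assoc, ← mul_assoc κ, h3, sub_self]
  have a6 : κ * δ * (1 - κ * δ) = 0 := by rw [mul_sub, mul_one, ← mul_assoc, h3, sub_self]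
  have b1 : I * P = 1 - κ * δ - δ * κ := by
    rw [hP, hI, Matrix.mul_assoc, ← Matrix.mul_assoc ι, h7, sub_mul _ E2, a4, sub_zero, sub_mul _ E1,
      one_mul, mul_sub _ _ (E1 * _), ← mul_assoc _ E1, a3, zero_mul, sub_zero, a2]
  have b2 : P * (δ * κ) = 0 := by rw [hP, Matrix.mul_assoc, a5, Matrix.mul_zero]
  have b3 : κ * δ * I = 0 := by rw [hI, ← Matrix.mul_assoc, a6, Matrix.zero_mul]
  have b4 : P * δ * I * P = P * δ := by
    rw [Matrix.mul_assoc, b1, Matrix.mul_assoc, mul_sub, mul_sub, mul_one, ← mul_assoc δ δ, h1, zero_mul,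
      sub_zero, Matrix.mul_sub, ← mul_assoc, ← Matrix.mul_assoc P, b2, Matrix.zero_mul, sub_zero]
  refine ⟨?_, ?_, b4, ?_, ?_⟩
  · rw [hP, hI, Matrix.mul_assoc, ← Matrix.mul_assoc _ _ ι, a1, Matrix.sub_mul, Matrix.sub_mul,
      Matrix.one_mul, Matrix.mul_assoc δ, h5, Matrix.mul_zero, sub_zero, Matrix.mul_sub, h6,
      Matrix.mul_assoc κ, ← Matrix.mul_assoc π, h4, Matrix.zero_mul, sub_zero]
  · rw [b1, mul_neg, neg_mul]
    abel
  · rw [← Matrix.mul_assoc, ← Matrix.mul_assoc, b1, sub_mul, sub_mul, one_mul, mul_assoc κ, h1, mul_zero,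
      sub_zero, Matrix.sub_mul, mul_assoc, Matrix.mul_assoc δ (κ * δ), b3, Matrix.mul_zero, sub_zero]
  · rw [← Matrix.mul_assoc, ← Matrix.mul_assoc, b4, Matrix.mul_assoc P, h1, Matrix.mul_zero,
      Matrix.zero_mul]

theorem mm_scalar_mul {α β γ : Type} [Fintype β] {g : Matrix α β (Z Q)} {f : Matrix β γ (Z Q)}
    (hg : Scalar g) (hf : Scalar f) : Scalar (g * f) := fun j i => by
  simp [Matrix.mul_apply, fun a b => (hg a b).1, fun a b => (hg a b).2, fun a b => (hf a b).1,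
    fun a b => (hf a b).2]

theorem mm_scalar_sub {α β : Type} {g f : Matrix α β (Z Q)} (hg : Scalar g) (hf : Scalar f) :
    Scalar (g - f) := fun j i => by
  simp [(hg j i).1, (hg j i).2, (hf j i).1, (hf j i).2]

theorem mm_scalar_one {α : Type} [DecidableEq α] : Scalar (1 : Matrix α α (Z Q)) := fun j i => by
  rw [Matrix.one_apply]
  split_ifs <;> simp

/-- One step of Gaussian elimination.  If `c = (F.δ j₀ i₀).c0 ≠ 0` then `j₀ ≠ i₀` (degrees), the
entry is the scalar `c` (by `Ok`, `c1` and `c2` vanish for degree reasons).  Let `G` have the indices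
`{i // i ≠ i₀ ∧ i ≠ j₀}` and `G.δ j i = F.δ j i - c⁻¹ • (F.δ j i₀ * F.δ j₀ i)`.  With the matrix
`κ = c⁻¹ • single i₀ j₀ 1` (degree `-1`, `κ * κ = 0`, `κ δ κ = κ`), `e = 1 - δ κ - κ δ` and the
inclusion / projection matrices `ι : G → F`, `π : F → G` put `I = (1 - κ δ) ι`, `P = π (1 - δ κ)`.
Then `P I = 1`, `I P = 1 - (δ κ + κ δ)`, `G.δ = P δ I`.  (`ι π = 1 - single i₀ i₀ 1 - single j₀ j₀ 1`.) -/
theorem gauss_step (F : Obj Q) {j₀ i₀ : F.ι} (h : (F.δ j₀ i₀).c0 ≠ 0) :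
    ∃ G : Obj Q, HE F G ∧ Fintype.card G.ι < Fintype.card F.ι ∧ (Scalar F.δ → Scalar G.δ) ∧
      ∀ j, ∃ i, G.vtx j = F.vtx i ∧ G.deg j = F.deg i := by
  obtain ⟨hv, hk⟩ := (F.hom j₀ i₀).1 h
  have hne : j₀ ≠ i₀ := fun e => by rw [e] at hk; omega
  have hc : F.δ j₀ i₀ = Z.sc (F.δ j₀ i₀).c0 := by
    ext a
    · rfl
    · by_contra h1
      have := ((F.hom j₀ i₀).2.1 a h1).2.2
      omega
    · by_contra h1
      have := ((F.hom j₀ i₀).2.2 h1).2
      omega
  have hc1 : Z.sc (F.δ j₀ i₀).c0⁻¹ * F.δ j₀ i₀ = 1 := by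
    rw [hc, Z.sc_c0, ← Z.scHom_apply, ← Z.scHom_apply, ← map_mul, inv_mul_cancel₀ h, map_one]
  set κ : Matrix F.ι F.ι (Z Q) := single i₀ j₀ (Z.sc (F.δ j₀ i₀).c0⁻¹) with hκ
  let G : Gr Q := subGr F.toGr fun i => i ≠ i₀ ∧ i ≠ j₀
  let ι : Mor G F.toGr := (1 : Matrix F.ι F.ι (Z Q)).submatrix (Equiv.refl _) Subtype.val
  let π : Mor F.toGr G := (1 : Matrix F.ι F.ι (Z Q)).submatrix Subtype.val (Equiv.refl _)
  have hι : IsHom G F.toGr 0 ι := fun j i => IsHom.one j i.1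
  have hπ : IsHom F.toGr G 0 π := fun j i => IsHom.one j.1 i
  have hκh : IsHom F.toGr F.toGr (-1) κ := fun j i => by
    rw [hκ, single_apply]
    split_ifs with h1
    · obtain ⟨rfl, rfl⟩ := h1
      rw [hv]
      exact Ok.sc _ (by omega)
    · exact Ok.zero _ _ _ _ _
  have hκs : Scalar κ := fun j i => by
    rw [hκ, single_apply]
    split_ifs <;> simp
  have hP : IsHom F.toGr G 0 (π * (1 - F.δ * κ)) := (IsHom.one.sub (hκh.mul F.hom)).mul hπ
  have hI : IsHom G F.toGr 0 ((1 - κ * F.δ) * ι) := hι.mul (IsHom.one.sub (F.hom.mul hκh))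
  obtain ⟨a1, a2, a3, a4, a5⟩ := mm_alg (E1 := single i₀ i₀ 1) (E2 := single j₀ j₀ 1) (κ := κ) (ι := ι)
    (π := π) F.sq (single_mul_single_of_ne _ _ _ _ hne _)
    (by rw [hκ, single_mul_mul_single, hc1, one_mul])
    (by
      refine (one_submatrix_mul _ _ _).trans ?_
      ext1 j i
      exact single_apply_of_row_ne j.2.1.symm _ _ _)
    (by
      refine (mul_submatrix_one _ _ _).trans ?_
      ext1 j i
      exact single_apply_of_col_ne _ _ i.2.2.symm _)
    ((one_submatrix_mul _ _ _).trans (submatrix_one _ Subtype.val_injective))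
    (by
      ext1 a b
      rw [Matrix.mul_apply]
      by_cases ha : a ≠ i₀ ∧ a ≠ j₀
      · rw [Finset.sum_eq_single ⟨a, ha⟩ (fun s _ hs => by
          rw [show ι a s = 0 from one_apply_ne fun e => hs (Subtype.ext e.symm), zero_mul])
          fun h1 => absurd (Finset.mem_univ _) h1,
          show ι a ⟨a, ha⟩ = 1 from one_apply_eq a, one_mul, Matrix.sub_apply, Matrix.sub_apply,
          single_apply_of_row_ne ha.1.symm, single_apply_of_row_ne ha.2.symm, sub_zero, sub_zero]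
        rfl
      · rw [Finset.sum_eq_zero fun s _ => by
          rw [show ι a s = 0 from one_apply_ne fun e : a = s.1 => ha (e ▸ s.2), zero_mul]]
        rcases not_and_or.1 ha with h1 | h1 <;> rw [not_not.1 h1] <;>
          simp [one_apply, single_apply, hne, hne.symm])
    (by rw [hκ, single_mul_mul_single, hc1, one_mul])
    (by rw [hκ, single_mul_mul_single, one_mul, mul_comm, hc1]) rfl rfl
  refine ⟨⟨G, _, (hI.mul (F.hom.mul hP)).of_eq (by norm_num), a5⟩,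
    ⟨_, Closed.of_comm0 hP a3, _, Closed.of_comm0 hI a4, ⟨-κ, hκh.neg, ?_⟩, ?_⟩,
    Fintype.card_subtype_lt (x := i₀) fun h1 => h1.1 rfl, fun hs => ?_, fun j => ⟨j.1, rfl, rfl⟩⟩
  · rw [a2, Dd, zero_sub, sg_neg, sg_one, neg_smul, one_smul, sub_neg_eq_add]
  · exact (sub_eq_zero.2 a1).symm ▸ Exact.zero
  · exact mm_scalar_mul (mm_scalar_mul (mm_scalar_mul (fun j i => mm_scalar_one j.1 i)
      (mm_scalar_sub mm_scalar_one (mm_scalar_mul hs hκs))) hs)
      (mm_scalar_mul (mm_scalar_sub mm_scalar_one (mm_scalar_mul hκs hs)) fun j i => mm_scalar_one j i.1)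

/-- strong induction on the number of indices -/
theorem exists_minimal (F : Obj Q) : ∃ G : Obj Q, Minimal G ∧ HE F G ∧ (Scalar F.δ → G.δ = 0) ∧
    ∀ j, ∃ i, G.vtx j = F.vtx i ∧ G.deg j = F.deg i := by
  induction hn : Fintype.card F.ι using Nat.strong_induction_on generalizing F with
  | _ n ih =>
    by_cases hF : Minimal F
    · refine ⟨F, hF, HE.refl F, fun hs => ?_, fun j => ⟨j, rfl, rfl⟩⟩
      ext j i a
      exacts [hF j i, (hs j i).1 a, (hs j i).2]
    · simp only [Minimal, not_forall] at hF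
      obtain ⟨j₀, i₀, h⟩ := hF
      obtain ⟨G, h1, h2, h3, h4⟩ := gauss_step F h
      obtain ⟨H, k1, k2, k3, k4⟩ := ih _ (hn ▸ h2) G rfl
      refine ⟨H, k1, h1.trans k2, fun hs => k3 (h3 hs), fun j => ?_⟩
      obtain ⟨i, e1, e2⟩ := k4 j
      obtain ⟨l, e3, e4⟩ := h4 i
      exact ⟨l, e1.trans e3, e2.trans e4⟩

/-- the chosen minimal model -/
noncomputable def mm (F : Obj Q) : Obj Q := (exists_minimal F).choose

theorem mm_minimal (F : Obj Q) : Minimal (mm F) := (exists_minimal F).choose_spec.1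
theorem he_mm (F : Obj Q) : HE F (mm F) := (exists_minimal F).choose_spec.2.1

theorem mm_nil {α : Type} [Fintype α] [DecidableEq α] {n : Matrix α α (Z Q)} (h : m0 n = 0) :
    (1 + n + n * n) * (1 - n) = 1 ∧ (1 - n) * (1 + n + n * n) = 1 := by
  have h3 : n * n * n = 0 := by
    refine mat_ext ?_ (fun a => ?_) ?_
    · rw [m0_mul, h, Matrix.mul_zero, m0_zero]
    · rw [m1_mul, m0_mul, h, Matrix.mul_zero, Matrix.mul_zero, Matrix.zero_mul, add_zero]
      rfl
    · simp only [m2_mul, m1_mul, m0_mul, h, Matrix.mul_zero, Matrix.zero_mul, add_zero,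
        Finset.sum_const_zero]
      rfl
  constructor
  · rw [show (1 + n + n * n) * (1 - n) = 1 - n * n * n by noncomm_ring, h3, sub_zero]
  · rw [show (1 - n) * (1 + n + n * n) = 1 - n * n * n by noncomm_ring, h3, sub_zero]

theorem mm_hom_sc {F G : Gr Q} {g₀ : Matrix F.ι G.ι ℝ}
    (hg : ∀ i j, g₀ i j ≠ 0 → F.vtx i = G.vtx j ∧ F.deg i = G.deg j) : IsHom G F 0 (g₀.map Z.sc) :=
  fun i j => ⟨fun h => by simpa using hg i j h, fun _ h => absurd rfl h, fun h => absurd rfl h⟩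

/-- A closed morphism between minimal objects whose `c0` part is invertible is invertible:
let `g₀ = (inverse of m0 f).map sc`; it is homogeneous of degree `0`; `g₀ f = 1 - n` with
`m0 n = 0`, so `n ^ 3 = 0` (compute `m0, m1, m2`) and `(1 + n + n²) g₀` is a left inverse; similarly
on the right. Use `IsHE.of_inv`. -/
theorem isHE_of_m0_inv {F G : Obj Q} {f : Mor F.toGr G.toGr} (hf : Closed F G 0 f)
    (g₀ : Matrix F.ι G.ι ℝ) (hg : ∀ i j, g₀ i j ≠ 0 → F.vtx i = G.vtx j ∧ F.deg i = G.deg j)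
    (h1 : g₀ * m0 f = 1) (h2 : m0 f * g₀ = 1) : IsHE F G f := by
  obtain ⟨g, hh, e0⟩ : ∃ g : Mor G.toGr F.toGr, IsHom G.toGr F.toGr 0 g ∧ m0 g = g₀ :=
    ⟨_, mm_hom_sc hg, rfl⟩
  have a1 := (mm_nil (n := (1 - g * f : Mor F.toGr F.toGr))
    (by rw [m0_sub, m0_one, m0_mul, e0, h1, sub_self])).1
  have a2 := (mm_nil (n := (1 - f * g : Mor G.toGr G.toGr))
    (by rw [m0_sub, m0_one, m0_mul, e0, h2, sub_self])).2
  rw [sub_sub_cancel, ← Matrix.mul_assoc] at a1
  rw [sub_sub_cancel, Matrix.mul_assoc] at a2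
  have hn := IsHom.one.sub (hf.hom.mul hh)
  refine IsHE.of_inv hf (hh.mul ((IsHom.one.add hn).add (hn.mul hn))) a1 ?_
  rw [← Matrix.mul_one (_ * g), ← a2, ← Matrix.mul_assoc _ f, a1, Matrix.one_mul]

theorem mm_Zc {F : Obj Q} (h : Minimal F) {v : Q.V} {k : ℤ} {u : F.ι → ℝ} (hu : u ∈ Cc F.toGr v k) :
    u ∈ Zc F v k := by
  refine ⟨hu, ?_⟩
  rw [show m0 F.δ = 0 from Matrix.ext h]
  simp

theorem mm_Bc {F : Obj Q} (h : Minimal F) {v : Q.V} {k : ℤ} {u : F.ι → ℝ} (hu : u ∈ Bc F v k) :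
    u = 0 := by
  obtain ⟨w, -, rfl⟩ := hu
  rw [show m0 F.δ = 0 from Matrix.ext h]
  simp

theorem mm_single (F : Gr Q) (i : F.ι) : (Pi.single i 1 : F.ι → ℝ) ∈ Cc F (F.vtx i) (F.deg i) :=
  fun _ hj => Pi.single_eq_of_ne (fun e => hj (by rw [e]; exact ⟨rfl, rfl⟩)) _

theorem mm_quasi {F G : Obj Q} (hF : Minimal F) (hG : Minimal G) {f : Mor F.toGr G.toGr}
    (hf : Closed F G 0 f) (hi : ∀ v k, InjAt F G v k f) (hs : ∀ v k, SurjAt F G v k f) :
    IsHE F G f := by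
  choose u hu hu' using fun j => hs _ _ _ (mm_Zc hG (mm_single G.toGr j))
  have hg : ∀ i j, (Matrix.of fun i j => u j i) i j ≠ 0 → F.vtx i = G.vtx j ∧ F.deg i = G.deg j :=
    fun i j h => by_contra fun hc => h ((hu j).1 i hc)
  have h2 : m0 f * (Matrix.of fun i j => u j i) = 1 := by
    ext j' j
    have := congrFun (sub_eq_zero.1 (mm_Bc hG (hu' j))) j'
    rw [one_apply, ← Pi.single_apply j (1 : ℝ) j', this]
    rfl
  refine isHE_of_m0_inv hf _ hg ?_ h2
  ext i' i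
  have a1 := (mm_hom_sc hg).mapsC (hf.hom.mapsC (mm_single F.toGr i))
  rw [add_zero, add_zero] at a1
  have a2 := mm_Bc hF (hi _ _ _ (mm_Zc hF (sub_mem a1 (mm_single F.toGr i))) (by
    rw [mulVec_sub, mulVec_mulVec]
    erw [h2]
    rw [one_mulVec, sub_self]
    exact zero_mem _))
  have a3 := congrFun (sub_eq_zero.1 a2) i'
  rw [mulVec_mulVec, mulVec_single_one] at a3
  rw [one_apply, ← Pi.single_apply i (1 : ℝ) i', ← a3]
  rfl

/-- Quasi-isomorphisms are homotopy equivalences.  Replace `F`, `G` by minimal models (two out of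
three; `InjAt`, `SurjAt` are preserved).  For minimal objects `Zc = Cc`, `Bc = ⊥`, every vector is the
sum of its homogeneous components, so `m0 f` is bijective, and its inverse preserves every `Cc`. -/
theorem isHE_of_quasiIso {F G : Obj Q} {f : Mor F.toGr G.toGr} (hf : Closed F G 0 f)
    (hi : ∀ v k, InjAt F G v k f) (hs : ∀ v k, SurjAt F G v k f) : IsHE F G f := by
  obtain ⟨a, ha⟩ := (he_mm F).symm
  obtain ⟨b, hb⟩ := he_mm G
  have hc := ha.closed.mul0 (hf.mul0 hb.closed)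
  have h1 : ∀ v k, InjAt (mm F) (mm G) v k (b * f * a) := fun v k =>
    (ha.injAt v k).comp ha.closed ((hi v k).comp hf (hb.injAt v k))
  refine IsHE.of_comp_left hf hb (IsHE.of_comp_right ha (hf.mul0 hb.closed)
    (mm_quasi (mm_minimal F) (mm_minimal G) hc h1 fun v k => surjAt_of_injAt hc (h1 v k) ?_))
  rw [← (he_mm F).hd_eq, ← (he_mm G).hd_eq]
  exact hd_le_of_surjAt hf (hs v k)

theorem contr_of_hd {F : Obj Q} (h : ∀ v k, hd F v k = 0) : Contr F := by
  refine (contr_of_isEmpty ⟨fun i => ?_⟩).of_HE (he_mm F).symm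
  exact (mm_minimal F).hd_eq_zero_iff.1 (((he_mm F).hd_eq _ _).symm.trans (h _ _)) i ⟨rfl, rfl⟩

/-- the minimal model has one index; `δ = 0` by `Q.loopless` and degrees -/
theorem he_simple_of_hd {F : Obj Q} {w : Q.V}
    (h : ∀ v k, hd F v k = if v = w ∧ k = 0 then 1 else 0) : HE F (simple w) := by
  have h1 : ∀ i, (mm F).vtx i = w ∧ (mm F).deg i = 0 := fun i => by
    by_contra hc
    exact (mm_minimal F).hd_eq_zero_iff.1 (((he_mm F).hd_eq _ _).symm.trans
      ((h _ _).trans (if_neg hc))) i ⟨rfl, rfl⟩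
  have h2 : Fintype.card (mm F).ι = Fintype.card Unit := by
    have := h w 0
    rw [if_pos ⟨rfl, rfl⟩, (he_mm F).hd_eq, (mm_minimal F).hd_eq_cnt, cnt,
      Finset.filter_true_of_mem fun i _ => h1 i] at this
    exact this
  refine (he_mm F).trans (HE.of_equiv (G := simple w) (Fintype.equivOfCardEq h2)
    (fun i => (h1 i).1.symm) (fun i => (h1 i).2.symm) fun j i => Eq.symm ?_)
  have h3 := (mm F).hom j i
  rw [(h1 i).1, (h1 i).2, (h1 j).1, (h1 j).2] at h3
  ext a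
  · exact mm_minimal F j i
  · by_contra hc
    exact Q.loopless a ((h3.2.1 a hc).1.trans (h3.2.1 a hc).2.1.symm)
  · by_contra hc
    exact absurd (h3.2.2 hc).2 (by norm_num)

theorem isMod_mm {F : Obj Q} (h : ∀ v k, k ≠ 0 → hd F v k = 0) : IsMod (mm F) := by
  intro i
  by_contra hc
  exact (mm_minimal F).hd_eq_zero_iff.1 (((he_mm F).hd_eq _ _).symm.trans (h _ _ hc)) i ⟨rfl, rfl⟩

end Crest.Agent.R175
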