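import Crest.Agent.R175.Corr
import Crest.Agent.R175.Art

/-!
# R175: unfoldings of a Coxeter matrix.
-/

set_option autoImplicit false

namespace Crest.Agent.R175

open CoxeterSystem Crest.Agent.R61 Crest.GroupTheory

variable {S : Type} [Fintype S] [DecidableEq S] {M : CoxeterMatrix S}

/-- an unfolding of `M` -/
structure Unf (M : CoxeterMatrix S) where
  Q : Qv
  typ : Q.V → S
  d : Q.V → ℝ
  d_pos : ∀ v, 0 < d v
  typ_ne : ∀ a, typ (Q.src a) ≠ typ (Q.tgt a)
  pf : ∀ v t, ∑ a with Q.src a = v ∧ typ (Q.tgt a) = t, d (Q.tgt a) = aa M (typ v) t * d v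
  surj : Function.Surjective typ
  D : ℝ
  nrm : ∀ s, ∑ v with typ v = s, d v ^ 2 = D
  C : Type
  cor : C → Corr Q
  lam : C → ℝ
  cor_typ : ∀ c y, typ ((cor c).p y) = typ ((cor c).q y)
  cor_d : ∀ c v, ∑ y with (cor c).p y = v, d ((cor c).q y) = lam c * d v
  uniq : ∀ f : Q.V → ℝ, (∀ c v, ∑ y with (cor c).p y = v, f ((cor c).q y) = lam c * f v) →
    ∀ v v', typ v = typ v' → f v * d v' = f v' * d v

namespace Unf

variable (U : Unf M)

/-- the twist of type `s` -/
noncomputable def TT (s : S) : DGFun U.Q := Tm fun v => U.typ v = s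

/-- the inverse twist of type `s` -/
noncomputable def TI (s : S) : DGFun U.Q := Tp fun v => U.typ v = s

/-- the twists along a word, the first letter first -/
noncomputable def TW : List S → DGFun U.Q
  | [] => DGFun.id U.Q
  | s :: l => (U.TT s).comp (TW l)

/-- the weighted sum over the vertices of type `s` -/
noncomputable def ws (f : U.Q.V → ℝ) (s : S) : ℝ := ∑ v with U.typ v = s, U.d v * f v

/-- the weighted dimension -/
noncomputable def wN (F : Obj U.Q) (s : S) (k : ℤ) : ℝ := U.ws (fun v => (hd F v k : ℝ)) s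

theorem indep (s : S) : Indep fun v => U.typ v = s := by
  exact fun a h => U.typ_ne a (h.1.trans h.2.symm)

theorem D_pos [Nonempty S] : 0 < U.D := by
  obtain ⟨s⟩ := ‹Nonempty S›
  obtain ⟨v, hv⟩ := U.surj s
  rw [← U.nrm s]
  exact Finset.sum_pos' (fun w _ => sq_nonneg _)
    ⟨v, Finset.mem_filter.2 ⟨Finset.mem_univ _, hv⟩, pow_pos (U.d_pos v) 2⟩

theorem aa_ne_zero_of_arr (a : U.Q.A) : aa M (U.typ (U.Q.src a)) (U.typ (U.Q.tgt a)) ≠ 0 := by
  intro h
  have h1 := U.pf (U.Q.src a) (U.typ (U.Q.tgt a))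
  rw [h, zero_mul] at h1
  refine (Finset.sum_pos' (fun b _ => (U.d_pos _).le) ⟨a, ?_, U.d_pos _⟩).ne' h1
  exact Finset.mem_filter.2 ⟨Finset.mem_univ _, rfl, rfl⟩

theorem exists_arr {v : U.Q.V} {t : S} (h : aa M (U.typ v) t ≠ 0) :
    ∃ a, U.Q.src a = v ∧ U.typ (U.Q.tgt a) = t := by
  by_contra hne
  have h1 := U.pf v t
  rw [Finset.sum_eq_zero fun a ha => absurd ⟨a, (Finset.mem_filter.1 ha).2⟩ hne] at h1
  exact mul_ne_zero h (U.d_pos v).ne' h1.symm

theorem unf_nb (g : S → ℝ) (v : U.Q.V) :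
    ∑ a with U.Q.src a = v, g (U.typ (U.Q.tgt a)) * U.d (U.Q.tgt a) =
      (∑ t, aa M (U.typ v) t * g t) * U.d v := by
  rw [← Finset.sum_fiberwise _ (fun a => U.typ (U.Q.tgt a)), Finset.sum_mul]
  refine Finset.sum_congr rfl fun t _ => ?_
  rw [Finset.filter_filter, mul_right_comm, ← U.pf v t, Finset.sum_mul]
  refine Finset.sum_congr rfl fun a ha => ?_
  rw [(Finset.mem_filter.1 ha).2.2, mul_comm]

/-- Both sides equal `∑ a with typ (src a) = s, d (src a) * f (tgt a)`: group by `tgt a`, replace `a`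
by `bar a` (`Qv.sum_bar`) and use `pf`, `aa_symm`. -/
theorem ws_nb (f : U.Q.V → ℝ) (s : S) :
    U.ws (fun v => ∑ a with U.Q.src a = v, f (U.Q.tgt a)) s = ∑ t, aa M s t * U.ws f t := by
  have h1 : U.ws (fun v => ∑ a with U.Q.src a = v, f (U.Q.tgt a)) s =
      ∑ a, (if U.typ (U.Q.src a) = s then 1 else 0) * U.d (U.Q.src a) * f (U.Q.tgt a) := by
    rw [← Finset.sum_fiberwise _ U.Q.src, ws, Finset.sum_filter]
    refine Finset.sum_congr rfl fun v _ => ?_
    split_ifs with h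
    · rw [Finset.mul_sum]
      refine Finset.sum_congr rfl fun a ha => ?_
      rw [(Finset.mem_filter.1 ha).2, if_pos h, one_mul]
    · refine (Finset.sum_eq_zero fun a ha => ?_).symm
      rw [(Finset.mem_filter.1 ha).2, if_neg h, zero_mul, zero_mul]
  have h2 : ∑ t, aa M s t * U.ws f t = ∑ w, aa M s (U.typ w) * U.d w * f w := by
    rw [← Finset.sum_fiberwise Finset.univ U.typ]
    refine Finset.sum_congr rfl fun t _ => ?_
    rw [ws, Finset.mul_sum]
    refine Finset.sum_congr rfl fun w hw => ?_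
    rw [(Finset.mem_filter.1 hw).2, mul_assoc]
  rw [h1, h2, ← Qv.sum_bar, ← Finset.sum_fiberwise _ U.Q.src]
  refine Finset.sum_congr rfl fun w _ => ?_
  have h3 := U.unf_nb (fun t => if t = s then 1 else 0) w
  simp only [mul_ite, mul_one, mul_zero, Finset.sum_ite_eq', Finset.mem_univ, if_true] at h3
  rw [aa_symm, ← h3, Finset.sum_mul]
  refine Finset.sum_congr rfl fun a ha => ?_
  rw [Qv.src_bar', Qv.tgt_bar, (Finset.mem_filter.1 ha).2]

theorem ws_nb' (F : Obj U.Q) (s : S) (k : ℤ) :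
    U.ws (fun v => (nb F v k : ℝ)) s = ∑ t, aa M s t * U.wN F t k := by
  simp only [nb, Nat.cast_sum]
  exact U.ws_nb (fun v => (hd F v k : ℝ)) s

theorem ws_add (f g : U.Q.V → ℝ) (s : S) :
    U.ws (fun v => f v + g v) s = U.ws f s + U.ws g s := by
  simp only [ws, mul_add, Finset.sum_add_distrib]

theorem ws_mono {f g : U.Q.V → ℝ} {s : S} (h : ∀ v, U.typ v = s → f v ≤ g v) :
    U.ws f s ≤ U.ws g s := by
  exact Finset.sum_le_sum fun v hv =>
    mul_le_mul_of_nonneg_left (h v (Finset.mem_filter.1 hv).2) (U.d_pos v).le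

theorem ws_congr {f g : U.Q.V → ℝ} {s : S} (h : ∀ v, U.typ v = s → f v = g v) :
    U.ws f s = U.ws g s := by
  exact Finset.sum_congr rfl fun v hv => by rw [h v (Finset.mem_filter.1 hv).2]

theorem ws_ite (w : U.Q.V) (s : S) :
    U.ws (fun v => if v = w then 1 else 0) s = if U.typ w = s then U.d w else 0 := by
  simp [ws]

theorem wN_nonneg (F : Obj U.Q) (s : S) (k : ℤ) : 0 ≤ U.wN F s k := by
  exact Finset.sum_nonneg fun v _ => mul_nonneg (U.d_pos v).le (Nat.cast_nonneg _)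

theorem wN_eq_zero_iff {F : Obj U.Q} {s : S} {k : ℤ} :
    U.wN F s k = 0 ↔ ∀ v, U.typ v = s → hd F v k = 0 := by
  rw [wN, ws, Finset.sum_eq_zero_iff_of_nonneg fun v _ => mul_nonneg (U.d_pos v).le (Nat.cast_nonneg _)]
  refine forall_congr' fun v => ?_
  simp [(U.d_pos v).ne']

theorem wN_congr {F G : Obj U.Q} (h : HE F G) (s : S) (k : ℤ) : U.wN F s k = U.wN G s k := by
  exact U.ws_congr fun v _ => by rw [h.hd_eq]

theorem nb_eq_zero {F : Obj U.Q} {v : U.Q.V} {k : ℤ}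
    (h : ∀ w, aa M (U.typ v) (U.typ w) ≠ 0 → hd F w k = 0) : nb F v k = 0 := by
  exact nb_eq_zero_iff.2 fun a ha => h _ (ha ▸ U.aa_ne_zero_of_arr a)

/-- take `v` over `J` that maximises `n v / (γ (typ v) * d v)` -/
theorem posDefOn {J : Finset S} (h : Sph M J) : PosDefOn fun v => U.typ v ∈ J := by
  obtain ⟨γ, hγ⟩ := h
  rintro n ⟨v₀, hv₀, hn₀⟩ hb
  obtain ⟨v, hv, hmax⟩ := Finset.exists_max_image (Finset.univ.filter fun v => U.typ v ∈ J)
    (fun v => (n v : ℝ) / (γ (U.typ v) * U.d v)) ⟨v₀, Finset.mem_filter.2 ⟨Finset.mem_univ _, hv₀⟩⟩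
  have hvJ : U.typ v ∈ J := (Finset.mem_filter.1 hv).2
  have hp : ∀ w, U.typ w ∈ J → 0 < γ (U.typ w) * U.d w := fun w hw =>
    mul_pos (hγ _ hw).1 (U.d_pos w)
  set μ := (n v : ℝ) / (γ (U.typ v) * U.d v) with hμ
  have hμ0 : 0 < μ := lt_of_lt_of_le (div_pos (Nat.cast_pos.2 (Nat.pos_of_ne_zero hn₀)) (hp v₀ hv₀))
    (hmax v₀ (Finset.mem_filter.2 ⟨Finset.mem_univ _, hv₀⟩))
  have hnv : (n v : ℝ) = μ * (γ (U.typ v) * U.d v) := (div_mul_cancel₀ _ (hp v hvJ).ne').symm
  refine ⟨v, hvJ, ?_⟩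
  have h1 := U.unf_nb (fun t => if t ∈ J then μ * γ t else 0) v
  have h2 : ∑ t, aa M (U.typ v) t * (if t ∈ J then μ * γ t else 0) =
      μ * ∑ t ∈ J, aa M (U.typ v) t * γ t := by
    simp only [mul_ite, mul_zero, Finset.sum_ite_mem, Finset.univ_inter, Finset.mul_sum]
    exact Finset.sum_congr rfl fun t _ => by ring
  have h3 : ∑ a with U.Q.src a = v, (n (U.Q.tgt a) : ℝ) ≤ ∑ a with U.Q.src a = v,
      (if U.typ (U.Q.tgt a) ∈ J then μ * γ (U.typ (U.Q.tgt a)) else 0) * U.d (U.Q.tgt a) := by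
    refine Finset.sum_le_sum fun a ha => ?_
    split_ifs with e
    · have := hmax _ (Finset.mem_filter.2 ⟨Finset.mem_univ _, e⟩)
      rw [div_le_iff₀ (hp _ e)] at this
      rwa [mul_assoc]
    · rw [hb a (((Finset.mem_filter.1 ha).2).symm ▸ hvJ) e, zero_mul, Nat.cast_zero]
  rw [h1, h2] at h3
  have h4 := mul_lt_mul_of_pos_right (mul_lt_mul_of_pos_left (hγ _ hvJ).2 hμ0) (U.d_pos v)
  have h5 : ((∑ a with U.Q.src a = v, n (U.Q.tgt a) : ℕ) : ℝ) < ((2 * n v : ℕ) : ℝ) := by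
    push_cast
    rw [hnv]
    linarith
  exact_mod_cast h5

/-- if `f v = μ (typ v) * d v` then `ws f s = μ s * D` and the sum over the neighbours of `v` is
`(∑ t, aa (typ v) t * μ t) * d v` -/
theorem sum_nb_of_symm {f : U.Q.V → ℝ} (h : ∀ v v', U.typ v = U.typ v' → f v * U.d v' = f v' * U.d v)
    (v : U.Q.V) : U.D * f v = U.d v * U.ws f (U.typ v) ∧
      U.D * ∑ a with U.Q.src a = v, f (U.Q.tgt a) = U.d v * ∑ t, aa M (U.typ v) t * U.ws f t := by
  have h1 : ∀ v, U.D * f v = U.d v * U.ws f (U.typ v) := fun v => by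
    rw [← U.nrm (U.typ v), ws, Finset.sum_mul, Finset.mul_sum]
    refine Finset.sum_congr rfl fun w hw => ?_
    have := h w v (Finset.mem_filter.1 hw).2
    linear_combination (-U.d w) * this
  refine ⟨h1 v, ?_⟩
  rw [mul_comm (U.d v), ← U.unf_nb (U.ws f) v, Finset.mul_sum]
  exact Finset.sum_congr rfl fun a _ => by rw [h1, mul_comm]

theorem TW_append (l l' : List S) (F : Obj U.Q) :
    (U.TW (l ++ l')).obj F = (U.TW l').obj ((U.TW l).obj F) := by
  induction l generalizing F with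
  | nil => rfl
  | cons s l ih => exact ih _

theorem qff_TW (l : List S) : QFF (U.TW l) := by
  induction l with
  | nil => exact QFF.id
  | cons s l ih => exact (qff_Tm (U.indep s)).comp ih

end Unf

end Crest.Agent.R175
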