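import Crest.Agent.R175.Fus2
import Crest.Agent.R175.Unf

/-!
# R175: the unfolding that belongs to fusion data.
-/

set_option autoImplicit false

namespace Crest.Agent.R175

open CoxeterSystem Crest.Agent.R61 Crest.GroupTheory

variable {S : Type} [Fintype S] [DecidableEq S] (M : CoxeterMatrix S) {B : ℕ} (Φ : Fus B)

/-- the arrows `(s, x) → (t, x')`; two of them if the label is `∞` -/
def Fus.Ar : Type := {a : (S × Φ.X) × (S × Φ.X) × Bool //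
  a.1.1 ≠ a.2.1.1 ∧ Φ.E (M a.1.1 a.2.1.1) a.1.2 a.2.1.2 ∧ (M a.1.1 a.2.1.1 ≠ 0 → a.2.2 = false)}

instance : Fintype (Φ.Ar M) := inferInstanceAs (Fintype {_a : (S × Φ.X) × (S × Φ.X) × Bool // _})
instance : DecidableEq (Φ.Ar M) :=
  inferInstanceAs (DecidableEq {_a : (S × Φ.X) × (S × Φ.X) × Bool // _})

/-- the quiver -/
def Fus.qv : Qv where
  V := S × Φ.X
  A := Φ.Ar M
  src a := a.1.1
  tgt a := a.1.2.1
  bar a := ⟨(a.1.2.1, a.1.1, a.1.2.2), a.2.1.symm,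
    by rw [M.symmetric]; exact Φ.E_symm _ _ _ a.2.2.1, by rw [M.symmetric]; exact a.2.2.2⟩
  bar_bar _ := rfl
  src_bar _ := rfl
  loopless a h := a.2.1 (congrArg Prod.fst h)

theorem unfold_sum_sub {α : Type} [Fintype α] (p : α → Prop) [DecidablePred p] (f : α → ℝ) :
    ∑ a : {a // p a}, f a.1 = ∑ a, if p a then f a else 0 := by
  rw [← Finset.sum_filter, Finset.sum_subtype (Finset.univ.filter p) (p := p) (by simp)]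

/-- sums over the arrows -/
theorem Fus.sum_Ar (φ : (S × Φ.X) → (S × Φ.X) → Bool → ℝ) :
    ∑ a : Φ.Ar M, φ a.1.1 a.1.2.1 a.1.2.2 = ∑ v, ∑ v', ∑ β,
      if v.1 ≠ v'.1 ∧ Φ.E (M v.1 v'.1) v.2 v'.2 ∧ (M v.1 v'.1 ≠ 0 → β = false) then φ v v' β
      else 0 := by
  refine (unfold_sum_sub (fun a : (S × Φ.X) × (S × Φ.X) × Bool =>
    a.1.1 ≠ a.2.1.1 ∧ Φ.E (M a.1.1 a.2.1.1) a.1.2 a.2.1.2 ∧ (M a.1.1 a.2.1.1 ≠ 0 → a.2.2 = false))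
    (fun a => φ a.1 a.2.1 a.2.2)).trans ?_
  rw [Fintype.sum_prod_type]
  refine Finset.sum_congr rfl fun v _ => ?_
  rw [Fintype.sum_prod_type]

/-- the index set of the correspondence `c`: `(s, x, u)` with `q = (s, x)`, `p = (s, u)` -/
def Fus.Yc (c : ℕ) : Type := {y : S × Φ.X × Φ.X // Φ.E c y.2.1 y.2.2}

instance (c : ℕ) : Fintype (Φ.Yc (S := S) c) := inferInstanceAs (Fintype {_y : S × Φ.X × Φ.X // _})
instance (c : ℕ) : DecidableEq (Φ.Yc (S := S) c) :=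
  inferInstanceAs (DecidableEq {_y : S × Φ.X × Φ.X // _})

theorem Fus.sum_Yc (c : ℕ) (φ : S → Φ.X → Φ.X → ℝ) :
    ∑ y : Φ.Yc (S := S) c, φ y.1.1 y.1.2.1 y.1.2.2 =
      ∑ s, ∑ x, ∑ u, if Φ.E c x u then φ s x u else 0 := by
  refine (unfold_sum_sub (fun y : S × Φ.X × Φ.X => Φ.E c y.2.1 y.2.2)
    (fun y => φ y.1 y.2.1 y.2.2)).trans ?_
  rw [Fintype.sum_prod_type]
  refine Finset.sum_congr rfl fun v _ => ?_
  rw [Fintype.sum_prod_type]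

/-- the coefficients -/
noncomputable def Fus.RR (c : ℕ) (a : Φ.Ar M) (y' y : Φ.Yc (S := S) c) (b : Φ.Ar M) : ℝ :=
  if a.1.1 = (y.1.1, y.1.2.2) ∧ a.1.2.1 = (y'.1.1, y'.1.2.2) ∧ b.1.1 = (y.1.1, y.1.2.1) ∧
      b.1.2.1 = (y'.1.1, y'.1.2.1) ∧ a.1.2.2 = b.1.2.2 then
    Φ.ρ c (M y.1.1 y'.1.1) y.1.2.1 y.1.2.2 y'.1.2.1 y'.1.2.2
  else 0

/-- a double sum whose non-zero terms are parametrised by `w` -/
theorem unfold_sum_param {α β γ : Type} [Fintype α] [Fintype β] [Fintype γ] [DecidableEq α]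
    [DecidableEq β] (F : α → β → ℝ) (P : γ → Prop) [DecidablePred P] (G : γ → ℝ)
    (fa : ∀ w, P w → α) (fb : ∀ w, P w → β)
    (hinj : ∀ w hw w' hw', fb w hw = fb w' hw' → w = w')
    (hF : ∀ w hw, F (fa w hw) (fb w hw) = G w)
    (h0 : ∀ a b, F a b ≠ 0 → ∃ w hw, fa w hw = a ∧ fb w hw = b) :
    ∑ a, ∑ b, F a b = ∑ w with P w, G w := by
  rw [← Finset.sum_product']
  symm
  refine Finset.sum_bij_ne_zero
    (fun w hw _ => (fa w (Finset.mem_filter.1 hw).2, fb w (Finset.mem_filter.1 hw).2))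
    (fun _ _ _ => by simp) (fun w hw _ w' hw' _ e => hinj _ _ _ _ (congrArg Prod.snd e))
    (fun x _ hx => ?_) (fun w hw _ => (hF _ _).symm)
  obtain ⟨w, hw, e1, e2⟩ := h0 x.1 x.2 hx
  refine ⟨w, by simpa using hw, ?_, Prod.ext e1 e2⟩
  rw [← hF w hw, e1, e2]
  exact hx

theorem Fus.RR_ne {c : ℕ} {a : Φ.Ar M} {y' y : Φ.Yc (S := S) c} {b : Φ.Ar M}
    (h : Φ.RR M c a y' y b ≠ 0) : a.1.1 = (y.1.1, y.1.2.2) ∧ a.1.2.1 = (y'.1.1, y'.1.2.2) ∧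
      b.1.1 = (y.1.1, y.1.2.1) ∧ b.1.2.1 = (y'.1.1, y'.1.2.1) ∧ a.1.2.2 = b.1.2.2 := by
  unfold Fus.RR at h
  split_ifs at h with e
  · exact e
  · exact absurd rfl h

theorem Fus.RR_unit {c : ℕ} (hc : 2 ≤ c) (y y'' : Φ.Yc (S := S) c) (b b' : Φ.Ar M)
    (h1 : b.1.1 = (y.1.1, y.1.2.1)) (h2 : b.1.2.1 = b'.1.1) (h3 : b'.1.2.1 = (y''.1.1, y''.1.2.1)) :
    ∑ a : Φ.Ar M, ∑ y', Φ.RR M c ((Φ.qv M).bar a) y'' y' b' * Φ.RR M c a y' y b =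
      if y = y'' ∧ b' = (Φ.qv M).bar b then Φ.d y.1.2.2 / Φ.d y.1.2.1 else 0 := by
  obtain ⟨⟨s, x, u⟩, hy⟩ := y
  obtain ⟨⟨s'', x₂, u₂⟩, hy''⟩ := y''
  obtain ⟨⟨v, ⟨t, x₁⟩, β⟩, hb⟩ := b
  obtain ⟨⟨v₁, v₂, β'⟩, hb'⟩ := b'
  simp only at h1 h2 h3 hy hy''
  subst h1 h2 h3
  simp only at hb hb'
  by_cases e : s'' = s ∧ u₂ = u ∧ β' = β
  · obtain ⟨rfl, rfl, rfl⟩ := e
    have hm : M t s'' = M s'' t := M.symmetric _ _
    rw [unfold_sum_param _ (fun w => Φ.E c x₁ w ∧ Φ.E (M s'' t) u₂ w)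
      (fun w => Φ.ρ c (M s'' t) x₁ w x₂ u₂ * Φ.ρ c (M s'' t) x u₂ x₁ w)
      (fun w hw => ⟨((s'', u₂), (t, w), β'), hb.1, hw.2, hb.2.2⟩)
      (fun w hw => ⟨(t, x₁, w), hw.1⟩)]
    · rw [Φ.unit c (M s'' t) x u₂ x₁ x₂ hc hy hy'' hb.2.1 (hm ▸ hb'.2.1)]
      refine if_congr ⟨?_, ?_⟩ rfl rfl
      · rintro rfl
        exact ⟨rfl, rfl⟩
      · rintro ⟨e, -⟩
        exact congrArg (fun y => y.1.2.1) e
    · intro w hw w' hw' e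
      exact congrArg (fun y => y.1.2.2) e
    · intro w hw
      simp [Fus.RR, Fus.qv, hm]
    · rintro ⟨⟨v, v', γ⟩, ha⟩ ⟨⟨t', x', w⟩, hy'⟩ h
      obtain ⟨e1, e2, -, e4, e5⟩ := Φ.RR_ne M (right_ne_zero_of_mul h)
      simp only [Prod.mk.injEq] at e1 e2 e4 e5
      obtain ⟨rfl, rfl⟩ := e4
      subst e1 e2 e5
      exact ⟨w, ⟨hy', ha.2.1⟩, rfl, rfl⟩
  · rw [if_neg, Finset.sum_eq_zero]
    · intro a _
      refine Finset.sum_eq_zero fun y' _ => ?_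
      by_contra h
      obtain ⟨e1, -, -, -, e5⟩ := Φ.RR_ne M (right_ne_zero_of_mul h)
      obtain ⟨-, f2, -, -, f5⟩ := Φ.RR_ne M (left_ne_zero_of_mul h)
      have g : (s'', u₂) = (s, u) := f2.symm.trans e1
      exact e ⟨congrArg Prod.fst g, congrArg Prod.snd g, f5.symm.trans e5⟩
    · rintro ⟨e1, e2⟩
      exact e ⟨(congrArg (fun y => y.1.1) e1).symm, (congrArg (fun y => y.1.2.2) e1).symm,
        congrArg (fun y => y.1.2.2) e2⟩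

theorem Fus.RR_counit {c : ℕ} (hc : 2 ≤ c) (y' y₂ : Φ.Yc (S := S) c) (a a₂ : Φ.Ar M)
    (h1 : (y'.1.1, y'.1.2.1) = (y₂.1.1, y₂.1.2.1)) (h2 : a.1.2.1 = (y'.1.1, y'.1.2.2))
    (h3 : a₂.1.2.1 = (y₂.1.1, y₂.1.2.2)) :
    ∑ y : Φ.Yc (S := S) c, ∑ b : Φ.Ar M, Φ.RR M c a₂ y₂ y b * (Φ.d y.1.2.2 / Φ.d y.1.2.1)⁻¹ *
        Φ.RR M c ((Φ.qv M).bar a) y y' ((Φ.qv M).bar b) =
      if y' = y₂ ∧ a = a₂ then 1 else 0 := by
  obtain ⟨⟨t, v, w⟩, hy'⟩ := y'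
  obtain ⟨⟨t₂, v₂, w₂⟩, hy₂⟩ := y₂
  obtain ⟨⟨⟨s, u⟩, z, β⟩, ha⟩ := a
  obtain ⟨⟨⟨s₂, u₂⟩, z₂, β₂⟩, ha₂⟩ := a₂
  simp only [Prod.mk.injEq] at h1 h2 h3 hy' hy₂
  obtain ⟨rfl, rfl⟩ := h1
  subst h2 h3
  simp only at ha ha₂
  by_cases e : s₂ = s ∧ u₂ = u ∧ β₂ = β
  · obtain ⟨rfl, rfl, rfl⟩ := e
    have hm : M t s₂ = M s₂ t := M.symmetric _ _
    rw [unfold_sum_param _ (fun x => Φ.E c x u₂ ∧ Φ.E (M s₂ t) x v)
      (fun x => Φ.ρ c (M s₂ t) x u₂ v w₂ * (Φ.d u₂ / Φ.d x)⁻¹ * Φ.ρ c (M s₂ t) v w x u₂)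
      (fun x hx => ⟨(s₂, x, u₂), hx.1⟩)
      (fun x hx => ⟨((s₂, x), (t, v), β₂), ha.1, hx.2, ha.2.2⟩)]
    · rw [Φ.counit c (M s₂ t) v u₂ w w₂ hc hy' hy₂ ha.2.1 ha₂.2.1]
      refine if_congr ⟨?_, ?_⟩ rfl rfl
      · rintro rfl
        exact ⟨rfl, rfl⟩
      · rintro ⟨e, -⟩
        exact congrArg (fun y => y.1.2.2) e
    · intro w hw w' hw' e
      exact congrArg (fun y => y.1.1.2) e
    · intro w hw
      simp [Fus.RR, Fus.qv, hm]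
    · rintro ⟨⟨s', x, u'⟩, hy⟩ ⟨⟨z, z', γ⟩, hb⟩ h
      obtain ⟨e1, -, e3, e4, e5⟩ := Φ.RR_ne M (left_ne_zero_of_mul (left_ne_zero_of_mul h))
      simp only [Prod.mk.injEq] at e1 e3 e4 e5
      obtain ⟨rfl, rfl⟩ := e1
      subst e3 e4 e5
      exact ⟨x, ⟨hy, hb.2.1⟩, rfl, rfl⟩
  · rw [if_neg, Finset.sum_eq_zero]
    · intro y _
      refine Finset.sum_eq_zero fun b _ => ?_
      by_contra h
      obtain ⟨e1, -, -, -, e5⟩ := Φ.RR_ne M (left_ne_zero_of_mul (left_ne_zero_of_mul h))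
      obtain ⟨-, f2, -, -, f5⟩ := Φ.RR_ne M (right_ne_zero_of_mul h)
      have g : (s₂, u₂) = (s, u) := e1.trans f2.symm
      exact e ⟨congrArg Prod.fst g, congrArg Prod.snd g, e5.trans f5.symm⟩
    · rintro ⟨-, e2⟩
      exact e ⟨(congrArg (fun y => y.1.1.1) e2).symm, (congrArg (fun y => y.1.1.2) e2).symm,
        (congrArg (fun y => y.1.2.2) e2).symm⟩

/-- the correspondence -/
noncomputable def Fus.cor (c : ℕ) (hc : 2 ≤ c) : Corr (Φ.qv M) where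
  Y := Φ.Yc (S := S) c
  p y := (y.1.1, y.1.2.2)
  q y := (y.1.1, y.1.2.1)
  κ y := Φ.d y.1.2.2 / Φ.d y.1.2.1
  κ_ne _ := div_ne_zero (Φ.d_pos _).ne' (Φ.d_pos _).ne'
  R := Φ.RR M c
  supp a y' y b h := by
    unfold Fus.RR at h
    split_ifs at h with e
    · exact ⟨e.1, e.2.1, e.2.2.1, e.2.2.2.1⟩
    · exact absurd rfl h
  unit := Φ.RR_unit M hc
  counit := Φ.RR_counit M hc

theorem Fus.sum_cor (c : ℕ) (hc : 2 ≤ c) (f : S × Φ.X → ℝ) (v : S × Φ.X) :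
    ∑ y : (Φ.cor M c hc).Y with (Φ.cor M c hc).p y = v, f ((Φ.cor M c hc).q y) =
      ∑ x with Φ.E c v.2 x, f (v.1, x) := by
  symm
  refine Finset.sum_bij
    (fun x hx => (⟨(v.1, x, v.2), Φ.E_symm _ _ _ (Finset.mem_filter.1 hx).2⟩ : Φ.Yc (S := S) c))
    (fun x hx => Finset.mem_filter.2 ⟨Finset.mem_univ _, rfl⟩)
    (fun x _ x' _ e => congrArg (fun y => y.1.2.1) e) ?_ (fun _ _ => rfl)
  rintro ⟨⟨s, x, u⟩, hy⟩ h
  have e : (s, u) = v := (Finset.mem_filter.1 h).2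
  subst e
  exact ⟨x, Finset.mem_filter.2 ⟨Finset.mem_univ _, Φ.E_symm _ _ _ hy⟩, rfl⟩

/-- for `M s t = 0` there are two arrows and `aa = 2`; otherwise `Fus.pf`, `geoa_neg_kk` -/
theorem Fus.pf_qv (hB : ∀ s t, M s t < B) (v : S × Φ.X) (t : S) :
    ∑ a : (Φ.qv M).A with (Φ.qv M).src a = v ∧ ((Φ.qv M).tgt a).1 = t,
      Φ.d ((Φ.qv M).tgt a).2 = aa M v.1 t * Φ.d v.2 := by
  rw [Finset.sum_filter]
  refine (Φ.sum_Ar M fun z z' _ => if z = v ∧ z'.1 = t then Φ.d z'.2 else 0).trans ?_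
  rw [Finset.sum_eq_single v (fun z _ hz => by simp [hz]) (by simp), Fintype.sum_prod_type,
    Finset.sum_eq_single t (fun z _ hz => by simp [hz]) (by simp)]
  by_cases e : v.1 = t
  · simp [e, aa_self]
  · rw [aa_of_ne e, geoa_neg_kk]
    by_cases h0 : M v.1 t = 0
    · simp [e, h0, Φ.E_zero, two_mul]
    · rw [← Φ.pf _ v.2 (geoa_two_le M e h0) (hB _ _), Finset.sum_filter]
      refine Finset.sum_congr rfl fun x _ => ?_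
      simp [e, h0]

theorem Fus.nrm_qv (s : S) :
    ∑ v : S × Φ.X with v.1 = s, Φ.d v.2 ^ 2 = ∑ x, Φ.d x ^ 2 := by
  rw [Finset.sum_filter, Fintype.sum_prod_type,
    Finset.sum_eq_single s (fun z _ hz => by simp [hz]) (by simp)]
  simp

theorem Fus.uniq_qv (f : S × Φ.X → ℝ)
    (h : ∀ (c : {c : ℕ // 2 ≤ c ∧ c < B}) (v : S × Φ.X),
      ∑ y : (Φ.cor M c.1 c.2.1).Y with (Φ.cor M c.1 c.2.1).p y = v, f ((Φ.cor M c.1 c.2.1).q y) =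
        2 * Real.cos (Real.pi / (c.1 : ℝ)) * f v) (v v' : S × Φ.X) (e : v.1 = v'.1) :
    f v * Φ.d v'.2 = f v' * Φ.d v.2 := by
  obtain ⟨s, x⟩ := v
  obtain ⟨s', x'⟩ := v'
  simp only at e
  subst e
  exact Φ.uniq (fun x => f (s, x))
    (fun m x h2 hm => (Φ.sum_cor M m h2 f (s, x)).symm.trans (h ⟨m, h2, hm⟩ (s, x))) x x'

/-- the unfolding -/
noncomputable def Fus.unf (hB : ∀ s t, M s t < B) : Unf M where
  Q := Φ.qv M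
  typ v := v.1
  d v := Φ.d v.2
  d_pos _ := Φ.d_pos _
  typ_ne a := a.2.1
  pf := Φ.pf_qv M hB
  surj s := ⟨(s, Φ.x₀), rfl⟩
  D := ∑ x, Φ.d x ^ 2
  nrm := Φ.nrm_qv
  C := {c : ℕ // 2 ≤ c ∧ c < B}
  cor c := Φ.cor M c.1 c.2.1
  lam c := 2 * Real.cos (Real.pi / (c.1 : ℝ))
  cor_typ _ _ := rfl
  cor_d c v := (Φ.sum_cor M c.1 c.2.1 (fun v => Φ.d v.2) v).trans (Φ.pf c.1 v.2 c.2.1 c.2.2)
  uniq := Φ.uniq_qv M

theorem exists_unf : Nonempty (Unf M) := by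
  obtain ⟨B, hB⟩ := (Set.finite_range fun p : S × S => M p.1 p.2).bddAbove
  exact ⟨(fus (B + 1)).unf M fun s t => Nat.lt_succ_of_le (hB ⟨(s, t), rfl⟩)⟩

end Crest.Agent.R175
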