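import Crest.Agent.R175.EFam
import Crest.Agent.R175.Frame
import Crest.Agent.R175.Unfold

/-!
# R175: the strong form of the parabolic intersection theorem.
-/

set_option autoImplicit false

namespace Crest.Agent.R175

open Crest.GroupTheory

theorem strongPar {S : Type*} [Finite S] (M : CoxeterMatrix S) : StrongPar M := by
  refine strongPar_of (fun S' _ _ M' K hK => ?_) M
  obtain ⟨U⟩ := exists_unf M'
  exact claim_of_framed (fun z => ⟨_, U.eData z⟩) (fun K z hz => ⟨_, _, U.rTh hz⟩) K hK

end Crest.Agent.R175
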