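import Crest.Agent.R175.Quot

/-!
# R175: the cohomology modules of a minimal object.
In a minimal object a non-zero entry `δ j i` has `deg j = deg i` (a `c1` part) or
`deg j = deg i - 1` (a `c2` part).
-/

set_option autoImplicit false

namespace Crest.Agent.R175

open Matrix

variable {Q : Qv}

/-- in degree zero the indices over `P` and those not over `P` are not connected -/
def SepAt (F : Obj Q) (P : Q.V → Prop) : Prop :=
  ∀ j i, F.deg i = 0 → F.deg j = 0 → F.δ j i ≠ 0 → (P (F.vtx i) ↔ P (F.vtx j))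

theorem sepAt_top (F : Obj Q) : SepAt F (fun _ => True) := fun _ _ _ _ _ => Iff.rfl

theorem sl_le {v w : Q.V} {k l p : ℤ} {x : Z Q} (h : Ok v k w l p x) (hx : x ≠ 0) : l ≤ k + p := by
  by_contra hc
  refine hx (Z.ext ?_ (funext fun a => ?_) ?_)
  · by_contra e
    have := (h.1 e).2
    omega
  · by_contra e
    have := (h.2.1 a e).2.2
    omega
  · by_contra e
    have := (h.2.2 e).2
    omega

theorem sl_cases {F : Obj Q} (hF : Minimal F) {j i : F.ι} (h : F.δ j i ≠ 0) :
    (∃ a, Q.src a = F.vtx i ∧ Q.tgt a = F.vtx j ∧ F.deg j = F.deg i) ∨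
      (F.vtx j = F.vtx i ∧ F.deg j = F.deg i - 1) := by
  by_contra hc
  rw [not_or] at hc
  refine h (Z.ext (hF j i) (funext fun a => ?_) ?_)
  · by_contra e
    obtain ⟨h1, h2, h3⟩ := (F.hom j i).2.1 a e
    exact hc.1 ⟨a, h1, h2, by omega⟩
  · by_contra e
    obtain ⟨h1, h2⟩ := (F.hom j i).2.2 e
    exact hc.2 ⟨h1, by omega⟩

theorem sl_deg {F : Obj Q} (hF : Minimal F) {j i : F.ι} (h : F.δ j i ≠ 0) : F.deg j ≤ F.deg i := by
  rcases sl_cases hF h with ⟨a, -, -, e⟩ | ⟨-, e⟩ <;> omega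

theorem sl_sum {α M : Type} [Fintype α] [AddCommMonoid M] (S : α → Prop) [DecidablePred S] (g : α → M)
    (h : ∀ l, ¬ S l → g l = 0) : ∑ l : {i // S i}, g l = ∑ l, g l := by
  rw [← Fintype.sum_subtype_add_sum_subtype S g, Finset.sum_eq_zero (s := Finset.univ)
    (f := fun l : {i // ¬ S i} => g l) fun l _ => h l l.2, add_zero]

theorem sepAt_of_hd {F : Obj Q} (hF : Minimal F) {P : Q.V → Prop}
    (h : ∀ a, P (Q.src a) → ¬ P (Q.tgt a) → hd F (Q.tgt a) 0 = 0) : SepAt F P := by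
  intro j i hi hj hδ
  rcases sl_cases hF hδ with ⟨a, h1, h2, -⟩ | ⟨-, e⟩
  · constructor
    · intro hp
      by_contra hq
      exact hF.hd_eq_zero_iff.1 (h a (h1 ▸ hp) (h2 ▸ hq)) j ⟨h2.symm, hj⟩
    · intro hp
      by_contra hq
      refine hF.hd_eq_zero_iff.1 (h (Q.bar a) ?_ ?_) i ⟨?_, hi⟩ <;> simp [h1, h2, hp, hq]
  · omega

theorem slice_sq {F : Obj Q} (hF : Minimal F) {P : Q.V → Prop} [DecidablePred P] (hP : SepAt F P) :
    subM F (fun i => F.deg i = 0 ∧ P (F.vtx i)) * subM F (fun i => F.deg i = 0 ∧ P (F.vtx i)) = 0 := by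
  ext j i : 1
  have h := congrFun (congrFun F.sq j.1) i.1
  rw [Matrix.mul_apply] at h ⊢
  refine (sl_sum (fun i => F.deg i = 0 ∧ P (F.vtx i)) (fun l => F.δ j.1 l * F.δ l i.1) fun l hl => ?_).trans h
  by_contra hc
  have h1 := left_ne_zero_of_mul hc
  have h2 := right_ne_zero_of_mul hc
  have h3 := sl_deg hF h1
  have h4 := sl_deg hF h2
  have h5 : F.deg l = 0 := by have := i.2.1; have := j.2.1; omega
  exact hl ⟨h5, (hP l i i.2.1 h5 h2).1 i.2.2⟩

/-- the part over `P` of the module `H^0 F` -/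
def slice (F : Obj Q) (hF : Minimal F) (P : Q.V → Prop) [DecidablePred P] (hP : SepAt F P) : Obj Q :=
  subObj F (fun i => F.deg i = 0 ∧ P (F.vtx i)) (slice_sq hF hP)

variable {F G : Obj Q} {P : Q.V → Prop} [DecidablePred P]

theorem slice_isMod (hF : Minimal F) (hP : SepAt F P) : IsMod (slice F hF P hP) := fun i => i.2.1

theorem sl_hd (hF : Minimal F) (S : F.ι → Prop) [DecidablePred S] (hS : subM F S * subM F S = 0)
    (v : Q.V) (k : ℤ) (c : Prop) [Decidable c] (h : ∀ i, F.vtx i = v → F.deg i = k → (S i ↔ c)) :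
    hd (subObj F S hS) v k = if c then hd F v k else 0 := by
  have hm : Minimal (subObj F S hS) := fun j i => hF j.1 i.1
  split_ifs with hc
  · rw [hm.hd_eq_cnt, hF.hd_eq_cnt]
    refine Finset.card_bij (fun i _ => i.1) (fun i hi => ?_) (fun i _ j _ e => Subtype.ext e) fun i hi => ?_
    · exact Finset.mem_filter.2 ⟨Finset.mem_univ _, (Finset.mem_filter.1 hi).2⟩
    · have h1 := (Finset.mem_filter.1 hi).2
      exact ⟨⟨i, (h i h1.1 h1.2).2 hc⟩, Finset.mem_filter.2 ⟨Finset.mem_univ _, h1⟩, rfl⟩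
  · exact hm.hd_eq_zero_iff.2 fun i hi => hc ((h i.1 hi.1 hi.2).1 i.2)

theorem sl_finrank {α : Type} (S : α → Prop) [DecidablePred S] (T : Submodule ℝ ({i // S i} → ℝ))
    (U : Submodule ℝ (α → ℝ)) (h0 : ∀ u ∈ U, ∀ i, ¬ S i → u i = 0)
    (h : ∀ u : α → ℝ, (∀ i, ¬ S i → u i = 0) → (u ∈ U ↔ (fun i : {i // S i} => u i.1) ∈ T)) :
    Module.finrank ℝ T = Module.finrank ℝ U := by
  refine LinearEquiv.finrank_eq (LinearEquiv.symm
    { toFun := fun u => ⟨fun i => u.1 i.1, (h u.1 (h0 u.1 u.2)).1 u.2⟩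
      invFun := fun w => ⟨fun i => if hi : S i then w.1 ⟨i, hi⟩ else 0, (h _ fun _ hi => dif_neg hi).2 ?_⟩
      map_add' := fun _ _ => rfl
      map_smul' := fun _ _ => rfl
      left_inv := fun u => Subtype.ext (funext fun i => ?_)
      right_inv := fun w => Subtype.ext (funext fun i => dif_pos i.2) })
  · have e : (fun i : {i // S i} => if hi : S i.1 then w.1 ⟨i.1, hi⟩ else 0) = w.1 :=
      funext fun i => dif_pos i.2
    rw [e]
    exact w.2
  · by_cases hi : S i
    · exact dif_pos hi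
    · exact (dif_neg hi).trans (h0 u.1 u.2 i hi).symm

omit [DecidablePred P] in
theorem sl_c1 (hP : SepAt F P) {j i : F.ι} {a : Q.A} (h : (F.δ j i).c1 a ≠ 0) :
    (F.deg i = 0 ∧ P (F.vtx i)) ↔ (F.deg j = 0 ∧ P (F.vtx j)) := by
  have h1 := ((F.hom j i).2.1 a h).2.2
  have h2 : F.δ j i ≠ 0 := fun e => h (by rw [e]; rfl)
  exact ⟨fun e => ⟨by omega, (hP j i e.1 (by omega) h2).1 e.2⟩,
    fun e => ⟨by omega, (hP j i (by omega) e.1 h2).2 e.2⟩⟩

theorem hd_slice (hF : Minimal F) (hP : SepAt F P) (v : Q.V) :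
    hd (slice F hF P hP) v 0 = if P v then hd F v 0 else 0 := by
  exact sl_hd hF _ _ v 0 _ fun i h1 h2 => by simp [h1, h2]

theorem topd_slice (hF : Minimal F) (hP : SepAt F P) {v : Q.V} (hv : P v) :
    topd (slice F hF P hP) v 0 = topd F v 0 := by
  refine sl_finrank (fun i => F.deg i = 0 ∧ P (F.vtx i)) _ _
    (fun u hu i hi => hu.1 i fun e => hi ⟨e.2, e.1 ▸ hv⟩) fun u hu => ?_
  have e : ∀ a (i : {i // F.deg i = 0 ∧ P (F.vtx i)}),
      ((fun i : {i // F.deg i = 0 ∧ P (F.vtx i)} => u i.1) ᵥ* m1 (slice F hF P hP).δ a) i =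
        (u ᵥ* m1 F.δ a) i.1 := fun a i =>
    sl_sum (fun i => F.deg i = 0 ∧ P (F.vtx i)) (fun l => u l * (F.δ l i.1).c1 a) fun l hl => by
      rw [hu l hl, zero_mul]
  simp only [TopSp, Submodule.mem_inf, Submodule.mem_iInf, LinearMap.mem_ker]
  refine and_congr ⟨fun h i hi => h i.1 hi, fun h i hi => ?_⟩
    (Iff.trans (forall_congr' fun a => ⟨fun h => ?_, fun h => ?_⟩) (Submodule.mem_iInf _).symm)
  · by_cases hs : F.deg i = 0 ∧ P (F.vtx i)
    · exact h ⟨i, hs⟩ hi
    · exact hu i hs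
  · exact funext fun i => (e a i).trans (congrFun h i.1)
  · funext i
    by_cases hs : F.deg i = 0 ∧ P (F.vtx i)
    · exact (e a ⟨i, hs⟩).symm.trans (congrFun h ⟨i, hs⟩)
    · refine Finset.sum_eq_zero fun l _ => ?_
      by_contra hc
      exact left_ne_zero_of_mul hc (hu l fun hl => hs ((sl_c1 hP (right_ne_zero_of_mul hc)).2 hl))

theorem socd_slice (hF : Minimal F) (hP : SepAt F P) {v : Q.V} (hv : P v) :
    socd (slice F hF P hP) v 0 = socd F v 0 := by
  refine sl_finrank (fun i => F.deg i = 0 ∧ P (F.vtx i)) _ _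
    (fun u hu i hi => hu.1 i fun e => hi ⟨e.2, e.1 ▸ hv⟩) fun u hu => ?_
  have e : ∀ a (i : {i // F.deg i = 0 ∧ P (F.vtx i)}),
      (m1 (slice F hF P hP).δ a *ᵥ fun i : {i // F.deg i = 0 ∧ P (F.vtx i)} => u i.1) i =
        (m1 F.δ a *ᵥ u) i.1 := fun a i =>
    sl_sum (fun i => F.deg i = 0 ∧ P (F.vtx i)) (fun l => (F.δ i.1 l).c1 a * u l) fun l hl => by
      rw [hu l hl, mul_zero]
  simp only [SocSp, Submodule.mem_inf, Submodule.mem_iInf, LinearMap.mem_ker]
  refine and_congr ⟨fun h i hi => h i.1 hi, fun h i hi => ?_⟩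
    (Iff.trans (forall_congr' fun a => ⟨fun h => ?_, fun h => ?_⟩) (Submodule.mem_iInf _).symm)
  · by_cases hs : F.deg i = 0 ∧ P (F.vtx i)
    · exact h ⟨i, hs⟩ hi
    · exact hu i hs
  · exact funext fun i => (e a i).trans (congrFun h i.1)
  · funext i
    by_cases hs : F.deg i = 0 ∧ P (F.vtx i)
    · exact (e a ⟨i, hs⟩).symm.trans (congrFun h ⟨i, hs⟩)
    · refine Finset.sum_eq_zero fun l _ => ?_
      by_contra hc
      exact right_ne_zero_of_mul hc (hu l fun hl => hs ((sl_c1 hP (left_ne_zero_of_mul hc)).1 hl))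

/-- truncation: `tri_sub` with `deg i < 0`, then with `deg i = 0` in the quotient -/
theorem exists_trunc (hF : Minimal F) : ∃ A B C : Obj Q, Tri A F B ∧
    Tri (slice F hF (fun _ => True) (sepAt_top F)) B C ∧
    (∀ v k, hd A v k = if k < 0 then hd F v k else 0) ∧
    (∀ v k, hd C v k = if 0 < k then hd F v k else 0) := by
  have h1 : ∀ j i, F.deg i < 0 → ¬ F.deg j < 0 → F.δ j i = 0 := fun j i hi hj => by
    by_contra hc
    have := sl_deg hF hc
    omega
  let B := subObj F (fun i => ¬ F.deg i < 0) (subM_sq_quot F _ h1)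
  have hB : Minimal B := fun j i => hF j.1 i.1
  have h2 : ∀ j i, B.deg i = 0 → ¬ B.deg j = 0 → B.δ j i = 0 := fun j i hi hj => by
    by_contra hc
    have h3 := sl_deg hB hc
    have h4 : ¬ B.deg j < 0 := j.2
    omega
  refine ⟨_, B, _, tri_sub F _ h1, (tri_sub B _ h2).congr ?_ (HE.refl _) (HE.refl _), fun v k => ?_,
    fun v k => ?_⟩
  · exact HE.of_equiv
      { toFun := fun i => ⟨i.1.1, i.2, trivial⟩
        invFun := fun i => ⟨⟨i.1, by have := i.2.1; omega⟩, i.2.1⟩
        left_inv := fun _ => rfl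
        right_inv := fun _ => rfl } (fun _ => rfl) (fun _ => rfl) fun _ _ => rfl
  · exact sl_hd hF _ _ v k _ fun i _ h => by rw [h]
  · rw [sl_hd hB _ _ v k (¬ k = 0) fun i _ h => by rw [h],
      sl_hd hF _ _ v k (¬ k < 0) fun i _ h => by rw [h]]
    split_ifs <;> first | rfl | omega

/-- `exists_soc_mod` for the slice of `shift k F` -/
theorem exists_soc {P : Q.V → Prop} (hP : PosDefOn P) (hF : Minimal F) (k : ℤ)
    (hb : ∀ a, P (Q.src a) → ¬ P (Q.tgt a) → hd F (Q.tgt a) k = 0) (hne : ∃ v, P v ∧ hd F v k ≠ 0) :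
    ∃ v, P v ∧ socd F v k ≠ 0 := by
  classical
  have hs : SepAt (shift k F) P := sepAt_of_hd (hF.shift k) fun a h1 h2 => by
    rw [hd_shift, zero_add]
    exact hb a h1 h2
  obtain ⟨v, hv, hne⟩ := hne
  obtain ⟨w, hw, h⟩ := exists_soc_mod hP (slice_isMod (hF.shift k) hs)
    (fun a _ h2 => by rw [hd_slice, if_neg h2]) ⟨v, hv, by rwa [hd_slice, if_pos hv, hd_shift, zero_add]⟩
  rw [socd_slice _ _ hw, socd_shift, zero_add] at h
  exact ⟨w, hw, h⟩

/-- extension by zero -/
def slExt {α β : Type} (S : α → Prop) (T : β → Prop) [DecidablePred S] [DecidablePred T]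
    (f : Matrix {j // T j} {i // S i} (Z Q)) : Matrix β α (Z Q) :=
  fun j i => if hj : T j then if hi : S i then f ⟨j, hj⟩ ⟨i, hi⟩ else 0 else 0

section slExt
variable {α β : Type} {S : α → Prop} {T : β → Prop} [DecidablePred S] [DecidablePred T]
  (f : Matrix {j // T j} {i // S i} (Z Q))

theorem slExt_apply (j : {j // T j}) (i : {i // S i}) : slExt S T f j i = f j i := by
  simp only [slExt, dif_pos j.2, dif_pos i.2]

theorem slExt_left {j : β} (hj : ¬ T j) (i : α) : slExt S T f j i = 0 := dif_neg hj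

theorem slExt_right (j : β) {i : α} (hi : ¬ S i) : slExt S T f j i = 0 := by
  simp only [slExt, dif_neg hi, dite_eq_ite, ite_self]

end slExt

theorem sl_closed {S : F.ι → Prop} {T : G.ι → Prop} [DecidablePred S] [DecidablePred T]
    {hS : subM F S * subM F S = 0} {hT : subM G T * subM G T = 0} {p : ℤ}
    {f : Matrix {j // T j} {i // S i} (Z Q)} (hf : Closed (subObj F S hS) (subObj G T hT) p f)
    (h1 : ∀ j (l : {j // T j}) (i : {i // S i}), ¬ T j → G.δ j l * f l i = 0)
    (h2 : ∀ (j : {j // T j}) (l : {i // S i}) i, ¬ S i → f j l * F.δ l i = 0) :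
    Closed F G p (slExt S T f) := by
  constructor
  · intro j i
    by_cases hj : T j
    · by_cases hi : S i
      · exact (slExt_apply f ⟨j, hj⟩ ⟨i, hi⟩).symm ▸ hf.hom ⟨j, hj⟩ ⟨i, hi⟩
      · exact (slExt_right f j hi).symm ▸ Ok.zero _ _ _ _ _
    · exact (slExt_left f hj i).symm ▸ Ok.zero _ _ _ _ _
  · ext j i : 1
    have e1 : (G.δ * slExt S T f) j i = ∑ l : {j // T j}, G.δ j l * slExt S T f l i :=
      (sl_sum T (fun l => G.δ j l * slExt S T f l i) fun l hl => by rw [slExt_left f hl, mul_zero]).symm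
    have e2 : (slExt S T f * F.δ) j i = ∑ l : {i // S i}, slExt S T f j l * F.δ l i :=
      (sl_sum S (fun l => slExt S T f j l * F.δ l i) fun l hl => by rw [slExt_right f j hl, zero_mul]).symm
    rw [Dd, Matrix.sub_apply, Matrix.smul_apply, e1, e2, Matrix.zero_apply]
    by_cases hj : T j
    · by_cases hi : S i
      · simp only [slExt_apply f _ ⟨i, hi⟩, slExt_apply f ⟨j, hj⟩]
        exact congrFun (congrFun hf.cl ⟨j, hj⟩) ⟨i, hi⟩
      · simp only [slExt_right f _ hi, slExt_apply f ⟨j, hj⟩, h2 _ _ i hi, mul_zero, Finset.sum_const_zero,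
          smul_zero, sub_zero]
    · by_cases hi : S i
      · simp only [slExt_left f hj, slExt_apply f _ ⟨i, hi⟩, h1 j _ _ hj, zero_mul, Finset.sum_const_zero,
          smul_zero, sub_zero]
      · simp only [slExt_left f hj, slExt_right f _ hi, zero_mul, mul_zero, Finset.sum_const_zero,
          smul_zero, sub_zero]

theorem sl_mul {x y : Z Q} (hx : x.c0 = 0) (hy : y.c0 = 0) (h : ∀ a, x.c1 a = 0) : x * y = 0 := by
  ext a <;> simp [hx, hy, h]

/-- Extend a module homomorphism by zero: it stays closed (the `c2` parts vanish by `h`); it is exact,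
so its `c0` part vanishes (`Exact.m0_eq_zero`), and it has no other part. -/
theorem homZero_slice_zero (hF : Minimal F) (hG : Minimal G) (hP : SepAt F P)
    (h : ∀ v, P v → hd F v 1 = 0 ∧ hd G v (-1) = 0) (h0 : HomZero 0 F G) :
    HomZero 0 (slice F hF P hP) (slice G hG (fun _ => True) (sepAt_top G)) := by
  intro f hf
  have c1 : ∀ j i a, (f j i).c1 a = 0 := fun j i a => by
    by_contra e
    have h1 := ((hf.hom j i).2.1 a e).2.2
    rw [slice_isMod hF hP i, slice_isMod hG _ j] at h1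
    omega
  have c2 : ∀ j i, (f j i).c2 = 0 := fun j i => by
    by_contra e
    have h1 := ((hf.hom j i).2.2 e).2
    rw [slice_isMod hF hP i, slice_isMod hG _ j] at h1
    omega
  have hc := sl_closed hf (fun j l i hj => by
      by_contra hc
      have h1 : (f l i).c0 ≠ 0 := fun e => right_ne_zero_of_mul hc (Z.ext e (funext (c1 l i)) (c2 l i))
      have h2 : G.vtx l.1 = F.vtx i.1 := ((hf.hom l i).1 h1).1
      have h3 := l.2.1
      rcases sl_cases hG (left_ne_zero_of_mul hc) with ⟨a, -, -, e⟩ | ⟨e1, e2⟩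
      · exact hj ⟨e.trans h3, trivial⟩
      · exact hG.hd_eq_zero_iff.1 (h _ i.2.2).2 j ⟨e1.trans h2, by omega⟩)
    (fun j l i hi => by
      by_contra hc
      have h1 := right_ne_zero_of_mul hc
      have h3 := l.2.1
      rcases sl_cases hF h1 with ⟨a, -, -, e⟩ | ⟨e1, e2⟩
      · exact hi ⟨e.symm.trans h3, (hP _ _ (e.symm.trans h3) h3 h1).2 l.2.2⟩
      · exact hF.hd_eq_zero_iff.1 (h _ l.2.2).1 i ⟨e1.symm, by omega⟩)
  have h1 := (h0 _ hc).m0_eq_zero hF hG
  have h2 : f = 0 := by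
    ext j i : 1
    refine Z.ext ?_ (funext (c1 j i)) (c2 j i)
    exact (congrArg Z.c0 (slExt_apply f j i)).symm.trans (congrFun (congrFun h1 j.1) i.1)
  rw [h2]
  exact Exact.zero

/-- Extend a cocycle (it has only `c1` parts) by zero: it stays closed.  If it is `D g`, then it is
`D` of the block of `g` between the slices (compare the `c1` parts). -/
theorem homZero_slice_one (hF : Minimal F) (hG : Minimal G) (hP : SepAt F P)
    (h1 : ∀ f, Closed F G 1 f → m0 f = 0 → Exact F G 1 f) :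
    HomZero 1 (slice F hF P hP) (slice G hG (fun _ => True) (sepAt_top G)) := by
  intro f hf
  have c0 : ∀ j i, (f j i).c0 = 0 := fun j i => by
    by_contra e
    have h1 := ((hf.hom j i).1 e).2
    rw [slice_isMod hF hP i, slice_isMod hG _ j] at h1
    omega
  have hc := sl_closed hf (fun j l i hj => sl_mul (hG _ _) (c0 l i) fun a => by
      by_contra e
      exact hj ((sl_c1 (sepAt_top G) e).1 l.2))
    (fun j l i hi => (mul_comm _ _).trans (sl_mul (hF _ _) (c0 j l) fun a => by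
      by_contra e
      exact hi ((sl_c1 hP e).2 l.2)))
  obtain ⟨g, hg, e⟩ := h1 _ hc (by
    ext j i
    change (slExt _ _ f j i).c0 = 0
    unfold slExt
    split_ifs
    · exact c0 _ _
    · rfl
    · rfl)
  refine ⟨g.submatrix Subtype.val Subtype.val, fun j i => hg j.1 i.1, ?_⟩
  ext j i : 1
  have e1 := sl_sum (fun j => G.deg j = 0 ∧ True) (fun l => G.δ j.1 l * g l i.1) fun l hl => by
    by_contra hc
    have h2 := sl_deg hG (left_ne_zero_of_mul hc)
    have h3 := sl_le (hg l i.1) (right_ne_zero_of_mul hc)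
    have h4 := i.2.1
    have h5 := j.2.1
    exact hl ⟨by omega, trivial⟩
  have e2 := sl_sum (fun i => F.deg i = 0 ∧ P (F.vtx i)) (fun l => g j.1 l * F.δ l i.1) fun l hl => by
    by_contra hc
    have h2 := sl_deg hF (right_ne_zero_of_mul hc)
    have h3 := sl_le (hg j.1 l) (left_ne_zero_of_mul hc)
    have h4 := i.2.1
    have h5 := j.2.1
    exact hl ⟨by omega, (hP l i.1 h4 (by omega) (right_ne_zero_of_mul hc)).1 i.2.2⟩
  refine (slExt_apply f j i).symm.trans ((congrFun (congrFun e j.1) i.1).trans ?_)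
  exact (congrArg₂ (fun x y => x - sg (1 - 1) • y) e1 e2).symm

end Crest.Agent.R175
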