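import Crest.Agent.R175.ThR
import Crest.Agent.R175.Inv

/-!
# R175: the cohomology of `Tm U F` at a vertex of `U`.
-/

set_option autoImplicit false

namespace Crest.Agent.R175

open Matrix

variable {Q : Qv} {U : Q.V → Prop} [DecidablePred U] {F : Obj Q} {v : Q.V} {k p : ℤ}

/-- vectors supported on `P` -/
def tcSup {α : Type} (P : α → Prop) : Submodule ℝ (α → ℝ) where
  carrier := {u | ∀ i, ¬ P i → u i = 0}
  add_mem' ha hb i hi := by simp [ha i hi, hb i hi]
  zero_mem' _ _ := rfl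
  smul_mem' c _ ha i hi := by simp [ha i hi]

open Classical in
theorem tc_range {α : Type} [Fintype α] [DecidableEq α] (P : α → Prop) :
    tcSup P = LinearMap.range (diagonal fun i => if P i then (1 : ℝ) else 0).mulVecLin := by
  ext u
  constructor
  · intro hu
    refine ⟨u, funext fun i => ?_⟩
    rw [mulVecLin_apply, mulVec_diagonal]
    split_ifs with h
    · exact one_mul _
    · rw [hu i h, mul_zero]
  · rintro ⟨w, rfl⟩ i hi
    rw [mulVecLin_apply, mulVec_diagonal, if_neg hi, zero_mul]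

/-- row rank = column rank for a homogeneous matrix -/
theorem tc_rank {α β : Type} [Fintype α] [Fintype β] [DecidableEq α] [DecidableEq β] (M : Matrix α β ℝ)
    (P : α → Prop) (S : β → Prop) (h : ∀ j i, M j i ≠ 0 → (P j ↔ S i)) :
    Module.finrank ℝ ((tcSup S).map M.mulVecLin) +
      Module.finrank ℝ (tcSup P ⊓ LinearMap.ker M.vecMulLinear : Submodule ℝ (α → ℝ)) =
      Module.finrank ℝ (tcSup P) := by
  classical
  have e : M * diagonal (fun i => if S i then (1 : ℝ) else 0) =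
      (Mᵀ * diagonal (fun j => if P j then (1 : ℝ) else 0))ᵀ := by
    ext j i
    rw [transpose_apply, mul_diagonal, mul_diagonal, transpose_apply]
    by_cases h0 : M j i = 0
    · rw [h0, zero_mul, zero_mul]
    · rw [if_congr (h j i h0) rfl rfl]
  have e1 : Module.finrank ℝ ((tcSup S).map M.mulVecLin) =
      Module.finrank ℝ ((tcSup P).map Mᵀ.mulVecLin) := by
    rw [tc_range S, tc_range P, ← LinearMap.range_comp, ← LinearMap.range_comp, ← mulVecLin_mul,
      ← mulVecLin_mul, e]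
    exact rank_transpose _
  rw [e1, ← mulVecLin_transpose]
  exact coh_rank _ _

/-- the `β` component of a vector of `Tm F` -/
noncomputable def tcC (U : Q.V → Prop) [DecidablePred U] (F : Obj Q) (u : (TmObj U F).ι → ℝ) (β : Bs Q)
    (i : F.ι) : ℝ :=
  if h : okB U (F.vtx i) β then u (Sum.inr ⟨(i, β), h⟩) else 0

theorem tc_sum (u : (TmObj U F).ι → ℝ) (ψ : F.ι → Bs Q → ℝ) :
    ∑ x : (ThGr U F.toGr).ι, ψ x.1.1 x.1.2 * u (Sum.inr x) = ∑ i, ∑ β, ψ i β * tcC U F u β i := by
  rw [← sum_ThGr (U := U) (fun i β => ψ i β * tcC U F u β i) fun i β h => by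
    rw [tcC, dif_neg h, mul_zero]]
  refine Finset.sum_congr rfl fun x _ => ?_
  rw [tcC, dif_pos x.2]
  rfl

theorem tc_d_inl (hF : Minimal F) (u : (TmObj U F).ι → ℝ) (j : F.ι) :
    (m0 (TmObj U F).δ).mulVec u (Sum.inl j) = tcC U F u .one j := by
  have e : (m0 (TmObj U F).δ).mulVec u (Sum.inl j) = ∑ i, (F.δ j i).c0 * u (Sum.inl i) +
      ∑ x : (ThGr U F.toGr).ι, (if j = x.1.1 then Bs.el x.1.2 else 0 : Z Q).c0 * u (Sum.inr x) :=
    Fintype.sum_sum_type _
  rw [e, tc_sum u fun i β => (if j = i then Bs.el β else 0 : Z Q).c0, Finset.sum_eq_zero fun i _ => by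
    rw [hF j i, zero_mul], zero_add, Finset.sum_eq_single j (fun i _ hi => by simp [hi.symm]) (by simp),
    Bs.sum_univ]
  simp [Bs.el]

theorem tc_d_inr (u : (TmObj U F).ι → ℝ) (y : (ThGr U F.toGr).ι) :
    (m0 (TmObj U F).δ).mulVec u (Sum.inr y) =
      -∑ i, ∑ β, Bs.co y.1.2 (F.δ y.1.1 i * Bs.el β) * tcC U F u β i := by
  have e : (m0 (TmObj U F).δ).mulVec u (Sum.inr y) = ∑ i, (0 : ℝ) * u (Sum.inl i) +
      ∑ x : (ThGr U F.toGr).ι, sg 1 * Bs.co y.1.2 (F.δ y.1.1 x.1.1 * Bs.el x.1.2) * u (Sum.inr x) :=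
    Fintype.sum_sum_type _
  rw [e, tc_sum u fun i β => sg 1 * Bs.co y.1.2 (F.δ y.1.1 i * Bs.el β)]
  simp

/-- the matrix `in` -/
def tcIn (F : Obj Q) : Matrix F.ι (Q.A × F.ι) ℝ := fun j x => (F.δ j x.2).c1 (Q.bar x.1)

/-- the embedding on the `top` component -/
noncomputable def tcS (U : Q.V → Prop) [DecidablePred U] (F : Obj Q) :
    (F.ι → ℝ) →ₗ[ℝ] ((TmObj U F).ι → ℝ) where
  toFun x := Sum.elim 0 fun y : (ThGr U F.toGr).ι => if y.1.2 = .top then x y.1.1 else 0
  map_add' x x' := by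
    funext y
    rcases y with y | y
    · exact (add_zero (0 : ℝ)).symm
    · exact ite_add_zero
  map_smul' r x := by
    funext y
    rcases y with y | y
    · exact (mul_zero r).symm
    · exact (mul_ite_zero _ r _).symm

theorem tc_d_of_one (hF : Minimal F) {u : (TmObj U F).ι → ℝ} (h : ∀ i, tcC U F u .one i = 0) :
    (m0 (TmObj U F).δ).mulVec u =
      tcS U F ((tcIn F).mulVec fun x => -tcC U F u (.arr x.1) x.2) := by
  funext y
  rcases y with j | ⟨⟨j, β⟩, hy⟩
  · rw [tc_d_inl hF, h]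
    rfl
  · refine (tc_d_inr u ⟨(j, β), hy⟩).trans ?_
    change _ = if β = .top then ∑ x : Q.A × F.ι, (F.δ j x.2).c1 (Q.bar x.1) * -tcC U F u (.arr x.1) x.2 else 0
    have h0 := hF j
    rw [Fintype.sum_prod_type_right]
    cases β <;> simp [Bs.sum_univ, Bs.co, Bs.el, h, h0]

theorem tc_Bc (hF : Minimal F) (hv : U v) (k : ℤ) :
    Module.finrank ℝ (Bc (TmObj U F) v k) + topd F v (k - 1) = cnt F.toGr v k + cnt F.toGr v (k - 1) := by
  classical
  let pr : ((TmObj U F).ι → ℝ) →ₗ[ℝ] (F.ι → ℝ) := LinearMap.funLeft ℝ ℝ Sum.inl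
  let S : Q.A × F.ι → Prop := fun x => Q.src x.1 = v ∧ Q.tgt x.1 = F.vtx x.2 ∧ F.deg x.2 = k - 1
  have hin : ∀ j x, tcIn F j x ≠ 0 → ((F.vtx j = v ∧ F.deg j = k - 1) ↔ S x) := by
    intro j x h
    obtain ⟨h1, h2, h3⟩ := (F.hom j x.2).2.1 _ h
    rw [Qv.src_bar'] at h1
    rw [Qv.tgt_bar] at h2
    exact ⟨fun h => ⟨h2.trans h.1, h1, by omega⟩, fun h => ⟨h2.symm.trans h.1, by have := h.2.2; omega⟩⟩
  have h1 := coh_rank pr (Bc (TmObj U F) v k)
  have h2 : (Bc (TmObj U F) v k).map pr = Cc F.toGr v k := by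
    apply le_antisymm
    · rintro _ ⟨w, hw, rfl⟩ i hi
      exact (Bc_le_Zc _ v k hw).1 (Sum.inl i) hi
    · intro x hx
      let u : (TmObj U F).ι → ℝ :=
        Sum.elim 0 fun y : (ThGr U F.toGr).ι => if y.1.2 = .one then x y.1.1 else 0
      refine ⟨_, coh_mem_Bc.2 ⟨u, ?_, rfl⟩, funext fun j => ?_⟩
      · rintro (i | ⟨⟨i, β⟩, hy⟩) hi
        · rfl
        · change (if β = .one then x i else 0) = 0
          split_ifs with hβ
          · subst hβ
            refine hx i fun h => hi ⟨h.1, ?_⟩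
            change F.deg i + 0 - 1 = k - 1
            rw [h.2, add_zero]
          · rfl
      · change (m0 (TmObj U F).δ).mulVec u (Sum.inl j) = x j
        rw [tc_d_inl hF, tcC]
        split_ifs with h
        · exact (if_pos rfl : (if (Bs.one : Bs Q) = .one then x j else 0) = x j)
        · exact (hx j fun hj => h (by rw [hj.1]; exact hv)).symm
  have h3 : Bc (TmObj U F) v k ⊓ LinearMap.ker pr = ((tcSup S).map (tcIn F).mulVecLin).map (tcS U F) := by
    apply le_antisymm
    · rintro _ ⟨⟨u, hu, rfl⟩, h0⟩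
      have h1 : ∀ i, tcC U F u .one i = 0 := fun i => (tc_d_inl hF u i).symm.trans (congrFun h0 i)
      refine ⟨_, ⟨fun x => -tcC U F u (.arr x.1) x.2, fun x hx => ?_, rfl⟩, (tc_d_of_one hF h1).symm⟩
      rw [neg_eq_zero, tcC]
      split_ifs with h
      · refine hu _ fun h' => hx ⟨h'.1, h.2, ?_⟩
        have h2 : F.deg x.2 + 1 - 1 = k - 1 := h'.2
        omega
      · rfl
    · rintro _ ⟨_, ⟨w, hw, rfl⟩, rfl⟩
      refine ⟨?_, rfl⟩
      let u : (TmObj U F).ι → ℝ := Sum.elim 0 fun y : (ThGr U F.toGr).ι =>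
        match y.1.2 with
        | .arr a => -w (a, y.1.1)
        | _ => 0
      have h1 : ∀ i, tcC U F u .one i = 0 := fun i => by
        rw [tcC]
        split_ifs <;> rfl
      have h2 : (fun x : Q.A × F.ι => -tcC U F u (.arr x.1) x.2) = w := by
        funext x
        rw [tcC]
        split_ifs with h
        · exact neg_neg _
        · rw [neg_zero]
          exact (hw x fun hx => h ⟨by rw [hx.1]; exact hv, hx.2.1⟩).symm
      refine coh_mem_Bc.2 ⟨u, ?_, by rw [tc_d_of_one hF h1, h2]; rfl⟩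
      rintro (i | ⟨⟨i, β⟩, hy⟩) hi
      · rfl
      · cases β with
        | one => rfl
        | top => rfl
        | arr a =>
          refine neg_eq_zero.2 (hw (a, i) fun h => hi ⟨h.1, ?_⟩)
          change F.deg i + 1 - 1 = k - 1
          have := h.2.2
          dsimp only at this
          omega
  have h4 := coh_rank (tcS U F) ((tcSup S).map (tcIn F).mulVecLin)
  have h5 : (tcSup S).map (tcIn F).mulVecLin ⊓ LinearMap.ker (tcS U F) = ⊥ := by
    rw [eq_bot_iff]
    rintro _ ⟨⟨w, hw, rfl⟩, h0⟩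
    refine funext fun j => ?_
    by_cases hj : F.vtx j = v
    · have h1 : (if (Bs.top : Bs Q) = .top then (tcIn F).mulVecLin w j else 0) = 0 :=
        congrFun h0 (Sum.inr ⟨(j, .top), by rw [hj]; exact hv⟩)
      rwa [if_pos rfl] at h1
    · refine Finset.sum_eq_zero fun x _ => ?_
      by_cases h : tcIn F j x = 0
      · exact mul_eq_zero_of_left h _
      · exact mul_eq_zero_of_right _ (hw x fun hx => hj ((hin j x h).2 hx).1)
  have h6 := tc_rank (tcIn F) _ S hin
  have h7 : tcSup (fun j => F.vtx j = v ∧ F.deg j = k - 1) ⊓ LinearMap.ker (tcIn F).vecMulLinear =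
      TopSp F v (k - 1) := by
    refine congrArg (Cc F.toGr v (k - 1) ⊓ ·) ?_
    ext φ
    simp only [LinearMap.mem_ker, Submodule.mem_iInf]
    constructor
    · intro h a
      funext i
      have := congrFun h (Q.bar a, i)
      simpa [tcIn, vecMul, dotProduct, m1] using this
    · intro h
      funext x
      exact congrFun (h (Q.bar x.1)) x.2
  rw [h2, h3, finrank_Cc] at h1
  rw [h5, finrank_bot, add_zero] at h4
  rw [h7] at h6
  have h8 : Module.finrank ℝ (tcSup fun j => F.vtx j = v ∧ F.deg j = k - 1) = cnt F.toGr v (k - 1) :=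
    finrank_Cc F.toGr v (k - 1)
  unfold topd
  omega

theorem tc_cnt (hv : U v) (k : ℤ) :
    cnt (TmObj U F).toGr v k = cnt F.toGr v k + (cnt F.toGr v (k + 1) +
      ∑ a ∈ Finset.univ.filter (fun a => Q.src a = v), cnt F.toGr (Q.tgt a) k + cnt F.toGr v (k - 1)) := by
  have e : cnt (TmObj U F).toGr v k = ∑ i, (if F.vtx i = v ∧ F.deg i = k then 1 else 0) +
      ∑ x : (ThGr U F.toGr).ι, (if okB U (F.vtx x.1.1) x.1.2 ∧ vtxB (F.vtx x.1.1) x.1.2 = v ∧
        F.deg x.1.1 + x.1.2.dg - 1 = k then 1 else 0) := by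
    rw [cnt, Finset.card_filter]
    refine (Fintype.sum_sum_type _).trans (congrArg₂ _ rfl (Finset.sum_congr rfl fun x _ => ?_))
    exact if_congr ⟨fun h => ⟨x.2, h⟩, fun h => h.2⟩ rfl rfl
  rw [e, sum_ThGr (U := U) (fun i β => if okB U (F.vtx i) β ∧ vtxB (F.vtx i) β = v ∧
    F.deg i + β.dg - 1 = k then 1 else 0) fun i β h => if_neg fun h' => h h'.1]
  simp only [cnt, Finset.card_filter, Bs.sum_univ, Finset.sum_add_distrib, Finset.sum_filter]
  congr 2
  · congr 1
    · refine Finset.sum_congr rfl fun i _ => if_congr ?_ rfl rfl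
      change U (F.vtx i) ∧ F.vtx i = v ∧ F.deg i + 0 - 1 = k ↔ _
      exact ⟨fun h => ⟨h.2.1, by omega⟩, fun h => ⟨by rw [h.1]; exact hv, h.1, by omega⟩⟩
    · rw [Finset.sum_comm]
      refine Finset.sum_congr rfl fun a _ => ?_
      split_ifs with ha
      · refine Finset.sum_congr rfl fun i _ => if_congr ?_ rfl rfl
        change (U (Q.src a) ∧ Q.tgt a = F.vtx i) ∧ Q.src a = v ∧ F.deg i + 1 - 1 = k ↔ _
        exact ⟨fun h => ⟨h.1.2.symm, by omega⟩, fun h => ⟨⟨by rw [ha]; exact hv, h.1.symm⟩, ha, by omega⟩⟩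
      · exact Finset.sum_eq_zero fun i _ => if_neg fun h => ha h.2.1
  · refine Finset.sum_congr rfl fun i _ => if_congr ?_ rfl rfl
    change U (F.vtx i) ∧ F.vtx i = v ∧ F.deg i + 2 - 1 = k ↔ _
    exact ⟨fun h => ⟨h.2.1, by omega⟩, fun h => ⟨by rw [h.1]; exact hv, h.1, by omega⟩⟩

/-- Let `F` be minimal, `V^k = Cc F v k`, `N^k = ⊕_{a : src a = v} Cc F (tgt a) k`,
`in : N^k → V^k`, `(w_a) ↦ ∑ m1 δ (bar a) w_a`, `out : V^k → N^k`.  A vector of `Cc (Tm F) v k` is
`(x; w0, w1, w2) ∈ V^k × V^(k+1) × N^k × V^(k-1)` and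
`d (x; w0, w1, w2) = (w0; 0, -out w0, -(m2 δ) w0 - in w1)`.  So
`dim Zc = hd k + dim ker in_k + hd (k-1)`, `dim Bc = hd k + rank in_(k-1)`,
and `rank in_k + topd k = hd k` (`TopSp` is the annihilator of the image of `in`),
`dim ker in_k + rank in_k = nb k`. -/
theorem hd_Tm (hF : Minimal F) (hv : U v) (k : ℤ) :
    hd ((Tm U).obj F) v k + hd F v k = nb F v k + topd F v k + topd F v (k - 1) := by
  have h1 := tc_Bc hF hv k
  have h2 := tc_Bc hF hv (k + 1)
  have h3 := tc_cnt (F := F) hv k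
  have h4 := coh_rank (m0 (TmObj U F).δ).mulVecLin (Cc (TmObj U F).toGr v k)
  have h5 := Submodule.finrank_mono (Bc_le_Zc (TmObj U F) v k)
  rw [Bc, add_sub_cancel_right] at h2
  rw [finrank_Cc] at h4
  have h6 : nb F v k = ∑ a ∈ Finset.univ.filter (fun a => Q.src a = v), cnt F.toGr (Q.tgt a) k :=
    Finset.sum_congr rfl fun a _ => hF.hd_eq_cnt _ _
  have h7 : hd ((Tm U).obj F) v k = Module.finrank ℝ (Zc (TmObj U F) v k) -
    Module.finrank ℝ (Bc (TmObj U F) v k) := rfl
  rw [h6, h7, hF.hd_eq_cnt]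
  rw [Zc] at h5 ⊢
  omega

theorem topd_simple (w v : Q.V) (k : ℤ) :
    topd (simple w) v k = if v = w ∧ k = 0 then 1 else 0 := by
  have h : TopSp (simple w) v k = Cc (simple w).toGr v k := by
    refine inf_eq_left.2 fun u _ => ?_
    simp only [Submodule.mem_iInf, LinearMap.mem_ker]
    exact fun a => vecMul_zero u
  rw [topd, h, finrank_Cc, ← (simple_isMod w).minimal.hd_eq_cnt, hd_simple]

/-- `hd_Tm`, `hd_Tm_of_not` and `he_simple_of_hd` for `shift 1 (Tm S_v)` -/
theorem he_Tm_simple (hU : Indep U) (hv : U v) :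
    HE ((Tm U).obj (simple v)) (shift (-1) (simple v)) := by
  have h : HE (shift 1 ((Tm U).obj (simple v))) (simple v) := by
    refine he_simple_of_hd fun w k => ?_
    rw [hd_shift]
    by_cases hw : U w
    · have h1 := hd_Tm (simple_isMod v).minimal hw (k + 1)
      have h2 : nb (simple v) w (k + 1) = 0 := by
        refine nb_eq_zero_iff.2 fun a ha => ?_
        rw [hd_simple]
        exact if_neg fun h => hU a ⟨by rw [ha]; exact hw, by rw [h.1]; exact hv⟩
      rw [h2, hd_simple, topd_simple, topd_simple, add_sub_cancel_right] at h1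
      omega
    · have h1 : w ≠ v := fun h => hw (by rw [h]; exact hv)
      rw [hd_Tm_of_not hw, hd_simple, if_neg fun h => h1 h.1, if_neg fun h => h1 h.1]
  have h0 := shift_shift_he (-1) 1 ((Tm U).obj (simple v))
  rw [neg_add_cancel] at h0
  exact ((shift_zero_he _).symm.trans h0.symm).trans (h.shift (-1))

/-- `Hom^p (S_v, Tm F) = Hom^(p-1) (Tm S_v, Tm F) = Hom^(p-1) (S_v, F)` -/
theorem homZero_Tm_iff (hU : Indep U) (hv : U v) :
    HomZero p (simple v) ((Tm U).obj F) ↔ HomZero (p - 1) (simple v) F := by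
  rw [← (qff_Tm hU).homZero_iff (p := p - 1), homZero_congr (he_Tm_simple hU hv) (HE.refl _),
    homZero_shift_left, show p - 1 - -1 = p by ring]

end Crest.Agent.R175
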