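import Crest.Agent.R175.Dual
import Crest.Agent.R175.Slice
import Crest.Agent.R175.TmCoh

/-!
# R175: complements on duality, semisimple modules and the twist functors.
-/

set_option autoImplicit false

namespace Crest.Agent.R175

open Matrix

variable {Q : Qv} {A B C F G : Obj Q} {v : Q.V} {k p : ℤ}

/-- pass to `mm F` -/
theorem hd_dual (F : Obj Q) (v : Q.V) (k : ℤ) : hd (dual F) v k = hd F v (-k) := by
  rw [(he_mm F).dual.hd_eq, hd_dual_of_minimal (mm_minimal F), ← (he_mm F).hd_eq]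

/-- `dual (ext A C u) ≃ ext (dual C) (dual A) (dualM u)` by `HE.of_equiv` along `Sum.swap` -/
theorem Tri.dual (h : Tri A B C) :
    Tri (Crest.Agent.R175.dual C) (Crest.Agent.R175.dual B) (Crest.Agent.R175.dual A) := by
  obtain ⟨u, hu, h⟩ := h
  refine ⟨dualM u, hu.dual, h.dual.trans (HE.of_equiv (Equiv.sumComm _ _) ?_ ?_ ?_)⟩
  · rintro (i | i) <;> rfl
  · rintro (i | i) <;> rfl
  · rintro (j | j) (i | i)
    · rfl
    · exact (map_zero (Z.barZ Q)).symm
    · rfl
    · rfl

theorem Filt.dual {P : Q.V → Prop} (h : Filt P F) : Filt P (Crest.Agent.R175.dual F) := by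
  induction h with
  | ofContr h => exact .ofContr (contr_of_hd fun v k => by rw [hd_dual, h.hd_eq_zero])
  | ofSimple v hv h => exact .ofSimple v hv (h.dual.trans (dual_simple v))
  | ofTri _ _ h ihA ihC => exact .ofTri ihC ihA h.dual

theorem dual_Tp (U : Q.V → Prop) [DecidablePred U] (F : Obj Q) :
    HE (dual ((Tp U).obj F)) ((Tm U).obj (dual F)) := by
  exact (((dual_Tm U (dual F)).trans ((Tp U).map_he (dual_dual_he F))).dual.symm).trans
    (dual_dual_he _)

theorem Minimal.isMod (hF : Minimal F) (h : ∀ v k, k ≠ 0 → hd F v k = 0) : IsMod F := by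
  intro i
  by_contra hne
  exact hF.hd_eq_zero_iff.1 (h _ _ hne) i ⟨rfl, rfl⟩

theorem Minimal.hd_ne_zero (hF : Minimal F) (i : F.ι) : hd F (F.vtx i) (F.deg i) ≠ 0 := by
  exact fun h => hF.hd_eq_zero_iff.1 h i ⟨rfl, rfl⟩

/-- `hd_biprod` with the images under `Φ` of the column and row matrices `S_{vtx i} → F → S_{vtx i}` -/
theorem hd_map_semisimple (Φ : DGFun Q) (hF : IsMod F) (h0 : F.δ = 0) (w : Q.V) (k : ℤ) :
    hd (Φ.obj F) w k = ∑ i : F.ι, hd (Φ.obj (simple (F.vtx i))) w k := by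
  let c : ∀ i : F.ι, Mor (simple (F.vtx i)).toGr F.toGr := fun i j _ => if j = i then 1 else 0
  let r : ∀ i : F.ι, Mor F.toGr (simple (F.vtx i)).toGr := fun i _ j => if j = i then 1 else 0
  have hc : ∀ i, Closed (simple (F.vtx i)) F 0 (c i) := fun i => by
    refine Closed.of_comm0 (fun j x => ?_) ?_
    · by_cases e : j = i
      · subst e
        have : c j j x = 1 := if_pos rfl
        rw [this, hF j]
        exact Ok.one
      · have : c i j x = 0 := if_neg e
        rw [this]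
        exact Ok.zero _ _ _ _ _
    · rw [h0, Matrix.zero_mul]
      exact (Matrix.mul_zero _).symm
  have hr : ∀ i, Closed F (simple (F.vtx i)) 0 (r i) := fun i => by
    refine Closed.of_comm0 (fun x j => ?_) ?_
    · by_cases e : j = i
      · subst e
        have : r j x j = 1 := if_pos rfl
        rw [this, hF j]
        exact Ok.one
      · have : r i x j = 0 := if_neg e
        rw [this]
        exact Ok.zero _ _ _ _ _
    · rw [h0, Matrix.mul_zero]
      exact Matrix.zero_mul _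
  refine hd_biprod (fun i => Φ.obj (simple (F.vtx i))) (Φ.obj F)
    (fun i => Φ.map _ _ 0 (c i)) (fun i => Φ.map _ _ 0 (r i))
    (fun i => Φ.map_closed (hc i)) (fun i => Φ.map_closed (hr i)) (fun i => ?_) (fun i j hij => ?_) ?_ w k
  · rw [← tri_map_mul0 Φ (hc i).hom (hr i).hom, ← Φ.map_one]
    congr 1
    funext x y
    obtain rfl : x = y := rfl
    simp [c, r, Matrix.mul_apply]
  · rw [← tri_map_mul0 Φ (hc j).hom (hr i).hom, ← (Φ.map _ _ 0).map_zero]
    congr 1
    funext x y
    simp [c, r, Matrix.mul_apply, hij.symm]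
  · rw [← Φ.map_one]
    have : (1 : Mor F.toGr F.toGr) = ∑ i, c i * r i := by
      funext x y
      have : ∀ i, (c i * r i) x y = if x = i then if y = i then 1 else 0 else 0 := fun i => by
        have e : (c i * r i) x y = ∑ _z : Unit, (if x = i then 1 else 0) * (if y = i then 1 else 0) := rfl
        rw [e, Fintype.sum_unique]
        split_ifs <;> simp
      rw [Matrix.sum_apply]
      simp [this, Matrix.one_apply, eq_comm]
    rw [this, map_sum]
    exact Finset.sum_congr rfl fun i _ => (tri_map_mul0 Φ (hr i).hom (hc i).hom).symm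

theorem exists_homZero_bound (F : Obj Q) :
    ∃ n : ℕ, ∀ v k, k ≤ -(n : ℤ) → HomZero k (simple v) F := by
  refine ⟨∑ j, (F.deg j).natAbs + 1, fun v k hk => homZero_of_deg fun i j => Or.inl ?_⟩
  have h1 : (F.deg j).natAbs ≤ ∑ j, (F.deg j).natAbs :=
    Finset.single_le_sum (f := fun j => (F.deg j).natAbs) (fun _ _ => Nat.zero_le _) (Finset.mem_univ j)
  show (0 : ℤ) + k < F.deg j
  omega

theorem not_homZero_simple_self (v : Q.V) : ¬ HomZero 0 (simple v) (simple v) := by
  intro h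
  have := Contr.hd_eq_zero (F := simple v) (h 1 Closed.one) v 0
  simp [hd_simple] at this

theorem homZero_of_neg (hF : IsMod F) (hG : IsMod G) (hp : p < 0) : HomZero p F G := by
  exact homZero_of_deg fun i j => Or.inl (by rw [hF i, hG j]; omega)

/-- If `f` is closed of degree `0`, `m0 f = 0`, and `f - c • 1` is exact then `c • 1 = 0`
(`Exact.m0_eq_zero`). -/
theorem EndScal.exact_of_m0 (h : EndScal F) (hF : Minimal F) {f : Mor F.toGr F.toGr}
    (hf : Closed F F 0 f) (h0 : m0 f = 0) : Exact F F 0 f := by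
  obtain ⟨c, hc⟩ := h f hf
  have h1 := hc.m0_eq_zero hF hF
  rw [m0_sub, h0, m0_smul, m0_one, zero_sub, neg_eq_zero] at h1
  have h2 : c • (1 : Mor F.toGr F.toGr) = 0 := by
    funext j i
    have := congrFun (congrFun h1 j) j
    simp only [Matrix.smul_apply, Matrix.one_apply_eq, smul_eq_mul, mul_one, Matrix.zero_apply] at this
    simp [this]
  rwa [h2, sub_zero] at hc

section twist
variable {U : Q.V → Prop} [DecidablePred U]

/-- `hd_Tm` for `mm F` -/
theorem nb_le_hd_Tm (hv : U v) (F : Obj Q) (k : ℤ) :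
    nb F v k ≤ hd F v k + hd ((Tm U).obj F) v k := by
  have := hd_Tm (mm_minimal F) hv k
  rw [(he_mm F).nb_eq, (he_mm F).hd_eq, ((Tm U).map_he (he_mm F)).hd_eq]
  omega

theorem hd_Tm_eq_zero (hv : U v) (h0 : hd F v k = 0) (h1 : nb F v k = 0)
    (h2 : hd F v (k - 1) = 0) : hd ((Tm U).obj F) v k = 0 := by
  have h3 := hd_Tm (mm_minimal F) hv k
  have h4 := topd_le_hd (mm_minimal F) v k
  have h5 := topd_le_hd (mm_minimal F) v (k - 1)
  rw [(he_mm F).hd_eq] at h0 h2
  rw [(he_mm F).nb_eq] at h1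
  rw [((Tm U).map_he (he_mm F)).hd_eq]
  omega

/-- Let `F' = mm (Tp F)`, so `Tm F' ≃ F` and `nb F' v = nb F v`.  If `k > hi` is the largest degree
with `hd F' v k ≠ 0`, `hd_Tm` in degree `k + 1` gives `topd F' v k = 0`; use `topd_eq_hd`. -/
theorem hd_Tp_eq_zero_hi (hU : Indep U) (hv : U v) {hi : ℤ}
    (h : ∀ k, hi < k → hd F v k = 0 ∧ nb F v k = 0) (hk : hi < k) :
    hd ((Tp U).obj F) v k = 0 := by
  have hm := mm_minimal ((Tp U).obj F)
  have he := he_mm ((Tp U).obj F)
  have h1 : HE ((Tm U).obj (mm ((Tp U).obj F))) F := ((Tm U).map_he he).symm.trans (he_Tm_Tp hU F)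
  have h2 : ∀ k, hi < k → nb (mm ((Tp U).obj F)) v k = 0 := fun k hk => by
    rw [← he.nb_eq]
    refine nb_eq_zero_iff.2 fun a ha => ?_
    rw [hd_Tp_of_not fun e => hU a ⟨ha ▸ hv, e⟩]
    exact nb_eq_zero_iff.1 (h k hk).2 a ha
  obtain ⟨n, hn⟩ := exists_hd_bound (mm ((Tp U).obj F))
  have key : ∀ m : ℕ, ∀ k, hi < k → (n : ℤ) - k ≤ m → hd (mm ((Tp U).obj F)) v k = 0 := by
    intro m
    induction m with
    | zero => exact fun k _ e => hn v k (le_trans (by omega) (le_abs_self k))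
    | succ m ih =>
      intro k hk e
      have h3 := hd_Tm hm hv (k + 1)
      rw [h1.hd_eq, (h (k + 1) (by omega)).1, ih (k + 1) (by omega) (by omega), add_sub_cancel_right,
        topd_eq_hd hm (h2 k hk)] at h3
      omega
  rw [he.hd_eq]
  exact key (n - k).toNat k hk (Int.self_le_toNat _)

/-- nothing below `lo` at any vertex -/
def GLo (F : Obj Q) (lo : ℤ) : Prop := ∀ v k, k < lo → hd F v k = 0

theorem GLo.Tm {lo : ℤ} (h : GLo F lo) : GLo ((Tm U).obj F) lo := by
  intro v k hk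
  by_cases hv : U v
  · exact hd_Tm_eq_zero hv (h v k hk) (nb_eq_zero_iff.2 fun a _ => h _ k hk) (h v _ (by omega))
  · rw [hd_Tm_of_not hv]
    exact h v k hk

theorem GLo.of_HE {lo : ℤ} (h : GLo F lo) (h' : HE F G) : GLo G lo := by
  exact fun v k hk => (h'.hd_eq v k).symm.trans (h v k hk)

/-- `hd_Th_eq_zero_iff`, `hd_Th_eq_zero_of_not`, `hd_shift` -/
theorem gLo_Th {lo : ℤ} (h : ∀ v, U v → ∀ k, k ≤ lo → HomZero k (simple v) F) :
    GLo (shift 1 (ThObj U F)) lo := by
  intro v k hk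
  rw [hd_shift]
  by_cases hv : U v
  · exact (hd_Th_eq_zero_iff hv).2 (h v hv _ (by omega))
  · exact hd_Th_eq_zero_of_not hv _ _

/-- `homZero_shift_right`, `homZero_of_hd` -/
theorem homZero_Th {lo : ℤ} (h : ∀ v, U v → ∀ k, k < lo → HomZero k (simple v) F) (hv : ¬ U v)
    (hk : k < lo) : HomZero k (simple v) (shift 1 (ThObj U F)) := by
  rw [homZero_shift_right]
  refine homZero_of_hd (hd_Th_eq_zero_of_not hv _ _) (nb_eq_zero_iff.2 fun a _ => ?_)
    (hd_Th_eq_zero_of_not hv _ _)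
  by_cases ha : U (Q.tgt a)
  · exact (hd_Th_eq_zero_iff ha).2 (h _ ha _ (by omega))
  · exact hd_Th_eq_zero_of_not ha _ _

theorem homZero_Tm_of_not {lo : ℤ} (h : ∀ v, U v → ∀ k, k < lo → HomZero k (simple v) F)
    (hv : ¬ U v) (hk : k < lo) (h0 : HomZero k (simple v) F) :
    HomZero k (simple v) ((Tm U).obj F) := by
  exact (tri_Tm U F).homZero_mid h0 (homZero_Th h hv hk)

theorem homZero_Tp_of_not {lo : ℤ} (h : ∀ v, U v → ∀ k, k < lo → HomZero k (simple v) F)
    (hv : ¬ U v) (hk : k < lo) (h0 : HomZero k (simple v) F) :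
    HomZero k (simple v) ((Tp U).obj F) := by
  exact (tri_Tp U F).homZero_mid (homZero_Th h hv hk) h0

theorem homZero_Tp_iff (hU : Indep U) (hv : U v) :
    HomZero p (simple v) ((Tp U).obj F) ↔ HomZero (p + 1) (simple v) F := by
  rw [← homZero_congr (HE.refl _) (he_Tm_Tp hU F), homZero_Tm_iff hU hv, add_sub_cancel_right]

/-- `he_Tm_of_homZero`, `homZero_simple` -/
theorem he_Tm_simple_of_not {w : Q.V} (hw : ¬ U w) (h : ∀ a, U (Q.src a) → Q.tgt a ≠ w) :
    HE ((Tm U).obj (simple w)) (simple w) := by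
  exact he_Tm_of_homZero fun v hv p => homZero_simple (fun _ e => hw (e ▸ hv)) (fun _ e => hw (e ▸ hv))
    fun _ a e => h a (e.1 ▸ hv) e.2

end twist

end Crest.Agent.R175
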