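import Crest.Agent.R175.RZ

/-!
# R175: reduced words, modules without top, cohomology modules.
-/

set_option autoImplicit false

namespace Crest.Agent.R175

open CoxeterSystem Crest.Agent.R61 Crest.GroupTheory

section
variable {Q : Qv}

/-- the module `H^k F` -/
noncomputable def cohM (F : Obj Q) (hF : Minimal F) (k : ℤ) : Obj Q :=
  slice (shift k F) (hF.shift k) (fun _ => True) (sepAt_top _)

theorem cohM_isMod (F : Obj Q) (hF : Minimal F) (k : ℤ) : IsMod (cohM F hF k) :=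
  slice_isMod _ _

theorem hd_cohM (F : Obj Q) (hF : Minimal F) (k : ℤ) (v : Q.V) :
    hd (cohM F hF k) v 0 = hd F v k := by
  rw [cohM, hd_slice, if_pos trivial, hd_shift, zero_add]

theorem socd_cohM (F : Obj Q) (hF : Minimal F) (k : ℤ) (v : Q.V) :
    socd (cohM F hF k) v 0 = socd F v k := by
  rw [cohM, socd_slice _ _ trivial, socd_shift, zero_add]

/-- `P = slice (shift h F) _ R _`; `homZero_slice_zero`, `homZero_slice_one`, `closed_shift_left`, … -/
theorem exists_topM {F : Obj Q} (hF : Minimal F) (h : ℤ) (R : Q.V → Prop) [DecidablePred R]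
    (hb : ∀ a, R (Q.src a) → ¬ R (Q.tgt a) → hd F (Q.tgt a) h = 0) :
    ∃ P : Obj Q, IsMod P ∧ (∀ v, hd P v 0 = if R v then hd F v h else 0) ∧
      (∀ v, R v → topd P v 0 = topd F v h) ∧ ∀ (G : Obj Q) (hG : Minimal G) (lo : ℤ),
        ((∀ v, R v → hd F v (h + 1) = 0 ∧ hd G v (lo - 1) = 0) → HomZero (lo - h) F G →
          HomZero 0 P (cohM G hG lo)) ∧
        ((∀ f, Closed F G (1 + lo - h) f → m0 f = 0 → Exact F G (1 + lo - h) f) →
          HomZero 1 P (cohM G hG lo)) := by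
  have hP : SepAt (shift h F) R := sepAt_of_hd (hF.shift h) fun a h1 h2 => by
    rw [hd_shift, zero_add]
    exact hb a h1 h2
  refine ⟨slice (shift h F) (hF.shift h) R hP, slice_isMod _ _, fun v => ?_, fun v hv => ?_,
    fun G hG lo => ⟨fun h1 h0 => ?_, fun h1 => ?_⟩⟩
  · rw [hd_slice, hd_shift, zero_add]
  · rw [topd_slice _ _ hv, topd_shift, zero_add]
  · refine homZero_slice_zero (hF.shift h) (hG.shift lo) hP (fun v hv => ?_) ?_
    · rw [hd_shift, hd_shift, add_comm 1 h, show -1 + lo = lo - 1 by ring]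
      exact h1 v hv
    · rw [homZero_shift_left, homZero_shift_right, show 0 - h + lo = lo - h by ring]
      exact h0
  · refine homZero_slice_one (hF.shift h) (hG.shift lo) hP fun f hf h0 => ?_
    have h2 : Closed F G (1 - h + lo) f := (closed_shift_right lo).1 ((closed_shift_left h).1 hf)
    exact (exact_shift_left h).2 ((exact_shift_right lo).2
      ((h1 f (h2.of_eq (by ring)) h0).of_eq (by ring)))

/-- with `φ ∈ TopSp P v 0`, `u ∈ SocSp H v 0` the matrix `fun j i => Z.sc (u j * φ i)` is closed and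
not exact (`Exact.m0_eq_zero`) -/
theorem not_homZero_of_top_soc {P H : Obj Q} (hP : IsMod P) (hH : IsMod H) {v : Q.V}
    (h1 : topd P v 0 ≠ 0) (h2 : socd H v 0 ≠ 0) : ¬ HomZero 0 P H := by
  intro h0
  obtain ⟨φ, hφ, hφ0⟩ := Submodule.exists_mem_ne_zero_of_ne_bot
    (p := TopSp P v 0) fun e => h1 (Submodule.finrank_eq_zero.2 e)
  obtain ⟨u, hu, hu0⟩ := Submodule.exists_mem_ne_zero_of_ne_bot
    (p := SocSp H v 0) fun e => h2 (Submodule.finrank_eq_zero.2 e)
  rw [rl_mem_top] at hφ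
  rw [rl_mem_soc] at hu
  let f : Mor P.toGr H.toGr := fun j i => Z.sc (u j * φ i)
  have hf : IsHom P.toGr H.toGr 0 f := fun j i =>
    ⟨fun e => ⟨(rl_Cc hu.1 (left_ne_zero_of_mul e)).1.trans
      (rl_Cc hφ.1 (right_ne_zero_of_mul e)).1.symm, by rw [hH j, hP i, add_zero]⟩,
      fun a e => absurd rfl e, fun e => absurd rfl e⟩
  have e1 : H.δ * f = 0 := by
    funext j i
    rw [Matrix.mul_apply]
    ext a
    · simp [hH.minimal j]
    · have := congrFun (hu.2 a) j
      simp only [Matrix.mulVec, dotProduct, m1, Matrix.map_apply, Pi.zero_apply] at this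
      simp [f, ← mul_assoc, ← Finset.sum_mul, this]
    · simp [f, hH.c2_eq_zero j]
  have e2 : f * P.δ = 0 := by
    funext j i
    rw [Matrix.mul_apply]
    ext a
    · simp [fun l => hP.minimal l i]
    · have := congrFun (hφ.2 a) i
      simp only [Matrix.vecMul, dotProduct, m1, Matrix.map_apply, Pi.zero_apply] at this
      simp [f, mul_assoc, ← Finset.mul_sum, this]
    · simp [f, fun l => hP.c2_eq_zero l i]
  have h3 := (h0 f (Closed.of_comm0 hf (e1.trans e2.symm))).m0_eq_zero hP.minimal hH.minimal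
  obtain ⟨j, hj⟩ := Function.ne_iff.1 hu0
  obtain ⟨i, hi⟩ := Function.ne_iff.1 hφ0
  exact mul_ne_zero hj hi (congrFun (congrFun h3 j) i)

/-- `exists_trunc` for `shift 0 G`: `A` is contractible, `HomZero 0 X C` by `homZero_of_deg` for
`mm C`; `Tri.homZero_left` -/
theorem homZero_one_cohM {X G : Obj Q} (hX : IsMod X) (hG : Minimal G) (h0 : GLo G 0)
    (h1 : HomZero 1 X G) : HomZero 1 X (cohM G hG 0) := by
  obtain ⟨A, B, C, t1, t2, hA, hC⟩ := exists_trunc (hG.shift 0)
  have hA' : Contr A := contr_of_hd fun v k => by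
    rw [hA, hd_shift, add_zero]
    split_ifs with hk
    exacts [h0 v k hk, rfl]
  refine t2.homZero_left (HomZero.of_HE (homZero_of_deg fun i j => Or.inl ?_) (HE.refl X)
    (he_mm C).symm) (h1.of_HE (HE.refl X) ((shift_zero_he G).symm.trans (t1.he_of_contr_left hA')))
  have h2 := (mm_minimal C).hd_ne_zero j
  rw [← (he_mm C).hd_eq, hC] at h2
  rw [hX i]
  by_contra hk
  exact h2 (if_neg (by omega))

theorem hd_Tm_top {U : Q.V → Prop} [DecidablePred U] {F : Obj Q} (hF : Minimal F) {v : Q.V}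
    (hv : U v) {h : ℤ} (h1 : hd F v (h + 1) = 0) (h2 : nb F v (h + 1) = 0) :
    hd ((Tm U).obj F) v (h + 1) = topd F v h := by
  have h3 := hd_Tm hF hv (h + 1)
  have h4 := topd_le_hd hF v (h + 1)
  rw [add_sub_cancel_right] at h3
  omega

end

variable {S : Type} [Fintype S] [DecidableEq S] {M : CoxeterMatrix S}

namespace Unf

variable (U : Unf M) {J : Finset S}

theorem nt_hd_gen (F : Obj U.Q) (g : ArtinGroup M) (s : S) (v : U.Q.V) (k : ℤ) :
    hd (U.ac F (g * artinGen M s)) v k = hd ((Tm fun x => U.typ x = s).obj (U.ac F g)) v k :=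
  (U.ac_mul_gen F g s).hd_eq v k

/-- Strong induction on the length, `decomp_left`: `LJ w = wd (altW i j r) * LJ w'`; `chain_filt`,
`filt_ac`. -/
theorem filt_LJ (w : WJ M J) (i : {s // s ∈ J}) {v : U.Q.V} (hv : U.typ v = i.1)
    (h : (csJ M J).length w < (csJ M J).length ((csJ M J).simple i * w)) :
    Filt (fun x => U.typ x ∈ J) (U.ac (simple v) (LJ M J w)) := by
  induction hn : (csJ M J).length w using Nat.strong_induction_on generalizing w i v with
  | _ n ih =>
  by_cases hw : w = 1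
  · rw [hw, LJ_one]
    exact Filt.ofSimple v (by rw [hv]; exact i.2) (U.ac_one _)
  obtain ⟨j, r, w', hji, hr1, e, hl, hi, hj, hr⟩ := decomp_left (csJ M J) h hw
  have h1 := (csJ M J).length_mul_le ((csJ M J).wordProd (altW i j r)) w'
  have h2 := (csJ M J).length_wordProd_le (altW i j r)
  rw [← e] at h1
  have h3 : (csJ M J).IsReduced (altW i j r) := by
    unfold CoxeterSystem.IsReduced
    rw [length_altW] at h2 ⊢
    omega
  have h4 : (altW i j r).map Subtype.val = altW i.1 j.1 r := by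
    simp only [altW, List.map_map]
    exact List.map_congr_left fun a _ => apply_ite Subtype.val _ _ _
  rw [e, LJ_mul (by rw [← e, h3, length_altW, hl]), LJ_wordProd J h3, h4, ac_mul]
  refine U.filt_ac ((U.chain_filt (fun e => hji (Subtype.ext e).symm) hv r hr).of_HE
    (U.ac_wd _ _).symm) _ ?_
  rintro x (hx | hx)
  · exact ih _ (by omega) w' i hx hi rfl
  · exact ih _ (by omega) w' j hx hj rfl

/-- `filt_LJ` for `w⁻¹`, `Filt.dual`, `ac_dual`, `dual_simple`, `iota_LJ` -/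
theorem filt_LJ_inv (w : WJ M J) (i : {s // s ∈ J}) {v : U.Q.V} (hv : U.typ v = i.1)
    (h : (csJ M J).length w < (csJ M J).length (w * (csJ M J).simple i)) :
    Filt (fun x => U.typ x ∈ J) (U.ac (simple v) (LJ M J w)⁻¹) := by
  have h1 := (U.filt_LJ w⁻¹ i hv (by
    rwa [← (csJ M J).inv_simple, ← mul_inv_rev, (csJ M J).length_inv,
      (csJ M J).length_inv])).dual.of_HE (U.ac_dual _ _)
  rwa [U.ac_congr (dual_simple v), iota_LJ] at h1

theorem nt_top {L : Obj U.Q} (hL : IsMod L) (h : ∀ v, U.typ v ∈ J → topd L v 0 = 0) {w : WJ M J}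
    (hw : IsMod (U.ac L (LJ M J w))) (i : {s // s ∈ J}) (v : U.Q.V) (hv : U.typ v = i.1)
    (hl : (csJ M J).length w < (csJ M J).length (w * (csJ M J).simple i)) :
    topd (U.ac L (LJ M J w)) v 0 = 0 := by
  rw [topd_eq_zero_iff hw, ← U.homZero_ac_iff (LJ M J w)⁻¹]
  exact ((U.filt_LJ_inv w i hv hl).homZero_right fun x hx =>
    (topd_eq_zero_iff hL).1 (h x hx)).of_HE (U.ac_ac_inv _ _).symm (HE.refl _)

/-- Induction on the length.  If `ac L (LJ w)` is a module then the second statement follows from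
`topd_eq_zero_iff`, `homZero_ac_iff`, `ac_ac_inv`, `filt_LJ_inv`, `Filt.homZero_right`.  For
`w = w' s_j` longer than `w'` use `hd_Tm`, `Minimal.isMod`. -/
theorem noTop {L : Obj U.Q} (hL : IsMod L) (h : ∀ v, U.typ v ∈ J → topd L v 0 = 0) (w : WJ M J) :
    IsMod (U.ac L (LJ M J w)) ∧ ∀ (i : {s // s ∈ J}) (v : U.Q.V), U.typ v = i.1 →
      (csJ M J).length w < (csJ M J).length (w * (csJ M J).simple i) →
      topd (U.ac L (LJ M J w)) v 0 = 0 := by
  suffices H : IsMod (U.ac L (LJ M J w)) from ⟨H, U.nt_top hL h H⟩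
  induction hn : (csJ M J).length w using Nat.strong_induction_on generalizing w with
  | _ n ih =>
  refine (U.ac_minimal _ _).isMod fun v k hk => ?_
  by_cases hw : w = 1
  · rw [hw, LJ_one, (U.ac_one _).hd_eq, hL.hd_eq_zero v hk]
  obtain ⟨j, hj⟩ := (csJ M J).exists_rightDescent_of_ne_one hw
  have hj' : (csJ M J).length (w * (csJ M J).simple j) < (csJ M J).length w := hj
  obtain ⟨w', rfl⟩ : ∃ w', w = w' * (csJ M J).simple j :=
    ⟨w * (csJ M J).simple j, ((csJ M J).simple_mul_simple_cancel_right j).symm⟩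
  rw [(csJ M J).simple_mul_simple_cancel_right] at hj'
  have h1 := ih _ (hn ▸ hj') w' rfl
  rw [LJ_mul_simple hj', nt_hd_gen]
  by_cases hv : U.typ v = j.1
  · have h2 := hd_Tm (U := fun x => U.typ x = j.1) h1.minimal hv k
    have h3 := topd_le_hd h1.minimal v k
    have h4 : nb (U.ac L (LJ M J w')) v k = 0 := nb_eq_zero_iff.2 fun a _ => h1.hd_eq_zero _ hk
    have h5 : topd (U.ac L (LJ M J w')) v (k - 1) = 0 := by
      by_cases hk' : k - 1 = 0
      · rw [hk', U.nt_top hL h h1 j v hv hj']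
      · exact Nat.le_zero.1 ((topd_le_hd h1.minimal v _).trans_eq (h1.hd_eq_zero v hk'))
    have h6 := h1.hd_eq_zero v hk
    omega
  · rw [hd_Tm_of_not hv, h1.hd_eq_zero v hk]

theorem nt_asc {L : Obj U.Q} (hL : IsMod L) (h : ∀ v, U.typ v ∈ J → topd L v 0 = 0) (w : WJ M J)
    (j : {s // s ∈ J}) (hl : (csJ M J).length w < (csJ M J).length (w * (csJ M J).simple j)) :
    U.wN (U.ac L (LJ M J w)) j.1 0 + U.wN (U.ac L (LJ M J (w * (csJ M J).simple j))) j.1 0 =
      ∑ t, aa M j.1 t * U.wN (U.ac L (LJ M J w)) t 0 := by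
  obtain ⟨h1, h2⟩ := U.noTop hL h w
  rw [← ws_nb', wN, wN, ← ws_add]
  refine U.ws_congr fun v hv => ?_
  have h3 := hd_Tm (U := fun x => U.typ x = j.1) h1.minimal hv 0
  have h4 := (topd_le_hd h1.minimal v (0 - 1)).trans_eq (h1.hd_eq_zero v (by norm_num))
  rw [h2 j v hv hl] at h3
  rw [LJ_mul_simple hl, nt_hd_gen]
  norm_cast
  omega

/-- `hd_Tm`, `ws_nb'`; in the descending case apply the ascending case to `w s_j` -/
theorem wN_noTop {L : Obj U.Q} (hL : IsMod L) (h : ∀ v, U.typ v ∈ J → topd L v 0 = 0) (w : WJ M J)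
    (j : {s // s ∈ J}) :
    U.wN (U.ac L (LJ M J w)) j.1 0 + U.wN (U.ac L (LJ M J (w * (csJ M J).simple j))) j.1 0 =
      ∑ t, aa M j.1 t * U.wN (U.ac L (LJ M J w)) t 0 := by
  rcases lt_or_gt_of_ne ((csJ M J).length_mul_simple_ne w j) with hl | hl
  · obtain ⟨w', rfl⟩ : ∃ w', w = w' * (csJ M J).simple j :=
      ⟨w * (csJ M J).simple j, ((csJ M J).simple_mul_simple_cancel_right j).symm⟩
    rw [(csJ M J).simple_mul_simple_cancel_right] at hl ⊢
    rw [add_comm, U.nt_asc hL h w' j hl]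
    refine Finset.sum_congr rfl fun t _ => ?_
    by_cases ht : t = j.1
    · rw [ht, aa_self, zero_mul, zero_mul]
    · congr 1
      refine U.ws_congr fun v hv => ?_
      rw [LJ_mul_simple hl, nt_hd_gen, hd_Tm_of_not (by rw [hv]; exact ht)]
  · exact U.nt_asc hL h w j hl

/-- `hd_Tm_eq_zero` -/
theorem hd_ac_far {A : Obj U.Q}
    (h : ∀ v k, (U.typ v ∈ J ∨ ∃ i ∈ J, aa M i (U.typ v) ≠ 0) → hd A v k = 0)
    {q : ArtinGroup M} (hq : q ∈ PP M J) {v : U.Q.V} (hv : U.typ v ∈ J) (k : ℤ) :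
    hd (U.ac A q) v k = 0 := by
  refine PP_induction_right (P := fun q => ∀ v k, (U.typ v ∈ J ∨ ∃ i ∈ J, aa M i (U.typ v) ≠ 0) →
    hd (U.ac A q) v k = 0) (fun v k hv => ?_) (fun p s _ hs ih v k hv => ?_) hq v k (Or.inl hv)
  · rw [(U.ac_one _).hd_eq, h v k hv]
  · rw [nt_hd_gen]
    by_cases e : U.typ v = s
    · exact hd_Tm_eq_zero e (ih v k hv)
        (U.nb_eq_zero fun w hw => ih w k (Or.inr ⟨s, hs, e ▸ hw⟩)) (ih v _ hv)
    · rw [hd_Tm_of_not e, ih v k hv]

/-- For `typ v ∉ J`: `hd_ac_of_mem`.  Otherwise `exists_trunc` for `shift lo F`, `ac_tri`,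
`hd_ac_far` for `A`, `gLo_ac` for `C` (`GLo C 1`), `ac_shift`. -/
theorem hd_ac_cohM {F : Obj U.Q} (hF : Minimal F) {lo : ℤ} (h : ∀ i ∈ J, U.LoO F lo i)
    (hb : Bd (M := M) J (U.LoO F lo)) {q : ArtinGroup M} (hq : q ∈ PP M J) (v : U.Q.V) :
    hd (U.ac (cohM F hF lo) q) v 0 = hd (U.ac F q) v lo := by
  by_cases hv : U.typ v ∈ J
  swap
  · rw [U.hd_ac_of_mem (mem_AP_of_PP hq) hv, U.hd_ac_of_mem (mem_AP_of_PP hq) hv, hd_cohM]
  obtain ⟨A, B, C, t1, t2, hA, hC⟩ := exists_trunc (hF.shift lo)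
  have h1 : ∀ k, hd (U.ac A q) v k = 0 := U.hd_ac_far (fun x k hx => by
    rw [hA, hd_shift]
    split_ifs with hk
    · by_cases hx' : U.typ x ∈ J
      · exact h _ hx' x rfl _ (by omega)
      · obtain ⟨i, hi, hx⟩ := hx.resolve_left hx'
        exact hb i hi _ hx' hx x rfl _ (by omega)
    · rfl) hq hv
  have h2 : GLo (U.ac C q) 1 := U.gLo_ac hq fun x k hk => by rw [hC, if_neg (by omega)]
  have a1 := (U.ac_tri t1 q).hd_mid v 0
  have a2 := (U.ac_tri t1 q).hd_right v 0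
  have a3 := (U.ac_tri t2 q).hd_mid v 0
  have a4 := (U.ac_tri t2 q).hd_left v 0
  rw [(U.ac_shift lo F q).hd_eq, hd_shift, zero_add, h1] at a1 a2
  rw [h2 v _ (by norm_num)] at a3 a4
  unfold cohM
  omega

/-- `LJ w₀ = s * LJ (s w₀)`, `he_Tm_simple`, `gLo_ac` -/
theorem gLo_simple_top {w₀ : WJ M J}
    (h : ∀ i, (csJ M J).length ((csJ M J).simple i * w₀) < (csJ M J).length w₀) {v : U.Q.V}
    (hv : U.typ v ∈ J) : GLo (U.ac (simple v) (LJ M J w₀)) 1 := by
  have h1 := h ⟨U.typ v, hv⟩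
  obtain ⟨w', rfl⟩ : ∃ w', w₀ = (csJ M J).simple ⟨U.typ v, hv⟩ * w' :=
    ⟨(csJ M J).simple ⟨U.typ v, hv⟩ * w₀, ((csJ M J).simple_mul_simple_cancel_left _).symm⟩
  rw [(csJ M J).simple_mul_simple_cancel_left] at h1
  rw [LJ_simple_mul h1, ac_mul]
  refine U.gLo_ac (LJ_mem_PP J w') fun x k hk => ?_
  rw [((U.ac_gen _ _).trans (he_Tm_simple (U.indep _) rfl)).hd_eq, hd_shift, hd_simple,
    if_neg fun e => by omega]

end Unf

end Crest.Agent.R175
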