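import Crest.Agent.R175.Zig

/-!
# R175 (S0263): twisted complexes over the zigzag algebra.  Owner: helper19.  DO NOT EDIT.

An object is a finite set `ι` of "simple modules `S_{vtx i}` placed in degree `deg i`" with a matrix
`δ` over `Z Q` of degree one and square zero.  `δ.c0` is an ordinary differential `d`, `δ.c1 a` is the
action of the arrow `a`, `δ.c2` is a homotopy for the preprojective relation `∑ ā a = 0`.
-/

set_option autoImplicit false

namespace Crest.Agent.R175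

open Matrix

variable {Q : Qv}

/-- a finite set graded by vertices and degrees -/
structure Gr (Q : Qv) where
  ι : Type
  [fin : Fintype ι]
  [dec : DecidableEq ι]
  vtx : ι → Q.V
  deg : ι → ℤ

attribute [instance] Gr.fin Gr.dec

/-- matrices from `F` to `G` -/
abbrev Mor (F G : Gr Q) : Type := Matrix G.ι F.ι (Z Q)

/-- the entry `x` is allowed from (vertex `v`, degree `k`) to (vertex `w`, degree `l`) in a morphism of
degree `p` -/
def Ok (v : Q.V) (k : ℤ) (w : Q.V) (l : ℤ) (p : ℤ) (x : Z Q) : Prop :=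
  (x.c0 ≠ 0 → w = v ∧ l = k + p) ∧
  (∀ a, x.c1 a ≠ 0 → Q.src a = v ∧ Q.tgt a = w ∧ l = k + p - 1) ∧
  (x.c2 ≠ 0 → w = v ∧ l = k + p - 2)

/-- homogeneous morphisms of degree `p` -/
def IsHom (F G : Gr Q) (p : ℤ) (f : Mor F G) : Prop :=
  ∀ j i, Ok (F.vtx i) (F.deg i) (G.vtx j) (G.deg j) p (f j i)

theorem Ok.zero (v : Q.V) (k : ℤ) (w : Q.V) (l p : ℤ) : Ok v k w l p (0 : Z Q) := by
  simp [Ok]

theorem Ok.smul {v : Q.V} {k : ℤ} {w : Q.V} {l p : ℤ} {x : Z Q} (h : Ok v k w l p x) (r : ℝ) :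
    Ok v k w l p (r • x) :=
  ⟨fun h0 => h.1 (fun e => h0 (by simp [e])), fun a h0 => h.2.1 a (fun e => h0 (by simp [e])),
    fun h0 => h.2.2 (fun e => h0 (by simp [e]))⟩

theorem Ok.of_eq {v : Q.V} {k : ℤ} {w : Q.V} {l p k' l' p' : ℤ} {x : Z Q} (h : Ok v k w l p x)
    (e : l' - k' - p' = l - k - p) : Ok v k' w l' p' x :=
  ⟨fun h0 => ⟨(h.1 h0).1, by have := (h.1 h0).2; omega⟩,
    fun a h0 => ⟨(h.2.1 a h0).1, (h.2.1 a h0).2.1, by have := (h.2.1 a h0).2.2; omega⟩,
    fun h0 => ⟨(h.2.2 h0).1, by have := (h.2.2 h0).2; omega⟩⟩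

/-- an object -/
structure Obj (Q : Qv) extends Gr Q where
  δ : Matrix ι ι (Z Q)
  hom : IsHom toGr toGr 1 δ
  sq : δ * δ = 0

/-- `(-1)^p` -/
noncomputable def sg (p : ℤ) : ℝ := if Even p then 1 else -1

@[simp] theorem sg_zero : sg 0 = 1 := by simp [sg]
@[simp] theorem sg_one : sg 1 = -1 := by simp [sg]
theorem sg_add (p q : ℤ) : sg (p + q) = sg p * sg q := by
  unfold sg
  by_cases hp : Even p <;> by_cases hq : Even q <;> simp [hp, hq, Int.even_add]
@[simp] theorem sg_neg (p : ℤ) : sg (-p) = sg p := by simp [sg]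
@[simp] theorem sg_mul_self (p : ℤ) : sg p * sg p = 1 := by unfold sg; split_ifs <;> simp
theorem sg_sub (p q : ℤ) : sg (p - q) = sg p * sg q := by rw [sub_eq_add_neg, sg_add, sg_neg]
@[simp] theorem sg_add_one (p : ℤ) : sg (p + 1) = -sg p := by simp [sg_add]
@[simp] theorem sg_sub_one (p : ℤ) : sg (p - 1) = -sg p := by simp [sg_sub]
theorem sg_ne_zero (p : ℤ) : sg p ≠ 0 := by unfold sg; split_ifs <;> simp

/-- the differential of the Hom complex in degree `p` -/
noncomputable def Dd (F G : Obj Q) (p : ℤ) (f : Mor F.toGr G.toGr) : Mor F.toGr G.toGr :=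
  G.δ * f - sg p • (f * F.δ)

/-- closed morphisms of degree `p` -/
structure Closed (F G : Obj Q) (p : ℤ) (f : Mor F.toGr G.toGr) : Prop where
  hom : IsHom F.toGr G.toGr p f
  cl : Dd F G p f = 0

/-- exact (null-homotopic) morphisms of degree `p` -/
def Exact (F G : Obj Q) (p : ℤ) (f : Mor F.toGr G.toGr) : Prop :=
  ∃ g, IsHom F.toGr G.toGr (p - 1) g ∧ f = Dd F G (p - 1) g

/-- `f` is a homotopy equivalence -/
def IsHE (F G : Obj Q) (f : Mor F.toGr G.toGr) : Prop :=
  Closed F G 0 f ∧ ∃ g, Closed G F 0 g ∧ Exact F F 0 (g * f - 1) ∧ Exact G G 0 (f * g - 1)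

/-- homotopy equivalent objects -/
def HE (F G : Obj Q) : Prop := ∃ f, IsHE F G f

/-- `H^p Hom (F, G) = 0` -/
def HomZero (p : ℤ) (F G : Obj Q) : Prop := ∀ f, Closed F G p f → Exact F G p f

/-- `H^0 End F` consists of scalars -/
def EndScal (F : Obj Q) : Prop :=
  ∀ f, Closed F F 0 f → ∃ c : ℝ, Exact F F 0 (f - c • (1 : Mor F.toGr F.toGr))

/-- contractible objects -/
def Contr (F : Obj Q) : Prop := Exact F F 0 1

/-- minimal objects: `d = 0` -/
def Minimal (F : Obj Q) : Prop := ∀ j i, (F.δ j i).c0 = 0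

/-- modules over the preprojective algebra: objects concentrated in degree zero -/
def IsMod (F : Obj Q) : Prop := ∀ i, F.deg i = 0

/-- a matrix with scalar entries -/
def Scalar {α β : Type} (f : Matrix α β (Z Q)) : Prop :=
  ∀ j i, (∀ a, (f j i).c1 a = 0) ∧ (f j i).c2 = 0

/-- the simple module `S_v` -/
def simple (v : Q.V) : Obj Q where
  ι := Unit
  vtx _ := v
  deg _ := 0
  δ := 0
  hom _ _ := Ok.zero _ _ _ _ _
  sq := by simp

/-- the shift `F[n]` -/
noncomputable def shift (n : ℤ) (F : Obj Q) : Obj Q where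
  ι := F.ι
  vtx := F.vtx
  deg i := F.deg i - n
  δ := sg n • F.δ
  hom j i := ((F.hom j i).smul (sg n)).of_eq (by simp only []; omega)
  sq := by rw [smul_mul_smul_comm, F.sq, smul_zero]

/-- the extension of `C` by `A` along a closed morphism `u : C → A` of degree one -/
noncomputable def ext (A C : Obj Q) (u : Mor C.toGr A.toGr) (hu : Closed C A 1 u) : Obj Q where
  ι := A.ι ⊕ C.ι
  vtx := Sum.elim A.vtx C.vtx
  deg := Sum.elim A.deg C.deg
  δ := fromBlocks A.δ u 0 C.δ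
  hom j i := by
    rcases j with j | j <;> rcases i with i | i
    · exact A.hom j i
    · exact hu.hom j i
    · exact Ok.zero _ _ _ _ _
    · exact C.hom j i
  sq := by
    have h := hu.cl
    simp only [Dd, sg_one, neg_smul, one_smul, sub_neg_eq_add] at h
    rw [fromBlocks_multiply, A.sq, C.sq, h]
    simp

/-- distinguished triangles `A → B → C → A[1]` -/
def Tri (A B C : Obj Q) : Prop :=
  ∃ (u : Mor C.toGr A.toGr) (hu : Closed C A 1 u), HE B (ext A C u hu)

/-- iterated extensions of the simples `S_v` (`P v`), in degree zero, up to homotopy -/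
inductive Filt (P : Q.V → Prop) : Obj Q → Prop
  | ofContr {F : Obj Q} : Contr F → Filt P F
  | ofSimple {F : Obj Q} (v : Q.V) : P v → HE F (simple v) → Filt P F
  | ofTri {A B C : Obj Q} : Filt P A → Filt P C → Tri A B C → Filt P B

/-- the indices that satisfy `P` -/
def subGr (F : Gr Q) (P : F.ι → Prop) [DecidablePred P] : Gr Q where
  ι := {i // P i}
  vtx i := F.vtx i.1
  deg i := F.deg i.1

/-- the submatrix of `δ` on the indices that satisfy `P` -/
def subM (F : Obj Q) (P : F.ι → Prop) : Matrix {i // P i} {i // P i} (Z Q) :=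
  F.δ.submatrix Subtype.val Subtype.val

/-- the sub-quotient object on the indices that satisfy `P` -/
def subObj (F : Obj Q) (P : F.ι → Prop) [DecidablePred P] (h : subM F P * subM F P = 0) :
    Obj Q where
  toGr := subGr F.toGr P
  δ := subM F P
  hom j i := F.hom j.1 i.1
  sq := h

/-! ### cohomology -/

/-- the `c0` part of a matrix -/
def m0 {α β : Type} (f : Matrix α β (Z Q)) : Matrix α β ℝ := f.map Z.c0
/-- the `c1 a` part of a matrix -/
def m1 {α β : Type} (f : Matrix α β (Z Q)) (a : Q.A) : Matrix α β ℝ := f.map fun x => x.c1 a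
/-- the `c2` part of a matrix -/
def m2 {α β : Type} (f : Matrix α β (Z Q)) : Matrix α β ℝ := f.map Z.c2

/-- vectors supported at vertex `v`, degree `k` -/
def Cc (F : Gr Q) (v : Q.V) (k : ℤ) : Submodule ℝ (F.ι → ℝ) where
  carrier := {u | ∀ i, ¬ (F.vtx i = v ∧ F.deg i = k) → u i = 0}
  add_mem' ha hb i hi := by simp [ha i hi, hb i hi]
  zero_mem' _ _ := rfl
  smul_mem' c _ ha i hi := by simp [ha i hi]

/-- cocycles -/
def Zc (F : Obj Q) (v : Q.V) (k : ℤ) : Submodule ℝ (F.ι → ℝ) :=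
  Cc F.toGr v k ⊓ LinearMap.ker (m0 F.δ).mulVecLin

/-- coboundaries -/
def Bc (F : Obj Q) (v : Q.V) (k : ℤ) : Submodule ℝ (F.ι → ℝ) :=
  (Cc F.toGr v (k - 1)).map (m0 F.δ).mulVecLin

/-- `dim H^k (F)_v` -/
noncomputable def hd (F : Obj Q) (v : Q.V) (k : ℤ) : ℕ :=
  Module.finrank ℝ (Zc F v k) - Module.finrank ℝ (Bc F v k)

/-- the number of indices at vertex `v` in degree `k` -/
def cnt (F : Gr Q) (v : Q.V) (k : ℤ) : ℕ :=
  (Finset.univ.filter fun i => F.vtx i = v ∧ F.deg i = k).card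

/-- the sum of `hd` over the neighbours of `v` -/
noncomputable def nb (F : Obj Q) (v : Q.V) (k : ℤ) : ℕ :=
  ∑ a ∈ Finset.univ.filter (fun a => Q.src a = v), hd F (Q.tgt a) k

/-- (for minimal `F`) functionals on `H^k_v` that kill the images of all arrows -/
def TopSp (F : Obj Q) (v : Q.V) (k : ℤ) : Submodule ℝ (F.ι → ℝ) :=
  Cc F.toGr v k ⊓ ⨅ a, LinearMap.ker (m1 F.δ a).vecMulLinear

/-- (for minimal `F`) vectors of `H^k_v` that are killed by all arrows -/
def SocSp (F : Obj Q) (v : Q.V) (k : ℤ) : Submodule ℝ (F.ι → ℝ) :=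
  Cc F.toGr v k ⊓ ⨅ a, LinearMap.ker (m1 F.δ a).mulVecLin

/-- multiplicity of `S_v` in the top of `H^k F` (for minimal `F`) -/
noncomputable def topd (F : Obj Q) (v : Q.V) (k : ℤ) : ℕ := Module.finrank ℝ (TopSp F v k)

/-- multiplicity of `S_v` in the socle of `H^k F` (for minimal `F`) -/
noncomputable def socd (F : Obj Q) (v : Q.V) (k : ℤ) : ℕ := Module.finrank ℝ (SocSp F v k)

/-- `f` is injective on `H^k (-)_v` -/
def InjAt (F G : Obj Q) (v : Q.V) (k : ℤ) (f : Mor F.toGr G.toGr) : Prop :=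
  ∀ u ∈ Zc F v k, (m0 f).mulVec u ∈ Bc G v k → u ∈ Bc F v k

/-- `f` is surjective on `H^k (-)_v` -/
def SurjAt (F G : Obj Q) (v : Q.V) (k : ℤ) (f : Mor F.toGr G.toGr) : Prop :=
  ∀ w ∈ Zc G v k, ∃ u ∈ Zc F v k, w - (m0 f).mulVec u ∈ Bc G v k

/-! ### dg functors -/

/-- a dg endofunctor -/
structure DGFun (Q : Qv) where
  obj : Obj Q → Obj Q
  map : ∀ (F G : Obj Q), ℤ → Mor F.toGr G.toGr →ₗ[ℝ] Mor (obj F).toGr (obj G).toGr
  map_hom : ∀ {F G : Obj Q} {p : ℤ} {f : Mor F.toGr G.toGr}, IsHom F.toGr G.toGr p f →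
    IsHom (obj F).toGr (obj G).toGr p (map F G p f)
  map_mul : ∀ {F G H : Obj Q} {p q : ℤ} {f : Mor F.toGr G.toGr} {g : Mor G.toGr H.toGr},
    IsHom F.toGr G.toGr p f → IsHom G.toGr H.toGr q g →
    map F H (p + q) (g * f) = map G H q g * map F G p f
  map_one : ∀ F : Obj Q, map F F 0 1 = 1
  map_D : ∀ {F G : Obj Q} {p : ℤ} {f : Mor F.toGr G.toGr}, IsHom F.toGr G.toGr p f →
    map F G (p + 1) (Dd F G p f) = Dd (obj F) (obj G) p (map F G p f)

/-- the identity functor -/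
def DGFun.id (Q : Qv) : DGFun Q where
  obj F := F
  map _ _ _ := LinearMap.id
  map_hom h := h
  map_mul _ _ := rfl
  map_one _ := rfl
  map_D _ := rfl

/-- `Φ.comp Ψ`: first `Φ`, then `Ψ` -/
noncomputable def DGFun.comp (Φ Ψ : DGFun Q) : DGFun Q where
  obj F := Ψ.obj (Φ.obj F)
  map F G p := (Ψ.map (Φ.obj F) (Φ.obj G) p).comp (Φ.map F G p)
  map_hom h := Ψ.map_hom (Φ.map_hom h)
  map_mul hf hg := by
    simp only [LinearMap.comp_apply]
    rw [Φ.map_mul hf hg, Ψ.map_mul (Φ.map_hom hf) (Φ.map_hom hg)]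
  map_one F := by simp only [LinearMap.comp_apply]; rw [Φ.map_one, Ψ.map_one]
  map_D h := by
    simp only [LinearMap.comp_apply]
    rw [Φ.map_D h, Ψ.map_D (Φ.map_hom h)]

/-- quasi fully faithful: bijective on all `H^p Hom` -/
structure QFF (Φ : DGFun Q) : Prop where
  faithful : ∀ (F G : Obj Q) (p : ℤ) (f : Mor F.toGr G.toGr), Closed F G p f →
    Exact (Φ.obj F) (Φ.obj G) p (Φ.map F G p f) → Exact F G p f
  full : ∀ (F G : Obj Q) (p : ℤ) (φ : Mor (Φ.obj F).toGr (Φ.obj G).toGr),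
    Closed (Φ.obj F) (Φ.obj G) p φ →
    ∃ f, Closed F G p f ∧ Exact (Φ.obj F) (Φ.obj G) p (Φ.map F G p f - φ)

end Crest.Agent.R175
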