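import Crest.Agent.R175.RLem

/-!
# R175: simple quotients, and the existence of a socle for positive definite supports.
-/

set_option autoImplicit false

namespace Crest.Agent.R175

open Matrix

variable {Q : Qv}

/-- splitting off a quotient `S_v` given by abstract data -/
theorem quot_data {M : Obj Q} {G : Gr Q} {v : Q.V} (i : Mor G M.toGr) (r : Mor M.toGr G)
    (q : Mor M.toGr (simple v).toGr) (j : Mor (simple v).toGr M.toGr)
    (hi : IsHom G M.toGr 0 i) (hr : IsHom M.toGr G 0 r) (hq : IsHom M.toGr (simple v).toGr 0 q)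
    (hj : IsHom (simple v).toGr M.toGr 0 j) (hri : r * i = 1) (hqj : q * j = 1) (hqi : q * i = 0)
    (hrj : r * j = 0) (hs : i * r + j * q = 1) (hqd : q * M.δ = 0) :
    ∃ M₁ : Obj Q, M₁.toGr = G ∧ Tri M₁ M (simple v) := by
  have key : i * (r * M.δ) = M.δ := by
    have h1 : (i * r + j * q) * M.δ = M.δ := by rw [hs, Matrix.one_mul]
    rwa [Matrix.add_mul, Matrix.mul_assoc j, hqd, Matrix.mul_zero, add_zero, Matrix.mul_assoc] at h1
  have key2 : ∀ {X : Gr Q} (x : Mor X M.toGr), r * M.δ * i * (r * M.δ * x) = 0 := by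
    intro X x
    rw [Matrix.mul_assoc (r * M.δ), ← Matrix.mul_assoc i, key, Matrix.mul_assoc r,
      ← Matrix.mul_assoc M.δ, M.sq, Matrix.zero_mul, Matrix.mul_zero]
  let A : Obj Q :=
    { toGr := G
      δ := r * M.δ * i
      hom := (hi.mul (M.hom.mul hr)).of_eq (by norm_num)
      sq := key2 i }
  have e0 : (simple v).δ = 0 := rfl
  have hu : Closed (simple v) A 1 (r * M.δ * j) := by
    refine ⟨(hj.mul (M.hom.mul hr)).of_eq (by norm_num), ?_⟩
    rw [Dd, e0, Matrix.mul_zero, smul_zero, sub_zero]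
    exact key2 j
  refine ⟨A, rfl, _, hu, he_ext_of_data hu (A := A) (i := i) (r := r) (q := q) (j := j)
    (Closed.of_comm0 hi ?_) hq hj hr hri hqj hqi hrj hs ?_⟩
  · change M.δ * i = i * (r * M.δ * i)
    rw [← Matrix.mul_assoc, key]
  · rw [Dd, e0, Matrix.mul_zero, smul_zero, sub_zero]
    change M.δ * j = i * (r * M.δ * j)
    rw [← Matrix.mul_assoc, key]

theorem quot_cnt (F : Gr Q) (i₀ : F.ι) (w : Q.V) (k : ℤ) :
    cnt (subGr F (fun i => i ≠ i₀)) w k + (if F.vtx i₀ = w ∧ F.deg i₀ = k then 1 else 0) =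
      cnt F w k := by
  have h1 : cnt (subGr F (fun i => i ≠ i₀)) w k =
      ∑ i : {i // i ≠ i₀}, if F.vtx i.1 = w ∧ F.deg i.1 = k then 1 else 0 :=
    Finset.card_filter _ _
  have h2 : cnt F w k = ∑ i, if F.vtx i = w ∧ F.deg i = k then 1 else 0 := Finset.card_filter _ _
  rw [h1, h2, Fintype.sum_eq_add_sum_subtype_ne _ i₀, add_comm]

theorem quot_ok_sc {v w : Q.V} {k l : ℤ} {r : ℝ} (h : r ≠ 0 → w = v ∧ l = k) :
    Ok v k w l 0 (Z.sc r : Z Q) :=
  ⟨fun h0 => ⟨(h h0).1, by rw [(h h0).2, add_zero]⟩, fun _ h0 => absurd rfl h0,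
    fun h0 => absurd rfl h0⟩

/-- Let `0 ≠ φ ∈ TopSp M v 0`, `φ i₀ = 1`.  Conjugate `δ` by the scalar matrix
`P = 1 + (row i₀ : φ - e_{i₀})` (inverse `1 - (row i₀ : φ - e_{i₀})`): the row `i₀` of `P δ P⁻¹`
vanishes, so the indices `i ≠ i₀` span a sub-object (`tri_sub`) with quotient `S_v`. -/
theorem exists_quot_simple {M : Obj Q} (hM : IsMod M) {v : Q.V} (h : topd M v 0 ≠ 0) :
    ∃ M₁ : Obj Q, IsMod M₁ ∧ Tri M₁ M (simple v) ∧
      ∀ w, hd M₁ w 0 + (if w = v then 1 else 0) = hd M w 0 := by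
  obtain ⟨ψ, hψ, hψ0⟩ := (Submodule.ne_bot_iff _).1 (fun e : TopSp M v 0 = ⊥ => h (by
    rw [topd, e, finrank_bot]))
  obtain ⟨i₀, hi₀⟩ := Function.ne_iff.1 hψ0
  have hφ := (TopSp M v 0).smul_mem (ψ i₀)⁻¹ hψ
  have h1 : ((ψ i₀)⁻¹ • ψ) i₀ = 1 := inv_mul_cancel₀ hi₀
  generalize (ψ i₀)⁻¹ • ψ = φ at hφ h1
  have hC : ∀ i, φ i ≠ 0 → M.vtx i = v := fun i hi => by
    by_contra hc
    exact hi (hφ.1 i fun h' => hc h'.1)
  have hK : ∀ a, φ ᵥ* m1 M.δ a = 0 := fun a => (Submodule.mem_iInf _).1 hφ.2 a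
  have hv : M.vtx i₀ = v := hC i₀ (by rw [h1]; exact one_ne_zero)
  let G : Gr Q := subGr M.toGr (fun i => i ≠ i₀)
  let i : Matrix M.ι {i // i ≠ i₀} (Z Q) := Matrix.of fun k a =>
    Z.sc ((if k = a.1 then 1 else 0) - if k = i₀ then φ a.1 else 0)
  let r : Matrix {i // i ≠ i₀} M.ι (Z Q) := Matrix.of fun a k => Z.sc (if k = a.1 then 1 else 0)
  let q : Matrix Unit M.ι (Z Q) := Matrix.of fun _ k => Z.sc (φ k)
  let j : Matrix M.ι Unit (Z Q) := Matrix.of fun k _ => Z.sc (if k = i₀ then 1 else 0)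
  have hri : r * i = 1 := by
    refine Matrix.ext fun a b => ?_
    rw [Matrix.mul_apply, Finset.sum_eq_single a.1 (fun k _ hk => by simp [r, hk]) (by simp)]
    have := a.2
    by_cases hab : a = b
    · subst hab
      simp [r, i, this]
    · have h' : a.1 ≠ b.1 := fun e => hab (Subtype.ext e)
      simp [r, i, this, h', Matrix.one_apply_ne hab]
  have hqj : q * j = 1 := by
    refine Matrix.ext fun a b => ?_
    rw [Matrix.mul_apply, Finset.sum_eq_single i₀ (fun k _ hk => by simp [j, hk]) (by simp)]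
    simp [q, j, h1]
  have hqi : q * i = 0 := by
    refine Matrix.ext fun a b => ?_
    rw [Matrix.mul_apply]
    refine Z.ext ?_ (funext fun c => ?_) ?_
    · simp [q, i, mul_sub, Finset.sum_sub_distrib, h1]
    · simp [q, i]
    · simp [q, i]
  have hrj : r * j = 0 := by
    refine Matrix.ext fun a b => ?_
    rw [Matrix.mul_apply, Finset.sum_eq_single i₀ (fun k _ hk => by simp [j, hk]) (by simp)]
    simp [r, a.2.symm]
  have hs : i * r + j * q = 1 := by
    refine Matrix.ext fun k l => ?_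
    have e1 : (j * q) k l = j k () * q () l := by rw [Matrix.mul_apply, Fintype.sum_unique]
    rw [Matrix.add_apply, e1, Matrix.mul_apply]
    by_cases hl : l = i₀
    · rw [Finset.sum_eq_zero fun a _ => by simp [r, hl, a.2.symm]]
      subst hl
      by_cases hk : k = l <;> simp [j, q, h1, hk, Matrix.one_apply]
    · rw [Finset.sum_eq_single (⟨l, hl⟩ : {i // i ≠ i₀})
        (fun a _ ha => by
          have : l ≠ a.1 := fun e => ha (Subtype.ext e.symm)
          simp [r, this]) (by simp)]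
      refine Z.ext ?_ (funext fun c => ?_) ?_
      · by_cases hk : k = l <;> by_cases hk' : k = i₀ <;> simp [i, r, j, q, hk, hk', Matrix.one_apply, hl]
        all_goals simp_all
      · by_cases hk : k = l <;> simp [i, r, j, q, hk, Matrix.one_apply]
      · by_cases hk : k = l <;> simp [i, r, j, q, hk, Matrix.one_apply]
  have hqd : q * M.δ = 0 := by
    refine Matrix.ext fun a l => ?_
    rw [Matrix.mul_apply]
    refine Z.ext ?_ (funext fun c => ?_) ?_
    · simp [q, hM.minimal _ l]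
    · have := congrFun (hK c) l
      simpa [q, Matrix.vecMul, dotProduct, m1] using this
    · simp [q, hM.c2_eq_zero _ l]
  have hi : IsHom G M.toGr 0 i := fun k a => by
    refine quot_ok_sc fun h0 => ⟨?_, (hM k).trans (hM a.1).symm⟩
    change M.vtx k = M.vtx a.1
    by_cases hk : k = a.1
    · rw [hk]
    · by_cases hk' : k = i₀
      · rw [hk', hv, hC a.1 fun h' => h0 (by simp [hk, h'])]
      · exact absurd (by simp [hk, hk']) h0
  have hr : IsHom M.toGr G 0 r := fun a k => by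
    refine quot_ok_sc fun h0 => ⟨?_, (hM a.1).trans (hM k).symm⟩
    change M.vtx a.1 = M.vtx k
    by_cases hk : k = a.1
    · rw [hk]
    · exact absurd (by simp [hk]) h0
  have hj : IsHom (simple v).toGr M.toGr 0 j := fun k a => by
    refine quot_ok_sc fun h0 => ⟨?_, hM k⟩
    change M.vtx k = v
    by_cases hk : k = i₀
    · rw [hk, hv]
    · exact absurd (by simp [hk]) h0
  obtain ⟨M₁, e, ht⟩ := quot_data (M := M) (G := G) (v := v) i r q j hi hr
    (fun a k => quot_ok_sc fun h0 => ⟨(hC k h0).symm, (hM k).symm⟩) hj hri hqj hqi hrj hs hqd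
  have hM₁ : IsMod M₁ := by
    have : ∀ i : M₁.toGr.ι, M₁.toGr.deg i = 0 := by
      rw [e]
      exact fun i => hM i.1
    exact this
  refine ⟨M₁, hM₁, ht, fun w => ?_⟩
  rw [hM₁.minimal.hd_eq_cnt, hM.minimal.hd_eq_cnt, e, ← quot_cnt M.toGr i₀ w 0]
  exact congrArg _
    (if_congr ⟨fun h' => ⟨hv.trans h'.symm, hM i₀⟩, fun h' => h'.1.symm.trans hv⟩ rfl rfl)

/-- the Cartan form is positive definite on vectors supported on `P` (in the form that is used) -/
def PosDefOn (P : Q.V → Prop) : Prop :=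
  ∀ n : Q.V → ℕ, (∃ v, P v ∧ n v ≠ 0) → (∀ a, P (Q.src a) → ¬ P (Q.tgt a) → n (Q.tgt a) = 0) →
    ∃ v, P v ∧ ∑ a ∈ Finset.univ.filter (fun a => Q.src a = v), n (Q.tgt a) < 2 * n v

/-- Induction on `∑ v, hd M v 0`.  `PosDefOn` and `two_hd_le` give `v` with `socd ≠ 0` (done) or
`topd ≠ 0`.  In the second case take `M₁` from `exists_quot_simple`.  If `hd M₁` is non-zero somewhere
on `P`, a socle vertex `w` of `M₁` is one of `M` (`socd_eq_zero_iff`, `Tri.homZero_left`,
`homZero_simple`).  Otherwise `nb M v 0 = 0` (no loops) and `socd_eq_hd` applies. -/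
theorem exists_soc_mod {P : Q.V → Prop} (hP : PosDefOn P) {M : Obj Q} (hM : IsMod M)
    (hb : ∀ a, P (Q.src a) → ¬ P (Q.tgt a) → hd M (Q.tgt a) 0 = 0) (hne : ∃ v, P v ∧ hd M v 0 ≠ 0) :
    ∃ v, P v ∧ socd M v 0 ≠ 0 := by
  generalize hn : ∑ v, hd M v 0 = n
  induction n using Nat.strong_induction_on generalizing M with
  | _ n ih =>
  obtain ⟨v, hv, hlt⟩ := hP (fun v => hd M v 0) hne hb
  change nb M v 0 < 2 * hd M v 0 at hlt
  have h2 := two_hd_le hM.minimal v 0
  by_cases hs : socd M v 0 = 0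
  swap
  · exact ⟨v, hv, hs⟩
  obtain ⟨M₁, hM₁, ht, hc⟩ := exists_quot_simple hM (v := v) (by omega)
  by_cases hne₁ : ∃ w, P w ∧ hd M₁ w 0 ≠ 0
  · have hlt' : ∑ w, hd M₁ w 0 < n := by
      rw [← hn]
      refine Finset.sum_lt_sum (fun w _ => by have := hc w; omega) ⟨v, Finset.mem_univ v, ?_⟩
      have := hc v
      rw [if_pos rfl] at this
      omega
    obtain ⟨w, hw, hsw⟩ := ih _ hlt' hM₁
      (fun a h1 h2 => by have := hc (Q.tgt a); have := hb a h1 h2; omega) hne₁ rfl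
    refine ⟨w, hw, fun h0 => hsw ((socd_eq_zero_iff hM₁).2 ?_)⟩
    exact ht.homZero_left (homZero_simple (by omega) (by omega) (by omega))
      ((socd_eq_zero_iff hM).1 h0)
  · have h0 : nb M v 0 = 0 := nb_eq_zero_iff.2 fun a ha => by
      by_cases hp : P (Q.tgt a)
      · have h3 := hc (Q.tgt a)
        rw [if_neg (fun e => Q.loopless a (ha.trans e.symm))] at h3
        have h4 : hd M₁ (Q.tgt a) 0 = 0 := by
          by_contra h5
          exact hne₁ ⟨_, hp, h5⟩
        omega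
      · exact hb a (ha ▸ hv) hp
    have := socd_eq_hd hM.minimal h0
    omega

end Crest.Agent.R175
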