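import Crest.Agent.R175.Tri

/-!
# R175: long exact sequences (in the weak forms that are needed) and filtered objects.
-/

set_option autoImplicit false

namespace Crest.Agent.R175

open Matrix

variable {Q : Qv} {A B C X F G : Obj Q} {p : ℤ}

/-- the four block maps of an extension -/
theorem t2_data {u : Mor C.toGr A.toGr} (hu : Closed C A 1 u) :
    ∃ (i : Mor A.toGr (ext A C u hu).toGr) (q : Mor (ext A C u hu).toGr C.toGr)
      (j : Mor C.toGr (ext A C u hu).toGr) (r : Mor (ext A C u hu).toGr A.toGr),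
      Closed A (ext A C u hu) 0 i ∧ Closed (ext A C u hu) C 0 q ∧ IsHom C.toGr (ext A C u hu).toGr 0 j ∧
        IsHom (ext A C u hu).toGr A.toGr 0 r ∧ r * i = 1 ∧ q * j = 1 ∧ i * r + j * q = 1 := by
  refine ⟨extIn A C, extPr A C, (fromRows 0 1 : Matrix (A.ι ⊕ C.ι) C.ι (Z Q)),
    (fromCols 1 0 : Matrix A.ι (A.ι ⊕ C.ι) (Z Q)), closed_extIn hu, closed_extPr hu, ?_, ?_, ?_, ?_, ?_⟩
  · rintro (a | c) i
    · exact Ok.zero _ _ _ _ _
    · exact IsHom.one c i
  · rintro j (a | c)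
    · exact IsHom.one j a
    · exact Ok.zero _ _ _ _ _
  · change (fromCols 1 0 : Matrix A.ι (A.ι ⊕ C.ι) (Z Q)) * (fromRows 1 0 : Matrix (A.ι ⊕ C.ι) A.ι (Z Q)) = 1
    simp [fromCols_mul_fromRows]
  · change (fromCols 0 1 : Matrix C.ι (A.ι ⊕ C.ι) (Z Q)) * (fromRows 0 1 : Matrix (A.ι ⊕ C.ι) C.ι (Z Q)) = 1
    simp [fromCols_mul_fromRows]
  · change (fromRows 1 0 : Matrix (A.ι ⊕ C.ι) A.ι (Z Q)) * (fromCols 1 0 : Matrix A.ι (A.ι ⊕ C.ι) (Z Q)) +
      (fromRows 0 1 : Matrix (A.ι ⊕ C.ι) C.ι (Z Q)) * (fromCols 0 1 : Matrix C.ι (A.ι ⊕ C.ι) (Z Q)) =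
        (1 : Matrix (A.ι ⊕ C.ι) (A.ι ⊕ C.ι) (Z Q))
    rw [fromRows_mul_fromCols, fromRows_mul_fromCols, fromBlocks_add]
    simp

theorem t2_lin {V1 V2 V3 : Type} [AddCommGroup V1] [Module ℝ V1] [FiniteDimensional ℝ V1]
    [AddCommGroup V2] [Module ℝ V2] [FiniteDimensional ℝ V2] [AddCommGroup V3] [Module ℝ V3]
    [FiniteDimensional ℝ V3] {Z1 B1 : Submodule ℝ V1} {Z2 B2 : Submodule ℝ V2} {Z3 B3 : Submodule ℝ V3}
    (h1 : B1 ≤ Z1) (h3 : B3 ≤ Z3) (i : V1 →ₗ[ℝ] V2) (q : V2 →ₗ[ℝ] V3) (hi : Function.Injective i)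
    (hiB : ∀ u ∈ B1, i u ∈ B2) (hqZ : ∀ u ∈ Z2, q u ∈ Z3)
    (hex : ∀ z ∈ Z2, q z ∈ B3 → ∃ a ∈ Z1, z - i a ∈ B2) :
    Module.finrank ℝ Z2 - Module.finrank ℝ B2 ≤
      (Module.finrank ℝ Z1 - Module.finrank ℝ B1) + (Module.finrank ℝ Z3 - Module.finrank ℝ B3) := by
  have a1 := (finrank_sub_le (Z := Z2) (B := Z2 ⊓ B3.comap q) inf_le_left h3 q hqZ (fun u hu => hu.2)
    fun u hu hu' => ⟨hu, hu'⟩).1
  have a2 : Z2 ⊓ B3.comap q ≤ Z1.map i ⊔ B2 := fun z hz => by
    obtain ⟨a, ha, hb⟩ := hex z hz.1 hz.2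
    exact Submodule.mem_sup.2 ⟨i a, Submodule.mem_map_of_mem ha, _, hb, add_sub_cancel _ _⟩
  have a3 : B1.map i ≤ Z1.map i ⊓ B2 := le_inf (Submodule.map_mono h1) (Submodule.map_le_iff_le_comap.2 hiB)
  have a4 := Submodule.finrank_sup_add_finrank_inf_eq (Z1.map i) B2
  have a5 := (Submodule.equivMapOfInjective i hi Z1).finrank_eq
  have a6 := (Submodule.equivMapOfInjective i hi B1).finrank_eq
  have a7 := Submodule.finrank_mono a2
  have a8 := Submodule.finrank_mono a3
  have a9 := Submodule.finrank_mono h1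
  omega

theorem t2_mulVec {α β γ : Type} [Fintype β] [Fintype γ] (g : Matrix α β (Z Q)) (f : Matrix β γ (Z Q))
    (x : γ → ℝ) : (m0 g).mulVec ((m0 f).mulVec x) = (m0 (g * f)).mulVec x := by
  rw [Matrix.mulVec_mulVec, m0_mul]

theorem t2_D_left {Y W : Obj Q} {f : Mor X.toGr Y.toGr} {g : Mor Y.toGr W.toGr} (hg : Closed Y W 0 g) :
    Dd X W p (g * f) = g * Dd X Y p f := by
  have := Dd_mul (p := p) (q := 0) (f := f) (g := g)
  rwa [add_zero, hg.cl, Matrix.zero_mul, zero_add, sg_zero, one_smul] at this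

theorem t2_D_right {Y W : Obj Q} {f : Mor X.toGr Y.toGr} {g : Mor Y.toGr W.toGr} (hf : Closed X Y 0 f) :
    Dd X W p (g * f) = Dd Y W p g * f := by
  have := Dd_mul (p := 0) (q := p) (f := f) (g := g)
  rwa [zero_add, hf.cl, Matrix.mul_zero, smul_zero, add_zero] at this

/-- For `B = ext A C u`: the map `Zc B → Zc C / Bc C` has kernel `extIn (Zc A) + Bc B`. -/
theorem Tri.hd_mid (h : Tri A B C) (v : Q.V) (k : ℤ) : hd B v k ≤ hd A v k + hd C v k := by
  obtain ⟨u, hu, hB⟩ := h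
  rw [hB.hd_eq]
  obtain ⟨i, q, j, r, hi, hq, hj, hr, hri, hqj, hs⟩ := t2_data hu
  have hinj : ∀ x, (m0 r).mulVec ((m0 i).mulVec x) = x := fun x => by
    rw [t2_mulVec, hri, m0_one, Matrix.one_mulVec]
  refine t2_lin (Bc_le_Zc A v k) (Bc_le_Zc C v k) (m0 i).mulVecLin (m0 q).mulVecLin
    (Function.LeftInverse.injective hinj) (fun x hx => by simpa using hi.mapsB hx)
    (fun x hx => by simpa using hq.mapsZ hx) ?_
  rintro z hz ⟨t, ht, htz⟩
  have hb : (m0 (ext A C u hu).δ).mulVec ((m0 j).mulVec t) ∈ Bc (ext A C u hu) v k :=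
    ⟨_, by simpa using hj.mapsC ht, rfl⟩
  have hz' := Submodule.sub_mem _ hz (Bc_le_Zc _ v k hb)
  have htz' : (m0 C.δ).mulVec t = (m0 q).mulVec z := htz
  have h1 : (m0 q).mulVec (z - (m0 (ext A C u hu).δ).mulVec ((m0 j).mulVec t)) = 0 := by
    rw [Matrix.mulVec_sub, t2_mulVec q, ← hq.comm0, t2_mulVec, Matrix.mul_assoc, hqj, Matrix.mul_one, htz',
      sub_self]
  generalize (m0 (ext A C u hu).δ).mulVec ((m0 j).mulVec t) = b at hb hz' h1
  have h2 : (m0 i).mulVec ((m0 r).mulVec (z - b)) = z - b := by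
    have := congrArg (fun M => (m0 M).mulVec (z - b)) hs
    simp only [m0_add, m0_one, Matrix.add_mulVec, Matrix.one_mulVec, ← t2_mulVec, h1, Matrix.mulVec_zero,
      add_zero] at this
    exact this
  refine ⟨(m0 r).mulVec (z - b), ⟨by simpa using hr.mapsC hz'.1, ?_⟩, ?_⟩
  · have h3 : (m0 (ext A C u hu).δ).mulVec (z - b) = 0 := hz'.2
    change (m0 A.δ).mulVec _ = 0
    rw [← hinj ((m0 A.δ).mulVec _), t2_mulVec i, ← hi.comm0, ← t2_mulVec, h2, h3, Matrix.mulVec_zero]
  · rw [Matrix.mulVecLin_apply, h2, sub_sub_cancel]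
    exact hb

theorem Tri.hd_left (h : Tri A B C) (v : Q.V) (k : ℤ) : hd A v k ≤ hd C v (k - 1) + hd B v k := by
  have := h.rot.hd_mid v k
  rwa [hd_shift, ← sub_eq_add_neg] at this

theorem Tri.hd_right (h : Tri A B C) (v : Q.V) (k : ℤ) : hd C v k ≤ hd B v k + hd A v (k + 1) := by
  have := h.rot'.hd_mid v k
  rwa [hd_shift] at this

/-- `f = (a, c) : X → ext A C u` closed: `c = D t`; subtract `D (0, t)`; what is left is a closed map
to `A`. -/
theorem Tri.homZero_mid (h : Tri A B C) (hA : HomZero p X A) (hC : HomZero p X C) :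
    HomZero p X B := by
  obtain ⟨u, hu, hB⟩ := h
  refine HomZero.of_HE ?_ (HE.refl X) hB.symm
  obtain ⟨i, q, j, r, hi, hq, hj, hr, hri, hqj, hs⟩ := t2_data hu
  intro f hf
  obtain ⟨t, ht, hft⟩ := hC _ ((hf.mul hq).of_eq (add_zero p))
  have he : Exact X _ p (Dd X _ (p - 1) (j * t)) := ⟨_, (ht.mul hj).of_eq (add_zero _), rfl⟩
  have hf' := hf.sub he.closed
  have h1 : q * (f - Dd X _ (p - 1) (j * t)) = 0 := by
    rw [Matrix.mul_sub, ← t2_D_left hq, ← Matrix.mul_assoc, hqj, Matrix.one_mul, hft, sub_self]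
  generalize Dd X _ (p - 1) (j * t) = b at he hf' h1
  have h2 : i * (r * (f - b)) = f - b := by
    have := congrArg (· * (f - b)) hs
    simpa only [Matrix.add_mul, Matrix.mul_assoc, h1, Matrix.mul_zero, add_zero, Matrix.one_mul] using this
  have h3 : Closed X A p (r * (f - b)) := by
    refine ⟨(hf'.hom.mul hr).of_eq (add_zero p), ?_⟩
    rw [← Matrix.one_mul (Dd X A p _), ← hri, Matrix.mul_assoc, ← t2_D_left hi, h2, hf'.cl, Matrix.mul_zero]
  have h4 := ((hA _ h3).closed_mul hi).of_eq (add_zero p)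
  rw [h2] at h4
  simpa using h4.add he

theorem Tri.homZero_left (h : Tri A B C) (hC : HomZero (p - 1) X C) (hB : HomZero p X B) :
    HomZero p X A := by
  exact h.rot.homZero_mid ((homZero_shift_right (-1)).2 (by rwa [← sub_eq_add_neg])) hB

theorem Tri.homZero_right (h : Tri A B C) (hB : HomZero p X B) (hA : HomZero (p + 1) X A) :
    HomZero p X C := by
  exact h.rot'.homZero_mid hB ((homZero_shift_right 1).2 hA)

theorem Tri.homZero_mid' (h : Tri A B C) (hA : HomZero p A X) (hC : HomZero p C X) :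
    HomZero p B X := by
  obtain ⟨u, hu, hB⟩ := h
  refine HomZero.of_HE ?_ hB.symm (HE.refl X)
  obtain ⟨i, q, j, r, hi, hq, hj, hr, hri, hqj, hs⟩ := t2_data hu
  intro f hf
  obtain ⟨t, ht, hft⟩ := hA _ ((hi.mul hf).of_eq (zero_add p))
  have he : Exact _ X p (Dd _ X (p - 1) (t * r)) := ⟨_, (hr.mul ht).of_eq (zero_add _), rfl⟩
  have hf' := hf.sub he.closed
  have h1 : (f - Dd _ X (p - 1) (t * r)) * i = 0 := by
    rw [Matrix.sub_mul, ← t2_D_right hi, Matrix.mul_assoc, hri, Matrix.mul_one, hft, sub_self]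
  generalize Dd _ X (p - 1) (t * r) = b at he hf' h1
  have h2 : (f - b) * j * q = f - b := by
    have := congrArg ((f - b) * ·) hs
    simpa only [Matrix.mul_add, ← Matrix.mul_assoc, h1, Matrix.zero_mul, zero_add, Matrix.mul_one] using this
  have h3 : Closed C X p ((f - b) * j) := by
    refine ⟨(hj.mul hf'.hom).of_eq (zero_add p), ?_⟩
    rw [← Matrix.mul_one (Dd C X p _), ← hqj, ← Matrix.mul_assoc, ← t2_D_right hq, h2, hf'.cl, Matrix.zero_mul]
  have h4 := (Exact.mul_closed hq (hC _ h3)).of_eq (zero_add p)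
  rw [h2] at h4
  simpa using h4.add he

theorem Filt.of_HE {P : Q.V → Prop} (h : Filt P F) (h' : HE F G) : Filt P G := by
  cases h with
  | ofContr h => exact .ofContr (h.of_HE h')
  | ofSimple v hv h => exact .ofSimple v hv (h'.symm.trans h)
  | ofTri hA hC h => exact .ofTri hA hC (h.congr (HE.refl _) h' (HE.refl _))

theorem Filt.mono {P P' : Q.V → Prop} (h : Filt P F) (hP : ∀ v, P v → P' v) : Filt P' F := by
  induction h with
  | ofContr h => exact .ofContr h
  | ofSimple v hv h => exact .ofSimple v (hP v hv) h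
  | ofTri _ _ h ihA ihC => exact .ofTri ihA ihC h

theorem Filt.hd_eq_zero {P : Q.V → Prop} (h : Filt P F) {v : Q.V} {k : ℤ} (hv : k ≠ 0 ∨ ¬ P v) :
    hd F v k = 0 := by
  induction h with
  | ofContr h => exact h.hd_eq_zero v k
  | ofSimple w hw h =>
    rw [h.hd_eq, hd_simple, if_neg]
    rintro ⟨rfl, rfl⟩
    exact hv.elim (fun h => h rfl) fun h => h hw
  | ofTri _ _ h ihA ihC =>
    have := h.hd_mid v k
    omega

theorem Filt.homZero_left {P : Q.V → Prop} (h : Filt P F)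
    (hG : ∀ v, P v → HomZero p (simple v) G) : HomZero p F G := by
  induction h with
  | ofContr h => exact h.homZero_left
  | ofSimple w hw h => exact (hG w hw).of_HE h.symm (HE.refl _)
  | ofTri _ _ h ihA ihC => exact h.homZero_mid' ihA ihC

theorem Filt.homZero_right {P : Q.V → Prop} (h : Filt P F)
    (hG : ∀ v, P v → HomZero p G (simple v)) : HomZero p G F := by
  induction h with
  | ofContr h => exact h.homZero_right
  | ofSimple w hw h => exact (hG w hw).of_HE (HE.refl _) h.symm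
  | ofTri _ _ h ihA ihC => exact h.homZero_mid ihA ihC

theorem Filt.map {P P' : Q.V → Prop} (h : Filt P F) (Φ : DGFun Q)
    (hΦ : ∀ v, P v → Filt P' (Φ.obj (simple v))) : Filt P' (Φ.obj F) := by
  induction h with
  | ofContr h => exact .ofContr (Φ.map_contr h)
  | ofSimple w hw h => exact (hΦ w hw).of_HE (Φ.map_he h).symm
  | ofTri _ _ h ihA ihC => exact .ofTri ihA ihC (Φ.map_tri h)

theorem t2_split (F : Obj Q) (P : F.ι → Prop) [DecidablePred P] (j i : F.ι) :
    ∑ k : {k // P k}, F.δ j k * F.δ k i + ∑ k : {k // ¬ P k}, F.δ j k * F.δ k i = 0 := by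
  rw [Fintype.sum_subtype_add_sum_subtype P fun k => F.δ j k * F.δ k i, ← Matrix.mul_apply, F.sq,
    Matrix.zero_apply]

theorem subM_sq_sub (F : Obj Q) (P : F.ι → Prop) [DecidablePred P]
    (h : ∀ j i, P i → ¬ P j → F.δ j i = 0) : subM F P * subM F P = 0 := by
  refine Matrix.ext fun j i => ?_
  have := t2_split F P j i
  rwa [Finset.sum_eq_zero (s := (Finset.univ : Finset {k // ¬ P k})) fun k _ => by
    rw [h k i i.2 k.2, mul_zero], add_zero] at this

theorem subM_sq_quot (F : Obj Q) (P : F.ι → Prop) [DecidablePred P]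
    (h : ∀ j i, P i → ¬ P j → F.δ j i = 0) :
    subM F (fun i => ¬ P i) * subM F (fun i => ¬ P i) = 0 := by
  refine Matrix.ext fun j i => ?_
  have := t2_split F P j i
  rwa [Finset.sum_eq_zero (s := (Finset.univ : Finset {k // P k})) fun k _ => by
    rw [h j k k.2 j.2, zero_mul], zero_add] at this

/-- Splitting along a set of indices that spans a sub-object (reindex with `Equiv.sumCompl`, use
`HE.of_equiv`). -/
theorem tri_sub (F : Obj Q) (P : F.ι → Prop) [DecidablePred P]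
    (h : ∀ j i, P i → ¬ P j → F.δ j i = 0) :
    Tri (subObj F P (subM_sq_sub F P h)) F (subObj F (fun i => ¬ P i) (subM_sq_quot F P h)) := by
  have hu : Closed (subObj F (fun i => ¬ P i) (subM_sq_quot F P h)) (subObj F P (subM_sq_sub F P h)) 1
      (F.δ.submatrix Subtype.val Subtype.val) := by
    refine ⟨fun j i => F.hom j.1 i.1, ?_⟩
    rw [Dd, sg_one, neg_smul, one_smul, sub_neg_eq_add]
    exact Matrix.ext fun j i => t2_split F P j.1 i.1
  refine ⟨_, hu, (HE.of_equiv (F := ext _ _ _ hu) (Equiv.sumCompl P) ?_ ?_ ?_).symm⟩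
  · rintro (i | i) <;> rfl
  · rintro (i | i) <;> rfl
  · rintro (j | j) (i | i)
    · rfl
    · rfl
    · exact h j.1 i.1 i.2 j.2
    · rfl

/-- semisimple modules: induction on the number of indices with `tri_sub` -/
theorem filt_of_delta_zero {P : Q.V → Prop} (hF : IsMod F) (h0 : F.δ = 0) (hP : ∀ i, P (F.vtx i)) :
    Filt P F := by
  induction hn : Fintype.card F.ι using Nat.strong_induction_on generalizing F with
  | _ n ih =>
    rcases isEmpty_or_nonempty F.ι with he | ⟨⟨i0⟩⟩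
    · exact .ofContr (contr_of_isEmpty he)
    · have h : ∀ j i, i = i0 → ¬ j = i0 → F.δ j i = 0 := fun j i _ _ => by rw [h0, Matrix.zero_apply]
      refine (fun a c => Filt.ofTri a c (tri_sub F (fun i => i = i0) h)) (.ofSimple (F.vtx i0) (hP i0) ?_)
        (ih _ ?_ (fun i => hF i.1) ?_ (fun i => hP i.1) rfl)
      · refine HE.of_equiv (Equiv.ofUnique {i // i = i0} Unit) (fun i => congrArg F.vtx i.2.symm)
          (fun i => (hF i.1).symm) fun j i => ?_
        exact (congrFun (congrFun h0 j.1) i.1).symm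
      · exact hn ▸ Fintype.card_subtype_lt (x := i0) (not_not.2 rfl)
      · exact Matrix.ext fun j i => congrFun (congrFun h0 j.1) i.1

/-- modules with two layers -/
theorem filt_of_twoLayer {P : Q.V → Prop} (U : Q.V → Prop) (hF : IsMod F)
    (h : ∀ j i, F.δ j i ≠ 0 → U (F.vtx j) ∧ ¬ U (F.vtx i)) (hP : ∀ i, P (F.vtx i)) :
    Filt P F := by
  classical
  have h' : ∀ j i, U (F.vtx i) → ¬ U (F.vtx j) → F.δ j i = 0 := fun j i hi _ =>
    by_contra fun hc => (h j i hc).2 hi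
  refine (fun a c => Filt.ofTri a c (tri_sub F (fun i => U (F.vtx i)) h'))
    (filt_of_delta_zero (fun i => hF i.1) ?_ fun i => hP i.1)
    (filt_of_delta_zero (fun i => hF i.1) ?_ fun i => hP i.1)
  · exact Matrix.ext fun j i => by_contra fun hc => (h j.1 i.1 hc).2 i.2
  · exact Matrix.ext fun j i => by_contra fun hc => j.2 (h j.1 i.1 hc).1

end Crest.Agent.R175
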