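import Crest.Agent.R175.MM
import Crest.Agent.R175.Tri2

/-!
# R175: socle, top and `Hom (S_v, F)`.
A homogeneous `φ : S_v → F` of degree `k` is a column whose entry `i` has `c0 ≠ 0` only for
`(vtx i, deg i) = (v, k)`, `c1 a ≠ 0` only for `src a = v`, `(tgt a, k - 1)`, `c2 ≠ 0` only for
`(v, k - 2)`.
-/

set_option autoImplicit false

namespace Crest.Agent.R175

open Matrix

variable {Q : Qv} {F : Obj Q} {v : Q.V} {k : ℤ}

theorem rl_m1 {a : Q.A} {j i : F.ι} (h : m1 F.δ a j i ≠ 0) :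
    Q.src a = F.vtx i ∧ Q.tgt a = F.vtx j ∧ F.deg j = F.deg i := by
  obtain ⟨h1, h2, h3⟩ := (F.hom j i).2.1 a h
  exact ⟨h1, h2, by omega⟩

theorem rl_Cc {u : F.ι → ℝ} (hu : u ∈ Cc F.toGr v k) {i : F.ι} (h : u i ≠ 0) :
    F.vtx i = v ∧ F.deg i = k := by
  by_contra hc
  exact h (hu i hc)

theorem rl_mem_soc {u : F.ι → ℝ} :
    u ∈ SocSp F v k ↔ u ∈ Cc F.toGr v k ∧ ∀ a, (m1 F.δ a).mulVec u = 0 :=
  and_congr_right fun _ => Submodule.mem_iInf _

theorem rl_mem_top {u : F.ι → ℝ} :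
    u ∈ TopSp F v k ↔ u ∈ Cc F.toGr v k ∧ ∀ a, vecMul u (m1 F.δ a) = 0 :=
  and_congr_right fun _ => Submodule.mem_iInf _

/-- the index set of the neighbours -/
abbrev RlJ (F : Obj Q) (v : Q.V) (k : ℤ) : Type :=
  {p : Q.A × F.ι // Q.src p.1 = v ∧ F.vtx p.2 = Q.tgt p.1 ∧ F.deg p.2 = k}

theorem rl_card (hF : Minimal F) : Fintype.card (RlJ F v k) = nb F v k := by
  rw [Fintype.card_subtype, Finset.card_filter, Fintype.sum_prod_type, nb, Finset.sum_filter]
  refine Finset.sum_congr rfl fun a _ => ?_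
  rw [hF.hd_eq_cnt, cnt, Finset.card_filter]
  by_cases h : Q.src a = v <;> simp only [h, true_and, false_and, if_true, if_false, Finset.sum_const_zero]

theorem rl_out {u : F.ι → ℝ} (hu : u ∈ Cc F.toGr v k)
    (h : ∀ p : RlJ F v k, (m1 F.δ p.1.1).mulVec u p.1.2 = 0) : u ∈ SocSp F v k := by
  refine rl_mem_soc.2 ⟨hu, fun a => funext fun j => ?_⟩
  by_contra hc
  obtain ⟨i, -, hi⟩ := Finset.exists_ne_zero_of_sum_ne_zero hc
  obtain ⟨h1, h2, h3⟩ := rl_m1 (left_ne_zero_of_mul hi)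
  obtain ⟨h4, h5⟩ := rl_Cc hu (right_ne_zero_of_mul hi)
  exact hc (h ⟨(a, j), h1.trans h4, h2.symm, h3.trans h5⟩)

theorem rl_in {u : F.ι → ℝ} (hu : u ∈ Cc F.toGr v k)
    (h : ∀ p : RlJ F v k, vecMul u (m1 F.δ (Q.bar p.1.1)) p.1.2 = 0) : u ∈ TopSp F v k := by
  refine rl_mem_top.2 ⟨hu, fun a => funext fun j => ?_⟩
  by_contra hc
  obtain ⟨i, -, hi⟩ := Finset.exists_ne_zero_of_sum_ne_zero hc
  obtain ⟨h1, h2, h3⟩ := rl_m1 (right_ne_zero_of_mul hi)
  obtain ⟨h4, h5⟩ := rl_Cc hu (left_ne_zero_of_mul hi)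
  have := h ⟨(Q.bar a, j), by rw [Q.src_bar, h2, h4], by rw [Qv.tgt_bar, h1], h3.symm.trans h5⟩
  rw [Q.bar_bar] at this
  exact hc this

theorem rl_empty (hF : Minimal F) (h : nb F v k = 0) : IsEmpty (RlJ F v k) :=
  Fintype.card_eq_zero_iff.1 ((rl_card hF).trans h)

/-- all outgoing arrows -/
def rlOut (F : Obj Q) (v : Q.V) (k : ℤ) : Matrix (RlJ F v k) F.ι ℝ := fun p i => m1 F.δ p.1.1 p.1.2 i
/-- all incoming arrows -/
def rlIn (F : Obj Q) (v : Q.V) (k : ℤ) : Matrix F.ι (RlJ F v k) ℝ :=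
  fun i p => m1 F.δ (Q.bar p.1.1) i p.1.2

theorem rl_rank {J : Type} [Fintype J] (hF : Minimal F) (A : Matrix J F.ι ℝ) (S : Submodule ℝ (F.ι → ℝ))
    (h : ∀ u ∈ Cc F.toGr v k, A.mulVec u = 0 → u ∈ S) : hd F v k ≤ A.rank + Module.finrank ℝ S := by
  rw [hF.hd_eq_cnt, ← finrank_Cc, ← coh_rank A.mulVecLin]
  exact add_le_add (Submodule.finrank_mono LinearMap.map_le_range)
    (Submodule.finrank_mono fun u hu => h u hu.1 hu.2)

theorem rl_rank_out (hF : Minimal F) : hd F v k ≤ (rlOut F v k).rank + socd F v k :=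
  rl_rank hF _ _ fun _ hu h => rl_out hu fun p => congrFun h p

theorem rl_rank_in (hF : Minimal F) : hd F v k ≤ (rlIn F v k).rank + topd F v k := by
  rw [← rank_transpose]
  refine rl_rank hF _ _ fun u hu h => rl_in hu fun p => ?_
  rw [mulVec_transpose] at h
  exact congrFun h p

theorem rl_in_out (hF : Minimal F) : rlIn F v k * rlOut F v k = 0 := by
  ext i i'
  have h0 : m0 F.δ = 0 := Matrix.ext hF
  have h := m2_mul F.δ F.δ
  rw [F.sq, h0, Matrix.zero_mul, Matrix.mul_zero, add_zero, zero_add] at h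
  have h1 : ∑ p : Q.A × F.ι, m1 F.δ (Q.bar p.1) i p.2 * m1 F.δ p.1 p.2 i' = 0 := by
    rw [Fintype.sum_prod_type]
    have := congrFun (congrFun h i) i'
    rw [Matrix.sum_apply] at this
    exact this.symm
  show ∑ p : RlJ F v k, m1 F.δ (Q.bar p.1.1) i p.1.2 * m1 F.δ p.1.1 p.1.2 i' = 0
  by_cases hi : F.vtx i = v ∧ F.deg i = k
  · rw [← Finset.sum_subtype (Finset.univ.filter fun p : Q.A × F.ι =>
        Q.src p.1 = v ∧ F.vtx p.2 = Q.tgt p.1 ∧ F.deg p.2 = k) (by simp)
        fun p : Q.A × F.ι => m1 F.δ (Q.bar p.1) i p.2 * m1 F.δ p.1 p.2 i',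
      Finset.sum_filter_of_ne, h1]
    intro p _ hp
    obtain ⟨h1, h2, h3⟩ := rl_m1 (left_ne_zero_of_mul hp)
    rw [Q.src_bar] at h1
    rw [Qv.tgt_bar] at h2
    exact ⟨h2.trans hi.1, h1.symm, h3.symm.trans hi.2⟩
  · refine Finset.sum_eq_zero fun p _ => ?_
    by_contra hp
    obtain ⟨-, h2, h3⟩ := rl_m1 (left_ne_zero_of_mul hp)
    rw [Qv.tgt_bar] at h2
    exact hi ⟨h2.symm.trans p.2.1, h3.trans p.2.2.2⟩

theorem topd_le_hd (hF : Minimal F) (v : Q.V) (k : ℤ) : topd F v k ≤ hd F v k := by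
  rw [hF.hd_eq_cnt, ← finrank_Cc]
  exact Submodule.finrank_mono inf_le_left

theorem socd_le_hd (hF : Minimal F) (v : Q.V) (k : ℤ) : socd F v k ≤ hd F v k := by
  rw [hF.hd_eq_cnt, ← finrank_Cc]
  exact Submodule.finrank_mono inf_le_left

theorem socd_eq_hd (hF : Minimal F) (h : nb F v k = 0) : socd F v k = hd F v k := by
  refine le_antisymm (socd_le_hd hF v k) ?_
  rw [hF.hd_eq_cnt, ← finrank_Cc]
  exact Submodule.finrank_mono fun u hu => rl_out hu (rl_empty hF h).elim

theorem topd_eq_hd (hF : Minimal F) (h : nb F v k = 0) : topd F v k = hd F v k := by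
  refine le_antisymm (topd_le_hd hF v k) ?_
  rw [hF.hd_eq_cnt, ← finrank_Cc]
  exact Submodule.finrank_mono fun u hu => rl_in hu (rl_empty hF h).elim

/-- `rank in ≤ nb` -/
theorem hd_le_nb_add_topd (hF : Minimal F) (v : Q.V) (k : ℤ) :
    hd F v k ≤ nb F v k + topd F v k := by
  have h1 := rl_rank_in (v := v) (k := k) hF
  have h2 := rank_le_card_width (rlIn F v k)
  rw [rl_card hF] at h2
  omega

/-- the complex `V → N → V` (`in ∘ out = 0` is the `c2` part of `δ * δ = 0`):
`rank out + rank in ≤ nb` -/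
theorem two_hd_le (hF : Minimal F) (v : Q.V) (k : ℤ) :
    2 * hd F v k ≤ nb F v k + topd F v k + socd F v k := by
  have h1 := rl_rank_in (v := v) (k := k) hF
  have h2 := rl_rank_out (v := v) (k := k) hF
  have h3 := rank_add_rank_le_card_of_mul_eq_zero (rl_in_out (v := v) (k := k) hF)
  rw [rl_card hF] at h3
  omega

/-- a socle vector in the lowest degree is a closed, non-exact map from `S_v` -/
theorem not_homZero_of_socd (hF : Minimal F) (hs : socd F v k ≠ 0) (h : hd F v (k - 1) = 0) :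
    ¬ HomZero k (simple v) F := by
  intro hz
  refine hs (Submodule.finrank_eq_zero.2 ((Submodule.eq_bot_iff _).2 fun u hu => ?_))
  obtain ⟨hu, hu'⟩ := rl_mem_soc.1 hu
  have h0 : m0 F.δ = 0 := Matrix.ext hF
  let φ : Matrix F.ι Unit (Z Q) := fun i _ => Z.sc (u i)
  have hφ : Closed (simple v) F k φ := by
    refine ⟨fun i _ => ⟨fun hi => ?_, fun a h => absurd rfl h, fun h => absurd rfl h⟩, ?_⟩
    · exact ⟨(rl_Cc hu hi).1, (rl_Cc hu hi).2.trans (zero_add k).symm⟩
    · have e : F.δ * φ - sg k • (φ * (0 : Matrix Unit Unit (Z Q))) = 0 := by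
        rw [Matrix.mul_zero, smul_zero, sub_zero]
        refine mat_ext ?_ (fun a => ?_) ?_
        · rw [m0_mul, h0, Matrix.zero_mul, m0_zero]
        · rw [m1_mul, h0, Matrix.zero_mul, zero_add]
          ext j _
          exact congrFun (hu' a) j
        · have e1 : ∀ a, m1 φ a = 0 := fun _ => rfl
          rw [m2_mul, h0, Matrix.zero_mul, zero_add]
          simp only [e1, Matrix.mul_zero, Finset.sum_const_zero, add_zero]
          ext j _
          refine Finset.sum_eq_zero fun i _ => ?_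
          by_contra hc
          obtain ⟨h1, h2⟩ := (F.hom j i).2.2 (left_ne_zero_of_mul hc)
          obtain ⟨h3, h4⟩ := rl_Cc hu (right_ne_zero_of_mul hc)
          exact hF.hd_eq_zero_iff.1 h j ⟨h1.trans h3, by omega⟩
      exact e
  have := (hz φ hφ).m0_eq_zero (simple_isMod v).minimal hF
  exact funext fun i => congrFun (congrFun this i) ()

theorem homZero_of_socd (hF : Minimal F) (hs : socd F v k = 0) (h1 : nb F v (k - 1) = 0)
    (h2 : hd F v (k - 2) = 0) : HomZero k (simple v) F := by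
  intro f hf
  have h0 : m0 F.δ = 0 := Matrix.ext hF
  have hd0 : ∀ x, (simple v).deg x = 0 := fun _ => rfl
  have hu : (fun i => (f i ()).c0) ∈ SocSp F v k := by
    refine rl_mem_soc.2 ⟨fun i hi => ?_, fun a => ?_⟩
    · by_contra hc
      obtain ⟨e1, e2⟩ := (hf.hom i ()).1 hc
      exact hi ⟨e1, e2.trans (zero_add k)⟩
    · have e : F.δ * f = sg k • (f * (0 : Matrix (simple v).ι (simple v).ι (Z Q))) := hf.comm
      rw [Matrix.mul_zero, smul_zero] at e
      have e1 := m1_mul F.δ f a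
      rw [e, h0, Matrix.zero_mul, zero_add] at e1
      exact funext fun j => (congrFun (congrFun e1 j) ()).symm
  rw [Submodule.finrank_eq_zero.1 hs, Submodule.mem_bot] at hu
  have : f = 0 := by
    ext i x a
    · exact congrFun hu i
    · by_contra hc
      obtain ⟨e1, e2, e3⟩ := (hf.hom i x).2.1 a hc
      exact (rl_empty hF h1).false ⟨(a, i), e1, e2.symm, by rwa [hd0, zero_add] at e3⟩
    · by_contra hc
      obtain ⟨e1, e2⟩ := (hf.hom i x).2.2 hc
      exact hF.hd_eq_zero_iff.1 h2 i ⟨e1, by rw [hd0] at e2; omega⟩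
  rw [this]
  exact Exact.zero

/-- pass to `mm F` -/
theorem homZero_of_hd (h0 : hd F v k = 0) (h1 : nb F v (k - 1) = 0) (h2 : hd F v (k - 2) = 0) :
    HomZero k (simple v) F := by
  rw [(he_mm F).hd_eq] at h0 h2
  rw [(he_mm F).nb_eq] at h1
  exact (homZero_of_socd (mm_minimal F)
    (Nat.eq_zero_of_le_zero ((socd_le_hd (mm_minimal F) v k).trans_eq h0)) h1 h2).of_HE (HE.refl _)
    (he_mm F).symm

theorem topd_eq_zero_iff (hF : IsMod F) : topd F v 0 = 0 ↔ HomZero 0 F (simple v) := by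
  have h0 : m0 F.δ = 0 := Matrix.ext hF.minimal
  have hd0 : ∀ x, (simple v).deg x = 0 := fun _ => rfl
  constructor
  · intro hs f hf
    have hu : (fun i => (f () i).c0) ∈ TopSp F v 0 := by
      refine rl_mem_top.2 ⟨fun i hi => ?_, fun a => ?_⟩
      · by_contra hc
        exact hi ⟨((hf.hom () i).1 hc).1.symm, hF i⟩
      · have e : (0 : Matrix (simple v).ι (simple v).ι (Z Q)) * f = f * F.δ := hf.comm0
        rw [Matrix.zero_mul] at e
        have e1 := m1_mul f F.δ a
        rw [← e, h0, Matrix.mul_zero, add_zero] at e1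
        exact funext fun j => (congrFun (congrFun e1 ()) j).symm
    rw [Submodule.finrank_eq_zero.1 hs, Submodule.mem_bot] at hu
    have : f = 0 := by
      ext x i a
      · exact congrFun hu i
      · by_contra hc
        have e3 := ((hf.hom x i).2.1 a hc).2.2
        rw [hd0, hF i] at e3
        omega
      · by_contra hc
        have e3 := ((hf.hom x i).2.2 hc).2
        rw [hd0, hF i] at e3
        omega
    rw [this]
    exact Exact.zero
  · intro hz
    refine Submodule.finrank_eq_zero.2 ((Submodule.eq_bot_iff _).2 fun u hu => ?_)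
    obtain ⟨hu, hu'⟩ := rl_mem_top.1 hu
    let φ : Matrix Unit F.ι (Z Q) := fun _ i => Z.sc (u i)
    have hφ : Closed F (simple v) 0 φ := by
      refine Closed.of_comm0 (fun _ i => ⟨fun hi => ?_, fun a h => absurd rfl h, fun h => absurd rfl h⟩) ?_
      · exact ⟨(rl_Cc hu hi).1.symm, by rw [hd0, hF i, add_zero]⟩
      · have e : (0 : Matrix Unit Unit (Z Q)) * φ = φ * F.δ := by
          rw [Matrix.zero_mul]
          refine (mat_ext ?_ (fun a => ?_) ?_).symm
          · rw [m0_mul, h0, Matrix.mul_zero, m0_zero]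
          · rw [m1_mul, h0, Matrix.mul_zero, add_zero]
            ext _ j
            exact congrFun (hu' a) j
          · have e1 : ∀ a, m1 φ a = 0 := fun _ => rfl
            have e2 : m2 F.δ = 0 := Matrix.ext hF.c2_eq_zero
            rw [m2_mul, h0, e2]
            simp only [e1, Matrix.mul_zero, Matrix.zero_mul, Finset.sum_const_zero, add_zero]
            rfl
        exact e
    have := (hz φ hφ).m0_eq_zero hF.minimal (simple_isMod v).minimal
    exact funext fun i => congrFun (congrFun this ()) i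

theorem socd_eq_zero_iff (hF : IsMod F) : socd F v 0 = 0 ↔ HomZero 0 (simple v) F := by
  refine ⟨fun h => homZero_of_socd hF.minimal h ?_ (hF.hd_eq_zero v (by norm_num)), fun h => ?_⟩
  · exact nb_eq_zero_iff.2 fun a _ => hF.hd_eq_zero _ (by norm_num)
  · by_contra hc
    exact not_homZero_of_socd hF.minimal hc (hF.hd_eq_zero v (by norm_num)) h

end Crest.Agent.R175
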