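import Crest.Agent.R175.Act

/-!
# R175: vanishing of `Hom^k (S_v, F)` in low degrees.
-/

set_option autoImplicit false

namespace Crest.Agent.R175

open CoxeterSystem Crest.Agent.R61 Crest.GroupTheory

variable {S : Type} [Fintype S] [DecidableEq S] {M : CoxeterMatrix S}

namespace Unf

variable (U : Unf M)

/-- `Hom^k (S_v, F) = 0` for `k < lo` and `v` over `J` -/
def RZ (J : Finset S) (F : Obj U.Q) (lo : ℤ) : Prop :=
  ∀ v, U.typ v ∈ J → ∀ k, k < lo → HomZero k (simple v) F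

/-- no cohomology below `lo` over `i` -/
def LoO (F : Obj U.Q) (lo : ℤ) (i : S) : Prop := ∀ v, U.typ v = i → ∀ k, k < lo → hd F v k = 0

/-- no cohomology above `hi` over `i` -/
def HiO (F : Obj U.Q) (hi : ℤ) (i : S) : Prop := ∀ v, U.typ v = i → ∀ k, hi < k → hd F v k = 0

variable {U} {J K : Finset S} {F G : Obj U.Q} {lo hi k : ℤ} {s : S} {v : U.Q.V}

theorem RZ.of_HE (h : U.RZ J F lo) (h' : HE F G) : U.RZ J G lo := by
  exact fun v hv k hk => (h v hv k hk).of_HE (HE.refl _) h'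

/-- `homZero_Tm_iff` -/
theorem RZ.up_self (h : U.RZ J F lo) (hs : s ∈ J) (hv : U.typ v = s) (hk : k ≤ lo) :
    HomZero k (simple v) (U.ac F (artinGen M s)) := by
  exact ((homZero_Tm_iff (U.indep s) hv).2 (h v (hv ▸ hs) _ (by omega))).of_HE (HE.refl _)
    (U.ac_gen F s).symm

/-- `homZero_Tm_of_not` -/
theorem RZ.up (h : U.RZ J F lo) (hs : s ∈ J) : U.RZ J (U.ac F (artinGen M s)) lo := by
  intro v hv k hk
  by_cases e : U.typ v = s
  · exact h.up_self hs e hk.le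
  · exact (homZero_Tm_of_not (U := fun v => U.typ v = s) (fun w hw => h w (hw ▸ hs)) e hk
      (h v hv k hk)).of_HE (HE.refl _) (U.ac_gen F s).symm

theorem RZ.up_PP (h : U.RZ J F lo) {q : ArtinGroup M} (hq : q ∈ PP M J) :
    U.RZ J (U.ac F q) lo := by
  refine PP_induction_right (P := fun q => U.RZ J (U.ac F q) lo) (h.of_HE (U.ac_one F).symm)
    (fun p s _ hs hp => ?_) hq
  rw [U.ac_mul]
  exact hp.up hs

/-- `homZero_Tp_iff`, `homZero_Tp_of_not` -/
theorem RZ.down (h : U.RZ J F lo) (hs : s ∈ J)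
    (h0 : ∀ v, U.typ v = s → HomZero lo (simple v) F) :
    U.RZ J (U.ac F (artinGen M s)⁻¹) lo := by
  intro v hv k hk
  refine HomZero.of_HE ?_ (HE.refl _) (U.ac_gen_inv F s).symm
  by_cases e : U.typ v = s
  · refine (homZero_Tp_iff (U.indep s) e).2 ?_
    rcases (show k + 1 ≤ lo from hk).eq_or_lt with e' | e'
    · exact e' ▸ h0 v e
    · exact h v hv _ e'
  · exact homZero_Tp_of_not (U := fun v => U.typ v = s) (fun w hw => h w (hw ▸ hs)) e hk (h v hv k hk)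

/-- `q = LJ M J w₀` (`Sph.exists_top`): `q = LJ (w₀ s) * s` for every `s ∈ J` -/
theorem exists_raise (U : Unf M) (hJ : Sph M J) :
    ∃ q ∈ PP M J, ∀ (F : Obj U.Q) (lo : ℤ), U.RZ J F lo → U.RZ J (U.ac F q) (lo + 1) := by
  obtain ⟨w₀, hw⟩ := hJ.exists_top
  refine ⟨LJ M J w₀, LJ_mem_PP J w₀, fun F lo h v hv k hk => ?_⟩
  have e : LJ M J (w₀ * (csJ M J).simple ⟨_, hv⟩ * (csJ M J).simple ⟨_, hv⟩) = _ :=
    LJ_mul_simple (by rw [simple_mul_simple_cancel_right]; exact (hw ⟨_, hv⟩).1)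
  rw [simple_mul_simple_cancel_right] at e
  rw [e, U.ac_mul]
  exact (h.up_PP (LJ_mem_PP J _)).up_self hv rfl (by omega)

/-- `homZero_of_hd`, `nb_eq_zero` -/
theorem rz_of_lo (h : ∀ i ∈ J, U.LoO F lo i) (hb : Bd (M := M) J (U.LoO F lo)) : U.RZ J F lo := by
  intro v hv k hk
  refine homZero_of_hd (h _ hv v rfl k hk) (U.nb_eq_zero fun w hw => ?_) (h _ hv v rfl _ (by omega))
  by_cases e : U.typ w ∈ J
  · exact h _ e w rfl _ (by omega)
  · exact hb _ hv _ e hw w rfl _ (by omega)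

/-- Take the least `k` with `hd F v k ≠ 0` for some `v` over `J`; `exists_soc` for `mm F`
(`posDefOn`, `aa_ne_zero_of_arr`), `not_homZero_of_socd`. -/
theorem lo_of_rz (hJ : Sph M J) (hb : Bd (M := M) J (U.LoO F lo)) (h : U.RZ J F lo) :
    ∀ i ∈ J, U.LoO F lo i := by
  intro i hi v hv k hk
  by_contra hne
  obtain ⟨n, hn⟩ := exists_hd_bound F
  obtain ⟨k₀, ⟨w, hw, hw'⟩, hmin⟩ := Int.exists_least_of_bdd
    (P := fun k => ∃ v, U.typ v ∈ J ∧ hd F v k ≠ 0)
    ⟨-n, fun z ⟨w, _, hw⟩ => by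
      by_contra hz
      exact hw (hn w z (le_trans (by omega) (neg_le_abs z)))⟩ ⟨k, v, hv ▸ hi, hne⟩
  have hk₀ : k₀ < lo := (hmin k ⟨v, hv ▸ hi, hne⟩).trans_lt hk
  obtain ⟨x, hx, hx'⟩ := exists_soc (U.posDefOn hJ) (mm_minimal F) k₀
    (fun a h1 h2 => by
      rw [← (he_mm F).hd_eq]
      exact hb _ h1 _ h2 (U.aa_ne_zero_of_arr a) _ rfl _ hk₀)
    ⟨w, hw, by rwa [← (he_mm F).hd_eq]⟩
  refine not_homZero_of_socd (mm_minimal F) hx' ?_ ((h x hx k₀ hk₀).of_HE (HE.refl _) (he_mm F))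
  rw [← (he_mm F).hd_eq]
  by_contra h1
  have := hmin _ ⟨x, hx, h1⟩
  omega

theorem LoO.up (h : U.LoO F lo s) (hb : ∀ t, aa M s t ≠ 0 → U.LoO F lo t) :
    U.LoO (U.ac F (artinGen M s)) lo s := by
  intro v hv k hk
  rw [(U.ac_gen F s).hd_eq]
  exact hd_Tm_eq_zero (U := fun v => U.typ v = s) hv (h v hv k hk)
    (U.nb_eq_zero fun w hw => hb _ (hv ▸ hw) w rfl k hk) (h v hv _ (by omega))

theorem HiO.down (h : U.HiO F hi s) (hb : ∀ t, aa M s t ≠ 0 → U.HiO F hi t) :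
    U.HiO (U.ac F (artinGen M s)⁻¹) hi s := by
  intro v hv k hk
  rw [(U.ac_gen_inv F s).hd_eq]
  exact hd_Tp_eq_zero_hi (U.indep s) hv
    (fun j hj => ⟨h v hv j hj, U.nb_eq_zero fun w hw => hb _ (hv ▸ hw) w rfl j hj⟩) hk

/-- The Demazure inequality: `tri_Tm`, `ac_tri`, `Tri.hd_left`, `gLo_Th`, `gLo_ac`. -/
theorem hd_ac_le (h : ∀ v, U.typ v = s → ∀ k, k ≤ lo → HomZero k (simple v) F)
    {q : ArtinGroup M} (hq : q ∈ PP M J) (v : U.Q.V) :
    hd (U.ac F q) v lo ≤ hd (U.ac F (artinGen M s * q)) v lo := by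
  have h1 := (U.ac_tri (tri_Tm (fun v => U.typ v = s) F) q).hd_left v lo
  rw [U.gLo_ac hq (gLo_Th h) v _ (by omega), zero_add] at h1
  rw [U.ac_mul, U.ac_congr (U.ac_gen F s)]
  exact h1

/-- One step of the rank two chain.  `chain_filt`, `homZero_ac_iff`, `Filt.homZero_left` give `w`
over `s` or `t`; the last letter `altL s t (r - 1)` is excluded by `RZ.up_self`. -/
theorem chain_step {t : S} (hs : s ∈ K) (ht : t ∈ K) (hst : s ≠ t) (hv : U.typ v = s)
    (h : U.RZ K F k) (hne : ¬ HomZero k (simple v) F) {r : ℕ} (h1 : 1 ≤ r)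
    (hr : M s t = 0 ∨ r < M s t) :
    ∃ w, U.typ w = altL s t r ∧ ¬ HomZero k (simple w) (U.ac F (wd M (altW s t r))) := by
  obtain ⟨r, rfl⟩ : ∃ r', r = r' + 1 := ⟨r - 1, by omega⟩
  by_contra hc
  refine hne ((U.homZero_ac_iff (wd M (altW s t (r + 1)))).1 ?_)
  refine ((U.chain_filt hst hv _ hr).of_HE (U.ac_wd _ _).symm).homZero_left fun w hw => ?_
  have hK : ∀ x, x = s ∨ x = t → x ∈ K := fun x hx => hx.elim (· ▸ hs) (· ▸ ht)
  by_cases e : U.typ w = altL s t r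
  · rw [altW_succ, wd_append, U.ac_mul, wd_cons, wd_nil, mul_one]
    exact (h.up_PP (wd_mem_PP fun x hx => hK x (mem_altW hx))).up_self (e ▸ hK _ hw) e le_rfl
  · by_contra hw'
    refine hc ⟨w, ?_, hw'⟩
    rcases altL_cases s t r with ⟨a, b⟩ | ⟨a, b⟩
    · rw [b]
      exact hw.resolve_right (a ▸ e)
    · rw [b]
      exact hw.resolve_left (a ▸ e)

/-- Strong induction on the length of `l` (generalizing `l`, `F`, `v`).  Let `s = typ v`,
`l = t :: l₁`, `t ≠ s`.  Show by induction on `r ≥ 1` (with `r ≤ M s t` if `M s t ≠ 0`) that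
`wd l = wd (altW s t r) * wd l'` with all letters of `altW s t r` and `l'` in `Y`
(`chain_step`, the outer induction hypothesis for `l'`, `length_eq_of_wd_eq`).  For `M s t = 0` this is
absurd for `r > l.length`.  For `r = M s t ≥ 2` use `braid_gen`, `altW_succ'`. -/
theorem pp_core {Y : Finset S} (hY : Y ⊆ K) (l : List S) (hl : ∀ x ∈ l, x ∈ Y)
    (hv : U.typ v ∈ K) (h : U.RZ K F k) (hne : ¬ HomZero k (simple v) F)
    (h' : U.RZ K (U.ac F (wd M l)) (k + 1)) :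
    U.typ v ∈ Y ∧ (artinGen M (U.typ v))⁻¹ * wd M l ∈ PP M Y := by
  generalize hn : l.length = n
  induction n using Nat.strong_induction_on generalizing l F v with
  | _ n ih =>
  rcases l with _ | ⟨t, l₁⟩
  · exact (hne (h'.of_HE (U.ac_one F) v hv k (by omega))).elim
  have ht : t ∈ Y := hl t List.mem_cons_self
  have hl₁ : ∀ x ∈ l₁, x ∈ Y := fun x hx => hl x (List.mem_cons_of_mem _ hx)
  generalize hs : U.typ v = s at hv ⊢
  by_cases hst : s = t
  · rw [wd_cons, hst, inv_mul_cancel_left]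
    exact ⟨ht, wd_mem_PP hl₁⟩
  have key : ∀ r, (M s t = 0 ∨ r + 1 ≤ M s t) → ∃ l', (∀ x ∈ l', x ∈ Y) ∧
      (∀ x ∈ altW s t (r + 1), x ∈ Y) ∧ wd M (t :: l₁) = wd M (altW s t (r + 1) ++ l') := by
    intro r hr
    induction r with
    | zero => exact ⟨l₁, hl₁, fun x hx => List.mem_singleton.1 hx ▸ ht, rfl⟩
    | succ r ihr =>
      obtain ⟨l', a1, a2, a3⟩ := ihr (hr.imp_right fun h => by omega)
      obtain ⟨w, b1, b2⟩ := chain_step hv (hY ht) hst hs h hne (r := r + 1) (by omega) hr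
      have hlen := length_eq_of_wd_eq a3
      rw [hn, List.length_append, length_altW] at hlen
      have hw : U.typ w ∈ K := by
        rcases altL_cases s t (r + 1) with ⟨a, -⟩ | ⟨a, -⟩
        · exact b1.trans a ▸ hY ht
        · exact b1.trans a ▸ hv
      obtain ⟨c1, c2⟩ := ih l'.length (by omega) l' a1 hw
        (h.up_PP (wd_mem_PP fun x hx => hY (a2 x hx))) b2
        (by rwa [← U.ac_mul, ← wd_append, ← a3]) rfl
      obtain ⟨l'', d1, d2⟩ := mem_PP_iff.1 c2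
      rw [b1] at c1 d2
      refine ⟨l'', d1, fun x hx => ?_, ?_⟩
      · rw [altW_succ, List.mem_append, List.mem_singleton] at hx
        exact hx.elim (a2 x) (· ▸ c1)
      · rw [a3, altW_succ s t (r + 1), List.append_assoc, wd_append, wd_append, List.singleton_append,
          wd_cons, d2, mul_inv_cancel_left]
  by_cases h0 : M s t = 0
  · obtain ⟨l', -, -, a3⟩ := key n (Or.inl h0)
    have hlen := length_eq_of_wd_eq a3
    rw [hn, List.length_append, length_altW] at hlen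
    omega
  · have h1 := M.off_diagonal s t hst
    obtain ⟨m, hm⟩ : ∃ m, M s t = m + 1 + 1 := ⟨M s t - 2, by omega⟩
    obtain ⟨l', a1, a2, a3⟩ := key (m + 1) (Or.inr hm.ge)
    have hsY : s ∈ Y := a2 s (by rw [altW_succ', altW_succ']; simp)
    have hb := braid_gen (M := M) s t
    rw [hm, altW_succ' s t] at hb
    rw [a3, wd_append, hb, wd_cons, mul_assoc, inv_mul_cancel_left]
    exact ⟨hsY, mul_mem (wd_mem_PP fun x hx => (mem_altW hx).elim (· ▸ hsY) (· ▸ ht)) (wd_mem_PP a1)⟩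

/-- take the least `k` with `¬ HomZero k (simple v) F` for some `v` over `K`
(`exists_homZero_bound`) -/
theorem pprime (h : ¬ U.RZ K F lo) : ∃ s, ∀ Y ⊆ K, ∀ p ∈ PP M Y, U.RZ K (U.ac F p) lo →
    s ∈ Y ∧ (artinGen M s)⁻¹ * p ∈ PP M Y := by
  obtain ⟨n, hn⟩ := exists_homZero_bound F
  simp only [RZ, not_forall] at h
  obtain ⟨v, hv, k, hk, hne⟩ := h
  obtain ⟨k₀, ⟨w, hw, hw'⟩, hmin⟩ := Int.exists_least_of_bdd
    (P := fun k => ∃ v, U.typ v ∈ K ∧ ¬ HomZero k (simple v) F)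
    ⟨-n, fun z ⟨w, _, hw⟩ => by
      by_contra hz
      exact hw (hn w z (by omega))⟩ ⟨k, v, hv, hne⟩
  have hk₀ : k₀ < lo := (hmin k ⟨v, hv, hne⟩).trans_lt hk
  refine ⟨U.typ w, fun Y hY p hp hz => ?_⟩
  obtain ⟨l, hl, rfl⟩ := mem_PP_iff.1 hp
  refine pp_core hY l hl hw (fun x hx j hj => ?_) hw' fun x hx j hj => hz x hx j (by omega)
  by_contra hc
  have := hmin j ⟨x, hx, hc⟩
  omega

end Unf

end Crest.Agent.R175
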