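import Crest.Agent.R175.Cox2
import Crest.Prelude.Def_ArtinGroup

/-!
# R175: Artin groups; the combinatorial statements of the Morse theory.
-/

set_option autoImplicit false

namespace Crest.Agent.R175

open CoxeterSystem Crest.Agent.R61 Crest.GroupTheory

variable {S : Type} [Fintype S] [DecidableEq S] (M : CoxeterMatrix S)

/-- the off-diagonal part of the Cartan matrix, `2 cos (π / m)` (`2` for `m = ∞`) -/
noncomputable def aa (s t : S) : ℝ := if s = t then 0 else -kk M s t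

/-- the standard parabolic subgroup of a finite set -/
abbrev AP (J : Finset S) : Subgroup (ArtinGroup M) := stdParabolic M (J : Set S)

/-- the positive monoid -/
def PP (J : Finset S) : Submonoid (ArtinGroup M) := Submonoid.closure (artinGen M '' (J : Set S))

/-- the value of a positive word -/
def wd (l : List S) : ArtinGroup M := (l.map (artinGen M)).prod

/-- spherical type, in the form that is used -/
def Sph (J : Finset S) : Prop :=
  ∃ γ : S → ℝ, ∀ i ∈ J, 0 < γ i ∧ ∑ j ∈ J, aa M i j * γ j < 2 * γ i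

/-- the diagram on `J` is connected -/
def Irr (J : Finset S) : Prop :=
  ∀ J₁ ⊆ J, J₁.Nonempty → J₁ ≠ J → ∃ i ∈ J₁, ∃ j ∈ J, j ∉ J₁ ∧ aa M i j ≠ 0

/-- the restricted Coxeter matrix -/
def res (J : Finset S) : CoxeterMatrix {s // s ∈ J} where
  M := Matrix.of fun i j => M i.1 j.1
  isSymm := by
    ext i j
    exact M.symmetric j.1 i.1
  diagonal i := M.diagonal i.1
  off_diagonal i j h := M.off_diagonal i.1 j.1 (fun e => h (Subtype.ext e))

/-- the Coxeter group of `J` -/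
abbrev WJ (J : Finset S) : Type := (res M J).Group

/-- its Coxeter system -/
noncomputable abbrev csJ (J : Finset S) : CoxeterSystem (res M J) (WJ M J) :=
  (res M J).toCoxeterSystem

/-- the positive lift `W_J → A` -/
noncomputable def LJ (J : Finset S) (w : WJ M J) : ArtinGroup M :=
  lft (csJ M J) (fun i => artinGen M i.1) w

/-! ### vertices of the coset complex

The pair `(g, i)` stands for the coset `g A_{J ∖ i}`. -/

variable {M}

/-- elementary moves between vertices that satisfy `P` -/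
def Step (J : Finset S) (P : ArtinGroup M → S → Prop) (x y : ArtinGroup M × S) : Prop :=
  x.2 ∈ J ∧ y.2 ∈ J ∧ P x.1 x.2 ∧ P y.1 y.2 ∧
    (x.1 = y.1 ∨ (x.2 = y.2 ∧ x.1⁻¹ * y.1 ∈ AP M (J.erase x.2)))

/-- connected through vertices that satisfy `P` -/
def Conn (J : Finset S) (P : ArtinGroup M → S → Prop) : ArtinGroup M × S → ArtinGroup M × S → Prop :=
  Relation.ReflTransGen (Step J P)

/-- `P g i` depends only on the coset of `g` -/
def VInv (P : ArtinGroup M → S → Prop) : Prop :=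
  ∀ g i s, s ≠ i → (P (g * artinGen M s) i ↔ P g i)

/-- the `P`-vertices of the residue `g₀ A_J` are connected -/
def CC (J : Finset S) (g₀ : ArtinGroup M) (P : ArtinGroup M → S → Prop) : Prop :=
  ∀ g g' i j, g₀⁻¹ * g ∈ AP M J → g₀⁻¹ * g' ∈ AP M J → i ∈ J → j ∈ J → P g i → P g' j →
    Conn J P (g, i) (g', j)

/-- the vertex `(g, i)` has a neighbour that satisfies `P` -/
def HasNb (J : Finset S) (P : ArtinGroup M → S → Prop) (g : ArtinGroup M) (i : S) : Prop :=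
  ∃ a ∈ AP M (J.erase i), ∃ j ∈ J, j ≠ i ∧ P (g * a) j

/-- if there is a `P`-vertex, every `T`-vertex has a `P`-neighbour -/
def LL (J : Finset S) (g₀ : ArtinGroup M) (T P : ArtinGroup M → S → Prop) : Prop :=
  ∀ g i, g₀⁻¹ * g ∈ AP M J → i ∈ J → T g i →
    (∃ g' j, g₀⁻¹ * g' ∈ AP M J ∧ j ∈ J ∧ P g' j) → HasNb J P g i

/-- the basic properties of the graded multiplicities `n g i k` -/
structure NAx (n : ArtinGroup M → S → ℤ → ℝ) : Prop where
  nonneg : ∀ g i k, 0 ≤ n g i k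
  inv : ∀ g i s k, s ≠ i → n (g * artinGen M s) i k = n g i k
  fin : ∀ g, ∃ b : ℕ, ∀ i k, (b : ℤ) ≤ |k| → n g i k = 0
  disc : ∀ T : ℝ, {x : ℝ | x ≤ T ∧ ∃ g i k, x = n g i k}.Finite

section preds
variable (n : ArtinGroup M → S → ℤ → ℝ)

/-- nothing below `lo` -/
def Lo (lo : ℤ) (g : ArtinGroup M) (i : S) : Prop := ∀ k, k < lo → n g i k = 0
/-- nothing above `hi` -/
def Hi (hi : ℤ) (g : ArtinGroup M) (i : S) : Prop := ∀ k, hi < k → n g i k = 0

def Neg1 (lo : ℤ) (b : S → ℝ) (g : ArtinGroup M) (i : S) : Prop := Lo n lo g i ∧ n g i lo < b i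
def Tie1 (lo : ℤ) (b : S → ℝ) (g : ArtinGroup M) (i : S) : Prop := Lo n lo g i ∧ n g i lo = b i
def Neg2 (lo hi : ℤ) (b : S → ℝ) (g : ArtinGroup M) (i : S) : Prop :=
  Hi n hi g i ∧ Neg1 n lo b g i
def Tie2 (lo hi : ℤ) (b : S → ℝ) (g : ArtinGroup M) (i : S) : Prop :=
  Hi n hi g i ∧ Tie1 n lo b g i

/-- `b` is subharmonic at `i` for the boundary values in degree `k` -/
def SubAt (J : Finset S) (g : ArtinGroup M) (k : ℤ) (b : S → ℝ) (i : S) : Prop :=
  2 * b i - ∑ j ∈ J, aa M i j * b j ≤ ∑ j ∈ Jᶜ, aa M i j * n g j k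

def Sub (J : Finset S) (g : ArtinGroup M) (k : ℤ) (b : S → ℝ) : Prop := ∀ i ∈ J, SubAt n J g k b i

/-- `P` holds at the boundary of `J` -/
def Bd (J : Finset S) (P : S → Prop) : Prop := ∀ i ∈ J, ∀ j, j ∉ J → aa M i j ≠ 0 → P j

def HasC1 : Prop := ∀ J g₀ lo b, Sph M J → Bd (M := M) J (Lo n lo g₀) → Sub n J g₀ lo b →
  CC J g₀ (Neg1 n lo b)

def HasL1 : Prop := ∀ J g₀ lo b, Sph M J → Bd (M := M) J (Lo n lo g₀) → Sub n J g₀ lo b →
  LL J g₀ (Tie1 n lo b) (Neg1 n lo b)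

def HasA : Prop := ∀ J g₀ lo hi b, Sph M J → lo ≤ hi → Bd (M := M) J (Lo n lo g₀) →
  Bd (M := M) J (Hi n hi g₀) → Sub n J g₀ lo b →
  (∃ g i, g₀⁻¹ * g ∈ AP M J ∧ i ∈ J ∧ Neg1 n lo b g i) →
  ∃ g i, g₀⁻¹ * g ∈ AP M J ∧ i ∈ J ∧ Neg2 n lo hi b g i

def HasCL2 : Prop := ∀ J g₀ lo hi b, Sph M J → lo ≤ hi → Bd (M := M) J (Lo n lo g₀) →
  Bd (M := M) J (Hi n hi g₀) → Sub n J g₀ lo b →
  CC J g₀ (Neg2 n lo hi b) ∧ LL J g₀ (Tie2 n lo hi b) (Neg2 n lo hi b)

/-- the enumeration `0, 1, -1, 2, -2, …` of the degrees -/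
def dS (m : ℕ) : ℤ := if Even m then -((m / 2 : ℕ) : ℤ) else ((m + 1) / 2 : ℕ)
/-- its inverse -/
def scl (k : ℤ) : ℕ := if 0 < k then (2 * k - 1).toNat else (-2 * k).toNat

def InReg (m : ℕ) (g : ArtinGroup M) (i : S) : Prop := ∀ k, m < scl k → n g i k = 0
def NegS (m : ℕ) (b : S → ℝ) (g : ArtinGroup M) (i : S) : Prop :=
  InReg n m g i ∧ n g i (dS m) < b i
def TieS (m : ℕ) (b : S → ℝ) (g : ArtinGroup M) (i : S) : Prop :=
  InReg n m g i ∧ n g i (dS m) = b i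

def HasCLS : Prop := ∀ J g₀ m b, Sph M J → Bd (M := M) J (InReg n m g₀) → Sub n J g₀ (dS m) b →
  CC J g₀ (NegS n m b) ∧ LL J g₀ (TieS n m b) (NegS n m b)

/-- at every `i ∈ J` either a boundary neighbour is outside the region or `b` is subharmonic -/
def Hyp (J : Finset S) (g : ArtinGroup M) (m : ℕ) (b : S → ℝ) : Prop :=
  ∀ i ∈ J, (∃ j, j ∉ J ∧ aa M i j ≠ 0 ∧ ¬ InReg n m g j) ∨ SubAt n J g (dS m) b i

def HasCL : Prop := ∀ J g₀ m b, Hyp n J g₀ m b →
  CC J g₀ (NegS n m b) ∧ LL J g₀ (TieS n m b) (NegS n m b)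

end preds

/-- the strong intersection property inside `A_K` -/
def Claim (M : CoxeterMatrix S) (K : Finset S) : Prop :=
  ∀ X ⊆ K, ∀ Y ⊆ K, ∀ g ∈ AP M K, ∃ h ∈ AP M Y, ∃ Z ⊆ Y, ∀ x : ArtinGroup M,
    (x ∈ AP M X ∧ g⁻¹ * x * g ∈ AP M Y) ↔ (g * h)⁻¹ * x * (g * h) ∈ AP M Z

end Crest.Agent.R175
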