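import Crest.Agent.R175.Theta
import Crest.Agent.R175.Tri2
import Crest.Agent.R175.MM

/-!
# R175: `Θ F` computes `Hom (S_v, F)`.
For `U v`, a homogeneous `φ : S_v → F` of degree `p` corresponds to the vector
`fun x => (shM φ x ()).c0 ∈ Cc (Θ F) v p`; conversely `u` gives `evM * (fun x _ => sc (u x))`.
`Dd` corresponds to `m0 (Θ δ)` (`shM_mul_left`).
-/

set_option autoImplicit false

namespace Crest.Agent.R175

open Matrix

variable {Q : Qv} {U : Q.V → Prop} [DecidablePred U] {F : Obj Q} {v : Q.V} {k p : ℤ}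

/-- a vector as a morphism out of a simple object -/
def thrCol (v : Q.V) (G : Gr Q) (u : G.ι → ℝ) : Mor (simple v).toGr G := fun x _ => Z.sc (u x)

/-- the vector of a morphism out of a simple object -/
def thrVec (v : Q.V) (G : Gr Q) (ψ : Mor (simple v).toGr G) : G.ι → ℝ := fun x => (ψ x ()).c0

theorem thr_Dd (φ : Mor (simple v).toGr F.toGr) : Dd (simple v) F p φ = F.δ * φ := by
  have h : (simple v).δ = 0 := rfl
  rw [Dd, h, Matrix.mul_zero, smul_zero, sub_zero]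

theorem thrCol_hom {G : Gr Q} {u : G.ι → ℝ} (hu : u ∈ Cc G v k) : IsHom (simple v).toGr G k (thrCol v G u) := by
  intro x i
  refine ⟨fun h => ?_, fun a h => (h rfl).elim, fun h => (h rfl).elim⟩
  have h1 : G.vtx x = v ∧ G.deg x = k := by
    by_contra h2
    exact h (hu x h2)
  exact ⟨h1.1, h1.2.trans (zero_add k).symm⟩

theorem thrVec_mem {G : Gr Q} {ψ : Mor (simple v).toGr G} (h : IsHom (simple v).toGr G k ψ) :
    thrVec v G ψ ∈ Cc G v k := by
  intro x hx
  by_contra h1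
  have h2 := (h x ()).1 h1
  exact hx ⟨h2.1, h2.2.trans (zero_add k)⟩

theorem thrVec_mul {G H : Gr Q} (g : Mor G H) (ψ : Mor (simple v).toGr G) :
    thrVec v H (g * ψ) = (m0 g).mulVec (thrVec v G ψ) := by
  funext x
  simp [thrVec, m0, Matrix.mul_apply, Matrix.mulVec, dotProduct]

theorem thrCol_scalar {G : Gr Q} (u : G.ι → ℝ) : Scalar (thrCol v G u) := fun _ _ => ⟨fun _ => rfl, rfl⟩

theorem thrVec_col {G : Gr Q} (u : G.ι → ℝ) : thrVec v G (thrCol v G u) = u := rfl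

theorem thrCol_vec {G : Gr Q} {ψ : Mor (simple v).toGr G} (h : Scalar ψ) : thrCol v G (thrVec v G ψ) = ψ := by
  funext x i
  exact Z.ext rfl (funext fun a => ((h x i).1 a).symm) (h x i).2.symm

theorem thr_mul_col {G H : Gr Q} {g : Mor G H} (hg : Scalar g) (u : G.ι → ℝ) :
    g * thrCol v G u = thrCol v H ((m0 g).mulVec u) := by
  have h : Scalar (g * thrCol v G u) := fun x i =>
    ⟨fun a => by simp [Matrix.mul_apply, thrCol, (hg x _).1 a],
      by simp [Matrix.mul_apply, thrCol, fun y => (hg x y).2]⟩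
  rw [← thrCol_vec h, thrVec_mul, thrVec_col]

theorem thr_δ_ev (u : (ThGr U F.toGr).ι → ℝ) :
    F.δ * (evM U F.toGr * thrCol v (ThGr U F.toGr) u) =
      evM U F.toGr * thrCol v (ThGr U F.toGr) ((m0 (ThM U F.toGr F.toGr F.δ)).mulVec u) := by
  rw [← Matrix.mul_assoc, mul_evM F.hom, Matrix.mul_assoc, thr_mul_col (ThM_scalar _)]

theorem thr_closed_sh (hv : U v) {φ : Mor (simple v).toGr F.toGr} (h : Closed (simple v) F p φ) :
    Closed (simple v) (ThObj U F) p (shM U _ _ φ) := by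
  refine ⟨shM_hom (fun _ => hv) h.hom, ?_⟩
  have h1 := h.cl
  rw [thr_Dd] at h1 ⊢
  exact (shM_mul_left (fun _ => hv) h.hom F.hom).symm.trans (by rw [h1]; exact map_zero _)

theorem hd_Th_eq_zero_of_not (hv : ¬ U v) (F : Obj Q) (k : ℤ) : hd (ThObj U F) v k = 0 := by
  have h := hd_le_cnt (ThObj U F) v k
  have h0 : cnt (ThObj U F).toGr v k = 0 :=
    cnt_eq_zero_iff.2 fun i hi => hv (hi.1 ▸ U_vtx_ThGr (U := U) (F := F.toGr) i)
  exact Nat.le_zero.1 (h0 ▸ h)

theorem hd_Th_eq_zero_iff (hv : U v) : hd (ThObj U F) v k = 0 ↔ HomZero k (simple v) F := by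
  rw [hd_eq_zero_iff]
  constructor
  · intro h φ hφ
    have hc := thr_closed_sh hv hφ
    have h1 := hc.cl
    rw [thr_Dd] at h1
    have hu : thrVec v _ (shM U _ _ φ) ∈ Zc (ThObj U F) v k :=
      coh_mem_Zc.2 ⟨thrVec_mem hc.hom, (thrVec_mul _ _).symm.trans (congrArg _ h1)⟩
    obtain ⟨w, hw, e⟩ := coh_mem_Bc.1 (h hu)
    have e' : (m0 (ThM U F.toGr F.toGr F.δ)).mulVec w = thrVec v (ThGr U F.toGr) (shM U _ _ φ) := e
    refine ⟨evM U F.toGr * thrCol v (ThGr U F.toGr) w, ((thrCol_hom hw).mul evM_hom).of_eq (add_zero _), ?_⟩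
    rw [thr_Dd, thr_δ_ev, e', thrCol_vec (shM_scalar φ), evM_mul_shM (fun _ => hv) hφ.hom]
  · intro h u hu
    obtain ⟨hu1, hu2⟩ := coh_mem_Zc.1 hu
    have hu3 : (m0 (ThM U F.toGr F.toGr F.δ)).mulVec u = 0 := hu2
    obtain ⟨g, hg, e⟩ := h (evM U F.toGr * thrCol v (ThGr U F.toGr) u)
      ⟨((thrCol_hom hu1).mul evM_hom).of_eq (add_zero _), by
        rw [thr_Dd, thr_δ_ev, hu3]
        exact Matrix.mul_zero _⟩
    rw [thr_Dd] at e
    refine coh_mem_Bc.2 ⟨thrVec v _ (shM U _ _ g), thrVec_mem (shM_hom (fun _ => hv) hg), ?_⟩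
    have h1 := shM_mul_left (U := U) (fun _ => hv) hg F.hom
    rw [← e, shM_evM_mul (thrCol_scalar (G := ThGr U F.toGr) u)] at h1
    exact (thrVec_mul _ _).symm.trans ((congrArg _ h1.symm).trans (thrVec_col u))

/-- every closed `φ : S_v → F` is `ev * shM φ` with `shM φ` closed -/
theorem homZero_of_exact_ev (h : Exact (ThObj U F) F 0 (evM U F.toGr)) (hv : U v) (p : ℤ) :
    HomZero p (simple v) F := by
  intro φ hφ
  have h1 := (Exact.mul_closed (thr_closed_sh hv hφ) h).of_eq (add_zero p)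
  exact evM_mul_shM (U := U) (fun _ => hv) hφ.hom ▸ h1

/-- `Θ F` is contractible (`contr_of_hd`), use `tri_Tm` -/
theorem he_Tm_of_homZero (h : ∀ v, U v → ∀ p, HomZero p (simple v) F) : HE ((Tm U).obj F) F := by
  have hc : Contr (ThObj U F) := contr_of_hd fun v k => by
    by_cases hv : U v
    · exact (hd_Th_eq_zero_iff hv).2 (h v hv k)
    · exact hd_Th_eq_zero_of_not hv F k
  exact ((tri_Tm U F).he_of_contr_right (hc.shift 1)).symm

/-- the canonical map `F → Tm F` -/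
theorem closed_inTm (U : Q.V → Prop) [DecidablePred U] (F : Obj Q) :
    Closed F ((Tm U).obj F) 0 (extIn F (shift 1 (ThObj U F))) := closed_extIn (closed_evM' U F)

theorem thr_blk {α β : Type} [Fintype α] [DecidableEq α] [Fintype β] (a : Matrix α α (Z Q))
    (b : Matrix α β (Z Q)) (d : Matrix β β (Z Q)) (w : α ⊕ β → ℝ) (u : α → ℝ) (h0 : ∀ x, w (Sum.inr x) = 0)
    (e : (m0 (fromBlocks a b 0 d)).mulVec w = (m0 (fromRows (1 : Matrix α α (Z Q)) 0)).mulVec u) (j : α) :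
    (m0 a).mulVec (fun i => w (Sum.inl i)) j = u j := by
  have e1 := congrFun e (Sum.inl j)
  simpa [h0, Matrix.one_apply, apply_ite Z.c0, m0, Matrix.mulVec, dotProduct] using e1

/-- at a vertex outside `U` the vectors of `Cc (Tm F) v k` vanish on the `Θ` part -/
theorem injAt_inTm (hv : ¬ U v) (F : Obj Q) (k : ℤ) :
    InjAt F ((Tm U).obj F) v k (extIn F (shift 1 (ThObj U F))) := by
  intro u _ hu
  obtain ⟨w, hw, e⟩ := coh_mem_Bc.1 hu
  have h0 : ∀ x : (ThGr U F.toGr).ι, w (Sum.inr x) = 0 := fun x =>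
    hw _ fun hx => hv (hx.1 ▸ U_vtx_ThGr (U := U) (F := F.toGr) x)
  refine coh_mem_Bc.2 ⟨fun i => w (Sum.inl i), fun i hi => hw (Sum.inl i) hi, funext fun j => ?_⟩
  exact thr_blk F.δ (evM U F.toGr) (shift 1 (ThObj U F)).δ w u h0 e j

theorem hd_Tm_of_not (hv : ¬ U v) (F : Obj Q) (k : ℤ) : hd ((Tm U).obj F) v k = hd F v k := by
  have h1 := (tri_Tm U F).hd_mid v k
  have h2 := (tri_Tm U F).hd_left v k
  rw [hd_shift, hd_Th_eq_zero_of_not hv] at h1 h2
  omega

theorem hd_Tp_of_not (hv : ¬ U v) (F : Obj Q) (k : ℤ) : hd ((Tp U).obj F) v k = hd F v k := by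
  have h1 := (tri_Tp U F).hd_mid v k
  have h2 := (tri_Tp U F).hd_right v k
  rw [hd_shift, hd_Th_eq_zero_of_not hv] at h1 h2
  omega

theorem thr_alg {α β γ : Type} [Fintype α] [DecidableEq α] [Fintype β] (r : Matrix α β (Z Q))
    (i : Matrix β α (Z Q)) (e : Matrix α γ (Z Q)) {c : ℝ} (hc : c ≠ 0) :
    c⁻¹ • (r * (i * e) - (r * i - c • (1 : Matrix α α (Z Q))) * e) = e := by
  rw [Matrix.sub_mul, Matrix.mul_assoc, sub_sub_cancel, Matrix.smul_mul, Matrix.one_mul, smul_smul,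
    inv_mul_cancel₀ hc, one_smul]

/-- Acyclicity.  `r * in` is homotopic to `c • 1`, `c ≠ 0` (`InjAt.scalar_ne_zero`), and
`in * ev` is exact (`exact_extIn_mul`), so `ev` is exact. -/
theorem homZero_of_retract {y : Q.V} (hy : ¬ U y) (hE : EndScal F) (hne : hd F y 0 ≠ 0)
    {r : Mor ((Tm U).obj F).toGr F.toGr} (hr : Closed ((Tm U).obj F) F 0 r)
    (hi : InjAt ((Tm U).obj F) F y 0 r) (hv : U v) (p : ℤ) : HomZero p (simple v) F := by
  obtain ⟨c, hc⟩ := hE _ ((closed_inTm U F).mul0 hr)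
  have hc0 : c ≠ 0 := (InjAt.comp (closed_inTm U F) (injAt_inTm hy F 0) hi).scalar_ne_zero hc hne
  have h1 := (((exact_shift_left 1).1 (exact_extIn_mul (closed_evM' U F))).closed_mul hr).of_eq
    (show (1 : ℤ) - 1 + 0 = 0 by norm_num)
  have h2 := (Exact.mul_closed (closed_evM U F) hc).of_eq (add_zero 0)
  have h3 := (h1.sub h2).smul c⁻¹
  exact homZero_of_exact_ev (thr_alg r (extIn F (shift 1 (ThObj U F))) (evM U F.toGr) hc0 ▸ h3) hv p

end Crest.Agent.R175
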