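import Crest.Agent.R175.Tri

/-!
# R175: the functor `Θ_U = ⊕_{v ∈ U} Hom(S_v, -) ⊗ S_v` and the twist functors `Tm U`, `Tp U`.

The indices of `Θ F` are the pairs `(i, β)` with `β` a basis element of `Z` that is a path from a
vertex of `U` to `vtx i`.  Key fact used everywhere: if `f` is homogeneous and `(i, β)` is an index,
then `co β' (f j i * el β) = 0` unless `(j, β')` is an index; hence sums over the indices `(j, β')` can
be replaced by sums over all `j` and all `β'` (`sum_ThGr`), where `Bs.sum_co_smul_el` applies.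
-/

set_option autoImplicit false
set_option linter.unusedSectionVars false
set_option linter.unusedVariables false

namespace Crest.Agent.R175

open Matrix

variable {Q : Qv}

/-- `β` is a path from a vertex of `U` to `v` -/
def okB (U : Q.V → Prop) (v : Q.V) : Bs Q → Prop
  | .one => U v
  | .arr a => U (Q.src a) ∧ Q.tgt a = v
  | .top => U v

instance (U : Q.V → Prop) [DecidablePred U] (v : Q.V) : DecidablePred (okB U v) := fun β => by
  cases β <;> unfold okB <;> infer_instance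

/-- the source of the path `β` that ends at `v` -/
def vtxB (v : Q.V) : Bs Q → Q.V
  | .one => v
  | .arr a => Q.src a
  | .top => v

/-- no arrows between vertices of `U` -/
def Indep (U : Q.V → Prop) : Prop := ∀ a, ¬ (U (Q.src a) ∧ U (Q.tgt a))

variable (U : Q.V → Prop) [DecidablePred U]

/-- the indices of `Θ F` -/
def ThGr (F : Gr Q) : Gr Q where
  ι := {x : F.ι × Bs Q // okB U (F.vtx x.1) x.2}
  vtx x := vtxB (F.vtx x.1.1) x.1.2
  deg x := F.deg x.1.1 + x.1.2.dg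

/-- `Θ` on morphisms -/
def ThM (F G : Gr Q) : Mor F G →ₗ[ℝ] Mor (ThGr U F) (ThGr U G) where
  toFun f := fun y x => Z.sc (Bs.co y.1.2 (f y.1.1 x.1.1 * Bs.el x.1.2))
  map_add' f g := by
    funext y x
    change Z.sc (Bs.co y.1.2 ((f y.1.1 x.1.1 + g y.1.1 x.1.1) * Bs.el x.1.2)) =
      Z.sc (Bs.co y.1.2 (f y.1.1 x.1.1 * Bs.el x.1.2)) + Z.sc (Bs.co y.1.2 (g y.1.1 x.1.1 * Bs.el x.1.2))
    rw [add_mul, Bs.co_add]
    ext a <;> simp
  map_smul' r f := by
    funext y x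
    change Z.sc (Bs.co y.1.2 ((r • f y.1.1 x.1.1) * Bs.el x.1.2)) =
      r • Z.sc (Bs.co y.1.2 (f y.1.1 x.1.1 * Bs.el x.1.2))
    rw [smul_mul_assoc, Bs.co_smul]
    ext a <;> simp

/-- evaluation `Θ F → F`, degree `0` -/
def evM (F : Gr Q) : Mor (ThGr U F) F := fun j x => if j = x.1.1 then Bs.el x.1.2 else 0

/-- coevaluation `F → Θ F`, degree `2` -/
def coevM (F : Gr Q) : Mor F (ThGr U F) := fun x j => if x.1.1 = j then Bs.el x.1.2.dual else 0

/-- the factorisation of `φ : X → F` through `ev` (for `X` supported on `U`) -/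
def shM (X F : Gr Q) : Mor X F →ₗ[ℝ] Mor X (ThGr U F) where
  toFun φ := fun y x => Z.sc (Bs.co y.1.2 (φ y.1.1 x))
  map_add' f g := by
    funext y x
    change Z.sc (Bs.co y.1.2 (f y.1.1 x + g y.1.1 x)) =
      Z.sc (Bs.co y.1.2 (f y.1.1 x)) + Z.sc (Bs.co y.1.2 (g y.1.1 x))
    rw [Bs.co_add]
    ext a <;> simp
  map_smul' r f := by
    funext y x
    change Z.sc (Bs.co y.1.2 (r • f y.1.1 x)) = r • Z.sc (Bs.co y.1.2 (f y.1.1 x))
    rw [Bs.co_smul]
    ext a <;> simp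

variable {U}

theorem th_U_vtxB {v : Q.V} {β : Bs Q} (h : okB U v β) : U (vtxB v β) := by
  cases β
  · exact h
  · exact h.1
  · exact h

theorem th_ok_sc {v w : Q.V} {k l p : ℤ} {r : ℝ} (h : r ≠ 0 → w = v ∧ l = k + p) :
    Ok v k w l p (Z.sc r : Z Q) :=
  ⟨h, fun _ h => absurd rfl h, fun h => absurd rfl h⟩

theorem th_ok_el {v : Q.V} {β : Bs Q} (h : okB U v β) (k : ℤ) :
    Ok (vtxB v β) (k + β.dg) v k 0 (Bs.el β) := by
  cases β with
  | one => exact ⟨fun _ => ⟨rfl, by simp [Bs.dg]⟩, fun _ h => absurd rfl h, fun h => absurd rfl h⟩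
  | arr a =>
    refine ⟨fun h => absurd rfl h, fun b hb => ?_, fun h => absurd rfl h⟩
    have e : b = a := by
      by_contra hc
      exact hb (by simp [Bs.el, hc])
    subst e
    exact ⟨rfl, h.2, by simp [Bs.dg]⟩
  | top => exact ⟨fun h => absurd rfl h, fun _ h => absurd rfl h, fun _ => ⟨rfl, by simp [Bs.dg]⟩⟩

theorem th_ok_el_dual {v : Q.V} {β : Bs Q} (h : okB U v β) (k : ℤ) :
    Ok v k (vtxB v β) (k + β.dg) 2 (Bs.el β.dual) := by
  cases β with
  | one => exact ⟨fun h => absurd rfl h, fun _ h => absurd rfl h, fun _ => ⟨rfl, by simp [Bs.dg]⟩⟩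
  | arr a =>
    refine ⟨fun h => absurd rfl h, fun b hb => ?_, fun h => absurd rfl h⟩
    have e : b = Q.bar a := by
      by_contra hc
      exact hb (by simp [Bs.el, Bs.dual, hc])
    subst e
    exact ⟨(Q.src_bar a).trans h.2, Q.tgt_bar a, by simp only [Bs.dg]; omega⟩
  | top => exact ⟨fun _ => ⟨rfl, rfl⟩, fun _ h => absurd rfl h, fun h => absurd rfl h⟩

theorem th_co_ne {u w : Q.V} {m l p : ℤ} {y : Z Q} (hy : Ok u m w l p y) {β : Bs Q}
    (h : Bs.co β y ≠ 0) : vtxB w β = u ∧ l + β.dg = m + p ∧ (U u → okB U w β) := by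
  cases β with
  | one =>
    obtain ⟨rfl, h2⟩ := hy.1 h
    exact ⟨rfl, by simp only [Bs.dg]; omega, id⟩
  | arr a =>
    obtain ⟨rfl, h2, h3⟩ := hy.2.1 a h
    exact ⟨rfl, by simp only [Bs.dg]; omega, fun h => ⟨h, h2⟩⟩
  | top =>
    obtain ⟨rfl, h2⟩ := hy.2.2 h
    exact ⟨rfl, by simp only [Bs.dg]; omega, id⟩

theorem th_sc_sum {α : Type*} (s : Finset α) (r : α → ℝ) :
    (Z.sc (∑ i ∈ s, r i) : Z Q) = ∑ i ∈ s, Z.sc (r i) := map_sum (Z.scHom Q) r s

theorem th_sc_mul (r s : ℝ) : (Z.sc (r * s) : Z Q) = Z.sc r * Z.sc s := map_mul (Z.scHom Q) r s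

theorem th_mul_sc (x : Z Q) (r : ℝ) : x * Z.sc r = r • x := by rw [mul_comm, Z.sc_mul]

theorem th_sum_sc (γ : Bs Q) (a b : Z Q) :
    ∑ β, (Z.sc (Bs.co γ (a * Bs.el β)) : Z Q) * Z.sc (Bs.co β b) = Z.sc (Bs.co γ (a * b)) := by
  conv_rhs => rw [← Bs.sum_co_smul_el b, Finset.mul_sum, Bs.co_sum, th_sc_sum]
  refine Finset.sum_congr rfl fun β _ => ?_
  rw [mul_smul_comm, Bs.co_smul, th_sc_mul, mul_comm]

theorem th_scalar {α β : Type} {c : Matrix α β (Z Q)} (h : Scalar c) (j : α) (i : β) :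
    c j i = Z.sc (c j i).c0 := by
  ext a
  · rfl
  · exact (h j i).1 a
  · exact (h j i).2

theorem th_sum_dual (y : Z Q) : ∑ β : Bs Q, Bs.co β.dual y • Bs.el β.dual = y := by
  conv_rhs => rw [← Bs.sum_co_smul_el y]
  exact Equiv.sum_comp (⟨Bs.dual, Bs.dual, Bs.dual_dual, Bs.dual_dual⟩ : Bs Q ≃ Bs Q)
    fun β => Bs.co β y • Bs.el β

theorem th_ThM_apply {F G : Gr Q} (f : Mor F G) (y : (ThGr U G).ι) (x : (ThGr U F).ι) :
    ThM U F G f y x = Z.sc (Bs.co y.1.2 (f y.1.1 x.1.1 * Bs.el x.1.2)) := rfl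

theorem th_shM_apply {F G : Gr Q} (f : Mor F G) (y : (ThGr U G).ι) (x : F.ι) :
    shM U F G f y x = Z.sc (Bs.co y.1.2 (f y.1.1 x)) := rfl

theorem U_vtx_ThGr {F : Gr Q} (x : (ThGr U F).ι) : U ((ThGr U F).vtx x) :=
  th_U_vtxB x.2

theorem sum_ThGr {F : Gr Q} {M : Type*} [AddCommMonoid M] (φ : F.ι → Bs Q → M)
    (h : ∀ j β, ¬ okB U (F.vtx j) β → φ j β = 0) :
    ∑ x : (ThGr U F).ι, φ x.1.1 x.1.2 = ∑ j, ∑ β, φ j β := by
  rw [← Fintype.sum_prod_type', ← Finset.sum_filter_of_ne (p := fun x : F.ι × Bs Q => okB U (F.vtx x.1) x.2)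
    fun x _ hx => by_contra fun hc => hx (h _ _ hc)]
  exact (Finset.sum_subtype _ (by simp) fun x : F.ι × Bs Q => φ x.1 x.2).symm

theorem co_eq_zero_of_not_okB {v w : Q.V} {k l p : ℤ} {x : Z Q} (hx : Ok v k w l p x)
    {β β' : Bs Q} (h : okB U v β) (h' : ¬ okB U w β') : Bs.co β' (x * Bs.el β) = 0 := by
  by_contra hc
  exact h' ((th_co_ne ((th_ok_el h k).mul hx) hc).2.2 (th_U_vtxB h))

theorem co_dual_eq_zero_of_not_okB {v w : Q.V} {k l p : ℤ} {x : Z Q} (hx : Ok v k w l p x)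
    {β β' : Bs Q} (h : ¬ okB U v β) (h' : okB U w β') : Bs.co β' (x * Bs.el β) = 0 := by
  by_contra hc
  rw [Bs.co_mul_el] at hc
  have h1 := hx.mul (th_ok_el_dual h' l)
  have h2 := th_U_vtxB h'
  apply h
  cases β with
  | one => exact (h1.2.2 hc).1 ▸ h2
  | arr a =>
    obtain ⟨e1, e2, -⟩ := h1.2.1 _ hc
    rw [Qv.tgt_bar] at e2
    exact ⟨e2 ▸ h2, (Q.src_bar a).symm.trans e1⟩
  | top => exact (h1.1 hc).1 ▸ h2

section
variable {F G H : Gr Q} {p q : ℤ} {f : Mor F G} {g : Mor G H}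

theorem ThM_scalar (f : Mor F G) : Scalar (ThM U F G f) :=
  fun _ _ => ⟨fun _ => rfl, rfl⟩

theorem ThM_hom (h : IsHom F G p f) : IsHom (ThGr U F) (ThGr U G) p (ThM U F G f) := by
  intro y x
  refine th_ok_sc fun hc => ?_
  have h1 := th_co_ne (U := U) ((th_ok_el x.2 _).mul (h y.1.1 x.1.1)) hc
  exact ⟨h1.1, h1.2.1.trans (by rw [zero_add]; rfl)⟩

theorem ThM_mul (hf : IsHom F G p f) (hg : IsHom G H q g) :
    ThM U F H (g * f) = ThM U G H g * ThM U F G f := by
  funext z x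
  rw [Matrix.mul_apply]
  simp only [th_ThM_apply]
  rw [sum_ThGr (fun j β => (Z.sc (Bs.co z.1.2 (g z.1.1 j * Bs.el β)) : Z Q) *
    Z.sc (Bs.co β (f j x.1.1 * Bs.el x.1.2))) fun j β hβ => by
      rw [co_eq_zero_of_not_okB (hf j x.1.1) x.2 hβ, Z.sc_zero, mul_zero]]
  simp only [th_sum_sc]
  rw [Matrix.mul_apply, Finset.sum_mul, Bs.co_sum, th_sc_sum]
  simp only [mul_assoc]

theorem ThM_one : ThM U F F 1 = 1 := by
  funext y x
  rw [th_ThM_apply]
  by_cases h : y = x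
  · subst h
    rw [Matrix.one_apply_eq, Matrix.one_apply_eq, one_mul, Bs.co_el, if_pos rfl, Z.sc_one]
  · rw [Matrix.one_apply_ne h]
    by_cases h1 : y.1.1 = x.1.1
    · rw [h1, Matrix.one_apply_eq, one_mul, Bs.co_el,
        if_neg fun h2 => h (Subtype.ext (Prod.ext h1 h2)), Z.sc_zero]
    · rw [Matrix.one_apply_ne h1, zero_mul, Bs.co_zero, Z.sc_zero]

theorem evM_hom : IsHom (ThGr U F) F 0 (evM U F) := by
  intro j x
  unfold evM
  split_ifs with h
  · subst h
    exact th_ok_el x.2 _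
  · exact Ok.zero _ _ _ _ _

theorem coevM_hom : IsHom F (ThGr U F) 2 (coevM U F) := by
  intro x j
  unfold coevM
  split_ifs with h
  · subst h
    exact th_ok_el_dual x.2 _
  · exact Ok.zero _ _ _ _ _

theorem th_evM_mul (φ : G.ι → Z Q) (j : G.ι)
    (h : ∀ j β, ¬ okB U (G.vtx j) β → Bs.co β (φ j) = 0) :
    ∑ y : (ThGr U G).ι, evM U G j y * Z.sc (Bs.co y.1.2 (φ y.1.1)) = φ j := by
  unfold evM
  rw [sum_ThGr (fun i β => (if j = i then Bs.el β else 0) * Z.sc (Bs.co β (φ i))) fun i β hβ => by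
    rw [h i β hβ, Z.sc_zero, mul_zero], Finset.sum_eq_single j]
  · simp only [if_true, th_mul_sc, Bs.sum_co_smul_el]
  · intro i _ hi
    simp only [if_neg hi.symm, zero_mul, Finset.sum_const_zero]
  · exact fun h => absurd (Finset.mem_univ _) h

theorem mul_evM (hf : IsHom F G p f) : f * evM U F = evM U G * ThM U F G f := by
  funext j x
  rw [Matrix.mul_apply, Matrix.mul_apply]
  simp only [th_ThM_apply]
  rw [th_evM_mul (fun i => f i x.1.1 * Bs.el x.1.2) j fun i β hβ =>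
    co_eq_zero_of_not_okB (hf i x.1.1) x.2 hβ]
  simp only [evM, mul_ite, mul_zero, Finset.sum_ite_eq', Finset.mem_univ, if_true]

/-- uses `Bs.co_mul_el` and `∑ β, co β.dual y • el β.dual = y` -/
theorem coevM_mul (hf : IsHom F G p f) : coevM U G * f = ThM U F G f * coevM U F := by
  funext y i
  rw [Matrix.mul_apply, Matrix.mul_apply]
  simp only [th_ThM_apply, coevM]
  rw [sum_ThGr (fun j β => (Z.sc (Bs.co y.1.2 (f y.1.1 j * Bs.el β)) : Z Q) *
    if j = i then Bs.el β.dual else 0) fun j β hβ => by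
      rw [co_dual_eq_zero_of_not_okB (hf y.1.1 j) hβ y.2, Z.sc_zero, zero_mul],
    Finset.sum_eq_single i]
  · simp only [ite_mul, zero_mul, Finset.sum_ite_eq, Finset.mem_univ, if_true, Z.sc_mul,
      Bs.co_mul_el _ y.1.2, th_sum_dual]
  · intro j _ hj
    simp only [if_neg hj, mul_zero, Finset.sum_const_zero]
  · exact fun h => absurd (Finset.mem_univ _) h

theorem shM_scalar (f : Mor F G) : Scalar (shM U F G f) :=
  fun _ _ => ⟨fun _ => rfl, rfl⟩

theorem shM_hom (hF : ∀ i, U (F.vtx i)) (h : IsHom F G p f) :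
    IsHom F (ThGr U G) p (shM U F G f) := by
  intro y x
  refine th_ok_sc fun hc => ?_
  have h1 := th_co_ne (U := U) (h y.1.1 x) hc
  exact ⟨h1.1, h1.2.1⟩

theorem evM_mul_shM (hF : ∀ i, U (F.vtx i)) (h : IsHom F G p f) : evM U G * shM U F G f = f := by
  funext j i
  rw [Matrix.mul_apply]
  simp only [th_shM_apply]
  exact th_evM_mul (fun j => f j i) j fun j β hβ =>
    by_contra fun hc => hβ ((th_co_ne (h j i) hc).2.2 (hF i))

theorem shM_evM_mul {ψ : Mor F (ThGr U G)} (h : Scalar ψ) : shM U F G (evM U G * ψ) = ψ := by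
  funext y i
  rw [th_shM_apply, Matrix.mul_apply, Bs.co_sum, Finset.sum_eq_single y]
  · rw [evM, if_pos rfl, th_scalar h y i, th_mul_sc, Bs.co_smul, Bs.co_el, if_pos rfl, mul_one]
  · intro x _ hx
    rw [evM]
    split_ifs with h1
    · rw [th_scalar h x i, th_mul_sc, Bs.co_smul, Bs.co_el,
        if_neg fun h2 => hx (Subtype.ext (Prod.ext h1 h2)).symm, mul_zero]
    · rw [zero_mul, Bs.co_zero]
  · exact fun h => absurd (Finset.mem_univ _) h

theorem shM_mul_left (hF : ∀ i, U (F.vtx i)) (hf : IsHom F G p f) (hg : IsHom G H q g) :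
    shM U F H (g * f) = ThM U G H g * shM U F G f := by
  funext z i
  rw [Matrix.mul_apply]
  simp only [th_ThM_apply, th_shM_apply]
  rw [sum_ThGr (fun j β => (Z.sc (Bs.co z.1.2 (g z.1.1 j * Bs.el β)) : Z Q) *
    Z.sc (Bs.co β (f j i))) fun j β hβ => by
      rw [show Bs.co β (f j i) = 0 from
        by_contra fun hc => hβ ((th_co_ne (hf j i) hc).2.2 (hF i)), Z.sc_zero, mul_zero]]
  simp only [th_sum_sc]
  rw [Matrix.mul_apply, Bs.co_sum, th_sc_sum]

theorem shM_mul_right {c : Mor F G} (hc : Scalar c) (g : Mor G H) :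
    shM U F H (g * c) = shM U G H g * c := by
  funext z i
  rw [Matrix.mul_apply, th_shM_apply, Matrix.mul_apply, Bs.co_sum, th_sc_sum]
  refine Finset.sum_congr rfl fun j _ => ?_
  rw [th_shM_apply, th_scalar hc j i, th_mul_sc, Bs.co_smul, th_sc_mul, mul_comm]

end

variable (U)

/-- `Θ F` -/
def ThObj (F : Obj Q) : Obj Q where
  toGr := ThGr U F.toGr
  δ := ThM U F.toGr F.toGr F.δ
  hom := ThM_hom F.hom
  sq := by rw [← ThM_mul F.hom F.hom, F.sq, map_zero]

theorem closed_evM (F : Obj Q) : Closed (ThObj U F) F 0 (evM U F.toGr) :=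
  Closed.of_comm0 evM_hom (mul_evM F.hom)

theorem closed_coevM (F : Obj Q) : Closed F (ThObj U F) 2 (coevM U F.toGr) := by
  refine ⟨coevM_hom, ?_⟩
  have h : sg 2 = 1 := by simp [sg]
  change ThM U F.toGr F.toGr F.δ * coevM U F.toGr - sg 2 • (coevM U F.toGr * F.δ) = 0
  rw [h, one_smul]
  exact sub_eq_zero.2 (coevM_mul F.hom).symm

theorem closed_evM' (F : Obj Q) : Closed (shift 1 (ThObj U F)) F 1 (evM U F.toGr) :=
  (closed_shift_left 1).2 ((closed_evM U F).of_eq (by norm_num))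

theorem closed_coevM' (F : Obj Q) : Closed F (shift 1 (ThObj U F)) 1 (coevM U F.toGr) :=
  (closed_shift_right 1).2 ((closed_coevM U F).of_eq (by norm_num))

/-- the cone of `ev` -/
noncomputable def TmObj (F : Obj Q) : Obj Q :=
  ext F (shift 1 (ThObj U F)) (evM U F.toGr) (closed_evM' U F)

/-- the cocone of `coev` -/
noncomputable def TpObj (F : Obj Q) : Obj Q :=
  ext (shift 1 (ThObj U F)) F (coevM U F.toGr) (closed_coevM' U F)

/-- `Tm` on morphisms -/
noncomputable def TmM (F G : Obj Q) (p : ℤ) :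
    Mor F.toGr G.toGr →ₗ[ℝ] Mor (TmObj U F).toGr (TmObj U G).toGr where
  toFun f := fromBlocks f 0 0 (sg p • ThM U F.toGr G.toGr f)
  map_add' f g := by
    rw [map_add, smul_add]
    exact (by rw [fromBlocks_add]; simp :
      fromBlocks (f + g) 0 0 (sg p • ThM U F.toGr G.toGr f + sg p • ThM U F.toGr G.toGr g) =
        fromBlocks f 0 0 (sg p • ThM U F.toGr G.toGr f) +
          fromBlocks g 0 0 (sg p • ThM U F.toGr G.toGr g))
  map_smul' r f := by
    rw [map_smul, smul_comm]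
    exact (by rw [fromBlocks_smul]; simp :
      fromBlocks (r • f) 0 0 (r • sg p • ThM U F.toGr G.toGr f) =
        r • fromBlocks f 0 0 (sg p • ThM U F.toGr G.toGr f))

/-- `Tp` on morphisms -/
noncomputable def TpM (F G : Obj Q) (p : ℤ) :
    Mor F.toGr G.toGr →ₗ[ℝ] Mor (TpObj U F).toGr (TpObj U G).toGr where
  toFun f := fromBlocks (sg p • ThM U F.toGr G.toGr f) 0 0 f
  map_add' f g := by
    rw [map_add, smul_add]
    exact (by rw [fromBlocks_add]; simp :
      fromBlocks (sg p • ThM U F.toGr G.toGr f + sg p • ThM U F.toGr G.toGr g) 0 0 (f + g) =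
        fromBlocks (sg p • ThM U F.toGr G.toGr f) 0 0 f +
          fromBlocks (sg p • ThM U F.toGr G.toGr g) 0 0 g)
  map_smul' r f := by
    rw [map_smul, smul_comm]
    exact (by rw [fromBlocks_smul]; simp :
      fromBlocks (r • sg p • ThM U F.toGr G.toGr f) 0 0 (r • f) =
        r • fromBlocks (sg p • ThM U F.toGr G.toGr f) 0 0 f)

section
variable {F G H : Obj Q} {p q : ℤ} {f : Mor F.toGr G.toGr} {g : Mor G.toGr H.toGr}

theorem th_hom_shift (h : IsHom F.toGr G.toGr p f) :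
    IsHom (shift 1 (ThObj U F)).toGr (shift 1 (ThObj U G)).toGr p
      (sg p • ThM U F.toGr G.toGr f) := fun j i =>
  (((ThM_hom (U := U) h).smul (sg p)) j i).of_eq (by
    change (ThGr U G.toGr).deg j - 1 - ((ThGr U F.toGr).deg i - 1) - p = _
    omega)

theorem th_mul_aux (hf : IsHom F.toGr G.toGr p f) (hg : IsHom G.toGr H.toGr q g) :
    sg (p + q) • ThM U F.toGr H.toGr (g * f) =
      (sg q • ThM U G.toGr H.toGr g) * (sg p • ThM U F.toGr G.toGr f) := by
  rw [ThM_mul hf hg, Matrix.smul_mul, Matrix.mul_smul, smul_smul, sg_add, mul_comm]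

theorem th_D_aux (h : IsHom F.toGr G.toGr p f) :
    sg (p + 1) • ThM U F.toGr G.toGr (Dd F G p f) =
      (sg 1 • ThM U G.toGr G.toGr G.δ) * (sg p • ThM U F.toGr G.toGr f) -
        sg p • ((sg p • ThM U F.toGr G.toGr f) * (sg 1 • ThM U F.toGr F.toGr F.δ)) := by
  rw [← th_mul_aux U h G.hom, ← th_mul_aux U F.hom h, Dd, map_sub, map_smul, smul_sub, add_comm 1 p,
    smul_comm]

theorem th_blocks {α β γ δ : Type} (r : ℝ) (a a' : Matrix α γ (Z Q)) (b b' : Matrix α δ (Z Q))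
    (c c' : Matrix β γ (Z Q)) (d d' : Matrix β δ (Z Q)) :
    fromBlocks a b c d - r • fromBlocks a' b' c' d' =
      fromBlocks (a - r • a') (b - r • b') (c - r • c') (d - r • d') := by
  funext i j
  rcases i with i | i <;> rcases j with j | j <;> rfl

theorem TmM_hom (h : IsHom F.toGr G.toGr p f) :
    IsHom (TmObj U F).toGr (TmObj U G).toGr p (TmM U F G p f) :=
  isHom_fromBlocks (closed_evM' U F) (closed_evM' U G) h IsHom.zero IsHom.zero (th_hom_shift U h)

theorem TmM_mul (hf : IsHom F.toGr G.toGr p f) (hg : IsHom G.toGr H.toGr q g) :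
    TmM U F H (p + q) (g * f) = TmM U G H q g * TmM U F G p f := by
  change fromBlocks (g * f) 0 0 (sg (p + q) • ThM U F.toGr H.toGr (g * f)) =
    fromBlocks g 0 0 (sg q • ThM U G.toGr H.toGr g) * fromBlocks f 0 0 (sg p • ThM U F.toGr G.toGr f)
  rw [fromBlocks_multiply, th_mul_aux U hf hg]
  simp only [Matrix.mul_zero, Matrix.zero_mul, add_zero, zero_add]

theorem TmM_one (F : Obj Q) : TmM U F F 0 1 = 1 := by
  change fromBlocks 1 0 0 (sg 0 • ThM U F.toGr F.toGr 1) =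
    (1 : Matrix (F.ι ⊕ (ThGr U F.toGr).ι) (F.ι ⊕ (ThGr U F.toGr).ι) (Z Q))
  rw [ThM_one, sg_zero, one_smul, fromBlocks_one]

theorem TmM_D (h : IsHom F.toGr G.toGr p f) :
    TmM U F G (p + 1) (Dd F G p f) = Dd (TmObj U F) (TmObj U G) p (TmM U F G p f) := by
  change fromBlocks (Dd F G p f) 0 0 (sg (p + 1) • ThM U F.toGr G.toGr (Dd F G p f)) =
    fromBlocks G.δ (evM U G.toGr) 0 (sg 1 • ThM U G.toGr G.toGr G.δ) *
        fromBlocks f 0 0 (sg p • ThM U F.toGr G.toGr f) -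
      sg p • (fromBlocks f 0 0 (sg p • ThM U F.toGr G.toGr f) *
        fromBlocks F.δ (evM U F.toGr) 0 (sg 1 • ThM U F.toGr F.toGr F.δ))
  rw [fromBlocks_multiply, fromBlocks_multiply, th_blocks, th_D_aux U h, mul_evM h]
  simp only [Matrix.mul_zero, Matrix.zero_mul, add_zero, zero_add, smul_zero,
    Matrix.mul_smul (evM U G.toGr), sub_self, Dd]

theorem TpM_hom (h : IsHom F.toGr G.toGr p f) :
    IsHom (TpObj U F).toGr (TpObj U G).toGr p (TpM U F G p f) :=
  isHom_fromBlocks (closed_coevM' U F) (closed_coevM' U G) (th_hom_shift U h) IsHom.zero IsHom.zero h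

theorem TpM_mul (hf : IsHom F.toGr G.toGr p f) (hg : IsHom G.toGr H.toGr q g) :
    TpM U F H (p + q) (g * f) = TpM U G H q g * TpM U F G p f := by
  change fromBlocks (sg (p + q) • ThM U F.toGr H.toGr (g * f)) 0 0 (g * f) =
    fromBlocks (sg q • ThM U G.toGr H.toGr g) 0 0 g * fromBlocks (sg p • ThM U F.toGr G.toGr f) 0 0 f
  rw [fromBlocks_multiply, th_mul_aux U hf hg]
  simp only [Matrix.mul_zero, Matrix.zero_mul, add_zero, zero_add]

theorem TpM_one (F : Obj Q) : TpM U F F 0 1 = 1 := by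
  change fromBlocks (sg 0 • ThM U F.toGr F.toGr 1) 0 0 1 =
    (1 : Matrix ((ThGr U F.toGr).ι ⊕ F.ι) ((ThGr U F.toGr).ι ⊕ F.ι) (Z Q))
  rw [ThM_one, sg_zero, one_smul, fromBlocks_one]

theorem TpM_D (h : IsHom F.toGr G.toGr p f) :
    TpM U F G (p + 1) (Dd F G p f) = Dd (TpObj U F) (TpObj U G) p (TpM U F G p f) := by
  change fromBlocks (sg (p + 1) • ThM U F.toGr G.toGr (Dd F G p f)) 0 0 (Dd F G p f) =
    fromBlocks (sg 1 • ThM U G.toGr G.toGr G.δ) (coevM U G.toGr) 0 G.δ *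
        fromBlocks (sg p • ThM U F.toGr G.toGr f) 0 0 f -
      sg p • (fromBlocks (sg p • ThM U F.toGr G.toGr f) 0 0 f *
        fromBlocks (sg 1 • ThM U F.toGr F.toGr F.δ) (coevM U F.toGr) 0 F.δ)
  rw [fromBlocks_multiply, fromBlocks_multiply, th_blocks, th_D_aux U h, coevM_mul h]
  simp only [Matrix.mul_zero, Matrix.zero_mul, add_zero, zero_add, smul_zero,
    Matrix.smul_mul _ _ (coevM U F.toGr), smul_smul, sg_mul_self, one_smul, sub_self, Dd]

end

/-- the twist functor with `S_v ↦ S_v[-1]` -/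
noncomputable def Tm : DGFun Q where
  obj := TmObj U
  map := TmM U
  map_hom := TmM_hom U
  map_mul := TmM_mul U
  map_one := TmM_one U
  map_D := TmM_D U

/-- the inverse twist functor -/
noncomputable def Tp : DGFun Q where
  obj := TpObj U
  map := TpM U
  map_hom := TpM_hom U
  map_mul := TpM_mul U
  map_one := TpM_one U
  map_D := TpM_D U

theorem tri_Tm (F : Obj Q) : Tri F ((Tm U).obj F) (shift 1 (ThObj U F)) :=
  tri_ext (closed_evM' U F)

theorem tri_Tp (F : Obj Q) : Tri (shift 1 (ThObj U F)) ((Tp U).obj F) F :=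
  tri_ext (closed_coevM' U F)

end Crest.Agent.R175
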