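import Crest.Agent.R175.Fun
import Crest.Agent.R175.Coh

/-!
# R175: extensions and triangles.
`ext A C u` has the block maps `in1 = fromRows 1 0 : A → ext` (closed), `pr2 = fromCols 0 1 : ext → C`
(closed), `in2 = fromRows 0 1`, `pr1 = fromCols 1 0`.
-/

set_option autoImplicit false

namespace Crest.Agent.R175

open Matrix

variable {Q : Qv} {A B C A' B' C' X : Obj Q} {p : ℤ}

/-- the inclusion of the sub-object -/
def extIn (A C : Obj Q) : Matrix (A.ι ⊕ C.ι) A.ι (Z Q) := fromRows 1 0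
/-- the projection to the quotient -/
def extPr (A C : Obj Q) : Matrix C.ι (A.ι ⊕ C.ι) (Z Q) := fromCols 0 1

theorem tri_isHom_fromRows {u : Mor C.toGr A.toGr} (hu : Closed C A 1 u) {a : Mor X.toGr A.toGr}
    {c : Mor X.toGr C.toGr} (ha : IsHom X.toGr A.toGr p a) (hc : IsHom X.toGr C.toGr p c) :
    IsHom X.toGr (ext A C u hu).toGr p (fromRows a c) := by
  rintro (j | j) i
  · exact ha j i
  · exact hc j i

theorem tri_isHom_fromCols {u : Mor C.toGr A.toGr} (hu : Closed C A 1 u) {a : Mor A.toGr X.toGr}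
    {c : Mor C.toGr X.toGr} (ha : IsHom A.toGr X.toGr p a) (hc : IsHom C.toGr X.toGr p c) :
    IsHom (ext A C u hu).toGr X.toGr p (fromCols a c) := by
  rintro j (i | i)
  · exact ha j i
  · exact hc j i

theorem tri_Dd_fromRows {u : Mor C.toGr A.toGr} (hu : Closed C A 1 u) (a : Mor X.toGr A.toGr)
    (c : Mor X.toGr C.toGr) :
    Dd X (ext A C u hu) p (fromRows a c) = fromRows (Dd X A p a + u * c) (Dd X C p c) := by
  change fromBlocks A.δ u 0 C.δ * fromRows a c - sg p • (fromRows a c * X.δ) = _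
  rw [fromBlocks_mul_fromRows, fromRows_mul]
  refine Matrix.ext ?_
  rintro (j | j) i
  · simp only [Dd, Matrix.sub_apply, Matrix.add_apply, Matrix.smul_apply, fromRows_apply_inl]
    abel
  · simp [Dd]

theorem tri_Dd_fromCols {u : Mor C.toGr A.toGr} (hu : Closed C A 1 u) (a : Mor A.toGr X.toGr)
    (c : Mor C.toGr X.toGr) :
    Dd (ext A C u hu) X p (fromCols a c) =
      fromCols (Dd A X p a) (Dd C X p c - sg p • (a * u)) := by
  change X.δ * fromCols a c - sg p • (fromCols a c * fromBlocks A.δ u 0 C.δ) = _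
  rw [fromCols_mul_fromBlocks, mul_fromCols]
  refine Matrix.ext ?_
  rintro j (i | i)
  · simp [Dd]
  · simp only [Dd, Matrix.sub_apply, Matrix.add_apply, Matrix.smul_apply, fromCols_apply_inr,
      smul_add]
    abel

theorem tri_Dd_fromBlocks {u : Mor C.toGr A.toGr} (hu : Closed C A 1 u) {u' : Mor C'.toGr A'.toGr}
    (hu' : Closed C' A' 1 u') (a : Mor A.toGr A'.toGr) (b : Mor C.toGr A'.toGr)
    (c : Mor A.toGr C'.toGr) (d : Mor C.toGr C'.toGr) :
    Dd (ext A C u hu) (ext A' C' u' hu') p (fromBlocks a b c d) =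
      fromBlocks (Dd A A' p a + u' * c) (Dd C A' p b + u' * d - sg p • (a * u)) (Dd A C' p c)
        (Dd C C' p d - sg p • (c * u)) := by
  change fromBlocks A'.δ u' 0 C'.δ * fromBlocks a b c d -
    sg p • (fromBlocks a b c d * fromBlocks A.δ u 0 C.δ) = _
  rw [fromBlocks_multiply, fromBlocks_multiply]
  refine Matrix.ext ?_
  rintro (j | j) (i | i) <;>
    simp only [Dd, Matrix.sub_apply, Matrix.add_apply, Matrix.smul_apply, fromBlocks_apply₁₁,
      fromBlocks_apply₁₂, fromBlocks_apply₂₁, fromBlocks_apply₂₂, smul_add, Matrix.mul_zero,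
      Matrix.zero_mul, Matrix.zero_apply, smul_zero] <;> abel

/-- the second inclusion -/
def triIn2 (A C : Obj Q) : Matrix (A.ι ⊕ C.ι) C.ι (Z Q) := fromRows 0 1
/-- the first projection -/
def triPr1 (A C : Obj Q) : Matrix A.ι (A.ι ⊕ C.ι) (Z Q) := fromCols 1 0

theorem tri_pr1_in (A C : Obj Q) : triPr1 A C * extIn A C = 1 := by
  rw [triPr1, extIn, fromCols_mul_fromRows]
  simp

theorem tri_pr_in2 (A C : Obj Q) : extPr A C * triIn2 A C = 1 := by
  rw [triIn2, extPr, fromCols_mul_fromRows]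
  simp

theorem tri_pr_in (A C : Obj Q) : extPr A C * extIn A C = 0 := by
  rw [extIn, extPr, fromCols_mul_fromRows]
  simp

theorem tri_pr1_in2 (A C : Obj Q) : triPr1 A C * triIn2 A C = 0 := by
  rw [triIn2, triPr1, fromCols_mul_fromRows]
  simp

theorem tri_split (A C : Obj Q) : extIn A C * triPr1 A C + triIn2 A C * extPr A C = 1 := by
  rw [extIn, extPr, triIn2, triPr1, fromRows_mul_fromCols, fromRows_mul_fromCols, fromBlocks_add]
  simp

theorem tri_isHom_in2 {u : Mor C.toGr A.toGr} (hu : Closed C A 1 u) :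
    IsHom C.toGr (ext A C u hu).toGr 0 (triIn2 A C) :=
  tri_isHom_fromRows hu IsHom.zero IsHom.one

theorem tri_isHom_pr1 {u : Mor C.toGr A.toGr} (hu : Closed C A 1 u) :
    IsHom (ext A C u hu).toGr A.toGr 0 (triPr1 A C) :=
  tri_isHom_fromCols hu IsHom.one IsHom.zero

theorem tri_Dd_one (A : Obj Q) : Dd A A 0 1 = 0 := Closed.one.cl

theorem closed_extIn {u : Mor C.toGr A.toGr} (hu : Closed C A 1 u) :
    Closed A (ext A C u hu) 0 (extIn A C) := by
  refine ⟨tri_isHom_fromRows hu IsHom.one IsHom.zero, ?_⟩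
  unfold extIn
  rw [tri_Dd_fromRows, tri_Dd_one, Dd_zero, Matrix.mul_zero, add_zero]
  exact fromRows_zero

theorem closed_extPr {u : Mor C.toGr A.toGr} (hu : Closed C A 1 u) :
    Closed (ext A C u hu) C 0 (extPr A C) := by
  refine ⟨tri_isHom_fromCols hu IsHom.zero IsHom.one, ?_⟩
  unfold extPr
  rw [tri_Dd_fromCols, tri_Dd_one, Dd_zero, Matrix.zero_mul, smul_zero, sub_zero]
  exact fromCols_zero

theorem tri_Dd_in2 {u : Mor C.toGr A.toGr} (hu : Closed C A 1 u) :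
    Dd C (ext A C u hu) 0 (triIn2 A C) = extIn A C * u := by
  rw [triIn2, tri_Dd_fromRows, tri_Dd_one, Dd_zero, Matrix.mul_one, zero_add, extIn, fromRows_mul,
    Matrix.one_mul, Matrix.zero_mul]

theorem tri_Dd_pr1 {u : Mor C.toGr A.toGr} (hu : Closed C A 1 u) :
    Dd (ext A C u hu) A 0 (triPr1 A C) = -u * extPr A C := by
  rw [triPr1, tri_Dd_fromCols, tri_Dd_one, Dd_zero, extPr, mul_fromCols]
  simp

/-- `extIn * u = D in2` -/
theorem exact_extIn_mul {u : Mor C.toGr A.toGr} (hu : Closed C A 1 u) :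
    Exact C (ext A C u hu) 1 (extIn A C * u) := by
  exact ⟨triIn2 A C, (tri_isHom_in2 hu).of_eq (sub_self 1).symm, by rw [sub_self, tri_Dd_in2]⟩

/-- block matrices between extensions -/
theorem isHom_fromBlocks {u : Mor C.toGr A.toGr} (hu : Closed C A 1 u) {u' : Mor C'.toGr A'.toGr}
    (hu' : Closed C' A' 1 u') {a : Mor A.toGr A'.toGr} {b : Mor C.toGr A'.toGr}
    {c : Mor A.toGr C'.toGr} {d : Mor C.toGr C'.toGr} (ha : IsHom A.toGr A'.toGr p a)
    (hb : IsHom C.toGr A'.toGr p b) (hc : IsHom A.toGr C'.toGr p c)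
    (hd : IsHom C.toGr C'.toGr p d) :
    IsHom (ext A C u hu).toGr (ext A' C' u' hu').toGr p (fromBlocks a b c d) := by
  rintro (j | j) (i | i)
  · exact ha j i
  · exact hb j i
  · exact hc j i
  · exact hd j i

/-- two out of six -/
theorem tri_isHE_of_both {f : Mor A.toGr B.toGr} {g : Mor B.toGr A.toGr} (hf : Closed A B 0 f)
    (hg : Closed B A 0 g) (h1 : IsHE A A (g * f)) (h2 : IsHE B B (f * g)) : IsHE A B f := by
  obtain ⟨-, e, he, he1, -⟩ := h1
  obtain ⟨-, e', he', -, he2⟩ := h2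
  refine ⟨hf, e * g, hg.mul0 he, by rwa [Matrix.mul_assoc], ?_⟩
  have h : f * (e * g) - 1 = f * ((e * (g * f) - 1) * (g * e')) + (f * g * e' - 1) -
      f * (e * g) * (f * g * e' - 1) := by
    simp only [Matrix.mul_sub, Matrix.sub_mul, Matrix.mul_assoc, Matrix.mul_one, Matrix.one_mul]
    abel
  rw [h]
  refine (Exact.add ?_ he2).sub ?_
  · exact (Exact.closed_mul (Exact.mul_closed (he'.mul0 hg) he1) hf).of_eq (by norm_num)
  · exact (Exact.closed_mul he2 ((hg.mul0 he).mul0 hf)).of_eq (by norm_num)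

theorem tri_closed_blocks {u : Mor C.toGr A.toGr} (hu : Closed C A 1 u) {u' : Mor C'.toGr A'.toGr}
    (hu' : Closed C' A' 1 u') {φ : Mor A.toGr A'.toGr} {ψ : Mor C.toGr C'.toGr}
    (hφ : Closed A A' 0 φ) (hψ : Closed C C' 0 ψ) (h : Exact C A' 1 (φ * u - u' * ψ)) :
    ∃ t : Mor C.toGr A'.toGr, IsHom C.toGr A'.toGr 0 t ∧
      Closed (ext A C u hu) (ext A' C' u' hu') 0 (fromBlocks φ t 0 ψ) := by
  obtain ⟨t, ht, e⟩ := h
  rw [sub_self] at ht e
  refine ⟨t, ht, isHom_fromBlocks hu hu' hφ.hom ht IsHom.zero hψ.hom, ?_⟩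
  rw [tri_Dd_fromBlocks, hφ.cl, hψ.cl, Dd_zero, ← e]
  simp only [Matrix.mul_zero, Matrix.zero_mul, add_zero, smul_zero, sg_zero, one_smul,
    sub_add_cancel, sub_self]
  exact fromBlocks_zero

theorem tri_unip_mul (s t : Mor C.toGr A.toGr) (h : t + s = 0) :
    (fromBlocks 1 s 0 1 : Matrix (A.ι ⊕ C.ι) (A.ι ⊕ C.ι) (Z Q)) *
      (fromBlocks 1 t 0 1 : Matrix (A.ι ⊕ C.ι) (A.ι ⊕ C.ι) (Z Q)) = 1 := by
  rw [fromBlocks_multiply]
  simp [h]

theorem tri_unip {u : Mor C.toGr A.toGr} (hu : Closed C A 1 u) {φ : Mor A.toGr A.toGr}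
    {ψ : Mor C.toGr C.toGr} {s : Mor C.toGr A.toGr} (hφ : Exact A A 0 (φ - 1))
    (hψ : Exact C C 0 (ψ - 1))
    (h : Closed (ext A C u hu) (ext A C u hu) 0 (fromBlocks φ s 0 ψ)) :
    IsHE (ext A C u hu) (ext A C u hu) (fromBlocks φ s 0 ψ) := by
  obtain ⟨a, ha, ea⟩ := hφ
  obtain ⟨c, hc, ec⟩ := hψ
  have hD : Exact (ext A C u hu) (ext A C u hu) 0
      (fromBlocks (φ - 1) (u * c + a * u) 0 (ψ - 1)) := by
    refine ⟨fromBlocks a 0 0 c, isHom_fromBlocks hu hu ha IsHom.zero IsHom.zero hc, ?_⟩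
    rw [tri_Dd_fromBlocks, ← ea, ← ec, Dd_zero, Dd_zero]
    simp only [Matrix.mul_zero, Matrix.zero_mul, add_zero, smul_zero, sub_zero, zero_add,
      sg_sub_one, sg_zero, neg_smul, one_smul, sub_neg_eq_add]
  set s' : Mor C.toGr A.toGr := s - (u * c + a * u) with hs'
  have e : (fromBlocks φ s 0 ψ - fromBlocks (φ - 1) (u * c + a * u) 0 (ψ - 1) :
      Matrix (A.ι ⊕ C.ι) (A.ι ⊕ C.ι) (Z Q)) = fromBlocks 1 s' 0 1 := by
    refine Matrix.ext ?_
    rintro (j | j) (i | i) <;> simp [hs']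
  have hU : Closed (ext A C u hu) (ext A C u hu) 0 (fromBlocks 1 s' 0 1) := e ▸ h.sub hD.closed
  have hs : IsHom C.toGr A.toGr 0 s' := fun j i => hU.hom (Sum.inl j) (Sum.inr i)
  have hI : IsHE (ext A C u hu) (ext A C u hu) (fromBlocks 1 s' 0 1) := by
    refine IsHE.of_inv (g := fromBlocks 1 (-s') 0 1) hU
      (isHom_fromBlocks hu hu IsHom.one hs.neg IsHom.zero IsHom.one) ?_ ?_
    · exact tri_unip_mul _ _ (add_neg_cancel _)
    · exact tri_unip_mul _ _ (neg_add_cancel _)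
  refine hI.of_exact_sub ?_
  have e' : (fromBlocks φ s 0 ψ - fromBlocks 1 s' 0 1 : Matrix (A.ι ⊕ C.ι) (A.ι ⊕ C.ι) (Z Q)) =
      fromBlocks (φ - 1) (u * c + a * u) 0 (ψ - 1) := by
    rw [← e, sub_sub_cancel]
  exact e' ▸ hD

/-- Functoriality of extensions.  If `φ u - u' ψ = D t` (`t` of degree `0`), the block matrix
`M = fromBlocks φ (-t) 0 ψ` (or `t`, check the sign) is closed.  With homotopy inverses `φ', ψ'` one
gets a closed `M'` the other way round; `M' M` is homotopic to `fromBlocks 1 s 0 1` (subtract `D` of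
the block diagonal homotopy), which is closed and invertible.  So `M` has a left and a right
homotopy inverse.  (Alternatively: five lemma and `isHE_of_quasiIso`, importing `MM`.) -/
theorem ext_congr {u : Mor C.toGr A.toGr} (hu : Closed C A 1 u) {u' : Mor C'.toGr A'.toGr}
    (hu' : Closed C' A' 1 u') {φ : Mor A.toGr A'.toGr} {ψ : Mor C.toGr C'.toGr} (hφ : IsHE A A' φ)
    (hψ : IsHE C C' ψ) (h : Exact C A' 1 (φ * u - u' * ψ)) :
    HE (ext A C u hu) (ext A' C' u' hu') := by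
  obtain ⟨φ', hφ', hφ1, hφ2⟩ := hφ.exists_inv
  obtain ⟨ψ', hψ', hψ1, hψ2⟩ := hψ.exists_inv
  have h' : Exact C' A 1 (φ' * u' - u * ψ') := by
    have e : φ' * u' - u * ψ' = (φ' * φ - 1) * (u * ψ') - φ' * ((φ * u - u' * ψ) * ψ') -
        φ' * u' * (ψ * ψ' - 1) := by
      simp only [Matrix.mul_sub, Matrix.sub_mul, Matrix.mul_assoc, Matrix.mul_one, Matrix.one_mul]
      abel
    rw [e]
    refine (Exact.sub ?_ ?_).sub ?_
    · exact (Exact.mul_closed (hψ'.closed.mul hu) hφ1).of_eq (by norm_num)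
    · exact (Exact.closed_mul (Exact.mul_closed hψ'.closed h) hφ'.closed).of_eq (by norm_num)
    · exact (Exact.closed_mul hψ2 (hu'.mul hφ'.closed)).of_eq (by norm_num)
  obtain ⟨t, ht, hM⟩ := tri_closed_blocks hu hu' hφ.closed hψ.closed h
  obtain ⟨t', ht', hM'⟩ := tri_closed_blocks hu' hu hφ'.closed hψ'.closed h'
  refine ⟨_, tri_isHE_of_both hM hM' ?_ ?_⟩
  · have hc := hM.mul0 hM'
    have e : (fromBlocks φ' t' 0 ψ' * fromBlocks φ t 0 ψ : Matrix (A.ι ⊕ C.ι) (A.ι ⊕ C.ι) (Z Q)) =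
        fromBlocks (φ' * φ) (φ' * t + t' * ψ) 0 (ψ' * ψ) := by
      rw [fromBlocks_multiply]
      simp
    exact e ▸ tri_unip hu hφ1 hψ1 (e ▸ hc)
  · have hc := hM'.mul0 hM
    have e : (fromBlocks φ t 0 ψ * fromBlocks φ' t' 0 ψ' :
        Matrix (A'.ι ⊕ C'.ι) (A'.ι ⊕ C'.ι) (Z Q)) =
        fromBlocks (φ * φ') (φ * t' + t * ψ') 0 (ψ * ψ') := by
      rw [fromBlocks_multiply]
      simp
    exact e ▸ tri_unip hu' hφ2 hψ2 (e ▸ hc)

/-- recognition of extensions: `fromCols i j` and `fromRows r q` are inverse isomorphisms -/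
theorem he_ext_of_data {u : Mor C.toGr A.toGr} (hu : Closed C A 1 u) {i : Mor A.toGr B.toGr}
    {q : Mor B.toGr C.toGr} {j : Mor C.toGr B.toGr} {r : Mor B.toGr A.toGr}
    (hi : Closed A B 0 i) (hq : IsHom B.toGr C.toGr 0 q) (hj : IsHom C.toGr B.toGr 0 j)
    (hr : IsHom B.toGr A.toGr 0 r) (hri : r * i = 1) (hqj : q * j = 1) (hqi : q * i = 0)
    (hrj : r * j = 0) (hs : i * r + j * q = 1) (hD : Dd C B 0 j = i * u) :
    HE B (ext A C u hu) := by
  refine HE.symm ⟨fromCols i j, IsHE.of_inv (g := fromRows r q) ⟨tri_isHom_fromCols hu hi.hom hj, ?_⟩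
    (tri_isHom_fromRows hu hr hq) ?_ ?_⟩
  · rw [tri_Dd_fromCols, hi.cl, hD, sg_zero, one_smul, sub_self]
    exact fromCols_zero
  · change (fromRows r q * fromCols i j : Matrix (A.ι ⊕ C.ι) (A.ι ⊕ C.ι) (Z Q)) = 1
    rw [fromRows_mul_fromCols, hri, hqj, hqi, hrj, fromBlocks_one]
  · change (fromCols i j * fromRows r q : Matrix B.ι B.ι (Z Q)) = 1
    rw [fromCols_mul_fromRows, hs]

theorem tri_map_mul0 (Φ : DGFun Q) {f : Mor A.toGr B.toGr} {g : Mor B.toGr C.toGr}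
    (hf : IsHom A.toGr B.toGr 0 f) (hg : IsHom B.toGr C.toGr 0 g) :
    Φ.map A C 0 (g * f) = Φ.map B C 0 g * Φ.map A B 0 f :=
  Φ.map_mul hf hg

/-- apply `Φ.map` to `in1, in2, pr1, pr2` and use `he_ext_of_data` -/
theorem DGFun.map_ext (Φ : DGFun Q) {u : Mor C.toGr A.toGr} (hu : Closed C A 1 u) :
    HE (Φ.obj (ext A C u hu)) (ext (Φ.obj A) (Φ.obj C) (Φ.map C A 1 u) (Φ.map_closed hu)) := by
  have hi := closed_extIn hu
  have hq := closed_extPr hu
  have hj := tri_isHom_in2 hu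
  have hr := tri_isHom_pr1 hu
  refine he_ext_of_data _ (Φ.map_closed hi) (Φ.map_hom hq.hom) (Φ.map_hom hj) (Φ.map_hom hr)
    ?_ ?_ ?_ ?_ ?_ ?_
  · rw [← tri_map_mul0 Φ hi.hom hr, ← Φ.map_one]
    exact congrArg _ (tri_pr1_in A C)
  · rw [← tri_map_mul0 Φ hj hq.hom, ← Φ.map_one]
    exact congrArg _ (tri_pr_in2 A C)
  · rw [← tri_map_mul0 Φ hi.hom hq.hom, ← map_zero (Φ.map A C 0)]
    exact congrArg _ (tri_pr_in A C)
  · rw [← tri_map_mul0 Φ hj hr, ← map_zero (Φ.map C A 0)]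
    exact congrArg _ (tri_pr1_in2 A C)
  · rw [← tri_map_mul0 Φ hr hi.hom, ← tri_map_mul0 Φ hq.hom hj, ← map_add, ← Φ.map_one]
    exact congrArg _ (tri_split A C)
  · rw [← Φ.map_D hj, tri_Dd_in2, ← Φ.map_mul hu.hom hi.hom]
    rfl

theorem DGFun.map_tri (Φ : DGFun Q) (h : Tri A B C) : Tri (Φ.obj A) (Φ.obj B) (Φ.obj C) := by
  obtain ⟨u, hu, h⟩ := h
  exact ⟨_, Φ.map_closed hu, (Φ.map_he h).trans (Φ.map_ext hu)⟩

theorem tri_ext {u : Mor C.toGr A.toGr} (hu : Closed C A 1 u) : Tri A (ext A C u hu) C :=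
  ⟨u, hu, HE.refl _⟩

theorem Tri.congr (h : Tri A B C) (hA : HE A A') (hB : HE B B') (hC : HE C C') : Tri A' B' C' := by
  obtain ⟨u, hu, h⟩ := h
  obtain ⟨φ, hφ⟩ := hA
  obtain ⟨ψ, hψ⟩ := hC
  obtain ⟨ψ', hψ', hψ1, -⟩ := hψ.exists_inv
  have hu' : Closed C' A' 1 (φ * u * ψ') :=
    (hψ'.closed.mul (hu.mul hφ.closed)).of_eq (by norm_num)
  refine ⟨_, hu', (hB.symm.trans h).trans (ext_congr hu hu' hφ hψ ?_)⟩
  have e : φ * u - φ * u * ψ' * ψ = -(φ * u * (ψ' * ψ - 1)) := by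
    simp only [Matrix.mul_sub, Matrix.mul_assoc, Matrix.mul_one, neg_sub]
  rw [e]
  exact ((Exact.closed_mul hψ1 (hu.mul hφ.closed)).of_eq (by norm_num)).neg

theorem tri_rot_mat {α β γ R : Type} [Fintype α] [Fintype β] [Fintype γ] [DecidableEq β]
    [DecidableEq γ] [CommRing R] {i : Matrix γ α R} {x : Matrix α β R} {r : Matrix α γ R}
    {s : Matrix γ γ R} (h : i * r + s = 1) :
    fromRows (0 : Matrix β α R) i * fromCols x r - 1 = fromBlocks (-1) 0 (i * x) (-s) := by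
  rw [fromRows_mul_fromCols, ← fromBlocks_one, sub_eq_add_neg, fromBlocks_neg, fromBlocks_add, ← h]
  simp

theorem tri_he_rot {w : Mor B.toGr X.toGr} (hw : Closed B X 1 w) {i : Mor A.toGr B.toGr}
    {x : Mor X.toGr A.toGr} {r : Mor B.toGr A.toGr} {y : Mor X.toGr B.toGr} (hi : Closed A B 0 i)
    (hx : Closed X A 0 x) (hr : IsHom B.toGr A.toGr 0 r) (hy : IsHom X.toGr B.toGr (0 - 1) y)
    (e1 : w * i = 0) (e2 : Dd B A 0 r = x * w) (e3 : r * i = 1) (e4 : w * y = 1)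
    (e5 : Dd X B (0 - 1) y = -(i * x)) (e6 : i * r + y * w = 1) : HE A (ext X B w hw) := by
  refine ⟨fromRows 0 i, ⟨tri_isHom_fromRows hw IsHom.zero hi.hom, ?_⟩, fromCols x r,
    ⟨tri_isHom_fromCols hw hx.hom hr, ?_⟩, ?_, ?_⟩
  · rw [tri_Dd_fromRows, hi.cl, Dd_zero, zero_add, e1]
    exact fromRows_zero
  · rw [tri_Dd_fromCols, hx.cl, e2, sg_zero, one_smul, sub_self]
    exact fromCols_zero
  · have e : fromCols x r * fromRows (0 : Mor A.toGr X.toGr) i - 1 = 0 := by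
      rw [fromCols_mul_fromRows, e3]
      simp
    exact e ▸ Exact.zero
  · refine ⟨fromBlocks 0 0 (-y) 0,
      isHom_fromBlocks hw hw IsHom.zero IsHom.zero hy.neg IsHom.zero, ?_⟩
    rw [tri_Dd_fromBlocks, Dd_zero, Dd_zero, Dd_zero, Dd_neg, e5, Matrix.mul_neg, e4]
    refine (tri_rot_mat e6).trans ?_
    simp

/-- Rotation: for `B = ext A C u`, `extPr : B → C[-1]` is closed of degree one and
`ext (C[-1]) B extPr` (indices `C ⊕ (A ⊕ C)`) is homotopy equivalent to `A`: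
`I = (±u-free) : a ↦ (0, a, 0)`, `P : (c', a, c) ↦ a - u c'` (check the sign), homotopy
`(c', a, c) ↦ (0, 0, c')`. -/
theorem Tri.rot (h : Tri A B C) : Tri (shift (-1) C) A B := by
  obtain ⟨u, hu, h⟩ := h
  refine Tri.congr (A := shift (-1) C) (B := A) (C := ext A C u hu) ?_ (HE.refl _) (HE.refl _) h.symm
  have hw : Closed (ext A C u hu) (shift (-1) C) 1 (extPr A C) :=
    (closed_shift_right (-1)).2 ((closed_extPr hu).of_eq (by norm_num))
  have hx : Closed (shift (-1) C) A 0 (-u) :=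
    (closed_shift_left (-1)).2 (hu.neg.of_eq (by norm_num))
  have hy : IsHom (shift (-1) C).toGr (ext A C u hu).toGr (0 - 1) (triIn2 A C) := fun j i =>
    (tri_isHom_in2 hu j i).of_eq (by
      change _ - (C.deg i - (-1)) - (0 - 1) = _ - C.deg i - 0
      omega)
  refine ⟨extPr A C, hw, tri_he_rot hw (closed_extIn hu) hx (tri_isHom_pr1 hu) hy (tri_pr_in A C)
    (tri_Dd_pr1 hu) (tri_pr1_in A C) (tri_pr_in2 A C) ?_ (tri_split A C)⟩
  have e : fromBlocks A.δ u 0 C.δ * triIn2 A C - sg (0 - 1) • (triIn2 A C * (sg (-1) • C.δ)) =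
      -(extIn A C * (-u)) := by
    rw [Matrix.mul_neg, neg_neg, ← tri_Dd_in2 hu, Matrix.mul_smul, smul_smul]
    simp only [sg_sub_one, sg_zero, sg_neg, sg_one, neg_mul_neg, mul_one]
    change _ = fromBlocks A.δ u 0 C.δ * triIn2 A C - sg 0 • (triIn2 A C * C.δ)
    rw [sg_zero]
  exact e

theorem Tri.shift (h : Tri A B C) (n : ℤ) : Tri (shift n A) (shift n B) (shift n C) := by
  obtain ⟨u, hu, h⟩ := h
  have hu' : Closed (Crest.Agent.R175.shift n C) (Crest.Agent.R175.shift n A) 1 (sg n • u) :=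
    (closed_shift_right n).2 ((closed_shift_left n).2 ((hu.smul (sg n)).of_eq (by ring)))
  refine ⟨_, hu', (h.shift n).trans (HE.of_equiv (Equiv.refl (A.ι ⊕ C.ι)) ?_ ?_ ?_)⟩
  · rintro (i | i) <;> rfl
  · rintro (i | i) <;> rfl
  · rintro (j | j) (i | i)
    · rfl
    · rfl
    · exact (smul_zero (sg n)).symm
    · rfl

/-- rotation the other way (rotate twice and shift) -/
theorem Tri.rot' (h : Tri A B C) : Tri B C (Crest.Agent.R175.shift 1 A) := by
  have key : ∀ F : Obj Q, HE (Crest.Agent.R175.shift 1 (Crest.Agent.R175.shift (-1) F)) F :=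
    fun F => (shift_shift_he 1 (-1) F).trans (shift_zero_he F)
  exact (h.rot.rot.shift 1).congr (key B) (key C) (HE.refl _)

theorem Tri.he_of_contr_right (h : Tri A B C) (hC : Contr C) : HE A B := by
  obtain ⟨u, hu, h⟩ := h
  obtain ⟨k, hk, ek⟩ := hC
  refine HE.trans ⟨extIn A C, closed_extIn hu, fromCols 1 (-(u * k)),
    ⟨tri_isHom_fromCols hu IsHom.one ((hk.mul hu.hom).of_eq (by norm_num)).neg, ?_⟩, ?_, ?_⟩ h.symm
  · have e : Dd C A 0 (u * k) = -u := by
      have := Dd_mul (F := C) (G := C) (H := A) (p := 0 - 1) (q := 1) (f := k) (g := u)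
      rw [hu.cl, ← ek] at this
      simpa using this
    rw [tri_Dd_fromCols, tri_Dd_one, Dd_neg, e]
    simp only [neg_neg, sg_zero, one_smul, Matrix.one_mul, sub_self]
    exact fromCols_zero
  · have e : fromCols (1 : Mor A.toGr A.toGr) (-(u * k)) * extIn A C - 1 = 0 := by
      rw [extIn, fromCols_mul_fromRows]
      simp
    exact e ▸ Exact.zero
  · refine ⟨fromBlocks 0 0 0 (-k), isHom_fromBlocks hu hu IsHom.zero IsHom.zero IsHom.zero hk.neg, ?_⟩
    rw [tri_Dd_fromBlocks, Dd_zero, Dd_zero, Dd_zero, Dd_neg, ← ek]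
    have e : extIn A C * fromCols (1 : Mor A.toGr A.toGr) (-(u * k)) - 1 =
        fromBlocks 0 (-(u * k)) 0 (-1) := by
      rw [extIn, fromRows_mul_fromCols, ← fromBlocks_one, sub_eq_add_neg, fromBlocks_neg,
        fromBlocks_add]
      simp
    refine e.trans ?_
    simp

theorem Tri.he_of_contr_left (h : Tri A B C) (hA : Contr A) : HE B C := by
  exact h.rot'.he_of_contr_right (hA.shift 1)

end Crest.Agent.R175
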