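import Crest.Agent.R175.Lev

/-!
# R175: the zero set, van der Lek's theorem, reducible `K`.
-/

set_option autoImplicit false

namespace Crest.Agent.R175

open CoxeterSystem Crest.Agent.R61 Crest.GroupTheory

variable {S : Type} [Fintype S] [DecidableEq S] {M : CoxeterMatrix S}
  {n : ArtinGroup M → S → ℤ → ℝ} {z : S}

theorem Framed.mono {K K' : Finset S} (h : Framed M K) (hK : K' ⊆ K) : Framed M K' := by
  intro X hX
  obtain ⟨z, hz, h2⟩ := h X (hX.trans hK)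
  exact ⟨z, fun h => hz (hK h), fun s hs => h2 s (hK hs)⟩

theorem EData.left_AP (hE : EData n z) {X : Finset S} (hX : ∀ s ∈ X, s ≠ z ∧ aa M s z = 0)
    {x : ArtinGroup M} (hx : x ∈ AP M X) (g : ArtinGroup M) (i : S) (k : ℤ) :
    n (x * g) i k = n g i k := by
  refine AP_induction (P := fun x => ∀ g, n (x * g) i k = n g i k) (fun g => by rw [one_mul])
    ?_ ?_ hx g
  · intro x s _ hs ih g
    rw [mul_assoc, ih, hE.left s (hX s hs).1 (hX s hs).2]
  · intro x s _ hs ih g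
    rw [mul_assoc, ih, ← hE.left s (hX s hs).1 (hX s hs).2, mul_inv_cancel_left]

omit [Fintype S] [DecidableEq S] in
theorem zero_small (K : Finset S) (u : S → ℝ) {v : S → ℝ} (hv : ∀ j ∈ K, 0 < v j) :
    ∃ ε : ℝ, 0 < ε ∧ ∀ j ∈ K, ε * u j ≤ v j := by
  have h : ∀ j ∈ K, ∀ᶠ ε in nhdsWithin (0 : ℝ) (Set.Ioi 0), ε * u j ≤ v j := by
    intro j hj
    have hc : Continuous fun ε : ℝ => ε * u j := by fun_prop
    have := (hc.tendsto 0).eventually (ge_mem_nhds (show (0 : ℝ) * u j < v j by simpa using hv j hj))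
    exact this.filter_mono nhdsWithin_le_nhds
  obtain ⟨ε, h1, h2⟩ := (((Finset.eventually_all K).2 h).and self_mem_nhdsWithin).exists
  exact ⟨ε, h2, h1⟩

/-- Let `I = {j ∈ K | aa j z ≠ 0}`, `c` from `Irr.pathVec`.  For small `ε > 0`,
`Hyp n K 1 0 (ε c)` holds (for `j ∈ I` the right side is `≥ aa j z * n 1 z 0 > 0`) and
`NegS n 0 (ε c) = Zer n` on `K` (`NAx.exists_gap 0`, `zer_iff`). -/
theorem EData.cc_zer (hE : EData n z) {K : Finset S} (hz : z ∉ K) (hK : Irr M K)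
    (hne : ∃ j ∈ K, aa M j z ≠ 0) : CC K 1 (Zer n) := by
  classical
  obtain ⟨c, hc, hc2⟩ := hK.pathVec (I := K.filter fun j => aa M j z ≠ 0) (Finset.filter_subset _ _)
    (hne.imp fun j hj => Finset.mem_filter.2 hj)
  obtain ⟨ε₀, hε₀, hgap⟩ := hE.ax.exists_gap 0
  obtain ⟨ε, hε, h1⟩ := zero_small K (fun j => 2 * c j)
    (v := fun j => if aa M j z = 0 then ε₀ else min ε₀ (aa M j z * n 1 z 0)) fun j _ => by
      split_ifs with h
      · exact hε₀
      · exact lt_min hε₀ (mul_pos (lt_of_le_of_ne (aa_nonneg _ _) (Ne.symm h)) hE.one_pos)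
  have hd : dS 0 = 0 := rfl
  refine (hE.cl K 1 0 (fun j => ε * c j) fun j hj => Or.inr ?_).1.congr fun g i _ hi => ?_
  · unfold SubAt
    rw [hd]
    have a0 : ∀ k ∈ Kᶜ, 0 ≤ aa M j k * n 1 k 0 := fun k _ =>
      mul_nonneg (aa_nonneg _ _) (hE.ax.nonneg _ _ _)
    have e : ∑ k ∈ K, aa M j k * (ε * c k) = ε * ∑ k ∈ K, aa M j k * c k := by
      rw [Finset.mul_sum]
      exact Finset.sum_congr rfl fun k _ => by ring
    rw [e]
    by_cases h : aa M j z = 0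
    · have a1 := mul_le_mul_of_nonneg_left (hc2 j hj fun h' => (Finset.mem_filter.1 h').2 h) hε.le
      have a2 := Finset.sum_nonneg a0
      linarith
    · have a1 := h1 j hj
      rw [if_neg h] at a1
      have a2 := Finset.single_le_sum a0 (Finset.mem_compl.2 hz)
      have a3 : 0 ≤ ε * ∑ k ∈ K, aa M j k * c k := mul_nonneg hε.le
        (Finset.sum_nonneg fun k hk => mul_nonneg (aa_nonneg _ _) (hc k hk).le)
      have a4 := min_le_right ε₀ (aa M j z * n 1 z 0)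
      linarith
  · rw [zer_iff, NegS, hd]
    refine and_congr_right fun _ => ⟨fun h => le_antisymm (hgap g i 0 ?_) (hE.ax.nonneg _ _ _),
      fun h => ?_⟩
    · have a1 := h1 i hi
      have a2 : ε * (2 * c i) ≤ ε₀ := by
        split_ifs at a1
        · exact a1
        · exact a1.trans (min_le_left _ _)
      have a3 := mul_pos hε (hc i hi)
      linarith
    · rw [h]
      exact mul_pos hε (hc i hi)

open Classical in
/-- Strong induction on `K`.  If `aa s z = 0` on `K` take `x = g`.  Reducible `K`: `exists_decomp`,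
`exists_mul_of_mem_union`.  Otherwise `cc_zer` connects `(1, j)` to `(g, j)`; induction along the
path: for a step `(g, i) → (g, j)`, `i ≠ j`, `x⁻¹ g = a ∈ A_{K ∖ i}`, `Zer n a j` (`left_AP`), and the
induction hypothesis for `K.erase i` applies. -/
theorem EData.zero_set (hE : EData n z) (K : Finset S) (hz : z ∉ K) {g : ArtinGroup M}
    (hg : g ∈ AP M K) {j : S} (hj : j ∈ K) (h0 : Zer n g j) :
    ∃ x ∈ AP M (K.filter fun s => aa M s z = 0), x⁻¹ * g ∈ AP M (K.erase j) := by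
  induction K using Finset.strongInduction generalizing g j with
  | H K ih =>
  by_cases hall : ∀ s ∈ K, aa M s z = 0
  · exact ⟨g, by rwa [Finset.filter_true_of_mem hall], by simp⟩
  by_cases hK : Irr M K
  · push Not at hall
    have hc := hE.cc_zer hz hK hall 1 g j j (by simp) (by simpa using hg) hj hj
      (fun k => hE.one_ne j k fun e => hz (e ▸ hj)) h0
    have key : ∀ y, Conn K (Zer n) (1, j) y →
        ∃ x ∈ AP M (K.filter fun s => aa M s z = 0), x⁻¹ * y.1 ∈ AP M (K.erase y.2) := by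
      intro y hy
      induction hy with
      | refl => exact ⟨1, one_mem _, by simp⟩
      | @tail y y' _ hs ih' =>
        obtain ⟨x, hx, ha⟩ := ih'
        obtain ⟨g, i⟩ := y
        obtain ⟨g', j⟩ := y'
        obtain ⟨hi, hj, -, pz, h5⟩ := hs
        dsimp only at *
        rcases h5 with e | ⟨e, ha'⟩
        · subst e
          by_cases hij : i = j
          · exact ⟨x, hx, hij ▸ ha⟩
          obtain ⟨x', hx', h2⟩ := ih (K.erase i) (Finset.erase_ssubset hi)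
            (fun h => hz (Finset.mem_of_mem_erase h)) ha (Finset.mem_erase.2 ⟨Ne.symm hij, hj⟩)
            fun k => by
              rw [← hE.left_AP (fun s hs => ⟨fun e => hz (e ▸ (Finset.mem_filter.1 hs).1),
                (Finset.mem_filter.1 hs).2⟩) hx, mul_inv_cancel_left]
              exact pz k
          refine ⟨x * x', mul_mem hx
            (AP_mono (Finset.filter_subset_filter _ (Finset.erase_subset _ _)) hx'), ?_⟩
          rw [mul_inv_rev, mul_assoc]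
          exact AP_mono (J := (K.erase i).erase j)
            (Finset.erase_subset_erase j (Finset.erase_subset i K)) h2
        · subst e
          exact ⟨x, hx, art2_trans ha ha'⟩
    exact key (g, j) hc
  · obtain ⟨J₁, J₂, e, hd, n1, n2, h12⟩ := exists_decomp hK
    have key : ∀ J₁ J₂ : Finset S, K = J₁ ∪ J₂ → Disjoint J₁ J₂ → J₂.Nonempty →
        (∀ i ∈ J₁, ∀ j ∈ J₂, aa M i j = 0) → j ∈ J₁ →
        ∃ x ∈ AP M (K.filter fun s => aa M s z = 0), x⁻¹ * g ∈ AP M (K.erase j) := by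
      intro J₁ J₂ e hd n2 h12 hj1
      subst e
      obtain ⟨a, ha, b, hb, rfl⟩ := exists_mul_of_mem_union h12 hg
      have hj2 : j ∉ J₂ := Finset.disjoint_left.1 hd hj1
      have hss : J₁ ⊂ J₁ ∪ J₂ := by
        obtain ⟨k, hk⟩ := n2
        exact Finset.ssubset_iff_subset_ne.2 ⟨Finset.subset_union_left, fun e =>
          Finset.disjoint_right.1 hd hk (e ▸ Finset.mem_union_right _ hk)⟩
      obtain ⟨x, hx, h2⟩ := ih J₁ hss (fun h => hz (Finset.mem_union_left _ h)) ha hj1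
        ((hE.ax.vinv_Zer.of_mem hb hj2).1 h0)
      refine ⟨x, AP_mono (Finset.filter_subset_filter _ Finset.subset_union_left) hx, ?_⟩
      rw [← mul_assoc]
      exact mul_mem (AP_mono (Finset.erase_subset_erase _ Finset.subset_union_left) h2)
        (AP_mono (join_sub₂ hj2) hb)
    rcases Finset.mem_union.1 (e ▸ hj) with h | h
    · exact key J₁ J₂ e hd n2 h12 h
    · exact key J₂ J₁ (e.trans (Finset.union_comm _ _)) hd.symm n1
        (fun i hi j hj => by rw [aa_symm]; exact h12 j hj i hi) h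

/-- Induction on `Y`: if `j ∈ Y ∖ X`, `zero_set` for a frame of `X` gives `g = x a` with
`x ∈ A_{X ∩ Y}`, `a ∈ A_{Y ∖ j} ∩ A_X`. -/
theorem vdL_of_framed (hE : ∀ z : S, ∃ n : ArtinGroup M → S → ℤ → ℝ, EData n z) {K : Finset S}
    (hF : Framed M K) : VdL M K := by
  intro X hX Y
  obtain ⟨z, hz, h2⟩ := hF X hX
  obtain ⟨n, hE⟩ := hE z
  induction Y using Finset.strongInduction with
  | H Y ih =>
  intro hY g hgX hgY
  by_cases hYX : Y ⊆ X
  · rwa [Finset.inter_eq_right.2 hYX]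
  obtain ⟨j, hj, hjX⟩ := Finset.not_subset.1 hYX
  obtain ⟨x, hx, ha⟩ := hE.zero_set Y (fun h => hz (hY h)) hgY hj fun k => by
    rw [← mul_one g, hE.left_AP (fun s hs => ⟨fun e => hz (e ▸ hX hs), (h2 s (hX hs)).2 hs⟩) hgX]
    exact hE.one_ne j k fun e => hz (e ▸ hY hj)
  have hx' : x ∈ AP M (X ∩ Y) := AP_mono (fun s hs => Finset.mem_inter.2
    ⟨(h2 s (hY (Finset.mem_filter.1 hs).1)).1 (Finset.mem_filter.1 hs).2,
      (Finset.mem_filter.1 hs).1⟩) hx
  have h3 := ih (Y.erase j) (Finset.erase_ssubset hj) ((Finset.erase_subset _ _).trans hY) _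
    (mul_mem (inv_mem (AP_mono Finset.inter_subset_left hx')) hgX) ha
  rw [← mul_inv_cancel_left x g]
  exact mul_mem hx' (AP_mono (Finset.inter_subset_inter_left (Finset.erase_subset _ _)) h3)

/-- Write `g = g₁ g₂`, `X = (X ∩ K₁) ∪ (X ∩ K₂)` etc.  If `u₁ u₂ = y₁ y₂` with `u₁, y₁ ∈ A_{K₁}`,
`u₂, y₂ ∈ A_{K₂}` then `y₁⁻¹ u₁ = y₂ u₂⁻¹ ∈ A_∅`, so `u₁ = y₁`.  `h = h₁ h₂`, `Z = Z₁ ∪ Z₂`. -/
theorem claim_union {K₁ K₂ : Finset S} (hd : Disjoint K₁ K₂)
    (h0 : ∀ i ∈ K₁, ∀ j ∈ K₂, aa M i j = 0) (hv : VdL M (K₁ ∪ K₂)) (h1 : Claim M K₁)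
    (h2 : Claim M K₂) : Claim M (K₁ ∪ K₂) := by
  have uniq : ∀ {u₁ u₂ y₁ y₂ : ArtinGroup M}, u₁ ∈ AP M K₁ → u₂ ∈ AP M K₂ → y₁ ∈ AP M K₁ →
      y₂ ∈ AP M K₂ → u₁ * u₂ = y₁ * y₂ → u₁ = y₁ ∧ u₂ = y₂ := by
    intro u₁ u₂ y₁ y₂ a1 a2 b1 b2 e
    have e1 : y₁⁻¹ * u₁ = y₂ * u₂⁻¹ := by
      rw [inv_mul_eq_iff_eq_mul, ← mul_assoc, ← e, mul_inv_cancel_right]
    have h3 := hv K₁ Finset.subset_union_left K₂ Finset.subset_union_right (y₁⁻¹ * u₁)
      (mul_mem (inv_mem b1) a1) (e1 ▸ mul_mem b2 (inv_mem a2))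
    rw [Finset.disjoint_iff_inter_eq_empty.1 hd] at h3
    have e2 := (inv_mul_eq_one.1 (eq_one_of_mem_AP_empty h3)).symm
    exact ⟨e2, mul_left_cancel (e2 ▸ e)⟩
  have split : ∀ {u₁ u₂ : ArtinGroup M} {W : Finset S}, W ⊆ K₁ ∪ K₂ → u₁ ∈ AP M K₁ → u₂ ∈ AP M K₂ →
      (u₁ * u₂ ∈ AP M W ↔ u₁ ∈ AP M (W ∩ K₁) ∧ u₂ ∈ AP M (W ∩ K₂)) := by
    intro u₁ u₂ W hW a1 a2
    refine ⟨fun h => ?_, fun h => mul_mem (AP_mono Finset.inter_subset_left h.1)
      (AP_mono Finset.inter_subset_left h.2)⟩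
    rw [← Finset.inter_eq_left.2 hW, Finset.inter_union_distrib_left] at h
    obtain ⟨y₁, b1, y₂, b2, e⟩ := exists_mul_of_mem_union (fun i hi j hj =>
      h0 i (Finset.mem_inter.1 hi).2 j (Finset.mem_inter.1 hj).2) h
    obtain ⟨rfl, rfl⟩ := uniq a1 a2 (AP_mono Finset.inter_subset_right b1)
      (AP_mono Finset.inter_subset_right b2) e
    exact ⟨b1, b2⟩
  have conj : ∀ {a₁ a₂ x₁ x₂ : ArtinGroup M}, a₁ ∈ AP M K₁ → a₂ ∈ AP M K₂ → x₁ ∈ AP M K₁ →
      x₂ ∈ AP M K₂ → (a₁ * a₂)⁻¹ * (x₁ * x₂) * (a₁ * a₂) = (a₁⁻¹ * x₁ * a₁) * (a₂⁻¹ * x₂ * a₂) := by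
    intro a₁ a₂ x₁ x₂ a1 a2 b1 b2
    have c1 := (commute_AP h0 a1 b2).eq
    have c2 := (commute_AP h0 (mul_mem (mul_mem (inv_mem a1) b1) a1) (inv_mem a2)).eq
    calc (a₁ * a₂)⁻¹ * (x₁ * x₂) * (a₁ * a₂) = a₂⁻¹ * (a₁⁻¹ * x₁ * (x₂ * a₁)) * a₂ := by group
      _ = a₂⁻¹ * (a₁⁻¹ * x₁ * a₁) * (x₂ * a₂) := by rw [← c1]; group
      _ = _ := by rw [← c2]; group
  intro X hX Y hY g hg
  obtain ⟨g₁, g1, g₂, g2, rfl⟩ := exists_mul_of_mem_union h0 hg
  obtain ⟨h₁, m1, Z₁, z1, c1⟩ := h1 (X ∩ K₁) Finset.inter_subset_right (Y ∩ K₁)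
    Finset.inter_subset_right g₁ g1
  obtain ⟨h₂, m2, Z₂, z2, c2⟩ := h2 (X ∩ K₂) Finset.inter_subset_right (Y ∩ K₂)
    Finset.inter_subset_right g₂ g2
  have m1' := AP_mono Finset.inter_subset_right m1
  have m2' := AP_mono Finset.inter_subset_right m2
  have hZ : Z₁ ∪ Z₂ ⊆ Y := Finset.union_subset (z1.trans Finset.inter_subset_left)
    (z2.trans Finset.inter_subset_left)
  have z1' : Z₁ ⊆ K₁ := z1.trans Finset.inter_subset_right
  have z2' : Z₂ ⊆ K₂ := z2.trans Finset.inter_subset_right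
  have eZ1 : (Z₁ ∪ Z₂) ∩ K₁ = Z₁ := by
    rw [Finset.union_inter_distrib_right, Finset.inter_eq_left.2 z1',
      Finset.disjoint_iff_inter_eq_empty.1 (hd.symm.mono_left z2'), Finset.union_empty]
  have eZ2 : (Z₁ ∪ Z₂) ∩ K₂ = Z₂ := by
    rw [Finset.union_inter_distrib_right, Finset.inter_eq_left.2 z2',
      Finset.disjoint_iff_inter_eq_empty.1 (hd.mono_left z1'), Finset.empty_union]
  have hh : h₁ * h₂ ∈ AP M Y :=
    mul_mem (AP_mono Finset.inter_subset_left m1) (AP_mono Finset.inter_subset_left m2)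
  refine ⟨h₁ * h₂, hh, Z₁ ∪ Z₂, hZ, fun x => ?_⟩
  by_cases hx : x ∈ AP M (K₁ ∪ K₂)
  · obtain ⟨x₁, x1, x₂, x2, rfl⟩ := exists_mul_of_mem_union h0 hx
    have e : g₁ * g₂ * (h₁ * h₂) = g₁ * h₁ * (g₂ * h₂) := by
      rw [mul_assoc, ← mul_assoc g₂, ← (commute_AP h0 m1' g2).eq]
      group
    have k1 := mul_mem g1 m1'
    have k2 := mul_mem g2 m2'
    rw [e, conj g1 g2 x1 x2, conj k1 k2 x1 x2, split hX x1 x2,
      split hY (mul_mem (mul_mem (inv_mem g1) x1) g1) (mul_mem (mul_mem (inv_mem g2) x2) g2),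
      split (hZ.trans hY) (mul_mem (mul_mem (inv_mem k1) x1) k1)
        (mul_mem (mul_mem (inv_mem k2) x2) k2), eZ1, eZ2, ← c1, ← c2]
    tauto
  · refine ⟨fun h => absurd (AP_mono hX h.1) hx, fun h => absurd ?_ hx⟩
    have k := mul_mem hg (AP_mono hY hh)
    have := mul_mem (mul_mem k (AP_mono (hZ.trans hY) h)) (inv_mem k)
    convert this using 1
    group

end Crest.Agent.R175
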