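import Mathlib

/-!
# R175 (S0263): double quivers and the coefficient ring `Z`.  Owner: helper19.  DO NOT EDIT.

`Z Q = ℝ ⊕ ℝ^A ⊕ ℝ` is the commutative local ring with `ξ_a ξ_b = δ_{b, bar a} ω`.  Matrices over
`Z Q` that satisfy the support conditions `IsHom` (file `Obj`) are the morphisms between graded
projective modules over the zigzag algebra of `Q`.
-/

set_option autoImplicit false

namespace Crest.Agent.R175

/-- a finite double quiver without loops -/
structure Qv where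
  V : Type
  A : Type
  [fV : Fintype V]
  [dV : DecidableEq V]
  [fA : Fintype A]
  [dA : DecidableEq A]
  src : A → V
  tgt : A → V
  bar : A → A
  bar_bar : ∀ a, bar (bar a) = a
  src_bar : ∀ a, src (bar a) = tgt a
  loopless : ∀ a, src a ≠ tgt a

attribute [instance] Qv.fV Qv.dV Qv.fA Qv.dA

variable {Q : Qv}

@[simp] theorem Qv.bar_bar' (a : Q.A) : Q.bar (Q.bar a) = a := Q.bar_bar a
@[simp] theorem Qv.src_bar' (a : Q.A) : Q.src (Q.bar a) = Q.tgt a := Q.src_bar a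
@[simp] theorem Qv.tgt_bar (a : Q.A) : Q.tgt (Q.bar a) = Q.src a := by
  rw [← Q.src_bar, Q.bar_bar]

/-- `bar` as a permutation -/
def Qv.barE (Q : Qv) : Q.A ≃ Q.A := ⟨Q.bar, Q.bar, Q.bar_bar, Q.bar_bar⟩

theorem Qv.sum_bar {M : Type*} [AddCommMonoid M] (f : Q.A → M) :
    ∑ a, f (Q.bar a) = ∑ a, f a := Q.barE.sum_comp f

theorem Qv.bar_eq_iff {a b : Q.A} : Q.bar a = b ↔ a = Q.bar b :=
  ⟨fun h => by rw [← h, Q.bar_bar], fun h => by rw [h, Q.bar_bar]⟩

theorem Qv.bar_inj {a b : Q.A} : Q.bar a = Q.bar b ↔ a = b := by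
  rw [Qv.bar_eq_iff, Q.bar_bar]

/-- the coefficient ring -/
@[ext] structure Z (Q : Qv) where
  c0 : ℝ
  c1 : Q.A → ℝ
  c2 : ℝ

namespace Z

instance : Zero (Z Q) := ⟨⟨0, 0, 0⟩⟩
instance : One (Z Q) := ⟨⟨1, 0, 0⟩⟩
instance : Add (Z Q) := ⟨fun x y => ⟨x.c0 + y.c0, x.c1 + y.c1, x.c2 + y.c2⟩⟩
instance : Neg (Z Q) := ⟨fun x => ⟨-x.c0, -x.c1, -x.c2⟩⟩
instance : Sub (Z Q) := ⟨fun x y => ⟨x.c0 - y.c0, x.c1 - y.c1, x.c2 - y.c2⟩⟩
instance : SMul ℝ (Z Q) := ⟨fun r x => ⟨r * x.c0, fun a => r * x.c1 a, r * x.c2⟩⟩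
instance : SMul ℕ (Z Q) := ⟨fun r x => ⟨r • x.c0, r • x.c1, r • x.c2⟩⟩
instance : SMul ℤ (Z Q) := ⟨fun r x => ⟨r • x.c0, r • x.c1, r • x.c2⟩⟩
instance : Mul (Z Q) := ⟨fun x y => ⟨x.c0 * y.c0, fun a => x.c0 * y.c1 a + x.c1 a * y.c0,
  x.c0 * y.c2 + x.c2 * y.c0 + ∑ a, x.c1 (Q.bar a) * y.c1 a⟩⟩

@[simp] theorem zero_c0 : (0 : Z Q).c0 = 0 := rfl
@[simp] theorem zero_c1 (a : Q.A) : (0 : Z Q).c1 a = 0 := rfl
@[simp] theorem zero_c2 : (0 : Z Q).c2 = 0 := rfl
@[simp] theorem one_c0 : (1 : Z Q).c0 = 1 := rfl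
@[simp] theorem one_c1 (a : Q.A) : (1 : Z Q).c1 a = 0 := rfl
@[simp] theorem one_c2 : (1 : Z Q).c2 = 0 := rfl
@[simp] theorem add_c0 (x y : Z Q) : (x + y).c0 = x.c0 + y.c0 := rfl
@[simp] theorem add_c1 (x y : Z Q) (a : Q.A) : (x + y).c1 a = x.c1 a + y.c1 a := rfl
@[simp] theorem add_c2 (x y : Z Q) : (x + y).c2 = x.c2 + y.c2 := rfl
@[simp] theorem neg_c0 (x : Z Q) : (-x).c0 = -x.c0 := rfl
@[simp] theorem neg_c1 (x : Z Q) (a : Q.A) : (-x).c1 a = -x.c1 a := rfl
@[simp] theorem neg_c2 (x : Z Q) : (-x).c2 = -x.c2 := rfl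
@[simp] theorem sub_c0 (x y : Z Q) : (x - y).c0 = x.c0 - y.c0 := rfl
@[simp] theorem sub_c1 (x y : Z Q) (a : Q.A) : (x - y).c1 a = x.c1 a - y.c1 a := rfl
@[simp] theorem sub_c2 (x y : Z Q) : (x - y).c2 = x.c2 - y.c2 := rfl
@[simp] theorem smul_c0 (r : ℝ) (x : Z Q) : (r • x).c0 = r * x.c0 := rfl
@[simp] theorem smul_c1 (r : ℝ) (x : Z Q) (a : Q.A) : (r • x).c1 a = r * x.c1 a := rfl
@[simp] theorem smul_c2 (r : ℝ) (x : Z Q) : (r • x).c2 = r * x.c2 := rfl
@[simp] theorem mul_c0 (x y : Z Q) : (x * y).c0 = x.c0 * y.c0 := rfl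
@[simp] theorem mul_c1 (x y : Z Q) (a : Q.A) :
    (x * y).c1 a = x.c0 * y.c1 a + x.c1 a * y.c0 := rfl
@[simp] theorem mul_c2 (x y : Z Q) :
    (x * y).c2 = x.c0 * y.c2 + x.c2 * y.c0 + ∑ a, x.c1 (Q.bar a) * y.c1 a := rfl

/-- the coordinates -/
def toProd (x : Z Q) : ℝ × (Q.A → ℝ) × ℝ := (x.c0, x.c1, x.c2)

theorem toProd_injective : Function.Injective (toProd (Q := Q)) := fun x y h => by
  simp only [toProd, Prod.mk.injEq] at h
  exact Z.ext h.1 h.2.1 h.2.2

instance : AddCommGroup (Z Q) :=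
  toProd_injective.addCommGroup toProd rfl (fun _ _ => rfl) (fun _ => rfl) (fun _ _ => rfl)
    (fun _ _ => rfl) (fun _ _ => rfl)

theorem mul_comm' (x y : Z Q) : x * y = y * x := by
  ext a
  · simp [mul_comm]
  · simp; ring
  · simp only [mul_c2]
    rw [← Qv.sum_bar (fun a => y.c1 (Q.bar a) * x.c1 a)]
    simp only [Qv.bar_bar', mul_comm]; ring

instance : CommRing (Z Q) where
  mul_comm := mul_comm'
  left_distrib x y z := by
    ext a <;> simp [mul_add, Finset.sum_add_distrib] <;> ring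
  right_distrib x y z := by
    ext a <;> simp [add_mul, Finset.sum_add_distrib] <;> ring
  zero_mul x := by ext a <;> simp
  mul_zero x := by ext a <;> simp
  mul_assoc x y z := by
    ext a
    · simp [mul_assoc]
    · simp; ring
    · simp only [mul_c0, mul_c1, mul_c2, add_mul, mul_add, Finset.sum_add_distrib, Finset.mul_sum,
        Finset.sum_mul, mul_assoc]
      ring
  one_mul x := by ext a <;> simp
  mul_one x := by ext a <;> simp

instance : Module ℝ (Z Q) where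
  one_smul x := by ext a <;> simp
  mul_smul r s x := by ext a <;> simp [mul_assoc]
  smul_zero r := by ext a <;> simp
  smul_add r x y := by ext a <;> simp [mul_add]
  add_smul r s x := by ext a <;> simp [add_mul]
  zero_smul x := by ext a <;> simp

instance : Algebra ℝ (Z Q) :=
  Algebra.ofModule
    (fun r x y => by
      ext a
      · simp [mul_assoc]
      · simp; ring
      · simp [mul_add, Finset.mul_sum, mul_assoc])
    (fun r x y => by
      ext a
      · simp; ring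
      · simp; ring
      · simp only [mul_c2, smul_c0, smul_c1, smul_c2, mul_add, Finset.mul_sum]
        congr 1
        · ring
        · exact Finset.sum_congr rfl fun a _ => by ring)

/-- `c0` as a ring homomorphism -/
def c0Hom (Q : Qv) : Z Q →+* ℝ where
  toFun := c0
  map_one' := rfl
  map_mul' _ _ := rfl
  map_zero' := rfl
  map_add' _ _ := rfl

/-- `c0` as a linear map -/
def c0L (Q : Qv) : Z Q →ₗ[ℝ] ℝ where
  toFun := c0
  map_add' _ _ := rfl
  map_smul' _ _ := rfl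

/-- `c1 a` as a linear map -/
def c1L (a : Q.A) : Z Q →ₗ[ℝ] ℝ where
  toFun x := x.c1 a
  map_add' _ _ := rfl
  map_smul' _ _ := rfl

/-- `c2` as a linear map -/
def c2L (Q : Qv) : Z Q →ₗ[ℝ] ℝ where
  toFun := c2
  map_add' _ _ := rfl
  map_smul' _ _ := rfl

@[simp] theorem c0Hom_apply (x : Z Q) : c0Hom Q x = x.c0 := rfl
@[simp] theorem c0L_apply (x : Z Q) : c0L Q x = x.c0 := rfl
@[simp] theorem c1L_apply (a : Q.A) (x : Z Q) : c1L a x = x.c1 a := rfl
@[simp] theorem c2L_apply (x : Z Q) : c2L Q x = x.c2 := rfl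

@[simp] theorem sum_c0 {α : Type*} (s : Finset α) (f : α → Z Q) :
    (∑ i ∈ s, f i).c0 = ∑ i ∈ s, (f i).c0 := map_sum (c0L Q) f s
@[simp] theorem sum_c1 {α : Type*} (s : Finset α) (f : α → Z Q) (a : Q.A) :
    (∑ i ∈ s, f i).c1 a = ∑ i ∈ s, (f i).c1 a := map_sum (c1L a) f s
@[simp] theorem sum_c2 {α : Type*} (s : Finset α) (f : α → Z Q) :
    (∑ i ∈ s, f i).c2 = ∑ i ∈ s, (f i).c2 := map_sum (c2L Q) f s

/-- the scalar `r` -/
def sc (r : ℝ) : Z Q := ⟨r, 0, 0⟩
/-- the arrow `ξ_a` -/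
def xi (a : Q.A) : Z Q := ⟨0, Pi.single a 1, 0⟩
/-- the socle element `ω` -/
def om : Z Q := ⟨0, 0, 1⟩

@[simp] theorem sc_c0 (r : ℝ) : (sc r : Z Q).c0 = r := rfl
@[simp] theorem sc_c1 (r : ℝ) (a : Q.A) : (sc r : Z Q).c1 a = 0 := rfl
@[simp] theorem sc_c2 (r : ℝ) : (sc r : Z Q).c2 = 0 := rfl
@[simp] theorem xi_c0 (a : Q.A) : (xi a).c0 = 0 := rfl
@[simp] theorem xi_c1 (a b : Q.A) : (xi a).c1 b = if b = a then 1 else 0 := by
  simp [xi, Pi.single_apply]
@[simp] theorem xi_c2 (a : Q.A) : (xi a).c2 = 0 := rfl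
@[simp] theorem om_c0 : (om : Z Q).c0 = 0 := rfl
@[simp] theorem om_c1 (a : Q.A) : (om : Z Q).c1 a = 0 := rfl
@[simp] theorem om_c2 : (om : Z Q).c2 = 1 := rfl

theorem sc_eq_smul_one (r : ℝ) : (sc r : Z Q) = r • (1 : Z Q) := by ext a <;> simp
theorem sc_mul (r : ℝ) (x : Z Q) : sc r * x = r • x := by ext a <;> simp
@[simp] theorem sc_zero : (sc 0 : Z Q) = 0 := rfl
@[simp] theorem sc_one : (sc 1 : Z Q) = 1 := rfl

/-- `sc` as a ring homomorphism -/
def scHom (Q : Qv) : ℝ →+* Z Q where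
  toFun := sc
  map_one' := rfl
  map_mul' r s := by ext a <;> simp
  map_zero' := rfl
  map_add' r s := by ext a <;> simp

@[simp] theorem scHom_apply (r : ℝ) : scHom Q r = sc r := rfl

/-- the involution `ξ_a ↦ ξ_{bar a}` -/
def barZ (Q : Qv) : Z Q →+* Z Q where
  toFun x := ⟨x.c0, fun a => x.c1 (Q.bar a), x.c2⟩
  map_one' := by ext a <;> simp
  map_mul' x y := by
    ext a
    · simp
    · simp
    · simp only [mul_c2, Qv.bar_bar']
      rw [← Qv.sum_bar (fun a => x.c1 a * y.c1 (Q.bar a))]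
      simp
  map_zero' := by ext a <;> simp
  map_add' x y := by ext a <;> simp

@[simp] theorem barZ_c0 (x : Z Q) : (barZ Q x).c0 = x.c0 := rfl
@[simp] theorem barZ_c1 (x : Z Q) (a : Q.A) : (barZ Q x).c1 a = x.c1 (Q.bar a) := rfl
@[simp] theorem barZ_c2 (x : Z Q) : (barZ Q x).c2 = x.c2 := rfl

end Z

/-- the index set of the standard basis `1, ξ_a, ω` of `Z Q` -/
inductive Bs (Q : Qv) where
  | one : Bs Q
  | arr : Q.A → Bs Q
  | top : Bs Q

namespace Bs

/-- comparison with `Option (Option A)` -/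
def equivOpt (Q : Qv) : Bs Q ≃ Option (Option Q.A) where
  toFun
    | .one => none
    | .top => some none
    | .arr a => some (some a)
  invFun
    | none => .one
    | some none => .top
    | some (some a) => .arr a
  left_inv β := by cases β <;> rfl
  right_inv o := by rcases o with _ | _ | a <;> rfl

instance : Fintype (Bs Q) := Fintype.ofEquiv _ (equivOpt Q).symm
instance : DecidableEq (Bs Q) := (equivOpt Q).decidableEq

theorem sum_univ {M : Type*} [AddCommMonoid M] (f : Bs Q → M) :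
    ∑ β, f β = f .one + (∑ a, f (.arr a)) + f .top := by
  rw [← (equivOpt Q).symm.sum_comp, Fintype.sum_option, Fintype.sum_option]
  simp only [equivOpt, Equiv.coe_fn_symm_mk]
  abel

/-- the basis element -/
def el : Bs Q → Z Q
  | .one => 1
  | .arr a => Z.xi a
  | .top => Z.om

/-- the coefficient of a basis element -/
def co : Bs Q → Z Q → ℝ
  | .one, x => x.c0
  | .arr a, x => x.c1 a
  | .top, x => x.c2

/-- the dual basis element for the trace `c2` -/
def dual : Bs Q → Bs Q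
  | .one => .top
  | .arr a => .arr (Q.bar a)
  | .top => .one

/-- the degree -/
def dg : Bs Q → ℤ
  | .one => 0
  | .arr _ => 1
  | .top => 2

@[simp] theorem dual_dual (β : Bs Q) : β.dual.dual = β := by cases β <;> simp [dual]

theorem co_add (β : Bs Q) (x y : Z Q) : co β (x + y) = co β x + co β y := by cases β <;> rfl
theorem co_smul (β : Bs Q) (r : ℝ) (x : Z Q) : co β (r • x) = r * co β x := by cases β <;> rfl
@[simp] theorem co_zero (β : Bs Q) : co β (0 : Z Q) = 0 := by cases β <;> rfl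

/-- `co β` as a linear map -/
def coL (β : Bs Q) : Z Q →ₗ[ℝ] ℝ where
  toFun := co β
  map_add' := co_add β
  map_smul' := co_smul β

@[simp] theorem coL_apply (β : Bs Q) (x : Z Q) : coL β x = co β x := rfl

theorem co_sum {α : Type*} (β : Bs Q) (s : Finset α) (f : α → Z Q) :
    co β (∑ i ∈ s, f i) = ∑ i ∈ s, co β (f i) := map_sum (coL β) f s

theorem sum_co_smul_el (x : Z Q) : ∑ β : Bs Q, co β x • el β = x := by
  rw [sum_univ]
  ext a <;> simp [co, el]

theorem co_eq_tr (β : Bs Q) (x : Z Q) : co β x = (el β.dual * x).c2 := by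
  cases β <;> simp [co, el, dual, Qv.bar_inj]

theorem co_mul_el (β β' : Bs Q) (x : Z Q) :
    co β' (x * el β) = co β.dual (el β'.dual * x) := by
  rw [co_eq_tr, co_eq_tr, dual_dual]
  congr 1; ring

theorem co_el (β β' : Bs Q) : co β' (el β) = if β' = β then 1 else 0 := by
  cases β <;> cases β' <;> simp [co, el]

end Bs

end Crest.Agent.R175
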